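import Crest.Agent.R68.Ent2A

/-! The H-theorem.  With `ℓ = ell ε Λ`, `A = F F_*`, `A' = F' F'_*`, symmetrisation (`measurePreserving_prepost`, `swapPart`) gives
`∫ ℓ S = -¼ ∫ |a| (A' - A)(ℓ' + ℓ'_* - ℓ - ℓ_*)`.  Put `Ã = (F+εM)(F_*+εM_*)`, `e(z) = (log(z/M+ε) - Λ)_+`.  As `M M_* = M' M'_*`,
`ℓ'+ℓ'_*-ℓ-ℓ_* = log(Ã'/Ã) - e' - e'_* + e + e_*`, so
`(A'-A)(…) ≥ (A'-A) log(Ã'/Ã) - A'(e'+e'_*) - A(e+e_*)` and `(A'-A) log(Ã'/Ã) ≥ -(Ã-A) - (Ã'-A')` (if `A' > A` and `Ã' < Ã` then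
`A' log(Ã/Ã') ≤ Ã - Ã' ≤ Ã - A`).  The error terms are integrable (`Major.m2`: `e ≤ log⁺F + ‖v‖²/2 + C` and they tend to `0` as `Λ → ∞`, resp. `ε → 0`).
Let `Λ → ∞` (dominated convergence), then `ε = 1/(k+1) → 0` with Fatou: `(A'-A) log(Ã'/Ã) → pairDissipation A' A` in `[0,∞]`;
`bet ε Λ v z + M → z log(z/M) - z + M`, dominated at time `0` (or monotone; if `relEntropy F0 = ⊤` nothing is to be proved, but it is finite by `Good.mee`), Fatou at time `t`
(`bet ε ⊤ v z + M + ε M log ε - εM = (z+εM) log((z+εM)/M) - (z+εM) + M ≥ 0`). -/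

set_option autoImplicit false

open MeasureTheory Set Filter Topology Crest.AnalysisR.VecCalc3 Crest.AnalysisR.PDE.Boltzmann
open scoped ENNReal NNReal

namespace Crest.Agent.R68

namespace Ent2

/-- phase space-time -/
abbrev P3 : Type := ℝ × R3 × R3
/-- collision configurations -/
abbrev ZZ : Type := P3 × R3 × R3

noncomputable def nn (t : ℝ) : Measure P3 := volume.restrict (Ioo 0 t ×ˢ (cell ×ˢ (univ : Set R3)))
noncomputable def rho : Measure (R3 × R3) := (volume : Measure R3).prod sphereMeasure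
instance (t : ℝ) : SFinite (nn t) := by unfold nn; infer_instance
instance : SFinite rho := by unfold rho; infer_instance
noncomputable def mu (t : ℝ) : Measure ZZ := (nn t).prod rho

noncomputable def aa (z : ZZ) : ℝ := |inner ℝ (z.1.2.2 - z.2.1) z.2.2|
def p2 (z : ZZ) : P3 := (z.1.1, z.1.2.1, z.2.1)
noncomputable def p3 (z : ZZ) : P3 := (z.1.1, z.1.2.1, postVel z.1.2.2 z.2.1 z.2.2)
noncomputable def p4 (z : ZZ) : P3 := (z.1.1, z.1.2.1, postVelStar z.1.2.2 z.2.1 z.2.2)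

@[fun_prop] theorem measurable_aa : Measurable aa := by unfold aa; fun_prop
@[fun_prop] theorem measurable_p2 : Measurable p2 := by unfold p2; fun_prop
@[fun_prop] theorem measurable_p3 : Measurable p3 := by unfold p3 postVel; fun_prop
@[fun_prop] theorem measurable_p4 : Measurable p4 := by unfold p4 postVelStar; fun_prop
theorem aa_nonneg (z : ZZ) : 0 ≤ aa z := abs_nonneg _

variable {t : ℝ}

theorem nn_eq (t : ℝ) :
    nn t = (volume.restrict (Ioo 0 t)).prod (volume.restrict (cell ×ˢ (univ : Set R3))) := by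
  rw [Measure.prod_restrict]; rfl

theorem cell_eq : volume.restrict (cell ×ˢ (univ : Set R3)) =
    (volume.restrict cell).prod (volume : Measure R3) := by
  rw [Measure.volume_eq_prod, ← Measure.prod_restrict, Measure.restrict_univ]

theorem mp_lift {T : R3 × R3 × R3 → R3 × R3 × R3} (hT : MeasurePreserving T
    ((volume : Measure R3).prod rho) ((volume : Measure R3).prod rho)) :
    MeasurePreserving (fun z : ZZ => ((z.1.1, z.1.2.1, (T (z.1.2.2, z.2)).1), (T (z.1.2.2, z.2)).2))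
      (mu t) (mu t) := by
  have h1 := measurePreserving_prodAssoc (volume.restrict (Ioo 0 t)) (volume.restrict cell)
    (volume : Measure R3)
  have h2 := measurePreserving_prodAssoc ((volume.restrict (Ioo 0 t)).prod (volume.restrict cell))
    (volume : Measure R3) rho
  unfold mu
  rw [nn_eq, cell_eq]
  exact (h1.prod (MeasurePreserving.id rho)).comp ((h2.symm _).comp
    (((MeasurePreserving.id _).prod hT).comp (h2.comp ((h1.symm _).prod (MeasurePreserving.id rho)))))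

theorem mp_P : MeasurePreserving (fun z : ZZ => (p3 z, (p4 z).2.2, z.2.2)) (mu t) (mu t) :=
  mp_lift measurePreserving_prepost

theorem mp_S : MeasurePreserving (fun z : ZZ => (p2 z, z.1.2.2, z.2.2)) (mu t) (mu t) :=
  mp_lift measurePreserving_swapPart

theorem ae_w : ∀ᵐ z ∂mu t, ‖z.2.2‖ = 1 :=
  Measure.quasiMeasurePreserving_snd.ae (Measure.quasiMeasurePreserving_snd.ae ae_sphere)

theorem ae_nn : ∀ᵐ p ∂nn t, p.1 ∈ Ioo 0 t :=
  (ae_restrict_mem (measurableSet_Ioo.prod (measurableSet_cell.prod MeasurableSet.univ))).mono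
    fun _ h => h.1

theorem ae1 {q : P3 → Prop} (h : ∀ᵐ p ∂nn t, q p) : ∀ᵐ z ∂mu t, q z.1 :=
  Measure.quasiMeasurePreserving_fst.ae h

theorem ae2 {q : P3 → Prop} (h : ∀ᵐ p ∂nn t, q p) : ∀ᵐ z ∂mu t, q (p2 z) :=
  mp_S.quasiMeasurePreserving.ae (ae1 h)

/-- a collision integrand -/
noncomputable def ci (Ψ : P3 → P3 → P3 → P3 → ℝ) (z : ZZ) : ℝ := aa z * Ψ z.1 (p2 z) (p3 z) (p4 z)

theorem mp_int {T : ZZ → ZZ} (hT : MeasurePreserving T (mu t) (mu t)) {g g' : ZZ → ℝ}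
    (hi : Integrable g (mu t)) (e : (fun z => g (T z)) =ᵐ[mu t] g') :
    Integrable g' (mu t) ∧ ∫ z, g' z ∂mu t = ∫ z, g z ∂mu t := by
  refine ⟨(hT.integrable_comp_of_integrable hi).congr e, ?_⟩
  rw [← integral_congr_ae e, ← integral_map hT.measurable.aemeasurable (by rw [hT.map_eq]; exact hi.1),
    hT.map_eq]

theorem symP {Ψ : P3 → P3 → P3 → P3 → ℝ} (hi : Integrable (ci Ψ) (mu t)) :
    Integrable (ci fun a b c d => Ψ c d a b) (mu t) ∧
      ∫ z, ci (fun a b c d => Ψ c d a b) z ∂mu t = ∫ z, ci Ψ z ∂mu t := by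
  refine mp_int mp_P hi (ae_w.mono fun z hz => ?_)
  obtain ⟨h1, h2, h3⟩ := post_post z.1.2.2 z.2.1 z.2.2 hz
  simp only [ci, aa, p2, p3, p4, h1, h2, h3, abs_neg]

theorem symS {Ψ : P3 → P3 → P3 → P3 → ℝ} (hi : Integrable (ci Ψ) (mu t)) :
    Integrable (ci fun a b c d => Ψ b a d c) (mu t) ∧
      ∫ z, ci (fun a b c d => Ψ b a d c) z ∂mu t = ∫ z, ci Ψ z ∂mu t := by
  refine mp_int mp_S hi (Eventually.of_forall fun z => ?_)
  have h : |inner ℝ (z.2.1 - z.1.2.2) z.2.2| = |inner ℝ (z.1.2.2 - z.2.1) z.2.2| := by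
    rw [← neg_sub, inner_neg_left, abs_neg]
  simp only [ci, aa, p2, p3, p4, h, post_swap z.1.2.2, ← post_swap z.2.1]

theorem lint_mu {Φ : ZZ → ℝ≥0∞} (h : Measurable Φ) :
    ∫⁻ z, Φ z ∂mu t = ∫⁻ p, ∫⁻ vs, ∫⁻ w, Φ (p, vs, w) ∂sphereMeasure ∂volume ∂nn t := by
  rw [mu, lintegral_prod _ h.aemeasurable]
  exact lintegral_congr fun p => lintegral_prod (fun q : R3 × R3 => Φ (p, q))
    (h.comp measurable_prodMk_left).aemeasurable

theorem intg {g1 g2 : P3 → ℝ} {G1 G2 : P3 → ℝ≥0∞} (m1 : Measurable g1) (m2 : Measurable g2)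
    (M1 : Measurable G1) (M2 : Measurable G2) (h1 : ∀ᵐ p ∂nn t, ‖g1 p‖ₑ ≤ G1 p)
    (h2 : ∀ᵐ p ∂nn t, ‖g2 p‖ₑ ≤ G2 p)
    (hf : ∫⁻ p, G1 p * nu (fun u => G2 (p.1, p.2.1, u)) p.2.2 ∂nn t < ⊤) :
    Integrable (ci fun a b _ _ => g1 a * g2 b) (mu t) := by
  refine ⟨Measurable.aestronglyMeasurable (by unfold ci; fun_prop), lt_of_le_of_lt ?_ hf⟩
  have e : ∫⁻ z, ENNReal.ofReal (aa z) * (G1 z.1 * G2 (p2 z)) ∂mu t =
      ∫⁻ p, G1 p * nu (fun u => G2 (p.1, p.2.1, u)) p.2.2 ∂nn t := by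
    rw [lint_mu (by fun_prop)]
    refine lintegral_congr fun p => ?_
    rw [nu, ← lintegral_const_mul _ (by fun_prop)]
    refine lintegral_congr fun vs => ?_
    simp only [aa, p2]
    rw [lintegral_mul_const _ (by fun_prop), sphere_abs_inner, mul_left_comm]
  rw [← e]
  refine lintegral_mono_ae ?_
  filter_upwards [ae1 h1, ae2 h2] with z a1 a2
  rw [ci, enorm_mul, enorm_mul, Real.enorm_eq_ofReal (aa_nonneg z)]
  exact mul_le_mul' le_rfl (mul_le_mul' a1 a2)

theorem maj_bound {f : ℝ} (hf : 0 ≤ f) {m : ℝ≥0∞} (h : ENNReal.ofReal f ≤ m) (v : R3) :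
    ‖f * (1 + EE (maxwellian v) f)‖ₑ ≤ 11 * (m * (pw 2 v * (1 + lp m))) := by
  have h0 := EE_nonneg (mw_pos v) hf
  have a1 := EE_le (mw_pos v) (mw_le_one v) hf
  have a2 := neg_log_mw v
  have a3 := le_max_right (Real.log f) 0
  have a4 : 1 + EE (maxwellian v) f ≤ 11 * ((1 + ‖v‖) ^ 2 * (1 + max (Real.log f) 0)) := by
    nlinarith [norm_nonneg v, sq_nonneg ‖v‖, mul_nonneg a3 (norm_nonneg v),
      mul_nonneg a3 (sq_nonneg ‖v‖)]
  rcases eq_or_ne m ⊤ with rfl | hm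
  · rw [ENNReal.top_mul (mul_ne_zero (by
      unfold pw; exact (ENNReal.ofReal_pos.2 (by positivity)).ne') (by simp)),
      ENNReal.mul_top (by norm_num)]
    exact le_top
  rcases hf.eq_or_lt with rfl | hf'
  · simp
  have a5 : ENNReal.ofReal (max (Real.log f) 0) ≤ lp m := by
    rw [ENNReal.ofReal_max, ENNReal.ofReal_zero, max_eq_left zero_le]
    exact ENNReal.ofReal_le_ofReal (Real.log_le_log hf' ((ENNReal.ofReal_le_iff_le_toReal hm).1 h))
  rw [Real.enorm_eq_ofReal (by positivity), ENNReal.ofReal_mul hf, mul_left_comm]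
  refine mul_le_mul' h ((ENNReal.ofReal_le_ofReal a4).trans ?_)
  rw [ENNReal.ofReal_mul (by norm_num), ENNReal.ofReal_mul (by positivity),
    ENNReal.ofReal_add zero_le_one a3, ENNReal.ofReal_one, ENNReal.ofReal_ofNat]
  exact mul_le_mul' le_rfl (mul_le_mul' le_rfl (add_le_add le_rfl a5))

variable {F0 : R3 → R3 → ℝ} {T : ℝ} {F : ℝ → R3 → R3 → ℝ} {𝓜 : Den}

/-- uncurried density -/
def ff (F : ℝ → R3 → R3 → ℝ) (p : P3) : ℝ := F p.1 p.2.1 p.2.2
/-- the Maxwellian -/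
noncomputable def mm (p : P3) : ℝ := maxwellian p.2.2

theorem measurable_mm : Measurable mm := measurable_mw.comp measurable_snd.snd

theorem ae_le (h : Good F0 T F 𝓜) (ht : t ≤ T) :
    ∀ᵐ p ∂nn t, 0 ≤ ff F p ∧ ENNReal.ofReal (ff F p) ≤ 𝓜 p.1 p.2.1 p.2.2 := by
  refine (ae_nn.mono fun p hp => h.nonneg _ _ _ hp.1.le).and ?_
  rw [nn_eq]
  refine (Measure.ae_prod_iff_ae_ae (measurableSet_le h.meas.ennreal_ofReal h.major.meas)).2 ?_
  filter_upwards [ae_restrict_mem measurableSet_Ioo] with s hs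
  exact ae_restrict_of_ae (h.le s ⟨hs.1.le, hs.2.le.trans ht⟩)

theorem one_le_pw (k : ℕ) (v : R3) : 1 ≤ pw k v :=
  ENNReal.one_le_ofReal.2 (one_le_pow₀ (by linarith [norm_nonneg v]))

theorem int_K1 (h : Good F0 T F 𝓜) (ht : t ≤ T) :
    Integrable (ci fun a b _ _ => ff F a * (1 + EE (mm a) (ff F a)) * ff F b) (mu t) := by
  have hF : Measurable (ff F) := h.meas
  have hM : Measurable fun p : P3 => 𝓜 p.1 p.2.1 p.2.2 := h.major.meas
  have hp : Measurable fun p : P3 => pw 2 p.2.2 := (measurable_pw 2).comp measurable_snd.snd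
  have := measurable_mm
  refine intg (G1 := fun p => 11 * (𝓜 p.1 p.2.1 p.2.2 * (pw 2 p.2.2 * (1 + lp (𝓜 p.1 p.2.1 p.2.2)))))
    (G2 := fun p => 𝓜 p.1 p.2.1 p.2.2 * pw 2 p.2.2) (by unfold EE; fun_prop) hF
    ((hM.mul (hp.mul (hM.ennreal_toReal.log.ennreal_ofReal.const_add 1))).const_mul _) (hM.mul hp)
    ((ae_le h ht).mono fun p hp => maj_bound hp.1 hp.2 _) ((ae_le h ht).mono fun p hp => ?_) ?_
  · rw [Real.enorm_eq_ofReal hp.1]
    exact hp.2.trans (le_mul_of_one_le_right' (one_le_pw _ _))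
  · simp only [mul_assoc (11 : ℝ≥0∞)]
    rw [lintegral_const_mul' _ _ (by norm_num)]
    refine ENNReal.mul_lt_top (by norm_num) (lt_of_le_of_lt ?_ (h.major.m2 2))
    exact lintegral_mono_set (prod_mono (Ioo_subset_Ioo le_rfl ht) le_rfl)

theorem MM_fin : ∫⁻ v, MM v * pw 1 v < ⊤ := by
  refine lt_of_eq_of_lt (lintegral_congr fun v => ?_) integrable_mw.2
  rw [Real.enorm_eq_ofReal (by have := mw_pos v; positivity), ENNReal.ofReal_mul (by positivity),
    mul_comm, MM, pw, pow_one]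

theorem int_K2 (h : Good F0 T F 𝓜) (ht : t ≤ T) :
    Integrable (ci fun a b _ _ => (ff F a + mm a) * mm b) (mu t) := by
  have hF : Measurable (ff F) := h.meas
  have hM : Measurable fun p : P3 => 𝓜 p.1 p.2.1 p.2.2 := h.major.meas
  have hM' : Measurable fun p : P3 => MM p.2.2 := measurable_MM.comp measurable_snd.snd
  have hp : Measurable fun p : P3 => pw 1 p.2.2 := (measurable_pw 1).comp measurable_snd.snd
  refine intg (G1 := fun p => 𝓜 p.1 p.2.1 p.2.2 + MM p.2.2) (G2 := fun p => MM p.2.2)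
    (hF.add measurable_mm) measurable_mm (hM.add hM') hM'
    ((ae_le h ht).mono fun p hp => ?_)
    (Eventually.of_forall fun p => (Real.enorm_eq_ofReal (mw_pos _).le).le) ?_
  · rw [mm, Real.enorm_eq_ofReal (add_nonneg hp.1 (mw_pos _).le),
      ENNReal.ofReal_add hp.1 (mw_pos _).le]
    exact add_le_add hp.2 le_rfl
  obtain ⟨C, hC, hC'⟩ := h.major.m1
  have hq : Measurable fun p : P3 => (𝓜 p.1 p.2.1 p.2.2 + MM p.2.2) * pw 1 p.2.2 :=
    (hM.add hM').mul hp
  have h1 : ∫⁻ p, (𝓜 p.1 p.2.1 p.2.2 + MM p.2.2) * pw 1 p.2.2 ∂nn t ≤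
      ∫⁻ _ in Ioo 0 t, (C + ∫⁻ v, MM v * pw 1 v) := by
    rw [nn_eq, lintegral_prod _ hq.aemeasurable]
    refine setLIntegral_mono' measurableSet_Ioo fun s hs => ?_
    simp only [add_mul]
    rw [lintegral_add_right _ (by
      exact (measurable_MM.comp measurable_snd).mul ((measurable_pw 1).comp measurable_snd))]
    refine add_le_add (le_trans (lintegral_mono fun q => mul_le_mul' le_rfl (le_add_right ?_))
      (hC' s ⟨hs.1.le, hs.2.le.trans ht⟩)) (le_of_eq ?_)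
    · exact ENNReal.ofReal_le_ofReal (pow_le_pow_right₀ (by linarith [norm_nonneg q.2]) one_le_two)
    · rw [cell_eq, lintegral_prod _ (by
        exact ((measurable_MM.comp measurable_snd).mul
          ((measurable_pw 1).comp measurable_snd)).aemeasurable)]
      simp [volume_cell]
  have h2 : ∀ p : P3, (𝓜 p.1 p.2.1 p.2.2 + MM p.2.2) * nu MM p.2.2 ≤
      (7 * ∫⁻ v, MM v * pw 1 v) * ((𝓜 p.1 p.2.1 p.2.2 + MM p.2.2) * pw 1 p.2.2) := fun p => by
    refine (mul_le_mul' le_rfl (nu_le_pw MM p.2.2)).trans_eq ?_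
    rw [pw, pow_one]
    ring
  refine (lintegral_mono h2).trans_lt ?_
  rw [lintegral_const_mul _ hq]
  refine ENNReal.mul_lt_top (ENNReal.mul_lt_top (by norm_num) MM_fin) (h1.trans_lt ?_)
  rw [setLIntegral_const]
  exact ENNReal.mul_lt_top (ENNReal.add_lt_top.2 ⟨hC, MM_fin⟩) (by simp)

theorem ae_nonneg (h : Good F0 T F 𝓜) : ∀ᵐ z ∂mu t,
    0 ≤ ff F z.1 ∧ 0 ≤ ff F (p2 z) ∧ 0 ≤ ff F (p3 z) ∧ 0 ≤ ff F (p4 z) :=
  (ae1 ae_nn).mono fun _ hz => ⟨h.nonneg _ _ _ hz.1.le, h.nonneg _ _ _ hz.1.le,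
    h.nonneg _ _ _ hz.1.le, h.nonneg _ _ _ hz.1.le⟩

theorem int_A (h : Good F0 T F 𝓜) (ht : t ≤ T) :
    Integrable (ci fun a b _ _ => ff F a * ff F b) (mu t) := by
  have hF : Measurable (ff F) := h.meas
  refine (int_K1 h ht).mono' (Measurable.aestronglyMeasurable (by unfold ci; fun_prop)) ?_
  filter_upwards [ae_nonneg h] with z ⟨h1, h2, _, _⟩
  have := aa_nonneg z
  have h3 := EE_nonneg (mw_pos z.1.2.2) h1
  rw [ci, ci, Real.norm_of_nonneg (by positivity)]
  gcongr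
  exact le_mul_of_one_le_right h1 (le_add_of_nonneg_right h3)

theorem toReal_eq {g : R3 × R3 → ℝ} (hg : Measurable g) (h0 : ∀ q, 0 ≤ g q) :
    (∫⁻ vs, ∫⁻ w, ENNReal.ofReal (g (vs, w)) ∂sphereMeasure).toReal = ∫ q, g q ∂rho := by
  rw [integral_eq_lintegral_of_nonneg_ae (Eventually.of_forall h0) hg.aestronglyMeasurable, rho,
    lintegral_prod _ hg.ennreal_ofReal.aemeasurable]

theorem src_eq (h : Good F0 T F 𝓜) (ht : t ≤ T) (k : ℕ) :
    Integrable (ci fun a b c d => Dk k (mm a) (mm b) (mm c) (mm d) (ff F a) (ff F b) (ff F c) (ff F d))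
      (mu t) ∧
    ∫ z, ci (fun a b c d => Dk k (mm a) (mm b) (mm c) (mm d) (ff F a) (ff F b) (ff F c) (ff F d)) z
      ∂mu t = -4 * ∫ p, lk k (mm p) (ff F p) * Src F p.1 p.2.1 p.2.2 ∂nn t := by
  have hF : Measurable (ff F) := h.meas
  have hm := measurable_mm
  have hl : Measurable fun p => lk k (mm p) (ff F p) := by unfold lk; fun_prop
  have iA := int_A h ht
  have iA' := (symP iA).1
  have i1 : Integrable (ci fun a b c d => lk k (mm a) (ff F a) * (ff F c * ff F d - ff F a * ff F b))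
      (mu t) := by
    refine ((iA'.sub iA).bdd_mul (f := fun z : ZZ => lk k (mm z.1) (ff F z.1))
      (hl.comp measurable_fst).aestronglyMeasurable
      ((ae_nonneg h).mono fun z hz => abs_lk (mw_pos _) hz.1)).congr
      (Eventually.of_forall fun z => ?_)
    simp only [ci, Pi.sub_apply]
    ring
  have e1 : ∫ z, ci (fun a b c d => lk k (mm a) (ff F a) * (ff F c * ff F d - ff F a * ff F b)) z ∂mu t
      = ∫ p, lk k (mm p) (ff F p) * Src F p.1 p.2.1 p.2.2 ∂nn t := by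
    rw [mu, integral_prod _ i1]
    refine integral_congr_ae ?_
    filter_upwards [iA.prod_right_ae, iA'.prod_right_ae, ae_nn] with p a1 a2 hp
    have b1 := toReal_eq (g := fun q => aa (p, q) * ff F p * ff F (p2 (p, q))) (by fun_prop)
      fun q => mul_nonneg (mul_nonneg (aa_nonneg _) (h.nonneg _ _ _ hp.1.le)) (h.nonneg _ _ _ hp.1.le)
    have b2 := toReal_eq (g := fun q => aa (p, q) * ff F (p3 (p, q)) * ff F (p4 (p, q))) (by fun_prop)
      fun q => mul_nonneg (mul_nonneg (aa_nonneg _) (h.nonneg _ _ _ hp.1.le)) (h.nonneg _ _ _ hp.1.le)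
    have b3 : Src F p.1 p.2.1 p.2.2 = _ - _ := congrArg₂ (· - ·) b2 b1
    simp only [ci, ← mul_assoc] at a1 a2
    rw [b3, ← integral_sub a2 a1, ← integral_const_mul]
    congr 1
    funext q
    simp only [ci]
    ring
  obtain ⟨i2, e2⟩ := symS i1
  obtain ⟨i3, e3⟩ := symP i1
  obtain ⟨i4, e4⟩ := symP i2
  have i5 := (((i1.add i2).add i3).add i4).neg
  have e5 := integral_add' ((i1.add i2).add i3) i4
  rw [integral_add' (i1.add i2) i3, integral_add' i1 i2, e4, e3, e2, e1, ← neg_inj,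
    ← integral_neg] at e5
  refine ⟨i5.congr (Eventually.of_forall fun z => ?_), Eq.trans (Eq.trans ?_ e5) (by ring)⟩
  · simp only [ci, Dk, Pi.add_apply, Pi.neg_apply]
    ring
  · congr 1
    funext z
    simp only [ci, Dk, Pi.add_apply]
    ring

theorem diss_eq (h : Good F0 T F 𝓜) :
    (Measurable fun z : ZZ => ENNReal.ofReal (aa z) *
      pairDissipation (ff F (p3 z) * ff F (p4 z)) (ff F z.1 * ff F (p2 z))) ∧
    ∫⁻ s in Icc 0 t, dissipation (F s) = 4⁻¹ * ∫⁻ z, ENNReal.ofReal (aa z) *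
      pairDissipation (ff F (p3 z) * ff F (p4 z)) (ff F z.1 * ff F (p2 z)) ∂mu t := by
  have hF : Measurable (ff F) := h.meas
  have hd : Measurable fun q : ℝ × ℝ => pairDissipation q.1 q.2 :=
    Measurable.ite ((measurableSet_eq_fun measurable_fst measurable_const).inter
      (measurableSet_eq_fun measurable_snd measurable_const)) measurable_const
      (Measurable.ite ((measurableSet_lt measurable_const measurable_fst).inter
        (measurableSet_lt measurable_const measurable_snd)) (by fun_prop) measurable_const)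
  have hm : Measurable fun z : ZZ => ENNReal.ofReal (aa z) *
      pairDissipation (ff F (p3 z) * ff F (p4 z)) (ff F z.1 * ff F (p2 z)) :=
    measurable_aa.ennreal_ofReal.mul (hd.comp (f := fun z : ZZ =>
      (ff F (p3 z) * ff F (p4 z), ff F z.1 * ff F (p2 z))) (by fun_prop))
  refine ⟨hm, ?_⟩
  rw [lint_mu hm, nn_eq, lintegral_prod _ (by
    exact Measurable.aemeasurable ((hm.comp (f := fun y : (P3 × R3) × R3 => (y.1.1, y.1.2, y.2))
      (by fun_prop)).lintegral_prod_right'.lintegral_prod_right')),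
    ← lintegral_const_mul' _ _ (by simp), setLIntegral_congr Ioo_ae_eq_Icc]
  rfl

theorem fatou (h : Good F0 T F 𝓜) (ht : t ≤ T) {u : ℕ → ℝ} {d : ℝ} (hu : Tendsto u atTop (𝓝 d))
    (hle : ∀ k, -u k ≤ ∫ p, lk k (mm p) (ff F p) * Src F p.1 p.2.1 p.2.2 ∂nn t) :
    0 ≤ d ∧ ∫⁻ s in Icc 0 t, dissipation (F s) ≤ ENNReal.ofReal d := by
  have hF : Measurable (ff F) := h.meas
  have hm := measurable_mm
  have i1 : Integrable (ci fun a b _ _ => KK (mm a) (mm b) (ff F a) (ff F b)) (mu t) :=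
    ((int_K1 h ht).add (int_K2 h ht)).congr (Eventually.of_forall fun z => by
      simp only [ci, KK, Pi.add_apply]; ring)
  have i2 := (symS i1).1
  set G : ZZ → ℝ := fun z => KK (mm z.1) (mm (p2 z)) (ff F z.1) (ff F (p2 z)) +
    KK (mm (p2 z)) (mm z.1) (ff F (p2 z)) (ff F z.1) +
    KK (mm (p3 z)) (mm (p4 z)) (ff F (p3 z)) (ff F (p4 z)) +
    KK (mm (p4 z)) (mm (p3 z)) (ff F (p4 z)) (ff F (p3 z)) with hG
  have iG : Integrable (fun z => aa z * G z) (mu t) :=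
    (((i1.add i2).add (symP i1).1).add (symP i2).1).congr (Eventually.of_forall fun z => by
      simp only [ci, hG, Pi.add_apply]; ring)
  have G0 : ∀ᵐ z ∂mu t, 0 ≤ G z := (ae_nonneg h).mono fun z ⟨h1, h2, h3, h4⟩ =>
    add_nonneg (add_nonneg (add_nonneg (KK_nonneg (mw_pos _) (mw_pos _) h1 h2)
      (KK_nonneg (mw_pos _) (mw_pos _) h2 h1)) (KK_nonneg (mw_pos _) (mw_pos _) h3 h4))
      (KK_nonneg (mw_pos _) (mw_pos _) h4 h3)
  have G1 : 0 ≤ᵐ[mu t] fun z => aa z * G z := G0.mono fun z hz => mul_nonneg (aa_nonneg z) hz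
  set D : ℕ → ZZ → ℝ := fun k z => Dk k (mm z.1) (mm (p2 z)) (mm (p3 z)) (mm (p4 z)) (ff F z.1)
    (ff F (p2 z)) (ff F (p3 z)) (ff F (p4 z)) with hD
  have iD : ∀ k, Integrable (fun z => aa z * (D k z + G z)) (mu t) := fun k =>
    ((src_eq h ht k).1.add iG).congr (Eventually.of_forall fun z => by
      simp only [ci, hD, Pi.add_apply]; ring)
  have D0 : ∀ k, 0 ≤ᵐ[mu t] fun z => aa z * (D k z + G z) := fun k => by
    filter_upwards [ae_nonneg h, ae_w] with z ⟨h1, h2, h3, h4⟩ hw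
    exact mul_nonneg (aa_nonneg z) (pt_lower (mw_pos _) (mw_pos _) (mw_pos _) (mw_pos _) h1 h2 h3 h4
      (mw_post _ _ _ hw))
  set g := ∫ z, aa z * G z ∂mu t with hg
  have g0 : 0 ≤ g := integral_nonneg_of_ae G1
  have hb : ∀ k, ∫ z, aa z * (D k z + G z) ∂mu t ≤ 4 * u k + g := fun k => by
    have h1 := integral_add (src_eq h ht k).1 iG
    rw [(src_eq h ht k).2] at h1
    simp only [mul_add]
    exact h1.trans_le (by linarith [hle k])
  have hl : Tendsto (fun k => 4 * u k + g) atTop (𝓝 (4 * d + g)) := (hu.const_mul 4).add_const g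
  have h0 : 0 ≤ 4 * d + g := ge_of_tendsto' hl fun k => (integral_nonneg_of_ae (D0 k)).trans (hb k)
  obtain ⟨m1, e1⟩ := diss_eq (t := t) h
  have h1 : ∫⁻ z, ENNReal.ofReal (aa z) *
      pairDissipation (ff F (p3 z) * ff F (p4 z)) (ff F z.1 * ff F (p2 z)) ∂mu t + ENNReal.ofReal g ≤
      ENNReal.ofReal (4 * d + g) := by
    rw [hg, ofReal_integral_eq_lintegral_ofReal iG G1, ← lintegral_add_left m1,
      ← (ENNReal.tendsto_ofReal hl).liminf_eq]
    refine le_trans (le_of_eq (lintegral_congr_ae ?_)) ((lintegral_liminf_le'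
      (f := fun k z => ENNReal.ofReal (aa z * (D k z + G z)))
      fun k => (iD k).1.aemeasurable.ennreal_ofReal).trans (liminf_le_liminf
        (Eventually.of_forall fun k => ?_)))
    · filter_upwards [ae_nonneg h, ae_w, G0] with z ⟨h1, h2, h3, h4⟩ hw h5
      simp only [ENNReal.ofReal_mul (aa_nonneg z), ← mul_add]
      exact (ENNReal.Tendsto.const_mul (pt_tendsto (mw_pos _) (mw_pos _) (mw_pos _) (mw_pos _)
        h1 h2 h3 h4 (mw_post _ _ _ hw) h5) (Or.inr ENNReal.ofReal_ne_top)).liminf_eq.symm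
    · rw [← ofReal_integral_eq_lintegral_ofReal (iD k) (D0 k)]
      exact ENNReal.ofReal_le_ofReal (hb k)
  have d0 : 0 ≤ d := by
    have := (ENNReal.ofReal_le_ofReal_iff h0).1 (le_add_self.trans h1)
    linarith
  rw [ENNReal.ofReal_add (by positivity) g0, ENNReal.add_le_add_iff_right ENNReal.ofReal_ne_top,
    ENNReal.ofReal_mul (by norm_num), ENNReal.ofReal_ofNat] at h1
  refine ⟨d0, e1.trans_le ((mul_le_mul' le_rfl h1).trans_eq ?_)⟩
  rw [← mul_assoc, ENNReal.inv_mul_cancel (by norm_num) (by norm_num), one_mul]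

end Ent2

theorem good_entropy {F0 : R3 → R3 → ℝ} {T : ℝ} {F : ℝ → R3 → R3 → ℝ} {𝓜 : Den} (h : Good F0 T F 𝓜)
    {t : ℝ} (ht : t ∈ Icc 0 T) :
    relEntropy (F t) + (∫⁻ s in Icc 0 t, dissipation (F s)) ≤ relEntropy F0 := by
  obtain ⟨C, hC, hC'⟩ := h.mee
  have hm : ∀ s, Measurable fun q : R3 × R3 => F s q.1 q.2 := fun s =>
    h.meas.comp measurable_prodMk_left
  obtain ⟨Ht, a1, a2, a3⟩ := Ent2.ent_lim (hm t) (fun x v => h.nonneg t x v ht.1)
    ((hC' t ht).trans_lt hC)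
  obtain ⟨H0, b1, -, b3⟩ := Ent2.ent_lim (hm 0) (fun x v => h.nonneg 0 x v le_rfl)
    ((hC' 0 ⟨le_rfl, ht.1.trans ht.2⟩).trans_lt hC)
  have e : F 0 = F0 := by funext x v; exact h.init x v
  rw [e] at b1 b3
  obtain ⟨d0, h1⟩ := Ent2.fatou h ht.2 (b1.sub a1) fun k => by
    rw [neg_sub]
    exact ent_balance h (by positivity) ht
  rw [a3, b3]
  refine (add_le_add le_rfl h1).trans_eq ?_
  rw [← ENNReal.ofReal_add a2 d0]
  congr 1
  ring

end Crest.Agent.R68
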