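import Crest.Agent.R68.Lev
import Crest.Agent.R68.Ent2

/-! The data.  `g0 P ⊤ ≤ Σ_n Gl P n 0`-type bounds (`Gl_sup`, `Gl_mass`, `ent_sum`) give admissibility (`|log f| f ≤ f log⁺ f + f ‖v‖² + e^{-‖v‖²/2}`-type bound or: bounded velocity support and `f log⁻ f ≤ 1`).
`L¹` convergence: the difference is at most `Σ_{n>N}` (level masses) `+ σ seed`.  Entropy: the supports of `g0` (`dd < r`, `nrm v < DD`), `gas` (`dd ≥ a ≥ 4r`) and `seed` (`dd ≤ fl ≤ r`, `nrm v ≥ 1/2`) are disjoint; on the support of `gas` the integrand vanishes;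
elsewhere it is at most `M + f log⁺ f + f (‖v‖²/2 + 3)`; on level `n` `f = cc/(rr n (2 ww n)³)` with `ww n = w (3 rr n/(64 M))⁴`, so the cold part contributes
`≤ C Σ_n rr n (C(M,w) + 13 log(1/rr n)) → 0` as `r → 0` (`log(1/x) ≤ 2/√x`). -/

set_option autoImplicit false

open MeasureTheory Set Filter Topology Crest.AnalysisR.VecCalc3 Crest.AnalysisR.PDE.Boltzmann
open scoped ENNReal NNReal

namespace Crest.Agent.R68

namespace Data
open Lev

theorem zero_mem : (0 : ℝ) ∈ Icc (0 : ℝ) 1 := ⟨le_rfl, zero_le_one⟩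

theorem g0_eq (P : Par) (N : ℕ∞) (x v : R3) : g0 P N x v = gs P N 0 x v := by
  simp [gs]

theorem g0_le_G (P : Par) (N : ℕ∞) (x v : R3) : g0 P N x v ≤ G P N 0 x v := by
  rw [g0_eq]; exact gs_le_G _ _ _ _

theorem g0_ne_top {P : Par} (hP : P.Ok) (N : ℕ∞) (x v : R3) : g0 P N x v ≠ ⊤ :=
  ne_top_of_le_ne_top (G_ne_top hP N zero_mem x v) (g0_le_G P N x v)

theorem g0_supp {P : Par} (hP : P.Ok) {N : ℕ∞} {x v : R3} (h : g0 P N x v ≠ 0) :
    ‖v‖ ≤ 2 ∧ dd x < P.r := by
  have := G_supp hP zero_mem (N := N) (x := x) (v := v)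
    (fun h' => h (le_antisymm (h' ▸ g0_le_G P N x v) zero_le))
  refine ⟨this.1, ?_⟩
  simpa [Par.X, Par.rr] using this.2.2

theorem g0_cases {P : Par} (hP : P.Ok) (N : ℕ∞) (x v : R3) :
    g0 P N x v = 0 ∨ ∃ k : Bm, g0 P N x v = gk P k 0 (hat x) v := by
  rw [g0_eq]
  rcases G_core hP N zero_mem x with h | ⟨k, -, -, h, -⟩
  · exact Or.inl (h.1 v)
  · exact Or.inr ⟨k, h v⟩

theorem MM_le_one (v : R3) : MM v ≤ 1 := ENNReal.ofReal_le_one.2 (Ent2.mw_le_one v)

theorem gas_le (P : Par) (x v : R3) : gas P x v ≤ 1 := by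
  unfold gas; split_ifs
  · exact MM_le_one v
  · exact zero_le

theorem seed_le (P : Par) (N : ℕ) (x v : R3) : seed P N x v ≤ 1 := by
  unfold seed; split_ifs
  · exact le_rfl
  · exact zero_le

theorem lp_of_le_one {a : ℝ≥0∞} (h : a ≤ 1) : lp a = 0 := by
  refine le_antisymm ((lp_mono h ENNReal.one_ne_top).trans ?_) zero_le
  simp [lp]

theorem int_bound {P : Par} (hP : P.Ok) {Φ : R3 × R3 → ℝ≥0∞} {c : ℕ → ℝ≥0∞}
    (h : ∀ q, Φ q = 0 ∨ ∃ k : Bm, Φ q ≤ gk P k 0 (hat q.1) q.2 * c k.1.1) :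
    ∫⁻ q in cell ×ˢ (univ : Set R3), Φ q ≤ ∑' n, ENNReal.ofReal (32 * cc * P.rr n) * c n := by
  classical
  calc _ ≤ ∫⁻ q in cell ×ˢ (univ : Set R3),
        ∑' n, (∑' k : Bm, if k.1.1 = n then gk P k 0 (hat q.1) q.2 else 0) * c n := by
        refine lintegral_mono fun q => ?_
        rcases h q with h | ⟨k, h⟩
        · simp [h]
        · refine h.trans (le_trans ?_ (ENNReal.le_tsum k.1.1))
          refine mul_le_mul' (le_trans ?_ (ENNReal.le_tsum k)) le_rfl
          simp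
    _ ≤ _ := by
        rw [lintegral_tsum fun n => ((meas_A P n).mul_const _).aemeasurable]
        refine ENNReal.tsum_le_tsum fun n => ?_
        rw [lintegral_mul_const _ (meas_A P n)]
        exact mul_le_mul' (mass_A hP n) le_rfl

theorem tsum_geo {f : ℕ → ℝ≥0∞} {A : ℝ} (hA : 0 ≤ A) (h : ∀ n, f n ≤ ENNReal.ofReal (A / 2 ^ n)) :
    ∑' n, f n ≤ ENNReal.ofReal (2 * A) := by
  calc _ ≤ ∑' n, (2⁻¹ : ℝ≥0∞) ^ n * ENNReal.ofReal A := by
        refine ENNReal.tsum_le_tsum fun n => (h n).trans (le_of_eq ?_)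
        rw [ENNReal.ofReal_div_of_pos (by positivity), ENNReal.ofReal_pow (by norm_num),
          ENNReal.div_eq_inv_mul, ENNReal.inv_pow]
        simp
    _ = _ := by
        rw [ENNReal.tsum_mul_right, ENNReal.tsum_geometric_two, ENNReal.ofReal_mul (by norm_num)]
        simp

theorem rr_le2 {P : Par} (hP : P.Ok) (n : ℕ) : P.rr n ≤ P.r / 2 ^ n := by
  unfold Par.rr
  have := hP.r0
  gcongr
  norm_num

theorem mass0 {P : Par} (hP : P.Ok) (N : ℕ∞) :
    ∫⁻ q in cell ×ˢ (univ : Set R3), g0 P N q.1 q.2 ≤ ENNReal.ofReal (64 * cc * P.r) := by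
  have hc := cc_pos
  have hr := hP.r0
  refine (int_bound hP (c := fun _ => 1) fun q => ?_).trans ?_
  · rcases g0_cases hP N q.1 q.2 with h | ⟨k, h⟩
    · exact Or.inl h
    · exact Or.inr ⟨k, by rw [h, mul_one]⟩
  · refine (tsum_geo (A := 32 * cc * P.r) (by positivity) fun n => ?_).trans (le_of_eq (by ring_nf))
    rw [mul_one, mul_div_assoc]
    exact ENNReal.ofReal_le_ofReal (by gcongr; exact rr_le2 hP n)

/-- the constant in the entropy of the cold datum -/
noncomputable def KK0 (M : ℕ) (w : ℝ) : ℝ := |Real.log (cc / (w ^ 3 * (3 / (64 * (M : ℝ))) ^ 12))| + 26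

theorem lev_ent {P : Par} (hP : P.Ok) (n : ℕ) :
    P.rr n * Real.log (cc / (P.rr n * P.ww n ^ 3)) ≤ KK0 P.M P.w * (Real.sqrt P.r / 2 ^ n) := by
  have hc := cc_pos
  have hr := rr_pos hP n
  have hw := hP.w0
  have hM : (0 : ℝ) < P.M := by exact_mod_cast hP.M1
  have e1 : cc / (P.rr n * P.ww n ^ 3) = cc / (P.w ^ 3 * (3 / (64 * (P.M : ℝ))) ^ 12) * (P.rr n)⁻¹ ^ 13 := by
    have : P.rr (n + 1) = P.rr n / 4 := by rw [rr_succ n]; ring
    simp only [Par.ww, Par.per, this]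
    field_simp
    ring
  have e2 : Real.sqrt P.r / 2 ^ n = Real.sqrt (P.rr n) := by
    unfold Par.rr
    rw [Real.sqrt_div hP.r0.le, show (4 : ℝ) ^ n = (2 ^ n) ^ 2 by rw [← pow_mul, mul_comm, pow_mul]; norm_num,
      Real.sqrt_sq (by positivity)]
  rw [e1, e2, Real.log_mul (by positivity) (by positivity), Real.log_pow]
  set u := Real.sqrt (P.rr n) with hu
  have hu0 : 0 < u := Real.sqrt_pos.2 hr
  have hu2 : P.rr n = u ^ 2 := (Real.sq_sqrt hr.le).symm
  have hu1 : u ≤ 1 := Real.sqrt_le_one.2 ((rr_le hP n).trans (hP.r1.trans (by norm_num)))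
  have h1 : Real.log (P.rr n)⁻¹ ≤ 2 * u⁻¹ := by
    rw [hu2, ← inv_pow, Real.log_pow]
    have := Real.log_le_sub_one_of_pos (inv_pos.2 hu0)
    push_cast
    linarith
  have h2 : P.rr n * Real.log (P.rr n)⁻¹ ≤ 2 * u := by
    calc _ ≤ P.rr n * (2 * u⁻¹) := by gcongr
      _ = _ := by rw [hu2]; field_simp
  have h3 := le_abs_self (Real.log (cc / (P.w ^ 3 * (3 / (64 * (P.M : ℝ))) ^ 12)))
  have h4 := abs_nonneg (Real.log (cc / (P.w ^ 3 * (3 / (64 * (P.M : ℝ))) ^ 12)))
  have h5 : P.rr n ≤ u := by rw [hu2]; nlinarith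
  unfold KK0
  push_cast
  nlinarith [mul_le_mul_of_nonneg_left h3 hr.le, mul_le_mul_of_nonneg_right h5 h4]

theorem KK0_pos (M : ℕ) (w : ℝ) : 0 < KK0 M w := by unfold KK0; positivity

theorem ent0 {P : Par} (hP : P.Ok) (N : ℕ∞) :
    ∫⁻ q in cell ×ˢ (univ : Set R3), g0 P N q.1 q.2 * lp (g0 P N q.1 q.2) ≤
      ENNReal.ofReal (64 * cc * KK0 P.M P.w * Real.sqrt P.r) := by
  have hc := cc_pos
  have hK := KK0_pos P.M P.w
  refine (int_bound hP (c := fun n => lp (ENNReal.ofReal (cc / (P.rr n * P.ww n ^ 3)))) fun q => ?_).trans ?_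
  · rcases g0_cases hP N q.1 q.2 with h | ⟨k, h⟩
    · exact Or.inl (by rw [h, zero_mul])
    · exact Or.inr ⟨k, by rw [h]; exact mul_le_mul' le_rfl (lp_mono (gk_le hP k _ _ _) ENNReal.ofReal_ne_top)⟩
  · refine (tsum_geo (A := 32 * cc * KK0 P.M P.w * Real.sqrt P.r) (by positivity) fun n => ?_).trans
      (le_of_eq (by ring_nf))
    have hr := rr_pos hP n
    have hw := ww_pos hP n
    unfold lp
    rw [ENNReal.toReal_ofReal (by positivity), ← ENNReal.ofReal_mul (by positivity)]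
    refine ENNReal.ofReal_le_ofReal ?_
    calc _ = 32 * cc * (P.rr n * Real.log (cc / (P.rr n * P.ww n ^ 3))) := by ring
      _ ≤ 32 * cc * (KK0 P.M P.w * (Real.sqrt P.r / 2 ^ n)) :=
        mul_le_mul_of_nonneg_left (lev_ent hP n) (by positivity)
      _ = _ := by ring

/-- integral of a product of an indicator in `x` and a function of `v` -/
theorem area2 (ρ : ℝ) {g : R3 → ℝ≥0∞} (hg : Measurable g) {Φ : R3 × R3 → ℝ≥0∞}
    (h : ∀ q, Φ q ≤ g q.2) (h0 : ∀ q, ρ ≤ dd q.1 → Φ q = 0) :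
    ∫⁻ q in cell ×ˢ (univ : Set R3), Φ q ≤ (∫⁻ v, g v) * ENNReal.ofReal (2 * ρ) ^ 2 := by
  have hm : Meas2 (fun x v => {x : R3 | dd x < ρ}.indicator (fun _ => (1 : ℝ≥0∞)) x * g v) :=
    ((measurable_const.indicator (measurableSet_lt measurable_dd measurable_const)).comp
      measurable_fst).mul (hg.comp measurable_snd)
  calc _ ≤ ∫⁻ q in cell ×ˢ (univ : Set R3),
        {x : R3 | dd x < ρ}.indicator (fun _ => (1 : ℝ≥0∞)) q.1 * g q.2 := by
        refine lintegral_mono fun q => ?_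
        by_cases hq : dd q.1 < ρ
        · simpa [hq] using h q
        · simp [h0 q (not_lt.1 hq)]
    _ ≤ _ := by
        rw [lint_cell hm]
        refine le_trans (lintegral_mono fun x => le_of_eq ?_) (area ρ _)
        rw [lintegral_const_mul _ hg]
        by_cases hx : dd x < ρ
        · have hx' : nrm (hat x) < ρ := hx
          simp [hx, hx']
        · have hx' : ¬ nrm (hat x) < ρ := hx
          simp [hx, hx']

/-- volume of the velocity support of the seeds -/
noncomputable def VV : ℝ := (volume (Metric.closedBall (EuclideanSpace.single 0 1 : R3) (1 / 2))).toReal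

theorem VV_nonneg : 0 ≤ VV := ENNReal.toReal_nonneg

theorem seed_mass {P : Par} (hP : P.Ok) (N : ℕ) :
    ∫⁻ q in cell ×ˢ (univ : Set R3), seed P N q.1 q.2 ≤ ENNReal.ofReal (16 * VV * P.fl N ^ 2) := by
  have hf := fl_pos hP N
  have hV := VV_nonneg
  refine (area2 (2 * P.fl N)
    (g := (Metric.closedBall (EuclideanSpace.single 0 1 : R3) (1 / 2)).indicator 1)
    (measurable_one.indicator measurableSet_closedBall) (fun q => ?_) (fun q hq => ?_)).trans
    (le_of_eq ?_)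
  · unfold seed
    split_ifs with h
    · rw [indicator_of_mem (by simpa [dist_eq_norm] using h.2)]; rfl
    · exact zero_le
  · exact if_neg fun h => by linarith [h.1]
  · rw [lintegral_indicator_one measurableSet_closedBall,
      ← ENNReal.ofReal_toReal (measure_closedBall_lt_top (μ := (volume : Measure R3))).ne,
      ← ENNReal.ofReal_pow (by positivity), ← ENNReal.ofReal_mul ENNReal.toReal_nonneg]
    congr 1
    unfold VV
    ring

theorem tail {P : Par} (hP : P.Ok) (N : ℕ) :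
    ∫⁻ q in cell ×ˢ (univ : Set R3), (g0 P ⊤ q.1 q.2 - g0 P N q.1 q.2) ≤
      ENNReal.ofReal (64 * cc * P.r / 2 ^ N) := by
  classical
  have hc := cc_pos
  have hr := hP.r0
  refine (int_bound hP (c := fun n => if N < n then 1 else 0) fun q => ?_).trans ?_
  · rcases g0_cases hP ⊤ q.1 q.2 with h | ⟨k, h⟩
    · exact Or.inl (by rw [h, zero_tsub])
    · by_cases hk : N < k.1.1
      · exact Or.inr ⟨k, by rw [if_pos hk, mul_one, h]; exact tsub_le_self⟩
      · refine Or.inl (tsub_eq_zero_of_le ?_)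
        rw [h, g0_eq]
        exact gk_le_gs hP (by exact_mod_cast not_lt.1 hk) zero_mem _ _
  · refine (tsum_geo (A := 32 * cc * P.r / 2 ^ N) (by positivity) fun n => ?_).trans (le_of_eq (by ring_nf))
    split_ifs with hn
    · rw [mul_one]
      refine ENNReal.ofReal_le_ofReal ?_
      unfold Par.rr
      rw [div_div, mul_div_assoc]
      gcongr
      calc (2 : ℝ) ^ N * 2 ^ n ≤ 2 ^ n * 2 ^ n := by gcongr; norm_num
        _ = _ := by rw [← mul_pow]; norm_num
    · simp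

theorem enorm_sub_le {a b : ℝ≥0∞} (ha : a ≠ ⊤) (hb : b ≠ ⊤) :
    ‖a.toReal - b.toReal‖ₑ ≤ (a - b) + (b - a) := by
  rcases le_total a b with h | h
  · rw [← enorm_neg, neg_sub, ← ENNReal.toReal_sub_of_le h hb,
      Real.enorm_of_nonneg ENNReal.toReal_nonneg, ENNReal.ofReal_toReal (ENNReal.sub_ne_top hb)]
    exact le_add_self
  · rw [← ENNReal.toReal_sub_of_le h ha,
      Real.enorm_of_nonneg ENNReal.toReal_nonneg, ENNReal.ofReal_toReal (ENNReal.sub_ne_top ha)]
    exact le_self_add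

theorem ofReal_mul_log {a : ℝ≥0∞} (ha : a ≠ ⊤) :
    ENNReal.ofReal (a.toReal * Real.log a.toReal) = a * lp a := by
  rw [ENNReal.ofReal_mul ENNReal.toReal_nonneg, ENNReal.ofReal_toReal ha]; rfl

theorem abs_log_le {x : ℝ} (hx : 0 ≤ x) : x * |Real.log x| ≤ max (x * Real.log x) 0 + 1 := by
  rcases le_total 0 (Real.log x) with h | h
  · rw [abs_of_nonneg h]
    linarith [le_max_left (x * Real.log x) 0]
  · rw [abs_of_nonpos h]
    have h1 := le_max_right (x * Real.log x) 0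
    rcases eq_or_lt_of_le hx with rfl | hx'
    · simp
    · have h2 := Real.log_le_sub_one_of_pos (inv_pos.2 hx')
      rw [Real.log_inv] at h2
      have h3 : x * -Real.log x ≤ x * (x⁻¹ - 1) := by gcongr
      rw [mul_sub, mul_inv_cancel₀ hx'.ne'] at h3
      linarith

theorem ent_pt {a : ℝ≥0∞} (ha : a ≠ ⊤) {v : R3} (hv : a ≠ 0 → ‖v‖ ≤ 2) :
    ENNReal.ofReal (a.toReal * Real.log (a.toReal / maxwellian v) - a.toReal + maxwellian v) ≤
      a * lp a + 11 * a + MM v := by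
  rcases eq_or_ne a 0 with rfl | h0
  · simp [MM]
  have h1 : 0 < a.toReal := ENNReal.toReal_pos h0 ha
  have h2 := Ent2.neg_log_mw v
  have h3 := hv h0
  have h4 : ‖v‖ ^ 2 ≤ 4 := by nlinarith [norm_nonneg v]
  rw [Real.log_div h1.ne' (Ent2.mw_pos v).ne', ← ofReal_mul_log ha]
  calc _ ≤ ENNReal.ofReal (a.toReal * Real.log a.toReal + 11 * a.toReal + maxwellian v) :=
        ENNReal.ofReal_le_ofReal (by nlinarith)
    _ ≤ _ := by
        refine ENNReal.ofReal_add_le.trans (add_le_add (ENNReal.ofReal_add_le.trans (le_of_eq ?_)) le_rfl)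
        rw [ENNReal.ofReal_mul (p := 11) (by norm_num), ENNReal.ofReal_toReal ha]
        simp

theorem lint_vel {g : R3 → ℝ≥0∞} (hg : Measurable g) :
    ∫⁻ q in cell ×ˢ (univ : Set R3), g q.2 = ∫⁻ v, g v := by
  rw [lint_cell (f := fun _ v => g v) (hg.comp measurable_snd), setLIntegral_const, volume_cell, mul_one]

end Data

theorem F0lim_ne_top {P : Par} (hP : P.Ok) (x v : R3) : F0lim P x v ≠ ⊤ := by
  exact ENNReal.add_ne_top.2 ⟨Data.g0_ne_top hP ⊤ x v,
    ne_top_of_le_ne_top ENNReal.one_ne_top (Data.gas_le P x v)⟩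
theorem F0lim_supp {P : Par} (hP : P.Ok) (x v : R3) (h : P.R ≤ ‖v‖) : F0lim P x v = 0 := by
  unfold F0lim
  rw [add_eq_zero]
  constructor
  · by_contra h'
    linarith [(Data.g0_supp hP h').1, hP.R1]
  · exact if_neg fun h' => by linarith [h'.2]
theorem admissible {P : Par} (hP : P.Ok) : IsAdmissibleDatum (toR2 (F0lim P)) P.R := by
  refine ⟨meas2_F0lim.ennreal_toReal, fun _ _ => ENNReal.toReal_nonneg,
    fun v => per_of_hat fun x => by simp only [toR2, F0lim_hat],
    fun x v h => by simp [toR2, F0lim_supp hP x v h], ?_⟩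
  set B : R3 → ℝ≥0∞ := (Metric.ball (0 : R3) P.R).indicator 1 with hB
  have hBm : Measurable B := measurable_one.indicator measurableSet_ball
  set c : ℝ≥0∞ := ENNReal.ofReal (1 + P.R ^ 2) + 3 with hc
  have hct : c ≠ ⊤ := ENNReal.add_ne_top.2 ⟨ENNReal.ofReal_ne_top, by norm_num⟩
  have key : ∀ q : R3 × R3, ENNReal.ofReal (toR2 (F0lim P) q.1 q.2 *
      (1 + ‖q.2‖ ^ 2 + |Real.log (toR2 (F0lim P) q.1 q.2)|)) ≤
      2 * (g0 P ⊤ q.1 q.2 * lp (g0 P ⊤ q.1 q.2)) + c * g0 P ⊤ q.1 q.2 + c * B q.2 := by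
    intro q
    by_cases hv : P.R ≤ ‖q.2‖
    · simp [toR2, F0lim_supp hP q.1 q.2 hv]
    have hB1 : B q.2 = 1 := indicator_of_mem (by simpa using hv) _
    have hne := F0lim_ne_top hP q.1 q.2
    have h1 := Data.abs_log_le (ENNReal.toReal_nonneg (a := F0lim P q.1 q.2))
    have h2 : ‖q.2‖ ^ 2 ≤ P.R ^ 2 := by gcongr; exact (not_le.1 hv).le
    have h3 := ent_add (g0 P ⊤ q.1 q.2) (gas P q.1 q.2)
    rw [Data.lp_of_le_one (Data.gas_le P q.1 q.2)] at h3
    have h4 := Data.gas_le P q.1 q.2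
    calc _ ≤ ENNReal.ofReal ((1 + P.R ^ 2) * (F0lim P q.1 q.2).toReal +
          (max ((F0lim P q.1 q.2).toReal * Real.log (F0lim P q.1 q.2).toReal) 0 + 1)) := by
          refine ENNReal.ofReal_le_ofReal ?_
          simp only [toR2]
          nlinarith [ENNReal.toReal_nonneg (a := F0lim P q.1 q.2)]
      _ ≤ ENNReal.ofReal (1 + P.R ^ 2) * F0lim P q.1 q.2 + (F0lim P q.1 q.2 * lp (F0lim P q.1 q.2) + 1) := by
          refine ENNReal.ofReal_add_le.trans (add_le_add (le_of_eq ?_) (ENNReal.ofReal_add_le.trans (le_of_eq ?_)))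
          · rw [ENNReal.ofReal_mul (by positivity), ENNReal.ofReal_toReal hne]
          · rw [ENNReal.ofReal_max, Data.ofReal_mul_log hne]; simp
      _ ≤ ENNReal.ofReal (1 + P.R ^ 2) * (g0 P ⊤ q.1 q.2 + 1) +
          (2 * (g0 P ⊤ q.1 q.2 * (1 + lp (g0 P ⊤ q.1 q.2)) + 1 * (1 + 0)) + 1) := by
          refine add_le_add (mul_le_mul' le_rfl (add_le_add le_rfl h4)) (add_le_add (h3.trans ?_) le_rfl)
          gcongr
      _ ≤ _ := by
          rw [hB1, hc]
          calc _ = 2 * (g0 P ⊤ q.1 q.2 * lp (g0 P ⊤ q.1 q.2)) +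
              (ENNReal.ofReal (1 + P.R ^ 2) + 2) * g0 P ⊤ q.1 q.2 + (ENNReal.ofReal (1 + P.R ^ 2) + 3) * 1 := by ring
            _ ≤ _ := by gcongr; norm_num
  refine lt_of_le_of_lt (lintegral_mono key) ?_
  have m1 : Measurable fun q : R3 × R3 => g0 P ⊤ q.1 q.2 := meas2_g0 ⊤
  have m2 : Measurable fun q : R3 × R3 => c * B q.2 := (hBm.comp measurable_snd).const_mul c
  rw [lintegral_add_right _ m2,
    lintegral_add_right _ (m1.const_mul c), lintegral_const_mul' _ _ (by norm_num),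
    lintegral_const_mul' _ _ hct, lintegral_const_mul' _ _ hct, Data.lint_vel hBm, hB,
    lintegral_indicator_one measurableSet_ball]
  refine ENNReal.add_lt_top.2 ⟨ENNReal.add_lt_top.2 ⟨ENNReal.mul_lt_top (by norm_num)
    ((Data.ent0 hP ⊤).trans_lt ENNReal.ofReal_lt_top), ENNReal.mul_lt_top hct.lt_top
    ((Data.mass0 hP ⊤).trans_lt ENNReal.ofReal_lt_top)⟩, ENNReal.mul_lt_top hct.lt_top measure_ball_lt_top⟩
theorem data_conv {P : Par} (hP : P.Ok) {Nn : ℕ → ℕ} (hN : Tendsto Nn atTop atTop) {σ : ℕ → ℝ≥0}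
    (hσ : ∀ n, σ n ≤ 1) :
    Tendsto (fun n => ∫⁻ q in cell ×ˢ (univ : Set R3),
      ‖(F0 P (Nn n) (σ n) q.1 q.2).toReal - toR2 (F0lim P) q.1 q.2‖ₑ) atTop (𝓝 0) := by
  have key : ∀ n, ∫⁻ q in cell ×ˢ (univ : Set R3),
      ‖(F0 P (Nn n) (σ n) q.1 q.2).toReal - toR2 (F0lim P) q.1 q.2‖ₑ ≤
      ENNReal.ofReal (16 * Data.VV * P.fl (Nn n) ^ 2) + ENNReal.ofReal (64 * cc * P.r / 2 ^ (Nn n)) := by
    intro n
    refine le_trans ?_ (add_le_add (Data.seed_mass hP (Nn n)) (Data.tail hP (Nn n)))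
    rw [← lintegral_add_left (meas2_seed (Nn n))]
    refine lintegral_mono fun q => ?_
    have h1 : (σ n : ℝ≥0∞) * seed P (Nn n) q.1 q.2 ≤ seed P (Nn n) q.1 q.2 :=
      mul_le_of_le_one_left' (by exact_mod_cast hσ n)
    have h2 := Data.seed_le P (Nn n) q.1 q.2
    have h3 := Data.gas_le P q.1 q.2
    have hne : F0 P (Nn n) (σ n) q.1 q.2 ≠ ⊤ :=
      ENNReal.add_ne_top.2 ⟨ENNReal.add_ne_top.2 ⟨Data.g0_ne_top hP _ _ _,
        ne_top_of_le_ne_top ENNReal.one_ne_top h3⟩, ne_top_of_le_ne_top ENNReal.one_ne_top (h1.trans h2)⟩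
    refine (Data.enorm_sub_le hne (F0lim_ne_top hP q.1 q.2)).trans (add_le_add ?_ ?_)
    · rw [tsub_le_iff_left]
      unfold F0 F0lim
      exact add_le_add (add_le_add (g0_mono le_top _ _) le_rfl) h1
    · rw [tsub_le_iff_left]
      unfold F0 F0lim
      calc _ ≤ (g0 P (Nn n) q.1 q.2 + (g0 P ⊤ q.1 q.2 - g0 P (Nn n) q.1 q.2)) + gas P q.1 q.2 :=
            add_le_add le_add_tsub le_rfl
        _ = g0 P (Nn n) q.1 q.2 + gas P q.1 q.2 + 0 + (g0 P ⊤ q.1 q.2 - g0 P (Nn n) q.1 q.2) := by ring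
        _ ≤ _ := by gcongr; exact zero_le
  have t1 : Tendsto (fun N : ℕ => 16 * Data.VV * P.fl N ^ 2) atTop (𝓝 0) := by
    simpa using ((fl_tendsto hP).pow 2).const_mul (16 * Data.VV)
  have t2 : Tendsto (fun N : ℕ => 64 * cc * P.r / 2 ^ N) atTop (𝓝 0) :=
    tendsto_const_nhds.div_atTop (tendsto_pow_atTop_atTop_of_one_lt (by norm_num))
  have t3 := ((ENNReal.tendsto_ofReal t1).add (ENNReal.tendsto_ofReal t2)).comp hN
  simp only [ENNReal.ofReal_zero, add_zero] at t3
  exact tendsto_of_tendsto_of_tendsto_of_le_of_le tendsto_const_nhds t3 (fun _ => zero_le) key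
theorem data_entropy {H0 : ℝ≥0} (hH : 0 < H0) : ∃ β' > 0, ∀ (M : ℕ) (w : ℝ), 0 < w → ∃ r0 > 0,
    ∀ {P : Par}, P.Ok → P.M = M → P.w = w → P.r ≤ r0 → P.a ≤ β' → 1 ≤ β' * P.R →
    ∀ (N : ℕ) (σ : ℝ≥0), σ ≤ 1 → P.fl N ≤ P.r → relEntropy (toR2 (F0 P N σ)) ≤ H0 := by
  have hH' : (0 : ℝ) < H0 := hH
  set m1 : ℝ := (∫⁻ v, MM v * pw 1 v).toReal with hm1
  have hm0 : 0 ≤ m1 := ENNReal.toReal_nonneg
  have hm1' : ∫⁻ v, MM v * pw 1 v = ENNReal.ofReal m1 := (ENNReal.ofReal_toReal Ent2.MM_fin.ne).symm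
  refine ⟨H0 / (4 * (m1 + 1)), by positivity, fun M w hw => ?_⟩
  have hc := Lev.cc_pos
  have hK := Data.KK0_pos M w
  have hV := Data.VV_nonneg
  set C : ℝ := 128 * cc * Data.KK0 M w + 13 * 64 * cc + 13 * 16 * Data.VV with hC
  have hC0 : 0 < C := by positivity
  refine ⟨(H0 / (2 * C)) ^ 2, by positivity, fun {P} hP hM hw' hr ha hR N σ hσ hfl => ?_⟩
  set β : ℝ := H0 / (4 * (m1 + 1)) with hβ
  have hβ0 : 0 < β := by positivity
  have mMM : Measurable fun v => MM v * pw 1 v := measurable_MM.mul (measurable_pw 1)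
  have key : ∀ q : R3 × R3, ENNReal.ofReal (toR2 (F0 P N σ) q.1 q.2 *
      Real.log (toR2 (F0 P N σ) q.1 q.2 / maxwellian q.2) - toR2 (F0 P N σ) q.1 q.2 + maxwellian q.2) ≤
      2 * (g0 P N q.1 q.2 * lp (g0 P N q.1 q.2)) + 13 * g0 P N q.1 q.2 + 13 * seed P N q.1 q.2 +
        ({q : R3 × R3 | dd q.1 < P.a}.indicator (fun q => MM q.2 * pw 1 q.2) q +
          ENNReal.ofReal β * (MM q.2 * pw 1 q.2)) := by
    intro q
    have hpw : 1 ≤ pw 1 q.2 := by
      unfold pw
      exact ENNReal.one_le_ofReal.2 (by rw [pow_one]; linarith [norm_nonneg q.2])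
    by_cases hg : P.a ≤ dd q.1 ∧ ‖q.2‖ < P.R
    · have h1 : g0 P N q.1 q.2 = 0 := by
        by_contra h
        linarith [(Data.g0_supp hP h).2, hP.a0, hP.r0, hg.1]
      have h2 : seed P N q.1 q.2 = 0 := if_neg fun h => by linarith [h.1, hP.a0, hP.r0, hg.1]
      have h3 : gas P q.1 q.2 = MM q.2 := if_pos hg
      have h4 : toR2 (F0 P N σ) q.1 q.2 = maxwellian q.2 := by
        simp [toR2, F0, h1, h2, h3, MM, ENNReal.toReal_ofReal (Ent2.mw_pos q.2).le]
      rw [h4, div_self (Ent2.mw_pos q.2).ne']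
      simp
    · have h3 : gas P q.1 q.2 = 0 := if_neg hg
      have h1 : (σ : ℝ≥0∞) * seed P N q.1 q.2 ≤ seed P N q.1 q.2 :=
        mul_le_of_le_one_left' (by exact_mod_cast hσ)
      have h2 := Data.seed_le P N q.1 q.2
      have h4 : F0 P N σ q.1 q.2 = g0 P N q.1 q.2 + σ * seed P N q.1 q.2 := by simp [F0, h3]
      have hne : F0 P N σ q.1 q.2 ≠ ⊤ := by
        rw [h4]
        exact ENNReal.add_ne_top.2 ⟨Data.g0_ne_top hP _ _ _,
          ne_top_of_le_ne_top ENNReal.one_ne_top (h1.trans h2)⟩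
      refine (Data.ent_pt hne fun h => ?_).trans (add_le_add ?_ ?_)
      · by_cases h5 : g0 P N q.1 q.2 = 0
        · have h6 : seed P N q.1 q.2 ≠ 0 := fun h6 => h (by rw [h4, h5, h6]; simp)
          have h7 : ‖q.2 - EuclideanSpace.single 0 1‖ ≤ 1 / 2 := by
            by_contra h7
            exact h6 (if_neg fun h8 => h7 h8.2)
          have h8 := norm_add_le (q.2 - EuclideanSpace.single 0 1) (EuclideanSpace.single 0 1)
          simp only [sub_add_cancel, EuclideanSpace.norm_single, norm_one] at h8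
          linarith
        · exact (Data.g0_supp hP h5).1
      · rw [h4]
        have h5 := ent_add (g0 P N q.1 q.2) (σ * seed P N q.1 q.2)
        rw [Data.lp_of_le_one (h1.trans h2)] at h5
        calc _ ≤ 2 * (g0 P N q.1 q.2 * (1 + lp (g0 P N q.1 q.2)) + seed P N q.1 q.2 * (1 + 0)) +
              11 * (g0 P N q.1 q.2 + seed P N q.1 q.2) := by
              refine add_le_add (h5.trans ?_) ?_ <;> gcongr
          _ = _ := by ring
      · rcases not_and_or.1 hg with h5 | h5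
        · rw [indicator_of_mem (show q ∈ {q : R3 × R3 | dd q.1 < P.a} from not_le.1 h5)]
          exact le_add_right (le_mul_of_one_le_right' hpw)
        · refine le_add_left ?_
          rw [mul_comm, mul_assoc]
          refine le_mul_of_one_le_right' ?_
          unfold pw
          rw [← ENNReal.ofReal_mul (by positivity)]
          refine ENNReal.one_le_ofReal.2 ?_
          have := not_lt.1 h5
          rw [pow_one]
          nlinarith
  refine le_trans (lintegral_mono key) ?_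
  have m1' : Measurable fun q : R3 × R3 => g0 P N q.1 q.2 := meas2_g0 N
  have m2 : Measurable fun q : R3 × R3 => seed P N q.1 q.2 := meas2_seed N
  have m3 : Measurable fun q : R3 × R3 => ENNReal.ofReal β * (MM q.2 * pw 1 q.2) :=
    (mMM.comp measurable_snd).const_mul _
  have m4 : Measurable fun q : R3 × R3 =>
      {q : R3 × R3 | dd q.1 < P.a}.indicator (fun q => MM q.2 * pw 1 q.2) q :=
    (mMM.comp measurable_snd).indicator (measurableSet_lt (measurable_dd.comp measurable_fst) measurable_const)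
  have a1 := Data.area2 P.a mMM
    (Φ := {q : R3 × R3 | dd q.1 < P.a}.indicator (fun q => MM q.2 * pw 1 q.2))
    (fun q => indicator_le_self' (fun _ _ => zero_le) q)
    (fun q hq => indicator_of_notMem (show q ∉ {q : R3 × R3 | dd q.1 < P.a} from not_lt.2 hq) _)
  have m5 : Measurable fun q : R3 × R3 =>
      {q : R3 × R3 | dd q.1 < P.a}.indicator (fun q => MM q.2 * pw 1 q.2) q +
        ENNReal.ofReal β * (MM q.2 * pw 1 q.2) := m4.add m3
  rw [lintegral_add_right _ m5, lintegral_add_right _ m3, lintegral_add_right _ (m2.const_mul _),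
    lintegral_add_right _ (m1'.const_mul _), lintegral_const_mul' _ _ (by norm_num),
    lintegral_const_mul' _ _ (by norm_num), lintegral_const_mul' _ _ (by norm_num),
    lintegral_const_mul' _ _ ENNReal.ofReal_ne_top, Data.lint_vel mMM]
  refine (add_le_add (add_le_add (add_le_add (mul_le_mul' le_rfl (Data.ent0 hP N))
    (mul_le_mul' le_rfl (Data.mass0 hP N))) (mul_le_mul' le_rfl (Data.seed_mass hP N)))
    (add_le_add a1 le_rfl)).trans ?_
  have hr0 := hP.r0
  have ha0 : 0 < P.a := by linarith [hP.a0]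
  have hf0 := fl_pos hP N
  rw [hm1', hM, hw', ← ENNReal.ofReal_ofNat 2, ← ENNReal.ofReal_ofNat 13,
    ← ENNReal.ofReal_pow (by positivity), ← ENNReal.ofReal_mul (by positivity),
    ← ENNReal.ofReal_mul (by positivity), ← ENNReal.ofReal_mul (by positivity),
    ← ENNReal.ofReal_mul (by positivity), ← ENNReal.ofReal_mul (by positivity),
    ← ENNReal.ofReal_add (by positivity) (by positivity),
    ← ENNReal.ofReal_add (by positivity) (by positivity),
    ← ENNReal.ofReal_add (by positivity) (by positivity),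
    ← ENNReal.ofReal_add (by positivity) (by positivity), ← ENNReal.ofReal_coe_nnreal]
  refine ENNReal.ofReal_le_ofReal ?_
  set u := Real.sqrt P.r with hu
  have hu0 : 0 < u := Real.sqrt_pos.2 hr0
  have hu2 : P.r = u ^ 2 := (Real.sq_sqrt hr0.le).symm
  have hu1 : u ≤ 1 := Real.sqrt_le_one.2 (hP.r1.trans (by norm_num))
  have hu3 : u ≤ H0 / (2 * C) := Real.sqrt_le_iff.2 ⟨by positivity, hr⟩
  have hru : P.r ≤ u := by rw [hu2]; nlinarith
  have hfu : P.fl N ^ 2 ≤ u := by nlinarith [hP.r1]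
  have b1 : C * u ≤ H0 / 2 := by
    calc _ ≤ C * (H0 / (2 * C)) := by gcongr
      _ = _ := by field_simp
  have b2 : (2 * P.a) ^ 2 ≤ β := by nlinarith [hP.a1]
  have b3 : 2 * β * m1 ≤ H0 / 2 := by
    have : β * (4 * (m1 + 1)) = H0 := by rw [hβ]; field_simp
    nlinarith
  have b4 := mul_le_mul_of_nonneg_left b2 hm0
  have b5 := mul_le_mul_of_nonneg_left hru hc.le
  have b6 := mul_le_mul_of_nonneg_left hfu hV
  rw [hC] at b1
  nlinarith
/-- the productive mass as an integral over the cell -/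
theorem Nf_eq_cell {F : Den} (hF : MeasD F) {T t ρ : ℝ} (hI : Inv T F) (ht : t ∈ Icc 0 T) (hρ : ρ < 1 / 2) :
    ∫⁻ q in cell ×ˢ (univ : Set R3), F t q.1 q.2 * ({x : R3 | dd x ≤ ρ}.indicator 1 q.1 * chi q.2) =
      Nf F t ρ := by
  have hi : Measurable ({x : R3 | dd x ≤ ρ}.indicator (1 : R3 → ℝ≥0∞)) :=
    measurable_one.indicator (measurableSet_le measurable_dd measurable_const)
  have hm : Meas2 (fun x v => F t x v * ({x : R3 | dd x ≤ ρ}.indicator 1 x * chi v)) :=
    (hF.slice t).mul ((hi.comp measurable_fst).mul (measurable_chi.comp measurable_snd))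
  have hΨ : Measurable (fun y : R3 => ∫⁻ v, F t y v * chi v) :=
    ((hF.slice t).mul (measurable_chi.comp measurable_snd)).lintegral_prod_right'
  rw [Lev.lint_cell hm]
  have e1 : ∀ x : R3, ∫⁻ v, F t x v * ({x : R3 | dd x ≤ ρ}.indicator 1 x * chi v) =
      {y : R3 | nrm y ≤ ρ}.indicator (fun y => ∫⁻ v, F t y v * chi v) (hat x) := by
    intro x
    by_cases hx : dd x ≤ ρ
    · have hx' : nrm (hat x) ≤ ρ := hx
      simp only [mem_setOf_eq, hx, hx', indicator_of_mem, Pi.one_apply, one_mul, ← hI t ht x]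
    · have hx' : ¬ nrm (hat x) ≤ ρ := hx
      simp [hx, hx']
  simp only [e1]
  rw [lintegral_cell_hat (hΨ.indicator (measurableSet_le measurable_nrm measurable_const))]
  have e2 : (fun y : ℝ × ℝ => {y : R3 | nrm y ≤ ρ}.indicator (fun y => ∫⁻ v, F t y v * chi v) (lift y)) =
      (Metric.closedBall (0 : ℝ × ℝ) ρ).indicator (fun y => ∫⁻ v, F t (lift y) v * chi v) := by
    funext y
    simp only [indicator, mem_setOf_eq, nrm_lift, mem_closedBall_zero_iff]
  rw [e2, lintegral_indicator measurableSet_closedBall, Measure.restrict_restrict measurableSet_closedBall,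
    inter_eq_left.2 (Metric.closedBall_subset_closedBall hρ.le)]
  rfl

end Crest.Agent.R68
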