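import Crest.Agent.R68.MonStep

/-! Summation over the steps `s_j = t (1+h0)^j` and a last short step (`mon_step_crude` with `h ≤ h0 s`, `h (s+ρ)^{-2} ≤ h0/ρ`).  Telescoping potentials: `h (s+ρ)^{-2} ≤ 2(1/(s+ρ) - 1/(s+h+ρ))` and `h (Ks+ρ)^{-2} ≤ (2/K)(1/(Ks+ρ) - 1/(K(s+h)+ρ))` for `h ≤ s`; `Σ h ≤ T ≤ θ r`.
So `II t ≤ II T + ε' B'/ρ`.  Finally `Nf t ρ ≤ (3ρ)⁴ e^{1/100} II t` (`vth_le`) and `II T ≤ (T+ρ)^{-4} Nf T (r/2) ≤ T^{-3} ρ^{-1} Nf T (r/2)`. -/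

set_option autoImplicit false

open MeasureTheory Set Filter Topology Crest.AnalysisR.VecCalc3 Crest.AnalysisR.PDE.Boltzmann
open scoped ENNReal NNReal

namespace Crest.Agent.R68

theorem Mon.iter {I : ℝ → ℝ≥0∞} {B : ℝ≥0∞} {φ : ℝ → ℝ} {t T h0 c : ℝ} (ht : 0 < t) (hh : 0 < h0) (hc : 0 ≤ c)
    (hφ : ∀ s, t ≤ s → s ≤ T → 0 ≤ φ s)
    (H1 : ∀ s, t ≤ s → s + h0 * s ≤ T → φ (s + h0 * s) ≤ φ s ∧
      I s ≤ I (s + h0 * s) + B * ENNReal.ofReal (φ s - φ (s + h0 * s)))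
    (H2 : ∀ s, t ≤ s → s ≤ T → T < s + h0 * s → I s ≤ I T + B * ENNReal.ofReal c) (htT : t ≤ T) :
    I t ≤ I T + B * ENNReal.ofReal (φ t + c) := by
  have key : ∀ n : ℕ, ∀ s, t ≤ s → s ≤ T → T < s * (1 + h0) ^ n → I s ≤ I T + B * ENNReal.ofReal (φ s + c) := by
    intro n
    induction n with
    | zero =>
      intro s _ h2 h3
      rw [pow_zero, mul_one] at h3
      exact absurd h2 (not_le.2 h3)
    | succ n ih =>
      intro s h1 h2 h3
      have hs : 0 < s := ht.trans_le h1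
      by_cases h4 : s + h0 * s ≤ T
      · have h5 : t ≤ s + h0 * s := h1.trans (le_add_of_nonneg_right (by positivity))
        obtain ⟨h6, h7⟩ := H1 s h1 h4
        have h8 := ih _ h5 h4 (h3.trans_eq (by ring))
        refine h7.trans ((add_le_add_left h8 _).trans_eq ?_)
        rw [add_assoc, ← mul_add, ← ENNReal.ofReal_add (add_nonneg (hφ _ h5 h4) hc) (sub_nonneg.2 h6)]
        congr 3
        ring
      · refine (H2 s h1 h2 (not_le.1 h4)).trans ?_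
        gcongr
        exact le_add_of_nonneg_left (hφ s h1 h2)
  obtain ⟨n, hn⟩ := pow_unbounded_of_one_lt (T / t) (show (1 : ℝ) < 1 + h0 by linarith)
  refine key n t le_rfl htT ?_
  rwa [div_lt_iff₀' ht] at hn

theorem Mon.tel {a h : ℝ} (ha : 0 < a) (h0 : 0 ≤ h) (h1 : h ≤ a) : h * a⁻¹ ^ 2 ≤ 2 * (a⁻¹ - (a + h)⁻¹) := by
  have h2 : 0 < a + h := by positivity
  have h3 : 2 * (a⁻¹ - (a + h)⁻¹) - h * a⁻¹ ^ 2 = h * (a - h) / (a ^ 2 * (a + h)) := by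
    field_simp
    ring
  have h4 : 0 ≤ h * (a - h) / (a ^ 2 * (a + h)) := div_nonneg (mul_nonneg h0 (sub_nonneg.2 h1)) (by positivity)
  linarith

theorem Mon.lower {P : Par} (hP : P.Ok) {N : ℕ} (F : Den) {ρ t : ℝ} (h1 : P.fl N ≤ ρ) (h2 : ρ ≤ P.r / 2)
    (ht : 0 < t) (htρ : t ≤ ρ) : Nf F t ρ ≤ ENNReal.ofReal (100 * ρ ^ 4) * II P N ρ F t := by
  have hρ : 0 < ρ := ht.trans_le htρ
  unfold Nf II
  rw [← lintegral_const_mul' _ _ ENNReal.ofReal_ne_top]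
  refine le_trans (setLIntegral_mono' Metric.isClosed_closedBall.measurableSet fun y hy => ?_)
    (setLIntegral_le_lintegral _ _)
  rw [← lintegral_const_mul' _ _ ENNReal.ofReal_ne_top]
  refine lintegral_mono fun ξ => ?_
  rw [mem_closedBall_zero_iff] at hy
  by_cases hξ : chi ξ = 0
  · simp [hξ]
  have h3 := expNeg_anti (vth_le hP h1 ht.le (lift y) hξ)
  rw [expNeg_ofReal (by norm_num)] at h3
  have h4 : 1 ≤ ENNReal.ofReal (100 * ρ ^ 4) * (ENNReal.ofReal ((t + ‖y‖ + ρ)⁻¹ ^ 4) *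
      ENNReal.ofReal (Real.exp (-(1 / 100)))) := by
    rw [← ENNReal.ofReal_mul (by positivity), ← ENNReal.ofReal_mul (by positivity), ← ENNReal.ofReal_one]
    refine ENNReal.ofReal_le_ofReal ?_
    have h5 : (99 / 100 : ℝ) ≤ Real.exp (-(1 / 100)) := by linarith [Real.add_one_le_exp (-(1 / 100 : ℝ))]
    have h6 : (3 * ρ)⁻¹ ≤ (t + ‖y‖ + ρ)⁻¹ := inv_anti₀ (by positivity) (by linarith)
    calc (1 : ℝ) ≤ 99 / 81 := by norm_num
      _ = 100 * ρ ^ 4 * ((3 * ρ)⁻¹ ^ 4 * (99 / 100)) := by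
          field_simp
          norm_num
      _ ≤ _ := by gcongr
  simp only [Psi, nrm_lift, if_pos (hy.trans h2)]
  calc F t (lift y) ξ * chi ξ = F t (lift y) ξ * chi ξ * 1 := (mul_one _).symm
    _ ≤ F t (lift y) ξ * chi ξ * (ENNReal.ofReal (100 * ρ ^ 4) * (ENNReal.ofReal ((t + ‖y‖ + ρ)⁻¹ ^ 4) *
        expNeg (vth P N ρ t (lift y) ξ))) := by
        gcongr
        exact h4.trans (by gcongr)
    _ = _ := by ring

theorem Mon.upper (P : Par) (N : ℕ) (F : Den) {ρ T : ℝ} (hρ : 0 < ρ) (hT : 0 < T) :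
    II P N ρ F T ≤ ENNReal.ofReal (T⁻¹ ^ 3 * ρ⁻¹) * Nf F T (P.r / 2) := by
  unfold Nf II
  rw [← lintegral_const_mul' _ _ ENNReal.ofReal_ne_top,
    ← lintegral_indicator Metric.isClosed_closedBall.measurableSet]
  refine lintegral_mono fun y => ?_
  by_cases hy : ‖y‖ ≤ P.r / 2
  · rw [indicator_of_mem (mem_closedBall_zero_iff.2 hy), ← lintegral_const_mul' _ _ ENNReal.ofReal_ne_top]
    refine lintegral_mono fun ξ => ?_
    simp only [Psi, nrm_lift, if_pos hy]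
    have h1 : (T + ‖y‖ + ρ)⁻¹ ^ 4 ≤ T⁻¹ ^ 3 * ρ⁻¹ := by
      have h2 := norm_nonneg y
      rw [pow_succ]
      gcongr
      · linarith
      · linarith
    calc _ ≤ F T (lift y) ξ * (chi ξ * ENNReal.ofReal (T⁻¹ ^ 3 * ρ⁻¹) * 1) := by
          gcongr
          exact expNeg_le_one _
      _ = _ := by ring
  · simp only [Psi, nrm_lift, if_neg hy, mul_zero, lintegral_zero, zero_le]

theorem mon {ε : ℝ≥0} (hε : 0 < ε) : ∃ (M0 : ℕ) (η0 θ : ℝ), 0 < η0 ∧ 0 < θ ∧ θ ≤ 1 / 4 ∧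
    ∀ {P : Par}, P.Ok → M0 ≤ P.M → P.eta ≤ η0 → ∀ {N : ℕ} {T : ℝ} {F : Den} {B' : ℝ≥0∞}, Reg P N T F →
    T ≤ θ * P.r → ProdLe P N B' T F → ∀ {ρ t : ℝ}, P.fl N ≤ ρ → ρ ≤ P.r / 2 → 0 < t → t ≤ T → t ≤ ρ →
    Nf F t ρ ≤ ENNReal.ofReal (100 * ρ ^ 3) * (ENNReal.ofReal (T⁻¹ ^ 3) * Nf F T (P.r / 2) + ε * B') := by
  obtain ⟨C', hC'⟩ := mon_step_crude
  obtain ⟨C, hC⟩ := mon_step
  have he : (0 : ℝ) < ε := hε
  have c0 : (0 : ℝ) ≤ C := C.2
  have c1 : (0 : ℝ) ≤ C' := C'.2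
  obtain ⟨K, hK⟩ : ∃ K : ℝ, K = 1 + 10 * C / ε := ⟨_, rfl⟩
  have hK1 : 1 ≤ K := by
    rw [hK]
    exact le_add_of_nonneg_right (by positivity)
  have hK2 : 2 * C / K ≤ ε / 5 := by
    rw [div_le_iff₀ (by linarith), hK]
    have : (ε : ℝ) / 5 * (1 + 10 * C / ε) = ε / 5 + 2 * C := by
      field_simp
      ring
    linarith
  obtain ⟨h1, h10, h11, η0, hη, hM⟩ := hC (ε := ε / 10) (K := K) (by positivity) hK1
  obtain ⟨θ, hθ⟩ : ∃ θ : ℝ, θ = min (min h1 (1 / 4)) (ε / (5 * (C + C' + 1))) := ⟨_, rfl⟩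
  have t0 : 0 < θ := by
    rw [hθ]
    positivity
  have t1 : θ ≤ h1 := hθ ▸ (min_le_left _ _).trans (min_le_left _ _)
  have t2 : θ ≤ 1 / 4 := hθ ▸ (min_le_left _ _).trans (min_le_right _ _)
  have t3 : θ * (5 * (C + C' + 1)) ≤ ε := (le_div_iff₀ (by positivity)).1 (hθ ▸ min_le_right _ _)
  obtain ⟨M0, hM0⟩ := hM θ t0 t1
  refine ⟨M0, η0, θ, hη, t0, t2, fun {P} hP hMM hηη N T F B' hR hT hPr ρ t r1 r2 ht htT htρ => ?_⟩
  have hρ : 0 < ρ := ht.trans_le htρ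
  have hr := hP.r0
  have hT4 : T ≤ P.r / 4 := hT.trans (by nlinarith)
  have hT1 : T ≤ 1 := by linarith [hP.r1]
  have hTr : T * (P.r * ρ)⁻¹ ≤ θ * ρ⁻¹ := by
    calc _ ≤ θ * P.r * (P.r * ρ)⁻¹ := by gcongr
      _ = _ := by field_simp
  have key := Mon.iter (I := II P N ρ F) (B := B') (t := t) (T := T) (h0 := θ) (c := C' * (2 * θ * ρ⁻¹))
    (φ := fun s => ε / 10 * (2 * (s + ρ)⁻¹) + C / K * (2 * (K * s + ρ)⁻¹) + C * ((T - s) * (P.r * ρ)⁻¹))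
    ht t0 (by positivity) (fun s a1 a2 => by
      have a3 : 0 < s := ht.trans_le a1
      have a4 := sub_nonneg.2 a2
      positivity) (fun s a1 a2 => by
      have a3 : 0 < s := ht.trans_le a1
      have a4 : θ * s ≤ s := mul_le_of_le_one_left a3.le (by linarith)
      have a5 := mul_le_mul_of_nonneg_left (Mon.tel (a := s + ρ) (h := θ * s) (by positivity) (by positivity)
        (by linarith)) (show 0 ≤ (ε : ℝ) / 10 by positivity)
      have a6 := mul_le_mul_of_nonneg_left (Mon.tel (a := K * s + ρ) (h := K * (θ * s)) (by positivity)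
        (by positivity) ((mul_le_mul_of_nonneg_left a4 (by linarith)).trans (by linarith)))
        (show 0 ≤ (C : ℝ) / K by positivity)
      have a7 : (C : ℝ) / K * (K * (θ * s) * (K * s + ρ)⁻¹ ^ 2) = C * (θ * s * (K * s + ρ)⁻¹ ^ 2) := by
        field_simp
      rw [a7, show K * s + ρ + K * (θ * s) = K * (s + θ * s) + ρ by ring] at a6
      rw [show s + ρ + θ * s = s + θ * s + ρ by ring] at a5
      have a8 : θ * s * (ε / 10 * (s + ρ)⁻¹ ^ 2 + C * (K * s + ρ)⁻¹ ^ 2 + C * (P.r * ρ)⁻¹) ≤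
          ε / 10 * (2 * (s + ρ)⁻¹) + C / K * (2 * (K * s + ρ)⁻¹) + C * ((T - s) * (P.r * ρ)⁻¹) -
          (ε / 10 * (2 * (s + θ * s + ρ)⁻¹) + C / K * (2 * (K * (s + θ * s) + ρ)⁻¹) +
            C * ((T - (s + θ * s)) * (P.r * ρ)⁻¹)) := by linarith
      refine ⟨sub_nonneg.1 (le_trans (by positivity) a8), (hM0 hP hMM hηη hR hT4 hPr r1 r2 a3 a2).trans ?_⟩
      gcongr) (fun s a1 a2 a3 => by
      have a4 : 0 < s := ht.trans_le a1
      have a5 : θ * s ≤ s := mul_le_of_le_one_left a4.le (by linarith)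
      have a6 := hC' hP hR hT1 hPr r1 r2 a4 (sub_nonneg.2 a2) (h := T - s) (by linarith) (by linarith)
      rw [add_sub_cancel] at a6
      refine a6.trans (add_le_add_right ?_ _)
      rw [ENNReal.ofReal_mul c1, ENNReal.ofReal_coe_nnreal, mul_comm (C' : ℝ≥0∞) B', mul_assoc]
      refine mul_le_mul_right (mul_le_mul_right (ENNReal.ofReal_le_ofReal ?_) _) _
      have a7 : (T - s) * (s + ρ)⁻¹ ^ 2 ≤ θ * ρ⁻¹ := by
        calc _ ≤ (θ * (s + ρ)) * ((s + ρ)⁻¹ * ρ⁻¹) := by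
              rw [sq]
              gcongr
              · nlinarith
              · linarith
          _ = _ := by field_simp
      have a8 : (T - s) * (P.r * ρ)⁻¹ ≤ T * (P.r * ρ)⁻¹ := by
        gcongr
        linarith
      linarith only [a7, a8, hTr]) htT
  have hφ : ε / 10 * (2 * (t + ρ)⁻¹) + C / K * (2 * (K * t + ρ)⁻¹) + C * ((T - t) * (P.r * ρ)⁻¹) +
      C' * (2 * θ * ρ⁻¹) ≤ ε * ρ⁻¹ := by
    have a1 : (t + ρ)⁻¹ ≤ ρ⁻¹ := inv_anti₀ hρ (by linarith)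
    have a2 : (K * t + ρ)⁻¹ ≤ ρ⁻¹ := inv_anti₀ hρ (le_add_of_nonneg_left (by positivity))
    have a3 : (T - t) * (P.r * ρ)⁻¹ ≤ T * (P.r * ρ)⁻¹ := by
      gcongr
      linarith
    have a4 := a3.trans hTr
    calc _ ≤ ε / 10 * (2 * ρ⁻¹) + C / K * (2 * ρ⁻¹) + C * (θ * ρ⁻¹) + C' * (2 * θ * ρ⁻¹) :=
          add_le_add_left (add_le_add (by gcongr) (mul_le_mul_of_nonneg_left a4 c0)) _
      _ = (ε / 5 + 2 * C / K + (C * θ + 2 * (C' * θ))) * ρ⁻¹ := by ring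
      _ ≤ _ := by
          gcongr
          have a5 := mul_nonneg c0 t0.le
          have a6 := mul_nonneg c1 t0.le
          linarith only [a5, a6, t0, t3, hK2, he]
  refine (Mon.lower hP F r1 r2 ht htρ).trans ?_
  calc _ ≤ ENNReal.ofReal (100 * ρ ^ 4) * (ENNReal.ofReal (T⁻¹ ^ 3 * ρ⁻¹) * Nf F T (P.r / 2) +
        B' * ENNReal.ofReal (ε * ρ⁻¹)) := by
        gcongr
        exact key.trans (add_le_add (Mon.upper P N F hρ (ht.trans_le htT)) (by gcongr))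
    _ = _ := by
        have a1 : ENNReal.ofReal (100 * ρ ^ 3) = ENNReal.ofReal (100 * ρ ^ 4) * ENNReal.ofReal ρ⁻¹ := by
          rw [← ENNReal.ofReal_mul (by positivity)]
          congr 1
          field_simp
        have a2 : 0 < T := ht.trans_le htT
        rw [a1, ENNReal.ofReal_mul (p := T⁻¹ ^ 3) (by positivity), ENNReal.ofReal_mul he.le,
          ENNReal.ofReal_coe_nnreal]
        ring

end Crest.Agent.R68
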