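import Crest.Agent.R68.Law

/-! Homogenisation: a ray that crosses the layers sees the averaged density.  Along `σ ↦ (s+σ, y+σξ)` the radial label is `z(σ) = z0 + c σ/((1+bs)(1+b(s+σ)))` with
`|c|/(1+bs) ≥ δ` (`rel_eq` or direct algebra), and `b s ≤ 2/3` since `δ s ≤ rr n`, `eta ≤ δ`.  So `z` is monotone with `|z'|` between `A/(1+h0)²` and `A` where `A = |c|/(1+bs)² ≥ δ/2`; in particular
`|z(σ) - z(σ')| ≤ A |σ-σ'|`, so the time spent in a label set `S ⊆ range` is at least `|S|/A`, and the range has length `≥ A h/(1+h0)`, many periods: `per ≤ 3 nrm y/M ≤ 3 K s/M`.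
(`time_in_window` isolates this.)  When the phase is in `[lo + 1/64, lo + 1/4 - 1/64]` (note `ww ≤ per/64`) and the tangential label is at distance `≥ per/4` from the edge
(the margin `δ² s/2` in position is `≥ δ² rr(n+1)/(9K)` in the label) `gk_mass_eq` applies, and `dens ≥ cc/(7 nrm y)` (`rr n (1 + b_T s') ≤ 4 X (n+1) s' ≤ 4.04 nrm y`, `1 + b_R s' ≤ 1.68`). -/

set_option autoImplicit false

open MeasureTheory Set Filter Topology Crest.AnalysisR.VecCalc3 Crest.AnalysisR.PDE.Boltzmann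
open scoped ENNReal NNReal

namespace Crest.Agent.R68

theorem Hom.windows {p z0 α : ℝ} (hp : 0 < p) (hα0 : 0 ≤ α) (hα1 : α + 7 / 32 ≤ 1) (j : ℤ) (n : ℕ) :
    ENNReal.ofReal (n * (7 / 32 * p)) ≤ volume ({u : ℝ | Int.fract ((u - z0) / p) ∈ Icc α (α + 7 / 32)} ∩
      Ioo (z0 + j * p) (z0 + (j + n) * p)) := by
  induction n with
  | zero => simp
  | succ n ih =>
    have hn : (0 : ℝ) ≤ n := Nat.cast_nonneg n
    have h1 : volume (Ioo (z0 + (j + n + α) * p) (z0 + (j + n + α + 7 / 32) * p)) =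
        ENNReal.ofReal (7 / 32 * p) := by
      rw [Real.volume_Ioo]; congr 1; ring
    rw [Nat.cast_succ, add_mul, one_mul, ENNReal.ofReal_add (by positivity) (by positivity), ← h1]
    refine (add_le_add ih le_rfl).trans ?_
    rw [← measure_union (disjoint_left.2 fun u h h' => by nlinarith [h.2.2, h'.1]) measurableSet_Ioo]
    refine measure_mono (union_subset (inter_subset_inter_right _
      (Ioo_subset_Ioo le_rfl (by nlinarith))) fun u hu => ⟨?_, by nlinarith [hu.1], by nlinarith [hu.2]⟩)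
    have a1 : j + n + α < (u - z0) / p := by rw [lt_div_iff₀ hp]; linarith [hu.1]
    have a2 : (u - z0) / p < j + n + α + 7 / 32 := by rw [div_lt_iff₀ hp]; linarith [hu.2]
    have e : Int.fract ((u - z0) / p) = (u - z0) / p - (j + n) :=
      Int.fract_eq_iff.2 ⟨by linarith, by linarith, j + n, by push_cast; ring⟩
    rw [mem_setOf_eq, e]
    exact ⟨by linarith, by linarith⟩

theorem Hom.windows' {p z0 α a b : ℝ} (hp : 0 < p) (hα0 : 0 ≤ α) (hα1 : α + 7 / 32 ≤ 1)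
    (hab : p ≤ b - a) : ENNReal.ofReal (7 / 32 * (b - a - 2 * p)) ≤
      volume ({u : ℝ | Int.fract ((u - z0) / p) ∈ Icc α (α + 7 / 32)} ∩ Ioo a b) := by
  have h0 : 0 ≤ (b - a) / p - 1 := by rw [sub_nonneg, le_div_iff₀ hp]; linarith
  have h1 := Nat.floor_le h0
  have h2 := Nat.lt_floor_add_one ((b - a) / p - 1)
  have h3 := Int.le_ceil ((a - z0) / p)
  have h4 := Int.ceil_lt_add_one ((a - z0) / p)
  rw [le_sub_iff_add_le, le_div_iff₀ hp] at h1
  rw [sub_lt_iff_lt_add, div_lt_iff₀ hp] at h2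
  rw [div_le_iff₀ hp] at h3
  rw [← sub_lt_iff_lt_add, lt_div_iff₀ hp] at h4
  refine le_trans (ENNReal.ofReal_le_ofReal (by linarith)) ((Hom.windows (z0 := z0) hp hα0 hα1
    ⌈(a - z0) / p⌉ ⌊(b - a) / p - 1⌋₊).trans (measure_mono (inter_subset_inter_right _
      (Ioo_subset_Ioo (by linarith) (by linarith)))))

/-- a monotone Lipschitz curve that crosses many periods spends a fixed fraction of time in a phase window -/
theorem time_in_window {z : ℝ → ℝ} {h A p z0 α : ℝ} (hh : 0 < h) (hA : 0 < A) (hp : 0 < p) (hz : ContinuousOn z (Icc 0 h))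
    (hL : ∀ σ ∈ Icc 0 h, ∀ σ' ∈ Icc 0 h, |z σ - z σ'| ≤ A * |σ - σ'|)
    (hlen : 99 / 100 * (A * h) ≤ |z h - z 0|) (hper : 100 * p ≤ A * h) (hα0 : 0 ≤ α) (hα1 : α + 7 / 32 ≤ 1) :
    ENNReal.ofReal (h / 6) ≤ volume {σ ∈ Ioo 0 h | Int.fract ((z σ - z0) / p) ∈ Icc α (α + 7 / 32)} := by
  set E := {σ ∈ Ioo 0 h | Int.fract ((z σ - z0) / p) ∈ Icc α (α + 7 / 32)} with hE
  have h1 : LipschitzOnWith A.toNNReal z E := LipschitzOnWith.of_dist_le' fun σ hσ σ' hσ' =>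
    hL σ (Ioo_subset_Icc_self hσ.1) σ' (Ioo_subset_Icc_self hσ'.1)
  have h2 := h1.hausdorffMeasure_image_le (d := 1) zero_le_one
  rw [hausdorffMeasure_real, ENNReal.rpow_one] at h2
  have hAh : 0 < A * h := by positivity
  have h3 : ENNReal.ofReal (A * (h / 6)) ≤ volume (z '' E) := by
    rcases le_total (z 0) (z h) with h4 | h4
    · rw [abs_of_nonneg (sub_nonneg.2 h4)] at hlen
      refine le_trans (ENNReal.ofReal_le_ofReal (by linarith)) ((Hom.windows' (z0 := z0) (a := z 0)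
        (b := z h) hp hα0 hα1 (by linarith)).trans (measure_mono fun u hu => ?_))
      obtain ⟨σ, h5, rfl⟩ := intermediate_value_Ioo hh.le hz hu.2
      exact ⟨σ, ⟨h5, hu.1⟩, rfl⟩
    · rw [abs_of_nonpos (sub_nonpos.2 h4)] at hlen
      refine le_trans (ENNReal.ofReal_le_ofReal (by linarith)) ((Hom.windows' (z0 := z0) (a := z h)
        (b := z 0) hp hα0 hα1 (by linarith)).trans (measure_mono fun u hu => ?_))
      obtain ⟨σ, h5, rfl⟩ := intermediate_value_Ioo' hh.le hz hu.2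
      exact ⟨σ, ⟨h5, hu.1⟩, rfl⟩
  rw [ENNReal.ofReal_mul hA.le] at h3
  exact (ENNReal.mul_le_mul_iff_right (ENNReal.ofReal_pos.2 hA).ne' ENNReal.ofReal_ne_top).1
    (h3.trans h2)

namespace Hom

variable {P : Par}

theorem bb_R (τ : Tile) : bb P τ (iR τ) = 2 * P.et τ.1 / (3 * P.rr τ.1) := if_pos rfl

theorem bb_T (τ : Tile) : bb P τ (iT τ) = (kap + P.et (nT τ)) / P.rr (nT τ) := by
  obtain ⟨n, i, o⟩ := τ
  fin_cases i <;> simp [bb, iR, iT]

theorem prod_bb (τ : Tile) (s : ℝ) :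
    ∏ j, (1 + bb P τ j * s) = (1 + bb P τ (iR τ) * s) * (1 + bb P τ (iT τ) * s) := by
  rw [Fin.prod_univ_three, bb_two]
  obtain ⟨n, i, o⟩ := τ
  fin_cases i <;> simp [iR, iT, mul_comm]

theorem X_T (hP : P.Ok) (τ : Tile) (s : ℝ) :
    P.rr (nT τ) * (1 + bb P τ (iT τ) * s) = P.X (nT τ) s := by
  have := rr_pos hP (nT τ)
  rw [bb_T, Par.X]
  field_simp

theorem rr_T (hP : P.Ok) (τ : Tile) {s : ℝ} (hs : 0 ≤ s) :
    P.rr τ.1 * (1 + bb P τ (iT τ) * s) ≤ 4 * P.X (τ.1 + 1) s := by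
  have h := X_T hP τ s
  obtain ⟨n, i, o⟩ := τ
  fin_cases i
  · exact h.trans_le (X_le_four hP n hs)
  · rw [rr_succ n, mul_assoc]
    exact (congrArg (4 * ·) h).le

theorem ww_le' (hP : P.Ok) (n : ℕ) : P.ww n ≤ P.per n / 64 := by
  have h1 := per_pos hP n
  have h2 := (per_le hP n).trans ((rr_le hP n).trans hP.r1)
  have h3 : (P.per n / 16) ^ 3 ≤ 1 := pow_le_one₀ (by positivity) (by linarith)
  have h4 : P.w ≤ 1 / 4 := hP.w1.trans (by norm_num)
  calc P.ww n = P.w * (P.per n / 16) ^ 3 * (P.per n / 16) := by rw [Par.ww]; ring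
    _ ≤ 1 / 4 * 1 * (P.per n / 16) := by have := hP.w0; gcongr
    _ = _ := by ring

theorem ball_sub (hP : P.Ok) (k : Bm) {z : ℝ × ℝ} {ρ : ℝ} (hρ : ρ ≤ P.per k.1.1 / 64)
    (h1 : z.1 ∈ Ioo (P.rr (k.1.1 + 1)) (P.rr k.1.1))
    (h2 : Int.fract ((z.1 - P.rr (k.1.1 + 1)) / P.per k.1.1) ∈
      Icc (lo k.2 + 1 / 64) (lo k.2 + 1 / 64 + 7 / 32))
    (h3 : |z.2| ≤ P.rr (nT k.1) - P.per k.1.1 / 4) : Metric.closedBall z ρ ⊆ layer P k := by
  intro u hu
  rw [Metric.mem_closedBall, Prod.dist_eq, max_le_iff, Real.dist_eq, Real.dist_eq] at hu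
  have hp := per_pos hP k.1.1
  have hM : (0 : ℝ) < P.M := by exact_mod_cast hP.M1
  have e1 : P.rr k.1.1 - P.rr (k.1.1 + 1) = P.M * P.per k.1.1 := by
    rw [rr_succ k.1.1, Par.per]; field_simp; ring
  have l0 : 1 / 8 ≤ lo k.2 ∧ lo k.2 ≤ 5 / 8 := by unfold lo; split_ifs <;> norm_num
  set θ := (z.1 - P.rr (k.1.1 + 1)) / P.per k.1.1 with hθ
  set θ' := (u.1 - P.rr (k.1.1 + 1)) / P.per k.1.1 with hθ'
  have a1 : |θ' - θ| ≤ 1 / 64 := by
    rw [hθ, hθ', ← sub_div, abs_div, abs_of_pos hp, div_le_iff₀ hp, sub_sub_sub_cancel_right]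
    linarith [hu.1]
  have a2 : (0 : ℝ) ≤ ⌊θ⌋ := by
    exact_mod_cast Int.floor_nonneg.2 (div_nonneg (sub_pos.2 h1.1).le hp.le)
  have a3 : (⌊θ⌋ : ℝ) + 1 ≤ P.M := by
    have : ⌊θ⌋ < (P.M : ℤ) := Int.floor_lt.2 (by
      rw [hθ, div_lt_iff₀ hp]; push_cast; linarith [h1.2])
    exact_mod_cast this
  rw [abs_le] at a1
  rw [Int.fract, mem_Icc] at h2
  have e : Int.fract θ' = θ' - ⌊θ⌋ :=
    Int.fract_eq_iff.2 ⟨by linarith, by linarith, ⌊θ⌋, by ring⟩
  have a4 : 0 ≤ θ' := by linarith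
  have a5 : θ' ≤ P.M := by linarith
  rw [hθ', le_div_iff₀ hp] at a4
  rw [hθ', div_le_iff₀ hp] at a5
  refine ⟨by linarith, by linarith, ?_, ?_⟩
  · rw [← hθ', e]
    exact ⟨by linarith, by linarith⟩
  · linarith [abs_sub_abs_le_abs_sub u.2 z.2, hu.2]

theorem mob {g y q ξ b s σ σ' : ℝ} (hg : |g| = 1) (h : 0 < 1 + b * s) (h1 : 0 < 1 + b * (s + σ))
    (h2 : 0 < 1 + b * (s + σ')) :
    |g * (y + σ * ξ - (s + σ) * q) / (1 + b * (s + σ)) -
      g * (y + σ' * ξ - (s + σ') * q) / (1 + b * (s + σ'))| =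
    |ξ - (q + b * y) / (1 + b * s)| * (1 + b * s) / ((1 + b * (s + σ)) * (1 + b * (s + σ'))) *
      |σ - σ'| := by
  have e : g * (y + σ * ξ - (s + σ) * q) / (1 + b * (s + σ)) -
      g * (y + σ' * ξ - (s + σ') * q) / (1 + b * (s + σ')) = g * ((ξ - (q + b * y) / (1 + b * s)) *
        (1 + b * s) / ((1 + b * (s + σ)) * (1 + b * (s + σ'))) * (σ - σ')) := by
    rw [sub_mul, div_mul_cancel₀ _ h.ne', div_sub_div _ _ h1.ne' h2.ne', div_mul_eq_mul_div,
      ← mul_div_assoc]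
    congr 1
    ring
  rw [e, abs_mul, hg, one_mul, abs_mul, abs_div, abs_mul, abs_of_pos h, abs_of_pos (mul_pos h1 h2)]

end Hom

set_option maxHeartbeats 1000000 in
theorem hom {δ Lv K h0 : ℝ} (hδ : 0 < δ) (hδ1 : δ ≤ 1) (hLv : 1 ≤ Lv) (hK : 1 ≤ K) (h0p : 0 < h0)
    (h01 : h0 ≤ 1 / 100) (h0δ : h0 * (Lv + 1) ≤ δ ^ 2 / 2) : ∃ M0 : ℕ, ∀ {P : Par}, P.Ok → M0 ≤ P.M →
    P.eta ≤ δ → ∀ {N : ℕ} {τ : Tile} {s : ℝ} {y ξ : R3} (ε : Bool), 0 < s → s + h0 * s ≤ 1 →
    Deep P N δ τ s y → ‖ξ‖ ≤ Lv → δ ≤ |ξ (iR τ) - U P (τ, true) s y (iR τ)| → nrm y ≤ K * s →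
    ENNReal.ofReal (h0 * s * cc / (64 * nrm y)) ≤
      ∫⁻ σ in Ioo 0 (h0 * s), ∫⁻ a, gk P (τ, ε) (s + σ) (y + σ • ξ) a := by
  obtain ⟨M0, hM0⟩ := exists_nat_ge (max (500 * K / (δ * h0)) (7 * K / δ ^ 2))
  refine ⟨M0, fun {P} hP hM he {N τ s y ξ} ε hs hs1 hD hξ hrel hy => ?_⟩
  have hM' : (M0 : ℝ) ≤ P.M := by exact_mod_cast hM
  have m1 := (le_max_left _ _).trans (hM0.trans hM')
  have m2 := (le_max_right _ _).trans (hM0.trans hM')
  rw [div_le_iff₀ (by positivity)] at m1 m2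
  have hMp : (0 : ℝ) < P.M := by exact_mod_cast hP.M1
  have r0 := rr_pos hP τ.1
  have r1 := rr_pos hP (τ.1 + 1)
  have x1 := (tile_nrm hP hs.le (deep_tile hP hδ hs hD)).1
  have k0 : 0 < kap := by unfold kap; positivity
  have x2 : P.rr (τ.1 + 1) ≤ P.X (τ.1 + 1) s :=
    le_add_of_nonneg_right (by have := et_pos hP (τ.1 + 1); positivity)
  have n0 : 0 < nrm y := by linarith
  have hp := per_pos hP τ.1
  have ep : P.per τ.1 * P.M = 3 * P.rr (τ.1 + 1) := by rw [Par.per]; field_simp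
  have b0 := bb_nonneg hP τ (iR τ)
  have b1 : bb P τ (iR τ) * s ≤ 2 / 3 := by
    rw [Hom.bb_R, div_mul_eq_mul_div, div_le_iff₀ (by positivity)]
    linarith [hD.2.1, mul_le_mul_of_nonneg_right ((et_le hP τ.1).trans he) hs.le]
  have hg : |sg τ.2.2| = 1 := by unfold sg; split_ifs <;> simp
  have hh : 0 < h0 * s := by positivity
  set b := bb P τ (iR τ) with hb
  set A := |ξ (iR τ) - U P (τ, true) s y (iR τ)| / (1 + b * s) with hA
  have bs0 : 0 ≤ b * s := by positivity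
  have A1 : 3 / 5 * δ ≤ A := by
    rw [hA, le_div_iff₀ (by positivity)]
    linarith [mul_le_mul_of_nonneg_left b1 hδ.le]
  have A0 : 0 < A := by linarith
  have hz : ∀ σ σ', 0 ≤ σ → 0 ≤ σ' →
      |(lab P τ (s + σ) (y + σ • ξ)).1 - (lab P τ (s + σ') (y + σ' • ξ)).1| =
        A * ((1 + b * s) * (1 + b * s) / ((1 + b * (s + σ)) * (1 + b * (s + σ')))) * |σ - σ'| := by
    intro σ σ' h1 h2
    refine (Hom.mob hg (by positivity) (by positivity) (by positivity)).trans ?_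
    congr 1
    rw [hA]
    change |ξ (iR τ) - U P (τ, true) s y (iR τ)| * (1 + b * s) /
      ((1 + b * (s + σ)) * (1 + b * (s + σ'))) = _
    rw [← mul_div_assoc, ← mul_assoc, div_mul_cancel₀ _ (by positivity)]
  have hw := time_in_window (z := fun σ => (lab P τ (s + σ) (y + σ • ξ)).1) (A := A)
    (z0 := P.rr (τ.1 + 1)) (α := lo ε + 1 / 64) hh A0 hp ?_ (fun σ h1 σ' h2 => ?_) ?_ ?_
    (by unfold lo; split_ifs <;> norm_num) (by unfold lo; split_ifs <;> norm_num)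
  rotate_left
  · refine ContinuousOn.div (Continuous.continuousOn (by fun_prop)) (by fun_prop) fun σ hσ => ?_
    have := hσ.1
    positivity
  · rw [hz σ σ' h1.1 h2.1]
    refine mul_le_mul_of_nonneg_right (mul_le_of_le_one_right A0.le ?_) (abs_nonneg _)
    have := h1.1
    have := h2.1
    rw [div_le_one (by positivity)]
    gcongr <;> linarith
  · rw [hz _ _ hh.le le_rfl, sub_zero, abs_of_pos hh, add_zero, mul_div_mul_right _ _ (by positivity),
      mul_right_comm, mul_comm]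
    refine mul_le_mul_of_nonneg_left ?_ (by positivity)
    rw [le_div_iff₀ (by positivity)]
    linarith [mul_le_mul_of_nonneg_left h01 bs0]
  · refine le_of_mul_le_mul_right ?_ hMp
    have h1 := mul_le_mul_of_nonneg_right A1 (mul_pos hh hMp).le
    have h2 := mul_le_mul_of_nonneg_right m1 hs.le
    linarith
  have hm : Measurable fun σ : ℝ => ∫⁻ a, gk P (τ, ε) (s + σ) (y + σ • ξ) a :=
    Measurable.lintegral_prod_right' (f := fun q : ℝ × R3 => gk P (τ, ε) (s + q.1) (y + q.1 • ξ) q.2)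
      ((measD_gk _).comp (by fun_prop) (by fun_prop) measurable_snd)
  have c0 : 0 < cc := by unfold cc; positivity
  refine le_trans ?_ (mul_meas_ge_le_lintegral₀ hm.aemeasurable (ENNReal.ofReal (cc / (7 * nrm y))))
  rw [Measure.restrict_apply' measurableSet_Ioo]
  refine le_trans ?_ (mul_le_mul' le_rfl (hw.trans (measure_mono fun σ hσ => ⟨?_, hσ.1⟩)))
  · rw [← ENNReal.ofReal_mul (by positivity)]
    refine ENNReal.ofReal_le_ofReal ?_
    rw [div_mul_div_comm, mul_comm cc]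
    exact div_le_div_of_nonneg_left (by positivity) (by positivity) (by linarith)
  obtain ⟨⟨s0, s1⟩, hσ⟩ := hσ
  have s2 : σ ≤ 1 / 100 * s := s1.le.trans (mul_le_mul_of_nonneg_right h01 hs.le)
  have s3 : σ * (Lv + 1) ≤ δ ^ 2 * s / 2 := by
    linarith [mul_le_mul_of_nonneg_right s1.le (by linarith : 0 ≤ Lv + 1),
      mul_le_mul_of_nonneg_right h0δ hs.le]
  have t1 := deep_stay hP hδ hs hD hξ s0.le s3
  have x3 : P.X (τ.1 + 1) (s + σ) ≤ 101 / 100 * nrm y := by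
    have := et_pos hP (τ.1 + 1)
    unfold Par.X at x1 ⊢
    linarith [mul_le_mul_of_nonneg_left s2 (add_pos k0 this).le]
  have x4 := Hom.rr_T hP τ (s := s + σ) (by positivity)
  have bT := bb_nonneg hP τ (iT τ)
  have q0 : 0 < 1 + bb P τ (iT τ) * (s + σ) := by positivity
  rw [mem_setOf_eq, gk_mass_eq hP (τ, ε) (by positivity) _ (Hom.ball_sub hP (τ, ε)
    ((mul_le_of_le_one_left (ww_pos hP _).le (by linarith)).trans (Hom.ww_le' hP _)) t1.1 hσ ?_)]
  · refine ENNReal.ofReal_le_ofReal (div_le_div_of_nonneg_left c0.le ?_ ?_)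
    · rw [Hom.prod_bb]; positivity
    · rw [Hom.prod_bb, mul_left_comm]
      have h1 : 1 + b * (s + σ) ≤ 168 / 100 := by linarith [mul_le_mul_of_nonneg_left s2 b0]
      calc _ ≤ 168 / 100 * (4 * (101 / 100 * nrm y)) :=
            mul_le_mul h1 (by linarith) (by positivity) (by norm_num)
        _ ≤ _ := by linarith
  · change |(y (iT τ) + σ * ξ (iT τ)) / (1 + bb P τ (iT τ) * (s + σ))| ≤ P.rr (nT τ) - P.per τ.1 / 4
    rw [abs_div, abs_of_pos q0, div_le_iff₀ q0, sub_mul, Hom.X_T hP]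
    have h1 : |ξ (iT τ)| ≤ Lv := (PiLp.norm_apply_le ξ _).trans hξ
    have h2 := abs_add_le (y (iT τ)) (σ * ξ (iT τ))
    rw [abs_mul, abs_of_pos s0] at h2
    have h3 : P.X (nT τ) s ≤ P.X (nT τ) (s + σ) := by
      have := et_pos hP (nT τ)
      unfold Par.X
      gcongr
      linarith
    have h4 : P.per τ.1 / 4 * (1 + bb P τ (iT τ) * (s + σ)) ≤ δ ^ 2 * s / 2 := by
      refine le_of_mul_le_mul_right ?_ hMp
      have h5 := mul_le_mul_of_nonneg_right m2 hs.le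
      rw [rr_succ τ.1] at x4
      calc _ = 3 / 16 * (4 * P.rr (τ.1 + 1) * (1 + bb P τ (iT τ) * (s + σ))) := by
            rw [mul_right_comm, div_mul_eq_mul_div, ep]; ring
        _ ≤ _ := by linarith [mul_pos (by linarith : 0 < K) hs]
    linarith [hD.2.2.2.2, mul_le_mul_of_nonneg_left h1 s0.le]

end Crest.Agent.R68
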