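import Crest.Agent.R68.Basic2

/-! Pre/post-collisional change of variables.  For a unit vector `w` the map
`(v,vs) ↦ (postVel v vs w, postVelStar v vs w)` is a linear isometric involution of `R3 × R3`
(in the `L²` product norm; it preserves Lebesgue measure since `|det| = 1` for an involution:
`Measure.map_linearMap_addHaar_eq_smul_addHaar`), and it flips the sign of `⟪v - vs, w⟫`. -/

set_option autoImplicit false

open MeasureTheory Set Filter Topology Crest.AnalysisR.VecCalc3 Crest.AnalysisR.PDE.Boltzmann
open scoped ENNReal NNReal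

namespace Crest.Agent.R68

theorem post_sum (v vs w : R3) : postVel v vs w + postVelStar v vs w = v + vs := by
  unfold postVel postVelStar
  abel

theorem post_energy (v vs w : R3) (hw : ‖w‖ = 1) :
    ‖postVel v vs w‖ ^ 2 + ‖postVelStar v vs w‖ ^ 2 = ‖v‖ ^ 2 + ‖vs‖ ^ 2 := by
  unfold postVel postVelStar
  rw [norm_sub_sq_real, norm_add_sq_real, norm_smul, hw, real_inner_smul_right, real_inner_smul_right, inner_sub_left,
    mul_one, Real.norm_eq_abs, sq_abs]
  ring

theorem post_swap (v vs w : R3) : postVel vs v w = postVelStar v vs w := by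
  unfold postVel postVelStar
  rw [← neg_sub v vs, inner_neg_left, neg_smul, sub_neg_eq_add]

theorem post_post (v vs w : R3) (hw : ‖w‖ = 1) :
    inner ℝ (postVel v vs w - postVelStar v vs w) w = -inner ℝ (v - vs) w ∧
      postVel (postVel v vs w) (postVelStar v vs w) w = v ∧
      postVelStar (postVel v vs w) (postVelStar v vs w) w = vs := by
  have h1 : inner ℝ (postVel v vs w - postVelStar v vs w) w = -inner ℝ (v - vs) w := by
    unfold postVel postVelStar
    simp only [inner_sub_left, inner_add_left, real_inner_smul_left, real_inner_self_eq_norm_sq, hw]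
    ring
  refine ⟨h1, ?_, ?_⟩
  · rw [postVel, h1, neg_smul, sub_neg_eq_add, postVel, sub_add_cancel]
  · rw [postVelStar, h1, neg_smul, postVelStar, add_neg_cancel_right]

theorem PrePost.lint3 {G : R3 × R3 × R3 → ℝ≥0∞} (hG : Measurable G) :
    ∫⁻ p, G p ∂((volume : Measure R3).prod ((volume : Measure R3).prod sphereMeasure)) =
      ∫⁻ v, ∫⁻ vs, ∫⁻ w, G (v, vs, w) ∂sphereMeasure := by
  rw [lintegral_prod _ hG.aemeasurable]
  exact lintegral_congr fun v => lintegral_prod _ (hG.comp (measurable_const.prodMk measurable_id)).aemeasurable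

theorem PrePost.mp_fixed {w : R3} (hw : ‖w‖ = 1) :
    MeasurePreserving (fun q : R3 × R3 => (postVel q.1 q.2 w, postVelStar q.1 q.2 w))
      ((volume : Measure R3).prod volume) ((volume : Measure R3).prod volume) := by
  let L : WithLp 2 (R3 × R3) →ₗᵢ[ℝ] WithLp 2 (R3 × R3) :=
    { toFun := fun q => WithLp.toLp 2 (postVel q.fst q.snd w, postVelStar q.fst q.snd w)
      map_add' := fun a b => by
        change WithLp.toLp 2 (postVel (a.fst + b.fst) (a.snd + b.snd) w, postVelStar (a.fst + b.fst) (a.snd + b.snd) w) =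
          WithLp.toLp 2 (postVel a.fst a.snd w + postVel b.fst b.snd w,
            postVelStar a.fst a.snd w + postVelStar b.fst b.snd w)
        simp only [postVel, postVelStar, inner_sub_left, inner_add_left]
        congr 2 <;> module
      map_smul' := fun c a => by
        change WithLp.toLp 2 (postVel (c • a.fst) (c • a.snd) w, postVelStar (c • a.fst) (c • a.snd) w) =
          WithLp.toLp 2 (c • postVel a.fst a.snd w, c • postVelStar a.fst a.snd w)
        simp only [postVel, postVelStar, inner_sub_left, real_inner_smul_left]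
        congr 2 <;> module
      norm_map' := fun q => by
        rw [← sq_eq_sq₀ (norm_nonneg _) (norm_nonneg _), WithLp.prod_norm_sq_eq_of_L2, WithLp.prod_norm_sq_eq_of_L2]
        exact post_energy _ _ _ hw }
  exact (WithLp.volume_preserving_ofLp R3 R3).comp
    ((L.toLinearIsometryEquiv rfl).measurePreserving.comp (WithLp.volume_preserving_toLp R3 R3))

theorem PrePost.mp_prepost :
    MeasurePreserving (fun p : R3 × R3 × R3 => (postVel p.1 p.2.1 p.2.2, postVelStar p.1 p.2.1 p.2.2, p.2.2))
      ((volume : Measure R3).prod ((volume : Measure R3).prod sphereMeasure))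
      ((volume : Measure R3).prod ((volume : Measure R3).prod sphereMeasure)) := by
  have h1 := measurePreserving_prodAssoc (volume : Measure R3) (volume : Measure R3) sphereMeasure
  have h2 : MeasurePreserving (fun p : R3 × R3 × R3 =>
      (id p.1, (postVel p.2.1 p.2.2 p.1, postVelStar p.2.1 p.2.2 p.1)))
      (sphereMeasure.prod ((volume : Measure R3).prod volume))
      (sphereMeasure.prod ((volume : Measure R3).prod volume)) := by
    refine (MeasurePreserving.id sphereMeasure).skew_product
      (g := fun w (q : R3 × R3) => (postVel q.1 q.2 w, postVelStar q.1 q.2 w)) ?_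
      (ae_sphere.mono fun w hw => (PrePost.mp_fixed hw).map_eq)
    unfold postVel postVelStar Function.uncurry
    fun_prop
  exact h1.comp (Measure.measurePreserving_swap.comp (h2.comp (Measure.measurePreserving_swap.comp h1.symm)))

theorem PrePost.mp_swapPart :
    MeasurePreserving (fun p : R3 × R3 × R3 => (p.2.1, p.1, p.2.2))
      ((volume : Measure R3).prod ((volume : Measure R3).prod sphereMeasure))
      ((volume : Measure R3).prod ((volume : Measure R3).prod sphereMeasure)) := by
  have h1 := measurePreserving_prodAssoc (volume : Measure R3) (volume : Measure R3) sphereMeasure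
  exact h1.comp ((Measure.measurePreserving_swap.prod (MeasurePreserving.id sphereMeasure)).comp h1.symm)

theorem prepost {Φ : R3 × R3 × R3 × R3 → ℝ≥0∞} (hΦ : Measurable Φ) :
    ∫⁻ v, ∫⁻ vs, ∫⁻ w, ENNReal.ofReal |inner ℝ (v - vs) w| *
        Φ (v, vs, postVel v vs w, postVelStar v vs w) ∂sphereMeasure =
    ∫⁻ v, ∫⁻ vs, ∫⁻ w, ENNReal.ofReal |inner ℝ (v - vs) w| *
        Φ (postVel v vs w, postVelStar v vs w, v, vs) ∂sphereMeasure := by
  have hG : Measurable fun p : R3 × R3 × R3 => ENNReal.ofReal |inner ℝ (p.1 - p.2.1) p.2.2| *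
      Φ (postVel p.1 p.2.1 p.2.2, postVelStar p.1 p.2.1 p.2.2, p.1, p.2.1) := by
    unfold postVel postVelStar
    exact (ENNReal.measurable_ofReal.comp (by fun_prop)).mul (hΦ.comp (by fun_prop))
  rw [← PrePost.lint3 hG, ← PrePost.mp_prepost.lintegral_comp hG,
    PrePost.lint3 (by exact hG.comp PrePost.mp_prepost.measurable)]
  refine lintegral_congr fun v => lintegral_congr fun vs => lintegral_congr_ae (ae_sphere.mono fun w hw => ?_)
  obtain ⟨h1, h2, h3⟩ := post_post v vs w hw
  simp only [h1, h2, h3, abs_neg]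

theorem swapPart {Φ : R3 × R3 × R3 × R3 → ℝ≥0∞} (hΦ : Measurable Φ) :
    ∫⁻ v, ∫⁻ vs, ∫⁻ w, ENNReal.ofReal |inner ℝ (v - vs) w| *
        Φ (v, vs, postVel v vs w, postVelStar v vs w) ∂sphereMeasure =
    ∫⁻ v, ∫⁻ vs, ∫⁻ w, ENNReal.ofReal |inner ℝ (v - vs) w| *
        Φ (vs, v, postVelStar v vs w, postVel v vs w) ∂sphereMeasure := by
  have hG : Measurable fun p : R3 × R3 × R3 => ENNReal.ofReal |inner ℝ (p.1 - p.2.1) p.2.2| *
      Φ (p.2.1, p.1, postVelStar p.1 p.2.1 p.2.2, postVel p.1 p.2.1 p.2.2) := by
    unfold postVel postVelStar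
    exact (ENNReal.measurable_ofReal.comp (by fun_prop)).mul (hΦ.comp (by fun_prop))
  rw [← PrePost.lint3 hG, ← PrePost.mp_swapPart.lintegral_comp hG,
    PrePost.lint3 (by exact hG.comp PrePost.mp_swapPart.measurable)]
  refine lintegral_congr fun v => lintegral_congr fun vs => lintegral_congr fun w => ?_
  have h1 : |inner ℝ (vs - v) w| = |inner ℝ (v - vs) w| := by rw [← neg_sub v vs, inner_neg_left, abs_neg]
  simp only [h1, post_swap v vs w, ← post_swap vs v w]

/-- the maps on the product space `R3 × R3 × R3` (for Bochner integrals) -/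
theorem measurePreserving_prepost :
    MeasurePreserving (fun p : R3 × R3 × R3 => (postVel p.1 p.2.1 p.2.2, postVelStar p.1 p.2.1 p.2.2, p.2.2))
      ((volume : Measure R3).prod ((volume : Measure R3).prod sphereMeasure))
      ((volume : Measure R3).prod ((volume : Measure R3).prod sphereMeasure)) := by
  exact PrePost.mp_prepost

theorem measurePreserving_swapPart :
    MeasurePreserving (fun p : R3 × R3 × R3 => (p.2.1, p.1, p.2.2))
      ((volume : Measure R3).prod ((volume : Measure R3).prod sphereMeasure))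
      ((volume : Measure R3).prod ((volume : Measure R3).prod sphereMeasure)) := by
  exact PrePost.mp_swapPart

/-- weak form of the gain term -/
theorem weak_gain {f h φ : R3 → ℝ≥0∞} (hf : Measurable f) (hh : Measurable h) (hφ : Measurable φ) :
    ∫⁻ v, Qp f h v * φ v = ∫⁻ a, ∫⁻ b, f a * h b *
      ∫⁻ w, ENNReal.ofReal |inner ℝ (a - b) w| * φ (postVel a b w) ∂sphereMeasure := by
  have h1 := prepost (Φ := fun q => f q.2.2.1 * h q.2.2.2 * φ q.1)
    (((hf.comp (by fun_prop)).mul (hh.comp (by fun_prop))).mul (hφ.comp measurable_fst))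
  have h2 : ∀ v, Qp f h v * φ v = ∫⁻ vs, ∫⁻ w, ENNReal.ofReal |inner ℝ (v - vs) w| *
      (f (postVel v vs w) * h (postVelStar v vs w) * φ v) ∂sphereMeasure := by
    intro v
    have hG : Measurable (Function.uncurry fun vs w : R3 => ENNReal.ofReal |inner ℝ (v - vs) w| * f (postVel v vs w) *
        h (postVelStar v vs w)) := by
      unfold postVel postVelStar Function.uncurry
      exact ((ENNReal.measurable_ofReal.comp (by fun_prop)).mul (hf.comp (by fun_prop))).mul (hh.comp (by fun_prop))
    unfold Qp
    rw [← lintegral_mul_const _ hG.lintegral_prod_right]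
    refine lintegral_congr fun vs => ?_
    rw [← lintegral_mul_const _ hG.of_uncurry_left]
    exact lintegral_congr fun w => by ring
  simp only [h2]
  rw [h1]
  refine lintegral_congr fun a => lintegral_congr fun b => ?_
  rw [← lintegral_const_mul]
  · exact lintegral_congr fun w => by ring
  · unfold postVel
    exact (ENNReal.measurable_ofReal.comp (by fun_prop)).mul (hφ.comp (by fun_prop))

/-- a Maxwellian is an equilibrium -/
theorem Qp_maxw (A : ℝ≥0∞) (α : ℝ) (u v : R3) :
    Qp (fun a => A * ENNReal.ofReal (Real.exp (-(α * ‖a - u‖ ^ 2))))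
       (fun a => A * ENNReal.ofReal (Real.exp (-(α * ‖a - u‖ ^ 2)))) v =
    A * ENNReal.ofReal (Real.exp (-(α * ‖v - u‖ ^ 2))) *
      nu (fun a => A * ENNReal.ofReal (Real.exp (-(α * ‖a - u‖ ^ 2)))) v := by
  unfold Qp nu
  rw [← lintegral_const_mul _ (by fun_prop)]
  refine lintegral_congr fun vs => ?_
  rw [← sphere_abs_inner, ← lintegral_mul_const _ (by fun_prop), ← lintegral_const_mul _ (by fun_prop)]
  refine lintegral_congr_ae (ae_sphere.mono fun w hw => ?_)
  have h1 := post_energy (v - u) (vs - u) w hw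
  have h2 : postVel (v - u) (vs - u) w = postVel v vs w - u := by
    unfold postVel
    rw [sub_sub_sub_cancel_right, sub_right_comm]
  have h3 : postVelStar (v - u) (vs - u) w = postVelStar v vs w - u := by
    unfold postVelStar
    rw [sub_sub_sub_cancel_right, add_sub_right_comm]
  rw [h2, h3] at h1
  have h4 : ENNReal.ofReal (Real.exp (-(α * ‖postVel v vs w - u‖ ^ 2))) *
      ENNReal.ofReal (Real.exp (-(α * ‖postVelStar v vs w - u‖ ^ 2))) =
      ENNReal.ofReal (Real.exp (-(α * ‖v - u‖ ^ 2))) * ENNReal.ofReal (Real.exp (-(α * ‖vs - u‖ ^ 2))) := by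
    rw [← ENNReal.ofReal_mul (Real.exp_pos _).le, ← ENNReal.ofReal_mul (Real.exp_pos _).le, ← Real.exp_add,
      ← Real.exp_add]
    congr 2
    linear_combination (-α) * h1
  calc _ = ENNReal.ofReal |inner ℝ (v - vs) w| * A * A * (ENNReal.ofReal (Real.exp (-(α * ‖postVel v vs w - u‖ ^ 2))) *
        ENNReal.ofReal (Real.exp (-(α * ‖postVelStar v vs w - u‖ ^ 2)))) := by ring
    _ = _ := by rw [h4]; ring

theorem Qp_MM (v : R3) : Qp MM MM v = MM v * nu MM v := by
  have h1 : MM = fun a => ENNReal.ofReal ((2 * Real.pi) ^ (-(3 / 2 : ℝ))) *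
      ENNReal.ofReal (Real.exp (-(1 / 2 * ‖a - 0‖ ^ 2))) := by
    funext a
    unfold MM maxwellian
    rw [ENNReal.ofReal_mul (by positivity), sub_zero]
    congr 3
    ring
  rw [h1]
  exact Qp_maxw _ _ _ _

/-- polynomial moments of the gain term are bounded by moments of the loss term -/
theorem gain_moment {f : R3 → ℝ≥0∞} (hf : Measurable f) (k : ℕ) :
    ∫⁻ v, Qp f f v * pw k v ≤ ∫⁻ v, f v * pw k v * nu (fun a => f a * pw k a) v := by
  rw [weak_gain hf hf (measurable_pw k)]
  refine lintegral_mono fun a => ?_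
  unfold nu
  rw [← lintegral_const_mul _ (by exact (by fun_prop : Measurable fun b : R3 =>
    ENNReal.ofReal (2 * Real.pi * ‖a - b‖)).mul (hf.mul (measurable_pw k)))]
  refine lintegral_mono fun b => ?_
  have h1 : ∫⁻ w, ENNReal.ofReal |inner ℝ (a - b) w| * pw k (postVel a b w) ∂sphereMeasure ≤
      ENNReal.ofReal (2 * Real.pi * ‖a - b‖) * (pw k a * pw k b) := by
    rw [← sphere_abs_inner, ← lintegral_mul_const _ (by fun_prop)]
    refine lintegral_mono_ae (ae_sphere.mono fun w hw => mul_le_mul_right ?_ _)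
    unfold pw
    rw [← ENNReal.ofReal_mul (by positivity), ← mul_pow]
    refine ENNReal.ofReal_le_ofReal (pow_le_pow_left₀ (by positivity) ?_ k)
    have h2 := post_energy a b w hw
    have h3 : ‖postVel a b w‖ ≤ ‖a‖ + ‖b‖ := by
      refine abs_le_of_sq_le_sq' ?_ (by positivity) |>.2
      nlinarith [sq_nonneg ‖postVelStar a b w‖, mul_nonneg (norm_nonneg a) (norm_nonneg b)]
    nlinarith [mul_nonneg (norm_nonneg a) (norm_nonneg b)]
  calc _ ≤ f a * f b * (ENNReal.ofReal (2 * Real.pi * ‖a - b‖) * (pw k a * pw k b)) := mul_le_mul_right h1 _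
    _ = _ := by ring


end Crest.Agent.R68
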