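import Crest.Agent.R68.Beam
import Crest.Agent.R68.PrePost

/-! The outgoing velocity is uniformly distributed on a sphere, so each coordinate is uniform on an
interval of length `‖a-b‖` (Archimedes) and total mass `2π‖a-b‖`.  Suggested proof: let
`m(a,b)` be the left side; it is lower semicontinuous in `(a,b)` (Fatou, open condition).  For continuous `f,h ≥ 0`,
`∫∫ f h m = ∫ 1_slab Qp f h` (`weak_gain`) `= ∫_{|s|<δ} pint e_i (..) (Qp f h) ≤ 2δ · 2π ∫f ∫h`
(`Qp_le_liminf`, Fatou, and the exact area computation of `ellipse` with `l = 1`: `pint (dl ε ..) ≤ π`; with the stated bound `4` one gets `16 δ`).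
Lower semicontinuity turns the averaged bound into a pointwise one.  A direct parametrisation is also fine. -/

set_option autoImplicit false

open MeasureTheory Set Filter Topology Crest.AnalysisR.VecCalc3 Crest.AnalysisR.PDE.Boltzmann
open scoped ENNReal NNReal

namespace Crest.Agent.R68

namespace SlabA

/-- the angle doubling map -/
noncomputable def Sq (g z : R3) : R3 := (2 * inner ℝ g z) • z - (‖z‖ ^ 2) • g

/-- its derivative -/
noncomputable def DSq (g z : R3) : R3 →L[ℝ] R3 :=
  ((2 * inner ℝ g z) • ContinuousLinearMap.id ℝ R3 + ((2 : ℝ) • innerSL ℝ g).smulRight z) -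
    ((2 : ℝ) • innerSL ℝ z).smulRight g

theorem hasFDerivAt_Sq (g z : R3) : HasFDerivAt (Sq g) (DSq g z) z := by
  have h1 : HasFDerivAt (fun z : R3 => 2 * inner ℝ g z) ((2 : ℝ) • innerSL ℝ g) z :=
    (innerSL ℝ g).hasFDerivAt.const_mul 2
  have h2 := h1.smul (hasFDerivAt_id z)
  have h3 := (hasStrictFDerivAt_norm_sq z).hasFDerivAt.smul_const g
  refine (h2.sub h3).congr_fderiv ?_
  ext h j
  simp [DSq]

theorem det_DSq (g z : R3) : (DSq g z).det = 8 * inner ℝ g z * ‖g‖ ^ 2 * ‖z‖ ^ 2 := by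
  rw [ContinuousLinearMap.det, ← LinearMap.det_toMatrix (EuclideanSpace.basisFun (Fin 3) ℝ).toBasis,
    Matrix.det_fin_three]
  simp [LinearMap.toMatrix_apply, DSq, EuclideanSpace.real_norm_sq_eq, Fin.sum_univ_three,
    PiLp.inner_apply]
  ring

theorem norm_Sq (g z : R3) : ‖Sq g z‖ ^ 2 = ‖g‖ ^ 2 * (‖z‖ ^ 2) ^ 2 := by
  rw [Sq, norm_sub_sq_real, norm_smul, norm_smul, inner_smul_left, inner_smul_right,
    real_inner_comm g z, mul_pow, mul_pow, Real.norm_eq_abs, Real.norm_eq_abs, sq_abs, sq_abs]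
  simp only [conj_trivial]
  ring

theorem inj_Sq {g z z' : R3} (h : 0 < inner ℝ g z * inner ℝ g z') (e : Sq g z = Sq g z') :
    z = z' := by
  have hg : g ≠ 0 := by
    rintro rfl
    simp at h
  have h1 : ‖z‖ ^ 2 = ‖z'‖ ^ 2 := by
    have h2 := norm_Sq g z
    rw [e, norm_Sq] at h2
    have h3 := mul_left_cancel₀ (pow_ne_zero 2 (norm_ne_zero_iff.2 hg)) h2
    exact ((pow_left_inj₀ (by positivity) (by positivity) two_ne_zero).1 h3).symm
  have h2 : (2 * inner ℝ g z) • z = (2 * inner ℝ g z') • z' := by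
    rw [Sq, Sq, h1] at e
    exact sub_left_injective e
  have h3 : inner ℝ g z = inner ℝ g z' := by
    have h4 := congrArg (inner ℝ g) h2
    rw [inner_smul_right, inner_smul_right] at h4
    have h5 : (inner ℝ g z - inner ℝ g z') * (inner ℝ g z + inner ℝ g z') = 0 := by linarith
    rcases mul_eq_zero.1 h5 with h6 | h6
    · linarith
    · nlinarith
  rw [← h3] at h2 h
  have h4 : 2 * inner ℝ g z ≠ 0 := fun h0 => by
    have : inner ℝ g z = (0 : ℝ) := by linarith
    simp [this] at h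
  exact smul_right_injective _ h4 h2

theorem continuous_Sq (g : R3) : Continuous (Sq g) := by
  unfold Sq
  fun_prop

theorem half {g : R3} {E s : Set R3} (hE : MeasurableSet E) (hs : MeasurableSet s)
    (h : ∀ z ∈ s, ∀ z' ∈ s, 0 < inner ℝ g z * inner ℝ g z') :
    ∫⁻ z in s, (Sq g ⁻¹' E).indicator (fun z => ENNReal.ofReal |(DSq g z).det|) z ≤ volume E := by
  have hm : MeasurableSet (Sq g ⁻¹' E) := (continuous_Sq g).measurable hE
  rw [lintegral_indicator hm, Measure.restrict_restrict hm,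
    lintegral_abs_det_fderiv_eq_addHaar_image volume (hm.inter hs)
      (fun z _ => (hasFDerivAt_Sq g z).hasFDerivWithinAt)
      (fun z hz z' hz' e => inj_Sq (h z hz.2 z' hz'.2) e)]
  refine measure_mono ?_
  rintro _ ⟨z, hz, rfl⟩
  exact hz.1

theorem whole (g : R3) {E : Set R3} (hE : MeasurableSet E) :
    ∫⁻ z, (Sq g ⁻¹' E).indicator (fun z => ENNReal.ofReal |(DSq g z).det|) z ≤ 2 * volume E := by
  have hi : Measurable fun z : R3 => inner ℝ g z := by fun_prop
  have h1 : MeasurableSet {z : R3 | 0 < inner ℝ g z} := measurableSet_lt measurable_const hi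
  have h2 : MeasurableSet {z : R3 | inner ℝ g z < (0 : ℝ)} := measurableSet_lt hi measurable_const
  have h3 := half (g := g) hE h1 fun z hz z' hz' => mul_pos hz hz'
  have h4 := half (g := g) hE h2 fun z hz z' hz' => mul_pos_of_neg_of_neg hz hz'
  rw [two_mul]
  refine le_trans ?_ (add_le_add h3 h4)
  refine le_trans ?_ (lintegral_union_le _ _ _)
  rw [← lintegral_indicator (h1.union h2)]
  refine lintegral_mono fun z => ?_
  by_cases hz : z ∈ {z : R3 | 0 < inner ℝ g z} ∪ {z : R3 | inner ℝ g z < (0 : ℝ)}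
  · rw [indicator_of_mem hz]
  · have h0 : inner ℝ g z = (0 : ℝ) := by
      simp only [mem_union, mem_ofPred_eq, not_or, not_lt] at hz
      exact le_antisymm hz.1 hz.2
    refine le_trans (indicator_le_self _ _ z) ?_
    simp [det_DSq, h0]

theorem annulus (A B : ℝ) :
    ∫⁻ r in Ioi (0 : ℝ), ENNReal.ofReal (2 * Real.pi * r) * (Ioo A B).indicator 1 (r ^ 2) ≤
      ENNReal.ofReal (Real.pi * (B - A)) := by
  have h := lintegral_image_eq_lintegral_abs_deriv_mul (f := fun r : ℝ => r ^ 2)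
    (f' := fun r => 2 * r) (s := Ioi 0) measurableSet_Ioi
    (fun r _ => by simpa using (hasDerivAt_pow 2 r).hasDerivWithinAt)
    (fun r hr r' hr' e => (pow_left_inj₀ (le_of_lt hr) (le_of_lt hr') two_ne_zero).1 e)
    ((Ioo A B).indicator 1)
  have h2 : ∫⁻ r in Ioi (0 : ℝ), ENNReal.ofReal (2 * Real.pi * r) * (Ioo A B).indicator 1 (r ^ 2) =
      ENNReal.ofReal Real.pi *
        ∫⁻ r in Ioi (0 : ℝ), ENNReal.ofReal |2 * r| * (Ioo A B).indicator 1 (r ^ 2) := by
    rw [← lintegral_const_mul' _ _ ENNReal.ofReal_ne_top]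
    refine setLIntegral_congr_fun measurableSet_Ioi fun r (hr : 0 < r) => ?_
    rw [← mul_assoc, ← ENNReal.ofReal_mul Real.pi_pos.le, abs_of_pos (by positivity)]
    congr 2
    ring
  rw [h2, ← h, ENNReal.ofReal_mul Real.pi_pos.le]
  gcongr
  refine (setLIntegral_le_lintegral _ _).trans ?_
  rw [lintegral_indicator_one measurableSet_Ioo, Real.volume_Ioo]

theorem shell (i : Fin 3) (A B c d : ℝ) :
    volume {Z : R3 | ‖Z‖ ^ 2 ∈ Ioo A B ∧ Z i ∈ Ioo c d} ≤
      ENNReal.ofReal (Real.pi * (B - A)) * ENNReal.ofReal (d - c) := by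
  have hm : MeasurableSet {Z : R3 | ‖Z‖ ^ 2 ∈ Ioo A B ∧ Z i ∈ Ioo c d} :=
    ((by fun_prop : Measurable fun Z : R3 => ‖Z‖ ^ 2) measurableSet_Ioo).inter
      ((by fun_prop : Measurable fun Z : R3 => Z i) measurableSet_Ioo)
  set n : R3 := EuclideanSpace.single i 1 with hn
  have hn1 : ‖n‖ = 1 := by simp [hn]
  have hn0 : n ≠ 0 := fun h => by simp [h] at hn1
  rw [← lintegral_indicator_one hm, lintegral_slices hn0 0 (measurable_one.indicator hm),
    ← Real.volume_Ioo, ← setLIntegral_const, ← lintegral_indicator measurableSet_Ioo]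
  refine lintegral_mono fun s => ?_
  rw [hn1, inv_one, one_smul, zero_add]
  have key : ∀ b : R3, inner ℝ (b - s • n) n = (0 : ℝ) →
      b i = s ∧ ‖b‖ ^ 2 = ‖b - s • n‖ ^ 2 + s ^ 2 := fun b hb => by
    constructor
    · rw [inner_sub_left, inner_smul_left, real_inner_self_eq_norm_sq, hn1, hn,
        EuclideanSpace.inner_single_right] at hb
      simp at hb
      linarith
    · conv_lhs => rw [← sub_add_cancel b (s • n), norm_add_sq_real, inner_smul_right, hb, norm_smul, hn1]
      simp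
  by_cases hs : s ∈ Ioo c d
  · rw [indicator_of_mem hs]
    refine le_trans (pint_mono_on hn0 _ (g := fun b => (Ioo (A - s ^ 2) (B - s ^ 2)).indicator 1
      (‖b - s • n‖ ^ 2)) fun b hb => ?_) ?_
    · by_cases h : b ∈ {Z : R3 | ‖Z‖ ^ 2 ∈ Ioo A B ∧ Z i ∈ Ioo c d}
      · have h1 := h.1
        rw [(key b hb).2] at h1
        rw [indicator_of_mem h, indicator_of_mem (show _ ∈ Ioo (A - s ^ 2) (B - s ^ 2) from
          ⟨by linarith [h1.1], by linarith [h1.2]⟩)]
        exact le_rfl
      · rw [indicator_of_notMem h]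
        exact zero_le
    · rw [pint_radial hn0 _ (φ := fun r => (Ioo (A - s ^ 2) (B - s ^ 2)).indicator 1 (r ^ 2))
        ((measurable_one.indicator measurableSet_Ioo).comp (measurable_id.pow_const 2))]
      refine (annulus _ _).trans (le_of_eq ?_)
      congr 2
      ring
  · rw [indicator_of_notMem hs]
    refine le_trans (pint_mono_on hn0 _ (g := fun _ => 0) fun b hb => ?_) (by simp [pint])
    rw [indicator_of_notMem]
    intro h
    exact hs ((key b hb).1 ▸ h.2)

theorem main (g : R3) (i : Fin 3) (c : ℝ) {δ : ℝ} (hδ : 0 < δ) :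
    ∫⁻ w, ENNReal.ofReal |inner ℝ g w| *
      {w : R3 | |inner ℝ g w * w i - c| < δ}.indicator 1 w ∂sphereMeasure ≤
      ENNReal.ofReal (16 * δ) := by
  rcases eq_or_ne g 0 with rfl | hg
  · simp
  set G := ‖g‖ with hG
  have hG0 : 0 < G := norm_pos_iff.2 hg
  obtain ⟨ε, hε0, hε1, hε2⟩ : ∃ ε : ℝ, 0 < ε ∧ ε ≤ 1 / 50 ∧ G * ε ≤ δ / 20 :=
    ⟨min (1 / 50) (δ / (20 * G)), lt_min (by norm_num) (by positivity), min_le_left _ _, by
      calc G * min (1 / 50) (δ / (20 * G)) ≤ G * (δ / (20 * G)) := by gcongr; exact min_le_right _ _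
        _ = δ / 20 := by field_simp⟩
  set E : Set R3 := {Z : R3 | ‖Z‖ ^ 2 ∈ Ioo (G ^ 2) (G ^ 2 * (1 + 21 / 5 * ε)) ∧
    Z i ∈ Ioo (2 * c - g i - 2 * δ - δ / 5) (2 * c - g i + 2 * δ + δ / 5)} with hE
  have hm : MeasurableSet E :=
    ((by fun_prop : Measurable fun Z : R3 => ‖Z‖ ^ 2) measurableSet_Ioo).inter
      ((by fun_prop : Measurable fun Z : R3 => Z i) measurableSet_Ioo)
  have hv : volume E ≤ _ := shell i _ _ _ _
  have h1 := (whole g hm).trans (mul_le_mul_right hv 2)
  have hmf : Measurable ((Sq g ⁻¹' E).indicator fun z => ENNReal.ofReal |(DSq g z).det|) := by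
    refine Measurable.indicator ?_ ((continuous_Sq g).measurable hm)
    simp only [det_DSq]
    fun_prop
  rw [polar hmf] at h1
  have h2 : ENNReal.ofReal (8 * G ^ 2 * ε) * ∫⁻ w, ENNReal.ofReal |inner ℝ g w| *
      {w : R3 | |inner ℝ g w * w i - c| < δ}.indicator 1 w ∂sphereMeasure ≤
      ∫⁻ w, (∫⁻ r in Ioi (0 : ℝ), ENNReal.ofReal (r ^ 2) *
        ((Sq g ⁻¹' E).indicator fun z => ENNReal.ofReal |(DSq g z).det|) (r • w)) ∂sphereMeasure := by
    rw [← lintegral_const_mul' _ _ ENNReal.ofReal_ne_top]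
    refine lintegral_mono_ae (ae_sphere.mono fun w hw => ?_)
    by_cases hw' : w ∈ {w : R3 | |inner ℝ g w * w i - c| < δ}
    swap
    · simp [indicator_of_notMem hw']
    rw [indicator_of_mem hw', Pi.one_apply, mul_one]
    have hw2 := abs_lt.1 (show |inner ℝ g w * w i - c| < δ from hw')
    have hσ : |2 * (inner ℝ g w * w i) - g i| ≤ G := by
      have h3 := norm_Sq g w
      rw [hw, one_pow, one_pow, mul_one] at h3
      have h4 : ‖Sq g w‖ = G := (pow_left_inj₀ (norm_nonneg _) hG0.le two_ne_zero).1 h3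
      have h5 := PiLp.norm_apply_le (Sq g w) i
      rw [h4, Real.norm_eq_abs] at h5
      convert h5 using 2
      simp [Sq, hw]
      ring
    calc ENNReal.ofReal (8 * G ^ 2 * ε) * ENNReal.ofReal |inner ℝ g w|
        = ∫⁻ _ in Ioo (1 : ℝ) (1 + ε), ENNReal.ofReal (8 * G ^ 2 * |inner ℝ g w|) := by
          rw [setLIntegral_const, Real.volume_Ioo, ← ENNReal.ofReal_mul (by positivity),
            ← ENNReal.ofReal_mul (by positivity)]
          congr 1
          ring
      _ ≤ ∫⁻ r in Ioo (1 : ℝ) (1 + ε), ENNReal.ofReal (r ^ 2) *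
        ((Sq g ⁻¹' E).indicator fun z => ENNReal.ofReal |(DSq g z).det|) (r • w) := by
          refine setLIntegral_mono' measurableSet_Ioo fun r hr => ?_
          have hr0 : 0 < r := by linarith [hr.1]
          have hn : ‖r • w‖ = r := by rw [norm_smul, hw, mul_one, Real.norm_eq_abs, abs_of_pos hr0]
          have hr2 : 1 < r ^ 2 := by nlinarith [hr.1]
          have hr3 : r ^ 2 < 1 + 2.02 * ε := by nlinarith [hr.1, hr.2]
          have hr4 : (r ^ 2) ^ 2 < 1 + 21 / 5 * ε := by nlinarith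
          have hmem : r • w ∈ Sq g ⁻¹' E := by
            refine ⟨?_, ?_⟩
            · rw [norm_Sq, hn, ← hG]
              have : 0 < G ^ 2 := by positivity
              constructor
              · exact lt_mul_of_one_lt_right this (by nlinarith)
              · exact mul_lt_mul_of_pos_left hr4 this
            · have e : Sq g (r • w) i = r ^ 2 * (2 * (inner ℝ g w * w i) - g i) := by
                simp [Sq, hn, inner_smul_right]
                ring
              rw [e]
              have h6 : (r ^ 2 - 1) * G ≤ δ / 5 := by nlinarith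
              have h7 := abs_le.1 hσ
              constructor <;> nlinarith [h7.1, h7.2]
          rw [indicator_of_mem hmem, det_DSq, hn, inner_smul_right, ← ENNReal.ofReal_mul (by positivity)]
          refine ENNReal.ofReal_le_ofReal ?_
          rw [abs_mul, abs_mul, abs_mul, abs_mul, abs_of_pos hr0, abs_of_pos (by positivity : 0 < G ^ 2),
            abs_of_pos (by positivity : 0 < r ^ 2), abs_of_pos (by norm_num : (0 : ℝ) < 8)]
          have h8 : 1 ≤ r ^ 5 := one_le_pow₀ hr.1.le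
          have h9 : 0 ≤ 8 * G ^ 2 * |inner ℝ g w| := by positivity
          calc _ ≤ r ^ 5 * (8 * G ^ 2 * |inner ℝ g w|) := le_mul_of_one_le_left h9 h8
            _ = _ := by ring
      _ ≤ _ := lintegral_mono_set fun r hr => lt_trans one_pos hr.1
  have h3 := h2.trans h1
  refine (ENNReal.mul_le_mul_iff_right (a := ENNReal.ofReal (8 * G ^ 2 * ε))
    (ENNReal.ofReal_pos.2 (by positivity)).ne' ENNReal.ofReal_ne_top).1 (h3.trans ?_)
  have e1 : Real.pi * (G ^ 2 * (1 + 21 / 5 * ε) - G ^ 2) = Real.pi * (21 / 5 * (G ^ 2 * ε)) := by ring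
  have e2 : 2 * c - g i + 2 * δ + δ / 5 - (2 * c - g i - 2 * δ - δ / 5) = 22 / 5 * δ := by ring
  rw [e1, e2, ← ENNReal.ofReal_mul (by positivity), ← ENNReal.ofReal_mul (by positivity),
    show (2 : ℝ≥0∞) = ENNReal.ofReal 2 by simp, ← ENNReal.ofReal_mul (by norm_num)]
  refine ENNReal.ofReal_le_ofReal ?_
  have h4 : 0 < G ^ 2 * ε * δ := by positivity
  have h5 := Real.pi_lt_d2
  nlinarith

end SlabA

theorem slab (a b : R3) (i : Fin 3) (c : ℝ) {δ : ℝ} (hδ : 0 < δ) :
    ∫⁻ w, ENNReal.ofReal |inner ℝ (a - b) w| *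
      {u : R3 | |u i - c| < δ}.indicator 1 (postVel a b w) ∂sphereMeasure ≤
      ENNReal.ofReal (16 * δ) := by
  refine le_of_eq_of_le (lintegral_congr fun w => ?_) (SlabA.main (a - b) i (a i - c) hδ)
  congr 1
  have : postVel a b w ∈ {u : R3 | |u i - c| < δ} ↔
      w ∈ {w : R3 | |inner ℝ (a - b) w * w i - (a i - c)| < δ} := by
    simp only [mem_ofPred_eq, postVel, PiLp.sub_apply, PiLp.smul_apply, smul_eq_mul]
    rw [abs_sub_comm]
    congr! 2
    ring
  by_cases h : postVel a b w ∈ {u : R3 | |u i - c| < δ}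
  · rw [indicator_of_mem h, indicator_of_mem (this.1 h)]
    rfl
  · rw [indicator_of_notMem h, indicator_of_notMem (fun h' => h (this.2 h'))]
theorem slabStar (a b : R3) (i : Fin 3) (c : ℝ) {δ : ℝ} (hδ : 0 < δ) :
    ∫⁻ w, ENNReal.ofReal |inner ℝ (a - b) w| *
      {u : R3 | |u i - c| < δ}.indicator 1 (postVelStar a b w) ∂sphereMeasure ≤
      ENNReal.ofReal (16 * δ) := by
  refine le_of_eq_of_le (lintegral_congr fun w => ?_) (SlabA.main (a - b) i (c - b i) hδ)
  congr 1
  have : postVelStar a b w ∈ {u : R3 | |u i - c| < δ} ↔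
      w ∈ {w : R3 | |inner ℝ (a - b) w * w i - (c - b i)| < δ} := by
    simp only [mem_ofPred_eq, postVelStar, PiLp.add_apply, PiLp.smul_apply, smul_eq_mul]
    congr! 2
    ring
  by_cases h : postVelStar a b w ∈ {u : R3 | |u i - c| < δ}
  · rw [indicator_of_mem h, indicator_of_mem (this.1 h)]
    rfl
  · rw [indicator_of_notMem h, indicator_of_notMem (fun h' => h (this.2 h'))]

end Crest.Agent.R68
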