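import Crest.Agent.R68.DefsD
import Crest.Agent.R68.Slab
import Crest.Agent.R68.Hom

/-! Survival factors and products.  `1 ≤ expNeg a + a`, `Reg.nu_le`, `nu_gs`, `rb_le_time`.  `1 ≤ chi u + 1[|u 0 - 0| < DD]` and `slab`, `sphere_abs_inner`.  `nu_low`: choose the sign `ε` opposite to that of `ξ 2`; then `‖ξ - (±e₃)‖ ≥ max 1 ‖ξ‖`, and `‖a ∓ e₃‖ ≤ 4 kap + 2w` on the support (`gk_supp`, `U_tile`); `gk_le_gs`, `Same.hat_`, `hom`. -/

set_option autoImplicit false

open MeasureTheory Set Filter Topology Crest.AnalysisR.VecCalc3 Crest.AnalysisR.PDE.Boltzmann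
open scoped ENNReal NNReal

namespace Crest.Agent.R68

theorem Ex_lower {P : Par} {N : ℕ} {T : ℝ} {F : Den} (hR : Reg P N T F) {s1 s2 : ℝ} (h0 : 0 ≤ s1) (h1 : s1 ≤ s2)
    (h2 : s2 ≤ T) (x u : R3) (hp : ∀ σ ∈ Ioo s1 s2, dd (x - (s2 - σ) • u) ≤ 2 * P.r) :
    1 ≤ Ex F s1 s2 x u + (∫⁻ σ in Ioo s1 s2, nu (gs P N σ (x - (s2 - σ) • u)) u) +
      ENNReal.ofReal ((s2 - s1) * (1 + ‖u‖)) := by
  refine (one_le_expNeg_add (∫⁻ σ in Ioo s1 s2, nu (F σ (x - (s2 - σ) • u)) u)).trans ?_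
  rw [add_assoc]
  refine add_le_add le_rfl ?_
  calc _ ≤ ∫⁻ σ in Ioo s1 s2, (nu (gs P N σ (x - (s2 - σ) • u)) u + ENNReal.ofReal (1 + ‖u‖)) :=
        setLIntegral_mono' measurableSet_Ioo fun σ hσ =>
          hR.nu_le σ ⟨h0.trans hσ.1.le, hσ.2.le.trans h2⟩ _ _ (hp σ hσ)
    _ = _ := by
        rw [lintegral_add_right _ measurable_const, setLIntegral_const, Real.volume_Ioo,
          ← ENNReal.ofReal_mul (by positivity), mul_comm]

theorem Ex_ge {ε Lv : ℝ} (hε : 0 < ε) (hLv : 0 ≤ Lv) : ∃ h0 > 0, ∀ {P : Par}, P.Ok → ∀ {N : ℕ} {T : ℝ} {F : Den},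
    Reg P N T F → T ≤ 1 → ∀ {s s1 s2 : ℝ}, 0 < s → s ≤ s1 → s1 ≤ s2 → s2 ≤ T → s2 - s1 ≤ h0 * s → ∀ x u : R3,
    ‖u‖ ≤ Lv → (∀ σ ∈ Ioo s1 s2, dd (x - (s2 - σ) • u) ≤ 2 * P.r) → ENNReal.ofReal (1 - ε) ≤ Ex F s1 s2 x u := by
  have hk := kap_pos
  have hc := LawA.cc_pos
  refine ⟨ε / ((1 + Lv) * (84 * cc / kap + 1)), by positivity, fun {P} hP {N T F} hR hT {s s1 s2} hs h1 h2 h3 h4
    x u hu hp => ?_⟩
  set h0 := ε / ((1 + Lv) * (84 * cc / kap + 1)) with hh0
  have hh : 0 < h0 := by positivity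
  have e0 : h0 * ((1 + Lv) * (84 * cc / kap + 1)) = ε := by rw [hh0]; field_simp
  have hs1 : s ≤ 1 := by linarith
  have key := Ex_lower hR (hs.le.trans h1) h2 h3 x u hp
  have b1 : (∫⁻ σ in Ioo s1 s2, nu (gs P N σ (x - (s2 - σ) • u)) u) ≤
      ENNReal.ofReal (h0 * ((1 + Lv) * (84 * cc / kap))) := by
    calc _ ≤ ∫⁻ σ in Ioo s1 s2, ENNReal.ofReal (21 * (1 + Lv) * (4 * cc / (kap * s))) := by
          refine setLIntegral_mono' measurableSet_Ioo fun σ hσ => ?_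
          have hσ0 : 0 < σ := hs.trans_le (h1.trans hσ.1.le)
          refine (nu_gs hP N ⟨hσ0.le, by linarith [hσ.2]⟩ _ _).trans ?_
          rw [ENNReal.ofReal_mul (by positivity), ENNReal.ofReal_mul (by positivity), ENNReal.ofReal_ofNat]
          refine mul_le_mul' (mul_le_mul' le_rfl (ENNReal.ofReal_le_ofReal (by linarith)))
            ((rb_le_time hP N hσ0 _).trans (ENNReal.ofReal_le_ofReal ?_))
          exact div_le_div_of_nonneg_left (by positivity) (by positivity)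
            (mul_le_mul_of_nonneg_left (by linarith [hσ.1]) hk.le)
      _ ≤ _ := by
          rw [setLIntegral_const, Real.volume_Ioo, ← ENNReal.ofReal_mul (by positivity)]
          refine ENNReal.ofReal_le_ofReal ((mul_le_mul_of_nonneg_left h4 (by positivity)).trans (le_of_eq ?_))
          field_simp
          ring
  have b2 : ENNReal.ofReal ((s2 - s1) * (1 + ‖u‖)) ≤ ENNReal.ofReal (h0 * (1 + Lv)) :=
    ENNReal.ofReal_le_ofReal (mul_le_mul (h4.trans (mul_le_of_le_one_right hh.le hs1)) (by linarith)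
      (by positivity) hh.le)
  have b3 : (1 : ℝ≥0∞) ≤ Ex F s1 s2 x u + ENNReal.ofReal ε := by
    refine key.trans ?_
    rw [add_assoc]
    refine add_le_add le_rfl ((add_le_add b1 b2).trans ?_)
    rw [← ENNReal.ofReal_add (by positivity) (by positivity), ← e0]
    exact ENNReal.ofReal_le_ofReal (le_of_eq (by ring))
  rw [ENNReal.ofReal_sub _ hε.le, ENNReal.ofReal_one]
  exact tsub_le_iff_right.2 b3

theorem post_norm (ξ a : R3) {w : R3} (hw : ‖w‖ = 1) :
    ‖postVel ξ a w‖ ≤ ‖ξ‖ + ‖a‖ ∧ ‖postVelStar ξ a w‖ ≤ ‖ξ‖ + ‖a‖ := by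
  have key : ∀ u : R3, ‖u - (inner ℝ u w) • w‖ ≤ ‖u‖ ∧ ‖(inner ℝ u w) • w‖ ≤ ‖u‖ := by
    intro u
    constructor
    · refine abs_le_of_sq_le_sq' ?_ (norm_nonneg _) |>.2
      rw [norm_sub_sq_real, norm_smul, hw, real_inner_smul_right, mul_one, Real.norm_eq_abs, sq_abs]
      nlinarith [sq_nonneg (inner ℝ u w)]
    · rw [norm_smul, hw, mul_one, Real.norm_eq_abs]
      simpa [hw] using abs_real_inner_le_norm u w
  have e1 : postVel ξ a w = (ξ - (inner ℝ ξ w) • w) + (inner ℝ a w) • w := by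
    rw [postVel, inner_sub_left, sub_smul]; abel
  have e2 : postVelStar ξ a w = (inner ℝ ξ w) • w + (a - (inner ℝ a w) • w) := by
    rw [postVelStar, inner_sub_left, sub_smul]; abel
  rw [e1, e2]
  exact ⟨(norm_add_le _ _).trans (add_le_add (key ξ).1 (key a).2),
    (norm_add_le _ _).trans (add_le_add (key ξ).2 (key a).1)⟩

theorem SurvX.one_le_chi (u : R3) : 1 ≤ chi u + {u : R3 | |u 0 - 0| < DD}.indicator 1 u := by
  unfold chi
  split_ifs with h
  · exact le_self_add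
  · rw [indicator_of_mem (show u ∈ {u : R3 | |u 0 - 0| < DD} from ?_)]
    · simp
    · rw [mem_setOf_eq, sub_zero]
      exact (le_max_left _ _).trans_lt (not_le.1 h)

theorem prod_chi (ξ a : R3) : ENNReal.ofReal (4 * Real.pi * ‖ξ - a‖) ≤
    (∫⁻ w, ENNReal.ofReal |inner ℝ (ξ - a) w| * (chi (postVel ξ a w) + chi (postVelStar ξ a w)) ∂sphereMeasure) +
      ENNReal.ofReal (32 * DD) := by
  have hD : 0 < DD := by norm_num [DD]
  have m0 : Measurable fun w : R3 => ENNReal.ofReal |inner ℝ (ξ - a) w| :=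
    (measurable_const.inner measurable_id).abs.ennreal_ofReal
  have m1 : Measurable fun w : R3 => postVel ξ a w :=
    (by unfold postVel; fun_prop : Continuous fun w : R3 => postVel ξ a w).measurable
  have m2 : Measurable fun w : R3 => postVelStar ξ a w :=
    (by unfold postVelStar; fun_prop : Continuous fun w : R3 => postVelStar ξ a w).measurable
  have mS : MeasurableSet {u : R3 | |u 0 - 0| < DD} := measurableSet_lt (by fun_prop) measurable_const
  have mI : Measurable ({u : R3 | |u 0 - 0| < DD}.indicator (1 : R3 → ℝ≥0∞)) := measurable_one.indicator mS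
  calc ENNReal.ofReal (4 * Real.pi * ‖ξ - a‖)
      = ∫⁻ w, (ENNReal.ofReal |inner ℝ (ξ - a) w| + ENNReal.ofReal |inner ℝ (ξ - a) w|) ∂sphereMeasure := by
        rw [lintegral_add_left m0, sphere_abs_inner, ← ENNReal.ofReal_add (by positivity) (by positivity)]
        congr 1
        ring
    _ ≤ ∫⁻ w, (ENNReal.ofReal |inner ℝ (ξ - a) w| * (chi (postVel ξ a w) + chi (postVelStar ξ a w)) +
          (ENNReal.ofReal |inner ℝ (ξ - a) w| * {u : R3 | |u 0 - 0| < DD}.indicator 1 (postVel ξ a w) +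
          ENNReal.ofReal |inner ℝ (ξ - a) w| * {u : R3 | |u 0 - 0| < DD}.indicator 1 (postVelStar ξ a w)))
          ∂sphereMeasure := by
        refine lintegral_mono fun w => ?_
        calc _ ≤ ENNReal.ofReal |inner ℝ (ξ - a) w| * (chi (postVel ξ a w) +
              {u : R3 | |u 0 - 0| < DD}.indicator 1 (postVel ξ a w)) +
              ENNReal.ofReal |inner ℝ (ξ - a) w| * (chi (postVelStar ξ a w) +
              {u : R3 | |u 0 - 0| < DD}.indicator 1 (postVelStar ξ a w)) :=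
            add_le_add (le_mul_of_one_le_right' (SurvX.one_le_chi _)) (le_mul_of_one_le_right' (SurvX.one_le_chi _))
          _ = _ := by ring
    _ ≤ _ := by
        have n1 : Measurable fun w : R3 => ENNReal.ofReal |inner ℝ (ξ - a) w| *
            {u : R3 | |u 0 - 0| < DD}.indicator (1 : R3 → ℝ≥0∞) (postVel ξ a w) := m0.mul (mI.comp m1)
        have n2 : Measurable fun w : R3 => ENNReal.ofReal |inner ℝ (ξ - a) w| *
            {u : R3 | |u 0 - 0| < DD}.indicator (1 : R3 → ℝ≥0∞) (postVelStar ξ a w) := m0.mul (mI.comp m2)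
        rw [lintegral_add_right _ (n1.fun_add n2), lintegral_add_left n1]
        refine add_le_add le_rfl ((add_le_add (slab ξ a 0 0 hD) (slabStar ξ a 0 0 hD)).trans ?_)
        rw [← ENNReal.ofReal_add (by positivity) (by positivity)]
        exact ENNReal.ofReal_le_ofReal (le_of_eq (by ring))

theorem SurvX.far (ξ : R3) : ∃ ε : Bool, max 1 ‖ξ‖ ≤ ‖ξ - EuclideanSpace.single 2 (sg ε)‖ := by
  have key : ∀ ε : Bool, sg ε * ξ 2 ≤ 0 → max 1 ‖ξ‖ ≤ ‖ξ - EuclideanSpace.single 2 (sg ε)‖ := by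
    intro ε h
    have e : ‖ξ - EuclideanSpace.single 2 (sg ε)‖ ^ 2 = ‖ξ‖ ^ 2 - 2 * (sg ε * ξ 2) + 1 := by
      rw [norm_sub_sq_real, EuclideanSpace.inner_single_right, PiLp.norm_single, Real.norm_eq_abs, abs_sg]
      simp
    refine max_le ?_ ?_
    · refine abs_le_of_sq_le_sq' ?_ (norm_nonneg _) |>.2
      rw [e]
      nlinarith [sq_nonneg ‖ξ‖]
    · refine abs_le_of_sq_le_sq' ?_ (norm_nonneg _) |>.2
      rw [e]
      linarith
  rcases le_total (ξ 2) 0 with h | h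
  · exact ⟨true, key _ (by simpa [sg] using h)⟩
  · exact ⟨false, key _ (by simpa [sg] using h)⟩

/-- lower bound for the number of collisions of a good state, upper bound for the cold mass it meets -/
theorem nu_low {δ Lv K h0 : ℝ} (hδ : 0 < δ) (hδ1 : δ ≤ 1) (hLv : 1 ≤ Lv) (hK : 1 ≤ K) (h0p : 0 < h0)
    (h01 : h0 ≤ 1 / 100) (h0δ : h0 * (Lv + 1) ≤ δ ^ 2 / 2) : ∃ M0 : ℕ, ∀ {P : Par}, P.Ok → M0 ≤ P.M →
    P.eta ≤ δ → ∀ {N : ℕ} {s : ℝ} {y ξ : R3}, 0 < s → s + h0 * s ≤ 1 → GoodSt P N δ Lv s y ξ → nrm y ≤ K * s →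
    0 < nrm y ∧
    ENNReal.ofReal (h0 * s * cc / (64 * nrm y) * (2 * Real.pi * (max 1 ‖ξ‖ - 1 / 1000))) ≤
      ∫⁻ σ in Ioo 0 (h0 * s), nu (gs P N (s + σ) (y + σ • ξ)) ξ ∧
    ∫⁻ σ in Ioo 0 (h0 * s), ∫⁻ a, gs P N (s + σ) (y + σ • ξ) a ≤ ENNReal.ofReal (h0 * s * cc / nrm y) := by
  obtain ⟨M0, hM0⟩ := hom hδ hδ1 hLv hK h0p h01 h0δ
  refine ⟨M0, fun {P} hP hM he {N s y ξ} hs hs1 hG hy => ?_⟩
  obtain ⟨τ, hD, hξ, hrel⟩ := hG
  have hc := LawA.cc_pos
  have x1 := tile_nrm hP hs.le (deep_tile hP hδ hs hD)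
  have n0 : 0 < nrm y := (X_pos hP _ hs.le).trans x1.1
  have stay : ∀ σ ∈ Ioo 0 (h0 * s), (s + σ) ∈ Icc (0 : ℝ) 1 ∧ Same (y + σ • ξ) (hat (y + σ • ξ)) ∧
      lab P τ (s + σ) (y + σ • ξ) ∈ tileL P τ := by
    intro σ hσ
    have hI : (s + σ) ∈ Icc (0 : ℝ) 1 := ⟨by linarith [hσ.1], by linarith [hσ.2]⟩
    have s3 : σ * (Lv + 1) ≤ δ ^ 2 * s / 2 := by
      linarith [mul_le_mul_of_nonneg_right hσ.2.le (by linarith : 0 ≤ Lv + 1),
        mul_le_mul_of_nonneg_right h0δ hs.le]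
    have t1 := deep_stay hP hδ hs hD hξ hσ.1.le s3
    exact ⟨hI, Same.hat_ ((tile_nrm hP hI.1 t1).2.trans ((X_lt_half hP _ hI).trans (by norm_num))), t1⟩
  refine ⟨n0, ?_, ?_⟩
  · obtain ⟨ε, hε⟩ := SurvX.far ξ
    have hm1 : (1 : ℝ) ≤ max 1 ‖ξ‖ := le_max_left _ _
    rw [ENNReal.ofReal_mul (by positivity)]
    refine (mul_le_mul_left (hM0 hP hM he ε hs hs1 hD hξ hrel hy) _).trans ?_
    rw [← lintegral_mul_const' _ _ ENNReal.ofReal_ne_top]
    refine setLIntegral_mono' measurableSet_Ioo fun σ hσ => ?_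
    obtain ⟨hI, hS, ht⟩ := stay σ hσ
    rw [← lintegral_mul_const' _ _ ENNReal.ofReal_ne_top]
    refine lintegral_mono fun a => ?_
    by_cases h0' : gk P (τ, ε) (s + σ) (y + σ • ξ) a = 0
    · simp [h0']
    rw [mul_comm]
    refine mul_le_mul' (ENNReal.ofReal_le_ofReal (mul_le_mul_of_nonneg_left ?_ (by positivity))) ?_
    · have a1 := (gk_supp hP hI h0').2.2.1
      have a2 := (U_tile hP (k := (τ, ε)) hI.1 ht).2
      have a3 := ww_le hP τ.1
      have a4 := hP.w1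
      have a5 := norm_sub_le_norm_sub_add_norm_sub a (U P (τ, ε) (s + σ) (y + σ • ξ))
        (EuclideanSpace.single 2 (sg ε))
      have a6 := norm_sub_le_norm_sub_add_norm_sub ξ a (EuclideanSpace.single 2 (sg ε))
      unfold kap at a2
      norm_num at a2 a4
      change ‖a - U P (τ, ε) (s + σ) (y + σ • ξ)‖ ≤ 2 * P.ww τ.1 at a1
      linarith
    · rw [hS.gk_eq]
      exact gk_le_gs hP (k := (τ, ε)) (by exact_mod_cast hD.1) hI _ _
  · calc _ ≤ ∫⁻ σ in Ioo 0 (h0 * s), ENNReal.ofReal (cc / nrm y) := by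
          refine setLIntegral_mono' measurableSet_Ioo fun σ hσ => ?_
          obtain ⟨hI, hS, ht⟩ := stay σ hσ
          refine (gs_mass_tile hP N hI (τ := τ) (by rwa [← hS.lab_eq])).trans (ENNReal.ofReal_le_ofReal ?_)
          refine div_le_div_of_nonneg_left hc.le n0 (x1.2.le.trans ?_)
          have := et_pos hP τ.1
          have := kap_pos
          unfold Par.X
          nlinarith [hσ.1]
      _ = _ := by
          rw [setLIntegral_const, Real.volume_Ioo, ← ENNReal.ofReal_mul (by positivity)]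
          congr 1
          rw [sub_zero]
          ring

end Crest.Agent.R68
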