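import Crest.Agent.R68.LowStep
import Crest.Agent.R68.Surv

/-! Good states produce productive particles.  `low_step` with `f = fG F s · 1[nrm ≤ K s]` (`good_gs`), `φ = chi · 1[nrm ≤ (K+1) s]`, `h = h0 s`.  All survival factors are `≥ 1/2` (`Ex_ge` with `Lv + 2`; paths stay in `nrm ≤ (K+1)s ≤ r/2`), so
`Aop ≥ (0.99/4)(2 ∫ν - 32 DD ∫ mass) ≥ c h0 s cc/nrm y ≥ c h0 cc/K` (`prod_chi`, `nu_low`: `2·2π·0.999/64 - 0.032 ≥ 0.16`). -/

set_option autoImplicit false

open MeasureTheory Set Filter Topology Crest.AnalysisR.VecCalc3 Crest.AnalysisR.PDE.Boltzmann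
open scoped ENNReal NNReal

namespace Crest.Agent.R68

theorem P1X.nrm_move (z u : R3) {t : ℝ} (ht : 0 ≤ t) : nrm (z + t • u) ≤ nrm z + t * ‖u‖ := by
  refine (nrm_add_le _ _).trans (add_le_add le_rfl ?_)
  rw [nrm_smul, abs_of_nonneg ht]
  exact mul_le_mul_of_nonneg_left (nrm_le_norm u) ht

theorem P1X.path {P : Par} (hP : P.Ok) {z u : R3} {s1 t : ℝ} (h : nrm z + t * ‖u‖ ≤ P.r / 2) :
    ∀ σ ∈ Ioo s1 (s1 + t), dd (z + t • u - (s1 + t - σ) • u) ≤ 2 * P.r := by
  intro σ hσ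
  have e : z + t • u - (s1 + t - σ) • u = z + (σ - s1) • u := by
    rw [add_sub_assoc, ← sub_smul]
    congr 2
    ring
  have h1 := P1X.nrm_move z u (t := σ - s1) (by linarith [hσ.1])
  have h2 : (σ - s1) * ‖u‖ ≤ t * ‖u‖ := mul_le_mul_of_nonneg_right (by linarith [hσ.2]) (norm_nonneg _)
  have h3 := hP.r0
  have h4 := hP.r1
  rw [e, dd_eq_nrm (by linarith)]
  linarith

theorem P1X.nrm_lift (y : ℝ × ℝ) : nrm (lift y) = ‖y‖ := by
  simp [nrm, lift, Prod.norm_def]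

theorem P1X.ball (ρ : ℝ) (g : ℝ × ℝ → ℝ≥0∞) :
    ∫⁻ y in Metric.closedBall (0 : ℝ × ℝ) ρ, g y = ∫⁻ y, if nrm (lift y) ≤ ρ then g y else 0 := by
  rw [← lintegral_indicator measurableSet_closedBall]
  refine lintegral_congr fun y => ?_
  simp only [indicator, mem_closedBall_zero_iff, P1X.nrm_lift]

/-- number of productive products -/
theorem P1X.prods {P : Par} {N : ℕ} {s h A : ℝ} {y ξ : R3} (hA : 0 ≤ A)
    (h1 : ENNReal.ofReal (A / 64 * (2 * Real.pi * (max 1 ‖ξ‖ - 1 / 1000))) ≤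
      ∫⁻ σ in Ioo 0 h, nu (gs P N (s + σ) (y + σ • ξ)) ξ)
    (h2 : ∫⁻ σ in Ioo 0 h, ∫⁻ a, gs P N (s + σ) (y + σ • ξ) a ≤ ENNReal.ofReal A) :
    ENNReal.ofReal (A / 10) ≤ ∫⁻ σ in Ioo 0 h, ∫⁻ a, gs P N (s + σ) (y + σ • ξ) a *
      ∫⁻ w, ENNReal.ofReal |inner ℝ (ξ - a) w| * (chi (postVel ξ a w) + chi (postVelStar ξ a w)) ∂sphereMeasure := by
  have hm : Measurable fun σ : ℝ => ∫⁻ a, gs P N (s + σ) (y + σ • ξ) a :=
    Measurable.lintegral_prod_right' (f := fun q : ℝ × R3 => gs P N (s + q.1) (y + q.1 • ξ) q.2)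
      ((measD_gs _).comp (by fun_prop) (by fun_prop) measurable_snd)
  have two : ∀ r : ℝ, 2 * ENNReal.ofReal r = ENNReal.ofReal (2 * r) := fun r => by
    rw [ENNReal.ofReal_mul (by norm_num), ENNReal.ofReal_ofNat]
  have key : 2 * ∫⁻ σ in Ioo 0 h, nu (gs P N (s + σ) (y + σ • ξ)) ξ ≤
      (∫⁻ σ in Ioo 0 h, ∫⁻ a, gs P N (s + σ) (y + σ • ξ) a *
        ∫⁻ w, ENNReal.ofReal |inner ℝ (ξ - a) w| * (chi (postVel ξ a w) + chi (postVelStar ξ a w)) ∂sphereMeasure) +
      ENNReal.ofReal (32 * DD) * ∫⁻ σ in Ioo 0 h, ∫⁻ a, gs P N (s + σ) (y + σ • ξ) a := by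
    rw [← lintegral_const_mul' _ _ (by norm_num), ← lintegral_const_mul' _ _ ENNReal.ofReal_ne_top,
      ← lintegral_add_right _ (hm.const_mul _)]
    refine lintegral_mono fun σ => ?_
    have hv : Measurable (gs P N (s + σ) (y + σ • ξ)) := (measD_gs _).vel _ _
    dsimp only
    rw [nu, ← lintegral_const_mul' _ _ (by norm_num), ← lintegral_const_mul' _ _ ENNReal.ofReal_ne_top,
      ← lintegral_add_right _ (hv.const_mul _)]
    refine lintegral_mono fun a => ?_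
    dsimp only
    calc 2 * (ENNReal.ofReal (2 * Real.pi * ‖ξ - a‖) * gs P N (s + σ) (y + σ • ξ) a)
        = ENNReal.ofReal (4 * Real.pi * ‖ξ - a‖) * gs P N (s + σ) (y + σ • ξ) a := by
          rw [← mul_assoc, two]
          congr 2
          ring
      _ ≤ _ := by
          refine (mul_le_mul_left (prod_chi ξ a) _).trans (le_of_eq ?_)
          ring
  have k2 := (mul_le_mul_right h1 2).trans (key.trans (add_le_add le_rfl (mul_le_mul_right h2 _)))
  have hD : 0 < DD := by norm_num [DD]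
  rw [← ENNReal.ofReal_mul (by positivity), two] at k2
  refine le_trans ?_ (tsub_le_iff_right.2 k2)
  rw [← ENNReal.ofReal_sub _ (by positivity)]
  refine ENNReal.ofReal_le_ofReal ?_
  have p3 := Real.pi_gt_three
  have m1 : (1 : ℝ) ≤ max 1 ‖ξ‖ := le_max_left _ _
  have m2 : 3 * (999 / 1000) ≤ Real.pi * (max 1 ‖ξ‖ - 1 / 1000) :=
    mul_le_mul p3.le (by linarith) (by norm_num) (by positivity)
  have m3 := mul_le_mul_of_nonneg_left m2 hA
  unfold DD
  nlinarith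

theorem p1 {δ Lv K : ℝ} (hδ : 0 < δ) (hδ1 : δ ≤ 1) (hLv : 1 ≤ Lv) (hK : 1 ≤ K) : ∃ (h0 : ℝ) (C : ℝ≥0) (M0 : ℕ),
    0 < h0 ∧ h0 ≤ 1 / K ∧ ∀ {P : Par}, P.Ok → M0 ≤ P.M → P.eta ≤ δ → P.w < δ → ∀ {N : ℕ} {T : ℝ} {F : Den},
    Reg P N T F → T ≤ 1 → ∀ {s : ℝ}, 0 < s → s + h0 * s ≤ T → (K + 1) * s ≤ P.r / 2 →
    Ngood P N δ Lv F s (K * s) ≤ C * Nf F (s + h0 * s) ((K + 1) * s) := by
  classical
  obtain ⟨h1, h1p, hEx⟩ := Ex_ge (ε := 1 / 2) (Lv := Lv + 2) (by norm_num) (by linarith)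
  obtain ⟨h0, h0p, ha, hb, hc, hd⟩ : ∃ h0 : ℝ, 0 < h0 ∧ h0 ≤ h1 ∧ h0 ≤ 1 / K ∧ h0 ≤ 1 / 100 ∧
      h0 * (Lv + 2) ≤ δ ^ 2 / 2 := by
    refine ⟨min (min h1 (1 / K)) (min (1 / 100) (δ ^ 2 / 2 / (Lv + 2))), by positivity,
      (min_le_left _ _).trans (min_le_left _ _), (min_le_left _ _).trans (min_le_right _ _),
      (min_le_right _ _).trans (min_le_left _ _), ?_⟩
    rw [← le_div_iff₀ (by positivity)]
    exact (min_le_right _ _).trans (min_le_right _ _)
  obtain ⟨M0, hM0⟩ := nu_low hδ hδ1 hLv hK h0p hc (by nlinarith)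
  have hcc := LawA.cc_pos
  set c : ℝ := 99 / 400 * (h0 * cc / K / 10) with hcdef
  have hc0 : 0 < c := by positivity
  refine ⟨h0, Real.toNNReal c⁻¹, M0, h0p, hb, fun {P} hP hM he hw {N T F} hR hT {s} hs hsT hr => ?_⟩
  have hF : MeasD F := hR.mild.choose_spec.1
  have hh : 0 < h0 * s := by positivity
  have hs' : s ∈ Icc 0 T := ⟨hs.le, by linarith⟩
  have r0 := hP.r0
  have r1 := hP.r1
  have hδ2 : δ ^ 2 ≤ 1 := by nlinarith
  have hmv : h0 * s * (Lv + 2) ≤ s := by nlinarith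
  set f : R3 → R3 → ℝ≥0∞ := fun y ξ => if nrm y ≤ K * s then fG P N δ Lv F s y ξ else 0 with hf
  set φ : R3 → R3 → ℝ≥0∞ := fun y v => if nrm y ≤ (K + 1) * s then chi v else 0 with hφ
  have step := low_step hR hs.le hh.le hsT (f := f) (φ := φ)
    (Measurable.ite (measurableSet_le (measurable_nrm.comp measurable_fst) measurable_const)
      ((measD_fG N δ Lv hF).slice s) measurable_const)
    (fun y y' h => by
      funext ξ
      simp only [hf, h.nrm_eq, sameInv_fG N δ Lv hR.inv hs' y y' h])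
    (fun y ξ => by
      simp only [hf, fG]
      split_ifs <;> simp)
    (fun y ξ h => by
      simp only [hf, fG] at h
      split_ifs at h with g1 g2
      · exact good_gs hP hw hs (by linarith) (by nlinarith) g2
      · exact absurd rfl h
      · exact absurd rfl h)
    (Measurable.ite (measurableSet_le (measurable_nrm.comp measurable_fst) measurable_const)
      (measurable_chi.comp measurable_snd) measurable_const)
    (fun y y' h => by
      funext ξ
      simp only [hφ, h.nrm_eq])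
  have low : ∀ y ξ, nrm y ≤ K * s → GoodSt P N δ Lv s y ξ → ENNReal.ofReal c ≤ Aop P N F s (h0 * s) φ y ξ := by
    intro y ξ hy hG
    obtain ⟨n0, l1, l2⟩ := hM0 hP hM he hs (by linarith) hG hy
    have hξ : ‖ξ‖ ≤ Lv := hG.choose_spec.2.1
    have l3 := P1X.prods (P := P) (N := N) (s := s) (h := h0 * s) (A := h0 * s * cc / nrm y) (y := y) (ξ := ξ)
      (by positivity) (by rwa [div_div, mul_comm (nrm y)]) l2
    have l4 : ENNReal.ofReal (h0 * cc / K / 10) ≤ ENNReal.ofReal (h0 * s * cc / nrm y / 10) := by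
      refine ENNReal.ofReal_le_ofReal (div_le_div_of_nonneg_right ?_ (by norm_num))
      rw [div_le_div_iff₀ (by positivity) n0]
      nlinarith [mul_le_mul_of_nonneg_left hy (mul_pos h0p hcc).le]
    rw [hcdef, ENNReal.ofReal_mul (by norm_num)]
    refine (mul_le_mul_right (l4.trans l3) _).trans (le_trans ?_ le_add_self)
    rw [← lintegral_const_mul' _ _ ENNReal.ofReal_ne_top]
    refine setLIntegral_mono' measurableSet_Ioo fun σ hσ => ?_
    have q1 : σ * ‖ξ‖ ≤ σ * (Lv + 2) := mul_le_mul_of_nonneg_left (by linarith) hσ.1.le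
    have q2 : σ * (Lv + 2) ≤ h0 * s * (Lv + 2) := mul_le_mul_of_nonneg_right hσ.2.le (by linarith)
    have q3 : h0 * s ≤ h1 * s := mul_le_mul_of_nonneg_right ha hs.le
    have E1 : ENNReal.ofReal (1 - 1 / 2) ≤ Ex F s (s + σ) (y + σ • ξ) ξ :=
      hEx hP hR hT hs le_rfl (by linarith [hσ.1]) (by linarith [hσ.2]) (by linarith [hσ.2]) _ _ (by linarith)
        (P1X.path hP (by linarith))
    have hI : s + σ ∈ Icc (0 : ℝ) 1 := ⟨by linarith [hσ.1], by linarith [hσ.2]⟩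
    have E2 : ∀ u : R3, ‖u‖ ≤ Lv + 2 → ENNReal.ofReal (1 - 1 / 2) * chi u ≤
        Ex F (s + σ) (s + h0 * s) (y + σ • ξ + (h0 * s - σ) • u) u * φ (y + σ • ξ + (h0 * s - σ) • u) u := by
      intro u hu
      have t0 : 0 ≤ h0 * s - σ := by linarith [hσ.2]
      have t1 := P1X.nrm_move y ξ hσ.1.le
      have t2 : (h0 * s - σ) * ‖u‖ ≤ (h0 * s - σ) * (Lv + 2) := mul_le_mul_of_nonneg_left hu t0
      have t3 : nrm (y + σ • ξ) + (h0 * s - σ) * ‖u‖ ≤ (K + 1) * s := by linarith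
      refine mul_le_mul' ?_ ?_
      · have t4 := P1X.path hP (z := y + σ • ξ) (u := u) (s1 := s + σ) (t := h0 * s - σ) (t3.trans hr)
        rw [show s + σ + (h0 * s - σ) = s + h0 * s by ring] at t4
        exact hEx hP hR hT hs (by linarith [hσ.1]) (by linarith) hsT (by linarith [hσ.1]) _ _ hu t4
      · simp only [hφ]
        rw [if_pos ((P1X.nrm_move _ u t0).trans t3)]
    rw [show (99 / 400 : ℝ) = (1 - 1 / 2) * (99 / 100 * (1 - 1 / 2)) by norm_num, ENNReal.ofReal_mul (by norm_num),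
      mul_assoc]
    refine mul_le_mul' E1 ?_
    rw [← lintegral_const_mul' _ _ ENNReal.ofReal_ne_top]
    refine lintegral_mono fun a => ?_
    by_cases g0 : gs P N (s + σ) (y + σ • ξ) a = 0
    · simp [g0]
    have ha2 : ‖a‖ ≤ 2 := (G_supp hP hI (N := N) (x := y + σ • ξ)
      fun h => g0 (le_antisymm ((gs_le_G _ _ _ _).trans h.le) zero_le)).1
    dsimp only
    rw [ENNReal.ofReal_mul (by norm_num), mul_mul_mul_comm]
    refine mul_le_mul_right ?_ _
    rw [← lintegral_const_mul' _ _ ENNReal.ofReal_ne_top]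
    refine lintegral_mono_ae (ae_sphere.mono fun w hw1 => ?_)
    obtain ⟨n1, n2⟩ := post_norm ξ a hw1
    rw [mul_left_comm, mul_add]
    exact mul_le_mul_right (add_le_add (E2 _ (by linarith)) (E2 _ (by linarith))) _
  have e1 : Nf F (s + h0 * s) ((K + 1) * s) =
      ∫⁻ y : ℝ × ℝ, ∫⁻ v, F (s + h0 * s) (lift y) v * φ (lift y) v := by
    rw [Nf, P1X.ball]
    refine lintegral_congr fun y => ?_
    simp only [hφ]
    split_ifs <;> simp
  have e2 : ENNReal.ofReal c * Ngood P N δ Lv F s (K * s) ≤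
      ∫⁻ y : ℝ × ℝ, ∫⁻ ξ, f (lift y) ξ * Aop P N F s (h0 * s) φ (lift y) ξ := by
    rw [Ngood, P1X.ball, ← lintegral_const_mul' _ _ ENNReal.ofReal_ne_top]
    refine lintegral_mono fun y => ?_
    dsimp only
    split_ifs with g1
    · rw [← lintegral_const_mul' _ _ ENNReal.ofReal_ne_top]
      refine lintegral_mono fun ξ => ?_
      simp only [hf, fG, if_pos g1]
      split_ifs with g2
      · rw [mul_comm]
        exact mul_le_mul_right (low _ _ g1 g2) _
      · simp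
    · simp
  rw [e1]
  calc Ngood P N δ Lv F s (K * s) = ENNReal.ofReal c⁻¹ * (ENNReal.ofReal c * Ngood P N δ Lv F s (K * s)) := by
        rw [← mul_assoc, ← ENNReal.ofReal_mul (by positivity), inv_mul_cancel₀ hc0.ne', ENNReal.ofReal_one, one_mul]
    _ ≤ _ := mul_le_mul_right (e2.trans step) _

end Crest.Agent.R68
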