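import Crest.Agent.R68.Symm

/-! Plane integrals for a target velocity `a` with `‖a‖ ≤ 3`, and moment bounds.  On the plane through `v`
orthogonal to `v - a`: `‖η - a‖² = R² + ‖η - v‖²`, `R = ‖v - a‖`; with `ϱ = ‖η - a‖ ≥ R`:
`‖η‖ ≥ ϱ - 3`, `‖η‖ ≤ ‖v‖ + (ϱ - R) + 6`, `‖v‖ ≤ R + 3`, so
`Φ(‖η‖) e^{-λ‖η‖} ≤ C Φ(‖v‖) e^{-λ‖v‖} e^{-λ(ϱ-R)/2}` and `∫_R^∞ e^{-λ(ϱ-R)/2} ϱ dϱ ≤ C(1+R)`. -/

set_option autoImplicit false

open MeasureTheory Set Filter Topology Crest.AnalysisR.VecCalc3 Crest.AnalysisR.PDE.Boltzmann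
open scoped ENNReal NNReal

namespace Crest.Agent.R68

namespace PLA

theorem rad {μ R : ℝ} (hμ : 0 < μ) (hR : 0 ≤ R) :
    ∫⁻ r in Ioi (0 : ℝ), ENNReal.ofReal (2 * Real.pi * r) *
      ENNReal.ofReal (Real.exp (-(μ * (√(R ^ 2 + r ^ 2) - R)))) =
      ENNReal.ofReal (2 * Real.pi * (μ * R + 1) / μ ^ 2) := by
  set c : ℝ := 2 * Real.pi * Real.exp (μ * R) / μ ^ 2 with hc
  have hd : ∀ r ∈ Ioi (0 : ℝ), HasDerivAt
      (fun r : ℝ => -(c * ((μ * √(R ^ 2 + r ^ 2) + 1) * Real.exp (-(μ * √(R ^ 2 + r ^ 2))))))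
      (2 * Real.pi * r * Real.exp (-(μ * (√(R ^ 2 + r ^ 2) - R)))) r := by
    intro r hr
    have hr' : 0 < r := hr
    have h0 : 0 < R ^ 2 + r ^ 2 := by positivity
    have h1 : HasDerivAt (fun r : ℝ => μ * √(R ^ 2 + r ^ 2)) (μ * (2 * r / (2 * √(R ^ 2 + r ^ 2)))) r := by
      have := (((hasDerivAt_pow 2 r).const_add (R ^ 2)).sqrt h0.ne').const_mul μ
      simpa using this
    have h2 := (((h1.add_const 1).fun_mul h1.fun_neg.exp).const_mul c).fun_neg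
    refine h2.congr_deriv ?_
    have h3 : 0 < √(R ^ 2 + r ^ 2) := Real.sqrt_pos.2 h0
    rw [mul_sub, neg_sub, sub_eq_add_neg (μ * R), Real.exp_add, hc]
    field_simp
    ring
  have hcont : ContinuousWithinAt
      (fun r : ℝ => -(c * ((μ * √(R ^ 2 + r ^ 2) + 1) * Real.exp (-(μ * √(R ^ 2 + r ^ 2)))))) (Ici 0) 0 :=
    Continuous.continuousWithinAt (by fun_prop)
  have hpos : ∀ r ∈ Ioi (0 : ℝ), 0 ≤ 2 * Real.pi * r * Real.exp (-(μ * (√(R ^ 2 + r ^ 2) - R))) := by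
    intro r hr
    have hr' : 0 < r := hr
    positivity
  have hu : Tendsto (fun r : ℝ => μ * √(R ^ 2 + r ^ 2)) atTop atTop :=
    (Real.tendsto_sqrt_atTop.comp (tendsto_atTop_add_const_left _ _ (tendsto_pow_atTop two_ne_zero))).const_mul_atTop hμ
  have hl : Tendsto (fun r : ℝ => -(c * ((μ * √(R ^ 2 + r ^ 2) + 1) * Real.exp (-(μ * √(R ^ 2 + r ^ 2))))))
      atTop (𝓝 0) := by
    have h1 := ((((Real.tendsto_pow_mul_exp_neg_atTop_nhds_zero 1).add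
      Real.tendsto_exp_neg_atTop_nhds_zero).const_mul c).neg).comp hu
    simp only [add_zero, mul_zero, neg_zero] at h1
    refine h1.congr fun r => ?_
    simp only [Function.comp, pow_one]
    ring
  have e1 := integral_Ioi_of_hasDerivAt_of_nonneg hcont hd hpos hl
  have e2 := integrableOn_Ioi_deriv_of_nonneg hcont hd hpos hl
  rw [setLIntegral_congr_fun measurableSet_Ioi (g := fun r =>
    ENNReal.ofReal (2 * Real.pi * r * Real.exp (-(μ * (√(R ^ 2 + r ^ 2) - R))))) fun r hr =>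
      (ENNReal.ofReal_mul (by have : 0 < r := hr; positivity)).symm,
    ← ofReal_integral_eq_lintegral_ofReal e2 ((ae_restrict_iff' measurableSet_Ioi).2 (ae_of_all _ hpos)), e1]
  congr 1
  rw [zero_pow two_ne_zero, add_zero, Real.sqrt_sq hR, hc, Real.exp_neg]
  field_simp
  ring

theorem fin_exp {μ : ℝ} (hμ : 0 < μ) (k : ℕ) :
    ∫⁻ q : R3, ENNReal.ofReal (Real.exp (-(μ * ‖q‖)) * (2 + ‖q‖) ^ k) ≠ ⊤ := by
  have h1 : Integrable (fun q : R3 => (1 + ‖q‖) ^ (-(4 : ℝ))) :=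
    integrable_one_add_norm (by simp; norm_num)
  refine ne_top_of_le_ne_top (h1.const_mul ((k + 4).factorial * Real.exp (2 * μ) / μ ^ (k + 4))).lintegral_lt_top.ne
    (lintegral_mono fun q => ENNReal.ofReal_le_ofReal ?_)
  have h0 := norm_nonneg q
  generalize ‖q‖ = y at h0
  have h2 := Real.pow_div_factorial_le_exp (μ * (2 + y)) (by positivity) (k + 4)
  rw [Real.rpow_neg (by positivity), show (4 : ℝ) = (4 : ℕ) by norm_num, Real.rpow_natCast, ← div_eq_mul_inv,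
    le_div_iff₀ (by positivity), le_div_iff₀ (by positivity), Real.exp_neg]
  rw [div_le_iff₀ (by positivity), mul_add μ, Real.exp_add, mul_comm μ 2] at h2
  have h3 : (1 + y) ^ 4 ≤ (2 + y) ^ 4 := by gcongr; norm_num
  calc (Real.exp (μ * y))⁻¹ * (2 + y) ^ k * (1 + y) ^ 4 * μ ^ (k + 4)
      ≤ (Real.exp (μ * y))⁻¹ * (2 + y) ^ k * (2 + y) ^ 4 * μ ^ (k + 4) := by gcongr
    _ = (Real.exp (μ * y))⁻¹ * (2 * μ + μ * y) ^ (k + 4) := by
        rw [show 2 * μ + μ * y = (2 + y) * μ by ring, mul_pow, pow_add (2 + y)]; ring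
    _ ≤ (Real.exp (μ * y))⁻¹ * (Real.exp (2 * μ) * Real.exp (μ * y) * (k + 4).factorial) := by gcongr
    _ = _ := by field_simp

theorem measurable_ew (lam : ℝ) : Measurable (ew lam) := by unfold ew; fun_prop

theorem mom_exp {lam : ℝ} (hl : 0 < lam) (k : ℕ) : ∃ C : ℝ≥0, ∀ {h : R3 → ℝ≥0∞}, Measurable h →
    ∀ {A : ℝ≥0∞}, PB h (fun y => A * ew lam y) →
    ∫⁻ a, h a * (pw k a * ENNReal.ofReal (Real.exp (lam / 2 * ‖a‖))) ≤ C * A := by
  have hf := fin_exp (half_pos hl) k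
  refine ⟨(ENNReal.ofReal (Real.exp (lam / 2)) *
    ∫⁻ q : R3, ENNReal.ofReal (Real.exp (-(lam / 2 * ‖q‖)) * (2 + ‖q‖) ^ k)).toNNReal, fun {h} hh {A} hP => ?_⟩
  rw [ENNReal.coe_toNNReal (ENNReal.mul_ne_top ENNReal.ofReal_ne_top hf)]
  refine (cover_vol (Ψ := fun a => pw k a * ENNReal.ofReal (Real.exp (lam / 2 * ‖a‖))) (Ψ' := fun q => ENNReal.ofReal ((2 + ‖q‖) ^ k * Real.exp (lam / 2 * (‖q‖ + 1)))) hh
    ((measurable_pw k).mul (by fun_prop)) ((measurable_ew lam).const_mul A) (by fun_prop) hP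
    fun q b hqb => ?_).trans (le_of_eq ?_)
  · rw [pw, ← ENNReal.ofReal_mul (by positivity)]
    refine ENNReal.ofReal_le_ofReal ?_
    have h1 : ‖b‖ ≤ ‖q‖ + 1 := by
      have := norm_sub_norm_le b q
      rw [dist_eq_norm] at hqb
      linarith
    exact mul_le_mul (pow_le_pow_left₀ (by positivity) (by linarith) k)
      (Real.exp_le_exp.2 (mul_le_mul_of_nonneg_left h1 (half_pos hl).le)) (Real.exp_pos _).le (by positivity)
  · rw [← lintegral_const_mul _ (by fun_prop), ← lintegral_mul_const _ (by fun_prop)]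
    refine lintegral_congr fun q => ?_
    rw [mul_assoc, mul_comm A, ew, ← ENNReal.ofReal_mul (Real.exp_pos _).le,
      ← ENNReal.ofReal_mul (Real.exp_pos _).le]
    congr 2
    rw [mul_left_comm, ← Real.exp_add, ← mul_assoc, ← Real.exp_add, mul_comm]
    congr 2
    ring

theorem slow_bd {lam : ℝ} (hl : 0 < lam) {Φ : ℝ → ℝ≥0∞} (hΦ : Slow lam Φ) {x y d : ℝ} (hx : 0 ≤ x)
    (hd : 0 ≤ d) (h : d - 6 ≤ y - x) :
    Φ y * ew lam y ≤ ENNReal.ofReal (Real.exp (6 * lam)) * Φ x * ew lam x *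
      ENNReal.ofReal (Real.exp (-(lam / 2 * d))) := by
  rw [mul_comm _ (Φ x), mul_assoc, mul_assoc, ew, ew, ← ENNReal.ofReal_mul (Real.exp_pos _).le,
    ← ENNReal.ofReal_mul (Real.exp_pos _).le, ← Real.exp_add, ← Real.exp_add]
  rcases le_total x y with hxy | hxy
  · refine (mul_le_mul_left (hΦ.2 x y hx hxy) _).trans ?_
    rw [mul_assoc, ← ENNReal.ofReal_mul (Real.exp_pos _).le, ← Real.exp_add]
    refine mul_le_mul_right (ENNReal.ofReal_le_ofReal (Real.exp_le_exp.2 ?_)) _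
    nlinarith
  · refine mul_le_mul' (hΦ.1 hxy) (ENNReal.ofReal_le_ofReal (Real.exp_le_exp.2 ?_))
    nlinarith

theorem pyth {p n : R3} (h : inner ℝ p n = 0) : ‖p + n‖ = √(‖n‖ ^ 2 + ‖p‖ ^ 2) := by
  rw [← Real.sqrt_sq (norm_nonneg (p + n)), norm_add_sq_real, h]
  congr 1; ring

theorem pint_exp {μ : ℝ} (hμ : 0 < μ) {n : R3} (hn : n ≠ 0) (z : R3) :
    pint n z (fun q => ENNReal.ofReal (Real.exp (-(μ * ‖q‖)))) ≤ ENNReal.ofReal (2 * Real.pi / μ ^ 2) := by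
  have hn' : ‖n‖ ≠ 0 := norm_ne_zero_iff.2 hn
  set z0 : R3 := (inner ℝ z n / ‖n‖ ^ 2) • n with hz0
  have h1 : inner ℝ (z0 - z) n = 0 := by
    rw [inner_sub_left, hz0, real_inner_smul_left, real_inner_self_eq_norm_sq, div_mul_cancel₀ _ (pow_ne_zero 2 hn'),
      sub_self]
  rw [← pint_translate hn h1 z (by fun_prop), add_sub_cancel]
  have h2 := rad hμ le_rfl
  rw [mul_zero, zero_add, mul_one] at h2
  rw [← h2, ← pint_radial hn z0 (φ := fun r => ENNReal.ofReal (Real.exp (-(μ * (√(0 ^ 2 + r ^ 2) - 0)))))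
    (by fun_prop)]
  refine pint_mono_on hn z0 fun b hb => ENNReal.ofReal_le_ofReal (Real.exp_le_exp.2 ?_)
  have h3 : inner ℝ (b - z0) z0 = 0 := by
    nth_rewrite 2 [hz0]
    rw [real_inner_smul_right, hb, mul_zero]
  have h4 := pyth h3
  rw [sub_add_cancel] at h4
  rw [neg_le_neg_iff, sub_zero, h4]
  gcongr
  exact norm_nonneg _

end PLA

open PLA

theorem PL {lam : ℝ} (hl : 0 < lam) : ∃ C : ℝ≥0, ∀ {h : R3 → ℝ≥0∞}, Measurable h →
    ∀ {Φ : ℝ → ℝ≥0∞}, Slow lam Φ → PB h (fun y => Φ y * ew lam y) → ∀ v a : R3, ‖a‖ ≤ 3 → a ≠ v →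
    pint (v - a) v h ≤ C * Φ ‖v‖ * W lam v * ENNReal.ofReal (1 + ‖v - a‖) := by
  refine ⟨(Real.exp (6 * lam) * (2 * Real.pi * (lam / 2 + 1) / (lam / 2) ^ 2)).toNNReal,
    fun {h} hh {Φ} hΦ hP v a ha hav => ?_⟩
  have hn : v - a ≠ 0 := sub_ne_zero.2 hav.symm
  have h1 := cover (Ψ := fun _ => 1) (Ψ' := fun _ => 1) hh measurable_const hP (fun _ _ _ => le_rfl) hn v
  simp only [mul_one] at h1
  have hR := norm_nonneg (v - a)
  refine h1.trans ((pint_mono_on hn v (g := fun q => ENNReal.ofReal (Real.exp (6 * lam)) * Φ ‖v‖ * ew lam ‖v‖ *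
    ENNReal.ofReal (Real.exp (-(lam / 2 * (√(‖v - a‖ ^ 2 + ‖q - v‖ ^ 2) - ‖v - a‖))))) fun q hq => ?_).trans ?_)
  · have h2 := pyth hq
    rw [sub_add_sub_cancel] at h2
    refine slow_bd hl hΦ (norm_nonneg v) (sub_nonneg.2 (Real.le_sqrt_of_sq_le (by nlinarith))) ?_
    rw [← h2]
    have h3 := norm_sub_le q a
    have h4 := norm_sub_norm_le v a
    linarith
  · rw [pint_cmul _ _ _ (by fun_prop), pint_radial hn v
      (φ := fun r => ENNReal.ofReal (Real.exp (-(lam / 2 * (√(‖v - a‖ ^ 2 + r ^ 2) - ‖v - a‖))))) (by fun_prop),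
      rad (half_pos hl) hR]
    change _ ≤ ENNReal.ofReal _ * Φ ‖v‖ * ew lam ‖v‖ * _
    rw [ENNReal.ofReal_mul (Real.exp_pos _).le]
    have h2 : ENNReal.ofReal (2 * Real.pi * (lam / 2 * ‖v - a‖ + 1) / (lam / 2) ^ 2) ≤
        ENNReal.ofReal (2 * Real.pi * (lam / 2 + 1) / (lam / 2) ^ 2) * ENNReal.ofReal (1 + ‖v - a‖) := by
      rw [← ENNReal.ofReal_mul (by positivity), div_mul_eq_mul_div (2 * Real.pi * _), mul_assoc (2 * Real.pi)]
      refine ENNReal.ofReal_le_ofReal ?_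
      gcongr
      nlinarith
    refine (mul_le_mul_right h2 _).trans (le_of_eq ?_)
    ring

theorem PL_tail {lam : ℝ} (hl : 0 < lam) : ∃ C : ℝ≥0, ∀ {h : R3 → ℝ≥0∞}, Measurable h →
    ∀ {Φ : ℝ → ℝ≥0∞}, Slow lam Φ → PB h (fun y => Φ y * ew lam y) → ∀ (n z : R3) (L : ℝ), n ≠ 0 →
    pint n z ({η : R3 | L ≤ ‖η‖}.indicator h) ≤ C * Φ 0 * ew (lam / 4) L := by
  refine ⟨(Real.exp (lam / 4) * (2 * Real.pi / (lam / 4) ^ 2)).toNNReal,
    fun {h} hh {Φ} hΦ hP n z L hn => ?_⟩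
  have h1 := cover (Ψ := fun b => ENNReal.ofReal (Real.exp (lam / 4 * ‖b‖)))
    (Ψ' := fun q => ENNReal.ofReal (Real.exp (lam / 4 * (‖q‖ + 1)))) hh (by fun_prop) hP (fun q b hqb => by
      have := norm_sub_norm_le b q
      rw [dist_eq_norm] at hqb
      exact ENNReal.ofReal_le_ofReal (Real.exp_le_exp.2 (by nlinarith))) hn z
  have h2 : pint n z (fun q => Φ ‖q‖ * ew lam ‖q‖ * ENNReal.ofReal (Real.exp (lam / 4 * (‖q‖ + 1)))) ≤
      pint n z (fun q => ENNReal.ofReal (Real.exp (lam / 4)) * Φ 0 *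
        ENNReal.ofReal (Real.exp (-(lam / 4 * ‖q‖)))) := by
    refine pint_mono _ _ fun q => ?_
    refine (mul_le_mul_left (mul_le_mul_left (hΦ.2 0 ‖q‖ le_rfl (norm_nonneg q)) _) _).trans (le_of_eq ?_)
    rw [mul_comm _ (Φ 0), mul_assoc, mul_assoc, mul_assoc, ew, ← ENNReal.ofReal_mul (Real.exp_pos _).le,
      ← ENNReal.ofReal_mul (Real.exp_pos _).le, ← ENNReal.ofReal_mul (Real.exp_pos _).le,
      ← Real.exp_add, ← Real.exp_add, ← Real.exp_add]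
    congr 3
    ring
  rw [pint_cmul _ _ _ (by fun_prop)] at h2
  calc pint n z ({η : R3 | L ≤ ‖η‖}.indicator h)
      ≤ pint n z (fun b => ew (lam / 4) L * (h b * ENNReal.ofReal (Real.exp (lam / 4 * ‖b‖)))) := by
        refine pint_mono _ _ fun b => ?_
        by_cases hb : b ∈ {η : R3 | L ≤ ‖η‖}
        · rw [indicator_of_mem hb, mul_left_comm, ew, ← ENNReal.ofReal_mul (Real.exp_pos _).le, ← Real.exp_add]
          refine le_mul_of_one_le_right' (ENNReal.one_le_ofReal.2 (Real.one_le_exp ?_))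
          have : L ≤ ‖b‖ := hb
          nlinarith
        · rw [indicator_of_notMem hb]; exact zero_le
    _ = ew (lam / 4) L * pint n z (fun b => h b * ENNReal.ofReal (Real.exp (lam / 4 * ‖b‖))) :=
        pint_cmul _ _ _ (hh.mul (by fun_prop))
    _ ≤ ew (lam / 4) L * (ENNReal.ofReal (Real.exp (lam / 4)) * Φ 0 * ENNReal.ofReal (2 * Real.pi / (lam / 4) ^ 2)) :=
        mul_le_mul_right (h1.trans (h2.trans (mul_le_mul_right (pint_exp (by positivity) hn z) _))) _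
    _ = _ := by
        change _ = ENNReal.ofReal _ * _ * _
        rw [ENNReal.ofReal_mul (Real.exp_pos _).le]
        ring

theorem QG {lam : ℝ} (hl : 0 < lam) : ∃ C : ℝ≥0, ∀ {g h : R3 → ℝ≥0∞}, Measurable g → Measurable h →
    (∀ a, g a ≠ 0 → ‖a‖ ≤ 3) → ∀ {Φ : ℝ → ℝ≥0∞}, Slow lam Φ → PB h (fun y => Φ y * ew lam y) →
    ∀ v, Qp g h v ≤ C * Φ ‖v‖ * W lam v * ((∫⁻ a, g a) + S2 g v) := by
  obtain ⟨C, hC⟩ := PL hl
  refine ⟨2 * C, fun {g h} hg hh hs {Φ} hΦ hP v => ?_⟩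
  have hm : Measurable fun a => g a * invn (v - a) := hg.mul (measurable_invn.comp (by fun_prop))
  rw [carleman hg hh, S2, ← lintegral_add_left hg, ENNReal.coe_mul, ENNReal.coe_ofNat, mul_assoc, mul_assoc,
    mul_assoc, ← mul_assoc (C : ℝ≥0∞), ← mul_assoc (C * Φ ‖v‖), ← lintegral_const_mul (C * Φ ‖v‖ * W lam v) (by exact hg.add hm)]
  refine mul_le_mul_right (lintegral_mono_ae ?_) _
  filter_upwards [(Set.countable_singleton v).ae_notMem volume] with a ha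
  have hav : a ≠ v := ha
  by_cases h0 : g a = 0
  · simp [h0]
  have h1 : invn (v - a) * ENNReal.ofReal (1 + ‖v - a‖) = 1 + invn (v - a) := by
    rw [ENNReal.ofReal_add zero_le_one (norm_nonneg _), ENNReal.ofReal_one, mul_add, mul_one, invn,
      ENNReal.inv_mul_cancel (by simpa [sub_eq_zero] using hav.symm) ENNReal.ofReal_ne_top, add_comm]
  calc g a * (invn (v - a) * pint (v - a) v h)
      ≤ g a * (invn (v - a) * (C * Φ ‖v‖ * W lam v * ENNReal.ofReal (1 + ‖v - a‖))) := by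
        gcongr; exact hC hh hΦ hP v a (hs a h0) hav
    _ = C * Φ ‖v‖ * W lam v * (g a * (invn (v - a) * ENNReal.ofReal (1 + ‖v - a‖))) := by ring
    _ = _ := by rw [h1, mul_add (g a), mul_one]

theorem moment_of_PB {lam : ℝ} (hl : 0 < lam) (k : ℕ) : ∃ C : ℝ≥0, ∀ {h : R3 → ℝ≥0∞}, Measurable h →
    ∀ {A : ℝ≥0∞}, PB h (fun y => A * ew lam y) → ∫⁻ a, h a * pw k a ≤ C * A := by
  obtain ⟨C, hC⟩ := mom_exp hl k
  refine ⟨C, fun {h} hh {A} hP => le_trans (lintegral_mono fun a => ?_) (hC hh hP)⟩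
  exact mul_le_mul_right (le_mul_of_one_le_right' (ENNReal.one_le_ofReal.2 (Real.one_le_exp (by positivity)))) _

theorem tail_of_PB {lam : ℝ} (hl : 0 < lam) (k : ℕ) : ∃ C : ℝ≥0, ∀ {h : R3 → ℝ≥0∞}, Measurable h →
    ∀ {A : ℝ≥0∞}, PB h (fun y => A * ew lam y) → ∀ L : ℝ,
    ∫⁻ a in {a : R3 | L ≤ ‖a‖}, h a * pw k a ≤ C * A * ew (lam / 2) L := by
  obtain ⟨C, hC⟩ := mom_exp hl k
  refine ⟨C, fun {h} hh {A} hP L => le_trans ?_ (mul_le_mul_left (hC hh hP) _)⟩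
  rw [← lintegral_mul_const _ (by exact hh.mul ((measurable_pw k).mul (by fun_prop))),
    ← lintegral_indicator (measurableSet_le measurable_const measurable_norm)]
  refine lintegral_mono fun a => ?_
  by_cases ha : a ∈ {a : R3 | L ≤ ‖a‖}
  · rw [indicator_of_mem ha, ← mul_assoc, mul_assoc (h a * pw k a), ew, ← ENNReal.ofReal_mul (Real.exp_pos _).le,
      ← Real.exp_add]
    refine le_mul_of_one_le_right' (ENNReal.one_le_ofReal.2 (Real.one_le_exp ?_))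
    have : L ≤ ‖a‖ := ha
    nlinarith
  · rw [indicator_of_notMem ha]; exact zero_le

theorem nu_of_PB {lam : ℝ} (hl : 0 < lam) : ∃ C : ℝ≥0, ∀ {h : R3 → ℝ≥0∞}, Measurable h →
    ∀ {A : ℝ≥0∞}, PB h (fun y => A * ew lam y) → ∀ v, nu h v ≤ C * A * ENNReal.ofReal (1 + ‖v‖) := by
  obtain ⟨C, hC⟩ := moment_of_PB hl 1
  refine ⟨7 * C, fun {h} hh {A} hP v => (nu_le_pw h v).trans ((mul_le_mul_right (hC hh hP) _).trans
    (le_of_eq ?_))⟩
  rw [ENNReal.coe_mul, ENNReal.coe_ofNat]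
  ring

/-- the singular kernel on a small ball (`avg_plane` and `PB_holder`) -/
theorem S2_near : ∃ C : ℝ≥0, ∀ {Λ : R3 → ℝ≥0∞}, Measurable Λ → ∀ {CΛ : ℝ≥0∞},
    PB (fun a => Λ a ^ (3 / 2 : ℝ)) (fun _ => CΛ) → ∀ (v : R3) (ρ : ℝ), 0 < ρ → ρ ≤ 1 →
    ∫⁻ a in Metric.ball v ρ, Λ a * invn (v - a) ≤
      C * CΛ ^ (2 / 3 : ℝ) * ENNReal.ofReal (ρ ^ (2 / 3 : ℝ)) := by
  refine ⟨2 * (Real.pi ^ (1 / 3 : ℝ)).toNNReal, fun {Λ} hΛ {CΛ} hP v ρ h0 h1 => ?_⟩
  have h2 := avg_plane (hΛ.indicator (measurableSet_ball (x := v) (ε := ρ))) v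
    (c := CΛ ^ (2 / 3 : ℝ) * ENNReal.ofReal (Real.pi * ρ ^ 2) ^ (1 / 3 : ℝ)) fun n hn => by
      have := PB_holder hΛ hP (measurableSet_ball (x := v) (ε := ρ)) hn v
      rwa [inter_eq_right.2 (Metric.ball_subset_ball h1), pint_ball hn v h0.le] at this
  rw [← lintegral_indicator measurableSet_ball]
  simp only [indicator_mul_left]
  refine h2.trans (le_of_eq ?_)
  rw [ENNReal.ofReal_rpow_of_nonneg (by positivity) (by norm_num), Real.mul_rpow Real.pi_pos.le (by positivity),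
    ← Real.rpow_natCast, ← Real.rpow_mul h0.le, ENNReal.ofReal_mul (by positivity), ENNReal.coe_mul,
    ENNReal.coe_ofNat, show ((2 : ℕ) : ℝ) * (1 / 3) = 2 / 3 by norm_num]
  change _ = 2 * ENNReal.ofReal _ * _ * _
  ring

/-- a set of small volume carries little of `Λ W` (Hölder) -/
theorem vol_small {lam : ℝ} (hl : 0 < lam) (k : ℕ) : ∃ C : ℝ≥0, ∀ {Λ : R3 → ℝ≥0∞}, Measurable Λ →
    ∀ {CΛ : ℝ≥0∞}, PB (fun a => Λ a ^ (3 / 2 : ℝ)) (fun _ => CΛ) → ∀ {S : Set R3}, MeasurableSet S →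
    ∫⁻ a in S, Λ a * W lam a * pw k a ≤
      C * CΛ ^ (2 / 3 : ℝ) * (∫⁻ a in S, W lam a) ^ (1 / 3 : ℝ) := by
  obtain ⟨C, hC⟩ := moment_of_PB hl (2 * k)
  refine ⟨(C * (Real.exp (2 * lam)).toNNReal) ^ (2 / 3 : ℝ), fun {Λ} hΛ {CΛ} hP {S} _ => ?_⟩
  have hW := measurable_W lam
  have hp := measurable_pw k
  have h1 := PB_weight hl (hΛ.pow_const (3 / 2 : ℝ)) hP (Slow_const lam hl.le 1)
  simp only [one_mul] at h1
  have h2 := hC (hW.mul (hΛ.pow_const (3 / 2 : ℝ))) h1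
  have h3 := ENNReal.lintegral_mul_le_Lp_mul_Lq (volume.restrict S)
    (show Real.HolderConjugate (3 / 2) 3 from Real.holderConjugate_iff.2 (by norm_num))
    (f := fun a => Λ a * W lam a ^ (2 / 3 : ℝ) * pw k a) (g := fun a => W lam a ^ (1 / 3 : ℝ))
    ((hΛ.mul (hW.pow_const _)).mul hp).aemeasurable (hW.pow_const _).aemeasurable
  have e1 : ∀ a, ((fun a => Λ a * W lam a ^ (2 / 3 : ℝ) * pw k a) * fun a => W lam a ^ (1 / 3 : ℝ)) a =
      Λ a * W lam a * pw k a := by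
    intro a
    rw [Pi.mul_apply, mul_right_comm, mul_assoc (Λ a), ← ENNReal.rpow_add_of_nonneg _ _ (by norm_num) (by norm_num)]
    norm_num
  have e2 : ∀ a, (W lam a ^ (1 / 3 : ℝ)) ^ (3 : ℝ) = W lam a := by
    intro a
    rw [← ENNReal.rpow_mul]; norm_num
  have e3 : ∀ a, (Λ a * W lam a ^ (2 / 3 : ℝ) * pw k a) ^ (3 / 2 : ℝ) ≤
      W lam a * Λ a ^ (3 / 2 : ℝ) * pw (2 * k) a := by
    intro a
    rw [ENNReal.mul_rpow_of_nonneg _ _ (by norm_num), ENNReal.mul_rpow_of_nonneg _ _ (by norm_num),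
      ← ENNReal.rpow_mul, show (2 / 3 : ℝ) * (3 / 2) = 1 by norm_num, ENNReal.rpow_one, mul_comm (W lam a)]
    refine mul_le_mul_right ?_ _
    have h4 : 1 ≤ pw k a := ENNReal.one_le_ofReal.2 (one_le_pow₀ (by linarith [norm_nonneg a]))
    refine (ENNReal.rpow_le_rpow_of_exponent_le h4 (show (3 / 2 : ℝ) ≤ (2 : ℕ) by norm_num)).trans (le_of_eq ?_)
    rw [ENNReal.rpow_natCast, pw, pw, ← ENNReal.ofReal_pow (by positivity), ← pow_mul, mul_comm]
  simp only [e1, e2] at h3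
  refine h3.trans (mul_le_mul_left ?_ _)
  rw [show (1 : ℝ) / (3 / 2) = 2 / 3 by norm_num, ENNReal.coe_rpow_of_nonneg _ (by norm_num),
    ← ENNReal.mul_rpow_of_nonneg _ _ (by norm_num)]
  refine ENNReal.rpow_le_rpow ((lintegral_mono' Measure.restrict_le_self e3).trans (h2.trans (le_of_eq ?_)))
    (by norm_num)
  rw [ENNReal.coe_mul, mul_assoc]
  rfl

end Crest.Agent.R68
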