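import Crest.Agent.R68.QQ
import Crest.Agent.R68.PL

/-! The gain term is small when one factor is small in `L¹`.  For `‖v‖ ≥ L'` use `QQ_const` and the factor `1 + ‖v‖`.  For `‖v‖ ≤ L'` split `h = h 1_{‖a‖ > L} + h 1_{‖a‖ ≤ L}`:
the first part has `PB ≤ C k e^{-L/4} ew (1/4)`, so `QQ_const` with `λ = 1/4` gives `C k A e^{-L/4} e^{L'/4} W(1/2) v`; for the second use `carleman` with `pint ≤ C A` on every plane (`PL_tail` with `L = 0`) and
`∫ h(a) ‖v-a‖⁻¹ ≤ δ k/ϱ + C k ϱ^{2/3}` (`S2_near`). -/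

set_option autoImplicit false

open MeasureTheory Set Filter Topology Crest.AnalysisR.VecCalc3 Crest.AnalysisR.PDE.Boltzmann
open scoped ENNReal NNReal

namespace Crest.Agent.R68

theorem PB_WLam : ∃ C : ℝ≥0, ∀ {Λ : R3 → ℝ≥0∞}, Measurable Λ → ∀ {CΛ : ℝ≥0∞},
    PB (fun a => Λ a ^ (3 / 2 : ℝ)) (fun _ => CΛ) →
    PB (fun a => W (1 / 2) a * Λ a) (fun y => C * CΛ ^ (2 / 3 : ℝ) * ew (1 / 2) y) := by
  refine ⟨2 * Real.toNNReal (Real.exp (2 * (1 / 2))), ?_⟩
  intro Λ hΛ CΛ h
  have h1 := PB_weight (lam := 1 / 2) (by norm_num) hΛ (PB_of_pow hΛ h)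
    (Slow_const (1 / 2) (by norm_num) 1)
  refine h1.mono (fun a => by simp) (fun y _ => le_of_eq ?_)
  simp only [ENNReal.ofReal, ENNReal.coe_mul, ENNReal.coe_ofNat]
  ring
theorem Qsm.W_le (v : R3) : W 1 v ≤ W (1 / 2) v := by
  unfold W
  apply ENNReal.ofReal_le_ofReal
  apply Real.exp_le_exp.2
  nlinarith [norm_nonneg v]
theorem PB_MM : ∃ C : ℝ≥0, PB MM (fun y => C * ew (1 / 2) y) :=
  ⟨Real.toNNReal (4 * Real.exp (1 / 2)), (PB_W (lam := 1 / 2) (by norm_num)).mono
    (fun a => (MM_le_W a).trans (Qsm.W_le a)) (fun _ _ => le_rfl)⟩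
theorem MM_pw : ∃ C : ℝ≥0, ∀ v, MM v * pw 2 v ≤ C * W (1 / 2) v := by
  obtain ⟨C, hC0, hC⟩ := QQa.poly_exp (c := 1 / 2) (by norm_num) 2
  refine ⟨Real.toNNReal C, fun v => ?_⟩
  refine (mul_le_mul_left (MM_le_W v) _).trans ?_
  show W 1 v * pw 2 v ≤ ENNReal.ofReal C * W (1 / 2) v
  unfold W pw
  rw [← ENNReal.ofReal_mul (by positivity), ← ENNReal.ofReal_mul hC0]
  apply ENNReal.ofReal_le_ofReal
  have e : Real.exp (-(1 * ‖v‖)) = Real.exp (-(1 / 2 * ‖v‖)) * Real.exp (-(1 / 2 * ‖v‖)) := by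
    rw [← Real.exp_add]; congr 1; ring
  rw [e]
  have := hC ‖v‖ (norm_nonneg v)
  nlinarith [Real.exp_pos (-(1 / 2 * ‖v‖))]
/-- a function supported in a ball with a constant plane bound -/
theorem PB_supp {f : R3 → ℝ≥0∞} {c : ℝ≥0∞} (h : PB f (fun _ => c)) (hs : ∀ v, f v ≠ 0 → ‖v‖ ≤ 5) :
    PB f (fun y => 21 * c * ew (1 / 2) y) := by
  intro n q hn
  by_cases hq : ‖q‖ ≤ 6
  · refine (h n q hn).trans ?_
    have h1 : (1 : ℝ≥0∞) ≤ 21 * ew (1 / 2) ‖q‖ := by
      unfold ew
      rw [show (21 : ℝ≥0∞) = ENNReal.ofReal 21 by simp, ← ENNReal.ofReal_mul (by norm_num)]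
      rw [ENNReal.one_le_ofReal]
      have h3 : Real.exp 3 ≤ 21 := by
        have e : Real.exp 3 = Real.exp 1 ^ 3 := by rw [← Real.exp_nat_mul]; norm_num
        rw [e]
        have := Real.exp_one_lt_d9
        calc Real.exp 1 ^ 3 ≤ (2.7182818286 : ℝ) ^ 3 := by gcongr
          _ ≤ 21 := by norm_num
      have h4 : Real.exp (-3) ≤ Real.exp (-(1 / 2 * ‖q‖)) := Real.exp_le_exp.2 (by linarith)
      have h5 : Real.exp 3 * Real.exp (-3) = 1 := by rw [← Real.exp_add]; simp
      nlinarith [Real.exp_pos (-3)]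
    calc c = 1 * c := (one_mul _).symm
      _ ≤ 21 * ew (1 / 2) ‖q‖ * c := by gcongr
      _ = _ := by ring
  · have : (Metric.ball q 1).indicator f = fun _ => 0 := by
      funext b
      by_cases hb : b ∈ Metric.ball q 1
      · rw [indicator_of_mem hb]
        by_contra h0
        have h1 := hs b h0
        rw [Metric.mem_ball, dist_eq_norm] at hb
        have := norm_sub_norm_le q b
        rw [norm_sub_rev] at this
        push Not at hq
        linarith
      · exact indicator_of_notMem hb _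
    rw [this]
    simp [pint]
theorem Qp_supp {f h : R3 → ℝ≥0∞} (hf : ∀ a, f a ≠ 0 → ‖a‖ ≤ 3) (hh : ∀ a, h a ≠ 0 → ‖a‖ ≤ 3) {v : R3}
    (hv : Qp f h v ≠ 0) : ‖v‖ ≤ 5 := by
  by_contra h5
  push Not at h5
  apply hv
  unfold Qp
  have : ∀ vs, ∫⁻ w, ENNReal.ofReal |inner ℝ (v - vs) w| * f (postVel v vs w) * h (postVelStar v vs w)
      ∂sphereMeasure = 0 := by
    intro vs
    rw [← lintegral_zero (μ := sphereMeasure)]
    apply lintegral_congr_ae
    filter_upwards [ae_sphere] with w hw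
    by_cases h1 : f (postVel v vs w) = 0
    · simp [h1]
    by_cases h2 : h (postVelStar v vs w) = 0
    · simp [h2]
    have e := post_energy v vs w hw
    have a1 := hf _ h1
    have a2 := hh _ h2
    nlinarith [norm_nonneg (postVel v vs w), norm_nonneg (postVelStar v vs w), sq_nonneg ‖vs‖]
  simp [this]


theorem Qsmall {ε : ℝ≥0} (hε : 0 < ε) (CΛ : ℝ≥0) : ∃ δ : ℝ≥0, 0 < δ ∧ ∀ {h f Λ : R3 → ℝ≥0∞}, Measurable h →
    Measurable f → Measurable Λ → PB (fun a => Λ a ^ (3 / 2 : ℝ)) (fun _ => CΛ) → ∀ {k A : ℝ≥0∞},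
    (∀ a, h a ≤ k * (W (1 / 2) a * Λ a)) → ∫⁻ a, h a ≤ δ * k → PB f (fun y => A * ew (1 / 2) y) →
    ∀ v, Qp h f v ≤ ε * (k * A) * (ENNReal.ofReal (1 + ‖v‖) * W (1 / 2) v) := by
  obtain ⟨C1, hC1⟩ := QQ_const (lam := 1 / 2) (by norm_num)
  obtain ⟨C2, hC2⟩ := PB_WLam
  obtain ⟨C3, hC3⟩ := PL_tail (lam := 1 / 2) (by norm_num)
  obtain ⟨C4, hC4⟩ := S2_near
  set b : ℝ≥0 := CΛ ^ (2 / 3 : ℝ) with hbd
  have hb : (CΛ : ℝ≥0∞) ^ (2 / 3 : ℝ) = b := (ENNReal.coe_rpow_of_nonneg _ (by norm_num)).symm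
  have hε' : (0 : ℝ) < ε := hε
  set L : ℝ := C1 * C2 * b / ε with hL
  set η : ℝ := ε * Real.exp (-(1 / 2 * L)) / ((2 * C3 + 1) * (C4 * b + 1)) with hη
  have hη0 : 0 < η := by positivity
  set t : ℝ := min 1 η with ht
  have ht0 : 0 < t := lt_min one_pos hη0
  have ht1 : t ≤ 1 := min_le_left _ _
  have ht2 : t ≤ η := min_le_right _ _
  refine ⟨Real.toNNReal (t ^ 3 * η), Real.toNNReal_pos.2 (by positivity), ?_⟩
  intro h f Λ hh hf hΛ hPB k A hle hint hfA v
  have hWΛ : Measurable fun a => W (1 / 2) a * Λ a := (measurable_W _).mul hΛ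
  by_cases hv : L ≤ ‖v‖
  · have h1 : PB h (fun y => (k * (C2 * b)) * ew (1 / 2) y) :=
      ((hC2 hΛ hPB).cmul hWΛ k).mono hle (fun y _ => le_of_eq (by rw [hb]; ring))
    refine (hC1 hh hf h1 hfA v).trans ?_
    have h2 : ((C1 * C2 * b : ℝ≥0) : ℝ≥0∞) ≤ ε * ENNReal.ofReal (1 + ‖v‖) := by
      rw [← ENNReal.ofReal_coe_nnreal, ← ENNReal.ofReal_coe_nnreal (p := ε),
        ← ENNReal.ofReal_mul hε'.le]
      apply ENNReal.ofReal_le_ofReal
      rw [hL, div_le_iff₀ hε'] at hv
      push_cast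
      nlinarith
    calc C1 * (k * (C2 * b) * A) * W (1 / 2) v
        = ((C1 * C2 * b : ℝ≥0) : ℝ≥0∞) * (k * A) * W (1 / 2) v := by push_cast; ring
      _ ≤ (ε * ENNReal.ofReal (1 + ‖v‖)) * (k * A) * W (1 / 2) v := by gcongr
      _ = _ := by ring
  · push Not at hv
    have hp : ∀ n : R3, n ≠ 0 → pint n v f ≤ C3 * A := by
      intro n hn
      have := hC3 hf (Slow_const (1 / 2) (by norm_num) A) hfA n v 0 hn
      simpa [ew] using this
    have hρ0 : 0 < t ^ 3 := by positivity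
    have hρ1 : t ^ 3 ≤ 1 := pow_le_one₀ ht0.le ht1
    have hi : Measurable fun a => invn (v - a) := measurable_invn.comp (measurable_const.sub measurable_id)
    have hS : ∫⁻ a, h a * invn (v - a) ≤ k * (C4 * b * ENNReal.ofReal η + ENNReal.ofReal η) := by
      rw [← lintegral_add_compl _ (measurableSet_ball (x := v) (ε := t ^ 3)), mul_add]
      apply add_le_add
      · have h1 := hC4 hΛ hPB v (t ^ 3) hρ0 hρ1
        have h2 : (t ^ 3) ^ (2 / 3 : ℝ) ≤ η := by
          rw [← Real.rpow_natCast, ← Real.rpow_mul ht0.le]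
          norm_num
          nlinarith
        calc ∫⁻ a in Metric.ball v (t ^ 3), h a * invn (v - a)
            ≤ ∫⁻ a in Metric.ball v (t ^ 3), k * (Λ a * invn (v - a)) := by
              apply lintegral_mono
              intro a
              have hW : W (1 / 2) a ≤ 1 := by
                unfold W
                rw [ENNReal.ofReal_le_one, Real.exp_le_one_iff]
                nlinarith [norm_nonneg a]
              calc h a * invn (v - a) ≤ k * (W (1 / 2) a * Λ a) * invn (v - a) := by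
                    gcongr; exact hle a
                _ ≤ k * (1 * Λ a) * invn (v - a) := by gcongr
                _ = _ := by ring
          _ = k * ∫⁻ a in Metric.ball v (t ^ 3), Λ a * invn (v - a) :=
              lintegral_const_mul _ (hΛ.mul hi)
          _ ≤ _ := by
              gcongr
              refine h1.trans ?_
              rw [hb]
              gcongr
      · calc ∫⁻ a in (Metric.ball v (t ^ 3))ᶜ, h a * invn (v - a)
            ≤ ∫⁻ a in (Metric.ball v (t ^ 3))ᶜ, (ENNReal.ofReal (t ^ 3))⁻¹ * h a := by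
              apply setLIntegral_mono' measurableSet_ball.compl
              intro a ha
              rw [mul_comm]
              gcongr
              unfold invn
              apply ENNReal.inv_le_inv.2
              apply ENNReal.ofReal_le_ofReal
              rw [mem_compl_iff, Metric.mem_ball, dist_comm, dist_eq_norm] at ha
              exact not_lt.1 ha
          _ ≤ ∫⁻ a, (ENNReal.ofReal (t ^ 3))⁻¹ * h a := setLIntegral_le_lintegral _ _
          _ = (ENNReal.ofReal (t ^ 3))⁻¹ * ∫⁻ a, h a := lintegral_const_mul _ hh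
          _ ≤ (ENNReal.ofReal (t ^ 3))⁻¹ * (ENNReal.ofReal (t ^ 3 * η) * k) := by
              gcongr; exact hint
          _ = k * ENNReal.ofReal η := by
              rw [ENNReal.ofReal_mul hρ0.le, ← mul_assoc, ← mul_assoc,
                ENNReal.inv_mul_cancel (by simpa using hρ0) ENNReal.ofReal_ne_top]
              ring
    have hfin : (2 * C3 : ℝ≥0∞) * (C4 * b * ENNReal.ofReal η + ENNReal.ofReal η) ≤
        ε * (ENNReal.ofReal (1 + ‖v‖) * W (1 / 2) v) := by
      have e1 : (2 * C3 : ℝ≥0∞) * (C4 * b * ENNReal.ofReal η + ENNReal.ofReal η) =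
          ENNReal.ofReal (2 * C3 * ((C4 * b + 1) * η)) := by
        rw [ENNReal.ofReal_mul (by positivity), ENNReal.ofReal_mul (by positivity),
          ENNReal.ofReal_mul (by positivity), ENNReal.ofReal_add (by positivity) (by positivity),
          ENNReal.ofReal_mul (by positivity)]
        simp only [ENNReal.ofReal_coe_nnreal, ENNReal.ofReal_ofNat, ENNReal.ofReal_one]
        ring
      rw [e1]
      unfold W
      rw [← ENNReal.ofReal_mul (by positivity), ← ENNReal.ofReal_coe_nnreal (p := ε),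
        ← ENNReal.ofReal_mul hε'.le]
      apply ENNReal.ofReal_le_ofReal
      have e2 : (2 * C3 + 1) * ((C4 * b + 1) * η) = ε * Real.exp (-(1 / 2 * L)) := by
        rw [hη]; field_simp
      have e3 : Real.exp (-(1 / 2 * L)) ≤ Real.exp (-(1 / 2 * ‖v‖)) :=
        Real.exp_le_exp.2 (by linarith)
      have e4 : Real.exp (-(1 / 2 * ‖v‖)) ≤ (1 + ‖v‖) * Real.exp (-(1 / 2 * ‖v‖)) := by
        nlinarith [Real.exp_pos (-(1 / 2 * ‖v‖)), norm_nonneg v]
      have e5 : (0 : ℝ) ≤ (C4 * b + 1) * η := by positivity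
      calc (2 * C3 * ((C4 * b + 1) * η) : ℝ) ≤ (2 * C3 + 1) * ((C4 * b + 1) * η) := by nlinarith
        _ = _ := e2
        _ ≤ _ := by gcongr; exact e3.trans e4
    rw [carleman hh hf]
    calc 2 * ∫⁻ a, h a * (invn (v - a) * pint (v - a) v f)
        ≤ 2 * ∫⁻ a, (C3 * A) * (h a * invn (v - a)) := by
          gcongr 2 * ?_
          apply lintegral_mono_ae
          have : ∀ᵐ a : R3, a ≠ v := by
            simp [ae_iff]
          filter_upwards [this] with a ha
          calc h a * (invn (v - a) * pint (v - a) v f) ≤ h a * (invn (v - a) * (C3 * A)) := by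
                gcongr; exact hp _ (sub_ne_zero.2 ha.symm)
            _ = _ := by ring
      _ = 2 * ((C3 * A) * ∫⁻ a, h a * invn (v - a)) := by
          rw [lintegral_const_mul _ (hh.fun_mul hi)]
      _ ≤ 2 * ((C3 * A) * (k * (C4 * b * ENNReal.ofReal η + ENNReal.ofReal η))) := by gcongr
      _ = (k * A) * ((2 * C3 : ℝ≥0∞) * (C4 * b * ENNReal.ofReal η + ENNReal.ofReal η)) := by ring
      _ ≤ (k * A) * (ε * (ENNReal.ofReal (1 + ‖v‖) * W (1 / 2) v)) := by gcongr
      _ = _ := by ring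


end Crest.Agent.R68
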