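import Crest.Agent.R68.Basic1

/-! Plane integrals.  Main tool: for `n ≠ 0` choose an orthonormal basis `(n̂, e₁, e₂)`
(`exists_iso`); the map `(s,p) ↦ s n̂ + ι p` from `ℝ × EuclideanSpace ℝ (Fin 2)` to `R3` is measure
preserving (linear isometry equivalences preserve volume).  `pint_graph`: the map
`u ↦ ι⁻¹(graph point - z)` is affine with `|det| = ‖n‖/|n i|`. -/

set_option autoImplicit false

open MeasureTheory Set Filter Topology Crest.AnalysisR.VecCalc3 Crest.AnalysisR.PDE.Boltzmann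
open scoped ENNReal NNReal

namespace Crest.Agent.R68

theorem exists_iso {n : R3} (hn : n ≠ 0) :
    ∃ ι : EuclideanSpace ℝ (Fin 2) →ₗᵢ[ℝ] R3, ∀ p, inner ℝ (ι p) n = 0 := by
  have : Fact (Module.finrank ℝ R3 = 2 + 1) := ⟨by simp⟩
  refine ⟨(ℝ ∙ n)ᗮ.subtypeₗᵢ.comp
    (OrthonormalBasis.fromOrthogonalSpanSingleton (𝕜 := ℝ) 2 hn).repr.symm.toLinearIsometry, fun p => ?_⟩
  exact Submodule.mem_orthogonal_singleton_iff_inner_left.1 (Subtype.property _)

theorem iso_surj {n : R3} (hn : n ≠ 0) (ι : EuclideanSpace ℝ (Fin 2) →ₗᵢ[ℝ] R3)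
    (hι : ∀ p, inner ℝ (ι p) n = 0) {q : R3} (hq : inner ℝ q n = 0) : ∃ p, ι p = q := by
  have : Fact (Module.finrank ℝ R3 = 2 + 1) := ⟨by simp⟩
  have h1 : LinearMap.range ι.toLinearMap ≤ (ℝ ∙ n)ᗮ := by
    rintro _ ⟨p, rfl⟩
    exact Submodule.mem_orthogonal_singleton_iff_inner_left.2 (hι p)
  have h2 : LinearMap.range ι.toLinearMap = (ℝ ∙ n)ᗮ := by
    refine Submodule.eq_of_le_of_finrank_eq h1 ?_
    rw [LinearMap.finrank_range_of_inj ι.injective, Submodule.finrank_orthogonal_span_singleton (n := 2) hn]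
    simp
  have h3 : q ∈ LinearMap.range ι.toLinearMap := by
    rw [h2]
    exact Submodule.mem_orthogonal_singleton_iff_inner_left.2 hq
  exact h3

theorem Plane.norm_unit {n : R3} (hn : n ≠ 0) : ‖‖n‖⁻¹ • n‖ = 1 := norm_smul_inv_norm hn

theorem Plane.inner_unit {n : R3} (ι : EuclideanSpace ℝ (Fin 2) →ₗᵢ[ℝ] R3) (hι : ∀ p, inner ℝ (ι p) n = 0)
    (p : EuclideanSpace ℝ (Fin 2)) : inner ℝ (ι p) (‖n‖⁻¹ • n) = 0 := by
  rw [real_inner_smul_right, hι, mul_zero]

theorem Plane.mp_iso {u : R3} (hu : ‖u‖ = 1) (ι : EuclideanSpace ℝ (Fin 2) →ₗᵢ[ℝ] R3) (hι : ∀ p, inner ℝ (ι p) u = 0) :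
    MeasurePreserving (fun q : ℝ × EuclideanSpace ℝ (Fin 2) => q.1 • u + ι q.2) volume volume := by
  let L : WithLp 2 (ℝ × EuclideanSpace ℝ (Fin 2)) →ₗᵢ[ℝ] R3 :=
    { toFun := fun q => q.fst • u + ι q.snd
      map_add' := fun a b => by
        simp only [WithLp.add_fst, WithLp.add_snd, add_smul, map_add]
        abel
      map_smul' := fun c a => by
        simp only [WithLp.smul_fst, WithLp.smul_snd, smul_eq_mul, map_smul, RingHom.id_apply, smul_add, mul_smul]
      norm_map' := fun q => by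
        rw [← sq_eq_sq₀ (norm_nonneg _) (norm_nonneg _), WithLp.prod_norm_sq_eq_of_L2]
        change ‖q.fst • u + ι q.snd‖ ^ 2 = _
        rw [norm_add_sq_real, real_inner_smul_left, real_inner_comm, hι, norm_smul, hu, ι.norm_map]
        ring }
  have h1 : Module.finrank ℝ (WithLp 2 (ℝ × EuclideanSpace ℝ (Fin 2))) = Module.finrank ℝ R3 := by
    rw [(WithLp.linearEquiv 2 ℝ (ℝ × EuclideanSpace ℝ (Fin 2))).finrank_eq]
    simp
  exact (L.toLinearIsometryEquiv h1).measurePreserving.comp (WithLp.volume_preserving_toLp _ _)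

theorem Plane.lint_iso {u : R3} (hu : ‖u‖ = 1) (ι : EuclideanSpace ℝ (Fin 2) →ₗᵢ[ℝ] R3) (hι : ∀ p, inner ℝ (ι p) u = 0)
    {g : R3 → ℝ≥0∞} (hg : Measurable g) : ∫⁻ q, g q = ∫⁻ s : ℝ, ∫⁻ p, g (s • u + ι p) := by
  rw [← (Plane.mp_iso hu ι hι).lintegral_comp hg, Measure.volume_eq_prod]
  exact lintegral_prod _ (hg.comp (Plane.mp_iso hu ι hι).measurable).aemeasurable

theorem pint_param {n : R3} (hn : n ≠ 0) (ι : EuclideanSpace ℝ (Fin 2) →ₗᵢ[ℝ] R3)
    (hι : ∀ p, inner ℝ (ι p) n = 0) (z : R3) {f : R3 → ℝ≥0∞} (hf : Measurable f) :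
    pint n z f = ∫⁻ p, f (z + ι p) := by
  have hu := Plane.norm_unit hn
  have hι' := Plane.inner_unit ι hι
  unfold pint
  rw [Plane.lint_iso hu ι hι' (by
    refine Measurable.mul ((measurable_const.indicator measurableSet_Icc).comp (by fun_prop)) (hf.comp (by fun_prop)))]
  have h1 : ∀ (s : ℝ) (p : EuclideanSpace ℝ (Fin 2)), inner ℝ (s • (‖n‖⁻¹ • n) + ι p) (‖n‖⁻¹ • n) = s := by
    intro s p
    rw [inner_add_left, hι', real_inner_smul_left, real_inner_self_eq_norm_sq, hu]
    ring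
  simp only [h1, add_sub_cancel_left]
  have h2 : Measurable fun p : EuclideanSpace ℝ (Fin 2) => f (z + ι p) :=
    hf.comp (measurable_const.add ι.continuous.measurable)
  simp only [lintegral_const_mul _ h2]
  rw [lintegral_mul_const _ (measurable_const.indicator measurableSet_Icc), lintegral_indicator measurableSet_Icc]
  simp

theorem lintegral_slices {n : R3} (hn : n ≠ 0) (z : R3) {f : R3 → ℝ≥0∞} (hf : Measurable f) :
    ∫⁻ q, f q = ∫⁻ s : ℝ, pint n (z + s • (‖n‖⁻¹ • n)) f := by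
  obtain ⟨ι, hι⟩ := exists_iso hn
  rw [← lintegral_add_left_eq_self f z,
    Plane.lint_iso (Plane.norm_unit hn) ι (Plane.inner_unit ι hι) (g := fun q => f (z + q)) (hf.comp (by fun_prop))]
  simp only [pint_param hn ι hι _ hf, add_assoc]

theorem pint_smul {n : R3} (hn : n ≠ 0) {c : ℝ} (hc : c ≠ 0) (z : R3) {f : R3 → ℝ≥0∞}
    (hf : Measurable f) : pint (c • n) z f = pint n z f := by
  obtain ⟨ι, hι⟩ := exists_iso hn
  rw [pint_param hn ι hι z hf, pint_param (smul_ne_zero hc hn) ι
    (fun p => by rw [real_inner_smul_right, hι, mul_zero]) z hf]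

theorem pint_translate {n p : R3} (hn : n ≠ 0) (hp : inner ℝ p n = 0) (z : R3) {f : R3 → ℝ≥0∞}
    (hf : Measurable f) : pint n (z + p) f = pint n z f := by
  obtain ⟨ι, hι⟩ := exists_iso hn
  obtain ⟨p, rfl⟩ := iso_surj hn ι hι hp
  rw [pint_param hn ι hι _ hf, pint_param hn ι hι _ hf, ← lintegral_add_left_eq_self (fun q => f (z + ι q)) p]
  simp only [map_add, add_assoc]

/-- only the values on the plane matter -/
theorem pint_mono_on {n : R3} (hn : n ≠ 0) (z : R3) {f g : R3 → ℝ≥0∞}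
    (h : ∀ b, inner ℝ (b - z) n = 0 → f b ≤ g b) : pint n z f ≤ pint n z g := by
  unfold pint
  refine lintegral_mono fun q => mul_le_mul_right (h _ ?_) _
  have h1 : ‖n‖ ≠ 0 := norm_ne_zero_iff.2 hn
  rw [add_sub_cancel_left, inner_sub_left, real_inner_smul_left, real_inner_smul_left, real_inner_smul_right,
    real_inner_self_eq_norm_sq]
  field_simp
  ring

theorem pint_mono (n z : R3) {f g : R3 → ℝ≥0∞} (h : ∀ b, f b ≤ g b) : pint n z f ≤ pint n z g := by
  unfold pint
  exact lintegral_mono fun q => mul_le_mul_right (h _) _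

theorem Plane.meas (n z : R3) {f : R3 → ℝ≥0∞} (hf : Measurable f) :
    Measurable fun q : R3 => (Icc (0 : ℝ) 1).indicator (fun _ => (1 : ℝ≥0∞)) (inner ℝ q (‖n‖⁻¹ • n)) *
      f (z + (q - (inner ℝ q (‖n‖⁻¹ • n)) • (‖n‖⁻¹ • n))) :=
  Measurable.mul ((measurable_const.indicator measurableSet_Icc).comp (by fun_prop)) (hf.comp (by fun_prop))

theorem pint_add (n z : R3) {f g : R3 → ℝ≥0∞} (hf : Measurable f) :
    pint n z (fun b => f b + g b) = pint n z f + pint n z g := by
  unfold pint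
  simp only [mul_add]
  exact lintegral_add_left (Plane.meas n z hf) _

theorem pint_cmul (n z : R3) (c : ℝ≥0∞) {f : R3 → ℝ≥0∞} (hf : Measurable f) :
    pint n z (fun b => c * f b) = c * pint n z f := by
  unfold pint
  rw [← lintegral_const_mul _ (Plane.meas n z hf)]
  exact lintegral_congr fun q => mul_left_comm _ _ _

/-- Tonelli -/
theorem pint_lintegral {α : Type} [MeasurableSpace α] (μ : Measure α) [SFinite μ] (n z : R3)
    {f : α → R3 → ℝ≥0∞} (hf : Measurable (Function.uncurry f)) :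
    pint n z (fun b => ∫⁻ a, f a b ∂μ) = ∫⁻ a, pint n z (f a) ∂μ := by
  unfold pint
  rw [← lintegral_lintegral_swap]
  · refine lintegral_congr fun q => ?_
    exact (lintegral_const_mul _ (hf.comp (measurable_id.prodMk measurable_const))).symm
  · refine Measurable.aemeasurable (Measurable.mul
      ((measurable_const.indicator measurableSet_Icc).comp (by fun_prop)) ?_)
    exact hf.comp (measurable_snd.prodMk (by fun_prop))

theorem pint_radial {n : R3} (hn : n ≠ 0) (z : R3) {φ : ℝ → ℝ≥0∞} (hφ : Measurable φ) :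
    pint n z (fun b => φ ‖b - z‖) = ∫⁻ r in Ioi (0 : ℝ), ENNReal.ofReal (2 * Real.pi * r) * φ r := by
  obtain ⟨ι, hι⟩ := exists_iso hn
  rw [pint_param hn ι hι z (f := fun b => φ ‖b - z‖) (hφ.comp (by fun_prop))]
  simp only [add_sub_cancel_left, ι.norm_map]
  rw [← Complex.orthonormalBasisOneI.repr.measurePreserving.lintegral_comp (f := fun p => φ ‖p‖)
    (hφ.comp measurable_norm)]
  simp only [LinearIsometryEquiv.norm_map]
  rw [← Complex.lintegral_comp_polarCoord_symm, polarCoord_target, Measure.volume_eq_prod, ← Measure.prod_restrict]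
  simp only [Complex.norm_polarCoord_symm, smul_eq_mul]
  rw [lintegral_prod _ (by
    exact ((ENNReal.measurable_ofReal.comp measurable_fst).mul (hφ.comp (by fun_prop))).aemeasurable)]
  refine setLIntegral_congr_fun measurableSet_Ioi fun r hr => ?_
  have hr' : 0 < r := hr
  simp only [lintegral_const, Measure.restrict_apply MeasurableSet.univ, univ_inter, Real.volume_Ioo, abs_of_pos hr']
  rw [mul_right_comm, ← ENNReal.ofReal_mul hr'.le]
  congr 2
  ring

theorem pint_ball {n : R3} (hn : n ≠ 0) (z : R3) {ρ : ℝ} (hρ : 0 ≤ ρ) :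
    pint n z ((Metric.ball z ρ).indicator 1) = ENNReal.ofReal (Real.pi * ρ ^ 2) := by
  obtain ⟨ι, hι⟩ := exists_iso hn
  rw [pint_param hn ι hι z (measurable_one.indicator measurableSet_ball)]
  have h1 : ∀ p : EuclideanSpace ℝ (Fin 2), (Metric.ball z ρ).indicator (1 : R3 → ℝ≥0∞) (z + ι p) =
      (Metric.ball (0 : EuclideanSpace ℝ (Fin 2)) ρ).indicator 1 p := by
    intro p
    simp only [indicator, mem_ball_iff_norm, add_sub_cancel_left, ι.norm_map, sub_zero, Pi.one_apply]
  simp only [h1]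
  rw [lintegral_indicator_one measurableSet_ball, EuclideanSpace.volume_ball_fin_two, ← ENNReal.ofReal_pow hρ,
    ← ENNReal.ofReal_mul (by positivity), mul_comm]

theorem Plane.measurable_ins (i : Fin 3) : Measurable (fun q : ℝ × ℝ × ℝ => ins i q.1 q.2) := by
  refine Continuous.measurable ((PiLp.continuous_toLp 2 _).comp (continuous_pi fun j => ?_))
  split_ifs <;> fun_prop

theorem lintegral_ins (i : Fin 3) {f : R3 → ℝ≥0∞} (hf : Measurable f) :
    ∫⁻ v, f v = ∫⁻ u : ℝ × ℝ, ∫⁻ c : ℝ, f (ins i c u) := by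
  let ι : EuclideanSpace ℝ (Fin 2) →ₗᵢ[ℝ] R3 :=
    { toFun := fun p => ins i 0 (p 0, p 1)
      map_add' := fun a b => by
        ext j
        simp only [ins, PiLp.add_apply]
        split_ifs <;> simp
      map_smul' := fun c a => by
        ext j
        simp only [ins, PiLp.smul_apply]
        split_ifs <;> simp
      norm_map' := fun p => by
        change ‖ins i 0 (p 0, p 1)‖ = _
        rw [EuclideanSpace.norm_eq, EuclideanSpace.norm_eq, Fin.sum_univ_three, Fin.sum_univ_two]
        fin_cases i <;> simp [ins, add_comm] }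
  have h1 : ∀ p, inner ℝ (ι p) (EuclideanSpace.single i (1 : ℝ)) = 0 := fun p => by
    rw [EuclideanSpace.inner_single_right]
    change _ * (starRingEnd ℝ) (ins i 0 (p 0, p 1) i) = 0
    simp [ins]
  have h2 : ∀ (c : ℝ) (p : EuclideanSpace ℝ (Fin 2)),
      c • EuclideanSpace.single i (1 : ℝ) + ι p = ins i c (p 0, p 1) := fun c p => by
    ext j
    change c * (EuclideanSpace.single i (1 : ℝ)) j + ins i 0 (p 0, p 1) j = _
    by_cases hj : j = i <;> simp [ins, hj]
  have h3 : MeasurePreserving (fun p : EuclideanSpace ℝ (Fin 2) => (p 0, p 1)) volume volume :=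
    (volume_preserving_finTwoArrow ℝ).comp (PiLp.volume_preserving_ofLp (Fin 2))
  have h4 : Measurable fun q : ℝ × ℝ × ℝ => f (ins i q.1 q.2) := hf.comp (Plane.measurable_ins i)
  rw [Plane.lint_iso (u := EuclideanSpace.single i (1 : ℝ)) (by simp) ι h1 hf]
  simp only [h2]
  rw [← lintegral_lintegral_swap (f := fun (c : ℝ) (u : ℝ × ℝ) => f (ins i c u)) h4.aemeasurable]
  exact lintegral_congr fun c => h3.lintegral_comp (f := fun u => f (ins i c u))
    (h4.comp (measurable_const.prodMk measurable_id))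

theorem measurable_ins (i : Fin 3) : Measurable (fun q : ℝ × ℝ × ℝ => ins i q.1 q.2) := by
  exact Plane.measurable_ins i

/-- the plane as a graph over the two coordinates other than `i` -/
theorem pint_graph {n : R3} {i : Fin 3} (hi : n i ≠ 0) (z : R3) {f : R3 → ℝ≥0∞} (hf : Measurable f) :
    pint n z f = ENNReal.ofReal (‖n‖ / |n i|) * ∫⁻ u : ℝ × ℝ,
      f (ins i (z i - (n (i + 1) * (u.1 - z (i + 1)) + n (i + 2) * (u.2 - z (i + 2))) / n i) u) := by
  have hn : n ≠ 0 := fun h => hi (by simp [h])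
  have hn' : ‖n‖ ≠ 0 := norm_ne_zero_iff.2 hn
  let e : R3 := EuclideanSpace.single i (1 : ℝ)
  let F : R3 → ℝ≥0∞ := fun q => (Icc (0 : ℝ) 1).indicator (fun _ => (1 : ℝ≥0∞)) (‖n‖⁻¹ * inner ℝ (q - z) n) *
    f (q - (inner ℝ (q - z) n / n i) • e)
  have hI : Measurable ((Icc (0 : ℝ) 1).indicator fun _ => (1 : ℝ≥0∞)) := measurable_const.indicator measurableSet_Icc
  have hF : Measurable F := (hI.comp (by fun_prop)).mul (hf.comp (by fun_prop))
  have he : inner ℝ e n = n i := by simp [e, EuclideanSpace.inner_single_left]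
  have h1 : ∫⁻ q, F q = pint n z f := by
    obtain ⟨ι, hι⟩ := exists_iso hn
    rw [lintegral_slices hn z hF]
    have h2 : ∀ s : ℝ, pint n (z + s • (‖n‖⁻¹ • n)) F =
        (Icc (0 : ℝ) 1).indicator (fun _ => (1 : ℝ≥0∞)) s * pint n z f := by
      intro s
      have h3 : ∀ p, inner ℝ (z + s • (‖n‖⁻¹ • n) + ι p - z) n = s * ‖n‖ := fun p => by
        rw [add_assoc, add_sub_cancel_left, inner_add_left, hι, real_inner_smul_left, real_inner_smul_left,
          real_inner_self_eq_norm_sq]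
        field_simp
        ring
      have h4 : inner ℝ (s • (‖n‖⁻¹ • n) - (s * ‖n‖ / n i) • e) n = 0 := by
        rw [inner_sub_left, real_inner_smul_left, real_inner_smul_left, real_inner_smul_left, he,
          real_inner_self_eq_norm_sq]
        field_simp
        ring
      rw [← pint_translate hn h4 z hf, pint_param hn ι hι _ hF, pint_param hn ι hι _ hf,
        ← lintegral_const_mul' _ _ (by unfold indicator; split_ifs <;> simp)]
      refine lintegral_congr fun p => ?_
      simp only [F, h3]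
      congr 2
      · field_simp
      · abel
    simp only [h2]
    rw [lintegral_mul_const _ hI, lintegral_indicator measurableSet_Icc]
    simp
  rw [← h1, lintegral_ins i hF, ← lintegral_const_mul' _ _ ENNReal.ofReal_ne_top]
  refine lintegral_congr fun u => ?_
  have h2 : ∀ c : ℝ, inner ℝ (ins i c u - z) n =
      n i * (c - z i) + (n (i + 1) * (u.1 - z (i + 1)) + n (i + 2) * (u.2 - z (i + 2))) := fun c => by
    rw [PiLp.inner_apply, Fin.sum_univ_three]
    fin_cases i <;> simp [ins] <;> ring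
  have h3 : ∀ c : ℝ, ins i c u - (inner ℝ (ins i c u - z) n / n i) • e =
      ins i (z i - (n (i + 1) * (u.1 - z (i + 1)) + n (i + 2) * (u.2 - z (i + 2))) / n i) u := fun c => by
    rw [h2]
    ext j
    by_cases hj : j = i
    · subst hj
      simp only [ins, e, PiLp.sub_apply, PiLp.smul_apply, if_true, smul_eq_mul, PiLp.single_apply]
      field_simp
      ring
    · simp [ins, e, hj]
  simp only [F, h3]
  simp only [h2]
  rw [lintegral_mul_const _ (by exact hI.comp (by fun_prop))]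
  congr 1
  set B := n (i + 1) * (u.1 - z (i + 1)) + n (i + 2) * (u.2 - z (i + 2)) with hB
  have h4 : ∀ c : ℝ, ‖n‖⁻¹ * (n i * (c - z i) + B) = ‖n‖⁻¹ * (B - n i * z i) + n i / ‖n‖ * c := fun c => by
    field_simp
    ring
  simp only [h4]
  have hk : n i / ‖n‖ ≠ 0 := div_ne_zero hi hn'
  have h5 := lintegral_map (μ := (volume : Measure ℝ)) (g := fun c : ℝ => n i / ‖n‖ * c)
    (f := fun y => (Icc (0 : ℝ) 1).indicator (fun _ => (1 : ℝ≥0∞)) (‖n‖⁻¹ * (B - n i * z i) + y))
    (hI.comp (by fun_prop)) (by fun_prop)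
  rw [← h5, Real.map_volume_mul_left hk, lintegral_smul_measure, lintegral_add_left_eq_self,
    lintegral_indicator measurableSet_Icc]
  simp [abs_div]


end Crest.Agent.R68
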