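import Crest.Agent.R68.Basic1
import Crest.Agent.R68.Plane

/-! Translation and shear invariance on the torus.  `cell` is a fundamental domain of the lattice `ℤ³`
acting on `R3` (`IsAddFundamentalDomain`, or `ZSpan.isAddFundamentalDomain` for the standard basis; alternatively argue one
coordinate at a time with `Function.Periodic.intervalIntegral_add_eq`-type facts through `EuclideanSpace.volume_preserving_measurableEquiv`). -/

set_option autoImplicit false

open MeasureTheory Set Filter Topology Crest.AnalysisR.VecCalc3 Crest.AnalysisR.PDE.Boltzmann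
open scoped ENNReal NNReal

namespace Crest.Agent.R68

theorem measurableSet_cell : MeasurableSet cell := by
  have : cell = ⋂ i : Fin 3, (fun x : R3 => x i) ⁻¹' Ico 0 1 := by
    ext x
    simp [cell]
  rw [this]
  exact MeasurableSet.iInter fun i => measurableSet_Ico.preimage (by fun_prop)

theorem volume_cell : volume cell = 1 := by
  have h1 : cell = (WithLp.ofLp : R3 → Fin 3 → ℝ) ⁻¹' (Set.pi univ fun _ => Ico 0 1) := by
    ext x
    simp [cell]
  rw [h1, (PiLp.volume_preserving_ofLp (Fin 3)).measure_preimage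
    (MeasurableSet.univ_pi fun _ => measurableSet_Ico).nullMeasurableSet, volume_pi_pi]
  simp

theorem per_int {α : Type} {f : R3 → α} (hf : IsPeriodic3 f) (x : R3) (j : Fin 3 → ℤ) :
    f (x + WithLp.toLp 2 (fun i => (j i : ℝ))) = f x := by
  have h1 : ∀ (i : Fin 3) (k : ℤ) (x : R3), f (x + k • EuclideanSpace.single i (1 : ℝ)) = f x := fun i k x =>
    (Function.Periodic.zsmul (f := f) (c := EuclideanSpace.single i (1 : ℝ)) (fun x => hf x i) k) x
  have h2 : x + WithLp.toLp 2 (fun i => (j i : ℝ)) = x + j 0 • EuclideanSpace.single 0 (1 : ℝ) +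
      j 1 • EuclideanSpace.single 1 (1 : ℝ) + j 2 • EuclideanSpace.single 2 (1 : ℝ) := by
    ext i
    fin_cases i <;> simp
  rw [h2, h1, h1, h1]

theorem lintegral_cell_translate {f : R3 → ℝ≥0∞} (hf : Measurable f) (hp : IsPeriodic3 f) (z : R3) :
    ∫⁻ x in cell, f (x + z) = ∫⁻ x in cell, f x := by
  let b := (EuclideanSpace.basisFun (Fin 3) ℝ).toBasis
  have h0 : ZSpan.fundamentalDomain b = cell := by
    ext x
    simp [b, cell]
  have h1 := ZSpan.isAddFundamentalDomain' b (volume : Measure R3)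
  rw [h0] at h1
  have h2 := h1.vadd_of_comm z
  have hc : Countable (Submodule.span ℤ (range b)).toAddSubgroup :=
    inferInstanceAs (Countable (Submodule.span ℤ (range b)))
  have h3 := h2.setLIntegral_eq h1 f fun g x => by
    obtain ⟨g, hg⟩ := g
    change f (g + x) = f x
    obtain ⟨c, rfl⟩ := (Submodule.mem_span_range_iff_exists_fun ℤ).1 hg
    rw [← per_int hp x c, add_comm]
    congr 2
    ext i
    fin_cases i <;> simp [b, Fin.sum_univ_three]
  have h4 := (measurePreserving_add_left (volume : Measure R3) z).setLIntegral_comp_emb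
    (measurableEmbedding_addLeft z) f cell
  simp only [add_comm _ z]
  exact h4.trans h3

theorem Shear.integral_eq {α : Type} [MeasurableSpace α] {μ : Measure α} {f g : α → ℝ} (hf : Measurable f)
    (hg : Measurable g) (h : ∀ φ : ℝ → ℝ≥0∞, Measurable φ → ∫⁻ x, φ (f x) ∂μ = ∫⁻ x, φ (g x) ∂μ) :
    ∫ x, f x ∂μ = ∫ x, g x ∂μ := by
  have h1 : μ.map f = μ.map g := by
    ext s hs
    have h2 : Measurable (s.indicator (1 : ℝ → ℝ≥0∞)) := measurable_one.indicator hs
    rw [← lintegral_indicator_one hs, ← lintegral_indicator_one hs, lintegral_map h2 hf, lintegral_map h2 hg, h _ h2]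
  have h2 := integral_map (μ := μ) hf.aemeasurable (f := fun y : ℝ => y) aestronglyMeasurable_id
  have h3 := integral_map (μ := μ) hg.aemeasurable (f := fun y : ℝ => y) aestronglyMeasurable_id
  rw [← h2, ← h3, h1]

theorem integral_cell_translate {f : R3 → ℝ} (hf : Measurable f) (hp : IsPeriodic3 f) (z : R3) :
    ∫ x in cell, f (x + z) = ∫ x in cell, f x := by
  exact Shear.integral_eq (hf.comp (measurable_add_const z)) hf fun φ hφ =>
    lintegral_cell_translate (f := fun x => φ (f x)) (hφ.comp hf) (fun x i => congrArg φ (hp x i)) z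

theorem lintegral_shear {f : R3 → R3 → ℝ≥0∞} (hf : Meas2 f) (hp : ∀ v, IsPeriodic3 (fun x => f x v))
    (τ : ℝ) : ∫⁻ q in cell ×ˢ (univ : Set R3), f (q.1 - τ • q.2) q.2 =
      ∫⁻ q in cell ×ˢ (univ : Set R3), f q.1 q.2 := by
  have h1 : Measurable fun q : R3 × R3 => f (q.1 - τ • q.2) q.2 := hf.comp (by fun_prop) measurable_snd
  rw [Measure.volume_eq_prod, ← Measure.prod_restrict, lintegral_prod_symm _ h1.aemeasurable,
    lintegral_prod_symm _ (Measurable.aemeasurable hf)]
  refine lintegral_congr fun v => ?_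
  simp only [sub_eq_add_neg]
  exact lintegral_cell_translate (f := fun x => f x v) (hf.comp measurable_id measurable_const) (hp v) _

theorem integral_shear {f : R3 → R3 → ℝ} (hf : Measurable (fun q : R3 × R3 => f q.1 q.2))
    (hp : ∀ v, IsPeriodic3 (fun x => f x v)) (τ : ℝ) :
    ∫ q in cell ×ˢ (univ : Set R3), f (q.1 - τ • q.2) q.2 =
      ∫ q in cell ×ˢ (univ : Set R3), f q.1 q.2 := by
  refine Shear.integral_eq (hf.comp (f := fun q : R3 × R3 => (q.1 - τ • q.2, q.2)) (by fun_prop)) hf fun φ hφ => ?_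
  exact lintegral_shear (f := fun x v => φ (f x v)) (hφ.comp hf) (fun v x i => congrArg φ (hp v x i)) τ

/-- the shear preserves Lebesgue measure on the whole phase space -/
theorem measurePreserving_shear (τ : ℝ) :
    MeasurePreserving (fun q : R3 × R3 => (q.1 - τ • q.2, q.2)) volume volume := by
  have h1 : MeasurePreserving (fun p : R3 × R3 => (id p.1, p.2 - τ • p.1)) ((volume : Measure R3).prod volume)
      ((volume : Measure R3).prod volume) :=
    (MeasurePreserving.id volume).skew_product (g := fun v x : R3 => x - τ • v)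
      (by unfold Function.uncurry; fun_prop) (Eventually.of_forall fun v => map_sub_right_eq_self _ _)
  exact Measure.measurePreserving_swap.comp (h1.comp Measure.measurePreserving_swap)

/-- an a.e. statement on the cell extends to the whole space by periodicity -/
theorem ae_of_ae_cell {p : R3 → R3 → Prop} (hp : ∀ v, IsPeriodic3 (fun x => p x v))
    (h : ∀ᵐ q ∂(volume.restrict (cell ×ˢ (univ : Set R3))), p q.1 q.2) :
    ∀ᵐ q : R3 × R3, p q.1 q.2 := by
  rw [ae_restrict_iff' (measurableSet_cell.prod MeasurableSet.univ)] at h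
  have h1 : ∀ j : Fin 3 → ℤ, ∀ᵐ q : R3 × R3, q.1 + WithLp.toLp 2 (fun i => (j i : ℝ)) ∈ cell → p q.1 q.2 := by
    intro j
    have h2 := ((measurePreserving_add_right (volume : Measure R3) (WithLp.toLp 2 fun i => (j i : ℝ))).prod
      (MeasurePreserving.id (volume : Measure R3))).quasiMeasurePreserving.ae h
    refine h2.mono fun q hq h3 => ?_
    have h4 := hq ⟨h3, mem_univ _⟩
    exact (per_int (hp q.2) q.1 j).mp h4
  refine (ae_all_iff.2 h1).mono fun q hq => hq (fun i => -⌊q.1 i⌋) fun i => ?_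
  simp only [PiLp.add_apply, Int.cast_neg, ← sub_eq_add_neg, Int.self_sub_floor]
  exact ⟨Int.fract_nonneg _, Int.fract_lt_one _⟩

/-- a periodic function integrated over a ball of radius `ρ` -/
theorem lintegral_ball_per {f : R3 → ℝ≥0∞} (hf : Measurable f) (hp : IsPeriodic3 f) (x : R3) {ρ : ℝ}
    (hρ : 0 ≤ ρ) : ∫⁻ y in Metric.closedBall x ρ, f y ≤
      ENNReal.ofReal ((2 * ρ + 2) ^ 3) * ∫⁻ y in cell, f y := by
  let J : Finset (Fin 3 → ℤ) := Fintype.piFinset fun i => Finset.Icc ⌊x i - ρ⌋ ⌊x i + ρ⌋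
  let t : (Fin 3 → ℤ) → R3 := fun j => WithLp.toLp 2 fun i => (j i : ℝ)
  have h1 : Metric.closedBall x ρ ⊆ ⋃ j : J, (fun y => y + t j) '' cell := by
    intro y hy
    have h2 : ∀ i, |y i - x i| ≤ ρ := fun i => by
      have h3 := PiLp.norm_apply_le (y - x) i
      rw [mem_closedBall_iff_norm] at hy
      exact le_trans h3 hy
    refine mem_iUnion.2 ⟨⟨fun i => ⌊y i⌋, Fintype.mem_piFinset.2 fun i => Finset.mem_Icc.2
      ⟨Int.floor_mono (by linarith [abs_le.1 (h2 i)]), Int.floor_mono (by linarith [abs_le.1 (h2 i)])⟩⟩,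
      y - t fun i => ⌊y i⌋, fun i => ?_, sub_add_cancel _ _⟩
    simp only [t, PiLp.sub_apply, Int.self_sub_floor]
    exact ⟨Int.fract_nonneg _, Int.fract_lt_one _⟩
  have h2 : ∀ j : J, ∫⁻ y in (fun y => y + t j) '' cell, f y = ∫⁻ y in cell, f y := fun j => by
    rw [← (measurePreserving_add_right (volume : Measure R3) (t j)).setLIntegral_comp_emb
      (measurableEmbedding_addRight _) f cell, lintegral_cell_translate hf hp]
  refine (lintegral_mono_set h1).trans ((lintegral_iUnion_le _ _).trans ?_)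
  simp only [h2]
  rw [tsum_fintype, Finset.sum_const, nsmul_eq_mul, Finset.card_univ, Fintype.card_coe]
  refine mul_le_mul_left ?_ _
  rw [← ENNReal.ofReal_natCast]
  refine ENNReal.ofReal_le_ofReal ?_
  have h3 : ∀ i, ((Finset.Icc ⌊x i - ρ⌋ ⌊x i + ρ⌋).card : ℝ) ≤ 2 * ρ + 2 := fun i => by
    have h4 : ⌊x i - ρ⌋ ≤ ⌊x i + ρ⌋ + 1 := by
      have := Int.floor_mono (show x i - ρ ≤ x i + ρ by linarith)
      omega
    have h5 : (((Finset.Icc ⌊x i - ρ⌋ ⌊x i + ρ⌋).card : ℤ) : ℝ) = ((⌊x i + ρ⌋ + 1 - ⌊x i - ρ⌋ : ℤ) : ℝ) := by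
      rw [Int.card_Icc_of_le _ _ h4]
    push_cast at h5
    rw [h5]
    linarith [Int.floor_le (x i + ρ), Int.lt_floor_add_one (x i - ρ)]
  rw [Fintype.card_piFinset]
  push_cast
  calc ∏ i, ((Finset.Icc ⌊x i - ρ⌋ ⌊x i + ρ⌋).card : ℝ) ≤ ∏ _i : Fin 3, (2 * ρ + 2) :=
        Finset.prod_le_prod (fun i _ => Nat.cast_nonneg _) fun i _ => h3 i
    _ = _ := by simp

theorem Shear.measurable_hat : Measurable hat := by
  have h1 : Measurable fun t : ℝ => t - round t := by
    simp only [round_eq]
    exact measurable_id.sub (measurable_from_top.comp (Int.measurable_floor.comp (measurable_add_const _)))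
  refine (WithLp.measurable_toLp 2 _).comp (measurable_pi_lambda _ fun i => ?_)
  fin_cases i
  · exact h1.comp (by fun_prop : Measurable fun x : R3 => x 0)
  · exact h1.comp (by fun_prop : Measurable fun x : R3 => x 1)
  · exact measurable_const

theorem Shear.hat_periodic : IsPeriodic3 hat := by
  intro x i
  unfold hat
  fin_cases i <;> simp [round_add_one]

/-- functions of `hat x` : the cell integral is the integral over the centred unit square -/
theorem lintegral_cell_hat {f : R3 → ℝ≥0∞} (hf : Measurable f) :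
    ∫⁻ x in cell, f (hat x) = ∫⁻ y in Metric.closedBall (0 : ℝ × ℝ) (1 / 2), f (lift y) := by
  let z : R3 := WithLp.toLp 2 ![-(1 / 2), -(1 / 2), 0]
  have hm : Measurable fun x => f (hat x) := hf.comp Shear.measurable_hat
  have hm' : Measurable fun x => f (hat (x + z)) := hm.comp (measurable_add_const z)
  rw [← lintegral_cell_translate hm (fun x i => by rw [Shear.hat_periodic x i]) z,
    ← lintegral_indicator measurableSet_cell, lintegral_ins 2 (hm'.indicator measurableSet_cell),
    ← lintegral_add_right_eq_self _ ((1 / 2, 1 / 2) : ℝ × ℝ)]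
  have h1 : (Metric.closedBall (0 : ℝ × ℝ) (1 / 2) : Set (ℝ × ℝ)) =ᵐ[volume]
      (Ico (-(1 / 2)) (1 / 2) ×ˢ Ico (-(1 / 2)) (1 / 2) : Set (ℝ × ℝ)) := by
    rw [show (0 : ℝ × ℝ) = (0, 0) from rfl, ← closedBall_prod_same, Real.closedBall_eq_Icc, zero_sub, zero_add]
    exact Measure.set_prod_ae_eq Ico_ae_eq_Icc.symm Ico_ae_eq_Icc.symm
  rw [setLIntegral_congr h1, ← lintegral_indicator (measurableSet_Ico.prod measurableSet_Ico)]
  refine lintegral_congr fun y => ?_
  have h2 : ∀ c : ℝ, ins 2 c (y + (1 / 2, 1 / 2)) ∈ cell ↔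
      y ∈ Ico (-(1 / 2) : ℝ) (1 / 2) ×ˢ Ico (-(1 / 2) : ℝ) (1 / 2) ∧ c ∈ Ico (0 : ℝ) 1 := fun c => by
    simp only [cell, mem_ofPred_eq, Fin.forall_fin_succ, ins, mem_prod, mem_Ico]
    simp
    constructor
    · rintro ⟨⟨h1, h2⟩, ⟨h3, h4⟩, h5⟩
      exact ⟨⟨⟨by linarith, by linarith⟩, by linarith, by linarith⟩, h5⟩
    · rintro ⟨⟨⟨h1, h2⟩, h3, h4⟩, h5⟩
      exact ⟨⟨by linarith, by linarith⟩, ⟨by linarith, by linarith⟩, h5⟩
  by_cases hy : y ∈ Ico (-(1 / 2) : ℝ) (1 / 2) ×ˢ Ico (-(1 / 2) : ℝ) (1 / 2)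
  · have h3 : ∀ c : ℝ, hat (ins 2 c (y + (1 / 2, 1 / 2)) + z) = lift y := fun c => by
      have h4 : (ins 2 c (y + (1 / 2, 1 / 2)) + z) 0 = y.1 := by simp [ins, z]
      have h5 : (ins 2 c (y + (1 / 2, 1 / 2)) + z) 1 = y.2 := by simp [ins, z]
      unfold hat lift
      rw [h4, h5, round_eq_zero_iff.2 hy.1, round_eq_zero_iff.2 hy.2]
      simp
    have h4 : ∀ c : ℝ, cell.indicator (fun x => f (hat (x + z))) (ins 2 c (y + (1 / 2, 1 / 2))) =
        (Ico (0 : ℝ) 1).indicator (fun _ => f (lift y)) c := fun c => by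
      by_cases hc : c ∈ Ico (0 : ℝ) 1
      · rw [indicator_of_mem ((h2 c).2 ⟨hy, hc⟩), indicator_of_mem hc, h3]
      · rw [indicator_of_notMem fun h => hc ((h2 c).1 h).2, indicator_of_notMem hc]
    simp only [h4]
    rw [lintegral_indicator measurableSet_Ico, indicator_of_mem hy]
    simp
  · rw [indicator_of_notMem hy]
    simp only [indicator_of_notMem fun h => hy ((h2 _).1 h).1, lintegral_zero]

theorem measurable_hat : Measurable hat := by
  exact Shear.measurable_hat

theorem measurable_lift : Measurable lift := by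
  refine (WithLp.measurable_toLp 2 _).comp (measurable_pi_lambda _ fun i => ?_)
  fin_cases i
  · exact measurable_fst
  · exact measurable_snd
  · exact measurable_const

theorem measurable_nrm : Measurable nrm := by
  unfold nrm
  fun_prop

theorem measurable_dd : Measurable dd := by
  exact measurable_nrm.comp measurable_hat

theorem hat_periodic : IsPeriodic3 hat := by
  exact Shear.hat_periodic

theorem hat_hat (x : R3) : hat (hat x) = hat x := by
  unfold hat
  simp [round_sub_intCast]

theorem hat_hat_sub (x z : R3) : hat (hat x - z) = hat (x - z) := by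
  have h1 : ∀ a b : ℝ, a - round a - b - round (a - round a - b) = a - b - round (a - b) := fun a b => by
    rw [sub_right_comm a, round_sub_intCast]
    push_cast
    ring
  unfold hat
  simp [h1]

theorem hat_lift {y : ℝ × ℝ} (h : ‖y‖ < 1 / 2) : hat (lift y) = lift y := by
  have h1 := abs_lt.1 (lt_of_le_of_lt (norm_fst_le y) h)
  have h2 := abs_lt.1 (lt_of_le_of_lt (norm_snd_le y) h)
  have h3 : round y.1 = 0 := round_eq_zero_iff.2 ⟨h1.1.le, h1.2⟩
  have h4 : round y.2 = 0 := round_eq_zero_iff.2 ⟨h2.1.le, h2.2⟩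
  unfold hat lift
  simp [h3, h4]

theorem hat_eq_lift (x : R3) : hat x = lift (hat x 0, hat x 1) := by
  rfl

theorem nrm_lift (y : ℝ × ℝ) : nrm (lift y) = ‖y‖ := by
  rfl

theorem nrm_le_norm (y : R3) : nrm y ≤ ‖y‖ := by
  exact max_le (PiLp.norm_apply_le y 0) (PiLp.norm_apply_le y 1)

theorem dd_nonneg (x : R3) : 0 ≤ dd x := by
  exact le_max_of_le_left (abs_nonneg _)

theorem dd_le_half (x : R3) : dd x ≤ 1 / 2 := by
  exact max_le (abs_sub_round _) (abs_sub_round _)

theorem dd_le_nrm (x : R3) : dd x ≤ nrm x := by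
  refine max_le_max ?_ ?_
  · simpa [hat] using round_le (x 0) 0
  · simpa [hat] using round_le (x 1) 0

theorem dd_hat (x : R3) : dd (hat x) = dd x := by
  unfold dd
  rw [hat_hat]

theorem dd_lip (x z : R3) : dd (x + z) ≤ dd x + nrm z := by
  have h1 : ∀ a b : ℝ, |a + b - round (a + b)| ≤ |a - round a| + |b| := fun a b => by
    refine (round_le (a + b) (round a)).trans ?_
    rw [add_sub_right_comm]
    exact abs_add_le _ _
  exact max_le ((h1 (x 0) (z 0)).trans (add_le_add (le_max_left _ _) (le_max_left _ _)))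
    ((h1 (x 1) (z 1)).trans (add_le_add (le_max_right _ _) (le_max_right _ _)))


end Crest.Agent.R68
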