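import Crest.Agent.R68.LocEx
import Crest.Agent.R68.Shear

/-! Gronwall: iterate `diff_step` (`d_{j+1}(t) = η + C ∫_0^t d_j`, `d_0 = 2K`, so `d_j(t) ≤ η e^{Ct} + 2K (Ct)^j/j!`).  Uniqueness gives invariance under the
translations that preserve the datum (a translate of a solution is a solution). -/

set_option autoImplicit false

open MeasureTheory Set Filter Topology Crest.AnalysisR.VecCalc3 Crest.AnalysisR.PDE.Boltzmann
open scoped ENNReal NNReal

namespace Crest.Agent.R68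

theorem uniq_int (C : ℝ≥0) {t : ℝ} (ht : 0 ≤ t) :
    (C : ℝ≥0∞) * ∫⁻ s in Ioo 0 t, ENNReal.ofReal (Real.exp (2 * C * s)) ≤
      2⁻¹ * ENNReal.ofReal (Real.exp (2 * C * t)) := by
  have hm : Measurable fun s : ℝ => ENNReal.ofReal (Real.exp (2 * C * s)) := by fun_prop
  have hc : Continuous fun s : ℝ => (C : ℝ) * Real.exp (2 * C * s) := by fun_prop
  have h1 : ∫ s in (0 : ℝ)..t, (C : ℝ) * Real.exp (2 * C * s) =
      Real.exp (2 * C * t) / 2 - Real.exp (2 * C * 0) / 2 := by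
    refine intervalIntegral.integral_eq_sub_of_hasDerivAt
      (f := fun s => Real.exp (2 * C * s) / 2) (fun s _ => ?_) (hc.intervalIntegrable _ _)
    refine ((((hasDerivAt_id s).const_mul (2 * (C : ℝ))).exp).div_const 2).congr_deriv ?_
    simp only [id]
    ring
  rw [← lintegral_const_mul _ hm]
  have h2 : ∀ s : ℝ, (C : ℝ≥0∞) * ENNReal.ofReal (Real.exp (2 * C * s)) =
      ENNReal.ofReal ((C : ℝ) * Real.exp (2 * C * s)) := fun s => by
    rw [ENNReal.ofReal_mul C.coe_nonneg, ENNReal.ofReal_coe_nnreal]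
  simp only [h2]
  rw [← ofReal_integral_eq_lintegral_ofReal
    ((hc.integrableOn_Icc (a := 0) (b := t)).mono_set Ioo_subset_Icc_self)
    (Eventually.of_forall fun s => by positivity), ← integral_Ioc_eq_integral_Ioo,
    ← intervalIntegral.integral_of_le ht, h1, ← ENNReal.ofReal_ofNat 2,
    ← ENNReal.ofReal_inv_of_pos (by norm_num), ← ENNReal.ofReal_mul (by norm_num)]
  refine ENNReal.ofReal_le_ofReal ?_
  have := Real.exp_pos (2 * C * 0)
  linarith

theorem lipschitz (K : ℝ≥0) (T : ℝ) : ∃ C : ℝ≥0, ∀ {F0 F0' : R3 → R3 → ℝ≥0∞} {F F' : Den} {T' : ℝ},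
    T' ≤ T → Mild F0 T' F → Mild F0' T' F' → Bd (1 / 2) K T' F → Bd (1 / 2) K T' F' →
    ∀ {η : ℝ≥0∞}, (∀ x v, adiff (F0 x v) (F0' x v) ≤ η * W (1 / 4) v) →
    ∀ t ∈ Icc 0 T', ∀ x v, adiff (F t x v) (F' t x v) ≤ C * η * W (1 / 4) v := by
  obtain ⟨C, hC⟩ := diff_step' K T
  refine ⟨2 * (Real.exp (2 * C * T)).toNNReal, ?_⟩
  intro F0 F0' F F' T' hT' hF hF' hB hB' η hη t ht x v
  have hT0 : 0 ≤ T' := ht.1.trans ht.2
  have h0 : ∀ x v, F0 x v ≤ K * W (1 / 2) v := fun x v => by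
    rw [← hF.init hT0]; exact hB 0 ⟨le_rfl, hT0⟩ x v
  have h0' : ∀ x v, F0' x v ≤ K * W (1 / 2) v := fun x v => by
    rw [← hF'.init hT0]; exact hB' 0 ⟨le_rfl, hT0⟩ x v
  have hm : Measurable fun s : ℝ => ENNReal.ofReal (Real.exp (2 * C * s)) := by fun_prop
  have h1e : ∀ s : ℝ, 0 ≤ s → 1 ≤ ENNReal.ofReal (Real.exp (2 * C * s)) := fun s hs => by
    rw [ENNReal.one_le_ofReal]
    exact Real.one_le_exp (by positivity)
  have key : ∀ j : ℕ, ∀ s ∈ Icc 0 T', ∀ x v, adiff (F s x v) (F' s x v) ≤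
      (2 * η + K * 2⁻¹ ^ j) * ENNReal.ofReal (Real.exp (2 * C * s)) * W (1 / 4) v := by
    intro j
    induction j with
    | zero =>
      intro s hs x v
      have h1 : (K : ℝ≥0∞) * W (1 / 2) v ≤
          (2 * η + K * 2⁻¹ ^ 0) * ENNReal.ofReal (Real.exp (2 * C * s)) * W (1 / 4) v := by
        refine mul_le_mul' ?_ (locEx_W_le v)
        rw [pow_zero, mul_one]
        exact le_add_self.trans (le_mul_of_one_le_right' (h1e s hs.1))
      exact adiff_le_iff.2 ⟨((hB s hs x v).trans h1).trans le_add_self,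
        ((hB' s hs x v).trans h1).trans le_add_self⟩
    | succ j ih =>
      intro s hs x v
      rw [hF.2 s hs x v, hF'.2 s hs x v]
      refine (hC hT' hF.1 hF'.1 hB hB' h0 h0' (hm.const_mul _) hη ih s hs x v).trans ?_
      refine mul_le_mul' ?_ le_rfl
      rw [lintegral_const_mul _ hm, mul_left_comm]
      calc η + (2 * η + K * 2⁻¹ ^ j) *
            (C * ∫⁻ a in Ioo 0 s, ENNReal.ofReal (Real.exp (2 * C * a)))
          ≤ η * ENNReal.ofReal (Real.exp (2 * C * s)) + (2 * η + K * 2⁻¹ ^ j) *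
            (2⁻¹ * ENNReal.ofReal (Real.exp (2 * C * s))) :=
            add_le_add (le_mul_of_one_le_right' (h1e s hs.1))
              (mul_le_mul' le_rfl (uniq_int C hs.1))
        _ = (η + (2 * 2⁻¹) * η + K * 2⁻¹ ^ (j + 1)) * ENNReal.ofReal (Real.exp (2 * C * s)) := by
            ring
        _ = _ := by rw [ENNReal.mul_inv_cancel (by norm_num) (by norm_num), one_mul, ← two_mul]
  have hE : ENNReal.ofReal (Real.exp (2 * C * t)) ≤ ENNReal.ofReal (Real.exp (2 * C * T)) :=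
    ENNReal.ofReal_le_ofReal (Real.exp_le_exp.2
      (mul_le_mul_of_nonneg_left (ht.2.trans hT') (by positivity)))
  refine locEx_le_of_geom (c := K * ENNReal.ofReal (Real.exp (2 * C * T)) * W (1 / 4) v)
    (ENNReal.mul_ne_top (ENNReal.mul_ne_top ENNReal.coe_ne_top ENNReal.ofReal_ne_top)
      (locEx_W_ne_top _ _)) fun j => (key j t ht x v).trans ?_
  calc _ ≤ (2 * η + K * 2⁻¹ ^ j) * ENNReal.ofReal (Real.exp (2 * C * T)) * W (1 / 4) v := by
        gcongr
    _ = _ := by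
        push_cast
        rw [ENNReal.ofReal]
        ring
theorem Sol.uniq {F0 : R3 → R3 → ℝ≥0∞} {T : ℝ} {F F' : Den} (h : Sol F0 T F) (h' : Sol F0 T F') :
    ∀ t ∈ Icc 0 T, ∀ x v, F t x v = F' t x v := by
  obtain ⟨K, hK⟩ := h.bdd
  obtain ⟨K', hK'⟩ := h'.bdd
  obtain ⟨C, hC⟩ := lipschitz (K + K') T
  intro t ht x v
  have h1 := hC le_rfl h.mild h'.mild
    (fun t ht x v => (hK t ht x v).trans (by push_cast; gcongr; exact le_self_add))
    (fun t ht x v => (hK' t ht x v).trans (by push_cast; gcongr; exact le_add_self))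
    (η := 0) (fun x v => adiff_le_iff.2 ⟨le_self_add, le_self_add⟩) t ht x v
  rw [mul_zero, zero_mul, adiff_le_iff, add_zero, add_zero] at h1
  exact le_antisymm h1.1 h1.2
theorem Sol.transl {F0 : R3 → R3 → ℝ≥0∞} {T : ℝ} {F : Den} (h : Sol F0 T F) {z : R3}
    (hz : ∀ x v, F0 (x + z) v = F0 x v) : ∀ t ∈ Icc 0 T, ∀ x v, F t (x + z) v = F t x v := by
  have h1 : Sol F0 T (fun t x v => F t (x + z) v) := by
    obtain ⟨K, hK⟩ := h.bdd
    refine ⟨⟨?_, fun t ht x v => ?_⟩, K, fun t ht x v => hK t ht _ v⟩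
    · exact h.mild.1.comp measurable_fst (measurable_snd.fst.add_const z) measurable_snd.snd
    · beta_reduce
      rw [h.mild.2 t ht (x + z) v, ← hz (x - t • v)]
      simp only [Ex, add_sub_right_comm]
  exact h1.uniq h
theorem Sol.inv {F0 : R3 → R3 → ℝ≥0∞} {T : ℝ} {F : Den} (h : Sol F0 T F)
    (hz : ∀ x v, F0 x v = F0 (hat x) v) : Inv T F := by
  intro t ht x v
  have h1 := h.transl (z := hat x - x) (fun y v => by
    rw [hz, hz y]
    have h2 := hat_hat_sub x (x - y)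
    rw [sub_sub_cancel] at h2
    rw [← h2]
    congr 2
    abel) t ht x v
  rw [add_sub_cancel] at h1
  exact h1.symm
theorem Inv.per {T : ℝ} {F : Den} (h : Inv T F) : ∀ t ∈ Icc 0 T, ∀ v, IsPeriodic3 (fun x => F t x v) := by
  intro t ht v x i
  beta_reduce
  rw [h t ht, hat_periodic x i, ← h t ht]

end Crest.Agent.R68
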