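import Crest.Agent.R68.Step1
import Crest.Agent.R68.Uniq
import Crest.Agent.R68.Qsmall

/-! Regularity package and simple consequences of `HotLe`.  `dep`: `F ≥ gs · Ex F 0 t`; along the characteristic of a cold particle `gs ≠ 0` (`gs_transport`), `ν_F ≤ ν_G + ν_hot ≤ 1/1000 + C (B+B'')·3`; `1 ≤ expNeg a + a`.
`nu_le`: `nu_GC` and the fourth item of `hot_bounds` with `ℓ ≤ 4r`.  `out1`: `step1`, `seed_le_W`, `Th_le_W`, `KK_late`, second item of `hot_bounds`; lower bound: along the path of a gas particle `dd ≥ a - R t1 ≥ a/2 > X 0`, so `G = 0` there (`G_supp`). -/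

set_option autoImplicit false

open MeasureTheory Set Filter Topology Crest.AnalysisR.VecCalc3 Crest.AnalysisR.PDE.Boltzmann
open scoped ENNReal NNReal

namespace Crest.Agent.R68

namespace RegL

theorem vol_sq (ρ : ℝ) : volume (Metric.closedBall (0 : ℝ × ℝ) ρ) = ENNReal.ofReal (2 * ρ) ^ 2 := by
  rw [show (0 : ℝ × ℝ) = (0, 0) from rfl, ← closedBall_prod_same, Measure.volume_eq_prod, Measure.prod_prod,
    Real.volume_closedBall, sq]

theorem int_le {g : ℝ → ℝ≥0∞} {t : ℝ} {c : ℝ≥0∞} (h : ∀ s ∈ Ioo 0 t, g s ≤ c) :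
    ∫⁻ s in Ioo 0 t, g s ≤ c * ENNReal.ofReal t := by
  refine (setLIntegral_mono' measurableSet_Ioo h).trans ?_
  rw [setLIntegral_const, Real.volume_Ioo, sub_zero]

theorem free_le {F0 : R3 → R3 → ℝ≥0∞} {T : ℝ} {F : Den} (h : Mild F0 T F) {t : ℝ} (ht : t ∈ Icc 0 T)
    (x v : R3) : F0 (x - t • v) v * Ex F 0 t x v ≤ F t x v := by
  rw [h.2 t ht x v]; exact le_self_add

theorem Ex_ge {F : Den} {t : ℝ} {x v : R3} {c : ℝ≥0∞}
    (h : ∀ s ∈ Ioo 0 t, nu (F s (x - (t - s) • v)) v ≤ c) :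
    1 ≤ Ex F 0 t x v + c * ENNReal.ofReal t :=
  (one_le_expNeg_add _).trans (add_le_add_right (int_le h) _)

theorem nu_F {P : Par} (N : ℕ) (F : Den) (s : ℝ) (y v : R3) :
    nu (F s y) v ≤ nu (G P N s y) v + nu (hot P N F s y) v := by
  rw [← nu_add ((measD_G N).vel s y)]
  exact nu_mono (fun a => le_G_add_hot N F s y a) v

theorem nu_G {P : Par} (N : ℕ∞) (s : ℝ) (y v : R3) :
    nu (G P N s y) v = nu (gs P N s y) v + nu (GC P N s y) v := by
  rw [← nu_add ((measD_gs N).vel s y)]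
  rfl

theorem sub_le {e a : ℝ≥0∞} {r : ℝ} (h0 : 0 ≤ r) (h : 1 ≤ e + a) (ha : a ≤ ENNReal.ofReal r) :
    ENNReal.ofReal (1 - r) ≤ e := by
  rw [ENNReal.ofReal_sub _ h0, ENNReal.ofReal_one]
  exact tsub_le_iff_right.2 (h.trans (add_le_add_right ha _))

theorem WLam : ∃ C : ℝ≥0, ∀ {P : Par}, P.Ok → ∀ {t : ℝ}, t ∈ Icc (0 : ℝ) 1 → ∀ x : R3,
    ∫⁻ v, W (1 / 2) v * Lam P t x v ≤ C := by
  obtain ⟨C1, h1⟩ := PB_Lam
  obtain ⟨C2, h2⟩ := PB_WLam
  obtain ⟨C3, h3⟩ := moment_of_PB (lam := 1 / 2) (by norm_num) 0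
  have hf : (C3 : ℝ≥0∞) * (C2 * (C1 : ℝ≥0∞) ^ (2 / 3 : ℝ)) ≠ ⊤ :=
    ENNReal.mul_ne_top ENNReal.coe_ne_top (ENNReal.mul_ne_top ENNReal.coe_ne_top
      (ENNReal.rpow_ne_top_of_nonneg (by norm_num) ENNReal.coe_ne_top))
  refine ⟨((C3 : ℝ≥0∞) * (C2 * (C1 : ℝ≥0∞) ^ (2 / 3 : ℝ))).toNNReal, fun {P} hP {t} ht x => ?_⟩
  rw [ENNReal.coe_toNNReal hf]
  have hm : Measurable (Lam P t x) := measD_Lam.vel t x
  have := h3 ((measurable_W _).mul hm) (h2 hm (h1 hP ht x))
  simpa [pw] using this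

theorem nuW : ∃ C : ℝ≥0, ∀ v : R3, ‖v‖ ≤ 2 → nu (W (1 / 2)) v ≤ C := by
  have hf := PLA.fin_exp (μ := 1 / 2) (by norm_num) 1
  have hI : ∫⁻ a : R3, W (1 / 2) a * pw 1 a ≤
      ∫⁻ q : R3, ENNReal.ofReal (Real.exp (-(1 / 2 * ‖q‖)) * (2 + ‖q‖) ^ 1) := by
    refine lintegral_mono fun a => ?_
    unfold W pw
    rw [← ENNReal.ofReal_mul (Real.exp_pos _).le]
    refine ENNReal.ofReal_le_ofReal ?_
    have := norm_nonneg a
    gcongr
    norm_num
  have hf' : 7 * ENNReal.ofReal 3 * ∫⁻ q : R3, ENNReal.ofReal (Real.exp (-(1 / 2 * ‖q‖)) * (2 + ‖q‖) ^ 1) ≠ ⊤ :=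
    ENNReal.mul_ne_top (ENNReal.mul_ne_top (by norm_num) ENNReal.ofReal_ne_top) hf
  refine ⟨(7 * ENNReal.ofReal 3 *
    ∫⁻ q : R3, ENNReal.ofReal (Real.exp (-(1 / 2 * ‖q‖)) * (2 + ‖q‖) ^ 1)).toNNReal, fun v hv => ?_⟩
  rw [ENNReal.coe_toNNReal hf']
  refine (nu_le_pw _ v).trans ?_
  gcongr
  linarith

end RegL

open RegL

theorem reg_of_hotLe (m : ℕ) : ∃ C : ℝ≥0, ∀ {P : Par}, P.Ok → P.m = m → ∀ (N : ℕ) {σ : ℝ≥0} {T : ℝ} {F : Den}
    {B B'' : ℝ≥0∞}, P.fl N ≤ P.r → T ≤ P.r → Sol (F0 P N σ) T F → HotLe P N B B'' 0 T F →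
    C * ENNReal.ofReal T * (B + B'') ≤ 1 →
    C * (B * ENNReal.ofReal P.r + B'' * ENNReal.ofReal (P.r ^ m)) ≤ 1 → Reg P N T F := by
  obtain ⟨C0, h0⟩ := hot_bounds m
  refine ⟨3000 * C0 + 2 * 4 ^ m * C0, fun {P} hP hm N {σ T F B B''} hfl hT hS hH h1 h2 => ?_⟩
  have hr1 : P.r ≤ 1 := hP.r1.trans (by norm_num)
  have hfl1 : P.fl N ≤ 1 := hfl.trans hr1
  have hF := hS.mild.1
  have hb := fun (s : ℝ) (hs : s ∈ Icc 0 T) (y : R3) =>
    h0 hP hm N hfl1 (s := s) ⟨hs.1, hs.2.trans (hT.trans hr1)⟩ y (f := hot P N F s y) (B := B) (B'' := B'')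
      ((measD_hot N hF).vel s y) (hH s hs y)
  refine ⟨⟨_, hS.mild⟩, hS.inv fun x v => by rw [F0_hat], fun t ht x v => ?_, fun t ht x v hx => ?_⟩
  · by_cases hg : gs P N t x v = 0
    · rw [hg]; simp
    have ht1 : t ∈ Icc (0 : ℝ) 1 := ⟨ht.1, ht.2.trans (hT.trans hr1)⟩
    have hv : ‖v‖ ≤ 2 :=
      (G_supp hP ht1 (x := x) (v := v) (N := N) fun h => hg (le_antisymm (h ▸ gs_le_G N t x v) bot_le)).1
    have hE := Ex_ge (F := F) (t := t) (x := x) (v := v)
      (c := ENNReal.ofReal (1 / 1000) + C0 * (B + B'') * ENNReal.ofReal 3) (fun s hs => by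
        have hsT : s ∈ Icc 0 T := ⟨hs.1.le, hs.2.le.trans ht.2⟩
        refine (nu_F (P := P) N F s _ v).trans (add_le_add ?_ ?_)
        · refine nu_self hP N ⟨hs.1.le, hs.2.le.trans ht1.2⟩ ?_
          have := gs_transport (P := P) N s (t - s) (x - (t - s) • v) v
          rw [← this]
          simpa using hg
        · refine ((hb s hsT _).2.2.1 v).trans ?_
          gcongr
          linarith)
    have hA : (ENNReal.ofReal (1 / 1000) + C0 * (B + B'') * ENNReal.ofReal 3) * ENNReal.ofReal t ≤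
        ENNReal.ofReal (1 / 100) := by
      have e1 : ENNReal.ofReal (1 / 1000) * ENNReal.ofReal t ≤ ENNReal.ofReal (1 / 1000) := by
        refine (mul_le_mul_right (ENNReal.ofReal_le_one.2 ht1.2) _).trans (by rw [mul_one])
      have e2 : C0 * (B + B'') * ENNReal.ofReal 3 * ENNReal.ofReal t ≤ ENNReal.ofReal (1 / 1000) := by
        have e3 : (3000 * C0 : ℝ≥0∞) * ENNReal.ofReal T * (B + B'') ≤ 1 := by
          refine le_trans ?_ h1
          push_cast
          gcongr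
          exact le_self_add
        have e4 : ENNReal.ofReal 3 = ENNReal.ofReal (1 / 1000) * 3000 := by
          rw [show (3000 : ℝ≥0∞) = ENNReal.ofReal 3000 by simp, ← ENNReal.ofReal_mul (by norm_num)]
          norm_num
        calc C0 * (B + B'') * ENNReal.ofReal 3 * ENNReal.ofReal t
            ≤ C0 * (B + B'') * ENNReal.ofReal 3 * ENNReal.ofReal T := by gcongr; exact ht.2
          _ = ENNReal.ofReal (1 / 1000) * ((3000 * C0 : ℝ≥0∞) * ENNReal.ofReal T * (B + B'')) := by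
            rw [e4]; ring
          _ ≤ ENNReal.ofReal (1 / 1000) * 1 := by gcongr
          _ = _ := mul_one _
      rw [add_mul]
      refine (add_le_add e1 e2).trans ?_
      rw [← ENNReal.ofReal_add (by norm_num) (by norm_num)]
      exact ENNReal.ofReal_le_ofReal (by norm_num)
    have hE' := sub_le (by norm_num) hE hA
    refine le_trans ?_ (free_le hS.mild ht x v)
    rw [mul_comm]
    refine mul_le_mul' ?_ (le_trans (le_of_eq (by norm_num)) hE')
    unfold F0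
    exact le_self_add.trans le_self_add
  · have ht1 : t ∈ Icc (0 : ℝ) 1 := ⟨ht.1, ht.2.trans (hT.trans hr1)⟩
    refine (nu_F (P := P) N F t x v).trans ?_
    rw [nu_G, add_assoc]
    refine add_le_add_right ?_ _
    have hl : t + dd x + P.fl N ≤ 4 * P.r := by linarith [ht.2]
    have hl0 : 0 ≤ t + dd x + P.fl N := by linarith [ht.1, dd_nonneg x, fl_pos hP N]
    have hm1 : 1 ≤ m := hm ▸ hP.m1
    have e1 : ENNReal.ofReal (t + dd x + P.fl N) ≤ 4 ^ m * ENNReal.ofReal P.r := by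
      rw [show (4 : ℝ≥0∞) ^ m = ENNReal.ofReal (4 ^ m) by
        rw [ENNReal.ofReal_pow (by norm_num)]; simp, ← ENNReal.ofReal_mul (by positivity)]
      refine ENNReal.ofReal_le_ofReal (hl.trans ?_)
      have : (4 : ℝ) ≤ 4 ^ m := le_self_pow₀ (by norm_num) (by omega)
      exact mul_le_mul_of_nonneg_right this hP.r0.le
    have e2 : ENNReal.ofReal ((t + dd x + P.fl N) ^ m) ≤ 4 ^ m * ENNReal.ofReal (P.r ^ m) := by
      rw [show (4 : ℝ≥0∞) ^ m = ENNReal.ofReal (4 ^ m) by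
        rw [ENNReal.ofReal_pow (by norm_num)]; simp, ← ENNReal.ofReal_mul (by positivity), ← mul_pow]
      exact ENNReal.ofReal_le_ofReal (pow_le_pow_left₀ hl0 hl m)
    have e3 : (2 * 4 ^ m * C0 : ℝ≥0∞) * (B * ENNReal.ofReal P.r + B'' * ENNReal.ofReal (P.r ^ m)) ≤ 1 := by
      refine le_trans ?_ h2
      push_cast
      gcongr
      exact le_add_self
    have e4 : C0 * (B * ENNReal.ofReal (t + dd x + P.fl N) + B'' * ENNReal.ofReal ((t + dd x + P.fl N) ^ m)) ≤
        2⁻¹ := by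
      calc _ ≤ C0 * (B * (4 ^ m * ENNReal.ofReal P.r) + B'' * (4 ^ m * ENNReal.ofReal (P.r ^ m))) := by gcongr
        _ = (2⁻¹ * 2) * (C0 * (B * (4 ^ m * ENNReal.ofReal P.r) + B'' * (4 ^ m * ENNReal.ofReal (P.r ^ m)))) := by
          rw [ENNReal.inv_mul_cancel (by norm_num) (by norm_num), one_mul]
        _ = 2⁻¹ * ((2 * 4 ^ m * C0 : ℝ≥0∞) * (B * ENNReal.ofReal P.r + B'' * ENNReal.ofReal (P.r ^ m))) := by
          ring
        _ ≤ 2⁻¹ * 1 := by gcongr
        _ = _ := mul_one _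
    calc nu (GC P N t x) v + nu (hot P N F t x) v
        ≤ 2⁻¹ * ENNReal.ofReal (1 + ‖v‖) + 2⁻¹ * ENNReal.ofReal (1 + ‖v‖) :=
          add_le_add (nu_GC hP N ht1 x v) (((hb t ht x).2.2.2.1 v).trans (by gcongr))
      _ = _ := by rw [← add_mul, ENNReal.inv_two_add_inv_two, one_mul]

theorem prodLe_of_hotLe (m : ℕ) : ∃ C : ℝ≥0, ∀ {P : Par}, P.Ok → P.m = m → ∀ (N : ℕ) {T : ℝ} {F : Den}
    {B B'' : ℝ≥0∞}, P.fl N ≤ P.r → T ≤ P.r → HotLe P N B B'' 0 T F →
    ProdLe P N (C * (B + B'' * ENNReal.ofReal (P.r ^ (m - 1)))) T F := by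
  obtain ⟨C0, h0⟩ := Th_le_W m
  refine ⟨C0 * 3 ^ m, fun {P} hP hm N {T F B B''} hfl hT hH t ht y ξ hy => ?_⟩
  have hr1 : P.r ≤ 1 := hP.r1.trans (by norm_num)
  have ht1 : t ∈ Icc (0 : ℝ) 1 := ⟨ht.1, ht.2.trans (hT.trans hr1)⟩
  have hm1 : 1 ≤ m := hm ▸ hP.m1
  have hd := dd_le_nrm y
  have hl0 : 0 ≤ t + dd y + P.fl N := by linarith [ht.1, dd_nonneg y, fl_pos hP N]
  have h3 : (3 : ℝ≥0∞) ^ m = ENNReal.ofReal (3 ^ m) := by rw [ENNReal.ofReal_pow (by norm_num)]; simp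
  have e1 : ENNReal.ofReal ((t + dd y + P.fl N) ^ 1) ≤ 3 ^ m * ENNReal.ofReal (t + nrm y + P.fl N) := by
    refine le_trans ?_ (le_mul_of_one_le_left' (one_le_pow₀ (by norm_num)))
    exact ENNReal.ofReal_le_ofReal (by rw [pow_one]; linarith)
  have e2 : ENNReal.ofReal ((t + dd y + P.fl N) ^ m) ≤
      3 ^ m * (ENNReal.ofReal (P.r ^ (m - 1)) * ENNReal.ofReal (t + nrm y + P.fl N)) := by
    rw [h3, ← ENNReal.ofReal_mul (pow_nonneg hP.r0.le _), ← ENNReal.ofReal_mul (by positivity)]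
    refine ENNReal.ofReal_le_ofReal ?_
    obtain ⟨k, rfl⟩ : ∃ k, m = k + 1 := ⟨m - 1, by omega⟩
    have a1 : (t + dd y + P.fl N) ^ k ≤ (3 * P.r) ^ k :=
      pow_le_pow_left₀ hl0 (by linarith [ht.2, hP.r0]) k
    have a2 : 0 ≤ P.r ^ k := pow_nonneg hP.r0.le k
    have a3 : (0 : ℝ) ≤ 3 ^ k := by positivity
    rw [Nat.add_sub_cancel, pow_succ, pow_succ]
    rw [mul_pow] at a1
    calc (t + dd y + P.fl N) ^ k * (t + dd y + P.fl N) ≤ 3 ^ k * P.r ^ k * (t + nrm y + P.fl N) :=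
          mul_le_mul a1 (by linarith) hl0 (mul_nonneg a3 a2)
      _ ≤ _ := by
        have : 0 ≤ 3 ^ k * P.r ^ k * (t + nrm y + P.fl N) := mul_nonneg (mul_nonneg a3 a2) (by linarith)
        nlinarith
  refine (mul_chi_le_hot hP N F ht1 y ξ).trans ((hH t ht y ξ).trans ?_)
  have b1 := h0 hP hm N hm1 ht.1 y ξ
  have b2 := h0 hP hm N le_rfl ht.1 y ξ
  rw [hm]
  calc (B * Th P (P.fl N) 1 t y ξ + B'' * Th P (P.fl N) m t y ξ) * Lam P t y ξ
      ≤ (B * (C0 * (3 ^ m * ENNReal.ofReal (t + nrm y + P.fl N)) * W (1 / 2) ξ) +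
          B'' * (C0 * (3 ^ m * (ENNReal.ofReal (P.r ^ (m - 1)) * ENNReal.ofReal (t + nrm y + P.fl N))) *
            W (1 / 2) ξ)) * Lam P t y ξ := by
        gcongr
        · exact b1.trans (by gcongr)
        · exact b2.trans (by gcongr)
    _ = _ := by push_cast; ring

theorem Nf_quiet (m : ℕ) : ∃ C : ℝ≥0, ∀ {P : Par}, P.Ok → P.m = m → ∀ (N : ℕ) {T : ℝ} {F : Den}
    {B'' : ℝ≥0∞}, P.fl N ≤ P.r → 0 ≤ T → T ≤ P.r → HotLe P N 0 B'' 0 T F →
    Nf F T (P.r / 2) ≤ C * B'' * ENNReal.ofReal (P.r ^ (m + 2)) := by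
  obtain ⟨C0, h0⟩ := Th_le_W m
  obtain ⟨C1, h1⟩ := WLam
  refine ⟨C0 * 3 ^ m * C1, fun {P} hP hm N {T F B''} hfl hT0 hT hH => ?_⟩
  have hr1 : P.r ≤ 1 := hP.r1.trans (by norm_num)
  have ht1 : T ∈ Icc (0 : ℝ) 1 := ⟨hT0, hT.trans hr1⟩
  have h3 : (3 : ℝ≥0∞) ^ m = ENNReal.ofReal (3 ^ m) := by rw [ENNReal.ofReal_pow (by norm_num)]; simp
  have key : ∀ y ∈ Metric.closedBall (0 : ℝ × ℝ) (P.r / 2), ∫⁻ v, F T (lift y) v * chi v ≤
      B'' * C0 * (3 ^ m * ENNReal.ofReal (P.r ^ m)) * C1 := by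
    intro y hy
    rw [mem_closedBall_zero_iff] at hy
    have hd : dd (lift y) ≤ P.r / 2 := (dd_le_nrm _).trans (by rw [nrm_lift]; exact hy)
    have hl0 : 0 ≤ T + dd (lift y) + P.fl N := by linarith [dd_nonneg (lift y), fl_pos hP N]
    have e2 : ENNReal.ofReal ((T + dd (lift y) + P.fl N) ^ m) ≤ 3 ^ m * ENNReal.ofReal (P.r ^ m) := by
      rw [h3, ← ENNReal.ofReal_mul (by positivity), ← mul_pow]
      exact ENNReal.ofReal_le_ofReal (pow_le_pow_left₀ hl0 (by linarith [hP.r0]) m)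
    calc ∫⁻ v, F T (lift y) v * chi v
        ≤ ∫⁻ v, B'' * C0 * (3 ^ m * ENNReal.ofReal (P.r ^ m)) * (W (1 / 2) v * Lam P T (lift y) v) := by
          refine lintegral_mono fun v => ?_
          refine (mul_chi_le_hot hP N F ht1 _ v).trans ((hH T ⟨hT0, le_rfl⟩ _ v).trans ?_)
          rw [zero_mul, zero_add, hm]
          calc B'' * Th P (P.fl N) m T (lift y) v * Lam P T (lift y) v
              ≤ B'' * (C0 * (3 ^ m * ENNReal.ofReal (P.r ^ m)) * W (1 / 2) v) * Lam P T (lift y) v := by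
                gcongr
                exact (h0 hP hm N le_rfl hT0 _ v).trans (by gcongr)
            _ = _ := by ring
      _ = B'' * C0 * (3 ^ m * ENNReal.ofReal (P.r ^ m)) * ∫⁻ v, W (1 / 2) v * Lam P T (lift y) v :=
          lintegral_const_mul _ ((measurable_W _).mul (measD_Lam.vel T _))
      _ ≤ _ := by gcongr; exact h1 hP ht1 _
  refine (setLIntegral_mono' Metric.isClosed_closedBall.measurableSet key).trans ?_
  rw [setLIntegral_const, vol_sq, show 2 * (P.r / 2) = P.r by ring, pow_add,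
    ENNReal.ofReal_mul (pow_nonneg hP.r0.le _), ENNReal.ofReal_pow hP.r0.le 2]
  push_cast
  exact le_of_eq (by ring)

theorem out1 (m : ℕ) : ∃ C : ℝ≥0, ∀ {P : Par}, P.Ok → P.m = m → ∀ (N : ℕ) {σ : ℝ≥0} {T t1 : ℝ} {F : Den}
    {B B2 : ℝ≥0∞}, P.fl N ≤ P.r → P.r ≤ t1 → T ≤ t1 → t1 ≤ 1 → P.R * t1 + P.r + 2 * kap * t1 ≤ P.a / 2 → B ≤ B2 →
    Mild (F0 P N σ) T F → HotLe P N B B2 0 T F → ∀ t ∈ Icc 0 T, ∀ x v,
    F t x v ≤ G P N t x v + gas P (x - t • v) v +
      C * (σ + ENNReal.ofReal P.w + ENNReal.ofReal t1 * (1 + B2) ^ 2) * (W (1 / 2) v * Lam P t x v) ∧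
    gas P (x - t • v) v ≤ F t x v + C * (ENNReal.ofReal t1 * B2) * (MM v * pw 1 v) := by
  obtain ⟨C0, h0⟩ := hot_bounds m
  obtain ⟨C1, h1⟩ := Th_le_W m
  obtain ⟨C2, h2⟩ := step1 m
  obtain ⟨C3, h3⟩ := KK_late m
  refine ⟨3 + C2 * C1 * 3 ^ m + 2 * C3 + 4 * C0,
    fun {P} hP hm N {σ T t1 F B B2} hfl hr hT ht11 ha hB hM hH t ht x v => ?_⟩
  have hfl1 : P.fl N ≤ 1 := hfl.trans (hr.trans ht11)
  have hT1 : T ≤ 1 := hT.trans ht11
  have hF := hM.1
  have hm1 : 1 ≤ m := hm ▸ hP.m1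
  have hb := fun (s : ℝ) (hs : s ∈ Icc 0 T) (y : R3) =>
    h0 hP hm N hfl1 (s := s) ⟨hs.1, hs.2.trans hT1⟩ y (f := hot P N F s y) (B := B) (B'' := B2)
      ((measD_hot N hF).vel s y) (hH s hs y)
  have htt : ENNReal.ofReal t ≤ ENNReal.ofReal t1 := ENNReal.ofReal_le_ofReal (ht.2.trans hT)
  have hWL : W (1 / 2) v ≤ W (1 / 2) v * Lam P t x v := le_mul_of_one_le_right' (one_le_Lam t x v)
  constructor
  · set S : ℝ≥0∞ := σ + ENNReal.ofReal P.w + ENNReal.ofReal t1 * (1 + B2) ^ 2 with hS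
    set WL := W (1 / 2) v * Lam P t x v with hWLd
    have s1 : (σ : ℝ≥0∞) ≤ S := le_self_add.trans le_self_add
    have s2 : ENNReal.ofReal P.w ≤ S := le_add_self.trans le_self_add
    have s3 : ENNReal.ofReal t1 * (1 + B2) ^ 2 ≤ S := le_add_self
    have s4 : B2 ≤ (1 + B2) ^ 2 := le_add_self.trans (le_self_pow₀ le_self_add (by norm_num))
    have a1 : σ * seed P N (x - t • v) v ≤ 3 * S * WL := by
      calc σ * seed P N (x - t • v) v ≤ S * (3 * WL) :=
            mul_le_mul' s1 ((seed_le_W P N _ v).trans (by gcongr))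
        _ = _ := by ring
    have a2 : C2 * ENNReal.ofReal P.w * Th P (P.fl N) m t x v ≤ C2 * C1 * 3 ^ m * S * WL := by
      have e2 : ENNReal.ofReal ((t + dd x + P.fl N) ^ m) ≤ 3 ^ m := by
        rw [show (3 : ℝ≥0∞) ^ m = ENNReal.ofReal (3 ^ m) by rw [ENNReal.ofReal_pow (by norm_num)]; simp]
        refine ENNReal.ofReal_le_ofReal (pow_le_pow_left₀ ?_ ?_ m)
        · linarith [ht.1, dd_nonneg x, fl_pos hP N]
        · linarith [ht.2, dd_le_half x]
      calc C2 * ENNReal.ofReal P.w * Th P (P.fl N) m t x v ≤ C2 * S * (C1 * 3 ^ m * WL) := by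
            gcongr
            exact (h1 hP hm N le_rfl ht.1 x v).trans (by gcongr)
        _ = _ := by ring
    have a3 : KK P N F (hot P N F) t x v ≤ 2 * C3 * S * WL := by
      have k1 := h3 hP hm N F le_rfl hm1 ht.1 (ht.2.trans hT) ht11 hr hfl x v
      have k2 := h3 hP hm N F hm1 le_rfl ht.1 (ht.2.trans hT) ht11 hr hfl x v
      have hc : ∀ (c : ℝ≥0∞) (j : ℕ), MeasD (fun s y η => c * TL P N j s y η) := fun c j =>
        (measD_TL (P := P) N j).const_mul c
      calc KK P N F (hot P N F) t x v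
          ≤ KK P N F (fun s y η => B2 * TL P N 1 s y η + B2 * TL P N m s y η) t x v := by
            refine KK_mono (fun s hs y η => ?_) x v
            refine (hH s ⟨hs.1.le, hs.2.le.trans ht.2⟩ y η).trans ?_
            rw [hm, add_mul, mul_assoc, mul_assoc]
            unfold TL
            gcongr
        _ = B2 * KK P N F (TL P N 1) t x v + B2 * KK P N F (TL P N m) t x v := by
            rw [KK_add hF (hc _ _) (hc _ _), KK_cmul hF (measD_TL N 1), KK_cmul hF (measD_TL N m)]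
        _ ≤ (1 + B2) ^ 2 * (C3 * ENNReal.ofReal t1 * WL) + (1 + B2) ^ 2 * (C3 * ENNReal.ofReal t1 * WL) := by
            gcongr
        _ = 2 * C3 * (ENNReal.ofReal t1 * (1 + B2) ^ 2) * WL := by ring
        _ ≤ _ := by gcongr
    have a4 : NL (hot P N F) t x v ≤ 4 * C0 * S * WL := by
      have hBB : B + B2 ≤ 2 * (1 + B2) := by
        rw [two_mul]
        exact add_le_add (hB.trans le_add_self) le_add_self
      calc NL (hot P N F) t x v ≤ C0 * (B + B2) ^ 2 * W (1 / 2) v * ENNReal.ofReal t :=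
            int_le fun s hs => (hb s ⟨hs.1.le, hs.2.le.trans ht.2⟩ _).2.1 v
        _ ≤ C0 * (2 * (1 + B2)) ^ 2 * WL * ENNReal.ofReal t1 := by gcongr
        _ = 4 * C0 * (ENNReal.ofReal t1 * (1 + B2) ^ 2) * WL := by ring
        _ ≤ _ := by gcongr
    refine (le_G_add_hot (P := P) N F t x v).trans ?_
    rw [add_assoc]
    refine add_le_add_right ((h2 hP N σ hT1 hM t ht x v).trans ?_) _
    calc _ ≤ gas P (x - t • v) v + 3 * S * WL + C2 * C1 * 3 ^ m * S * WL + 2 * C3 * S * WL +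
          4 * C0 * S * WL := by gcongr
      _ = _ := by push_cast; ring
  · by_cases hg : P.a ≤ dd (x - t • v) ∧ ‖v‖ < P.R
    swap
    · unfold gas; rw [if_neg hg]; exact bot_le
    have hgas : gas P (x - t • v) v = MM v := by unfold gas; rw [if_pos hg]
    have hE := Ex_ge (F := F) (t := t) (x := x) (v := v)
      (c := C0 * (B2 + B2) * ENNReal.ofReal (1 + ‖v‖)) (fun s hs => by
        have hsT : s ∈ Icc 0 T := ⟨hs.1.le, hs.2.le.trans ht.2⟩
        have hs1 : s ≤ t1 := hsT.2.trans hT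
        have hG : G P N s (x - (t - s) • v) = fun _ => 0 := by
          funext a
          by_contra hne
          have c1 := (G_supp hP ⟨hs.1.le, hs1.trans ht11⟩ hne).2.2
          have c2 := X_le hP 0 hs.1.le
          have c3 := dd_lip (x - (t - s) • v) (-(s • v))
          have c4 : x - (t - s) • v + -(s • v) = x - t • v := by rw [sub_smul]; abel
          have c5 : nrm (-(s • v)) ≤ s * ‖v‖ := by
            refine (nrm_le_norm _).trans ?_
            rw [norm_neg, norm_smul, Real.norm_of_nonneg hs.1.le]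
          rw [c4] at c3
          have c6 : P.rr 0 = P.r := by simp [Par.rr]
          have c7 : s * ‖v‖ ≤ P.R * t1 := by
            rw [mul_comm]
            exact mul_le_mul hg.2.le hs1 hs.1.le (by linarith [hP.R1])
          have c8 : 2 * kap * s ≤ 2 * kap * t1 := by
            have := kap_pos
            gcongr
          have c9 : 0 ≤ P.a := by linarith [hP.a0, hP.r0]
          linarith [hg.1]
        refine (nu_F (P := P) N F s _ v).trans ?_
        rw [hG]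
        have hz : nu (fun _ => 0) v = 0 := by simp [nu]
        rw [hz, zero_add]
        exact ((hb s hsT _).2.2.1 v).trans (by gcongr))
    have hfree : MM v * Ex F 0 t x v ≤ F t x v := by
      refine le_trans ?_ (free_le hM ht x v)
      refine mul_le_mul' ?_ le_rfl
      unfold F0
      rw [← hgas]
      exact le_add_self.trans le_self_add
    rw [hgas]
    calc MM v = MM v * 1 := (mul_one _).symm
      _ ≤ MM v * (Ex F 0 t x v + C0 * (B2 + B2) * ENNReal.ofReal (1 + ‖v‖) * ENNReal.ofReal t) := by gcongr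
      _ = MM v * Ex F 0 t x v + (2 * C0) * (ENNReal.ofReal t * B2) * (MM v * pw 1 v) := by
        unfold pw; rw [pow_one]; ring
      _ ≤ _ := by
        gcongr
        push_cast
        refine le_trans ?_ le_add_self
        gcongr
        norm_num

theorem seed_low {P : Par} (hP : P.Ok) {N : ℕ} {σ : ℝ≥0} {T : ℝ} (hT : 0 < T) {F : Den}
    (h : Sol (F0 P N σ) T F) : ∃ t, 0 < t ∧ t ≤ T ∧ t ≤ P.fl N ∧
      σ * ENNReal.ofReal (P.fl N ^ 2) ≤ Nf F t (2 * P.fl N) := by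
  obtain ⟨K, hK⟩ := h.bdd
  obtain ⟨C, hC⟩ := nuW
  have hfl := fl_pos hP N
  have hA : (0 : ℝ) < 10 * (K * C + 1) := by positivity
  set t := min T (min (P.fl N / 20) (1 / (10 * (K * C + 1)))) with htd
  have ht0 : 0 < t := lt_min hT (lt_min (by positivity) (by positivity))
  have htT : t ≤ T := min_le_left _ _
  have ht2 : t ≤ P.fl N / 20 := (min_le_right _ _).trans (min_le_left _ _)
  have ht3 : t ≤ 1 / (10 * (K * C + 1)) := (min_le_right _ _).trans (min_le_right _ _)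
  refine ⟨t, ht0, htT, by linarith, ?_⟩
  set e0 : R3 := EuclideanSpace.single 0 1 with he0
  have key : ∀ y ∈ Metric.closedBall (0 : ℝ × ℝ) (9 / 10 * P.fl N), ∀ v ∈ Metric.closedBall e0 (1 / 2),
      σ * ENNReal.ofReal (9 / 10) ≤ F t (lift y) v * chi v := by
    intro y hy v hv
    rw [mem_closedBall_zero_iff] at hy
    rw [mem_closedBall_iff_norm] at hv
    have hn0 : ‖e0‖ = 1 := by simp [he0]
    have hv2 : ‖v‖ ≤ 2 := by
      have := norm_add_le (v - e0) e0
      rw [sub_add_cancel] at this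
      linarith
    have hchi : chi v = 1 := by
      have c1 : |(v - e0) 0| ≤ 1 / 2 := by
        refine le_trans ?_ hv
        exact (le_max_left _ _).trans (nrm_le_norm (v - e0))
      have c2 : (v - e0) 0 = v 0 - 1 := by simp [he0]
      rw [c2, abs_le] at c1
      have c3 : DD ≤ nrm v := by
        refine le_trans ?_ (le_max_left _ _)
        refine le_trans ?_ (le_abs_self _)
        unfold DD
        linarith [c1.1]
      unfold chi
      rw [if_pos c3]
    have hseed : seed P N (lift y - t • v) v = 1 := by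
      have c3 := dd_lip (lift y) (-(t • v))
      have c5 : nrm (-(t • v)) ≤ t * ‖v‖ := by
        refine (nrm_le_norm _).trans ?_
        rw [norm_neg, norm_smul, Real.norm_of_nonneg ht0.le]
      have c6 := dd_le_nrm (lift y)
      rw [nrm_lift] at c6
      rw [← sub_eq_add_neg] at c3
      have c7 : t * ‖v‖ ≤ t * 2 := by gcongr
      unfold seed
      rw [if_pos ⟨by linarith, hv⟩]
    have hE := Ex_ge (F := F) (t := t) (x := lift y) (v := v) (c := K * C) (fun s hs => by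
      refine (nu_mono (fun a => hK s ⟨hs.1.le, hs.2.le.trans htT⟩ _ a) v).trans ?_
      rw [nu_cmul (measurable_W _)]
      gcongr
      exact hC v hv2)
    have hB : (K * C : ℝ≥0∞) * ENNReal.ofReal t ≤ ENNReal.ofReal (1 / 10) := by
      rw [← ENNReal.coe_mul, ← ENNReal.ofReal_coe_nnreal, ← ENNReal.ofReal_mul (NNReal.coe_nonneg _)]
      refine ENNReal.ofReal_le_ofReal ?_
      rw [le_div_iff₀ hA] at ht3
      push_cast
      have : (0 : ℝ) ≤ K * C := by positivity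
      nlinarith
    have hE' := sub_le (by norm_num) hE hB
    rw [hchi, mul_one]
    refine le_trans ?_ (free_le h.mild ⟨ht0.le, htT⟩ _ v)
    refine mul_le_mul' ?_ (le_trans (le_of_eq (by norm_num)) hE')
    unfold F0
    rw [hseed, mul_one]
    exact le_add_self
  have key2 : ∀ y ∈ Metric.closedBall (0 : ℝ × ℝ) (9 / 10 * P.fl N),
      σ * ENNReal.ofReal (9 / 10) * ENNReal.ofReal (1 / 2) ≤ ∫⁻ v, F t (lift y) v * chi v := by
    intro y hy
    refine le_trans ?_ (setLIntegral_le_lintegral (Metric.closedBall e0 (1 / 2)) _)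
    refine le_trans ?_ (setLIntegral_mono' Metric.isClosed_closedBall.measurableSet (key y hy))
    rw [setLIntegral_const, EuclideanSpace.volume_closedBall_fin_three,
      ← ENNReal.ofReal_pow (by norm_num), ← ENNReal.ofReal_mul (by norm_num)]
    gcongr
    linarith [Real.pi_gt_three]
  unfold Nf
  refine le_trans ?_ (lintegral_mono_set (Metric.closedBall_subset_closedBall
    (show 9 / 10 * P.fl N ≤ 2 * P.fl N by linarith)))
  refine le_trans ?_ (setLIntegral_mono' Metric.isClosed_closedBall.measurableSet key2)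
  rw [setLIntegral_const, vol_sq, mul_assoc, mul_assoc, ← ENNReal.ofReal_pow (by positivity),
    ← ENNReal.ofReal_mul (by norm_num), ← ENNReal.ofReal_mul (by norm_num)]
  gcongr
  nlinarith [sq_nonneg (P.fl N)]

end Crest.Agent.R68
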