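import Crest.Agent.R68.QQ
import Crest.Agent.R68.PL

/-! Propagation of exponential weights.  `prop`: let `Φ_n(y) = 1 + e^{λ y/2}/n` (`Slow λ`), `y_n(t)` the best constant in
`F ≤ y Φ_n(‖v‖) W λ` on `[0,t]` (finite as `F ≤ K W(λ/2)`); `QQ` gives `y_n(t) ≤ K0 + C K ∫_0^t y_n`, hence `y_n ≤ K0 e^{CKT}` (iterate as in Gronwall); let `n → ∞`. -/

set_option autoImplicit false

open MeasureTheory Set Filter Topology Crest.AnalysisR.VecCalc3 Crest.AnalysisR.PDE.Boltzmann
open scoped ENNReal NNReal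

namespace Crest.Agent.R68

theorem PropW.int_step (A C M : ℝ) (hA : 0 ≤ A) (hC : 0 ≤ C) (hM : 0 ≤ M) (n : ℕ) {t : ℝ}
    (ht : 0 ≤ t) :
    ENNReal.ofReal A + ENNReal.ofReal C * ∫⁻ s in Ioo 0 t,
        ENNReal.ofReal (A * Real.exp (C * s) + M * (C * s) ^ n / n.factorial) =
      ENNReal.ofReal (A * Real.exp (C * t) + M * (C * t) ^ (n + 1) / (n + 1).factorial) := by
  have hcont : Continuous fun s : ℝ => A * Real.exp (C * s) + M * (C * s) ^ n / n.factorial := by
    fun_prop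
  have h1 : ∫⁻ s in Ioo 0 t, ENNReal.ofReal (A * Real.exp (C * s) + M * (C * s) ^ n / n.factorial)
      = ENNReal.ofReal (∫ s in (0 : ℝ)..t, (A * Real.exp (C * s) + M * (C * s) ^ n / n.factorial)) := by
    rw [intervalIntegral.integral_of_le ht, integral_Ioc_eq_integral_Ioo,
      ofReal_integral_eq_lintegral_ofReal]
    · exact (hcont.integrableOn_Icc (a := 0) (b := t)).mono_set Ioo_subset_Icc_self
    · refine (ae_restrict_iff' measurableSet_Ioo).2 (Eventually.of_forall fun s hs => ?_)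
      have := hs.1.le
      simp only [Pi.zero_apply]
      positivity
  have h2 : ∫ s in (0 : ℝ)..t, C * (A * Real.exp (C * s) + M * (C * s) ^ n / n.factorial) =
      (A * Real.exp (C * t) + M * (C * t) ^ (n + 1) / (n + 1).factorial) -
      (A * Real.exp (C * 0) + M * (C * 0) ^ (n + 1) / (n + 1).factorial) := by
    refine intervalIntegral.integral_eq_sub_of_hasDerivAt
      (f := fun s => A * Real.exp (C * s) + M * (C * s) ^ (n + 1) / (n + 1).factorial)
      (fun s _ => ?_) ((continuous_const.mul hcont).intervalIntegrable _ _)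
    have e1 : HasDerivAt (fun s : ℝ => C * s) C s := by simpa using (hasDerivAt_id s).const_mul C
    have e2 := (e1.exp).const_mul A
    have e3 := ((e1.pow (n + 1)).const_mul M).div_const (((n + 1).factorial : ℕ) : ℝ)
    refine (e2.add e3).congr_deriv ?_
    have hf : ((n.factorial : ℕ) : ℝ) ≠ 0 := by positivity
    rw [Nat.factorial_succ, Nat.add_sub_cancel]
    push_cast
    field_simp
  have h3 : 0 ≤ ∫ s in (0 : ℝ)..t, (A * Real.exp (C * s) + M * (C * s) ^ n / n.factorial) :=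
    intervalIntegral.integral_nonneg ht fun s hs => by have := hs.1; positivity
  rw [h1, ← ENNReal.ofReal_mul hC, ← ENNReal.ofReal_add hA (mul_nonneg hC h3),
    ← intervalIntegral.integral_const_mul, h2]
  congr 1
  simp

theorem gronwall {y : ℝ → ℝ≥0∞} (hy : Monotone y) {A C : ℝ≥0} {T : ℝ} (hfin : y T ≠ ⊤)
    (h : ∀ t ∈ Icc 0 T, y t ≤ A + C * ∫⁻ s in Ioo 0 t, y s) :
    ∀ t ∈ Icc 0 T, y t ≤ A * ENNReal.ofReal (Real.exp (C * T)) := by
  set M : ℝ := (y T).toReal with hM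
  have hM0 : 0 ≤ M := ENNReal.toReal_nonneg
  have key : ∀ n : ℕ, ∀ t ∈ Icc 0 T,
      y t ≤ ENNReal.ofReal (A * Real.exp (C * t) + M * (C * t) ^ n / n.factorial) := by
    intro n
    induction n with
    | zero =>
      intro t ht
      calc y t ≤ y T := hy ht.2
        _ = ENNReal.ofReal M := (ENNReal.ofReal_toReal hfin).symm
        _ ≤ _ := ENNReal.ofReal_le_ofReal (by
          have : 0 ≤ (A : ℝ) * Real.exp (C * t) := by positivity
          simpa using this)
    | succ n ih =>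
      intro t ht
      rw [← PropW.int_step A C M A.2 C.2 hM0 n ht.1]
      refine (h t ht).trans ?_
      simp only [ENNReal.ofReal_coe_nnreal]
      gcongr ?_ + ?_ * ?_
      · exact le_rfl
      · exact le_rfl
      · exact setLIntegral_mono' measurableSet_Ioo fun s hs => ih s ⟨hs.1.le, hs.2.le.trans ht.2⟩
  intro t ht
  have hlim : Tendsto (fun n : ℕ => ENNReal.ofReal
      (A * Real.exp (C * t) + M * (C * t) ^ n / n.factorial)) atTop
      (𝓝 (ENNReal.ofReal (A * Real.exp (C * t)))) := by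
    refine ENNReal.tendsto_ofReal ?_
    have h1 := (FloorSemiring.tendsto_pow_div_factorial_atTop ((C : ℝ) * t)).const_mul M
    have h2 := h1.const_add ((A : ℝ) * Real.exp (C * t))
    simpa [mul_div_assoc] using h2
  refine (ge_of_tendsto' hlim fun n => key n t ht).trans ?_
  rw [ENNReal.ofReal_mul A.coe_nonneg, ENNReal.ofReal_coe_nnreal]
  gcongr
  exact ht.2

theorem Mild.le_free {F0 : R3 → R3 → ℝ≥0∞} {T : ℝ} {F : Den} (h : Mild F0 T F) {t : ℝ}
    (ht : t ∈ Icc 0 T) (x v : R3) : F t x v ≤ F0 (x - t • v) v +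
      ∫⁻ s in Ioo 0 t, Qp (F s (x - (t - s) • v)) (F s (x - (t - s) • v)) v := by
  rw [h.2 t ht x v]
  refine add_le_add (mul_le_of_le_one_right' (Ex_le_one _ _ _ _ _)) (lintegral_mono fun s => ?_)
  exact mul_le_of_le_one_left' (Ex_le_one _ _ _ _ _)

/-- the slowly growing weight -/
noncomputable def PropW.Ph (lam : ℝ) (n : ℕ) (y : ℝ) : ℝ≥0∞ :=
  ENNReal.ofReal (1 + Real.exp (lam * y / 2) / (n + 1))

theorem PropW.Slow_cmul {lam : ℝ} {Φ : ℝ → ℝ≥0∞} (h : Slow lam Φ) (c : ℝ≥0∞) :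
    Slow lam (fun y => c * Φ y) :=
  ⟨fun _ _ hxy => mul_le_mul_right (h.1 hxy) c, fun x y hx hxy => by
    rw [mul_assoc]; exact mul_le_mul_right (h.2 x y hx hxy) c⟩

theorem PropW.Slow_Ph {lam : ℝ} (hl : 0 < lam) (n : ℕ) : Slow lam (PropW.Ph lam n) := by
  refine ⟨fun x y hxy => ENNReal.ofReal_le_ofReal ?_, fun x y _ hxy => ?_⟩
  · gcongr
  · unfold PropW.Ph
    rw [← ENNReal.ofReal_mul (by positivity)]
    refine ENNReal.ofReal_le_ofReal ?_
    have h1 : 1 ≤ Real.exp (lam * (y - x) / 2) := Real.one_le_exp (by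
      have := sub_nonneg.2 hxy; positivity)
    have h2 : Real.exp (lam * y / 2) = Real.exp (lam * x / 2) * Real.exp (lam * (y - x) / 2) := by
      rw [← Real.exp_add]; congr 1; ring
    rw [h2, add_mul, one_mul, div_mul_eq_mul_div]
    gcongr

theorem PropW.one_le_Ph (lam : ℝ) (n : ℕ) (y : ℝ) : 1 ≤ PropW.Ph lam n y := by
  unfold PropW.Ph
  rw [← ENNReal.ofReal_one]
  exact ENNReal.ofReal_le_ofReal (by rw [le_add_iff_nonneg_right]; positivity)

theorem PropW.W_half (lam : ℝ) (n : ℕ) (v : R3) :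
    W (lam / 2) v ≤ (n + 1 : ℕ) * (PropW.Ph lam n ‖v‖ * W lam v) := by
  unfold PropW.Ph W
  rw [← ENNReal.ofReal_mul (by positivity), ← ENNReal.ofReal_natCast,
    ← ENNReal.ofReal_mul (by positivity)]
  refine ENNReal.ofReal_le_ofReal ?_
  have h2 : Real.exp (-(lam / 2 * ‖v‖)) = Real.exp (lam * ‖v‖ / 2) * Real.exp (-(lam * ‖v‖)) := by
    rw [← Real.exp_add]; congr 1; ring
  rw [h2, ← mul_assoc]
  gcongr
  push_cast
  have : (0 : ℝ) < n + 1 := by positivity
  rw [mul_add, mul_div_cancel₀ _ this.ne']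
  linarith

theorem PropW.W_ne_zero (lam : ℝ) (v : R3) : W lam v ≠ 0 := by
  unfold W; exact (ENNReal.ofReal_pos.2 (Real.exp_pos _)).ne'

theorem PropW.W_ne_top (lam : ℝ) (v : R3) : W lam v ≠ ⊤ := ENNReal.ofReal_ne_top

theorem PropW.tendsto_Ph (lam y : ℝ) : Tendsto (fun n => PropW.Ph lam n y) atTop (𝓝 1) := by
  unfold PropW.Ph
  rw [← ENNReal.ofReal_one]
  refine ENNReal.tendsto_ofReal ?_
  have h := (tendsto_one_div_add_atTop_nhds_zero_nat (𝕜 := ℝ)).const_mul (Real.exp (lam * y / 2))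
  have h2 := h.const_add 1
  simpa [div_eq_mul_inv] using h2

theorem prop {lam : ℝ} (hl : 0 < lam) (K0 K : ℝ≥0) (T : ℝ) : ∃ K' : ℝ≥0,
    ∀ {F0 : R3 → R3 → ℝ≥0∞} {F : Den} {T' : ℝ}, T' ≤ T → Mild F0 T' F →
    (∀ x v, F0 x v ≤ K0 * W lam v) → Bd (lam / 2) K T' F → Bd lam K' T' F := by
  obtain ⟨C, hC⟩ := QQ hl
  set a : ℝ≥0 := K * (4 * Real.exp (lam / 2)).toNNReal with ha
  set c : ℝ≥0 := (Real.exp (2 * lam)).toNNReal * 4 with hc
  set C' : ℝ≥0 := C * (2 * a * c) with hC'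
  refine ⟨K0 * (Real.exp (C' * T)).toNNReal, ?_⟩
  intro F0 F T' hT hm h0 hb
  have hmeas : ∀ s x, Measurable (F s x) := fun s x =>
    hm.1.comp measurable_const measurable_const measurable_id
  have key : ∀ n : ℕ, ∀ t ∈ Icc 0 T', ∀ x v, F t x v ≤
      K0 * ENNReal.ofReal (Real.exp (C' * T')) * (PropW.Ph lam n ‖v‖ * W lam v) := by
    intro n
    have hD0 : ∀ v : R3, PropW.Ph lam n ‖v‖ * W lam v ≠ 0 := fun v =>
      mul_ne_zero (lt_of_lt_of_le zero_lt_one (PropW.one_le_Ph _ _ _)).ne' (PropW.W_ne_zero _ _)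
    have hDt : ∀ v : R3, PropW.Ph lam n ‖v‖ * W lam v ≠ ⊤ := fun v =>
      ENNReal.mul_ne_top ENNReal.ofReal_ne_top (PropW.W_ne_top _ _)
    let y : ℝ → ℝ≥0∞ := fun t => ⨆ s, ⨆ _ : s ∈ Icc 0 T', ⨆ _ : s ≤ t, ⨆ x, ⨆ v,
      F s x v / (PropW.Ph lam n ‖v‖ * W lam v)
    have hy_le : ∀ t (b : ℝ≥0∞), (∀ s ∈ Icc 0 T', s ≤ t → ∀ x v,
        F s x v ≤ b * (PropW.Ph lam n ‖v‖ * W lam v)) → y t ≤ b := fun t b hb' =>
      iSup_le fun s => iSup_le fun hs => iSup_le fun hst => iSup_le fun x => iSup_le fun v =>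
        (ENNReal.div_le_iff (hD0 v) (hDt v)).2 (hb' s hs hst x v)
    have hle_y : ∀ s ∈ Icc 0 T', ∀ x v, F s x v ≤ y s * (PropW.Ph lam n ‖v‖ * W lam v) := by
      intro s hs x v
      refine (ENNReal.div_le_iff (hD0 v) (hDt v)).1 ?_
      exact le_iSup_of_le s (le_iSup_of_le hs (le_iSup_of_le le_rfl
        (le_iSup_of_le x (le_iSup_of_le v le_rfl))))
    have hmono : Monotone y := fun t t' htt' =>
      iSup_le fun s => iSup_le fun hs => iSup_le fun hst =>
        le_iSup_of_le s (le_iSup_of_le hs (le_iSup_of_le (hst.trans htt') le_rfl))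
    have hfin : y T' ≠ ⊤ := by
      refine ne_top_of_le_ne_top (b := K * (n + 1 : ℕ))
        (ENNReal.mul_ne_top ENNReal.coe_ne_top (ENNReal.natCast_ne_top _)) ?_
      refine hy_le _ _ fun s hs _ x v => (hb s hs x v).trans ?_
      rw [mul_assoc]
      exact mul_le_mul_right (PropW.W_half lam n v) _
    have hQ : ∀ s ∈ Icc 0 T', ∀ x v, Qp (F s x) (F s x) v ≤
        C' * y s * (PropW.Ph lam n ‖v‖ * W lam v) := by
      intro s hs x v
      have p1 : PB (F s x) (fun r => (a : ℝ≥0∞) * ew (lam / 2) r) := by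
        refine ((PB_W (lam := lam / 2) (by positivity)).cmul (measurable_W _) K).mono
          (fun b => hb s hs x b) fun r _ => le_of_eq ?_
        rw [ha, ENNReal.coe_mul, mul_assoc]
        rfl
      have p2 : PB (F s x) (fun r => ((c : ℝ≥0∞) * y s * PropW.Ph lam n r) * ew lam r) := by
        have := PB_weight hl (Λ := fun _ => 1) measurable_const (PB_const 1)
          (PropW.Slow_cmul (PropW.Slow_Ph hl n) (y s))
        refine this.mono (fun b => ?_) fun r _ => le_of_eq ?_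
        · rw [mul_one, mul_assoc]; exact hle_y s hs x b
        · rw [hc, ENNReal.coe_mul]
          change ENNReal.ofReal _ * _ * _ = ENNReal.ofReal _ * _ * _ * _ * _
          push_cast
          ring
      have hS := PropW.Slow_cmul (PropW.Slow_Ph hl n) ((c : ℝ≥0∞) * y s)
      refine (hC (hmeas s x) (hmeas s x) hS hS p1 p2 p1 p2 v).trans (le_of_eq ?_)
      rw [hC']
      push_cast
      ring
    have hint : ∀ t ∈ Icc 0 T', y t ≤ K0 + C' * ∫⁻ s in Ioo 0 t, y s := by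
      intro t ht
      refine hy_le _ _ fun s hs hst x v => (hm.le_free hs x v).trans ?_
      rw [add_mul]
      refine add_le_add ((h0 _ _).trans ?_) ?_
      · exact mul_le_mul_right (le_mul_of_one_le_left' (PropW.one_le_Ph _ _ _)) _
      · calc _ ≤ ∫⁻ u in Ioo 0 s, C' * y u * (PropW.Ph lam n ‖v‖ * W lam v) :=
            setLIntegral_mono' measurableSet_Ioo fun u hu =>
              hQ u ⟨hu.1.le, hu.2.le.trans hs.2⟩ _ v
          _ = (C' * ∫⁻ u in Ioo 0 s, y u) * (PropW.Ph lam n ‖v‖ * W lam v) := by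
            rw [lintegral_mul_const' _ _ (hDt v), lintegral_const_mul' _ _ ENNReal.coe_ne_top]
          _ ≤ _ := by
            gcongr
    intro t ht x v
    exact (hle_y t ht x v).trans (mul_le_mul_left (gronwall hmono hfin hint t ht) _)
  intro t ht x v
  have hlim : Tendsto (fun n : ℕ => K0 * ENNReal.ofReal (Real.exp (C' * T')) *
      (PropW.Ph lam n ‖v‖ * W lam v)) atTop
      (𝓝 (K0 * ENNReal.ofReal (Real.exp (C' * T')) * (1 * W lam v))) :=
    ENNReal.Tendsto.const_mul (ENNReal.Tendsto.mul_const (PropW.tendsto_Ph _ _) (Or.inl one_ne_zero))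
      (Or.inr (ENNReal.mul_ne_top ENNReal.coe_ne_top ENNReal.ofReal_ne_top))
  refine (ge_of_tendsto' hlim fun n => key n t ht x v).trans ?_
  rw [one_mul, ENNReal.coe_mul]
  change _ ≤ _ * ENNReal.ofReal _ * _
  gcongr

theorem bdd_of_PB (K0 A : ℝ≥0) (T : ℝ) : ∃ K' : ℝ≥0,
    ∀ {F0 : R3 → R3 → ℝ≥0∞} {F : Den} {T' : ℝ}, T' ≤ T → Mild F0 T' F →
    (∀ x v, F0 x v ≤ K0 * W (1 / 2) v) →
    (∀ s ∈ Icc 0 T', ∀ x, PB (F s x) (fun y => A * ew (1 / 2) y)) → Bd (1 / 2) K' T' F := by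
  obtain ⟨C, hC⟩ := QQ_const (lam := 1 / 2) (by norm_num)
  refine ⟨K0 + C * (A * A) * T.toNNReal, ?_⟩
  intro F0 F T' hT hm h0 hp t ht x v
  have hmeas : ∀ s x, Measurable (F s x) := fun s x =>
    hm.1.comp measurable_const measurable_const measurable_id
  refine (hm.le_free ht x v).trans ?_
  rw [ENNReal.coe_add, add_mul]
  refine add_le_add (h0 _ _) ?_
  calc _ ≤ ∫⁻ _ in Ioo 0 t, C * (A * A) * W (1 / 2) v :=
        setLIntegral_mono' measurableSet_Ioo fun u hu =>
          hC (hmeas _ _) (hmeas _ _) (hp u ⟨hu.1.le, hu.2.le.trans ht.2⟩ _)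
            (hp u ⟨hu.1.le, hu.2.le.trans ht.2⟩ _) v
    _ = C * (A * A) * ENNReal.ofReal t * W (1 / 2) v := by
        rw [setLIntegral_const, Real.volume_Ioo, sub_zero]; ring
    _ ≤ _ := by
        push_cast
        change _ ≤ _ * ENNReal.ofReal T * _
        gcongr
        exact ht.2.trans hT

end Crest.Agent.R68
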