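import Crest.Agent.R68.Uniq
import Crest.Agent.R68.PropW

/-! Continuation.  `extend`: solve from time `T` with datum `F T` (`locex`), glue (`if t ≤ T then F t else F' (t - T)`), and check `Mild` with `Ex_mul`.
`exists_of_apriori`: finitely many steps of the fixed length `τ(K)`.  `global_of_apriori`: glue the solutions on `[0,n]` by uniqueness.
`stab`: the neighbour exists on `[0,T]` by `exists_of_apriori`-type continuation: let `K₁` be the constant of `prop` for `λ = 1/2`, data `≤ K W(1/2)` and the bound `(K+1) W(1/4)`;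
as long as the neighbour is `≤ 2 max(K,K₁) W(1/2)`, `lipschitz` gives `F' ≤ (K + Cη) W(1/4) ≤ (K+1) W(1/4)`, hence `F' ≤ K₁ W(1/2)`; extend step by step with `extend`. -/

set_option autoImplicit false

open MeasureTheory Set Filter Topology Crest.AnalysisR.VecCalc3 Crest.AnalysisR.PDE.Boltzmann
open scoped ENNReal NNReal

namespace Crest.Agent.R68

theorem ext_split (h : ℝ → ℝ≥0∞) {a b c : ℝ} (hab : a ≤ b) (hbc : b ≤ c) :
    ∫⁻ s in Ioo a c, h s = (∫⁻ s in Ioo a b, h s) + ∫⁻ s in Ioo b c, h s := by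
  rw [setLIntegral_congr (Ioo_ae_eq_Ioc (a := a) (b := c)),
    setLIntegral_congr (Ioo_ae_eq_Ioc (a := a) (b := b)),
    setLIntegral_congr (Ioo_ae_eq_Ioc (a := b) (b := c)),
    ← Ioc_union_Ioc_eq_Ioc hab hbc, lintegral_union measurableSet_Ioc]
  exact Ioc_disjoint_Ioc_of_le le_rfl

theorem ext_shift (h : ℝ → ℝ≥0∞) (a b c : ℝ) :
    ∫⁻ s in Ioo (a + c) (b + c), h s = ∫⁻ s in Ioo a b, h (s + c) := by
  rw [← lintegral_indicator measurableSet_Ioo, ← lintegral_indicator measurableSet_Ioo,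
    ← lintegral_add_right_eq_self _ c]
  congr 1
  funext s
  by_cases hs : s ∈ Ioo a b
  · have : s + c ∈ Ioo (a + c) (b + c) := ⟨by linarith [hs.1], by linarith [hs.2]⟩
    rw [indicator_of_mem hs, indicator_of_mem this]
  · have : s + c ∉ Ioo (a + c) (b + c) := fun h' => hs ⟨by linarith [h'.1], by linarith [h'.2]⟩
    rw [indicator_of_notMem hs, indicator_of_notMem this]

theorem ext_Ex_congr {F F' : Den} {s t : ℝ} (h : ∀ σ ∈ Ioo s t, F σ = F' σ) (x v : R3) :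
    Ex F s t x v = Ex F' s t x v := by
  unfold Ex
  congr 1
  exact setLIntegral_congr_fun measurableSet_Ioo fun σ hσ => by rw [h σ hσ]

theorem ext_mild_congr {F0 : R3 → R3 → ℝ≥0∞} {T : ℝ} {F F' : Den} (h : Mild F0 T F)
    (hm : MeasD F') (he : ∀ t ∈ Icc 0 T, F' t = F t) : Mild F0 T F' := by
  refine ⟨hm, fun t ht x v => ?_⟩
  rw [he t ht, h.2 t ht x v]
  congr 1
  · rw [ext_Ex_congr (F := F) (F' := F') fun σ hσ => (he σ ⟨hσ.1.le, hσ.2.le.trans ht.2⟩).symm]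
  · refine setLIntegral_congr_fun measurableSet_Ioo fun s hs => ?_
    rw [ext_Ex_congr (F := F) (F' := F')
      fun σ hσ => (he σ ⟨(hs.1.trans hσ.1).le, hσ.2.le.trans ht.2⟩).symm,
      he s ⟨hs.1.le, hs.2.le.trans ht.2⟩]

theorem ext_Bd_mono {lam : ℝ} {K K' : ℝ≥0∞} {T T' : ℝ} {F : Den} (h : Bd lam K T F) (hK : K ≤ K')
    (hT : T' ≤ T) : Bd lam K' T' F := fun t ht x v =>
  (h t ⟨ht.1, ht.2.trans hT⟩ x v).trans (by gcongr)

theorem ext_W_le (v : R3) : W (1 / 2) v ≤ W (1 / 4) v := by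
  unfold W
  refine ENNReal.ofReal_le_ofReal (Real.exp_le_exp.2 ?_)
  have := norm_nonneg v
  linarith

theorem extend (K : ℝ≥0) : ∃ τ > 0, ∀ {F0 : R3 → R3 → ℝ≥0∞} {T : ℝ} {F : Den}, 0 ≤ T → Mild F0 T F →
    Bd (1 / 2) K T F → ∃ F', Mild F0 (T + τ) F' ∧ Bd (1 / 2) (2 * K) (T + τ) F' ∧
      ∀ t ∈ Icc 0 T, ∀ x v, F' t x v = F t x v := by
  obtain ⟨τ, hτ, hloc⟩ := locex K
  refine ⟨τ, hτ, fun {F0 T F} hT hF hB => ?_⟩
  have hm1 : Meas2 (F T) := hF.1.comp measurable_const measurable_fst measurable_snd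
  obtain ⟨G, hG, hGB⟩ := hloc (F T) hm1 (hB T ⟨hT, le_rfl⟩)
  classical
  set F' : Den := fun t => if t ≤ T then F t else G (t - T) with hF'
  have h1 : ∀ t, t ≤ T → F' t = F t := fun t ht => by simp [hF', ht]
  have h2 : ∀ t, T < t → F' t = G (t - T) := fun t ht => by simp [hF', not_le.2 ht]
  have hm : MeasD F' := by
    have : (fun p : ℝ × R3 × R3 => F' p.1 p.2.1 p.2.2) =
        fun p => if p.1 ≤ T then F p.1 p.2.1 p.2.2 else G (p.1 - T) p.2.1 p.2.2 := by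
      funext p
      by_cases hp : p.1 ≤ T
      · rw [h1 _ hp, if_pos hp]
      · rw [h2 _ (not_le.1 hp), if_neg hp]
    unfold MeasD
    rw [this]
    exact Measurable.ite (measurableSet_le measurable_fst measurable_const) hF.1
      (hG.1.comp (measurable_fst.sub measurable_const) measurable_snd.fst measurable_snd.snd)
  have hFT : Mild F0 T F' := ext_mild_congr hF hm fun t ht => h1 t ht.2
  refine ⟨F', ⟨hm, fun t ht x v => ?_⟩, fun t ht x v => ?_, fun t ht x v => by rw [h1 t ht.2]⟩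
  · rcases le_or_gt t T with htT | htT
    · exact hFT.2 t ⟨ht.1, htT⟩ x v
    · have hEx : ∀ a, 0 ≤ a → Ex G a (t - T) x v = Ex F' (a + T) t x v := fun a ha => by
        unfold Ex
        congr 1
        conv_rhs => rw [show Ioo (a + T) t = Ioo (a + T) (t - T + T) by rw [sub_add_cancel]]
        rw [ext_shift]
        refine setLIntegral_congr_fun measurableSet_Ioo fun σ hσ => ?_
        have e1 : t - (σ + T) = t - T - σ := by ring
        rw [h2 (σ + T) (by linarith [hσ.1]), add_sub_cancel_right, e1]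
      have hI : ∫⁻ s in Ioo 0 (t - T), Ex G s (t - T) x v *
            Qp (G s (x - (t - T - s) • v)) (G s (x - (t - T - s) • v)) v =
          ∫⁻ s in Ioo T t, Ex F' s t x v *
            Qp (F' s (x - (t - s) • v)) (F' s (x - (t - s) • v)) v := by
        conv_rhs => rw [show Ioo T t = Ioo (0 + T) (t - T + T) by rw [sub_add_cancel, zero_add]]
        rw [ext_shift]
        refine setLIntegral_congr_fun measurableSet_Ioo fun σ hσ => ?_
        have e1 : t - (σ + T) = t - T - σ := by ring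
        rw [hEx σ hσ.1.le, h2 (σ + T) (by linarith [hσ.1]), add_sub_cancel_right, e1]
      rw [h2 t htT, hG.2 (t - T) ⟨by linarith, by linarith [ht.2]⟩ x v, hI, hEx 0 le_rfl, zero_add,
        ← h1 T le_rfl, hFT.2 T ⟨hT, le_rfl⟩, ext_split _ hT htT.le, add_mul, add_assoc,
        ← lintegral_mul_const' _ _ (ne_top_of_le_ne_top ENNReal.one_ne_top (Ex_le_one _ _ _ _ _))]
      congr 1
      · rw [Ex_mul hT htT.le, mul_assoc]
        congr 2
        rw [sub_sub, ← add_smul, sub_add_cancel]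
      · congr 1
        refine setLIntegral_congr_fun measurableSet_Ioo fun s hs => ?_
        have e1 : x - (t - T) • v - (T - s) • v = x - (t - s) • v := by
          rw [sub_sub, ← add_smul, sub_add_sub_cancel]
        rw [Ex_mul hs.2.le htT.le, e1, mul_right_comm]
  · rcases le_or_gt t T with htT | htT
    · rw [h1 t htT]
      refine (hB t ⟨ht.1, htT⟩ x v).trans ?_
      gcongr
      rw [two_mul]
      exact le_self_add
    · rw [h2 t htT]
      exact hGB (t - T) ⟨by linarith, by linarith [ht.2]⟩ x v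
theorem exists_of_apriori {F0 : R3 → R3 → ℝ≥0∞} (h0 : Meas2 F0) {T : ℝ} (hT : 0 ≤ T) {K : ℝ≥0}
    (hK : ∀ x v, F0 x v ≤ K * W (1 / 2) v)
    (h : ∀ T' ∈ Icc 0 T, ∀ F, Sol F0 T' F → Bd (1 / 2) K T' F) : ∃ F, Sol F0 T F := by
  obtain ⟨τ, hτ, hext⟩ := extend K
  obtain ⟨τ0, hτ0, hloc⟩ := locex K
  have key : ∀ n : ℕ, ∃ F, Sol F0 (min T (n * τ)) F := by
    intro n
    induction n with
    | zero =>
      obtain ⟨F, hF, hB⟩ := hloc F0 h0 hK
      refine ⟨F, Sol.mono (T := τ0) ⟨hF, 2 * K, by simpa using hB⟩ ?_⟩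
      simp [hτ0.le]
    | succ n ih =>
      obtain ⟨F, hF⟩ := ih
      have hnn : 0 ≤ min T (n * τ) := le_min hT (by positivity)
      obtain ⟨F', hF', hB, -⟩ := hext hnn hF.mild (h _ ⟨hnn, min_le_left _ _⟩ F hF)
      refine ⟨F', Sol.mono (T := min T (n * τ) + τ) ⟨hF', 2 * K, by simpa using hB⟩ ?_⟩
      rw [← min_add_add_right]
      refine min_le_min (by linarith) (le_of_eq ?_)
      push_cast
      ring
  obtain ⟨n, hn⟩ := exists_nat_ge (T / τ)
  obtain ⟨F, hF⟩ := key n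
  rw [div_le_iff₀ hτ] at hn
  rw [min_eq_left hn] at hF
  exact ⟨F, hF⟩
theorem global_of_apriori {F0 : R3 → R3 → ℝ≥0∞} (h0 : Meas2 F0) {K0 : ℝ≥0}
    (hK : ∀ x v, F0 x v ≤ K0 * W (1 / 2) v)
    (h : ∀ T, 0 ≤ T → ∃ K : ℝ≥0, ∀ T' ∈ Icc 0 T, ∀ F, Sol F0 T' F → Bd (1 / 2) K T' F) :
    ∃ F, ∀ T, 0 ≤ T → Sol F0 T F := by
  have key : ∀ n : ℕ, ∃ F, Sol F0 n F := fun n => by
    obtain ⟨K, hKn⟩ := h n (Nat.cast_nonneg n)
    refine exists_of_apriori h0 (Nat.cast_nonneg n) (K := K0 + K) (fun x v => (hK x v).trans ?_)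
      fun T' hT' F hF => ext_Bd_mono (hKn T' hT' F hF) ?_ le_rfl
    · gcongr
      exact le_self_add
    · exact_mod_cast le_add_self
  choose Fn hFn using key
  set F : Den := fun t => Fn ⌈t⌉₊ t with hFdef
  have hm : MeasD F := by
    have h1 : Measurable fun q : (ℝ × R3 × R3) × ℕ => Fn q.2 q.1.1 q.1.2.1 q.1.2.2 :=
      measurable_from_prod_countable_left fun n => (hFn n).mild.1
    exact h1.comp (measurable_id.prodMk measurable_fst.nat_ceil)
  refine ⟨F, fun T hT => ?_⟩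
  have hS : Sol F0 T (Fn ⌈T⌉₊) := (hFn _).mono (Nat.le_ceil T)
  have he : ∀ t ∈ Icc 0 T, F t = Fn ⌈T⌉₊ t := fun t ht => by
    funext x v
    have h1 : Sol F0 (⌈t⌉₊ : ℕ) (Fn ⌈T⌉₊) := (hFn _).mono (by exact_mod_cast Nat.ceil_mono ht.2)
    exact (hFn ⌈t⌉₊).uniq h1 t ⟨ht.1, Nat.le_ceil t⟩ x v
  obtain ⟨K, hKb⟩ := hS.bdd
  exact ⟨ext_mild_congr hS.mild hm he, K, fun t ht x v => by rw [he t ht]; exact hKb t ht x v⟩
theorem stab (K : ℝ≥0) (T : ℝ) (hT : 0 ≤ T) : ∃ η0 : ℝ≥0, 0 < η0 ∧ ∃ C K' : ℝ≥0,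
    ∀ {F0 F0' : R3 → R3 → ℝ≥0∞} {F : Den} {η : ℝ≥0}, η ≤ η0 → Meas2 F0' →
    (∀ x v, F0' x v ≤ K * W (1 / 2) v) → Mild F0 T F → Bd (1 / 2) K T F →
    (∀ x v, adiff (F0 x v) (F0' x v) ≤ η * W (1 / 4) v) →
    ∃ F', Mild F0' T F' ∧ Bd (1 / 2) K' T F' ∧
      ∀ t ∈ Icc 0 T, ∀ x v, adiff (F t x v) (F' t x v) ≤ C * η * W (1 / 4) v := by
  obtain ⟨K1, hK1⟩ := prop (lam := 1 / 2) (by norm_num) K (K + 1) T
  obtain ⟨C, hC⟩ := lipschitz (2 * K + 2 * K1) T
  obtain ⟨τ, hτ, hext⟩ := extend K1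
  obtain ⟨τ0, hτ0, hloc⟩ := locex K
  refine ⟨(C + 1)⁻¹, by positivity, C, K1, fun {F0 F0' F η} hη h0' hK' hF hB hd => ?_⟩
  have hCη : (C : ℝ≥0∞) * η ≤ 1 := by
    have h1 : C * η ≤ 1 := by
      calc C * η ≤ (C + 1) * (C + 1)⁻¹ := by gcongr; exact le_self_add
        _ = 1 := mul_inv_cancel₀ (by positivity)
    exact_mod_cast h1
  have hKK : (K : ℝ≥0∞) ≤ ((2 * K + 2 * K1 : ℝ≥0) : ℝ≥0∞) := by
    have : K ≤ 2 * K + 2 * K1 := by
      rw [two_mul, add_assoc]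
      exact le_self_add
    exact_mod_cast this
  have hlip : ∀ T' ≤ T, ∀ F', Mild F0' T' F' → Bd (1 / 2) ((2 * K + 2 * K1 : ℝ≥0) : ℝ≥0∞) T' F' →
      ∀ t ∈ Icc 0 T', ∀ x v, adiff (F t x v) (F' t x v) ≤ C * η * W (1 / 4) v :=
    fun T' hT' F' hF' hB' => hC hT' (hF.mono hT') hF' (ext_Bd_mono hB hKK hT') hB' hd
  have himp : ∀ T' ≤ T, ∀ F', Mild F0' T' F' → Bd (1 / 2) ((2 * K + 2 * K1 : ℝ≥0) : ℝ≥0∞) T' F' →
      Bd (1 / 2) K1 T' F' := fun T' hT' F' hF' hB' => by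
    refine hK1 hT' hF' hK' fun t ht x v => ?_
    have h1 := (adiff_le_iff.1 (hlip T' hT' F' hF' hB' t ht x v)).2
    have h2 := (hB t ⟨ht.1, ht.2.trans hT'⟩ x v).trans (mul_le_mul_right (ext_W_le v) _)
    rw [show (1 / 2 / 2 : ℝ) = 1 / 4 by norm_num]
    calc F' t x v ≤ K * W (1 / 4) v + 1 * W (1 / 4) v := h1.trans (by gcongr)
      _ = _ := by push_cast; rw [add_mul]
  have key : ∀ n : ℕ, ∃ F', Mild F0' (min T (n * τ)) F' ∧ Bd (1 / 2) K1 (min T (n * τ)) F' := by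
    intro n
    induction n with
    | zero =>
      obtain ⟨F', hF', hB'⟩ := hloc F0' h0' hK'
      have hle : min T (((0 : ℕ) : ℝ) * τ) ≤ τ0 := by simp [hτ0.le]
      refine ⟨F', hF'.mono hle, himp _ (min_le_left _ _) F' (hF'.mono hle)
        (ext_Bd_mono hB' ?_ hle)⟩
      push_cast
      exact le_self_add
    | succ n ih =>
      obtain ⟨F', hF', hB'⟩ := ih
      have hnn : 0 ≤ min T (n * τ) := le_min hT (by positivity)
      obtain ⟨F'', hF'', hB'', -⟩ := hext hnn hF' hB'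
      have hle : min T (((n + 1 : ℕ) : ℝ) * τ) ≤ min T (n * τ) + τ := by
        rw [← min_add_add_right]
        refine min_le_min (by linarith) (le_of_eq ?_)
        push_cast
        ring
      refine ⟨F'', hF''.mono hle, himp _ (min_le_left _ _) F'' (hF''.mono hle)
        (ext_Bd_mono hB'' ?_ hle)⟩
      push_cast
      exact le_add_self
  obtain ⟨n, hn⟩ := exists_nat_ge (T / τ)
  obtain ⟨F', hF', hB'⟩ := key n
  rw [div_le_iff₀ hτ] at hn
  rw [min_eq_left hn] at hF' hB'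
  refine ⟨F', hF', hB', hlip T le_rfl F' hF' (ext_Bd_mono hB' ?_ le_rfl)⟩
  push_cast
  rw [two_mul (K1 : ℝ≥0∞), ← add_assoc]
  exact le_add_self

end Crest.Agent.R68
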