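import Crest.Agent.R68.Step1
import Crest.Agent.R68.Extend

/-! Nonlinear upper bounds.  `quiet`: `b t = sup_{[0,t]} hot/(Θ_m Λ)` is monotone and finite (`Sol.le_TL`); `step1`, `gas_le`, `KK_quarter`, `hot_bounds` (first item, pointwise in time, `Th_mono`, `1 ≤ Lam`) give
`b ≤ A0 + b/4 + C ∫ b²` with `A0 = (1 + C) a^{-m}`; then `boot`.  (Division by `Θ_m Λ = ⊤`: treat such points separately, e.g. define `b` as an infimum of admissible constants, or use `b + 1/n`.)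
`upper`: `B̃ = B T0^{-(m-1)} ≥ B`, `b t = sup_{[T0,t]} hot/(Θ_m Λ)`, `y = B̃ + max B'' b`; for `t ≥ T0` `Θ_1 ≤ T0^{-(m-1)} Θ_m`; `σ seed ≤ 8 B Θ_1 + 8 B'' Θ_m` (`seed_le`, `seed_le_B`, `Th_fl_le_m`); `y ≤ A1 + y/4 + C ∫ y²`.
`hot1_ineq`: `hot ≤ hot1 + B'' Θ_m Λ` inside `KK`.  `Bd_of_hotLe`: `bdd_of_PB` with `G_bdd`, `PB_W`, `hot_bounds`. -/

set_option autoImplicit false

open MeasureTheory Set Filter Topology Crest.AnalysisR.VecCalc3 Crest.AnalysisR.PDE.Boltzmann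
open scoped ENNReal NNReal

namespace Crest.Agent.R68

theorem Upper.absorb {y X : ℝ≥0∞} (hy : y ≠ ⊤) (h : y ≤ X + y * 4⁻¹) : y ≤ 2 * X := by
  have h1 : y * 4⁻¹ ≤ y / 2 := by
    rw [div_eq_mul_inv]
    exact mul_le_mul_right (ENNReal.inv_le_inv.2 (by norm_num)) _
  have h2 : y / 2 + y / 2 ≤ X + y / 2 := by
    rw [ENNReal.add_halves]; exact h.trans (by gcongr)
  have h3 : y / 2 ≤ X := ENNReal.le_of_add_le_add_right (ENNReal.div_ne_top hy (by norm_num)) h2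
  calc y = y / 2 + y / 2 := (ENNReal.add_halves y).symm
    _ ≤ X + X := add_le_add h3 h3
    _ = 2 * X := (two_mul X).symm

theorem Upper.quarter {x B : ℝ≥0∞} (h : 4 * x ≤ B) : x ≤ B * 4⁻¹ := by
  calc x = 4 * x * 4⁻¹ := by
        rw [mul_comm 4 x, mul_assoc, ENNReal.mul_inv_cancel (by norm_num) (by norm_num), mul_one]
    _ ≤ _ := by gcongr

theorem Upper.one_le_a {P : Par} (hP : P.Ok) (m : ℕ) : 1 ≤ ENNReal.ofReal (P.a⁻¹ ^ m) := by
  have ha : 0 < P.a := by linarith [hP.a0, hP.r0]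
  exact ENNReal.one_le_ofReal.2 (one_le_pow₀ ((one_le_inv₀ ha).2 (by linarith [hP.a1])))

theorem Upper.Th_le_TL (P : Par) (N j : ℕ) (t : ℝ) (x v : R3) : Th P (P.fl N) j t x v ≤ TL P N j t x v :=
  le_mul_of_one_le_right' (one_le_Lam t x v)

/-- the data terms of `step1` -/
theorem Upper.data {P : Par} (hP : P.Ok) (N m : ℕ) (C : ℝ≥0∞) {t : ℝ} (ht : 0 ≤ t) (x v : R3) :
    gas P (x - t • v) v + C * ENNReal.ofReal P.w * Th P (P.fl N) m t x v ≤
      (1 + C) * ENNReal.ofReal (P.a⁻¹ ^ m) * TL P N m t x v := by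
  have h1 : ENNReal.ofReal P.w ≤ ENNReal.ofReal (P.a⁻¹ ^ m) :=
    (ENNReal.ofReal_le_one.2 (hP.w1.trans (by norm_num))).trans (Upper.one_le_a hP m)
  have h2 := Upper.Th_le_TL P N m t x v
  calc _ ≤ ENNReal.ofReal (P.a⁻¹ ^ m) * TL P N m t x v +
        C * ENNReal.ofReal (P.a⁻¹ ^ m) * TL P N m t x v :=
        add_le_add ((gas_le hP N m ht x v).trans (by gcongr)) (by gcongr)
    _ = _ := by ring

theorem Upper.KK_two {P : Par} {N : ℕ} {F f g h : Den} (hF : MeasD F) (hg : MeasD g) (hh : MeasD h)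
    {b c : ℝ≥0∞} {t : ℝ} (H : ∀ s ∈ Ioo 0 t, ∀ y η, f s y η ≤ b * g s y η + c * h s y η) (x v : R3) :
    KK P N F f t x v ≤ b * KK P N F g t x v + c * KK P N F h t x v := by
  refine (KK_mono H x v).trans (le_of_eq ?_)
  rw [KK_add hF (f := fun s y η => b * g s y η) (f' := fun s y η => c * h s y η) (hg.const_mul b)
    (hh.const_mul c), KK_cmul hF hg, KK_cmul hF hh]

theorem Upper.NL_le (m : ℕ) : ∃ C : ℝ≥0, ∀ {P : Par}, P.Ok → P.m = m → ∀ (N : ℕ), P.fl N ≤ 1 →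
    ∀ {f : Den}, MeasD f → ∀ {t : ℝ}, t ≤ 1 → ∀ {B : ℝ≥0∞} {β : ℝ → ℝ≥0∞},
    (∀ s ∈ Ioo 0 t, ∀ y η, f s y η ≤
      (B * Th P (P.fl N) 1 s y η + β s * Th P (P.fl N) P.m s y η) * Lam P s y η) →
    ∀ x v, NL f t x v ≤ ∫⁻ s in Ioo 0 t,
      C * (B + β s) * (B * Th P (P.fl N) 1 t x v + β s * Th P (P.fl N) P.m t x v) := by
  obtain ⟨C, hC⟩ := hot_bounds m
  refine ⟨C, fun {P} hP hm N hfl {f} hf {t} ht {B β} H x v => ?_⟩
  refine setLIntegral_mono' measurableSet_Ioo fun s hs => ?_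
  refine ((hC hP hm N hfl ⟨hs.1.le, hs.2.le.trans ht⟩ _ (hf.vel _ _) (H s hs _)).1 v).trans ?_
  gcongr
  · exact Th_mono hP (fl_pos hP N).le _ hs.1.le hs.2.le x v
  · exact Th_mono hP (fl_pos hP N).le _ hs.1.le hs.2.le x v

theorem Upper.core : ∃ m0 : ℕ, ∀ m, m0 ≤ m → ∃ C : ℝ≥0, 1 ≤ C ∧ ∀ {P : Par}, P.Ok → P.m = m →
    ∀ (N : ℕ), P.fl N ≤ 1 → ∀ {σ : ℝ≥0} {T0 T : ℝ} {F : Den} {B B'' Bt A : ℝ≥0∞}, 0 ≤ T0 → T ≤ 1 →
    Sol (F0 P N σ) T F →
    (∀ s ∈ Ioo 0 T0, ∀ y η, hot P N F s y η ≤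
      (B * Th P (P.fl N) 1 s y η + B'' * Th P (P.fl N) P.m s y η) * Lam P s y η) → B ≤ Bt →
    (∀ t, T0 ≤ t → ∀ x v, B * Th P (P.fl N) 1 t x v ≤ Bt * Th P (P.fl N) P.m t x v) →
    (∀ t, T0 ≤ t → ∀ x v, σ * seed P N (x - t • v) v ≤ A * Th P (P.fl N) P.m t x v) →
    C * ENNReal.ofReal T * (C * (ENNReal.ofReal (P.a⁻¹ ^ m) + A + B'' + Bt)) ≤ 1 →
    ∀ t ∈ Icc T0 T, ∀ x v, hot P N F t x v ≤
      C * (ENNReal.ofReal (P.a⁻¹ ^ m) + A + B'' + Bt) * TL P N P.m t x v := by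
  obtain ⟨m0, hq⟩ := KK_quarter
  refine ⟨m0, fun m hm0 => ?_⟩
  obtain ⟨C0, hC0⟩ := step1 m
  obtain ⟨C1, -, hC1⟩ := KK_one
  obtain ⟨C2, hC2⟩ := Upper.NL_le m
  refine ⟨4 * (2 + C0 + C1) + 16 * C2, ?_, ?_⟩
  · calc (1 : ℝ≥0) ≤ 4 * 2 := by norm_num
      _ ≤ 4 * (2 + C0 + C1) := by gcongr; rw [add_assoc]; exact le_self_add
      _ ≤ _ := le_self_add
  intro P hP hm N hfl σ T0 T F B B'' Bt A hT0 hT hS hI hB hBt hA hs
  subst hm
  have hF := hS.mild.1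
  have hTL0 : ∀ t, 0 ≤ t → ∀ x v, TL P N P.m t x v ≠ 0 := fun t ht x v =>
    mul_ne_zero (Th_ne_zero hP (fl_pos hP N) _ ht x v) (lt_of_lt_of_le one_pos (one_le_Lam t x v)).ne'
  set D : ℝ≥0∞ := ENNReal.ofReal (P.a⁻¹ ^ P.m) + A + B'' + Bt with hD
  have hD1 : ENNReal.ofReal (P.a⁻¹ ^ P.m) ≤ D := by
    rw [hD, add_assoc, add_assoc]; exact le_self_add
  have hD2 : A ≤ D := le_add_self.trans (le_self_add.trans le_self_add)
  have hD3 : B'' ≤ D := le_add_self.trans le_self_add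
  have hD4 : Bt ≤ D := le_add_self
  have hD5 : ENNReal.ofReal (P.a⁻¹ ^ P.m) + A + Bt ≤ D := by
    rw [hD]; exact add_le_add le_self_add le_rfl
  have hD0 : D ≠ 0 := (lt_of_lt_of_le one_pos ((Upper.one_le_a hP _).trans hD1)).ne'
  by_cases hDt : D = ⊤
  · intro t ht x v
    rw [hDt, ENNReal.mul_top (by simp), ENNReal.top_mul (hTL0 t (hT0.trans ht.1) x v)]
    exact le_top
  set y : ℝ → ℝ≥0∞ := fun t => D + ⨆ s ∈ Icc T0 t, ⨆ x, ⨆ v, hot P N F s x v / TL P N P.m s x v with hy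
  have hyD : ∀ t, D ≤ y t := fun t => le_self_add
  have hmono : Monotone y := fun a b hab => by
    simp only [hy]
    exact add_le_add le_rfl (biSup_mono fun s hs => ⟨hs.1, hs.2.trans hab⟩)
  have hle : ∀ t, ∀ s ∈ Icc T0 t, ∀ x v, hot P N F s x v ≤ y t * TL P N P.m s x v := by
    intro t s hs x v
    by_cases hL : TL P N P.m s x v = ⊤
    · rw [hL, ENNReal.mul_top (lt_of_lt_of_le (pos_iff_ne_zero.2 hD0) (hyD t)).ne']
      exact le_top
    · refine (ENNReal.div_le_iff (hTL0 s (hT0.trans hs.1) x v) hL).1 (le_trans ?_ le_add_self)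
      exact le_iSup₂_of_le s hs (le_iSup_of_le x (le_iSup_of_le v le_rfl))
  have hall : ∀ s, 0 < s → ∀ x v, hot P N F s x v ≤
      (B * Th P (P.fl N) 1 s x v + y s * Th P (P.fl N) P.m s x v) * Lam P s x v := by
    intro s hs x v
    rcases lt_or_ge s T0 with h | h
    · refine (hI s ⟨hs, h⟩ x v).trans ?_
      gcongr
      exact hD3.trans (hyD s)
    · refine (hle s s ⟨h, le_rfl⟩ x v).trans ?_
      rw [add_mul (B * _), mul_assoc (y s)]
      exact le_add_self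
  have hfin : y T ≠ ⊤ := by
    obtain ⟨K, hK⟩ := hS.le_TL hP P.m
    refine ENNReal.add_ne_top.2 ⟨hDt, ne_top_of_le_ne_top (ENNReal.coe_ne_top (r := K)) ?_⟩
    exact iSup₂_le fun s hs => iSup_le fun x => iSup_le fun v => ENNReal.div_le_of_le_mul
      (tsub_le_self.trans (hK s ⟨hT0.trans hs.1, hs.2⟩ x v))
  have hb := boot hmono (A := 2 * (2 + C0 + C1) * D) (C := 8 * C2) hfin (fun t ht => by
    have h1 : y t ≤ ((2 + C0 + C1) * D + 4 * C2 * ∫⁻ s in Ioo 0 t, y s ^ 2) + y t * 4⁻¹ := by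
      have h2 : (⨆ s ∈ Icc T0 t, ⨆ x, ⨆ v, hot P N F s x v / TL P N P.m s x v) ≤
          ((1 + C0 + C1) * D + 4 * C2 * ∫⁻ s in Ioo 0 t, y s ^ 2) + y t * 4⁻¹ := by
        refine iSup₂_le fun u hu => iSup_le fun x => iSup_le fun v => ENNReal.div_le_of_le_mul ?_
        have hu0 : 0 ≤ u := hT0.trans hu.1
        have huT : u ≤ T := hu.2.trans ht.2
        have hu1 : u ∈ Icc (0 : ℝ) 1 := ⟨hu0, huT.trans hT⟩
        have e1 := hC0 hP N σ hT hS.mild u ⟨hu0, huT⟩ x v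
        have e2 := Upper.data hP N P.m C0 hu0 x v
        have e3 : σ * seed P N (x - u • v) v ≤ A * TL P N P.m u x v :=
          (hA u hu.1 x v).trans (mul_le_mul_right (Upper.Th_le_TL _ _ _ _ _ _) _)
        have e4 : KK P N F (hot P N F) u x v ≤ C1 * Bt * TL P N P.m u x v +
            y t * 4⁻¹ * TL P N P.m u x v := by
          refine (Upper.KK_two hF (measD_TL (P := P) N 1) (measD_TL (P := P) N P.m) (b := B) (c := y t)
            (fun s hs z η => (hall s hs.1 z η).trans ?_) x v).trans (add_le_add ?_ ?_)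
          · unfold TL
            rw [add_mul, mul_assoc, mul_assoc]
            gcongr
            exact hmono (hs.2.le.trans hu.2)
          · calc B * KK P N F (TL P N 1) u x v ≤ B * (C1 * TL P N 1 u x v) :=
                  mul_le_mul_right (hC1 hP N F hu1 x v) _
              _ = C1 * (B * Th P (P.fl N) 1 u x v) * Lam P u x v := by unfold TL; ring
              _ ≤ C1 * (Bt * Th P (P.fl N) P.m u x v) * Lam P u x v :=
                  mul_le_mul_left (mul_le_mul_right (hBt u hu.1 x v) _) _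
              _ = _ := by unfold TL; ring
          · rw [mul_assoc]
            exact mul_le_mul_right (hq hP hm0 N F hu1 x v) _
        have e5 : NL (hot P N F) u x v ≤ (4 * C2 * ∫⁻ s in Ioo 0 t, y s ^ 2) * TL P N P.m u x v := by
          refine (hC2 hP rfl N hfl (measD_hot N hF) hu1.2 (fun s hs => hall s hs.1) x v).trans ?_
          calc _ ≤ ∫⁻ s in Ioo 0 u, (4 * C2 * TL P N P.m u x v) * y s ^ 2 := by
                refine lintegral_mono fun s => ?_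
                have f1 : B ≤ y s := hB.trans (hD4.trans (hyD s))
                have f2 : B * Th P (P.fl N) 1 u x v ≤ y s * TL P N P.m u x v :=
                  (hBt u hu.1 x v).trans (mul_le_mul' (hD4.trans (hyD s)) (Upper.Th_le_TL _ _ _ _ _ _))
                calc _ ≤ C2 * (y s + y s) * (y s * TL P N P.m u x v + y s * TL P N P.m u x v) :=
                      mul_le_mul' (by gcongr)
                        (add_le_add f2 (mul_le_mul_right (Upper.Th_le_TL _ _ _ _ _ _) _))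
                  _ = _ := by ring
            _ = (4 * C2 * TL P N P.m u x v) * ∫⁻ s in Ioo 0 u, y s ^ 2 :=
                lintegral_const_mul _ (hmono.measurable.pow_const 2)
            _ ≤ (4 * C2 * TL P N P.m u x v) * ∫⁻ s in Ioo 0 t, y s ^ 2 :=
                mul_le_mul_right (lintegral_mono_set (Ioo_subset_Ioo_right hu.2)) _
            _ = _ := by ring
        calc hot P N F u x v ≤ _ := e1
          _ = (gas P (x - u • v) v + C0 * ENNReal.ofReal P.w * Th P (P.fl N) P.m u x v) +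
              σ * seed P N (x - u • v) v + KK P N F (hot P N F) u x v + NL (hot P N F) u x v := by ring
          _ ≤ _ := add_le_add (add_le_add (add_le_add e2 e3) e4) e5
          _ = ((ENNReal.ofReal (P.a⁻¹ ^ P.m) + A) + C0 * ENNReal.ofReal (P.a⁻¹ ^ P.m) + C1 * Bt +
              (4 * C2 * ∫⁻ s in Ioo 0 t, y s ^ 2) + y t * 4⁻¹) * TL P N P.m u x v := by ring
          _ ≤ (D + C0 * D + C1 * D + (4 * C2 * ∫⁻ s in Ioo 0 t, y s ^ 2) + y t * 4⁻¹) *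
              TL P N P.m u x v := by
              gcongr
              exact le_self_add.trans hD5
          _ = _ := by ring
      calc y t ≤ D + (((1 + C0 + C1) * D + 4 * C2 * ∫⁻ s in Ioo 0 t, y s ^ 2) + y t * 4⁻¹) :=
            add_le_add le_rfl h2
        _ = _ := by ring
    refine (Upper.absorb (ne_top_of_le_ne_top hfin (hmono ht.2)) h1).trans (le_of_eq ?_)
    ring) (ENNReal.mul_ne_top (by simp) ENNReal.coe_ne_top) (by
    refine le_trans ?_ hs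
    push_cast
    calc 4 * (2 * (2 + (C0 : ℝ≥0∞) + C1) * D) * (8 * C2) * ENNReal.ofReal T
        = (16 * C2) * ENNReal.ofReal T * ((4 * (2 + C0 + C1)) * D) := by ring
      _ ≤ _ := by
          gcongr
          · exact le_add_self
          · exact le_self_add)
  intro t ht x v
  refine (hle t t ⟨ht.1, le_rfl⟩ x v).trans (mul_le_mul_left ((hb t ⟨hT0.trans ht.1, ht.2⟩).trans ?_) _)
  push_cast
  calc 2 * (2 * (2 + (C0 : ℝ≥0∞) + C1) * D) = 4 * (2 + C0 + C1) * D := by ring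
    _ ≤ _ := by gcongr; exact le_self_add

theorem quiet : ∃ m0 : ℕ, ∀ m, m0 ≤ m → ∃ C : ℝ≥0, ∀ {P : Par}, P.Ok → P.m = m → ∀ (N : ℕ), P.fl N ≤ 1 →
    ∀ {T : ℝ} {F : Den} {B'' : ℝ≥0∞}, T ≤ 1 → Sol (F0 P N 0) T F → C * ENNReal.ofReal (P.a⁻¹ ^ m) ≤ B'' →
    C * ENNReal.ofReal T * B'' ≤ 1 → HotLe P N 0 B'' 0 T F := by
  obtain ⟨m0, h⟩ := Upper.core
  refine ⟨m0, fun m hm => ?_⟩
  obtain ⟨C, -, hC⟩ := h m hm
  refine ⟨C, fun {P} hP hm N hfl {T F B''} hT hS h1 h2 t ht x v => ?_⟩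
  have h3 := hC hP hm N hfl (T0 := 0) (B := 0) (B'' := 0) (Bt := 0) (A := 0) le_rfl hT hS
    (fun s hs => absurd hs.2 (not_lt.2 hs.1.le)) le_rfl (fun _ _ _ _ => by simp)
    (fun _ _ _ _ => by simp) (by
      simp only [add_zero]
      exact (mul_le_mul_right h1 _).trans h2) t ht x v
  simp only [add_zero] at h3
  rw [zero_mul, zero_add, mul_assoc]
  exact h3.trans (mul_le_mul_left h1 _)
theorem upper : ∃ m0 : ℕ, ∀ m, m0 ≤ m → ∃ C : ℝ≥0, ∀ {P : Par}, P.Ok → P.m = m → ∀ (N : ℕ), P.fl N ≤ 1 →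
    ∀ {σ : ℝ≥0} {T0 T : ℝ} {F : Den} {B B'' B2 : ℝ≥0∞}, 0 < T0 → T0 ≤ T → T ≤ 1 → Sol (F0 P N σ) T F →
    HotLe P N B B'' 0 T0 F →
    C * (ENNReal.ofReal (P.a⁻¹ ^ m) + B'' + B * ENNReal.ofReal (T0⁻¹ ^ (m - 1))) ≤ B2 →
    C * ENNReal.ofReal T * B2 ≤ 1 → HotLe P N B B2 0 T F := by
  obtain ⟨m0, h⟩ := Upper.core
  refine ⟨m0, fun m hm => ?_⟩
  obtain ⟨C, hC1, hC⟩ := h m hm
  refine ⟨9 * C, fun {P} hP hm N hfl {σ T0 T F B B'' B2} hT0 hT0T hT hS hH h1 h2 => ?_⟩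
  subst hm
  have hC1' : (1 : ℝ≥0∞) ≤ C := by exact_mod_cast hC1
  have hf := fl_pos hP N
  set Bt : ℝ≥0∞ := B * ENNReal.ofReal (T0⁻¹ ^ (P.m - 1)) with hBt
  have e1 : ∀ t, T0 ≤ t → ∀ x v, B * Th P (P.fl N) 1 t x v ≤ Bt * Th P (P.fl N) P.m t x v :=
    fun t ht x v => by
      rw [hBt, mul_assoc]; exact mul_le_mul_right (Th_one_le_m hP N hT0 ht x v) _
  have e2 : ∀ t, T0 ≤ t → ∀ x v, σ * seed P N (x - t • v) v ≤
      8 * (B'' + Bt) * Th P (P.fl N) P.m t x v := fun t ht x v => by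
    have ht0 := hT0.le.trans ht
    have f1 : ENNReal.ofReal (P.fl N) * ENNReal.ofReal (8 / P.fl N) = 8 := by
      rw [← ENNReal.ofReal_mul hf.le, mul_div_cancel₀ _ hf.ne', ENNReal.ofReal_ofNat]
    have f2 : ENNReal.ofReal (P.fl N ^ P.m) =
        ENNReal.ofReal (P.fl N) * ENNReal.ofReal (P.fl N ^ (P.m - 1)) := by
      rw [← ENNReal.ofReal_mul hf.le, ← pow_succ', Nat.sub_add_cancel hP.m1]
    calc _ ≤ (B * ENNReal.ofReal (P.fl N) + B'' * ENNReal.ofReal (P.fl N ^ P.m)) *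
          (ENNReal.ofReal (8 / P.fl N) * Th P (P.fl N) 1 t x v) :=
          mul_le_mul' (seed_le_B hP hT0.le (hS.mild.mono hT0T) hH) (seed_le hP N ht0 x v)
      _ = (ENNReal.ofReal (P.fl N) * ENNReal.ofReal (8 / P.fl N)) * (B * Th P (P.fl N) 1 t x v +
          B'' * (ENNReal.ofReal (P.fl N ^ (P.m - 1)) * Th P (P.fl N) 1 t x v)) := by rw [f2]; ring
      _ ≤ 8 * (Bt * Th P (P.fl N) P.m t x v + B'' * Th P (P.fl N) P.m t x v) := by
          rw [f1]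
          exact mul_le_mul_right (add_le_add (e1 t ht x v)
            (mul_le_mul_right (Th_fl_le_m hP N ht0 x v) _)) _
      _ = _ := by ring
  have e3 : (C : ℝ≥0∞) * (ENNReal.ofReal (P.a⁻¹ ^ P.m) + 8 * (B'' + Bt) + B'' + Bt) ≤ B2 := by
    refine le_trans ?_ h1
    push_cast
    calc _ ≤ (C : ℝ≥0∞) * (9 * ENNReal.ofReal (P.a⁻¹ ^ P.m) + 8 * (B'' + Bt) + B'' + Bt) := by
          gcongr; exact le_mul_of_one_le_left' (by norm_num)
      _ = _ := by ring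
  have e4 : B'' ≤ B2 :=
    le_trans (le_trans (le_add_self.trans le_self_add) (le_mul_of_one_le_left' hC1')) e3
  have h3 := hC hP rfl N hfl (T0 := T0) (B := B) (B'' := B'') (Bt := Bt) (A := 8 * (B'' + Bt)) hT0.le hT hS
    (fun s hs => hH s ⟨hs.1.le, hs.2.le⟩)
    (le_mul_of_one_le_right' (ENNReal.one_le_ofReal.2
      (one_le_pow₀ ((one_le_inv₀ hT0).2 (hT0T.trans hT))))) e1 e2 (by
      refine le_trans ?_ h2
      push_cast
      gcongr
      exact le_mul_of_one_le_left' (by norm_num))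
  intro t ht x v
  rcases le_total t T0 with h4 | h4
  · exact hH.mono le_rfl e4 le_rfl t ⟨ht.1, h4⟩ x v
  · refine (h3 t ⟨h4, ht.2⟩ x v).trans ((mul_le_mul_left e3 _).trans ?_)
    rw [add_mul, mul_assoc B2]
    exact le_add_self
theorem hot1_ineq : ∃ m0 : ℕ, ∀ m, m0 ≤ m → ∃ C : ℝ≥0, ∀ {P : Par}, P.Ok → P.m = m → ∀ (N : ℕ), P.fl N ≤ 1 →
    ∀ {σ : ℝ≥0} {T : ℝ} {F : Den} {B B'' : ℝ≥0∞}, T ≤ 1 → Mild (F0 P N σ) T F → HotLe P N B B'' 0 T F →
    C * ENNReal.ofReal (P.a⁻¹ ^ m) ≤ B'' → C * ENNReal.ofReal T * (B + B'') ≤ 1 →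
    ∀ t ∈ Icc 0 T, ∀ x v, hot1 P N B'' F t x v ≤
      (σ * ENNReal.ofReal (8 / P.fl N) + C * ENNReal.ofReal T * (B + B'') * B) * TL P N 1 t x v +
        KK P N F (hot1 P N B'' F) t x v := by
  obtain ⟨m0, hq⟩ := KK_quarter
  refine ⟨m0, fun m hm0 => ?_⟩
  obtain ⟨C0, hC0⟩ := step1 m
  obtain ⟨C2, hC2⟩ := Upper.NL_le m
  refine ⟨4 * (1 + C0 + C2), fun {P} hP hm N hfl {σ T F B B''} hT hM hH h1 h2 t ht x v => ?_⟩
  subst hm
  push_cast at h1 h2 ⊢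
  have hF := hM.1
  have ht1 : t ∈ Icc (0 : ℝ) 1 := ⟨ht.1, ht.2.trans hT⟩
  have e1 := hC0 hP N σ hT hM t ht x v
  have e2 : gas P (x - t • v) v + C0 * ENNReal.ofReal P.w * Th P (P.fl N) P.m t x v ≤
      B'' * 4⁻¹ * TL P N P.m t x v := by
    refine (Upper.data hP N P.m C0 ht.1 x v).trans (mul_le_mul_left (Upper.quarter (le_trans ?_ h1)) _)
    rw [← mul_assoc]
    exact mul_le_mul_left (mul_le_mul_right le_self_add _) _
  have e3 : σ * seed P N (x - t • v) v ≤ σ * ENNReal.ofReal (8 / P.fl N) * TL P N 1 t x v := by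
    rw [mul_assoc]
    exact mul_le_mul_right ((seed_le hP N ht.1 x v).trans
      (mul_le_mul_right (Upper.Th_le_TL _ _ _ _ _ _) _)) _
  have e4 : KK P N F (hot P N F) t x v ≤ KK P N F (hot1 P N B'' F) t x v +
      B'' * 4⁻¹ * TL P N P.m t x v := by
    refine (Upper.KK_two hF (measD_hot1 N B'' hF) (measD_TL (P := P) N P.m) (b := 1) (c := B'')
      (fun s _ z η => ?_) x v).trans (add_le_add (one_mul _).le ?_)
    · rw [one_mul]; exact le_tsub_add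
    · rw [mul_assoc]; exact mul_le_mul_right (hq hP hm0 N F ht1 x v) _
  have e5 : NL (hot P N F) t x v ≤
      4 * (1 + C0 + C2) * ENNReal.ofReal T * (B + B'') * B * TL P N 1 t x v +
        B'' * 4⁻¹ * TL P N P.m t x v := by
    refine (hC2 hP rfl N hfl (measD_hot N hF) ht1.2 (β := fun _ => B'')
      (fun s hs => hH s ⟨hs.1.le, hs.2.le.trans ht.2⟩) x v).trans ?_
    rw [setLIntegral_const, Real.volume_Ioo, sub_zero]
    have f1 : (C2 : ℝ≥0∞) ≤ 1 + C0 + C2 := le_add_self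
    have f2 : (C2 : ℝ≥0∞) * ENNReal.ofReal T * (B + B'') ≤ 1 * 4⁻¹ := by
      refine Upper.quarter (le_trans ?_ h2)
      rw [← mul_assoc, ← mul_assoc]
      gcongr
    calc _ ≤ C2 * (B + B'') * (B * TL P N 1 t x v + B'' * TL P N P.m t x v) * ENNReal.ofReal T := by
          gcongr
          · exact Upper.Th_le_TL _ _ _ _ _ _
          · exact Upper.Th_le_TL _ _ _ _ _ _
          · exact ht.2
      _ = C2 * ENNReal.ofReal T * (B + B'') * B * TL P N 1 t x v +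
          B'' * (C2 * ENNReal.ofReal T * (B + B'')) * TL P N P.m t x v := by ring
      _ ≤ _ := by
          rw [one_mul] at f2
          gcongr
          exact f1.trans (le_mul_of_one_le_left' (by norm_num))
  have e6 : B'' * 4⁻¹ * 3 ≤ B'' := by
    rw [mul_assoc]
    refine mul_le_of_le_one_right' ?_
    calc (4⁻¹ : ℝ≥0∞) * 3 ≤ 4⁻¹ * 4 := by gcongr; norm_num
      _ = 1 := ENNReal.inv_mul_cancel (by norm_num) (by norm_num)
  refine tsub_le_iff_right.2 ?_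
  calc hot P N F t x v ≤ _ := e1
    _ = (gas P (x - t • v) v + C0 * ENNReal.ofReal P.w * Th P (P.fl N) P.m t x v) +
        σ * seed P N (x - t • v) v + KK P N F (hot P N F) t x v + NL (hot P N F) t x v := by ring
    _ ≤ _ := add_le_add (add_le_add (add_le_add e2 e3) e4) e5
    _ = (σ * ENNReal.ofReal (8 / P.fl N) + 4 * (1 + C0 + C2) * ENNReal.ofReal T * (B + B'') * B) *
          TL P N 1 t x v + KK P N F (hot1 P N B'' F) t x v + B'' * 4⁻¹ * 3 * TL P N P.m t x v := by ring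
    _ ≤ _ := add_le_add le_rfl (mul_le_mul_left e6 _)
theorem Bd_of_hotLe {P : Par} (hP : P.Ok) (N : ℕ) (hfl : P.fl N ≤ 1) (σ0 B B'' : ℝ≥0) : ∃ K : ℝ≥0,
    ∀ {σ : ℝ≥0} {T : ℝ} {F : Den}, σ ≤ σ0 → T ≤ 1 → Mild (F0 P N σ) T F → HotLe P N B B'' 0 T F →
    Bd (1 / 2) K T F := by
  obtain ⟨K0, hK0⟩ := F0_bdd hP N (1 / 2) σ0
  obtain ⟨KG, hKG⟩ := G_bdd hP N (1 / 2)
  obtain ⟨C, hC⟩ := hot_bounds P.m
  obtain ⟨K, hK⟩ := bdd_of_PB K0 (KG * (4 * Real.exp (1 / 2)).toNNReal + C * (B + B'')) 1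
  refine ⟨K, fun {σ T F} hσ hT hM hH => hK hT hM (hK0 σ hσ) fun s hs x => ?_⟩
  have hs1 : s ∈ Icc (0 : ℝ) 1 := ⟨hs.1, hs.2.trans hT⟩
  have h1 := (hC hP rfl N hfl hs1 x ((measD_hot N hM.1).vel s x) (hH s hs x)).2.2.2.2
  have h2 := (PB_W (lam := 1 / 2) (by norm_num)).cmul (measurable_W _) (KG : ℝ≥0∞)
  refine (h2.add ((measurable_W _).const_mul _) h1).mono
    (fun a => (le_G_add_hot (P := P) N F s x a).trans (add_le_add (hKG s hs1 x a) le_rfl))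
    fun y _ => le_of_eq ?_
  push_cast
  rw [ENNReal.ofReal]
  ring
theorem quiet_exists : ∃ m0 : ℕ, ∀ m, m0 ≤ m → ∃ C : ℝ≥0, ∀ {P : Par}, P.Ok → P.m = m → ∀ (N : ℕ), P.fl N ≤ 1 →
    ∀ {T : ℝ} {B'' : ℝ≥0}, 0 ≤ T → T ≤ 1 → C * ENNReal.ofReal (P.a⁻¹ ^ m) ≤ B'' →
    C * ENNReal.ofReal T * B'' ≤ 1 → ∃ F, Sol (F0 P N 0) T F ∧ HotLe P N 0 B'' 0 T F := by
  obtain ⟨m0, h⟩ := quiet
  refine ⟨m0, fun m hm => ?_⟩
  obtain ⟨C, hC⟩ := h m hm
  refine ⟨C, fun {P} hP hm N hfl {T B''} hT0 hT h1 h2 => ?_⟩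
  obtain ⟨K0, hK0⟩ := F0_bdd hP N (1 / 2) 0
  obtain ⟨K, hK⟩ := Bd_of_hotLe hP N hfl 0 0 B''
  obtain ⟨F, hF⟩ := exists_of_apriori (meas2_F0 (P := P) N 0) hT0 (K := max K0 K)
    (fun x v => (hK0 0 le_rfl x v).trans (by gcongr; exact le_max_left _ _)) fun T' hT' F hF =>
      ext_Bd_mono (hK le_rfl (hT'.2.trans hT) hF.mild
        (hC hP hm N hfl (hT'.2.trans hT) hF h1 (le_trans (by gcongr; exact hT'.2) h2)))
        (by exact_mod_cast le_max_right _ _) le_rfl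
  exact ⟨F, hF, hC hP hm N hfl hT hF h1 h2⟩

end Crest.Agent.R68
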