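import Crest.Agent.R68.DF
import Crest.Agent.R68.P1
import Crest.Agent.R68.Mon
import Crest.Agent.R68.RegL
import Crest.Agent.R68.Upper

/-! The key inequality.  Let `B = Bsup` (finite), `f = hot1`, `X = T^{-3} Nf T (r/2)`, `B' = C_m (B + B'' r^{m-1})` (`prodLe_of_hotLe`), `Reg` by `reg_of_hotLe`.  `df` gives `B ≤ C_D S + B/2 + C_D 𝔪` (`Bsup_le`), where
`𝔪 = 100 C_P (K+1)³ (X + ε B')` (`Ngood f ≤ Ngood F`, `p1`, `mon` with `ρ = (K+1) s ≥ fl`, `t = s + h0 s ≤ T`), `S = 8σ/fl + C T (B+B'') B` (`hot1_ineq`), `σ/fl ≤ 800 (X + ε B')` (`seed_low`, `mon` with `ρ = 2 fl`).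
Choose `ε` after `C_D, C_P, K, C_m`, the constant `C` of the statement large (so that `C_D C T (B+B'') ≤ 1/8`), `θ ≤ 1/(2(K+1))`. -/

set_option autoImplicit false

open MeasureTheory Set Filter Topology Crest.AnalysisR.VecCalc3 Crest.AnalysisR.PDE.Boltzmann
open scoped ENNReal NNReal

namespace Crest.Agent.R68

theorem Key.absorb {B A : ℝ≥0∞} (hB : B ≠ ⊤) (h : B ≤ A + (8⁻¹ * B + 8⁻¹ * B + B / 2)) : B ≤ 4 * A := by
  rcases eq_or_ne A ⊤ with rfl | hA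
  · simp
  have h1 : 8⁻¹ * B ≠ ⊤ := ENNReal.mul_ne_top (by simp) hB
  have h2 : B / 2 ≠ ⊤ := ENNReal.div_ne_top hB (by simp)
  have h' := ENNReal.toReal_mono (by finiteness) h
  rw [ENNReal.toReal_add hA (by finiteness), ENNReal.toReal_add (by finiteness) h2,
    ENNReal.toReal_add h1 h1] at h'
  refine (ENNReal.toReal_le_toReal hB (by finiteness)).1 ?_
  simp only [ENNReal.toReal_mul, ENNReal.toReal_inv, ENNReal.toReal_div, ENNReal.toReal_ofNat] at h' ⊢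
  linarith

theorem Key.eighth {a b : ℝ≥0∞} (h : 8 * a ≤ 1) : a * b ≤ 8⁻¹ * b := by
  refine mul_le_mul' ?_ le_rfl
  rwa [ENNReal.le_inv_iff_mul_le, mul_comm]

theorem key : ∃ m0 : ℕ, ∀ m, m0 ≤ m → ∃ (CK C : ℝ≥0) (M0 : ℕ) (θ η0 w0 : ℝ), 0 < θ ∧ θ ≤ 1 ∧ 0 < η0 ∧ 0 < w0 ∧
    ∀ {P : Par}, P.Ok → P.m = m → M0 ≤ P.M → P.eta ≤ η0 → P.w ≤ w0 → ∀ (N : ℕ) {σ : ℝ≥0} {T : ℝ} {F : Den}
    {B'' Bs : ℝ≥0}, 0 < T → T ≤ θ * P.r → 4 * P.fl N ≤ P.r → Sol (F0 P N σ) T F → B'' ≠ 0 →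
    C * ENNReal.ofReal (P.a⁻¹ ^ m) ≤ B'' → Bsup P N B'' T F ≤ Bs → C * ENNReal.ofReal T * (Bs + B'') ≤ 1 →
    C * (Bs * ENNReal.ofReal P.r + B'' * ENNReal.ofReal (P.r ^ m)) ≤ 1 →
    Bsup P N B'' T F ≤ CK * (ENNReal.ofReal (T⁻¹ ^ 3) * Nf F T (P.r / 2) + B'' * ENNReal.ofReal (P.r ^ (m - 1))) := by
  obtain ⟨m0, hH⟩ := hot1_ineq
  refine ⟨m0, fun m hm => ?_⟩
  obtain ⟨CH, hH⟩ := hH m hm
  obtain ⟨CD, δ, Lv, K, w0, d0, d1, l1, k1, w1, hD⟩ := df m
  obtain ⟨h0, CP, MP, h00, h01, hp⟩ := p1 d0 d1 l1 k1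
  obtain ⟨CR, hR⟩ := reg_of_hotLe m
  obtain ⟨Cm, hm'⟩ := prodLe_of_hotLe m
  set Q : ℝ≥0 := CD * (6400 + CP * (100 * (K + 1) ^ 3).toNNReal) with hQ
  obtain ⟨Mm, η0, θ, e0, t0, t1, hM⟩ := mon (ε := (8 * (Q * Cm + 1))⁻¹) (by positivity)
  refine ⟨4 * Q + 1, CH + CR + 8 * (CD * CH), max MP Mm, min θ (1 / (2 * (K + 1))), min δ η0,
    min w0 (δ / 2), by positivity, (min_le_left _ _).trans (by linarith), by positivity, by positivity,
    fun {P} hP hPm hPM he hw N {σ T F B'' Bs} hT hTr hfl hS hB0 c1 c2 c3 c4 => ?_⟩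
  have r0 := hP.r0
  have r1 := hP.r1
  have f0 := fl_pos hP N
  have T1 : T ≤ θ * P.r := hTr.trans (by gcongr; exact min_le_left _ _)
  have T2 : (K + 1) * T ≤ P.r / 2 := by
    have : T ≤ 1 / (2 * (K + 1)) * P.r := hTr.trans (by gcongr; exact min_le_right _ _)
    rw [div_mul_eq_mul_div, le_div_iff₀ (by positivity)] at this
    linarith
  have T3 : T ≤ P.r := by nlinarith
  have g1 : (CH : ℝ≥0∞) ≤ (CH + CR + 8 * (CD * CH) : ℝ≥0) := by
    exact_mod_cast le_self_add.trans le_self_add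
  have g2 : (CR : ℝ≥0∞) ≤ (CH + CR + 8 * (CD * CH) : ℝ≥0) := by
    exact_mod_cast le_add_self.trans le_self_add
  have g3 : 8 * ((CD : ℝ≥0∞) * CH) ≤ (CH + CR + 8 * (CD * CH) : ℝ≥0) := by
    exact_mod_cast le_add_self
  have hB' : (B'' : ℝ≥0∞) ≠ 0 := by exact_mod_cast hB0
  have a1 := hot1_le_Bsup hP N hB' T F
  have a2 := hotLe_iff.2 a1
  set B := Bsup P N B'' T F with hB
  have c5 : ∀ {c : ℝ≥0∞}, c ≤ (CH + CR + 8 * (CD * CH) : ℝ≥0) →
      c * ENNReal.ofReal T * (B + B'') ≤ 1 := fun h => le_trans (by gcongr) c3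
  have reg := hR hP hPm N (by linarith) T3 hS a2 (c5 g2) (le_trans (by gcongr) c4)
  have prd := hm' hP hPm N (by linarith) T3 a2
  have mon' := @hM P hP ((le_max_right _ _).trans hPM) (he.trans (min_le_right _ _)) N T F _ reg T1 prd
  set Y := ENNReal.ofReal (T⁻¹ ^ 3) * Nf F T (P.r / 2) + ((8 * (Q * Cm + 1))⁻¹ : ℝ≥0) *
    (Cm * (B + B'' * ENNReal.ofReal (P.r ^ (m - 1)))) with hY
  have a3 := Bsup_le (hD hP hPm (he.trans (min_le_left _ _)) (hw.trans (min_le_left _ _)) N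
    (𝔪 := CP * ENNReal.ofReal (100 * (K + 1) ^ 3) * Y) (by linarith) reg
    (measD_hot1 N _ hS.mild.1) (reg.inv.hot1 N _) a1
    (hH hP hPm N (by linarith) (by linarith) hS.mild a2 (le_trans (by gcongr) c1) (c5 g1))
    fun s hs => ?_)
  swap
  · have s0 : 0 < s := lt_of_lt_of_le (by positivity) hs.1
    have s1 := hs.1
    rw [div_le_iff₀ (by positivity)] at s1
    have k2 : 0 < 1 / K := by positivity
    have k3 : 1 / K ≤ 1 := (div_le_one (by positivity)).2 k1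
    have s2 : s ≤ T := hs.2.trans (by nlinarith)
    have s3 : s + h0 * s ≤ T := by
      have b1 := mul_le_mul_of_nonneg_left hs.2 (by positivity : 0 ≤ 1 + 1 / K)
      have b2 := mul_le_mul_of_nonneg_right h01 s0.le
      nlinarith [mul_pos (mul_pos k2 k2) hT]
    have s4 : (K + 1) * s ≤ P.r / 2 := le_trans (by gcongr) T2
    refine le_trans (lintegral_mono fun y => lintegral_mono fun ξ => ?_) ((hp hP
      ((le_max_left _ _).trans hPM) (he.trans (min_le_left _ _))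
      ((hw.trans (min_le_right _ _)).trans_lt (by linarith)) reg (by linarith) s0 s3 s4).trans
      ((mul_le_mul' le_rfl (mon' (by linarith) s4 (by positivity) s3 (by nlinarith))).trans_eq ?_))
    · split_ifs
      · exact tsub_le_self.trans tsub_le_self
      · exact le_rfl
    · rw [mul_pow, ← mul_assoc (100 : ℝ), ENNReal.ofReal_mul (by positivity)]
      ring
  have a4 : σ * ENNReal.ofReal (8 / P.fl N) ≤ 6400 * Y := by
    obtain ⟨t, b1, b2, b3, b4⟩ := seed_low hP hT hS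
    have b5 := mul_le_mul' (b4.trans (mon' (by linarith) (by linarith) b1 b2 (by linarith)))
      (le_refl (ENNReal.ofReal (8 / P.fl N ^ 3)))
    rw [mul_assoc, ← ENNReal.ofReal_mul (by positivity), mul_right_comm,
      ← ENNReal.ofReal_mul (by positivity)] at b5
    rwa [show P.fl N ^ 2 * (8 / P.fl N ^ 3) = 8 / P.fl N by field_simp,
      show 100 * (2 * P.fl N) ^ 3 * (8 / P.fl N ^ 3) = 6400 by field_simp; norm_num,
      ENNReal.ofReal_ofNat] at b5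
  have a5 : (Q : ℝ≥0∞) = CD * (6400 + CP * ENNReal.ofReal (100 * (K + 1) ^ 3)) := by
    rw [hQ]; push_cast; rfl
  have a6 : 8 * ((Q : ℝ≥0∞) * ((8 * (Q * Cm + 1))⁻¹ : ℝ≥0) * Cm) ≤ 1 := by
    norm_cast
    rw [mul_right_comm, ← mul_assoc, mul_inv_le_iff₀ (by positivity), one_mul]
    gcongr
    exact le_self_add
  have a7 := c5 g3
  refine (Key.absorb (A := Q * (ENNReal.ofReal (T⁻¹ ^ 3) * Nf F T (P.r / 2)) +
    8⁻¹ * (B'' * ENNReal.ofReal (P.r ^ (m - 1)))) (c2.trans_lt ENNReal.coe_lt_top).ne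
    (a3.trans ?_)).trans ?_
  · calc _ ≤ CD * (6400 * Y + CH * ENNReal.ofReal T * (B + B'') * B) + B / 2 +
          CD * (CP * ENNReal.ofReal (100 * (K + 1) ^ 3) * Y) := by gcongr
      _ = Q * Y + CD * CH * ENNReal.ofReal T * (B + B'') * B + B / 2 := by rw [a5]; ring
      _ = Q * (ENNReal.ofReal (T⁻¹ ^ 3) * Nf F T (P.r / 2)) + Q * ((8 * (Q * Cm + 1))⁻¹ : ℝ≥0) * Cm *
          (B + B'' * ENNReal.ofReal (P.r ^ (m - 1))) +
          CD * CH * ENNReal.ofReal T * (B + B'') * B + B / 2 := by rw [hY]; ring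
      _ ≤ Q * (ENNReal.ofReal (T⁻¹ ^ 3) * Nf F T (P.r / 2)) +
          8⁻¹ * (B + B'' * ENNReal.ofReal (P.r ^ (m - 1))) + 8⁻¹ * B + B / 2 := by
        gcongr ?_ + ?_ + ?_ + _
        · exact le_rfl
        · exact Key.eighth a6
        · exact Key.eighth (by simpa only [mul_assoc] using a7)
      _ = _ := by ring
  · push_cast
    rw [mul_add, mul_add, ← mul_assoc, ← mul_assoc 4 8⁻¹]
    gcongr
    · exact le_self_add
    · refine le_add_left ?_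
      rw [mul_comm, ← ENNReal.div_eq_inv_mul]
      exact ENNReal.div_le_of_le_mul (by norm_num)

end Crest.Agent.R68
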