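import Crest.Agent.R68.Upper

/-! Choice of the seed amplitude.  Let `σ0 = B* fl + B'' fl^m + 1`, `K` from `Bd_of_hotLe` and `F0_bdd`, `η0, C, K'` from `stab`.  Solutions with data `≤ K0 W 2` and `Bd (1/2) (max K K')` satisfy `Bd 2 K''` (`prop` twice).  If `adiff F F' ≤ C η W(1/4)` and
both are `≤ K'' W 2` then `adiff ≤ (Cη)^{4/7} K''^{3/7} W 1` (or split `‖v‖ ≤ L`, `> L`), which is `≤ (B*/2) fl W 1 ≤ (B*/2) Θ_1 Λ` for small `η`.  So going from `σ` to `σ + η` the quantity `Bsup` grows by at most `B*/2` as long as it is `≤ B*`.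
Induction on `σ_j = j η`: if `Bsup < B*/2` at every step we pass `σ0`, contradicting `seed_le_B`. -/

set_option autoImplicit false

open MeasureTheory Set Filter Topology Crest.AnalysisR.VecCalc3 Crest.AnalysisR.PDE.Boltzmann
open scoped ENNReal NNReal

namespace Crest.Agent.R68

theorem sel_interp (C Kb c : ℝ≥0) (hc : 0 < c) : ∃ η1 : ℝ≥0, 0 < η1 ∧ ∀ η ≤ η1, ∀ (v : R3) (a b : ℝ≥0∞),
    b ≤ a + C * η * W (1 / 4) v → b ≤ Kb * W 2 v → b ≤ a + c * W 1 v := by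
  have hc' : (0 : ℝ) < c := hc
  have hK : (0 : ℝ) ≤ Kb := Kb.2
  have hC : (0 : ℝ) ≤ C := C.2
  set L : ℝ := Kb / c with hL
  have hE := Real.exp_pos L
  refine ⟨⟨c / ((C + 1) * Real.exp L), by positivity⟩, by change (0 : ℝ) < c / _; positivity,
    fun η hη v a b h1 h2 => ?_⟩
  have hη' : (η : ℝ) ≤ c / ((C + 1) * Real.exp L) := hη
  have hη0 : (0 : ℝ) ≤ η := η.2
  have hv := norm_nonneg v
  rcases le_total ‖v‖ L with hvL | hvL
  · refine h1.trans (add_le_add le_rfl ?_)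
    unfold W
    rw [← ENNReal.coe_mul, ← ENNReal.ofReal_coe_nnreal, ← ENNReal.ofReal_coe_nnreal,
      ← ENNReal.ofReal_mul (NNReal.coe_nonneg _), ← ENNReal.ofReal_mul hc'.le]
    refine ENNReal.ofReal_le_ofReal ?_
    rw [le_div_iff₀ (by positivity)] at hη'
    have h3 : Real.exp (-(1 / 4 * ‖v‖)) ≤ Real.exp L * Real.exp (-(1 * ‖v‖)) := by
      rw [← Real.exp_add]
      exact Real.exp_le_exp.2 (by linarith)
    have h4 := Real.exp_pos (-(1 * ‖v‖))
    push_cast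
    calc (C : ℝ) * η * Real.exp (-(1 / 4 * ‖v‖)) ≤ (C + 1) * η * (Real.exp L * Real.exp (-(1 * ‖v‖))) := by
          gcongr
          linarith
      _ = η * ((C + 1) * Real.exp L) * Real.exp (-(1 * ‖v‖)) := by ring
      _ ≤ _ := by gcongr
  · refine h2.trans (le_trans ?_ le_add_self)
    unfold W
    rw [← ENNReal.ofReal_coe_nnreal, ← ENNReal.ofReal_coe_nnreal, ← ENNReal.ofReal_mul hK,
      ← ENNReal.ofReal_mul hc'.le]
    refine ENNReal.ofReal_le_ofReal ?_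
    have h3 : (Kb : ℝ) ≤ c * Real.exp ‖v‖ := by
      have h4 := Real.add_one_le_exp ‖v‖
      rw [hL, div_le_iff₀ hc'] at hvL
      nlinarith
    have h5 : Real.exp (-(1 * ‖v‖)) = Real.exp ‖v‖ * Real.exp (-(2 * ‖v‖)) := by
      rw [← Real.exp_add]
      congr 1
      ring
    rw [h5, ← mul_assoc]
    gcongr

theorem sel_tsub {a b e g : ℝ≥0∞} (h : b ≤ a + e) : b - g ≤ a - g + e := by
  rw [tsub_le_iff_right, add_right_comm]
  exact h.trans (add_le_add le_tsub_add le_rfl)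

theorem select {P : Par} (hP : P.Ok) (N : ℕ) (hfl : P.fl N ≤ 1) {T : ℝ} (hT0 : 0 ≤ T) (hT1 : T ≤ 1)
    {B'' Bs : ℝ≥0} (hB : B'' ≠ 0) (hBs : Bs ≠ 0) (hq : ∃ F, Sol (F0 P N 0) T F ∧ HotLe P N 0 B'' 0 T F) :
    ∃ (σ : ℝ≥0) (F : Den), Sol (F0 P N σ) T F ∧ (Bs : ℝ≥0∞) / 2 ≤ Bsup P N B'' T F ∧ Bsup P N B'' T F ≤ Bs := by
  have hfl0 := fl_pos hP N
  set fl' : ℝ≥0 := ⟨P.fl N, hfl0.le⟩ with hfl'
  have efl : ENNReal.ofReal (P.fl N) = fl' := by
    rw [← ENNReal.ofReal_coe_nnreal]; rfl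
  have eflm : ENNReal.ofReal (P.fl N ^ P.m) = ((fl' ^ P.m : ℝ≥0) : ℝ≥0∞) := by
    rw [← ENNReal.ofReal_coe_nnreal]; rfl
  set σ1 : ℝ≥0 := Bs * fl' + B'' * fl' ^ P.m with hσ1
  obtain ⟨K1, hK1⟩ := Bd_of_hotLe hP N hfl (σ1 + 1) Bs B''
  obtain ⟨K0, hK0⟩ := F0_bdd hP N (1 / 2) (σ1 + 1)
  obtain ⟨η0, hη0, C, K', hstab⟩ := stab (K0 + K1) T hT0
  obtain ⟨Ka0, hKa0⟩ := F0_bdd hP N 1 (σ1 + 1)
  obtain ⟨Kb0, hKb0⟩ := F0_bdd hP N 2 (σ1 + 1)
  obtain ⟨Ka, hKa⟩ := prop (lam := 1) one_pos Ka0 K' T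
  obtain ⟨Kb, hKb⟩ := prop (lam := 2) two_pos Kb0 Ka T
  have hc : 0 < Bs / 2 * fl' := mul_pos (div_pos (pos_iff_ne_zero.2 hBs) two_pos) hfl0
  obtain ⟨η1, hη1, hint⟩ := sel_interp C Kb _ hc
  set η : ℝ≥0 := min 1 (min η0 η1 / 3) with hη
  have hηpos : 0 < η := lt_min one_pos (div_pos (lt_min hη0 hη1) three_pos)
  have hη3 : 3 * η ≤ min η0 η1 := by
    calc 3 * η ≤ 3 * (min η0 η1 / 3) := by gcongr; exact min_le_right _ _
      _ = _ := mul_div_cancel₀ _ three_ne_zero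
  have hhalf : (Bs : ℝ≥0∞) / 2 ≤ Bs := ENNReal.half_le_self
  have hB' : (B'' : ℝ≥0∞) ≠ 0 := by exact_mod_cast hB
  have hHot : ∀ F : Den, Bsup P N B'' T F ≤ Bs → HotLe P N Bs B'' 0 T F := fun F hF =>
    (hotLe_iff.2 (hot1_le_Bsup hP N hB' T F)).mono hF le_rfl le_rfl
  by_contra hcon
  have key : ∀ j : ℕ, j * η ≤ σ1 + 1 → ∃ F, Sol (F0 P N (j * η)) T F ∧ Bsup P N B'' T F < (Bs : ℝ≥0∞) / 2 := by
    intro j
    induction j with
    | zero =>
      intro _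
      obtain ⟨F, hF, hh⟩ := hq
      refine ⟨F, by simpa using hF, (Bsup_le (hotLe_iff.1 hh)).trans_lt ?_⟩
      exact ENNReal.half_pos (by exact_mod_cast hBs)
    | succ j ih =>
      intro hj
      have e : ((j + 1 : ℕ) : ℝ≥0) * η = j * η + η := by push_cast; ring
      rw [e] at hj ⊢
      have hj' : (j : ℝ≥0) * η ≤ σ1 + 1 := le_self_add.trans hj
      obtain ⟨F, hF, hlt⟩ := ih hj'
      have hBd := hK1 hj' hT1 hF.mild (hHot F (hlt.le.trans hhalf))
      obtain ⟨F', hF', hB1, hd⟩ := hstab (F0 := F0 P N (j * η)) (F0' := F0 P N (j * η + η)) (F := F)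
        (η := 3 * η) (hη3.trans (min_le_left _ _)) (meas2_F0 N _)
        (fun x v => (hK0 _ hj x v).trans (by gcongr; exact le_self_add)) hF.mild
        (ext_Bd_mono hBd (by exact_mod_cast le_add_self) le_rfl) (fun x v => by
          rw [adiff_le_iff]
          have h1 : (η : ℝ≥0∞) * seed P N x v ≤ ((3 * η : ℝ≥0) : ℝ≥0∞) * W (1 / 4) v := by
            calc _ ≤ (η : ℝ≥0∞) * (3 * W (1 / 4) v) := by
                  gcongr
                  exact (seed_le_W P N x v).trans (by gcongr; exact ext_W_le v)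
              _ = _ := by push_cast; ring
          have h2 : F0 P N (j * η + η) x v = F0 P N (j * η) x v + η * seed P N x v := by
            unfold F0
            push_cast
            ring
          rw [h2]
          exact ⟨le_self_add.trans le_self_add, add_le_add le_rfl h1⟩)
      have hB2 : Bd 2 Kb T F' := hKb le_rfl hF' (hKb0 _ hj)
        (by rw [show (2 / 2 : ℝ) = 1 by norm_num]; exact hKa le_rfl hF' (hKa0 _ hj) hB1)
      have hS : Sol (F0 P N (j * η + η)) T F' := ⟨hF', K', hB1⟩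
      have hle : Bsup P N B'' T F' ≤ Bs := by
        refine (Bsup_le (c := Bsup P N B'' T F + Bs / 2) fun t ht x v => ?_).trans ?_
        · have h1 := hint _ (hη3.trans (min_le_right _ _)) v _ _ (adiff_le_iff.1 (hd t ht x v)).2
            (hB2 t ht x v)
          have h2 : ((Bs / 2 * fl' : ℝ≥0) : ℝ≥0∞) * W 1 v ≤ Bs / 2 * TL P N 1 t x v := by
            rw [ENNReal.coe_mul, ENNReal.coe_div two_ne_zero, ENNReal.coe_ofNat, mul_assoc]
            gcongr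
            refine le_trans ?_ (le_mul_of_one_le_right' (one_le_Lam t x v))
            unfold Th W
            rw [← efl, ← ENNReal.ofReal_mul hfl0.le, pow_one, one_mul]
            have := (Step1.fl_le_om hP (P.fl N) ht.1 x v).1
            gcongr
          rw [add_mul]
          refine le_trans ?_ (add_le_add (hot1_le_Bsup hP N hB' T F t ht x v) h2)
          exact sel_tsub (sel_tsub h1)
        · calc _ ≤ (Bs : ℝ≥0∞) / 2 + Bs / 2 := add_le_add hlt.le le_rfl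
            _ = _ := ENNReal.add_halves _
      exact ⟨F', hS, not_le.1 fun h => hcon ⟨_, F', hS, h, hle⟩⟩
  have h1 : (⌊(σ1 + 1) / η⌋₊ : ℝ≥0) * η ≤ σ1 + 1 := by
    rw [← le_div_iff₀ hηpos]
    exact Nat.floor_le zero_le
  have h2 : σ1 + 1 < (⌊(σ1 + 1) / η⌋₊ : ℝ≥0) * η + 1 := by
    have h3 := Nat.lt_floor_add_one ((σ1 + 1) / η)
    rw [div_lt_iff₀ hηpos, add_mul, one_mul] at h3
    exact h3.trans_le (add_le_add le_rfl (min_le_left _ _))
  obtain ⟨F, hF, hlt⟩ := key _ h1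
  have h4 := seed_le_B hP hT0 hF.mild (hHot F (hlt.le.trans hhalf))
  rw [efl, eflm] at h4
  have h5 : (⌊(σ1 + 1) / η⌋₊ : ℝ≥0) * η ≤ σ1 := by exact_mod_cast h4
  exact absurd (lt_of_add_lt_add_right h2) (not_lt.2 h5)

end Crest.Agent.R68
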