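import Crest.Agent.R68.Glob
import Crest.Agent.R68.Key
import Crest.Agent.R68.Select
import Crest.Agent.R68.Data

/-! Choice of all parameters (lead). -/

set_option autoImplicit false

open MeasureTheory Set Filter Topology Crest.AnalysisR.VecCalc3 Crest.AnalysisR.PDE.Boltzmann
open scoped ENNReal NNReal

namespace Crest.Agent.R68

theorem ofR_nn {x : ℝ} (hx : 0 ≤ x) : ∃ y : ℝ≥0, (y : ℝ) = x ∧ ENNReal.ofReal x = y :=
  ⟨x.toNNReal, Real.coe_toNNReal x hx, rfl⟩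

theorem kap_pos' : (0 : ℝ) < kap := by unfold kap; positivity
theorem kap_le' : kap ≤ 1 / 2 := by unfold kap; norm_num

/-- real-number form of the separation -/
theorem sep_real {CK CN Cpp A θ r X Z : ℝ} {m : ℕ} (hm : 1 ≤ m) (hCK : 0 ≤ CK) (hCN : 0 ≤ CN)
    (hC : 0 < Cpp) (hA : 0 < A) (hθ : 0 < θ) (hθ1 : θ ≤ 1) (hr : 0 < r) (hX : 0 ≤ X)
    (hZ : Z = 2 * (CK + 1) * (CN + 2) * Cpp / θ ^ (m + 2))
    (h : Z * A * (θ * r) ^ (m - 1) / 2 ≤ CK * ((θ * r)⁻¹ ^ 3 * X + Cpp * A * r ^ (m - 1))) :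
    (CN + 1) * (Cpp * A) * r ^ (m + 2) ≤ X := by
  obtain ⟨n, rfl⟩ : ∃ n, m = n + 1 := ⟨m - 1, by omega⟩
  simp only [Nat.add_sub_cancel] at h
  have hT : 0 < θ * r := mul_pos hθ hr
  have h1 : Z * A * (θ * r) ^ n / 2 ≤ (CK + 1) * ((θ * r)⁻¹ ^ 3 * X + Cpp * A * r ^ n) := by
    refine h.trans (mul_le_mul_of_nonneg_right (by linarith) (by positivity))
  have h2 := mul_le_mul_of_nonneg_left h1 (pow_pos hT 3).le
  have e1 : (θ * r) ^ 3 * (Z * A * (θ * r) ^ n / 2) = (CK + 1) * ((CN + 2) * (Cpp * A) * r ^ (n + 1 + 2)) := by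
    rw [hZ]; field_simp; ring
  have e2 : (θ * r) ^ 3 * ((CK + 1) * ((θ * r)⁻¹ ^ 3 * X + Cpp * A * r ^ n)) =
      (CK + 1) * (X + θ ^ 3 * (Cpp * A * r ^ (n + 1 + 2))) := by
    field_simp; ring
  rw [e1, e2] at h2
  have h3 := le_of_mul_le_mul_left h2 (by linarith : 0 < CK + 1)
  have h4 : θ ^ 3 * (Cpp * A * r ^ (n + 1 + 2)) ≤ Cpp * A * r ^ (n + 1 + 2) :=
    mul_le_of_le_one_left (by positivity) (pow_le_one₀ hθ.le hθ1)
  nlinarith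

theorem approx : ∃ (P : Par) (t1 T : ℝ) (K : ℝ≥0) (c1 c2 : ℝ≥0∞) (N0 : ℕ), P.Ok ∧ 0 < t1 ∧ t1 ≤ 1 ∧ 0 ≤ T ∧ c1 < c2 ∧
    ∀ N, N0 ≤ N →
      (∃ (σ : ℝ≥0) (F : Den), σ ≤ 1 ∧ (∀ T', 0 ≤ T' → Sol (F0 P N σ) T' F) ∧
        (∀ t, 0 ≤ t → ∀ x v, F t x v ≤ Maj P t1 K t x v) ∧ c2 ≤ Nf F T (P.r / 2)) ∧
      (∃ F : Den, (∀ T', 0 ≤ T' → Sol (F0 P N 0) T' F) ∧
        (∀ t, 0 ≤ t → ∀ x v, F t x v ≤ Maj P t1 K t x v) ∧ Nf F T (P.r / 2) ≤ c1) := by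
  obtain ⟨β, H0, K, hβ, hH0, mG, hG⟩ := globalize
  obtain ⟨mK, hK⟩ := key
  obtain ⟨mQ, hQ⟩ := quiet_exists
  obtain ⟨m, hmG, hmK, hmQ, hm1⟩ : ∃ m : ℕ, mG ≤ m ∧ mK ≤ m ∧ mQ ≤ m ∧ 1 ≤ m :=
    ⟨mG + mK + mQ + 1, by omega, by omega, by omega, by omega⟩
  obtain ⟨CG, hG⟩ := hG m hmG
  obtain ⟨CK, Ck, M0, θ, η0, w0, hθ, hθ1, hη0, hw0, hK⟩ := hK m hmK
  obtain ⟨CQ, hQ⟩ := hQ m hmQ
  obtain ⟨CN, hN⟩ := Nf_quiet m
  obtain ⟨β', hβ', hE⟩ := data_entropy hH0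
  have hβr : (0 : ℝ) < β := hβ
  have hCG : (0 : ℝ) ≤ CG := CG.2
  have hCK : (0 : ℝ) ≤ CK := CK.2
  have hCk : (0 : ℝ) ≤ Ck := Ck.2
  have hCQ : (0 : ℝ) ≤ CQ := CQ.2
  have hCN : (0 : ℝ) ≤ CN := CN.2
  have hkap := kap_pos'
  have hkap' := kap_le'
  obtain ⟨η, hη, hηa, hηb⟩ : ∃ η : ℝ, 0 < η ∧ η ≤ η0 ∧ η ≤ kap :=
    ⟨min η0 kap, lt_min hη0 hkap, min_le_left _ _, min_le_right _ _⟩
  obtain ⟨γ, hγ, hγ1, hγ2⟩ : ∃ γ : ℝ, 0 < γ ∧ γ ≤ 1 ∧ CG * γ ≤ β / 3 := by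
    refine ⟨min 1 (β / (3 * (CG + 1))), lt_min one_pos (by positivity), min_le_left _ _, ?_⟩
    calc (CG : ℝ) * min 1 (β / (3 * (CG + 1))) ≤ (CG + 1) * (β / (3 * (CG + 1))) :=
          mul_le_mul (by linarith) (min_le_right _ _) (by positivity) (by positivity)
      _ = β / 3 := by field_simp
  obtain ⟨w, hw, hwa, hwb, hwc⟩ : ∃ w : ℝ, 0 < w ∧ w ≤ w0 ∧ w ≤ 1 / 10 ^ 30 ∧ w ≤ γ :=
    ⟨min w0 (min (1 / 10 ^ 30) γ), lt_min hw0 (lt_min (by positivity) hγ), min_le_left _ _,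
      (min_le_right _ _).trans (min_le_left _ _), (min_le_right _ _).trans (min_le_right _ _)⟩
  obtain ⟨a, ha, haa, hab, hac⟩ : ∃ a : ℝ, 0 < a ∧ a ≤ β ∧ a ≤ β' ∧ a ≤ 1 / 4 :=
    ⟨min β (min β' (1 / 4)), lt_min hβr (lt_min hβ' (by norm_num)), min_le_left _ _,
      (min_le_right _ _).trans (min_le_left _ _), (min_le_right _ _).trans (min_le_right _ _)⟩
  obtain ⟨R, hRa, hRb, hRc⟩ : ∃ R : ℝ, 4 ≤ R ∧ 1 ≤ β * R ∧ 1 ≤ β' * R := by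
    refine ⟨4 + 1 / β + 1 / β', ?_, ?_, ?_⟩
    · have : (0 : ℝ) ≤ 1 / β + 1 / β' := by positivity
      linarith
    · have e : (β : ℝ) * (4 + 1 / β + 1 / β') = 1 + β * (4 + 1 / β') := by field_simp; ring
      rw [e]; have : (0 : ℝ) ≤ β * (4 + 1 / β') := by positivity
      linarith
    · have e : β' * (4 + 1 / β + 1 / β') = 1 + β' * (4 + 1 / β) := by field_simp; ring
      rw [e]; have : (0 : ℝ) ≤ β' * (4 + 1 / β) := by positivity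
      linarith
  obtain ⟨r0, hr0, hE⟩ := hE (M0 + 1) w hw
  obtain ⟨A, hAdef⟩ : ∃ A : ℝ, A = a⁻¹ ^ m := ⟨_, rfl⟩
  have hA : 0 < A := by rw [hAdef]; positivity
  obtain ⟨Cpp, hCppdef⟩ : ∃ C : ℝ, C = Ck + CQ + 1 := ⟨_, rfl⟩
  have hCpp : 0 < Cpp := by rw [hCppdef]; positivity
  obtain ⟨Z, hZ⟩ : ∃ Z : ℝ, Z = 2 * (CK + 1) * (CN + 2) * Cpp / θ ^ (m + 2) := ⟨_, rfl⟩
  have hZ0 : 0 < Z := by rw [hZ]; positivity
  obtain ⟨Bpp, hBpp, -⟩ := ofR_nn (x := Cpp * A) (by positivity)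
  obtain ⟨B2, hB2, -⟩ := ofR_nn (x := CG * (A + Cpp * A + Z * A)) (by positivity)
  have hB20 : (0 : ℝ) ≤ B2 := B2.2
  obtain ⟨t1, ht1, ht1a, ht1b⟩ : ∃ t1 : ℝ, 0 < t1 ∧ t1 * (1 + B2) ^ 2 ≤ γ ∧ (R + 2) * t1 ≤ a / 2 := by
    refine ⟨min (γ / (1 + B2) ^ 2) (a / (2 * (R + 2))), lt_min (by positivity) (by positivity), ?_, ?_⟩
    · calc min (γ / (1 + B2) ^ 2) (a / (2 * (R + 2))) * (1 + B2) ^ 2 ≤ γ / (1 + B2) ^ 2 * (1 + B2) ^ 2 :=
            mul_le_mul_of_nonneg_right (min_le_left _ _) (by positivity)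
        _ = γ := by field_simp
    · calc (R + 2) * min (γ / (1 + B2) ^ 2) (a / (2 * (R + 2))) ≤ (R + 2) * (a / (2 * (R + 2))) :=
            mul_le_mul_of_nonneg_left (min_le_right _ _) (by linarith)
        _ = a / 2 := by
            have : R + 2 ≠ 0 := by linarith
            field_simp
  have ht11 : t1 ≤ 1 := by nlinarith
  obtain ⟨D, hDdef⟩ : ∃ D : ℝ, D = Z * A + Cpp * A := ⟨_, rfl⟩
  have hD : 0 < D := by rw [hDdef]; positivity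
  obtain ⟨r, hr, hra, hrb, hrc, hrd, hre, hrf⟩ : ∃ r : ℝ, 0 < r ∧ r ≤ t1 ∧ 4 * r ≤ a ∧ r ≤ 1 / 100 ∧
      r ≤ β * (η * t1 ^ 2) ∧ r ≤ r0 ∧ Cpp * (r * D) ≤ 1 := by
    refine ⟨min (min (min t1 (a / 4)) (min (1 / 100) (β * (η * t1 ^ 2)))) (min r0 (1 / (Cpp * D))),
      by positivity, ?_, ?_, ?_, ?_, ?_, ?_⟩
    · exact (min_le_left _ _).trans ((min_le_left _ _).trans (min_le_left _ _))
    · have := (min_le_left (min (min t1 (a / 4)) (min (1 / 100) (β * (η * t1 ^ 2))))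
        (min r0 (1 / (Cpp * D)))).trans ((min_le_left _ _).trans (min_le_right _ _))
      linarith
    · exact (min_le_left _ _).trans ((min_le_right _ _).trans (min_le_left _ _))
    · exact (min_le_left _ _).trans ((min_le_right _ _).trans (min_le_right _ _))
    · exact (min_le_right _ _).trans (min_le_left _ _)
    · have h := (min_le_right (min (min t1 (a / 4)) (min (1 / 100) (β * (η * t1 ^ 2))))
        (min r0 (1 / (Cpp * D)))).trans (min_le_right _ _)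
      calc Cpp * (_ * D) ≤ Cpp * (1 / (Cpp * D) * D) := by gcongr
        _ = 1 := by field_simp
  let P : Par := ⟨m, M0 + 1, η, r, w, a, R⟩
  have hP : P.Ok := ⟨hm1, Nat.le_add_left _ _, hη, hηb, hr, hrc, hw, hwb, hrb, hac, hRa⟩
  have hPr : P.r = r := rfl
  have hPa : P.a = a := rfl
  have hPw : P.w = w := rfl
  have hPR : P.R = R := rfl
  have hPm : P.m = m := rfl
  obtain ⟨T, hTdef⟩ : ∃ T : ℝ, T = θ * r := ⟨_, rfl⟩
  have hT : 0 < T := by rw [hTdef]; positivity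
  have hTr : T ≤ r := by rw [hTdef]; nlinarith
  have hT1 : T ≤ 1 := by linarith
  obtain ⟨Bs, hBs, -⟩ := ofR_nn (x := Z * A * T ^ (m - 1)) (by positivity)
  have hBsle : (Bs : ℝ) ≤ Z * A := by
    rw [hBs]; exact mul_le_of_le_one_right (by positivity) (pow_le_one₀ hT.le hT1)
  have hBs0 : Bs ≠ 0 := by
    intro h; rw [h] at hBs; have : 0 < Z * A * T ^ (m - 1) := by positivity
    simp at hBs; rcases hBs with (h | h) | h <;> [exact hZ0.ne' h; exact hA.ne' h; exact hT.ne' h.1]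
  have hBpp0 : Bpp ≠ 0 := by
    intro h; rw [h] at hBpp; have : 0 < Cpp * A := by positivity
    rw [← hBpp] at this; simp at this
  obtain ⟨N0, hN0⟩ : ∃ N0 : ℕ, ∀ N, N0 ≤ N → P.fl N < min (r / 4) (γ / D) := by
    have := (fl_tendsto hP).eventually (gt_mem_nhds (show (0 : ℝ) < min (r / 4) (γ / D) by positivity))
    exact Filter.eventually_atTop.1 this
  obtain ⟨An, hAn, hAe⟩ := ofR_nn hA.le
  obtain ⟨Tn, hTn, hTe⟩ := ofR_nn hT.le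
  obtain ⟨rn, hrn, hre'⟩ := ofR_nn hr.le
  obtain ⟨rm, hrm, hrme⟩ := ofR_nn (pow_pos hr m).le
  obtain ⟨rm1, hrm1, hrm1e⟩ := ofR_nn (pow_pos hr (m - 1)).le
  obtain ⟨rm2, hrm2, hrm2e⟩ := ofR_nn (pow_pos hr (m + 2)).le
  obtain ⟨Ti, hTi, hTie⟩ := ofR_nn (pow_pos (inv_pos.2 hT) (m - 1)).le
  obtain ⟨Ti3, hTi3, hTi3e⟩ := ofR_nn (pow_pos (inv_pos.2 hT) 3).le
  obtain ⟨wn, hwn, hwe⟩ := ofR_nn hw.le
  obtain ⟨tn, htn, hte⟩ := ofR_nn ht1.le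
  have hrmle : r ^ m ≤ r := pow_le_of_le_one hr.le (by linarith) (by omega)
  have hBsT : (Bs : ℝ) * Ti = Z * A := by
    rw [hBs, hTi, inv_pow]; field_simp
  have hrho : rhoL P t1 ≤ β := by
    unfold rhoL
    rw [← ENNReal.ofReal_coe_nnreal]
    refine ENNReal.ofReal_le_ofReal ?_
    show r / (η * t1 ^ 2) ≤ β
    rw [div_le_iff₀ (by positivity)]; exact hrd
  have hgeo : P.R * t1 + P.r + 2 * kap * t1 ≤ P.a / 2 := by
    rw [hPR, hPr, hPa]; nlinarith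
  have hB2c : ∀ B : ℝ≥0, (B : ℝ) * Ti ≤ Z * A →
      (CG : ℝ≥0∞) * (ENNReal.ofReal (P.a⁻¹ ^ m) + Bpp + B * ENNReal.ofReal (T⁻¹ ^ (m - 1))) ≤ B2 := by
    intro B hB
    rw [hPa, ← hAdef, hAe, hTie]
    norm_cast
    rw [← NNReal.coe_le_coe]; push_cast
    rw [hB2, hAn, hBpp]
    exact mul_le_mul_of_nonneg_left (by linarith) hCG
  have hβc : ∀ σ : ℝ≥0, (σ : ℝ) ≤ γ →
      (CG : ℝ≥0∞) * (σ + ENNReal.ofReal P.w + ENNReal.ofReal t1 * (1 + B2) ^ 2) ≤ β := by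
    intro σ hσ
    rw [hPw, hwe, hte]
    norm_cast
    rw [← NNReal.coe_le_coe]; push_cast
    rw [hwn, htn]
    have : (CG : ℝ) * (σ + w + t1 * (1 + B2) ^ 2) ≤ CG * (γ + γ + γ) :=
      mul_le_mul_of_nonneg_left (by linarith) hCG
    nlinarith
  have hAc : ∀ C : ℝ≥0, (C : ℝ) ≤ Cpp → (C : ℝ≥0∞) * ENNReal.ofReal (P.a⁻¹ ^ m) ≤ Bpp := by
    intro C hC
    rw [hPa, ← hAdef, hAe]
    norm_cast
    rw [← NNReal.coe_le_coe]; push_cast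
    rw [hAn, hBpp]
    exact mul_le_mul_of_nonneg_right hC hA.le
  have hCkp : (Ck : ℝ) ≤ Cpp := by rw [hCppdef]; linarith
  have hCQp : (CQ : ℝ) ≤ Cpp := by rw [hCppdef]; linarith
  have hBppD : (Bpp : ℝ) ≤ D := by rw [hBpp, hDdef]; have : 0 < Z * A := by positivity
                                   linarith
  have hBD : (Bs : ℝ) + Bpp ≤ D := by rw [hBpp, hDdef]; linarith
  refine ⟨P, t1, T, K, (CN : ℝ≥0∞) * Bpp * rm2, ((CN + 1) * Bpp * rm2 : ℝ≥0), N0, hP, ht1, ht11, hT.le, ?_, ?_⟩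
  · norm_cast
    rw [← NNReal.coe_lt_coe]; push_cast
    rw [hBpp, hrm2]
    have : 0 < Cpp * A * r ^ (m + 2) := by positivity
    nlinarith
  intro N hNN
  have hfl := hN0 N hNN
  have hfl4 : 4 * P.fl N ≤ P.r := by rw [hPr]; have := hfl.le.trans (min_le_left _ _); linarith
  have hflp := fl_pos hP N
  have hflr : P.fl N ≤ P.r := by linarith
  have hfl1 : P.fl N ≤ 1 := by rw [hPr] at hflr; linarith
  have hflD : P.fl N * D ≤ γ := by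
    have := hfl.le.trans (min_le_right _ _)
    rwa [le_div_iff₀ hD] at this
  have hq : ∃ F, Sol (F0 P N 0) T F ∧ HotLe P N 0 Bpp 0 T F := by
    refine hQ hP hPm N hfl1 hT.le hT1 (hAc CQ hCQp) ?_
    rw [hTe]
    norm_cast
    rw [← NNReal.coe_le_coe]; push_cast
    rw [hTn]
    calc (CQ : ℝ) * T * Bpp ≤ Cpp * r * D := by gcongr
      _ ≤ 1 := by linarith [mul_assoc Cpp r D]
  constructor
  · obtain ⟨σ, F1, hsol, hlo, hhi⟩ := select hP N hfl1 hT.le hT1 hBpp0 hBs0 hq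
    have hhot : HotLe P N Bs Bpp 0 T F1 :=
      (hotLe_iff.2 (hot1_le_Bsup hP N (by exact_mod_cast hBpp0) T F1)).mono hhi le_rfl le_rfl
    have hσ : (σ : ℝ) ≤ γ := by
      have h := seed_le_B hP hT.le hsol.mild hhot
      obtain ⟨f1, hf1, hf1e⟩ := ofR_nn hflp.le
      obtain ⟨f2, hf2, hf2e⟩ := ofR_nn (pow_pos hflp P.m).le
      rw [hf1e, hf2e] at h
      norm_cast at h
      rw [← NNReal.coe_le_coe] at h; push_cast at h
      rw [hf1, hf2] at h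
      have h2 : P.fl N ^ P.m ≤ P.fl N := pow_le_of_le_one hflp.le hfl1 (by rw [hPm]; omega)
      have h3 : (Bpp : ℝ) * P.fl N ^ P.m ≤ Bpp * P.fl N := mul_le_mul_of_nonneg_left h2 Bpp.2
      nlinarith
    have hσ1 : σ ≤ 1 := by rw [← NNReal.coe_le_coe]; push_cast; linarith
    obtain ⟨F, hF, hFe, hFM⟩ := hG hP hPm N hflr hT (hTr.trans hra) hra hgeo haa hRb hrho
      (hB2c Bs hBsT.le) (hβc σ hσ) (hE hP rfl rfl hre hab hRc N σ hσ1 hflr) hsol hhot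
    refine ⟨σ, F, hσ1, hF, hFM, ?_⟩
    have hNfe : Nf F T (P.r / 2) = Nf F1 T (P.r / 2) := by
      unfold Nf; rw [hFe T ⟨hT.le, le_rfl⟩]
    rw [hNfe]
    have hkey := hK hP hPm (Nat.le_succ M0) hηa hwa N hT hTdef.le hfl4 hsol hBpp0 (hAc Ck hCkp) hhi
      (by
        rw [hTe]
        norm_cast
        rw [← NNReal.coe_le_coe]; push_cast
        rw [hTn]
        calc (Ck : ℝ) * T * (Bs + Bpp) ≤ Cpp * r * D := by gcongr
          _ ≤ 1 := by linarith [mul_assoc Cpp r D])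
      (by
        rw [hPr, hre', hrme]
        norm_cast
        rw [← NNReal.coe_le_coe]; push_cast
        rw [hrn, hrm]
        have h3 : (Bpp : ℝ) * r ^ m ≤ Bpp * r := mul_le_mul_of_nonneg_left hrmle Bpp.2
        have h4 : (Bs : ℝ) * r + Bpp * r ^ m ≤ r * D := by nlinarith
        calc (Ck : ℝ) * (Bs * r + Bpp * r ^ m) ≤ Cpp * (r * D) := by gcongr
          _ ≤ 1 := hrf)
    rcases eq_or_ne (Nf F1 T (P.r / 2)) ⊤ with htop | hfin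
    · rw [htop]; exact le_top
    lift Nf F1 T (P.r / 2) to ℝ≥0 using hfin with X hX
    have h := hlo.trans hkey
    rw [hPr, hTi3e, hrm1e] at h
    have h' : ((Bs / 2 : ℝ≥0) : ℝ≥0∞) ≤ ((CK * (Ti3 * X + Bpp * rm1) : ℝ≥0) : ℝ≥0∞) := by
      push_cast; exact h
    rw [ENNReal.coe_le_coe, ← NNReal.coe_le_coe] at h' ⊢
    push_cast at h' ⊢
    rw [hBs, hTi3, hBpp, hrm1, hTdef] at h'
    rw [hBpp, hrm2]
    exact sep_real hm1 hCK hCN hCpp hA hθ hθ1 hr X.2 hZ h'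
  · obtain ⟨F1, hsol, hhot⟩ := hq
    have hhot' : HotLe P N ((0 : ℝ≥0) : ℝ≥0∞) Bpp 0 T F1 := by simpa using hhot
    obtain ⟨F, hF, hFe, hFM⟩ := hG hP hPm N hflr hT (hTr.trans hra) hra hgeo haa hRb hrho
      (hB2c 0 (by simp; positivity)) (hβc 0 (by simpa using hγ.le))
      (hE hP rfl rfl hre hab hRc N 0 zero_le_one hflr) hsol hhot'
    refine ⟨F, hF, hFM, ?_⟩
    have hNfe : Nf F T (P.r / 2) = Nf F1 T (P.r / 2) := by
      unfold Nf; rw [hFe T ⟨hT.le, le_rfl⟩]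
    rw [hNfe, ← hrm2e]
    exact hN hP hPm N hflr hT.le hTr hhot

end Crest.Agent.R68
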