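import Crest.Agent.R68.AvgA

/-! Velocity averaging by a `TT*` argument.  Let `Ω = (0,T) × cell`, `𝒜 S (t,x) = ∫ β(v) ∫_0^t S(s, x-(t-s)v, v) ds dv`.  First truncate: `S = S 1_{𝓢 ≤ L} + rest`, the rest contributes
`≤ C ∫_{𝓢 > L} 𝓢` in `L¹(Ω)` uniformly in `n` (shear invariance), and the truncated sequence still tends to `0` weakly and is bounded by `L`.  For bounded `S n`: `u n = 𝒜 (S n)` is bounded and periodic and tends to `0`
weakly on `Ω` (`∫ (𝒜S) f = ∫ S 𝒜*f`, `𝒜* f (s,y,v) = β(v) ∫_s^T f(t, y+(t-s)v) dt`).  Then `‖u‖₂² = ⟨S, 𝒜*u⟩ ≤ C ‖𝒜*u‖₂` and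
`‖𝒜*u‖₂² = ∫∫ dt dt' min(t,t') ∫_cell u(t,x) ∫ β(v)² u(t', x+(t'-t)v) dv dx`.  The part `|t-t'| < ε` is `≤ Cε`; for the other part
`k_n(t,x) = ∫_{|t'-t| ≥ ε} min(t,t') ∫ β² u_n(t', x+(t'-t)v) dv dt'` is the integral of `u_n` against a bounded function on `Ω` (substitute `y = x+(t'-t)v`, fold the bounded region
onto the cell by periodicity), so it tends to `0` pointwise, boundedly; dominated convergence.
(Any other proof is fine, e.g. define the bounded kernel as a Radon–Nikodym density: it is enough that the functional `u ↦ k(t,x)` is bounded by `C_ε ‖u‖_{L¹(Ω)}` on periodic functions, or test weak convergence against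
periodic-shifted functions one lattice cell at a time.) -/

set_option autoImplicit false

open MeasureTheory Set Filter Topology Crest.AnalysisR.VecCalc3 Crest.AnalysisR.PDE.Boltzmann
open scoped ENNReal NNReal

namespace Crest.Agent.R68

namespace Avg

variable (m : Measure ℝ) (b : Measure R3) [IsFiniteMeasure m] [IsFiniteMeasure b]

/-- the averaging operator -/
noncomputable def avA (S : ℝ × R3 × R3 → ℝ) (p : ℝ × R3) : ℝ :=
  ∫ v, ∫ s, (if s < p.1 then S (s, p.2 - (p.1 - s) • v, v) else 0) ∂m ∂b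

/-- its adjoint -/
noncomputable def avS (f : ℝ × R3 → ℝ) (z : ℝ × R3 × R3) : ℝ :=
  ∫ t, (if z.1 < t then f (t, z.2.1 + (t - z.1) • z.2.2) else 0) ∂m

def PerS (S : ℝ × R3 × R3 → ℝ) : Prop := ∀ t v, IsPeriodic3 fun x => S (t, x, v)
def PerF (f : ℝ × R3 → ℝ) : Prop := ∀ t, IsPeriodic3 fun x => f (t, x)

variable {C D : ℝ} {S : ℝ × R3 × R3 → ℝ} {f : ℝ × R3 → ℝ}

theorem bm_avA (h : BM C S) : BM (C * m.real univ * b.real univ) (avA m b S) :=
  (((h.comp (g := fun z : ((ℝ × R3) × R3) × ℝ => (z.2, z.1.1.2 - (z.1.1.1 - z.2) • z.1.2, z.1.2))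
    (by fun_prop)).ite (p := fun z => z.2 < z.1.1.1)
    (measurableSet_lt (by fun_prop) (by fun_prop))).int m).int b

theorem bm_avS (h : BM C f) : BM (C * m.real univ) (avS m f) :=
  ((h.comp (g := fun z : (ℝ × R3 × R3) × ℝ => (z.2, z.1.2.1 + (z.2 - z.1.1) • z.1.2.2))
    (by fun_prop)).ite (p := fun z => z.1.1 < z.2)
    (measurableSet_lt (by fun_prop) (by fun_prop))).int m

omit [IsFiniteMeasure m] [IsFiniteMeasure b] in
theorem per_avA (h : PerS S) : PerF (avA m b S) := by
  intro t x i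
  simp only [avA, add_sub_right_comm, fun s v y => h s v y i]

omit [IsFiniteMeasure m] in
theorem per_avS (h : PerF f) : PerS (avS m f) := by
  intro t v x i
  simp only [avS, add_right_comm x (EuclideanSpace.single i 1), fun s y => h s y i]

theorem duality (hS : BM C S) (hf : BM D f) (pS : PerS S) (pf : PerF f) :
    ∫ p, avA m b S p * f p ∂(m.prod (volume.restrict cell)) =
      ∫ z, S z * avS m f z ∂(m.prod ((volume.restrict cell).prod b)) := by
  have hF : BM _ fun z : ℝ × ℝ × R3 × R3 =>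
      (if z.2.1 < z.1 then S (z.2.1, z.2.2.1 - (z.1 - z.2.1) • z.2.2.2, z.2.2.2) else 0) *
        f (z.1, z.2.2.1) :=
    ((hS.comp (by fun_prop)).ite (measurableSet_lt (by fun_prop) (by fun_prop))).mul
      (hf.comp (by fun_prop))
  have hG : BM _ fun z : ℝ × ℝ × R3 × R3 =>
      S z.2 * if z.2.1 < z.1 then f (z.1, z.2.2.1 + (z.1 - z.2.1) • z.2.2.2) else 0 :=
    (hS.comp (by fun_prop)).mul
      ((hf.comp (by fun_prop)).ite (measurableSet_lt (by fun_prop) (by fun_prop)))
  have h1 := four hF m m (volume.restrict cell) b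
  have h2 := three hG m m ((volume.restrict cell).prod b)
  simp only [integral_mul_const, integral_const_mul] at h1 h2
  refine h1.trans (Eq.trans ?_ h2.symm)
  refine integral_congr_ae (Eventually.of_forall fun t => integral_congr_ae
    (Eventually.of_forall fun s => ?_))
  have hF' := hF.comp (g := fun q : R3 × R3 => (t, s, q)) (by fun_prop)
  have hG' := hG.comp (g := fun q : R3 × R3 => (t, s, q)) (by fun_prop)
  refine (hF'.prod_symm _ _).trans (Eq.trans ?_ (hG'.prod_symm _ _).symm)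
  refine integral_congr_ae (Eventually.of_forall fun v => ?_)
  have h3 := integral_cell_translate (hG'.comp (g := fun x : R3 => (x, v)) (by fun_prop)).1
    (fun x i => by simp only [pS s v x i, add_right_comm x (EuclideanSpace.single i 1), pf t _ i]) (-((t - s) • v))
  refine Eq.trans ?_ h3
  refine integral_congr_ae (Eventually.of_forall fun x => ?_)
  simp only [← sub_eq_add_neg, sub_add_cancel]
  split_ifs <;> simp

theorem kernel_lim [NullSingletonClass m] (hb : b ≪ volume) {u : ℕ → ℝ × R3 → ℝ} (hu : ∀ n, BM C (u n))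
    (pu : ∀ n, PerF (u n)) (hw : WN (m.prod (volume.restrict cell)) u) (p : ℝ × R3) :
    Tendsto (fun n => avA m b (avS m (u n)) p) atTop (𝓝 0) := by
  have hφm : Measurable fun z : (R3 × ℝ) × ℝ => (z.2, fr (p.2 + (z.2 - p.1) • z.1.1)) :=
    measurable_snd.prodMk (measurable_fr.comp (by fun_prop))
  have hφ : Measure.QuasiMeasurePreserving
      (fun z : (R3 × ℝ) × ℝ => (z.2, fr (p.2 + (z.2 - p.1) • z.1.1))) ((b.prod m).prod m)
      (m.prod (volume.restrict cell)) := by
    refine ⟨hφm, Measure.AbsolutelyContinuous.mk fun N hN h0 => ?_⟩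
    rw [Measure.map_apply hφm hN]
    have h1 := (Measure.measure_prod_null hN).1 h0
    have h2 : ∀ᵐ t ∂m, t ≠ p.1 := by simp [ae_iff]
    refine measure_eq_zero_iff_ae_notMem.2 ((Measure.ae_prod_iff_ae_ae (μ := b.prod m) (ν := m)
      (p := fun z : (R3 × ℝ) × ℝ =>
      (z.2, fr (p.2 + (z.2 - p.1) • z.1.1)) ∉ N) (hφm hN).compl).2 ?_)
    refine (Measure.ae_ae_comm (p := fun (q : R3 × ℝ) (t : ℝ) =>
      (t, fr (p.2 + (t - p.1) • q.1)) ∉ N) (hφm hN).compl).2 ?_
    filter_upwards [h1, h2] with t ht ht'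
    exact Measure.quasiMeasurePreserving_fst.ae
      (hb.ae_le (ae_fr_affine ht p.2 (sub_ne_zero.2 ht')))
  have hA : MeasurableSet {z : (R3 × ℝ) × ℝ | z.1.2 < p.1 ∧ z.1.2 < z.2} :=
    (measurableSet_lt measurable_fst.snd measurable_const).inter
      (measurableSet_lt measurable_fst.snd measurable_snd)
  refine (hw.map hu (hφ.mono_left (Measure.absolutelyContinuous_restrict
    (s := {z : (R3 × ℝ) × ℝ | z.1.2 < p.1 ∧ z.1.2 < z.2})))).congr fun n => ?_
  have h3 := ((hu n).comp hφm).ite hA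
  have h4 := (h3.int m).prod b m
  rw [← h3.prod] at h4
  rw [← integral_indicator hA]
  refine Eq.trans (Eq.trans ?_ h4) ?_
  · congr 1
    funext z
    simp only [indicator, mem_setOf_eq]
  · unfold avA avS
    congr 1
    funext v
    congr 1
    funext s
    by_cases hs : s < p.1
    · simp only [hs, true_and, if_true]
      congr 1
      funext t
      have e : p.2 - (p.1 - s) • v + (t - s) • v = p.2 + (t - p.1) • v := by module
      rw [e]
      exact if_congr Iff.rfl (per_int (pu n t) _ _) rfl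
    · simp [hs]

theorem avg_bdd [NullSingletonClass m] (hb : b ≪ volume) {S : ℕ → ℝ × R3 × R3 → ℝ} (hS : ∀ n, BM C (S n))
    (pS : ∀ n, PerS (S n)) (hw : WN (m.prod ((volume.restrict cell).prod b)) S) :
    Tendsto (fun n => ∫ p, |avA m b (S n) p| ∂(m.prod (volume.restrict cell))) atTop (𝓝 0) := by
  have hu := fun n => bm_avA m b (hS n)
  have pu := fun n => per_avA m b (pS n)
  have wu : WN (m.prod (volume.restrict cell)) fun n => avA m b (S n) := by
    intro ψ hψ
    have hψ' := hψ.comp (g := fun p : ℝ × R3 => (p.1, fr p.2))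
      (measurable_fst.prodMk (measurable_fr.comp measurable_snd))
    have h1 := bm_avS m hψ'
    refine (hw.int hS h1.1 (h1.integrable _)).congr fun n => ?_
    rw [← duality m b (hS n) hψ' (pS n) (fun t x i => by simp only [fr_per x i])]
    refine integral_congr_ae ?_
    filter_upwards [Measure.quasiMeasurePreserving_snd.ae (ae_restrict_mem measurableSet_cell)]
      with p hp
    rw [fr_of_mem hp]
  have hv := fun n => bm_avS m (hu n)
  have h2 : Tendsto (fun n => ∫ p, avA m b (avS m (avA m b (S n))) p * avA m b (S n) p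
      ∂(m.prod (volume.restrict cell))) atTop (𝓝 (∫ _, (0 : ℝ) ∂(m.prod (volume.restrict cell)))) := by
    refine tendsto_integral_of_dominated_convergence (fun _ => _)
      (fun n => ((bm_avA m b (hv n)).mul (hu n)).1.aestronglyMeasurable) (integrable_const _)
      (fun n => Eventually.of_forall ((bm_avA m b (hv n)).mul (hu n)).2)
      (Eventually.of_forall fun p => ?_)
    exact (kernel_lim m b hb hu pu wu p).zero_mul_isBoundedUnder_le
      (isBoundedUnder_of ⟨_, fun n => (hu n).2 p⟩)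
  rw [integral_zero] at h2
  have h3 := l2_l1 hv (h2.congr fun n => duality m b (hv n) (hu n) (per_avS m (pu n)) (pu n))
  refine l2_l1 hu (squeeze_zero_norm (fun n => ?_) (by simpa using h3.const_mul C))
  rw [duality m b (hS n) (hu n) (pS n) (pu n), ← integral_const_mul]
  refine norm_integral_le_of_norm_le (((hv n).integrable _).abs.const_mul C)
    (Eventually.of_forall fun z => ?_)
  rw [Real.norm_eq_abs, abs_mul]
  exact mul_le_mul_of_nonneg_right ((hS n).2 z) (abs_nonneg _)

theorem l1_kernel {R : ℝ × R3 × R3 → ℝ≥0∞} (hR : Measurable R)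
    (pR : ∀ t v, IsPeriodic3 fun x => R (t, x, v)) :
    ∫⁻ p, ∫⁻ q, R (q.2, p.2 - (p.1 - q.2) • q.1, q.1) ∂(b.prod m) ∂(m.prod (volume.restrict cell)) =
      m univ * ∫⁻ z, R z ∂(m.prod ((volume.restrict cell).prod b)) := by
  have hm : Measurable fun z : (ℝ × R3) × R3 × ℝ =>
      R (z.2.2, z.1.2 - (z.1.1 - z.2.2) • z.2.1, z.2.1) := hR.comp (by fun_prop)
  rw [lintegral_lintegral_swap hm.aemeasurable]
  have h1 : ∀ q : R3 × ℝ, ∫⁻ p, R (q.2, p.2 - (p.1 - q.2) • q.1, q.1) ∂(m.prod (volume.restrict cell))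
      = m univ * ∫⁻ x in cell, R (q.2, x, q.1) := by
    intro q
    rw [lintegral_prod (fun p : ℝ × R3 => R (q.2, p.2 - (p.1 - q.2) • q.1, q.1))
      (hm.comp (measurable_prodMk_right (y := q))).aemeasurable]
    have h2 : ∀ t : ℝ, ∫⁻ x in cell, R (q.2, x - (t - q.2) • q.1, q.1) =
        ∫⁻ x in cell, R (q.2, x, q.1) := fun t => by
      simp only [sub_eq_add_neg _ ((t - q.2) • q.1)]
      exact lintegral_cell_translate (f := fun x => R (q.2, x, q.1)) (hR.comp (by fun_prop))
        (pR _ _) _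
    simp only [h2, lintegral_const, mul_comm]
  have h3 : Measurable fun z : (R3 × ℝ) × R3 => R (z.1.2, z.2, z.1.1) := hR.comp (by fun_prop)
  simp only [h1]
  rw [lintegral_const_mul _ h3.lintegral_prod_right', lintegral_prod_symm _
    h3.lintegral_prod_right'.aemeasurable, lintegral_prod _ hR.aemeasurable]
  congr 1
  refine lintegral_congr fun s => ?_
  rw [lintegral_prod_symm (fun y : R3 × R3 => R (s, y))
    (hR.comp measurable_prodMk_left).aemeasurable]

theorem l1_pt {S R : ℝ × R3 × R3 → ℝ} (hS : BM C S) (hR : Measurable R) (p : ℝ × R3) :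
    ‖avA m b (fun z => S z + R z) p‖ₑ ≤ ‖avA m b S p‖ₑ +
      ∫⁻ q, ‖R (q.2, p.2 - (p.1 - q.2) • q.1, q.1)‖ₑ ∂(b.prod m) := by
  rcases eq_top_or_lt_top (∫⁻ q, ‖R (q.2, p.2 - (p.1 - q.2) • q.1, q.1)‖ₑ ∂(b.prod m)) with h | h
  · rw [h]; simp
  have hA : MeasurableSet {q : R3 × ℝ | q.2 < p.1} := measurableSet_lt (by fun_prop) (by fun_prop)
  have hle : ∀ q : R3 × ℝ, ‖if q.2 < p.1 then R (q.2, p.2 - (p.1 - q.2) • q.1, q.1) else 0‖ₑ ≤
      ‖R (q.2, p.2 - (p.1 - q.2) • q.1, q.1)‖ₑ := fun q => by split_ifs <;> simp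
  have i1 := ((hS.comp (g := fun q : R3 × ℝ => (q.2, p.2 - (p.1 - q.2) • q.1, q.1))
    (by fun_prop)).ite hA).integrable (b.prod m)
  have i2 : Integrable (fun q : R3 × ℝ =>
      if q.2 < p.1 then R (q.2, p.2 - (p.1 - q.2) • q.1, q.1) else 0) (b.prod m) :=
    ⟨(Measurable.ite hA (hR.comp (by fun_prop)) measurable_const).aestronglyMeasurable,
      (lintegral_mono hle).trans_lt h⟩
  have e1 : avA m b (fun z => S z + R z) p = avA m b S p + ∫ q : R3 × ℝ,
      (if q.2 < p.1 then R (q.2, p.2 - (p.1 - q.2) • q.1, q.1) else 0) ∂(b.prod m) := by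
    have e2 := integral_prod _ i1
    have e3 := integral_prod _ (i1.add i2)
    rw [integral_add' i1 i2, e2] at e3
    refine Eq.trans ?_ e3.symm
    unfold avA
    congr 1
    funext v
    congr 1
    funext s
    simp only [Pi.add_apply]
    split_ifs <;> simp
  rw [e1]
  exact (enorm_add_le _ _).trans (add_le_add le_rfl
    ((enorm_integral_le_lintegral_enorm _).trans (lintegral_mono hle)))

theorem l1_bound {S R : ℝ × R3 × R3 → ℝ} (hS : BM C S) (hR : Measurable R) (pR : PerS R)
    (iR : Integrable R (m.prod ((volume.restrict cell).prod b))) :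
    ∫ p, |avA m b (fun z => S z + R z) p| ∂(m.prod (volume.restrict cell)) ≤
      ∫ p, |avA m b S p| ∂(m.prod (volume.restrict cell)) +
        m.real univ * ∫ z, |R z| ∂(m.prod ((volume.restrict cell).prod b)) := by
  have h1 := lintegral_mono (μ := m.prod (volume.restrict cell)) (l1_pt m b hS hR)
  have i1 := (bm_avA m b hS).integrable (m.prod (volume.restrict cell))
  rw [lintegral_add_left (bm_avA m b hS).1.enorm,
    l1_kernel m b hR.enorm (fun t v x i => by simp only [pR t v x i]),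
    ← ofReal_integral_norm_eq_lintegral_enorm i1, ← ofReal_integral_norm_eq_lintegral_enorm iR,
    ← ofReal_measureReal, ← ENNReal.ofReal_mul measureReal_nonneg,
    ← ENNReal.ofReal_add (by positivity) (by positivity)] at h1
  by_cases hi : Integrable (avA m b fun z => S z + R z) (m.prod (volume.restrict cell))
  · rw [← ofReal_integral_norm_eq_lintegral_enorm hi,
      ENNReal.ofReal_le_ofReal_iff (by positivity)] at h1
    exact h1
  · have hm : Measurable (avA m b fun z => S z + R z) := by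
      have : Measurable fun z : ((ℝ × R3) × R3) × ℝ => if z.2 < z.1.1.1 then
          (fun z => S z + R z) (z.2, z.1.1.2 - (z.1.1.1 - z.2) • z.1.2, z.1.2) else 0 :=
        Measurable.ite (measurableSet_lt (by fun_prop) (by fun_prop))
          ((hS.1.add hR).comp (by fun_prop)) measurable_const
      exact ((this.stronglyMeasurable.integral_prod_right' (ν := m)).integral_prod_right'
        (ν := b)).measurable
    exact absurd ⟨hm.aestronglyMeasurable, h1.trans_lt ENNReal.ofReal_lt_top⟩ hi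

theorem avg_main [NullSingletonClass m] (hb : b ≪ volume) {S : ℕ → ℝ × R3 × R3 → ℝ} {g : ℝ × R3 × R3 → ℝ}
    (hS : ∀ n, Measurable (S n)) (hg : Measurable g) (pS : ∀ n, PerS (S n)) (pg : PerS g)
    (hi : Integrable g (m.prod ((volume.restrict cell).prod b)))
    (hle : ∀ n, ∀ᵐ z ∂(m.prod ((volume.restrict cell).prod b)), |S n z| ≤ g z)
    (hw : WN (m.prod ((volume.restrict cell).prod b)) S) :
    Tendsto (fun n => ∫ p, |avA m b (S n) p| ∂(m.prod (volume.restrict cell))) atTop (𝓝 0) := by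
  rw [Metric.tendsto_atTop]
  intro ε hε
  have hM : 0 ≤ m.real univ := measureReal_nonneg
  obtain ⟨L, hL, hL'⟩ := tail hg hi (ε := ε / 2 / (m.real univ + 1)) (by positivity)
  have hA : MeasurableSet {z | |g z| ≤ L} := measurableSet_le hg.abs measurable_const
  have hB : ∀ n, MeasurableSet {z | |S n z| ≤ g z ∧ |g z| ≤ L} := fun n =>
    (measurableSet_le (hS n).abs hg).inter hA
  have h1 : ∀ n, BM L fun z => if |S n z| ≤ g z ∧ |g z| ≤ L then S n z else 0 := fun n =>
    ⟨Measurable.ite (hB n) (hS n) measurable_const, fun z => by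
      dsimp only
      split_ifs with h
      · exact h.1.trans ((le_abs_self _).trans h.2)
      · simpa using hL.le⟩
  have h2 := avg_bdd m b hb h1 (fun n t v x i => by simp only [pS n t v x i, pg t v x i])
    fun ψ hψ => (hw _ (hψ.ite hA)).congr fun n => integral_congr_ae (by
      filter_upwards [hle n] with z hz
      simp only [hz, true_and]
      split_ifs <;> simp)
  obtain ⟨N, hN⟩ := Metric.tendsto_atTop.1 h2 (ε / 2) (by positivity)
  refine ⟨N, fun n hn => ?_⟩
  have h3 := hN n hn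
  rw [Real.dist_eq, sub_zero, abs_of_nonneg (integral_nonneg fun _ => abs_nonneg _)] at h3 ⊢
  have hR : Measurable fun z => if |S n z| ≤ g z ∧ |g z| ≤ L then 0 else S n z :=
    Measurable.ite (hB n) measurable_const (hS n)
  have i0 : Integrable (fun z => if |g z| ≤ L then 0 else |g z|)
      (m.prod ((volume.restrict cell).prod b)) :=
    hi.abs.mono (Measurable.ite hA measurable_const hg.abs).aestronglyMeasurable
      (Eventually.of_forall fun a => by split_ifs <;> simp)
  have h4 : ∀ᵐ z ∂(m.prod ((volume.restrict cell).prod b)),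
      |if |S n z| ≤ g z ∧ |g z| ≤ L then 0 else S n z| ≤ if |g z| ≤ L then 0 else |g z| := by
    filter_upwards [hle n] with z hz
    simp only [hz, true_and]
    split_ifs
    · simp
    · exact hz.trans (le_abs_self _)
  have iR := i0.mono' hR.aestronglyMeasurable h4
  have h5 := l1_bound m b (h1 n) hR (fun t v x i => by simp only [pS n t v x i, pg t v x i]) iR
  have e : (fun z => (if |S n z| ≤ g z ∧ |g z| ≤ L then S n z else 0) +
      if |S n z| ≤ g z ∧ |g z| ≤ L then 0 else S n z) = S n := by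
    funext z
    split_ifs <;> simp
  rw [e] at h5
  have h6 := (integral_mono_ae iR.abs i0 h4).trans_lt hL'
  rw [lt_div_iff₀' (by positivity)] at h6
  have h7 : 0 ≤ ∫ z, |if |S n z| ≤ g z ∧ |g z| ≤ L then 0 else S n z|
      ∂(m.prod ((volume.restrict cell).prod b)) := integral_nonneg fun _ => abs_nonneg _
  nlinarith

end Avg

theorem averaging {T : ℝ} {S : ℕ → ℝ → R3 → R3 → ℝ} {𝓢 : ℝ → R3 → R3 → ℝ}
    (hS : ∀ n, Measurable (fun p : ℝ × R3 × R3 => S n p.1 p.2.1 p.2.2))
    (h𝓢 : Measurable (fun p : ℝ × R3 × R3 => 𝓢 p.1 p.2.1 p.2.2))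
    (hp : ∀ n t v, IsPeriodic3 (fun x => S n t x v)) (hp' : ∀ t v, IsPeriodic3 (fun x => 𝓢 t x v))
    (hi : IntegrableOn (fun p : ℝ × R3 × R3 => 𝓢 p.1 p.2.1 p.2.2) (Ioo 0 T ×ˢ (cell ×ˢ (univ : Set R3))))
    (hle : ∀ n, ∀ᵐ p ∂(volume.restrict (Ioo 0 T ×ˢ (cell ×ˢ (univ : Set R3)))),
      |S n p.1 p.2.1 p.2.2| ≤ 𝓢 p.1 p.2.1 p.2.2)
    (hw : ∀ ψ : ℝ × R3 × R3 → ℝ, Measurable ψ → (∀ p, |ψ p| ≤ 1) →
      Tendsto (fun n => ∫ p in Ioo 0 T ×ˢ (cell ×ˢ (univ : Set R3)), S n p.1 p.2.1 p.2.2 * ψ p)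
        atTop (𝓝 0))
    {B : Set R3} (hB : MeasurableSet B) (hb : Bornology.IsBounded B) :
    Tendsto (fun n => ∫ p in Ioo 0 T ×ˢ cell,
      |∫ v in B, ∫ s in Ioo 0 p.1, S n s (p.2 - (p.1 - s) • v) v|) atTop (𝓝 0) := by
  classical
  have : IsFiniteMeasure (volume.restrict B) :=
    ⟨by rw [Measure.restrict_apply_univ]; exact hb.measure_lt_top⟩
  have hsub : Ioo 0 T ×ˢ (cell ×ˢ B) ⊆ Ioo 0 T ×ˢ (cell ×ˢ (univ : Set R3)) :=
    prod_mono le_rfl (prod_mono le_rfl (subset_univ _))
  have e1 : (volume.restrict (Ioo 0 T)).prod ((volume.restrict cell).prod (volume.restrict B)) =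
      volume.restrict (Ioo 0 T ×ˢ (cell ×ˢ B)) := by
    rw [Measure.prod_restrict, Measure.prod_restrict]; rfl
  have e2 : (volume.restrict (Ioo 0 T)).prod (volume.restrict cell) =
      volume.restrict (Ioo 0 T ×ˢ cell) := by
    rw [Measure.prod_restrict]; rfl
  have hA : MeasurableSet {p : ℝ × R3 × R3 | p.2.2 ∈ B} := measurable_snd.snd hB
  have h := Avg.avg_main (volume.restrict (Ioo 0 T)) (volume.restrict B)
    Measure.absolutelyContinuous_restrict hS h𝓢 hp hp' (by rw [e1]; exact hi.mono_set hsub)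
    (fun n => by rw [e1]; exact ae_restrict_of_ae_restrict_of_subset hsub (hle n)) (by
      intro ψ hψ
      refine (hw _ (hψ.ite hA).1 (hψ.ite hA).2).congr fun n => ?_
      have e3 : Ioo 0 T ×ˢ (cell ×ˢ B) =
          Ioo 0 T ×ˢ (cell ×ˢ (univ : Set R3)) ∩ {p : ℝ × R3 × R3 | p.2.2 ∈ B} := by
        ext p; simp [and_assoc]
      rw [e1, e3, ← setIntegral_indicator hA]
      congr 1
      funext p
      simp only [indicator, mem_setOf_eq, mul_ite, mul_zero])
  rw [e2] at h
  refine h.congr fun n => setIntegral_congr_fun (measurableSet_Ioo.prod measurableSet_cell)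
    fun p hp => ?_
  simp only [Avg.avA]
  congr 2
  funext v
  have e4 : Ioo 0 p.1 = Ioo 0 T ∩ Iio p.1 := by
    ext s
    exact ⟨fun h => ⟨⟨h.1, h.2.trans hp.1.2⟩, h.2⟩, fun h => ⟨h.1.1, h.2⟩⟩
  rw [e4, ← setIntegral_indicator measurableSet_Iio]
  rfl

end Crest.Agent.R68
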