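import Crest.Agent.R68.Shear

/-! Tools for the averaging lemma: bounded measurable functions, weakly null sequences. -/

set_option autoImplicit false

open MeasureTheory Set Filter Topology Crest.AnalysisR.VecCalc3 Crest.AnalysisR.PDE.Boltzmann
open scoped ENNReal NNReal

namespace Crest.Agent.R68.Avg

section
variable {α β γ δ : Type} [MeasurableSpace α] [MeasurableSpace β] [MeasurableSpace γ]
  [MeasurableSpace δ]

/-- measurable and bounded by `C` -/
def BM (C : ℝ) (f : α → ℝ) : Prop := Measurable f ∧ ∀ a, |f a| ≤ C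

theorem BM.integrable {C : ℝ} {f : α → ℝ} (h : BM C f) (μ : Measure α) [IsFiniteMeasure μ] :
    Integrable f μ :=
  Integrable.of_bound h.1.aestronglyMeasurable C (Eventually.of_forall h.2)

theorem BM.comp {C : ℝ} {f : α → ℝ} (h : BM C f) {g : β → α} (hg : Measurable g) :
    BM C fun b => f (g b) := ⟨h.1.comp hg, fun _ => h.2 _⟩

theorem BM.mul {C D : ℝ} {f g : α → ℝ} (h : BM C f) (h' : BM D g) : BM (C * D) fun a => f a * g a :=
  ⟨h.1.mul h'.1, fun a => by
    rw [abs_mul]
    exact mul_le_mul (h.2 a) (h'.2 a) (abs_nonneg _) ((abs_nonneg _).trans (h.2 a))⟩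

theorem BM.ite {C : ℝ} {f : α → ℝ} (h : BM C f) {p : α → Prop} [DecidablePred p]
    (hp : MeasurableSet {a | p a}) : BM C fun a => if p a then f a else 0 :=
  ⟨Measurable.ite hp h.1 measurable_const, fun a => by
    dsimp only
    split_ifs
    · exact h.2 a
    · rw [abs_zero]; exact (abs_nonneg _).trans (h.2 a)⟩

theorem BM.int {C : ℝ} {f : α × β → ℝ} (h : BM C f) (ν : Measure β) [IsFiniteMeasure ν] :
    BM (C * ν.real univ) fun a => ∫ b, f (a, b) ∂ν :=
  ⟨(h.1.stronglyMeasurable.integral_prod_right' (ν := ν)).measurable, fun a =>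
    norm_integral_le_of_norm_le_const (f := fun b => f (a, b)) (Eventually.of_forall fun _ => h.2 _)⟩

theorem BM.prod {C : ℝ} {f : α × β → ℝ} (h : BM C f) (μ : Measure α) (ν : Measure β)
    [IsFiniteMeasure μ] [IsFiniteMeasure ν] :
    ∫ p, f p ∂(μ.prod ν) = ∫ a, ∫ b, f (a, b) ∂ν ∂μ := integral_prod _ (h.integrable _)

theorem BM.prod_symm {C : ℝ} {f : α × β → ℝ} (h : BM C f) (μ : Measure α) (ν : Measure β)
    [IsFiniteMeasure μ] [IsFiniteMeasure ν] :
    ∫ p, f p ∂(μ.prod ν) = ∫ b, ∫ a, f (a, b) ∂μ ∂ν := integral_prod_symm _ (h.integrable _)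

theorem four {C : ℝ} {F : α × β × γ × δ → ℝ} (h : BM C F) (μ₁ : Measure α) (μ₂ : Measure β)
    (μ₃ : Measure γ) (μ₄ : Measure δ) [IsFiniteMeasure μ₁] [IsFiniteMeasure μ₂]
    [IsFiniteMeasure μ₃] [IsFiniteMeasure μ₄] :
    ∫ p, ∫ d, ∫ b, F (p.1, b, p.2, d) ∂μ₂ ∂μ₄ ∂(μ₁.prod μ₃) =
      ∫ a, ∫ b, ∫ q, F (a, b, q) ∂(μ₃.prod μ₄) ∂μ₂ ∂μ₁ := by
  have h1 : BM _ fun z : ((α × γ) × δ) × β => F (z.1.1.1, z.2, z.1.1.2, z.1.2) :=
    h.comp (by fun_prop)
  rw [((h1.int μ₂).int μ₄).prod]
  refine integral_congr_ae (Eventually.of_forall fun a => ?_)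
  have h2 : BM _ fun z : (γ × δ) × β => F (a, z.2, z.1) := h.comp (by fun_prop)
  have h3 := (h2.int μ₂).prod μ₃ μ₄
  simp only at h3 ⊢
  rw [← h3, ← h2.prod, h2.prod_symm]

theorem three {C : ℝ} {F : α × β × γ → ℝ} (h : BM C F) (μ₁ : Measure α) (μ₂ : Measure β)
    (μ₃ : Measure γ) [IsFiniteMeasure μ₁] [IsFiniteMeasure μ₂] [IsFiniteMeasure μ₃] :
    ∫ z, ∫ a, F (a, z) ∂μ₁ ∂(μ₂.prod μ₃) = ∫ a, ∫ b, ∫ q, F (a, b, q) ∂μ₃ ∂μ₂ ∂μ₁ := by
  rw [← h.prod_symm, h.prod]
  exact integral_congr_ae (Eventually.of_forall fun a =>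
    (h.comp (g := fun z : β × γ => (a, z)) (by fun_prop)).prod μ₂ μ₃)

theorem tail {μ : Measure α} {g : α → ℝ} (hg : Measurable g) (hi : Integrable g μ) {ε : ℝ}
    (hε : 0 < ε) : ∃ L : ℝ, 0 < L ∧ ∫ a, (if |g a| ≤ L then 0 else |g a|) ∂μ < ε := by
  have h : Tendsto (fun L : ℕ => ∫ a, (if |g a| ≤ (L : ℝ) + 1 then 0 else |g a|) ∂μ) atTop
      (𝓝 (∫ _, (0 : ℝ) ∂μ)) := by
    refine tendsto_integral_of_dominated_convergence (fun a => |g a|) (fun L => ?_) hi.abs
      (fun L => Eventually.of_forall fun a => ?_) (Eventually.of_forall fun a => ?_)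
    · exact (Measurable.ite (measurableSet_le hg.abs measurable_const) measurable_const
        hg.abs).aestronglyMeasurable
    · split_ifs <;> simp
    · refine tendsto_const_nhds.congr' ?_
      obtain ⟨N, hN⟩ := exists_nat_ge |g a|
      filter_upwards [eventually_ge_atTop N] with L hL
      have : (N : ℝ) ≤ L := by exact_mod_cast hL
      rw [if_pos (by linarith)]
  rw [integral_zero] at h
  obtain ⟨L, hL⟩ := (h.eventually (gt_mem_nhds hε)).exists
  exact ⟨L + 1, by positivity, hL⟩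

/-- weakly null sequences -/
def WN (μ : Measure α) (u : ℕ → α → ℝ) : Prop :=
  ∀ ψ : α → ℝ, BM 1 ψ → Tendsto (fun n => ∫ a, u n a * ψ a ∂μ) atTop (𝓝 0)

theorem WN.int {μ : Measure α} {u : ℕ → α → ℝ} (h : WN μ u) {C : ℝ} (hu : ∀ n, BM C (u n))
    {g : α → ℝ} (hg : Measurable g) (hi : Integrable g μ) :
    Tendsto (fun n => ∫ a, u n a * g a ∂μ) atTop (𝓝 0) := by
  rw [Metric.tendsto_atTop]
  intro ε hε
  obtain ⟨L, hL, hL'⟩ := tail hg hi (ε := ε / 2 / (|C| + 1)) (by positivity)
  have hs : MeasurableSet {a | |g a| ≤ L} := measurableSet_le hg.abs measurable_const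
  have h1 := h (fun a => if |g a| ≤ L then g a / L else 0)
    ⟨Measurable.ite hs (hg.div_const L) measurable_const, fun a => by
      dsimp only
      split_ifs with h
      · rwa [abs_div, abs_of_pos hL, div_le_one hL]
      · simp⟩
  obtain ⟨N, hN⟩ := Metric.tendsto_atTop.1 h1 (ε / 2 / L) (by positivity)
  refine ⟨N, fun n hn => ?_⟩
  have h2 := hN n hn
  rw [Real.dist_eq, sub_zero] at h2 ⊢
  have i0 : ∀ k : α → ℝ, Measurable k → (∀ a, |k a| ≤ |g a|) →
      Integrable (fun a => u n a * k a) μ := fun k hk hk' =>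
    (hi.mono hk.aestronglyMeasurable (Eventually.of_forall hk')).bdd_mul
      (hu n).1.aestronglyMeasurable (c := C) (Eventually.of_forall (hu n).2)
  have i1 := i0 (fun a => if |g a| ≤ L then g a else 0) (Measurable.ite hs hg measurable_const)
    fun a => by split_ifs <;> simp
  have i2 := i0 (fun a => if |g a| ≤ L then 0 else g a) (Measurable.ite hs measurable_const hg)
    fun a => by split_ifs <;> simp
  have e1 : ∫ a, u n a * g a ∂μ = ∫ a, u n a * (if |g a| ≤ L then g a else 0) ∂μ +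
      ∫ a, u n a * (if |g a| ≤ L then 0 else g a) ∂μ := by
    rw [← integral_add i1 i2]
    congr 1
    funext a
    split_ifs <;> simp
  have e2 : ∫ a, u n a * (if |g a| ≤ L then g a else 0) ∂μ =
      L * ∫ a, u n a * (if |g a| ≤ L then g a / L else 0) ∂μ := by
    rw [← integral_const_mul]
    congr 1
    funext a
    split_ifs
    · field_simp
    · simp
  have e3 : |∫ a, u n a * (if |g a| ≤ L then 0 else g a) ∂μ| ≤
      (|C| + 1) * ∫ a, (if |g a| ≤ L then 0 else |g a|) ∂μ := by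
    rw [← integral_const_mul]
    refine norm_integral_le_of_norm_le (f := fun a => u n a * (if |g a| ≤ L then 0 else g a))
      (Integrable.const_mul (hi.abs.mono (Measurable.ite hs measurable_const
        hg.abs).aestronglyMeasurable (Eventually.of_forall fun a => ?_)) _)
      (Eventually.of_forall fun a => ?_)
    · split_ifs <;> simp
    · rw [Real.norm_eq_abs, abs_mul]
      have := (hu n).2 a
      have := le_abs_self C
      split_ifs
      · simp
      · exact mul_le_mul_of_nonneg_right (by linarith) (abs_nonneg _)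
  rw [lt_div_iff₀' (by positivity)] at hL'
  rw [lt_div_iff₀' hL] at h2
  rw [e1, e2]
  refine (abs_add_le _ _).trans_lt ?_
  rw [abs_mul, abs_of_pos hL]
  linarith

theorem WN.map {μ : Measure α} [IsFiniteMeasure μ] {u : ℕ → α → ℝ} (h : WN μ u) {C : ℝ}
    (hu : ∀ n, BM C (u n)) {lam : Measure β} [IsFiniteMeasure lam] {φ : β → α}
    (hφ : Measure.QuasiMeasurePreserving φ lam μ) :
    Tendsto (fun n => ∫ b, u n (φ b) ∂lam) atTop (𝓝 0) := by
  have h1 := h.int hu (g := fun a => ((lam.map φ).rnDeriv μ a).toReal)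
    (Measure.measurable_rnDeriv _ _).ennreal_toReal Measure.integrable_toReal_rnDeriv
  refine h1.congr fun n => ?_
  rw [← integral_map hφ.measurable.aemeasurable (hu n).1.aestronglyMeasurable,
    ← integral_rnDeriv_smul hφ.absolutelyContinuous]
  simp only [smul_eq_mul, mul_comm]

theorem l2_l1 {μ : Measure α} [IsFiniteMeasure μ] {g : ℕ → α → ℝ} {C : ℝ} (hg : ∀ n, BM C (g n))
    (h : Tendsto (fun n => ∫ a, g n a * g n a ∂μ) atTop (𝓝 0)) :
    Tendsto (fun n => ∫ a, |g n a| ∂μ) atTop (𝓝 0) := by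
  rw [Metric.tendsto_atTop] at h ⊢
  intro ε hε
  set M := μ.real univ with hM
  have hM0 : 0 ≤ M := measureReal_nonneg
  set δ := ε / 2 / (M + 1) with hδ
  have hδ0 : 0 < δ := by positivity
  obtain ⟨N, hN⟩ := h (δ * (ε / 2)) (by positivity)
  refine ⟨N, fun n hn => ?_⟩
  have h2 := hN n hn
  rw [Real.dist_eq, sub_zero] at h2 ⊢
  have i1 := ((hg n).mul (hg n)).integrable μ
  have h3 : ∫ a, |g n a| ∂μ ≤ ∫ a, (δ + δ⁻¹ * (g n a * g n a)) ∂μ := by
    refine integral_mono ((hg n).integrable μ).abs ((integrable_const δ).add (i1.const_mul _))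
      fun a => ?_
    simp only
    rw [← abs_mul_abs_self, inv_mul_eq_div, add_div' _ _ _ hδ0.ne', le_div_iff₀ hδ0]
    nlinarith [sq_nonneg (|g n a| - δ), abs_nonneg (g n a)]
  rw [integral_add (integrable_const δ) (i1.const_mul _), integral_const, integral_const_mul,
    smul_eq_mul] at h3
  rw [abs_of_nonneg (integral_nonneg fun a => abs_nonneg _)]
  have h4 : δ⁻¹ * ∫ a, g n a * g n a ∂μ < ε / 2 := by
    rw [inv_mul_lt_iff₀ hδ0]
    exact (le_abs_self _).trans_lt h2
  have h5 : M * δ ≤ ε / 2 := by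
    rw [hδ, ← mul_div_assoc, div_le_iff₀ (by positivity)]
    nlinarith
  linarith

end

/-- representative in the cell -/
noncomputable def fr (y : R3) : R3 := y + WithLp.toLp 2 fun i => ((-⌊y i⌋ : ℤ) : ℝ)

theorem fr_apply (y : R3) (i : Fin 3) : fr y i = Int.fract (y i) := by
  simp [fr, Int.fract, sub_eq_add_neg]

theorem fr_mem (y : R3) : fr y ∈ cell := fun i => by
  rw [fr_apply]
  exact ⟨Int.fract_nonneg _, Int.fract_lt_one _⟩

theorem fr_of_mem {y : R3} (h : y ∈ cell) : fr y = y := by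
  ext i
  rw [fr_apply, Int.fract_eq_self.2 (h i)]

theorem fr_per : IsPeriodic3 fr := by
  intro x i
  ext j
  rw [fr_apply, fr_apply, PiLp.add_apply]
  by_cases h : j = i
  · subst h; simp
  · simp [h]

theorem measurable_fr : Measurable fr := by
  have : fr = fun y : R3 => WithLp.toLp 2 fun i => Int.fract (y i) := by
    funext y; ext i; exact fr_apply y i
  rw [this]
  refine (WithLp.measurable_toLp 2 _).comp (measurable_pi_lambda _ fun i => ?_)
  exact measurable_fract.comp (by fun_prop)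

theorem ae_fr {N : Set R3} (h : volume.restrict cell N = 0) : ∀ᵐ y : R3, fr y ∉ N := by
  rw [Measure.restrict_apply' measurableSet_cell] at h
  refine measure_mono_null (t := ⋃ j : Fin 3 → ℤ,
    (fun y : R3 => y + WithLp.toLp 2 fun i => (j i : ℝ)) ⁻¹' (N ∩ cell)) (fun y hy => ?_)
    (measure_iUnion_null fun j => ?_)
  · exact mem_iUnion.2 ⟨fun i => -⌊y i⌋, not_not.1 hy, fr_mem y⟩
  · rw [measure_preimage_add_right, h]

theorem ae_fr_affine {N : Set R3} (h : volume.restrict cell N = 0) (x : R3) {τ : ℝ} (hτ : τ ≠ 0) :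
    ∀ᵐ v : R3, fr (x + τ • v) ∉ N := by
  have h1 : Measure.QuasiMeasurePreserving (fun v : R3 => τ • v) volume volume :=
    ⟨measurable_const_smul τ, by
      rw [Measure.map_addHaar_smul volume hτ]
      exact Measure.smul_absolutelyContinuous⟩
  exact h1.ae ((measurePreserving_add_left volume x).quasiMeasurePreserving.ae (ae_fr h))

instance : IsFiniteMeasure (volume.restrict cell) :=
  ⟨by rw [Measure.restrict_apply_univ, volume_cell]; exact ENNReal.one_lt_top⟩

end Crest.Agent.R68.Avg
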