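import Crest.Agent.R68.Tile2

/-! Positions that are neither deep in a thick tile nor deep in the central vacuum.  Take for `𝒮` the symmetric set made of the `δ² s`-neighbourhoods of `± X n s` for the levels with
`δ s ≤ rr n ≤ (K+1) s` (at most `1 + log₄((K+1)/δ) ≤ 1 + √((K+1)/δ)` of them) and of `±[kap s - δ² s, kap s + 2δ s + δ² s]`.  If `ρ = nrm y` is not in the thin part then `ρ > kap s + 2δ s + δ² s`; pick `n` with
`X (n+1) ≤ ρ < X n`; `n` is thick, `n ≤ N`, and the tile is of side 0 if `|y 0| ≥ X (n+1) + δ² s`, of side 1 otherwise. -/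

set_option autoImplicit false

open MeasureTheory Set Filter Topology Crest.AnalysisR.VecCalc3 Crest.AnalysisR.PDE.Boltzmann
open scoped ENNReal NNReal

namespace Crest.Agent.R68

/-- bad positions -/
def BadP (P : Par) (N : ℕ) (δ s : ℝ) (y : R3) : Prop :=
  (¬ ∃ τ, Deep P N δ τ s y) ∧ P.X (N + 1) s - δ ^ 2 * s < nrm y ∧ nrm y < P.X 0 s

theorem measurableSet_BadP (P : Par) (N : ℕ) (δ : ℝ) :
    MeasurableSet {q : ℝ × R3 | BadP P N δ q.1 q.2} := by
  have hn : Continuous (fun q : ℝ × R3 => nrm q.2) := by unfold nrm; fun_prop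
  have h1 : MeasurableSet {q : ℝ × R3 | ∃ τ, Deep P N δ τ q.1 q.2} := by
    rw [setOf_exists]
    exact MeasurableSet.iUnion fun τ => measurableSet_deep N δ τ
  have h2 : MeasurableSet {q : ℝ × R3 | P.X (N + 1) q.1 - δ ^ 2 * q.1 < nrm q.2} :=
    (isOpen_lt (by unfold Par.X; fun_prop) hn).measurableSet
  have h3 : MeasurableSet {q : ℝ × R3 | nrm q.2 < P.X 0 q.1} :=
    (isOpen_lt hn (by unfold Par.X; fun_prop)).measurableSet
  exact h1.compl.inter (h2.inter h3)
theorem Same.badP_iff {P : Par} {y y' : R3} (h : Same y y') (N : ℕ) (δ s : ℝ) :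
    BadP P N δ s y ↔ BadP P N δ s y' := by
  unfold BadP
  rw [h.nrm_eq]
  simp only [h.deep_iff]

theorem BadPos.rr_pow (P : Par) (n k : ℕ) : P.rr n = 4 ^ k * P.rr (n + k) := by
  unfold Par.rr
  rw [pow_add]
  field_simp

theorem BadPos.exists_set {K δ : ℝ} (hK : 1 ≤ K) (hδ : 0 < δ) (hδ1 : δ ≤ 1) {P : Par} (hP : P.Ok)
    (he : P.eta ≤ δ) {s : ℝ} (hs : 0 < s) : ∃ A : Set ℝ, MeasurableSet A ∧
      volume A ≤ ENNReal.ofReal (10 * K * δ * s) ∧
      (∀ x, kap * s - δ ^ 2 * s ≤ x → x ≤ kap * s + 2 * δ * s → x ∈ A) ∧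
      ∀ n x, x ≤ K * s → |x - P.X n s| ≤ δ ^ 2 * s → x ∈ A := by
  classical
  have hex : ∃ n : ℕ, P.rr n ≤ (K + 1) * s := by
    obtain ⟨n, hn⟩ := pow_unbounded_of_one_lt (P.r / ((K + 1) * s)) (by norm_num : (1 : ℝ) < 4)
    refine ⟨n, ?_⟩
    unfold Par.rr
    rw [div_lt_iff₀ (by positivity)] at hn
    rw [div_le_iff₀ (by positivity)]
    linarith
  set n0 := Nat.find hex with hn0
  set J : ℕ := ⌊(K + 1) / δ⌋₊ with hJ
  set u := δ ^ 2 * s with hu
  have hu0 : 0 < u := by positivity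
  have hus : u ≤ δ * s := by rw [hu]; nlinarith [mul_pos hδ hs]
  have hus' : u ≤ s := by nlinarith
  refine ⟨Icc (kap * s - u) (kap * s + 2 * δ * s + u) ∪
    ⋃ n ∈ Finset.Icc n0 (n0 + J), Icc (P.X n s - u) (P.X n s + u), ?_, ?_, ?_, ?_⟩
  · exact measurableSet_Icc.union (Finset.measurableSet_biUnion _ fun _ _ => measurableSet_Icc)
  · refine (measure_union_le _ _).trans ?_
    refine (add_le_add le_rfl (measure_biUnion_finset_le _ _)).trans ?_
    simp only [Real.volume_Icc]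
    have e : ∀ n, P.X n s + u - (P.X n s - u) = 2 * u := fun n => by ring
    simp only [e, Finset.sum_const, Nat.card_Icc, nsmul_eq_mul]
    have hJle : (J : ℝ) * δ ≤ K + 1 := by
      have := Nat.floor_le (show 0 ≤ (K + 1) / δ by positivity)
      rwa [le_div_iff₀ hδ] at this
    have e2 : n0 + J + 1 - n0 = J + 1 := by omega
    rw [e2, ← ENNReal.ofReal_natCast, ← ENNReal.ofReal_mul (by positivity),
      ← ENNReal.ofReal_add (by nlinarith [mul_pos hδ hs]) (by positivity)]
    apply ENNReal.ofReal_le_ofReal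
    push_cast
    have h1 : (J : ℝ) * u ≤ (K + 1) * (δ * s) := by
      have : (J : ℝ) * u = (J * δ) * (δ * s) := by rw [hu]; ring
      rw [this]; gcongr
    have h2 : δ * s ≤ K * (δ * s) := by nlinarith [mul_pos hδ hs]
    nlinarith
  · intro x h1 h2
    left
    exact ⟨h1, by linarith⟩
  · intro n x hx hn
    rw [abs_le] at hn
    have het := et_pos hP n
    have het' := et_le hP n
    have hr := rr_pos hP n
    have hk : 0 < kap := by unfold kap; positivity
    by_cases hth : P.rr n < δ * s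
    · left
      unfold Par.X at hn
      constructor
      · nlinarith [mul_pos het hs]
      · nlinarith [mul_le_mul_of_nonneg_right (het'.trans he) hs.le]
    · right
      push Not at hth
      have h1 : P.rr n ≤ (K + 1) * s := by
        unfold Par.X at hn
        nlinarith [mul_pos het hs, mul_pos hk hs]
      have h2 : n0 ≤ n := Nat.find_min' hex h1
      have h3 : P.rr n0 ≤ (K + 1) * s := Nat.find_spec hex
      obtain ⟨k, rfl⟩ := Nat.exists_eq_add_of_le h2
      have h4 := BadPos.rr_pow P n0 k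
      have h5 : (k : ℝ) ≤ 4 ^ k := by
        have : k < 4 ^ k := Nat.lt_pow_self (by norm_num)
        exact_mod_cast this.le
      have h6 : k ≤ J := by
        apply Nat.le_floor
        rw [le_div_iff₀ hδ]
        have : (k : ℝ) * (δ * s) ≤ 4 ^ k * P.rr (n0 + k) := by gcongr
        have : (k : ℝ) * δ * s ≤ (K + 1) * s := by linarith
        exact le_of_mul_le_mul_right this hs
      simp only [mem_iUnion]
      exact ⟨n0 + k, Finset.mem_Icc.2 ⟨by omega, by omega⟩, ⟨by linarith, by linarith⟩⟩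

theorem badPos {ε K : ℝ} (hε : 0 < ε) (hK : 1 ≤ K) : ∃ δ0 > 0, δ0 ≤ 1 ∧ ∀ δ, 0 < δ → δ ≤ δ0 → ∀ {P : Par}, P.Ok →
    P.eta ≤ δ → ∀ (N : ℕ) {s : ℝ}, 0 < s → ∃ 𝒮 : Set ℝ, MeasurableSet 𝒮 ∧ volume 𝒮 ≤ ENNReal.ofReal (ε * s) ∧
      ∀ y : R3, nrm y ≤ K * s → BadP P N δ s y → y 0 ∈ 𝒮 ∨ y 1 ∈ 𝒮 := by
  classical
  refine ⟨min 1 (ε / (20 * K)), by positivity, min_le_left _ _, ?_⟩
  intro δ hδ hδ0 P hP he N s hs
  have hδ1 : δ ≤ 1 := hδ0.trans (min_le_left _ _)
  have hδ2 : δ ≤ ε / (20 * K) := hδ0.trans (min_le_right _ _)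
  rw [le_div_iff₀ (by positivity)] at hδ2
  obtain ⟨A, hA, hAv, hB, hN⟩ := BadPos.exists_set hK hδ hδ1 hP he hs
  refine ⟨A ∪ (fun x => -x) ⁻¹' A, hA.union (measurable_neg hA), ?_, ?_⟩
  · refine (measure_union_le _ _).trans ?_
    have : volume ((fun x : ℝ => -x) ⁻¹' A) = volume A :=
      (Measure.measurePreserving_neg volume).measure_preimage hA.nullMeasurableSet
    rw [this]
    refine (add_le_add hAv hAv).trans ?_
    rw [← ENNReal.ofReal_add (by positivity) (by positivity)]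
    apply ENNReal.ofReal_le_ofReal
    nlinarith
  · intro y hy hb
    by_contra hcon
    push Not at hcon
    obtain ⟨h0, h1⟩ := hcon
    have habs : ∀ x : ℝ, x ∉ A ∪ (fun x => -x) ⁻¹' A → |x| ∉ A := by
      intro x hx hxa
      rcases abs_cases x with h | h
      · exact hx (Or.inl (h.1 ▸ hxa))
      · exact hx (Or.inr (by rw [h.1] at hxa; exact hxa))
    have ha := habs _ h0
    have hb' := habs _ h1
    obtain ⟨hnd, hlo, hhi⟩ := hb
    set u := δ ^ 2 * s with hu
    have hu0 : 0 < u := by positivity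
    have hρA : nrm y ∉ A := by
      unfold nrm
      rcases max_cases |y 0| |y 1| with h | h <;> rw [h.1] <;> assumption
    have ha1 : |y 0| ≤ nrm y := le_max_left _ _
    have hb1 : |y 1| ≤ nrm y := le_max_right _ _
    have far : ∀ x, x ∉ A → x ≤ K * s → ∀ n, x < P.X n s - u ∨ P.X n s + u < x := by
      intro x hx hxK n
      by_contra h
      push Not at h
      exact hx (hN n x hxK (abs_le.2 ⟨by linarith [h.1], by linarith [h.2]⟩))
    have hρ1 : kap * s + 2 * δ * s < nrm y := by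
      by_contra h
      push Not at h
      apply hρA
      apply hB _ _ h
      have := et_pos hP (N + 1)
      have := rr_pos hP (N + 1)
      unfold Par.X at hlo
      nlinarith
    have hρ2 : P.X (N + 1) s ≤ nrm y := by
      rcases far _ hρA hy (N + 1) with h | h <;> linarith
    have hex : ∃ m, P.X m s ≤ nrm y := ⟨N + 1, hρ2⟩
    have hm1 : Nat.find hex ≤ N + 1 := Nat.find_min' hex hρ2
    have hm2 := Nat.find_spec hex
    have hm0 : Nat.find hex ≠ 0 := by
      intro h
      rw [h] at hm2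
      linarith
    obtain ⟨n, hn⟩ := Nat.exists_eq_succ_of_ne_zero hm0
    have hm3 : ¬ P.X n s ≤ nrm y := Nat.find_min hex (by omega)
    rw [hn] at hm1 hm2
    push Not at hm3
    have hnN : n ≤ N := by omega
    have hthick : δ * s ≤ P.rr n := by
      have := et_le hP n
      unfold Par.X at hm3
      nlinarith [mul_le_mul_of_nonneg_right (this.trans he) hs.le]
    have hρ3 : nrm y < P.X n s - u := by
      rcases far _ hρA hy n with h | h <;> linarith
    have hρ4 : P.X (n + 1) s + u < nrm y := by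
      rcases far _ hρA hy (n + 1) with h | h <;> linarith
    have hsg : ∀ x : ℝ, sg (decide (0 ≤ x)) * x = |x| := by
      intro x
      unfold sg
      by_cases hx : 0 ≤ x
      · simp [hx, abs_of_nonneg hx]
      · simp [hx, abs_of_neg (not_le.1 hx)]
    apply hnd
    rcases far _ ha (ha1.trans hy) (n + 1) with h | h
    · have hb2 : nrm y = |y 1| := by
        unfold nrm at hρ4 ⊢
        rcases max_cases |y 0| |y 1| with h' | h'
        · rw [h'.1] at hρ4; linarith
        · exact h'.1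
      refine ⟨(n, 1, decide (0 ≤ y 1)), hnN, hthick, ?_, ?_, ?_⟩
      · show P.X (n + 1) s + u ≤ sg (decide (0 ≤ y 1)) * y 1
        rw [hsg]; linarith
      · show sg (decide (0 ≤ y 1)) * y 1 ≤ P.X n s - u
        rw [hsg]; linarith
      · show |y 0| ≤ P.X (n + 1) s - u
        linarith
    · refine ⟨(n, 0, decide (0 ≤ y 0)), hnN, hthick, ?_, ?_, ?_⟩
      · show P.X (n + 1) s + u ≤ sg (decide (0 ≤ y 0)) * y 0
        rw [hsg]; linarith
      · show sg (decide (0 ≤ y 0)) * y 0 ≤ P.X n s - u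
        rw [hsg]; linarith
      · show |y 1| ≤ P.X n s - u
        linarith

/-- area of the bad positions -/
theorem badPos_area {ε K : ℝ} (hε : 0 < ε) (hK : 1 ≤ K) : ∃ δ0 > 0, δ0 ≤ 1 ∧ ∀ δ, 0 < δ → δ ≤ δ0 →
    ∀ {P : Par}, P.Ok → P.eta ≤ δ → ∀ (N : ℕ) {s : ℝ}, 0 < s →
    volume {y : ℝ × ℝ | ‖y‖ ≤ K * s ∧ BadP P N δ s (lift y)} ≤ ENNReal.ofReal (ε * s ^ 2) := by
  obtain ⟨δ0, h0, h1, H⟩ := badPos (ε := ε / (4 * K)) (by positivity) hK
  refine ⟨δ0, h0, h1, ?_⟩
  intro δ hδ hδ0 P hP he N s hs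
  obtain ⟨S, hS, hSv, hS2⟩ := H δ hδ hδ0 hP he N hs
  have hsub : {y : ℝ × ℝ | ‖y‖ ≤ K * s ∧ BadP P N δ s (lift y)} ⊆
      S ×ˢ Icc (-(K * s)) (K * s) ∪ Icc (-(K * s)) (K * s) ×ˢ S := by
    rintro y ⟨hy, hb⟩
    have hn : nrm (lift y) = ‖y‖ := by
      simp [nrm, lift, Prod.norm_def]
    have ha : |y.1| ≤ K * s := (le_max_left _ _ : ‖y.1‖ ≤ ‖y‖).trans hy
    have hb' : |y.2| ≤ K * s := (le_max_right _ _ : ‖y.2‖ ≤ ‖y‖).trans hy
    rcases hS2 (lift y) (hn ▸ hy) hb with h | h
    · exact Or.inl ⟨by simpa [lift] using h, abs_le.1 hb'⟩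
    · exact Or.inr ⟨abs_le.1 ha, by simpa [lift] using h⟩
  refine (measure_mono hsub).trans ((measure_union_le _ _).trans ?_)
  rw [Measure.volume_eq_prod, Measure.prod_prod, Measure.prod_prod, Real.volume_Icc]
  have hK0 : 0 < K := by linarith
  calc volume S * ENNReal.ofReal (K * s - -(K * s)) + ENNReal.ofReal (K * s - -(K * s)) * volume S
      ≤ ENNReal.ofReal (ε / (4 * K) * s) * ENNReal.ofReal (K * s - -(K * s)) +
        ENNReal.ofReal (K * s - -(K * s)) * ENNReal.ofReal (ε / (4 * K) * s) := by gcongr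
    _ = ENNReal.ofReal (ε * s ^ 2) := by
      have h2 : 0 ≤ K * s - -(K * s) := by nlinarith [mul_pos hK0 hs]
      rw [← ENNReal.ofReal_mul (by positivity), ← ENNReal.ofReal_mul h2,
        ← ENNReal.ofReal_add (by positivity) (by positivity)]
      congr 1
      field_simp
      ring

end Crest.Agent.R68
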