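import Crest.Agent.R68.Defs

/-! Algebra and measurability of `expNeg`, `Qp`, `nu`, `Ex`, `pint`, `S2`.  All routine
(`Measurable.lintegral_prod_right'`, `lintegral_add_left`, `lintegral_const_mul`, `lintegral_tsum`). -/

set_option autoImplicit false

open MeasureTheory Set Filter Topology Crest.AnalysisR.VecCalc3 Crest.AnalysisR.PDE.Boltzmann
open scoped ENNReal NNReal

namespace Crest.Agent.R68

theorem expNeg_top : expNeg ⊤ = 0 := if_pos rfl
theorem expNeg_of_ne {a : ℝ≥0∞} (h : a ≠ ⊤) : expNeg a = ENNReal.ofReal (Real.exp (-a.toReal)) := if_neg h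

theorem expNeg_le_one (a : ℝ≥0∞) : expNeg a ≤ 1 := by
  unfold expNeg
  split_ifs
  · exact zero_le_one
  · exact ENNReal.ofReal_le_one.2 (Real.exp_le_one_iff.2 (neg_nonpos.2 ENNReal.toReal_nonneg))
theorem expNeg_zero : expNeg 0 = 1 := by
  simp [expNeg]
theorem expNeg_add (a b : ℝ≥0∞) : expNeg (a + b) = expNeg a * expNeg b := by
  by_cases ha : a = ⊤
  · simp [ha, expNeg_top]
  by_cases hb : b = ⊤
  · simp [hb, expNeg_top]
  rw [expNeg_of_ne ha, expNeg_of_ne hb, expNeg_of_ne (ENNReal.add_ne_top.2 ⟨ha, hb⟩), ENNReal.toReal_add ha hb,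
    neg_add, Real.exp_add, ENNReal.ofReal_mul (Real.exp_pos _).le]
theorem expNeg_anti {a b : ℝ≥0∞} (h : a ≤ b) : expNeg b ≤ expNeg a := by
  obtain ⟨c, rfl⟩ := exists_add_of_le h
  rw [expNeg_add]
  exact mul_le_of_le_one_right' (expNeg_le_one c)
theorem one_le_expNeg_add (a : ℝ≥0∞) : 1 ≤ expNeg a + a := by
  by_cases ha : a = ⊤
  · simp [ha]
  rw [expNeg_of_ne ha]
  nth_rw 2 [← ENNReal.ofReal_toReal ha]
  rw [← ENNReal.ofReal_add (Real.exp_pos _).le ENNReal.toReal_nonneg, ENNReal.one_le_ofReal]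
  linarith [Real.add_one_le_exp (-a.toReal)]
theorem expNeg_ofReal {r : ℝ} (hr : 0 ≤ r) :
    expNeg (ENNReal.ofReal r) = ENNReal.ofReal (Real.exp (-r)) := by
  rw [expNeg_of_ne ENNReal.ofReal_ne_top, ENNReal.toReal_ofReal hr]
theorem expNeg_le_add (a b c : ℝ≥0∞) (h : b ≤ a + c) : expNeg a ≤ expNeg b + c := by
  calc expNeg a ≤ expNeg a * (expNeg c + c) := le_mul_of_one_le_right' (one_le_expNeg_add c)
    _ = expNeg (a + c) + expNeg a * c := by rw [mul_add, expNeg_add]
    _ ≤ expNeg b + c := add_le_add (expNeg_anti h) (mul_le_of_le_one_left' (expNeg_le_one a))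
theorem measurable_expNeg : Measurable expNeg := by
  exact Measurable.ite (measurableSet_singleton ⊤) measurable_const (by fun_prop)

instance : IsFiniteMeasure sphereMeasure := by
  unfold sphereMeasure; infer_instance
theorem ae_sphere : ∀ᵐ w ∂sphereMeasure, ‖w‖ = 1 := by
  unfold sphereMeasure
  rw [ae_map_iff measurable_subtype_coe.aemeasurable (measurableSet_eq_fun measurable_norm measurable_const)]
  exact Eventually.of_forall fun w => by simp

theorem meas_Qker {α : Type} [MeasurableSpace α] {f h : α → R3 → ℝ≥0∞} {v vs w : α → R3}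
    (hf : Measurable (Function.uncurry f)) (hh : Measurable (Function.uncurry h)) (hv : Measurable v)
    (hvs : Measurable vs) (hw : Measurable w) :
    Measurable fun a => ENNReal.ofReal |inner ℝ (v a - vs a) (w a)| * f a (postVel (v a) (vs a) (w a)) *
      h a (postVelStar (v a) (vs a) (w a)) := by
  have h0 : Measurable fun a => inner ℝ (v a - vs a) (w a) := (hv.sub hvs).inner hw
  exact (h0.abs.ennreal_ofReal.mul (hf.comp (measurable_id.prodMk (hv.sub (h0.smul hw))))).mul
    (hh.comp (measurable_id.prodMk (hvs.add (h0.smul hw))))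

theorem meas_Qk1 {f h : R3 → ℝ≥0∞} (hf : Measurable f) (hh : Measurable h) (v vs : R3) :
    Measurable fun w => ENNReal.ofReal |inner ℝ (v - vs) w| * f (postVel v vs w) * h (postVelStar v vs w) :=
  meas_Qker (f := fun _ => f) (h := fun _ => h) (hf.comp measurable_snd) (hh.comp measurable_snd)
    measurable_const measurable_const measurable_id

theorem meas_Qk2 {f h : R3 → ℝ≥0∞} (hf : Measurable f) (hh : Measurable h) (v : R3) :
    Measurable fun vs => ∫⁻ w, ENNReal.ofReal |inner ℝ (v - vs) w| * f (postVel v vs w) *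
      h (postVelStar v vs w) ∂sphereMeasure :=
  Measurable.lintegral_prod_right' (meas_Qker (α := R3 × R3) (f := fun _ => f) (h := fun _ => h)
    (hf.comp measurable_snd) (hh.comp measurable_snd) measurable_const measurable_fst measurable_snd)

theorem Qp_mono {f f' h h' : R3 → ℝ≥0∞} (hf : ∀ a, f a ≤ f' a) (hh : ∀ a, h a ≤ h' a) (v : R3) :
    Qp f h v ≤ Qp f' h' v := by
  exact lintegral_mono fun _ => lintegral_mono fun _ => mul_le_mul' (mul_le_mul' le_rfl (hf _)) (hh _)
theorem Qp_add_left {f f' h : R3 → ℝ≥0∞} (hf : Measurable f) (hf' : Measurable f')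
    (hh : Measurable h) (v : R3) : Qp (fun a => f a + f' a) h v = Qp f h v + Qp f' h v := by
  have _ := hf'
  unfold Qp
  rw [← lintegral_add_left (meas_Qk2 hf hh v)]
  refine lintegral_congr fun vs => ?_
  rw [← lintegral_add_left (meas_Qk1 hf hh v vs)]
  simp only [mul_add, add_mul]
theorem Qp_add_right {f h h' : R3 → ℝ≥0∞} (hf : Measurable f) (hh : Measurable h)
    (hh' : Measurable h') (v : R3) : Qp f (fun a => h a + h' a) v = Qp f h v + Qp f h' v := by
  have _ := hh'
  unfold Qp
  rw [← lintegral_add_left (meas_Qk2 hf hh v)]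
  refine lintegral_congr fun vs => ?_
  rw [← lintegral_add_left (meas_Qk1 hf hh v vs)]
  simp only [mul_add]
theorem Qp_cmul {f h : R3 → ℝ≥0∞} (hf : Measurable f) (hh : Measurable h) (c d : ℝ≥0∞) (v : R3) :
    Qp (fun a => c * f a) (fun a => d * h a) v = c * d * Qp f h v := by
  unfold Qp
  rw [← lintegral_const_mul _ (meas_Qk2 hf hh v)]
  refine lintegral_congr fun vs => ?_
  rw [← lintegral_const_mul _ (meas_Qk1 hf hh v vs)]
  refine lintegral_congr fun w => ?_
  ring
theorem Qp_tsum {ι κ : Type} [Countable ι] [Countable κ] {f : ι → R3 → ℝ≥0∞} {h : κ → R3 → ℝ≥0∞}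
    (hf : ∀ i, Measurable (f i)) (hh : ∀ j, Measurable (h j)) (v : R3) :
    Qp (fun a => ∑' i, f i a) (fun a => ∑' j, h j a) v = ∑' i, ∑' j, Qp (f i) (h j) v := by
  unfold Qp
  have e : ∀ vs, ∫⁻ w, ENNReal.ofReal |inner ℝ (v - vs) w| * (∑' i, f i (postVel v vs w)) *
      (∑' j, h j (postVelStar v vs w)) ∂sphereMeasure = ∑' i, ∑' j, ∫⁻ w, ENNReal.ofReal |inner ℝ (v - vs) w| *
        f i (postVel v vs w) * h j (postVelStar v vs w) ∂sphereMeasure := by
    intro vs
    simp only [← ENNReal.tsum_mul_left, ← ENNReal.tsum_mul_right]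
    rw [lintegral_tsum fun j => (Measurable.tsum fun i => meas_Qk1 (hf i) (hh j) v vs).aemeasurable,
      ENNReal.tsum_comm]
    exact tsum_congr fun j => lintegral_tsum fun i => (meas_Qk1 (hf i) (hh j) v vs).aemeasurable
  simp only [e]
  rw [lintegral_tsum fun i => (Measurable.tsum fun j => meas_Qk2 (hf i) (hh j) v).aemeasurable]
  exact tsum_congr fun i => lintegral_tsum fun j => (meas_Qk2 (hf i) (hh j) v).aemeasurable
theorem Qp_zero_left (h : R3 → ℝ≥0∞) (v : R3) : Qp (fun _ => 0) h v = 0 := by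
  simp [Qp]
theorem Qp_zero_right (h : R3 → ℝ≥0∞) (v : R3) : Qp h (fun _ => 0) v = 0 := by
  simp [Qp]

theorem nu_mono {f f' : R3 → ℝ≥0∞} (hf : ∀ a, f a ≤ f' a) (v : R3) : nu f v ≤ nu f' v := by
  exact lintegral_mono fun _ => mul_le_mul' le_rfl (hf _)
theorem nu_add {f f' : R3 → ℝ≥0∞} (hf : Measurable f) (v : R3) :
    nu (fun a => f a + f' a) v = nu f v + nu f' v := by
  unfold nu
  rw [← lintegral_add_left (by fun_prop)]
  simp only [mul_add]
theorem nu_cmul {f : R3 → ℝ≥0∞} (hf : Measurable f) (c : ℝ≥0∞) (v : R3) :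
    nu (fun a => c * f a) v = c * nu f v := by
  unfold nu
  rw [← lintegral_const_mul _ (by fun_prop)]
  simp only [mul_left_comm c]
theorem nu_le_pw (f : R3 → ℝ≥0∞) (v : R3) :
    nu f v ≤ 7 * ENNReal.ofReal (1 + ‖v‖) * ∫⁻ a, f a * pw 1 a := by
  unfold nu
  rw [← lintegral_const_mul' _ _ (ENNReal.mul_ne_top (by norm_num) ENNReal.ofReal_ne_top)]
  refine lintegral_mono fun a => ?_
  rw [mul_comm (f a), ← mul_assoc]
  refine mul_le_mul' ?_ le_rfl
  have h0 := norm_nonneg v
  have h1 := norm_nonneg a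
  rw [pw, pow_one, mul_assoc 7, ← ENNReal.ofReal_mul (by positivity), ← ENNReal.ofReal_ofNat 7,
    ← ENNReal.ofReal_mul (by norm_num)]
  refine ENNReal.ofReal_le_ofReal ?_
  have h2 := norm_sub_le v a
  have h3 := Real.pi_lt_d2
  have h4 := norm_nonneg (v - a)
  nlinarith [mul_nonneg h0 h1]

section meas
variable {α : Type} [MeasurableSpace α]
theorem meas_Qp {f h : α → R3 → ℝ≥0∞} {v : α → R3} (hf : Measurable (Function.uncurry f))
    (hh : Measurable (Function.uncurry h)) (hv : Measurable v) :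
    Measurable (fun a => Qp (f a) (h a) (v a)) := by
  exact Measurable.lintegral_prod_right' (ν := volume) (f := fun p : α × R3 => ∫⁻ w,
      ENNReal.ofReal |inner ℝ (v p.1 - p.2) w| * f p.1 (postVel (v p.1) p.2 w) *
        h p.1 (postVelStar (v p.1) p.2 w) ∂sphereMeasure)
    (Measurable.lintegral_prod_right' (meas_Qker (α := (α × R3) × R3) (f := fun p => f p.1.1)
      (h := fun p => h p.1.1) (hf.comp (measurable_fst.fst.fst.prodMk measurable_snd))
      (hh.comp (measurable_fst.fst.fst.prodMk measurable_snd)) (hv.comp measurable_fst.fst)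
      measurable_fst.snd measurable_snd))
theorem meas_nu {f : α → R3 → ℝ≥0∞} {v : α → R3} (hf : Measurable (Function.uncurry f))
    (hv : Measurable v) : Measurable (fun a => nu (f a) (v a)) := by
  exact Measurable.lintegral_prod_right' (ν := volume)
    (f := fun p : α × R3 => ENNReal.ofReal (2 * Real.pi * ‖v p.1 - p.2‖) * f p.1 p.2)
    (Measurable.mul (by fun_prop) hf)
theorem meas_S2 {f : α → R3 → ℝ≥0∞} {v : α → R3} (hf : Measurable (Function.uncurry f))
    (hv : Measurable v) : Measurable (fun a => S2 (f a) (v a)) := by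
  exact Measurable.lintegral_prod_right' (ν := volume) (f := fun p : α × R3 => f p.1 p.2 * invn (v p.1 - p.2))
    (Measurable.mul hf (by unfold invn; fun_prop))
theorem meas_pint {f : α → R3 → ℝ≥0∞} {n z : α → R3} (hf : Measurable (Function.uncurry f))
    (hn : Measurable n) (hz : Measurable z) : Measurable (fun a => pint (n a) (z a) (f a)) := by
  have h1 : Measurable fun p : α × R3 => ‖n p.1‖⁻¹ • n p.1 := by fun_prop
  have h2 : Measurable fun p : α × R3 => inner ℝ p.2 (‖n p.1‖⁻¹ • n p.1) := measurable_snd.inner h1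
  exact Measurable.lintegral_prod_right' (ν := volume) (f := fun p : α × R3 =>
    (Icc (0 : ℝ) 1).indicator (fun _ => (1 : ℝ≥0∞)) (inner ℝ p.2 (‖n p.1‖⁻¹ • n p.1)) *
      f p.1 (z p.1 + (p.2 - (inner ℝ p.2 (‖n p.1‖⁻¹ • n p.1)) • (‖n p.1‖⁻¹ • n p.1))))
    (((measurable_const.indicator measurableSet_Icc).comp h2).mul
      (hf.comp (measurable_fst.prodMk ((hz.comp measurable_fst).add (measurable_snd.sub (h2.smul h1))))))
theorem meas_timeInt' {g : α → ℝ → ℝ≥0∞} (hg : Measurable (Function.uncurry g)) {s t : α → ℝ}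
    (hs : Measurable s) (ht : Measurable t) : Measurable (fun a => ∫⁻ σ in Ioo (s a) (t a), g a σ) := by
  have h1 : MeasurableSet {p : α × ℝ | s p.1 < p.2 ∧ p.2 < t p.1} :=
    (measurableSet_lt (hs.comp measurable_fst) measurable_snd).inter
      (measurableSet_lt measurable_snd (ht.comp measurable_fst))
  have := Measurable.lintegral_prod_right' (ν := volume) (hg.indicator h1)
  convert this using 2 with a
  rw [← lintegral_indicator measurableSet_Ioo]
  rfl

theorem meas_Ex {F : Den} (hF : MeasD F) {s t : α → ℝ} {x v : α → R3} (hs : Measurable s)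
    (ht : Measurable t) (hx : Measurable x) (hv : Measurable v) :
    Measurable (fun a => Ex F (s a) (t a) (x a) (v a)) := by
  refine measurable_expNeg.comp (meas_timeInt' (g := fun a σ => nu (F σ (x a - (t a - σ) • v a)) (v a)) ?_ hs ht)
  refine meas_nu (α := α × ℝ) (f := fun p => F p.2 (x p.1 - (t p.1 - p.2) • v p.1)) ?_ (hv.comp measurable_fst)
  exact Measurable.comp (g := fun p : ℝ × R3 × R3 => F p.1 p.2.1 p.2.2)
    (f := fun p : (α × ℝ) × R3 => (p.1.2, x p.1.1 - (t p.1.1 - p.1.2) • v p.1.1, p.2)) hF (by fun_prop)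
theorem MeasD.comp {F : Den} (hF : MeasD F) {t : α → ℝ} {x v : α → R3} (ht : Measurable t)
    (hx : Measurable x) (hv : Measurable v) : Measurable (fun a => F (t a) (x a) (v a)) := by
  exact Measurable.comp (g := fun p : ℝ × R3 × R3 => F p.1 p.2.1 p.2.2) hF (ht.prodMk (hx.prodMk hv))
theorem Meas2.comp {F : R3 → R3 → ℝ≥0∞} (hF : Meas2 F) {x v : α → R3}
    (hx : Measurable x) (hv : Measurable v) : Measurable (fun a => F (x a) (v a)) := by
  exact Measurable.comp (g := fun p : R3 × R3 => F p.1 p.2) hF (hx.prodMk hv)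
/-- a time integral with variable end points of a jointly measurable function is measurable -/
theorem meas_timeInt {g : α → ℝ → ℝ≥0∞} (hg : Measurable (Function.uncurry g)) {s t : α → ℝ}
    (hs : Measurable s) (ht : Measurable t) : Measurable (fun a => ∫⁻ σ in Ioo (s a) (t a), g a σ) := by
  exact meas_timeInt' hg hs ht
end meas
theorem measurable_W (lam : ℝ) : Measurable (W lam) := by
  unfold W; fun_prop
theorem measurable_invn : Measurable invn := by
  unfold invn; fun_prop
theorem measurable_MM : Measurable MM := by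
  unfold MM maxwellian; fun_prop
theorem measurable_pw (k : ℕ) : Measurable (pw k) := by
  unfold pw; fun_prop
theorem MM_le_W : ∀ v, MM v ≤ W 1 v := by
  intro v
  refine ENNReal.ofReal_le_ofReal ?_
  have h1 : (2 * Real.pi) ^ (-(3 / 2 : ℝ)) ≤ Real.exp (-(1 / 2)) := by
    have h2 : Real.exp 1 ≤ 2 * Real.pi := by linarith [Real.exp_one_lt_d9, Real.pi_gt_three]
    calc (2 * Real.pi) ^ (-(3 / 2 : ℝ)) ≤ (Real.exp 1) ^ (-(3 / 2 : ℝ)) :=
          Real.rpow_le_rpow_of_nonpos (Real.exp_pos _) h2 (by norm_num)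
      _ = Real.exp (-(3 / 2)) := by rw [← Real.exp_mul, one_mul]
      _ ≤ _ := Real.exp_le_exp.2 (by norm_num)
  unfold maxwellian
  refine (mul_le_mul_of_nonneg_right h1 (Real.exp_pos _).le).trans ?_
  rw [← Real.exp_add, Real.exp_le_exp]
  nlinarith [sq_nonneg (‖v‖ - 1)]

end Crest.Agent.R68
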