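import Crest.Agent.R68.Basic1

/-! The sphere integral of `|⟪g,w⟫|`, the link with the Prelude operators, and the semigroup
property of the exponential mild form.
* `sphere_abs_inner`: `Measure.toSphere` is rotation invariant, or directly: compute
  `∫_{‖z‖<1} |⟪g,z⟫| dz = π‖g‖/2` and use polar coordinates (`Measure.measurePreserving_homeomorphUnitSphereProd`,
  `lintegral` version): `∫_{B} |⟪g,z⟫| = (∫_0^1 r^3 dr) ∫_S |⟪g,w⟫|`.  `polar` below is the general form.
* `Mild.restart`: split the time integral at `t0` and use `Ex_mul`. -/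

set_option autoImplicit false

open MeasureTheory Set Filter Topology Crest.AnalysisR.VecCalc3 Crest.AnalysisR.PDE.Boltzmann
open scoped ENNReal NNReal

namespace Crest.Agent.R68

/-- polar coordinates -/
theorem polar {f : R3 → ℝ≥0∞} (hf : Measurable f) :
    ∫⁻ z, f z = ∫⁻ w, (∫⁻ r in Ioi (0 : ℝ), ENNReal.ofReal (r ^ 2) * f (r • w)) ∂sphereMeasure := by
  have h1 := (volume : Measure R3).measurePreserving_homeomorphUnitSphereProd
  have hm : Measurable fun p : Metric.sphere (0 : R3) 1 × Ioi (0 : ℝ) => f (p.2.1 • p.1.1) :=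
    hf.comp (by fun_prop)
  have h2 := h1.lintegral_comp hm
  have e : ∀ z : ({0}ᶜ : Set R3), ((homeomorphUnitSphereProd R3 z).2.1 • (homeomorphUnitSphereProd R3 z).1.1 : R3)
      = z.1 := fun z => by
    rw [← homeomorphUnitSphereProd_symm_apply_coe, Homeomorph.symm_apply_apply]
  simp only [e] at h2
  rw [lintegral_subtype_comap (measurableSet_singleton _).compl, restrict_compl_singleton,
    lintegral_prod _ hm.aemeasurable] at h2
  rw [h2, sphereMeasure, (MeasurableEmbedding.subtype_coe Metric.isClosed_sphere.measurableSet).lintegral_map]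
  refine lintegral_congr fun w => ?_
  rw [Measure.volumeIoiPow, lintegral_withDensity_eq_lintegral_mul _ (by fun_prop) (by fun_prop),
    ← lintegral_subtype_comap measurableSet_Ioi]
  simp
namespace Basic2A

theorem lint_of_int {α : Type} [MeasurableSpace α] {μ : Measure α} {f : α → ℝ} {c : ℝ} (hc : c ≠ 0)
    (h0 : 0 ≤ᵐ[μ] f) (h : ∫ x, f x ∂μ = c) : ∫⁻ x, ENNReal.ofReal (f x) ∂μ = ENNReal.ofReal c := by
  rw [← h, ofReal_integral_eq_lintegral_ofReal (Integrable.of_integral_ne_zero (h ▸ hc)) h0]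

theorem int_pow_gauss (k : ℕ) : ∫ r in Ioi (0 : ℝ), r ^ (2 * k + 1) * Real.exp (-r ^ 2) =
    (1 / 2) * k.factorial := by
  have := integral_rpow_mul_exp_neg_rpow (p := 2) (q := (2 * k + 1 : ℕ)) (by norm_num)
    (by have : (0 : ℝ) ≤ (2 * k + 1 : ℕ) := Nat.cast_nonneg _; linarith)
  simp only [Real.rpow_natCast, Real.rpow_two] at this
  rw [this, ← Real.Gamma_nat_eq_factorial]
  congr 2
  push_cast
  ring

/-- homogeneous extension with a Gaussian weight -/
theorem cone {f : R3 → ℝ≥0∞} (hf : Measurable f) :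
    ∫⁻ z : R3, ENNReal.ofReal (‖z‖ * Real.exp (-‖z‖ ^ 2)) * f (‖z‖⁻¹ • z) =
      ENNReal.ofReal (1 / 2) * ∫⁻ w, f w ∂sphereMeasure := by
  rw [polar (by fun_prop), ← lintegral_const_mul _ hf]
  refine lintegral_congr_ae (ae_sphere.mono fun w hw => ?_)
  have h1 := lint_of_int (f := fun r : ℝ => r ^ (2 * 1 + 1) * Real.exp (-r ^ 2)) (by norm_num)
    ((ae_restrict_mem measurableSet_Ioi).mono fun r (hr : 0 < r) => by
      simp only [Pi.zero_apply]; positivity) (int_pow_gauss 1)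
  simp only [Nat.factorial_one, Nat.cast_one, mul_one] at h1
  simp only
  rw [← h1, ← lintegral_mul_const _ (by fun_prop)]
  refine setLIntegral_congr_fun measurableSet_Ioi fun r (hr : 0 < r) => ?_
  simp only [norm_smul, hw, mul_one, Real.norm_eq_abs, abs_of_pos hr, smul_smul, inv_mul_cancel₀ hr.ne',
    one_smul]
  rw [← mul_assoc, ← ENNReal.ofReal_mul (by positivity)]
  congr 2
  ring

theorem sphere_iso (e : R3 ≃ₗᵢ[ℝ] R3) {f : R3 → ℝ≥0∞} (hf : Measurable f) :
    ∫⁻ w, f (e w) ∂sphereMeasure = ∫⁻ w, f w ∂sphereMeasure := by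
  have h1 := cone (f := fun w => f (e w)) (hf.comp e.continuous.measurable)
  have h2 := e.measurePreserving.lintegral_comp
    (f := fun z : R3 => ENNReal.ofReal (‖z‖ * Real.exp (-‖z‖ ^ 2)) * f (‖z‖⁻¹ • z)) (by fun_prop)
  simp only [e.norm_map, cone hf] at h2
  simp only [map_smul, h2] at h1
  exact ((ENNReal.mul_right_inj (by simp) ENNReal.ofReal_ne_top).1 h1).symm

theorem sphere_abs : ∫⁻ w : R3, ENNReal.ofReal |w 0| ∂sphereMeasure = ENNReal.ofReal (2 * Real.pi) := by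
  have h1 := cone (f := fun w : R3 => ENNReal.ofReal |w 0|) (by fun_prop)
  have h2 : ∫ z : R3, |z 0| * Real.exp (-‖z‖ ^ 2) = Real.pi := by
    rw [← (PiLp.volume_preserving_toLp (Fin 3)).integral_comp
      (MeasurableEquiv.toLp 2 _).measurableEmbedding]
    have := integral_fintype_prod_volume_eq_prod (f := fun (i : Fin 3) (x : ℝ) =>
      (![fun x => |x| * Real.exp (-x ^ 2), fun x => Real.exp (-x ^ 2), fun x => Real.exp (-x ^ 2)] :
        Fin 3 → ℝ → ℝ) i x)
    simp only [Fin.prod_univ_three, Matrix.cons_val_zero, Matrix.cons_val_one, Matrix.cons_val] at this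
    have h3 : ∫ x : ℝ, |x| * Real.exp (-x ^ 2) = 1 := by
      have := integral_comp_abs (f := fun x : ℝ => x ^ (2 * 0 + 1) * Real.exp (-x ^ 2))
      rw [int_pow_gauss] at this
      simpa using this
    have h4 : ∫ x : ℝ, Real.exp (-x ^ 2) = Real.sqrt Real.pi := by simpa using integral_gaussian 1
    rw [h3, h4, one_mul, Real.mul_self_sqrt Real.pi_pos.le] at this
    rw [← this]
    refine integral_congr_ae (Eventually.of_forall fun x => ?_)
    simp only [EuclideanSpace.real_norm_sq_eq, Fin.sum_univ_three, neg_add, Real.exp_add, mul_assoc]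
  have h3 := lint_of_int Real.pi_pos.ne' (Eventually.of_forall fun z => by
    simp only [Pi.zero_apply]; positivity) h2
  have h4 : ∀ z : R3, ENNReal.ofReal (‖z‖ * Real.exp (-‖z‖ ^ 2)) * ENNReal.ofReal |(‖z‖⁻¹ • z) 0| =
      ENNReal.ofReal (|z 0| * Real.exp (-‖z‖ ^ 2)) := fun z => by
    rw [← ENNReal.ofReal_mul (by positivity)]
    congr 1
    by_cases hz : z = 0
    · simp [hz]
    · have := norm_ne_zero_iff.2 hz
      simp only [PiLp.smul_apply, smul_eq_mul, abs_mul, abs_inv, abs_norm]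
      field_simp
  simp only [h4, h3] at h1
  refine (ENNReal.mul_right_inj (a := ENNReal.ofReal (1 / 2)) (by simp) ENNReal.ofReal_ne_top).1 ?_
  rw [← h1, ← ENNReal.ofReal_mul (by norm_num)]
  congr 1
  ring

theorem split (g : ℝ → ℝ≥0∞) {s u t : ℝ} (hsu : s ≤ u) (hut : u ≤ t) :
    ∫⁻ σ in Ioo s t, g σ = (∫⁻ σ in Ioo s u, g σ) + ∫⁻ σ in Ioo u t, g σ := by
  simp only [setLIntegral_congr Ioo_ae_eq_Ioc]
  rw [← lintegral_union measurableSet_Ioc (Ioc_disjoint_Ioc_of_le le_rfl), Ioc_union_Ioc_eq_Ioc hsu hut]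

theorem L1 (μ : Measure ℝ) (hμ : ∀ x, μ {x} = 0) (S : Set ℝ) (u : ℝ≥0∞) (h : ∀ σ ∈ S, μ (Ioi σ) ≤ u) :
    μ S ≤ u := by
  have h1 : S ⊆ {σ | IsLeast S σ} ∪ ⋃ q : {q : ℚ // ∃ σ ∈ S, σ ≤ q}, Ioi (q.1 : ℝ) := by
    intro σ hσ
    by_cases h2 : ∀ τ ∈ S, σ ≤ τ
    · exact Or.inl ⟨hσ, h2⟩
    · push Not at h2
      obtain ⟨τ, h3, h4⟩ := h2
      obtain ⟨q, h5, h6⟩ := exists_rat_btwn h4
      exact Or.inr (mem_iUnion.2 ⟨⟨q, τ, h3, h5.le⟩, h6⟩)
  have h2 : μ {σ | IsLeast S σ} = 0 := by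
    rcases (show {σ | IsLeast S σ}.Subsingleton from fun _ ha _ hb => ha.unique hb).eq_empty_or_singleton with
      h | ⟨x, h⟩ <;> rw [h]
    exacts [measure_empty, hμ x]
  refine (measure_mono h1).trans ((measure_union_le _ _).trans ?_)
  rw [h2, zero_add, Directed.measure_iUnion]
  · refine iSup_le fun q => ?_
    obtain ⟨σ, h3, h4⟩ := q.2
    exact (measure_mono (Ioi_subset_Ioi h4)).trans (h σ h3)
  · intro p q
    rcases le_total (p.1 : ℝ) q.1 with h3 | h3
    exacts [⟨p, Subset.rfl, Ioi_subset_Ioi h3⟩, ⟨q, Ioi_subset_Ioi h3, Subset.rfl⟩]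

theorem L2 (μ : Measure ℝ) (hμ : ∀ x, μ {x} = 0) (S : Set ℝ) (u : ℝ≥0∞) (h : ∀ σ ∈ S, μ (Iio σ) ≤ u) :
    μ S ≤ u := by
  have e := (MeasurableEquiv.neg ℝ).measurableEmbedding.map_apply μ
  have := L1 (μ.map (MeasurableEquiv.neg ℝ)) (fun x => by rw [e]; simpa using hμ (-x)) (-S) u
    fun σ hσ => by rw [e]; simpa using h (-σ) hσ
  rw [e] at this
  simpa using this

theorem push (μ : Measure ℝ) [IsFiniteMeasure μ] (hμ : ∀ x, μ {x} = 0) :
    μ.map (fun σ => (μ (Ioi σ)).toReal) = volume.restrict (Ioc 0 (μ univ).toReal) := by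
  have hm : Measurable fun σ => (μ (Ioi σ)).toReal :=
    (Antitone.measurable fun _ _ h => measure_mono (Ioi_subset_Ioi h)).ennreal_toReal
  refine Measure.ext_of_Iic _ _ fun u => ?_
  rw [Measure.map_apply hm measurableSet_Iic, Measure.restrict_apply measurableSet_Iic, inter_comm,
    Ioc_inter_Iic, Real.volume_Ioc, sub_zero, ENNReal.ofReal_min, ENNReal.ofReal_toReal (measure_ne_top _ _)]
  refine le_antisymm (le_min (measure_mono (subset_univ _)) (L1 μ hμ _ _ fun σ hσ => ?_)) ?_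
  · rw [← ENNReal.ofReal_toReal (measure_ne_top μ (Ioi σ))]
    exact ENNReal.ofReal_le_ofReal hσ
  · rcases lt_or_ge u 0 with hu | hu
    · rw [ENNReal.ofReal_of_nonpos hu.le]
      simp
    have h1 := L2 μ hμ ((fun σ => (μ (Ioi σ)).toReal) ⁻¹' Iic u)ᶜ (μ univ - ENNReal.ofReal u) fun σ hσ => by
      have h2 : ENNReal.ofReal u ≤ μ (Ioi σ) := ENNReal.ofReal_le_of_le_toReal (not_le.1 (show ¬ (μ (Ioi σ)).toReal ≤ u from hσ)).le
      refine ENNReal.le_sub_of_add_le_right ENNReal.ofReal_ne_top ((add_le_add le_rfl h2).trans ?_)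
      rw [← measure_union (Iio_disjoint_Ioi_same) measurableSet_Ioi]
      exact measure_mono (subset_univ _)
    have h3 := measure_add_measure_compl (μ := μ) (hm (measurableSet_Iic (a := u)))
    have h4 : min (μ univ) (ENNReal.ofReal u) + (μ univ - ENNReal.ofReal u) = μ univ := by
      rw [add_comm, tsub_add_min]
    refine ENNReal.le_of_add_le_add_right (a := μ univ - ENNReal.ofReal u)
      (ENNReal.sub_ne_top (measure_ne_top _ _)) ?_
    rw [h4]
    exact h3.ge.trans (add_le_add le_rfl h1)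

theorem fin_case (μ : Measure ℝ) [IsFiniteMeasure μ] (hμ : ∀ x, μ {x} = 0) :
    expNeg (μ univ) + ∫⁻ σ, expNeg (μ (Ioi σ)) ∂μ = 1 := by
  have hm : Measurable fun σ => (μ (Ioi σ)).toReal :=
    (Antitone.measurable fun _ _ h => measure_mono (Ioi_subset_Ioi h)).ennreal_toReal
  simp only [expNeg_of_ne (measure_ne_top μ _)]
  rw [← lintegral_map (f := fun u => ENNReal.ofReal (Real.exp (-u))) (by fun_prop) hm, push μ hμ,
    ← ofReal_integral_eq_lintegral_ofReal (by fun_prop : Continuous fun u : ℝ => Real.exp (-u)).integrableOn_Ioc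
      (Eventually.of_forall fun _ => (Real.exp_pos _).le),
    ← intervalIntegral.integral_of_le ENNReal.toReal_nonneg, intervalIntegral.integral_comp_neg, integral_exp,
    ← ENNReal.ofReal_add (Real.exp_pos _).le]
  · simp
  · simp

theorem wd_Ioi (g : ℝ → ℝ≥0∞) {s t σ : ℝ} (h : σ ∈ Ioo s t) :
    ((volume.restrict (Ioo s t)).withDensity g) (Ioi σ) = ∫⁻ σ' in Ioo σ t, g σ' := by
  rw [withDensity_apply _ measurableSet_Ioi, Measure.restrict_restrict measurableSet_Ioi, inter_comm,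
    Ioo_inter_Ioi, max_eq_right h.1.le]

theorem main {a : ℝ → ℝ≥0∞} (ha : Measurable a) {s t : ℝ} (hfin : ∫⁻ σ in Ioo s t, a σ ≠ ⊤) :
    expNeg (∫⁻ σ in Ioo s t, a σ) + ∫⁻ σ in Ioo s t, a σ * expNeg (∫⁻ σ' in Ioo σ t, a σ') = 1 := by
  have := isFiniteMeasure_withDensity hfin
  have h := fin_case ((volume.restrict (Ioo s t)).withDensity a) fun x =>
    withDensity_absolutelyContinuous _ _ (measure_singleton x)
  rw [withDensity_apply _ MeasurableSet.univ, Measure.restrict_univ,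
    lintegral_withDensity_eq_lintegral_mul _ ha (g := fun σ => expNeg _) (measurable_expNeg.comp
      (Antitone.measurable fun _ _ h => measure_mono (Ioi_subset_Ioi h)))] at h
  rw [← h]
  congr 1
  refine setLIntegral_congr_fun measurableSet_Ioo fun σ hσ => ?_
  simp only [Pi.mul_apply, wd_Ioi a hσ]

end Basic2A

open Basic2A

theorem sphere_neg {f : R3 → ℝ≥0∞} (hf : Measurable f) :
    ∫⁻ w, f (-w) ∂sphereMeasure = ∫⁻ w, f w ∂sphereMeasure := by
  exact sphere_iso (LinearIsometryEquiv.neg ℝ) hf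
theorem sphere_abs_inner (g : R3) :
    ∫⁻ w, ENNReal.ofReal |inner ℝ g w| ∂sphereMeasure = ENNReal.ofReal (2 * Real.pi * ‖g‖) := by
  have h1 := Submodule.reflection_sub (v := EuclideanSpace.single (0 : Fin 3) ‖g‖) (w := g) (by simp)
  set e := (ℝ ∙ (EuclideanSpace.single (0 : Fin 3) ‖g‖ - g))ᗮ.reflection
  rw [← sphere_iso e (f := fun w => ENNReal.ofReal |inner ℝ g w|)
    (measurable_const.inner measurable_id).abs.ennreal_ofReal]
  have h2 : ∀ w : R3, ENNReal.ofReal |inner ℝ g (e w)| = ENNReal.ofReal |w 0| * ENNReal.ofReal ‖g‖ := fun w => by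
    rw [← ENNReal.ofReal_mul (abs_nonneg _)]
    nth_rw 1 [← h1]
    rw [e.inner_map_map, EuclideanSpace.inner_single_left, abs_mul, mul_comm]
    simp
  simp only [h2]
  rw [lintegral_mul_const _ (by fun_prop), sphere_abs, ← ENNReal.ofReal_mul (by positivity)]
theorem collGain_eq (F : ℝ → R3 → R3 → ℝ) (t : ℝ) (x v : R3) (h : ∀ u, 0 ≤ F t x u) :
    collGain F t x v = Qp (ofR F t x) (ofR F t x) v := by
  refine lintegral_congr fun vs => lintegral_congr fun w => ?_
  rw [ENNReal.ofReal_mul (mul_nonneg (abs_nonneg _) (h _)), ENNReal.ofReal_mul (abs_nonneg _)]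
  rfl
theorem collLoss_eq (F : ℝ → R3 → R3 → ℝ) (t : ℝ) (x v : R3) (h : ∀ u, 0 ≤ F t x u)
    (hm : Measurable (F t x)) : collLoss F t x v = ofR F t x v * nu (ofR F t x) v := by
  have _ := hm
  unfold collLoss nu ofR
  rw [← lintegral_const_mul' _ _ ENNReal.ofReal_ne_top]
  refine lintegral_congr fun vs => ?_
  simp only [ENNReal.ofReal_mul (mul_nonneg (abs_nonneg _) (h _)), ENNReal.ofReal_mul (abs_nonneg _)]
  rw [lintegral_mul_const' _ _ ENNReal.ofReal_ne_top, lintegral_mul_const' _ _ ENNReal.ofReal_ne_top,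
    sphere_abs_inner]
  ring
theorem Ex_le_one (F : Den) (s t : ℝ) (x v : R3) : Ex F s t x v ≤ 1 := by
  exact expNeg_le_one _
theorem Ex_self (F : Den) (t : ℝ) (x v : R3) : Ex F t t x v = 1 := by
  simp [Ex, expNeg_zero]
theorem Ex_mul {F : Den} {s u t : ℝ} (hsu : s ≤ u) (hut : u ≤ t) (x v : R3) :
    Ex F s t x v = Ex F s u (x - (t - u) • v) v * Ex F u t x v := by
  unfold Ex
  rw [split _ hsu hut, expNeg_add]
  simp only [sub_sub, ← add_smul, sub_add_sub_cancel]
theorem Mild.restart {F0 : R3 → R3 → ℝ≥0∞} {T : ℝ} {F : Den} (h : Mild F0 T F) {t0 t : ℝ}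
    (h0 : 0 ≤ t0) (h1 : t0 ≤ t) (h2 : t ≤ T) (x v : R3) :
    F t x v = F t0 (x - (t - t0) • v) v * Ex F t0 t x v +
      ∫⁻ s in Ioo t0 t, Ex F s t x v * Qp (F s (x - (t - s) • v)) (F s (x - (t - s) • v)) v := by
  rw [h.2 t ⟨h0.trans h1, h2⟩, h.2 t0 ⟨h0, h1.trans h2⟩, split _ h0 h1, add_mul, Ex_mul h0 h1, ← add_assoc,
    ← lintegral_mul_const' _ _ (ne_top_of_le_ne_top ENNReal.one_ne_top (Ex_le_one F t0 t x v))]
  simp only [sub_sub, ← add_smul, sub_add_sub_cancel, sub_add_cancel, mul_assoc]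
  congr 2
  refine setLIntegral_congr_fun measurableSet_Ioo fun s hs => ?_
  rw [Ex_mul hs.2.le h1]
  ring
theorem Mild.init {F0 : R3 → R3 → ℝ≥0∞} {T : ℝ} {F : Den} (h : Mild F0 T F) (hT : 0 ≤ T)
    (x v : R3) : F 0 x v = F0 x v := by
  rw [h.2 0 ⟨le_rfl, hT⟩, Ex_self]
  simp
theorem Mild.mono {F0 : R3 → R3 → ℝ≥0∞} {T T' : ℝ} {F : Den} (h : Mild F0 T F) (hT : T' ≤ T) :
    Mild F0 T' F := by
  exact ⟨h.1, fun t ht => h.2 t ⟨ht.1, ht.2.trans hT⟩⟩
theorem Sol.mono {F0 : R3 → R3 → ℝ≥0∞} {T T' : ℝ} {F : Den} (h : Sol F0 T F) (hT : T' ≤ T) :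
    Sol F0 T' F := by
  obtain ⟨K, hK⟩ := h.bdd
  exact ⟨h.mild.mono hT, K, fun t ht => hK t ⟨ht.1, ht.2.trans hT⟩⟩
/-- `∫_s^t a(σ) exp(-∫_σ^t a) dσ ≤ 1`.  (For finite total integral `A(σ) = ∫_σ^t a` is continuous;
cut `(s,t)` into the sets `{j/n ≤ A < (j+1)/n}`, which are intervals on which `∫ a ≤ 1/n`;
truncate `a` and use monotone convergence, or note that the factor vanishes where `A = ⊤`.) -/
theorem lintegral_mul_expNeg_le {a : ℝ → ℝ≥0∞} (ha : Measurable a) (s t : ℝ) :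
    ∫⁻ σ in Ioo s t, a σ * expNeg (∫⁻ σ' in Ioo σ t, a σ') ≤ 1 := by
  have h := L1 ((volume.restrict (Ioo s t)).withDensity fun σ => a σ * expNeg (∫⁻ σ' in Ioo σ t, a σ'))
    (fun x => withDensity_absolutelyContinuous _ _ (measure_singleton x))
    (Ioo s t ∩ {σ | ∫⁻ σ' in Ioo σ t, a σ' ≠ ⊤}) 1 fun σ hσ => by
      rw [wd_Ioi _ hσ.1]
      exact le_add_self.trans (main ha hσ.2).le
  have hm : MeasurableSet {σ | ∫⁻ σ' in Ioo σ t, a σ' ≠ ⊤} :=
    ((meas_timeInt (g := fun _ σ => a σ) (ha.comp measurable_snd) measurable_id measurable_const)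
      (measurableSet_singleton ⊤)).compl
  rw [withDensity_apply _ (measurableSet_Ioo.inter hm), ← lintegral_indicator (measurableSet_Ioo.inter hm)] at h
  refine le_trans (le_of_eq (setLIntegral_congr_fun measurableSet_Ioo fun σ hσ => ?_)) h
  by_cases h1 : ∫⁻ σ' in Ioo σ t, a σ' = ⊤
  · simp [h1, expNeg_top]
  · rw [indicator_of_mem (mem_inter hσ h1)]
/-- `exp(-∫_s^t a) + ∫_s^t a(σ) exp(-∫_σ^t a) dσ = 1` when the integral is finite -/
theorem expNeg_add_lintegral {a : ℝ → ℝ≥0∞} (ha : Measurable a) {s t : ℝ}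
    (hfin : ∫⁻ σ in Ioo s t, a σ ≠ ⊤) :
    expNeg (∫⁻ σ in Ioo s t, a σ) + ∫⁻ σ in Ioo s t, a σ * expNeg (∫⁻ σ' in Ioo σ t, a σ') = 1 := by
  exact main ha hfin

end Crest.Agent.R68
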