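import Crest.Agent.R68.Symm

/-! Gaussian beams carried by affine expanding flows.  Substitute
`a i = (p i + b i * y i + μ i * ζ i)/(1 + b i * s)` (a diagonal affine change of variables,
`beam_lintegral`).  With `y = x - τ v`: `v i - a i = λ i * v i - c i` with
`λ i = (1 + b i (s+τ))/(1 + b i s) ≥ 1` and `c` independent of `v`; so `‖v - a‖ ≥ ‖v - c'‖`, `c' i = c i/λ i`.
`beam_tilt3`: `Qp_le_liminf` (beams are continuous in `a` when `ρ ≠ ⊤`), Fatou for `pint`, Tonelli, and `ellipse`: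
`⟪v-a, v-b⟫ = Σ λ_i λ'_i (v_i - m_i)² - κ`.
`ellipse`: restricted to the plane (`pint_param`) the form is `q(p - p₀) + const` with `q(p) ≥ ‖p‖²`; in polar coordinates about `p₀`,
on each ray `{r : |q(θ) r² - κ'| ≤ ε}` has `∫ r dr ≤ ε/q(θ) ≤ ε`; so the area is at most `2π ε`. -/

set_option autoImplicit false

open MeasureTheory Set Filter Topology Crest.AnalysisR.VecCalc3 Crest.AnalysisR.PDE.Boltzmann
open scoped ENNReal NNReal

namespace Crest.Agent.R68

namespace BeamX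

theorem cont_aff (c d : Fin 3 → ℝ) :
    Continuous fun ζ : R3 => (WithLp.toLp 2 (fun i => c i + d i * ζ i) : R3) :=
  (PiLp.continuous_toLp 2 _).comp (continuous_pi fun j => by fun_prop)

theorem lintegral_diag (c d : Fin 3 → ℝ) (hd : ∀ i, 0 < d i) {G : R3 → ℝ≥0∞} (hG : Measurable G) :
    ∫⁻ a, G a = ENNReal.ofReal (∏ i, d i) * ∫⁻ ζ : R3, G (WithLp.toLp 2 (fun i => c i + d i * ζ i)) := by
  have hp : 0 < ∏ i, d i := Finset.prod_pos fun i _ => hd i
  have hm := PiLp.volume_preserving_toLp (Fin 3)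
  have h1 : ∫⁻ a, G a = ∫⁻ x : Fin 3 → ℝ, G (WithLp.toLp 2 (c + x)) := by
    rw [← hm.lintegral_comp hG, ← lintegral_add_left_eq_self _ c]
  have h2 := Real.smul_map_diagonal_volume_pi (D := d) (by rw [Matrix.det_diagonal]; exact hp.ne')
  have h3 : Measurable fun x : Fin 3 → ℝ => G (WithLp.toLp 2 (c + x)) :=
    hG.comp (hm.measurable.comp (measurable_const_add c))
  have h4 : Measurable fun ζ : R3 => G (WithLp.toLp 2 (fun i => c i + d i * ζ i)) :=
    hG.comp (cont_aff c d).measurable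
  rw [h1, ← hm.lintegral_comp h4]
  conv_lhs => rw [← h2]
  rw [lintegral_smul_measure, lintegral_map h3 (LinearMap.continuous_on_pi _).measurable, Matrix.det_diagonal,
    abs_of_pos hp, smul_eq_mul]
  congr 1
  refine lintegral_congr fun x => ?_
  congr 2
  funext i
  simp [Matrix.mulVec_diagonal]

theorem meas_g : Measurable fun ζ : R3 => ENNReal.ofReal (Real.exp (-‖ζ‖ ^ 2)) := by fun_prop

theorem meas_dl (ε : ℝ) : Measurable (dl ε) :=
  Measurable.ite (measurableSet_le (by fun_prop) measurable_const) measurable_const measurable_const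

theorem cont_beam (b p μ : Fin 3 → ℝ) (s : ℝ) (y : R3) : Continuous (beam 1 b p μ s y) := by
  unfold beam
  simp only [one_mul]
  refine ENNReal.continuous_ofReal.comp ?_
  fun_prop

theorem beam_eq (ρ : ℝ≥0∞) (b p μ : Fin 3 → ℝ) (s : ℝ) (y : R3) :
    beam ρ b p μ s y = fun a => ρ * beam 1 b p μ s y a := by
  funext a
  simp only [beam, one_mul]

open Pointwise in
/-- area between two level sets of a quadratic function -/
theorem area_level {q : EuclideanSpace ℝ (Fin 2) → ℝ} (hq : Continuous q) (h1 : ∀ p, ‖p‖ ^ 2 ≤ q p)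
    (h2 : ∀ (r : ℝ) p, q (r • p) = r ^ 2 * q p) (κ : ℝ) {ε : ℝ} (hε : 0 < ε) :
    volume {p | |q p - κ| ≤ ε} ≤ ENNReal.ofReal (8 * ε) := by
  have hA : volume {p | q p < 1} ≤ ENNReal.ofReal Real.pi := by
    refine (measure_mono (t := Metric.ball 0 1) fun p hp => ?_).trans ?_
    · rw [mem_ball_zero_iff]
      have : ‖p‖ ^ 2 < 1 := (h1 p).trans_lt hp
      nlinarith [norm_nonneg p]
    · rw [EuclideanSpace.volume_ball_fin_two]
      simp
  have hU : ∀ t : ℝ, volume {p | q p < t} = ENNReal.ofReal t * volume {p | q p < 1} := by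
    intro t
    rcases le_or_gt t 0 with ht | ht
    · rw [ENNReal.ofReal_of_nonpos ht, zero_mul]
      have : {p | q p < t} = ∅ :=
        eq_empty_of_forall_notMem fun p hp => by
          have h3 : q p < t := hp
          nlinarith [h1 p, sq_nonneg ‖p‖]
      rw [this, measure_empty]
    · have hs := Real.sqrt_pos.2 ht
      have : {p | q p < t} = Real.sqrt t • {p | q p < 1} := by
        ext p
        rw [mem_smul_set_iff_inv_smul_mem₀ hs.ne', mem_setOf_eq, mem_setOf_eq, h2, inv_pow, Real.sq_sqrt ht.le,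
          inv_mul_lt_iff₀ ht, mul_one]
      rw [this, Measure.addHaar_smul, finrank_euclideanSpace_fin, Real.sq_sqrt ht.le, abs_of_pos ht]
  have hfin : volume {p | q p < κ - ε} ≠ ⊤ := by
    rw [hU]
    exact ENNReal.mul_ne_top ENNReal.ofReal_ne_top (ne_top_of_le_ne_top ENNReal.ofReal_ne_top hA)
  refine ENNReal.le_of_add_le_add_right hfin ?_
  rw [← measure_union _ (isOpen_lt hq continuous_const).measurableSet]
  · calc _ ≤ volume {p | q p < κ + 3 / 2 * ε} := by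
          refine measure_mono ?_
          rintro p (hp | hp)
          · have := (abs_le.1 (show |q p - κ| ≤ ε from hp)).2
            change q p < _
            linarith
          · have : q p < κ - ε := hp
            change q p < _
            linarith
      _ ≤ (ENNReal.ofReal (5 / 2 * ε) + ENNReal.ofReal (κ - ε)) * volume {p | q p < 1} := by
          rw [hU]
          refine mul_le_mul_left (le_trans (le_of_eq ?_) ENNReal.ofReal_add_le) _
          congr 1
          ring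
      _ ≤ _ := by
          rw [add_mul, ← hU (κ - ε)]
          refine add_le_add_left ((mul_le_mul_right hA _).trans ?_) _
          rw [← ENNReal.ofReal_mul (by positivity)]
          exact ENNReal.ofReal_le_ofReal (by nlinarith [Real.pi_lt_d2])
  · rw [Set.disjoint_left]
    intro p hp hp'
    have h3 := (abs_le.1 (show |q p - κ| ≤ ε from hp)).1
    have h4 : q p < κ - ε := hp'
    linarith

theorem sub_eq {b p μ : Fin 3 → ℝ} (hb : ∀ i, 0 ≤ b i) {s τ : ℝ} (hs : 0 ≤ s) (hτ : 0 ≤ τ) (x v ζ : R3)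
    (i : Fin 3) :
    (v - (WithLp.toLp 2 (fun i => (p i + b i * (x - τ • v) i + μ i * ζ i) / (1 + b i * s)) : R3)) i =
      (1 + b i * (s + τ)) / (1 + b i * s) * (v i - (p i + b i * x i + μ i * ζ i) / (1 + b i * (s + τ))) := by
  have h1 : 0 < 1 + b i * s := by have := hb i; positivity
  have h2 : 0 < 1 + b i * (s + τ) := by have := hb i; positivity
  simp only [PiLp.sub_apply, PiLp.smul_apply, smul_eq_mul]
  field_simp
  ring

theorem one_le_lam {b s τ : ℝ} (hb : 0 ≤ b) (hs : 0 ≤ s) (hτ : 0 ≤ τ) : 1 ≤ (1 + b * (s + τ)) / (1 + b * s) := by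
  rw [le_div_iff₀ (by positivity)]
  nlinarith [mul_nonneg hb hτ]

end BeamX

open BeamX

theorem beam_lintegral (ρ : ℝ≥0∞) {b μ : Fin 3 → ℝ} (p : Fin 3 → ℝ) (hb : ∀ i, 0 ≤ b i)
    (hμ : ∀ i, 0 < μ i) {s : ℝ} (hs : 0 ≤ s) (y : R3) {Φ : R3 → ℝ≥0∞} (hΦ : Measurable Φ) :
    ∫⁻ a, beam ρ b p μ s y a * Φ a = ρ * ∫⁻ ζ : R3, ENNReal.ofReal (Real.exp (-‖ζ‖ ^ 2)) *
      Φ (WithLp.toLp 2 (fun i => (p i + b i * y i + μ i * ζ i) / (1 + b i * s))) := by
  have h1 : ∀ i, 0 < 1 + b i * s := fun i => by have := hb i; positivity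
  have hm : Measurable fun a => beam ρ b p μ s y a * Φ a := by
    rw [beam_eq]
    exact ((cont_beam b p μ s y).measurable.const_mul ρ).mul hΦ
  have hc : Continuous fun ζ : R3 =>
      (WithLp.toLp 2 (fun i => (p i + b i * y i + μ i * ζ i) / (1 + b i * s)) : R3) :=
    (PiLp.continuous_toLp 2 _).comp (continuous_pi fun j => by fun_prop)
  have hm2 : Measurable fun ζ : R3 => ENNReal.ofReal (Real.exp (-‖ζ‖ ^ 2)) *
      Φ (WithLp.toLp 2 (fun i => (p i + b i * y i + μ i * ζ i) / (1 + b i * s))) :=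
    meas_g.mul (hΦ.comp hc.measurable)
  rw [lintegral_diag (fun i => (p i + b i * y i) / (1 + b i * s)) (fun i => μ i / (1 + b i * s))
    (fun i => div_pos (hμ i) (h1 i)) hm, ← lintegral_const_mul' _ _ ENNReal.ofReal_ne_top,
    ← lintegral_const_mul _ hm2]
  refine lintegral_congr fun ζ => ?_
  have e1 : (fun i => (p i + b i * y i) / (1 + b i * s) + μ i / (1 + b i * s) * ζ i) =
      fun i => (p i + b i * y i + μ i * ζ i) / (1 + b i * s) := by
    funext i
    ring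
  rw [e1]
  have e2 : ∑ i, (((p i + b i * y i + μ i * ζ i) / (1 + b i * s) * (1 + b i * s) - p i - b i * y i) / μ i) ^ 2 =
      ‖ζ‖ ^ 2 := by
    rw [EuclideanSpace.real_norm_sq_eq]
    refine Finset.sum_congr rfl fun i _ => ?_
    have := (h1 i).ne'
    have := (hμ i).ne'
    congr 1
    field_simp
    ring
  have e3 : (∏ i, μ i / (1 + b i * s)) * ∏ i, (1 + b i * s) / μ i = 1 := by
    rw [← Finset.prod_mul_distrib]
    refine Finset.prod_eq_one fun i _ => ?_
    have := (h1 i).ne'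
    have := (hμ i).ne'
    field_simp
  simp only [beam, e2]
  rw [← mul_assoc, ← mul_assoc, mul_comm _ ρ, mul_assoc ρ,
    ← ENNReal.ofReal_mul (Finset.prod_nonneg fun i _ => (div_pos (hμ i) (h1 i)).le), ← mul_assoc (∏ _, _), e3,
    one_mul, mul_assoc]
theorem gauss3_le : ∫⁻ ζ : R3, ENNReal.ofReal (Real.exp (-‖ζ‖ ^ 2)) ≤ 6 := by
  have h := GaussianFourier.integral_rexp_neg_mul_sq_norm (V := R3) one_pos
  simp only [neg_mul, one_mul, div_one, finrank_euclideanSpace_fin] at h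
  have hp : 0 < Real.pi ^ (((3 : ℕ) : ℝ) / 2) := Real.rpow_pos_of_pos Real.pi_pos _
  rw [← ofReal_integral_eq_lintegral_ofReal (Integrable.of_integral_ne_zero (by rw [h]; exact hp.ne'))
    (ae_of_all _ fun ζ => (Real.exp_pos _).le), h, ← ENNReal.ofReal_ofNat]
  refine ENNReal.ofReal_le_ofReal (le_of_pow_le_pow_left₀ two_ne_zero (by norm_num) ?_)
  rw [← Real.rpow_natCast, ← Real.rpow_mul Real.pi_pos.le]
  norm_num
  have h1 := pow_le_pow_left₀ Real.pi_pos.le Real.pi_lt_d2.le 3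
  linarith
theorem beam_mass (ρ : ℝ≥0∞) {b μ : Fin 3 → ℝ} (p : Fin 3 → ℝ) (hb : ∀ i, 0 ≤ b i)
    (hμ : ∀ i, 0 < μ i) {s : ℝ} (hs : 0 ≤ s) (y : R3) : ∫⁻ a, beam ρ b p μ s y a ≤ 6 * ρ := by
  have h := beam_lintegral ρ p hb hμ hs y (Φ := fun _ => 1) measurable_const
  simp only [mul_one] at h
  rw [h, mul_comm]
  exact mul_le_mul_left gauss3_le _
theorem measurable_beam (ρ : ℝ≥0∞) (b p μ : Fin 3 → ℝ) :
    Measurable (fun q : ℝ × R3 × R3 => beam ρ b p μ q.1 q.2.1 q.2.2) := by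
  unfold beam
  refine Measurable.const_mul (Continuous.measurable (ENNReal.continuous_ofReal.comp ?_)) _
  fun_prop
theorem ellipse {n : R3} (hn : n ≠ 0) (z : R3) {l m : Fin 3 → ℝ} (hl : ∀ i, 1 ≤ l i) (κ : ℝ) {ε : ℝ}
    (hε : 0 < ε) : pint n z (fun v => dl ε (∑ i, l i * (v i - m i) ^ 2 - κ)) ≤ 4 := by
  have hl0 : ∀ i, 0 < l i := fun i => one_pos.trans_le (hl i)
  have hS : 0 < ∑ i, n i ^ 2 / l i := by
    obtain ⟨i, hi⟩ : ∃ i, n i ≠ 0 := by
      by_contra h
      push Not at h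
      exact hn (by ext i; simp [h i])
    exact Finset.sum_pos' (fun j _ => div_nonneg (sq_nonneg _) (hl0 j).le)
      ⟨i, Finset.mem_univ i, div_pos (by positivity) (hl0 i)⟩
  set t : ℝ := (∑ i, (z i - m i) * n i) / ∑ i, n i ^ 2 / l i with ht
  set u : R3 := WithLp.toLp 2 fun i => t * (n i / l i) - (z i - m i) with hu
  have hun : inner ℝ u n = 0 := by
    have e : inner ℝ u n = t * ∑ i, n i ^ 2 / l i - ∑ i, (z i - m i) * n i := by
      rw [PiLp.inner_apply, Finset.mul_sum, ← Finset.sum_sub_distrib]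
      refine Finset.sum_congr rfl fun i _ => ?_
      simp only [hu, RCLike.inner_apply, conj_trivial]
      ring
    rw [e, ht, div_mul_cancel₀ _ hS.ne', sub_self]
  have hm : Measurable fun v : R3 => dl ε (∑ i, l i * (v i - m i) ^ 2 - κ) :=
    (meas_dl ε).comp (Continuous.measurable (by fun_prop))
  obtain ⟨ι, hι⟩ := exists_iso hn
  rw [← pint_translate hn hun z hm, pint_param hn ι hι _ hm]
  have hq : ∀ p, ∑ i, l i * ((z + u + ι p) i - m i) ^ 2 - κ =
      ∑ i, l i * (ι p i) ^ 2 - (κ - t ^ 2 * ∑ i, n i ^ 2 / l i) := by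
    intro p
    have h0 := hι p
    rw [PiLp.inner_apply] at h0
    simp only [RCLike.inner_apply, conj_trivial] at h0
    have e : ∑ i, l i * ((z + u + ι p) i - m i) ^ 2 =
        ∑ i, l i * (ι p i) ^ 2 + 2 * t * ∑ i, n i * ι p i + t ^ 2 * ∑ i, n i ^ 2 / l i := by
      rw [Finset.mul_sum, Finset.mul_sum, ← Finset.sum_add_distrib, ← Finset.sum_add_distrib]
      refine Finset.sum_congr rfl fun i _ => ?_
      simp only [hu, PiLp.add_apply]
      have := (hl0 i).ne'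
      field_simp
      ring
    rw [e, h0]
    ring
  simp only [hq]
  have hc : Continuous fun p : EuclideanSpace ℝ (Fin 2) => ∑ i, l i * (ι p i) ^ 2 := by
    have := ι.continuous
    fun_prop
  have hA := area_level hc (fun p => by
      rw [← ι.norm_map p, EuclideanSpace.real_norm_sq_eq]
      exact Finset.sum_le_sum fun i _ => le_mul_of_one_le_left (sq_nonneg _) (hl i))
    (fun r p => by
      rw [map_smul, Finset.mul_sum]
      refine Finset.sum_congr rfl fun i _ => ?_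
      simp only [PiLp.smul_apply, smul_eq_mul]
      ring) (κ - t ^ 2 * ∑ i, n i ^ 2 / l i) hε
  calc _ = ∫⁻ p, {p : EuclideanSpace ℝ (Fin 2) | |∑ i, l i * (ι p i) ^ 2 -
          (κ - t ^ 2 * ∑ i, n i ^ 2 / l i)| ≤ ε}.indicator (fun _ => ENNReal.ofReal (1 / (2 * ε))) p := by
        refine lintegral_congr fun p => ?_
        simp only [dl, indicator, mem_setOf_eq]
    _ ≤ _ := lintegral_indicator_const_le _ _
    _ ≤ ENNReal.ofReal (1 / (2 * ε)) * ENNReal.ofReal (8 * ε) := mul_le_mul_right hA _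
    _ = 4 := by
        rw [← ENNReal.ofReal_mul (by positivity), ← ENNReal.ofReal_ofNat]
        congr 1
        field_simp
        norm_num
theorem beam_tilt2 : ∃ C : ℝ≥0, ∀ (ρ : ℝ≥0∞) (b p μ : Fin 3 → ℝ), (∀ i, 0 ≤ b i) → (∀ i, 0 < μ i) →
    ∀ s τ : ℝ, 0 ≤ s → 0 ≤ τ → ∀ x : R3,
    PB (fun v => ∫⁻ a, beam ρ b p μ s (x - τ • v) a * invn (v - a) ^ (3 / 2 : ℝ)) (fun _ => C * ρ) := by
  obtain ⟨C, hC⟩ := sing_area (p := 3 / 2) (by norm_num) (by norm_num)
  have h0 : ∀ c : R3, PB (fun v => invn (v - c) ^ (3 / 2 : ℝ)) (fun _ => C * 4) := by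
    intro c n q hn
    refine (hC Metric.isOpen_ball.measurableSet hn q c).trans (mul_le_mul_right ?_ _)
    rw [pint_ball hn q zero_le_one]
    calc _ ≤ (4 : ℝ≥0∞) ^ (1 - 3 / 2 / 2 : ℝ) := by
          refine ENNReal.rpow_le_rpow ?_ (by norm_num)
          rw [← ENNReal.ofReal_ofNat]
          exact ENNReal.ofReal_le_ofReal (by nlinarith [Real.pi_lt_d2])
      _ ≤ (4 : ℝ≥0∞) ^ (1 : ℝ) := ENNReal.rpow_le_rpow_of_exponent_le (by norm_num) (by norm_num)
      _ = 4 := ENNReal.rpow_one _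
  refine ⟨6 * (C * 4), fun ρ b p μ hb hμ s τ hs hτ x => ?_⟩
  set c : R3 → R3 := fun ζ => WithLp.toLp 2 fun i => (p i + b i * x i + μ i * ζ i) / (1 + b i * (s + τ)) with hc
  have hcc : Continuous c := (PiLp.continuous_toLp 2 _).comp (continuous_pi fun j => by fun_prop)
  have hm : Measurable (Function.uncurry fun ζ v : R3 =>
      ENNReal.ofReal (Real.exp (-‖ζ‖ ^ 2)) * invn (v - c ζ) ^ (3 / 2 : ℝ)) :=
    (meas_g.comp measurable_fst).mul
      ((measurable_invn.comp (measurable_snd.sub (hcc.measurable.comp measurable_fst))).pow_const _)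
  have h1 := (PB_lintegral volume hm (φ := fun ζ _ => ENNReal.ofReal (Real.exp (-‖ζ‖ ^ 2)) * (C * 4))
    (ae_of_all _ fun ζ => PB.cmul ((measurable_invn.comp (measurable_id.sub_const _)).pow_const _)
      (h0 (c ζ)) _)).cmul hm.lintegral_prod_left ρ
  refine h1.mono (fun v => ?_) fun y _ => ?_
  · rw [beam_lintegral ρ p hb hμ hs _ (Φ := fun a => invn (v - a) ^ (3 / 2 : ℝ))
      ((measurable_invn.comp (measurable_id.const_sub _)).pow_const _)]
    refine mul_le_mul_right (lintegral_mono fun ζ => mul_le_mul_right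
      (ENNReal.rpow_le_rpow (ENNReal.inv_le_inv.2 (ENNReal.ofReal_le_ofReal ?_)) (by norm_num)) _) _
    refine le_of_pow_le_pow_left₀ two_ne_zero (norm_nonneg _) ?_
    rw [EuclideanSpace.real_norm_sq_eq, EuclideanSpace.real_norm_sq_eq]
    refine Finset.sum_le_sum fun i _ => ?_
    rw [sub_eq hb hs hτ, mul_pow]
    exact le_mul_of_one_le_left (sq_nonneg _) (one_le_pow₀ (one_le_lam (hb i) hs hτ))
  · rw [lintegral_mul_const _ meas_g, mul_comm ρ]
    push_cast
    exact mul_le_mul_left (mul_le_mul_left gauss3_le _) _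
theorem BeamX.pint_double {g : R3 → ℝ≥0∞} (hg : Measurable g) (hg6 : ∫⁻ ζ, g ζ ≤ 6) {K : R3 → R3 → R3 → ℝ≥0∞}
    (hK : Measurable fun q : R3 × R3 × R3 => K q.1 q.2.1 q.2.2) (n z : R3) (h : ∀ ζ ζ', pint n z (K ζ ζ') ≤ 4) :
    Measurable (fun v => 2 * ∫⁻ ζ, g ζ * ∫⁻ ζ', g ζ' * K ζ ζ' v) ∧
      pint n z (fun v => 2 * ∫⁻ ζ, g ζ * ∫⁻ ζ', g ζ' * K ζ ζ' v) ≤ 288 := by
  have hm0 : Measurable fun q : (R3 × R3) × R3 => K q.1.1 q.2 q.1.2 :=
    hK.comp (measurable_fst.fst.prodMk (measurable_snd.prodMk measurable_fst.snd))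
  have hm1 : Measurable fun q : (R3 × R3) × R3 => g q.2 * K q.1.1 q.2 q.1.2 := (hg.comp measurable_snd).mul hm0
  have hm1' : Measurable fun q : R3 × R3 => ∫⁻ ζ', g ζ' * K q.1 ζ' q.2 := hm1.lintegral_prod_right'
  have hm2 : Measurable (Function.uncurry fun ζ v : R3 => g ζ * ∫⁻ ζ', g ζ' * K ζ ζ' v) :=
    (hg.comp measurable_fst).mul hm1'
  have hm2' : Measurable fun v : R3 => ∫⁻ ζ, g ζ * ∫⁻ ζ', g ζ' * K ζ ζ' v := hm2.lintegral_prod_left
  refine ⟨hm2'.const_mul _, ?_⟩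
  rw [pint_cmul _ _ _ hm2', pint_lintegral volume n z hm2]
  have h1 : ∀ ζ, pint n z (fun v => g ζ * ∫⁻ ζ', g ζ' * K ζ ζ' v) ≤ g ζ * 24 := by
    intro ζ
    have hm3' : Measurable fun q : R3 × R3 => K ζ q.1 q.2 := hK.comp (measurable_const.prodMk measurable_id)
    have hm3 : Measurable (Function.uncurry fun ζ' v : R3 => g ζ' * K ζ ζ' v) :=
      (hg.comp measurable_fst).mul hm3'
    have hm4 : Measurable fun v : R3 => ∫⁻ ζ', g ζ' * K ζ ζ' v := hm3.lintegral_prod_left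
    rw [pint_cmul _ _ _ hm4, pint_lintegral volume n z hm3]
    refine mul_le_mul_right ?_ _
    calc _ ≤ ∫⁻ ζ', g ζ' * 4 := by
          refine lintegral_mono fun ζ' => ?_
          have hm5 : Measurable (K ζ ζ') := hm3'.comp (measurable_const.prodMk measurable_id)
          rw [pint_cmul _ _ _ hm5]
          exact mul_le_mul_right (h ζ ζ') _
      _ ≤ 6 * 4 := by
          rw [lintegral_mul_const _ hg]
          exact mul_le_mul_left hg6 _
      _ = 24 := by norm_num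
  calc _ ≤ 2 * ∫⁻ ζ, g ζ * 24 := mul_le_mul_right (lintegral_mono h1) _
    _ ≤ 2 * (6 * 24) := by
        rw [lintegral_mul_const _ hg]
        exact mul_le_mul_right (mul_le_mul_left hg6 _) _
    _ = 288 := by norm_num

theorem BeamX.pint_liminf {n : R3} (hn : n ≠ 0) (z : R3) {H : ℕ → R3 → ℝ≥0∞} {C : ℝ≥0∞}
    (h : ∀ k, Measurable (H k) ∧ pint n z (H k) ≤ C) : pint n z (fun v => liminf (fun k => H k v) atTop) ≤ C := by
  obtain ⟨ι, hι⟩ := exists_iso hn
  have hz : Measurable fun p => z + ι p := (ι.continuous.measurable).const_add z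
  rw [pint_param hn ι hι z (Measurable.liminf fun k => (h k).1)]
  refine (lintegral_liminf_le (f := fun k p => H k (z + ι p)) fun k => (h k).1.comp hz).trans ?_
  refine liminf_le_of_frequently_le' (Frequently.of_forall fun k => ?_)
  have := (h k).2
  rwa [pint_param hn ι hι z (h k).1] at this

/-- the kernel after the substitution -/
noncomputable def BeamX.KK (l c d c' d' : Fin 3 → ℝ) (ε : ℝ) (ζ ζ' v : R3) : ℝ≥0∞ :=
  dl ε (∑ i, l i * (v i - (c i + d i * ζ i + (c' i + d' i * ζ' i)) / 2) ^ 2 -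
    ∑ i, l i * ((c i + d i * ζ i - (c' i + d' i * ζ' i)) / 2) ^ 2)

theorem BeamX.meas_KK (l c d c' d' : Fin 3 → ℝ) (ε : ℝ) :
    Measurable fun q : R3 × R3 × R3 => BeamX.KK l c d c' d' ε q.1 q.2.1 q.2.2 :=
  (meas_dl ε).comp (Continuous.measurable (by fun_prop))

theorem BeamX.pint_KK {n : R3} (hn : n ≠ 0) (z : R3) {l : Fin 3 → ℝ} (hl : ∀ i, 1 ≤ l i) (c d c' d' : Fin 3 → ℝ)
    {ε : ℝ} (hε : 0 < ε) :
    Measurable (fun v => 2 * ∫⁻ ζ : R3, ENNReal.ofReal (Real.exp (-‖ζ‖ ^ 2)) *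
      ∫⁻ ζ' : R3, ENNReal.ofReal (Real.exp (-‖ζ'‖ ^ 2)) * BeamX.KK l c d c' d' ε ζ ζ' v) ∧
    pint n z (fun v => 2 * ∫⁻ ζ : R3, ENNReal.ofReal (Real.exp (-‖ζ‖ ^ 2)) *
      ∫⁻ ζ' : R3, ENNReal.ofReal (Real.exp (-‖ζ'‖ ^ 2)) * BeamX.KK l c d c' d' ε ζ ζ' v) ≤ 288 :=
  BeamX.pint_double (K := BeamX.KK l c d c' d' ε) meas_g gauss3_le (BeamX.meas_KK l c d c' d' ε) n z
    fun ζ ζ' => ellipse (m := fun i => (c i + d i * ζ i + (c' i + d' i * ζ' i)) / 2) hn z hl _ hε

theorem BeamX.double_eq {b p μ b' p' μ' : Fin 3 → ℝ} (hb : ∀ i, 0 ≤ b i) (hμ : ∀ i, 0 < μ i) (hb' : ∀ i, 0 ≤ b' i)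
    (hμ' : ∀ i, 0 < μ' i) {s τ : ℝ} (hs : 0 ≤ s) (hτ : 0 ≤ τ) (x v : R3) (ε : ℝ) :
    ∫⁻ a, ∫⁻ a', beam 1 b p μ s (x - τ • v) a * beam 1 b' p' μ' s (x - τ • v) a' *
        dl ε (inner ℝ (v - a) (v - a')) =
      ∫⁻ ζ : R3, ENNReal.ofReal (Real.exp (-‖ζ‖ ^ 2)) * ∫⁻ ζ' : R3, ENNReal.ofReal (Real.exp (-‖ζ'‖ ^ 2)) *
        BeamX.KK (fun i => (1 + b i * (s + τ)) / (1 + b i * s) * ((1 + b' i * (s + τ)) / (1 + b' i * s)))
          (fun i => (p i + b i * x i) / (1 + b i * (s + τ))) (fun i => μ i / (1 + b i * (s + τ)))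
          (fun i => (p' i + b' i * x i) / (1 + b' i * (s + τ))) (fun i => μ' i / (1 + b' i * (s + τ)))
          ε ζ ζ' v := by
  have hd : Measurable fun q : R3 × R3 => dl ε (inner ℝ (v - q.1) (v - q.2)) :=
    (meas_dl ε).comp (Continuous.measurable (by fun_prop))
  have hd1 : ∀ a, Measurable fun a' : R3 => dl ε (inner ℝ (v - a) (v - a')) := fun a =>
    (meas_dl ε).comp (Continuous.measurable (by fun_prop))
  have hb1 : Measurable (beam 1 b' p' μ' s (x - τ • v)) := (cont_beam _ _ _ _ _).measurable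
  have hd2 : Measurable fun q : R3 × R3 =>
      beam 1 b' p' μ' s (x - τ • v) q.2 * dl ε (inner ℝ (v - q.1) (v - q.2)) :=
    (hb1.comp measurable_snd).mul hd
  have hd3 : Measurable fun a : R3 => ∫⁻ a', beam 1 b' p' μ' s (x - τ • v) a' *
      dl ε (inner ℝ (v - a) (v - a')) := hd2.lintegral_prod_right'
  have e1 : ∀ a, ∫⁻ a', beam 1 b p μ s (x - τ • v) a * beam 1 b' p' μ' s (x - τ • v) a' *
      dl ε (inner ℝ (v - a) (v - a')) = beam 1 b p μ s (x - τ • v) a *
        ∫⁻ a', beam 1 b' p' μ' s (x - τ • v) a' * dl ε (inner ℝ (v - a) (v - a')) := by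
    intro a
    have hd4 : Measurable fun a' : R3 => beam 1 b' p' μ' s (x - τ • v) a' * dl ε (inner ℝ (v - a) (v - a')) :=
      hb1.mul (hd1 a)
    rw [← lintegral_const_mul _ hd4]
    simp only [mul_assoc]
  simp only [e1]
  rw [beam_lintegral 1 p hb hμ hs _ hd3, one_mul]
  refine lintegral_congr fun ζ => ?_
  congr 1
  rw [beam_lintegral 1 p' hb' hμ' hs _ (hd1 _), one_mul]
  refine lintegral_congr fun ζ' => ?_
  unfold BeamX.KK
  congr 2
  rw [PiLp.inner_apply, ← Finset.sum_sub_distrib]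
  refine Finset.sum_congr rfl fun i _ => ?_
  rw [sub_eq hb hs hτ, sub_eq hb' hs hτ]
  simp only [RCLike.inner_apply, conj_trivial]
  ring

theorem beam_tilt3 : ∃ C : ℝ≥0, ∀ (ρ ρ' : ℝ≥0∞) (b p μ b' p' μ' : Fin 3 → ℝ), (∀ i, 0 ≤ b i) →
    (∀ i, 0 < μ i) → (∀ i, 0 ≤ b' i) → (∀ i, 0 < μ' i) → ∀ s τ : ℝ, 0 ≤ s → 0 ≤ τ → ∀ x n z : R3, n ≠ 0 →
    pint n z (fun v => Qp (beam ρ b p μ s (x - τ • v)) (beam ρ' b' p' μ' s (x - τ • v)) v) ≤
      C * (ρ * ρ') := by
  refine ⟨288, fun ρ ρ' b p μ b' p' μ' hb hμ hb' hμ' s τ hs hτ x n z hn => ?_⟩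
  have hy : Measurable fun q : R3 × R3 => (s, x - τ • q.1, q.2) := Continuous.measurable (by fun_prop)
  have hmb : ∀ b p μ : Fin 3 → ℝ, Measurable (Function.uncurry fun v a : R3 => beam 1 b p μ s (x - τ • v) a) :=
    fun b p μ => by
      have := (measurable_beam 1 b p μ).comp hy
      exact this
  have e0 : (fun v => Qp (beam ρ b p μ s (x - τ • v)) (beam ρ' b' p' μ' s (x - τ • v)) v) =
      fun v => ρ * ρ' * Qp (beam 1 b p μ s (x - τ • v)) (beam 1 b' p' μ' s (x - τ • v)) v := by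
    funext v
    rw [beam_eq ρ, beam_eq ρ', Qp_cmul (cont_beam _ _ _ _ _).measurable (cont_beam _ _ _ _ _).measurable]
  have hQm : Measurable fun v => Qp (beam 1 b p μ s (x - τ • v)) (beam 1 b' p' μ' s (x - τ • v)) v :=
    meas_Qp (hmb b p μ) (hmb b' p' μ') measurable_id
  rw [e0, pint_cmul _ _ _ hQm, mul_comm]
  refine mul_le_mul_left ?_ _
  refine (pint_mono n z fun v => Qp_le_liminf (cont_beam b p μ s (x - τ • v)).measurable
    (cont_beam b' p' μ' s (x - τ • v)).lowerSemicontinuous v).trans ?_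
  simp only [double_eq hb hμ hb' hμ' hs hτ]
  refine pint_liminf hn z fun k => ?_
  have hε : 0 < 1 / ((k : ℝ) + 1) := by positivity
  generalize 1 / ((k : ℝ) + 1) = ε at hε
  have hl : ∀ i, 1 ≤ (fun i => (1 + b i * (s + τ)) / (1 + b i * s) * ((1 + b' i * (s + τ)) / (1 + b' i * s))) i :=
    fun i => one_le_mul_of_one_le_of_one_le (one_le_lam (hb i) hs hτ) (one_le_lam (hb' i) hs hτ)
  exact pint_KK hn z hl _ _ _ _ hε

end Crest.Agent.R68
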