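import Crest.Agent.R68.Plane

/-! Uniformly local plane bounds.  `cover`: write `π = area of the unit disc` and exchange the
integrals (`pint_param`).  `PB_holder`: Hölder with exponents `3/2` and `3`.
`sing_area`: split at `|p - c| < r` with `r² = area`. -/

set_option autoImplicit false

open MeasureTheory Set Filter Topology Crest.AnalysisR.VecCalc3 Crest.AnalysisR.PDE.Boltzmann
open scoped ENNReal NNReal

namespace Crest.Agent.R68

theorem PBd.ind_cmul (S : Set R3) (c : ℝ≥0∞) (f : R3 → ℝ≥0∞) :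
    S.indicator (fun a => c * f a) = fun a => c * S.indicator f a := by
  funext b
  by_cases hb : b ∈ S <;> simp [hb]

theorem PBd.W_le {lam : ℝ} (hl : 0 ≤ lam) {q b : R3} (hb : b ∈ Metric.ball q 1) :
    W lam b ≤ ENNReal.ofReal (Real.exp lam) * ew lam ‖q‖ := by
  rw [W, ew, ← ENNReal.ofReal_mul (Real.exp_pos _).le, ← Real.exp_add]
  refine ENNReal.ofReal_le_ofReal (Real.exp_le_exp.2 ?_)
  have h3 := norm_sub_norm_le q b
  rw [mem_ball_iff_norm'] at hb
  nlinarith

theorem PBd.holder {n : R3} (hn : n ≠ 0) (z : R3) {Λ : R3 → ℝ≥0∞} (hΛ : Measurable Λ) {B S : Set R3}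
    (hB : MeasurableSet B) (hS : MeasurableSet S) (hSB : S ⊆ B) :
    pint n z (S.indicator Λ) ≤ pint n z (B.indicator fun a => Λ a ^ (3 / 2 : ℝ)) ^ (2 / 3 : ℝ) *
      pint n z (S.indicator 1) ^ (1 / 3 : ℝ) := by
  obtain ⟨ι, hι⟩ := exists_iso hn
  have hι' : Measurable fun p => z + ι p := by fun_prop
  have h := ENNReal.lintegral_mul_le_Lp_mul_Lq (volume : Measure (EuclideanSpace ℝ (Fin 2)))
    (p := 3 / 2) (q := 3) (by rw [Real.holderConjugate_iff]; norm_num)
    (f := fun p => B.indicator Λ (z + ι p)) (g := fun p => S.indicator 1 (z + ι p))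
    ((hΛ.indicator hB).comp hι').aemeasurable ((measurable_one.indicator hS).comp hι').aemeasurable
  rw [pint_param hn ι hι z (hΛ.indicator hS), pint_param hn ι hι z ((hΛ.pow_const _).indicator hB),
    pint_param hn ι hι z (measurable_one.indicator hS)]
  refine le_trans (le_of_eq (lintegral_congr fun p => ?_)) (h.trans (le_of_eq ?_))
  · by_cases hp : z + ι p ∈ S
    · simp [hp, hSB hp]
    · simp [hp]
  · congr 2
    · refine lintegral_congr fun p => ?_
      by_cases hp : z + ι p ∈ B <;> simp [hp]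
    · norm_num
    · refine lintegral_congr fun p => ?_
      by_cases hp : z + ι p ∈ S <;> simp [hp]

theorem PBd.radial {p r : ℝ} (hp0 : 0 < p) (hp2 : p < 2) (hr : 0 < r) :
    ∫⁻ x in Ioi (0 : ℝ), ENNReal.ofReal (2 * Real.pi * x) *
      (Iio r).indicator (fun x => (ENNReal.ofReal x)⁻¹ ^ p) x
      = ENNReal.ofReal (2 * Real.pi / (2 - p) * r ^ (2 - p)) := by
  have h1 : ∫⁻ x in Ioi (0 : ℝ), ENNReal.ofReal (2 * Real.pi * x) *
      (Iio r).indicator (fun x => (ENNReal.ofReal x)⁻¹ ^ p) x
      = ∫⁻ x in Ioo (0 : ℝ) r, ENNReal.ofReal (2 * Real.pi * x ^ (1 - p)) := by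
    rw [← Iio_inter_Ioi, ← Measure.restrict_restrict measurableSet_Iio, ← lintegral_indicator measurableSet_Iio]
    refine setLIntegral_congr_fun measurableSet_Ioi fun x hx => ?_
    have hx0 : 0 < x := hx
    by_cases hxr : x ∈ Iio r
    · simp only [indicator_of_mem hxr]
      rw [← ENNReal.ofReal_inv_of_pos hx0, ENNReal.ofReal_rpow_of_nonneg (inv_pos.2 hx0).le hp0.le,
        ← ENNReal.ofReal_mul (by positivity), Real.inv_rpow hx0.le, Real.rpow_sub hx0, Real.rpow_one]
      congr 1
      ring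
    · simp [hxr]
  have hi : IntervalIntegrable (fun x : ℝ => 2 * Real.pi * x ^ (1 - p)) volume 0 r :=
    (intervalIntegral.intervalIntegrable_rpow' (by linarith)).const_mul _
  rw [h1, ← ofReal_integral_eq_lintegral_ofReal
    ((intervalIntegrable_iff_integrableOn_Ioo_of_le hr.le).1 hi), ← integral_Ioc_eq_integral_Ioo,
    ← intervalIntegral.integral_of_le hr.le, intervalIntegral.integral_const_mul,
    integral_rpow (Or.inl (by linarith)), Real.zero_rpow (by linarith)]
  · congr 1
    rw [show 1 - p + 1 = 2 - p by ring]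
    ring
  · filter_upwards [ae_restrict_mem measurableSet_Ioo] with x hx
    have := hx.1
    positivity

theorem PB.mono {f g : R3 → ℝ≥0∞} {φ ψ : ℝ → ℝ≥0∞} (h : PB g φ) (hfg : ∀ a, f a ≤ g a)
    (hφ : ∀ y, 0 ≤ y → φ y ≤ ψ y) : PB f ψ := by
  intro n q hn
  exact (pint_mono n q fun b => indicator_le_indicator (hfg b)).trans ((h n q hn).trans (hφ _ (norm_nonneg _)))

theorem PB.add {f g : R3 → ℝ≥0∞} {φ ψ : ℝ → ℝ≥0∞} (hf : Measurable f) (h : PB f φ) (h' : PB g ψ) :
    PB (fun a => f a + g a) (fun y => φ y + ψ y) := by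
  intro n q hn
  rw [indicator_add, pint_add n q (hf.indicator measurableSet_ball)]
  exact add_le_add (h n q hn) (h' n q hn)

theorem PB.cmul {f : R3 → ℝ≥0∞} {φ : ℝ → ℝ≥0∞} (hf : Measurable f) (h : PB f φ) (c : ℝ≥0∞) :
    PB (fun a => c * f a) (fun y => c * φ y) := by
  intro n q hn
  rw [PBd.ind_cmul, pint_cmul n q c (hf.indicator measurableSet_ball)]
  exact mul_le_mul_right (h n q hn) c

theorem PB_lintegral {α : Type} [MeasurableSpace α] (μ : Measure α) [SFinite μ]
    {f : α → R3 → ℝ≥0∞} (hf : Measurable (Function.uncurry f)) {φ : α → ℝ → ℝ≥0∞}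
    (h : ∀ᵐ a ∂μ, PB (f a) (φ a)) : PB (fun b => ∫⁻ a, f a b ∂μ) (fun y => ∫⁻ a, φ a y ∂μ) := by
  intro n q hn
  have e : (Metric.ball q 1).indicator (fun b => ∫⁻ a, f a b ∂μ)
      = fun b => ∫⁻ a, (Metric.ball q 1).indicator (f a) b ∂μ := by
    funext b
    by_cases hb : b ∈ Metric.ball q 1 <;> simp [hb]
  have hm : Measurable (Function.uncurry fun a => (Metric.ball q 1).indicator (f a)) := by
    exact hf.indicator (s := Prod.snd ⁻¹' Metric.ball q 1) (measurable_snd measurableSet_ball)
  rw [e, pint_lintegral μ n q hm]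
  exact lintegral_mono_ae (h.mono fun a ha => ha n q hn)

theorem PB_const (c : ℝ≥0∞) : PB (fun _ => c) (fun _ => 4 * c) := by
  intro n q hn
  have e : (Metric.ball q 1).indicator (fun _ => c) = fun b => c * (Metric.ball q 1).indicator 1 b := by
    funext b
    by_cases hb : b ∈ Metric.ball q 1 <;> simp [hb]
  rw [e, pint_cmul n q c (measurable_one.indicator measurableSet_ball), pint_ball hn q zero_le_one,
    mul_comm]
  refine mul_le_mul_left ?_ c
  rw [← ENNReal.ofReal_ofNat 4]
  exact ENNReal.ofReal_le_ofReal (by linarith [Real.pi_le_four])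

theorem PB_W {lam : ℝ} (hl : 0 ≤ lam) :
    PB (W lam) (fun y => ENNReal.ofReal (4 * Real.exp lam) * ew lam y) := by
  intro n q hn
  refine le_trans (pint_mono n q fun b => ?_)
    ((PB_const (ENNReal.ofReal (Real.exp lam) * ew lam ‖q‖) n q hn).trans (le_of_eq ?_))
  · exact indicator_le_indicator' fun hb => PBd.W_le hl hb
  · rw [ENNReal.ofReal_mul (by norm_num), ENNReal.ofReal_ofNat]
    exact (mul_assoc _ _ _).symm

theorem cover {f Ψ Ψ' : R3 → ℝ≥0∞} {φ : ℝ → ℝ≥0∞} (hf : Measurable f) (hΨ : Measurable Ψ)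
    (h : PB f φ) (hΨ' : ∀ q b, dist b q < 1 → Ψ b ≤ Ψ' q) {n : R3} (hn : n ≠ 0) (z : R3) :
    pint n z (fun b => f b * Ψ b) ≤ pint n z (fun q => φ ‖q‖ * Ψ' q) := by
  obtain ⟨ι, hι⟩ := exists_iso hn
  have hF : Measurable fun b => f b * Ψ b := hf.mul hΨ
  have hK : Measurable (Function.uncurry fun (q : R3) =>
      (Metric.ball q 1).indicator fun b => f b * Ψ b) := by
    exact (hF.comp measurable_snd).indicator (s := {p : R3 × R3 | dist p.2 p.1 < 1})
      (measurableSet_lt (measurable_snd.dist measurable_fst) measurable_const)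
  have hg : Measurable fun q : R3 => pint n q ((Metric.ball q 1).indicator fun b => f b * Ψ b) :=
    meas_pint hK measurable_const measurable_id
  have hι' : Measurable fun p => z + ι p := by fun_prop
  have hK2 : Measurable (Function.uncurry fun (p : EuclideanSpace ℝ (Fin 2)) =>
      (Metric.ball (z + ι p) 1).indicator fun b => f b * Ψ b) := by
    exact (hF.comp measurable_snd).indicator
      (s := {p : EuclideanSpace ℝ (Fin 2) × R3 | dist p.2 (z + ι p.1) < 1})
      (measurableSet_lt (measurable_snd.dist (hι'.comp measurable_fst)) measurable_const)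
  have hI : ∀ b : R3, Measurable fun p => (Metric.ball b 1).indicator (1 : R3 → ℝ≥0∞) (z + ι p) :=
    fun b => (measurable_one.indicator measurableSet_ball).comp hι'
  calc pint n z (fun b => f b * Ψ b)
      ≤ pint n z (fun b => ∫⁻ p, (Metric.ball (z + ι p) 1).indicator (fun b => f b * Ψ b) b) := by
        refine pint_mono_on hn z fun b hb => ?_
        have h1 := pint_ball hn b zero_le_one
        have h2 := pint_translate hn hb z (measurable_one.indicator (measurableSet_ball (x := b) (ε := 1)))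
        rw [add_sub_cancel, h1, pint_param hn ι hι z (measurable_one.indicator measurableSet_ball)] at h2
        have h3 : ∀ p, (Metric.ball (z + ι p) 1).indicator (fun b => f b * Ψ b) b
            = f b * Ψ b * (Metric.ball b 1).indicator 1 (z + ι p) := by
          intro p
          by_cases hp : dist b (z + ι p) < 1
          · rw [indicator_of_mem (Metric.mem_ball.2 hp), indicator_of_mem (Metric.mem_ball'.2 hp)]
            simp
          · rw [indicator_of_notMem (mt Metric.mem_ball.1 hp), indicator_of_notMem (mt Metric.mem_ball'.1 hp)]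
            simp
        simp only [h3]
        rw [lintegral_const_mul _ (hI b), ← h2]
        refine le_mul_of_one_le_right' (ENNReal.one_le_ofReal.2 ?_)
        linarith [Real.pi_gt_three]
    _ = ∫⁻ p, pint n z ((Metric.ball (z + ι p) 1).indicator fun b => f b * Ψ b) :=
        pint_lintegral volume n z hK2
    _ = pint n z fun q => pint n q ((Metric.ball q 1).indicator fun b => f b * Ψ b) := by
        rw [pint_param hn ι hι z hg]
        exact lintegral_congr fun p => (pint_translate hn (hι p) z (hF.indicator measurableSet_ball)).symm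
    _ ≤ _ := by
        refine pint_mono n z fun q => ?_
        refine le_trans (pint_mono n q (g := fun b => Ψ' q * (Metric.ball q 1).indicator f b) fun b => ?_) ?_
        · by_cases hb : b ∈ Metric.ball q 1
          · rw [indicator_of_mem hb, indicator_of_mem hb, mul_comm]
            exact mul_le_mul_left (hΨ' q b hb) _
          · rw [indicator_of_notMem hb]
            exact zero_le
        · rw [pint_cmul n q _ (hf.indicator measurableSet_ball), mul_comm]
          exact mul_le_mul_left (h n q hn) _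

/-- volume version of `cover` (slice by parallel planes) -/
theorem cover_vol {f Ψ Ψ' : R3 → ℝ≥0∞} {φ : ℝ → ℝ≥0∞} (hf : Measurable f) (hΨ : Measurable Ψ)
    (hφ : Measurable φ) (hΨ'm : Measurable Ψ') (h : PB f φ)
    (hΨ' : ∀ q b, dist b q < 1 → Ψ b ≤ Ψ' q) :
    ∫⁻ b, f b * Ψ b ≤ ∫⁻ q, φ ‖q‖ * Ψ' q := by
  have hn : (EuclideanSpace.single 0 1 : R3) ≠ 0 := by simp
  rw [lintegral_slices hn 0 (f := fun b => f b * Ψ b) (hf.mul hΨ),
    lintegral_slices hn 0 (f := fun q => φ ‖q‖ * Ψ' q) ((hφ.comp measurable_norm).mul hΨ'm)]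
  exact lintegral_mono fun s => cover hf hΨ h hΨ' hn _

theorem PB_holder {Λ : R3 → ℝ≥0∞} (hΛ : Measurable Λ) {C : ℝ≥0∞}
    (h : PB (fun a => Λ a ^ (3 / 2 : ℝ)) (fun _ => C)) {S : Set R3} (hS : MeasurableSet S)
    {n : R3} (hn : n ≠ 0) (q : R3) :
    pint n q ((Metric.ball q 1 ∩ S).indicator Λ) ≤
      C ^ (2 / 3 : ℝ) * pint n q ((Metric.ball q 1 ∩ S).indicator 1) ^ (1 / 3 : ℝ) := by
  refine (PBd.holder hn q hΛ measurableSet_ball (measurableSet_ball.inter hS) inter_subset_left).trans ?_
  exact mul_le_mul_left (ENNReal.rpow_le_rpow (h n q hn) (by norm_num)) _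

theorem PB_of_pow {Λ : R3 → ℝ≥0∞} (hΛ : Measurable Λ) {C : ℝ≥0∞}
    (h : PB (fun a => Λ a ^ (3 / 2 : ℝ)) (fun _ => C)) : PB Λ (fun _ => 2 * C ^ (2 / 3 : ℝ)) := by
  intro n q hn
  have h1 := PB_holder hΛ h MeasurableSet.univ hn q
  rw [inter_univ, pint_ball hn q zero_le_one] at h1
  refine h1.trans ?_
  rw [mul_comm]
  refine mul_le_mul_left ?_ _
  have h2 : ENNReal.ofReal (Real.pi * 1 ^ 2) ≤ (2 : ℝ≥0∞) ^ (3 : ℝ) := by
    rw [show (2 : ℝ≥0∞) ^ (3 : ℝ) = ENNReal.ofReal 8 by norm_num]
    exact ENNReal.ofReal_le_ofReal (by linarith [Real.pi_le_four])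
  refine (ENNReal.rpow_le_rpow h2 (by norm_num)).trans (le_of_eq ?_)
  rw [← ENNReal.rpow_mul]
  norm_num

/-- weights times a singular factor -/
theorem PB_weight {lam : ℝ} (hl : 0 < lam) {Λ : R3 → ℝ≥0∞} (hΛ : Measurable Λ) {C : ℝ≥0∞}
    (h : PB Λ (fun _ => C)) {Φ : ℝ → ℝ≥0∞} (hΦ : Slow lam Φ) :
    PB (fun a => Φ ‖a‖ * W lam a * Λ a)
      (fun y => ENNReal.ofReal (Real.exp (2 * lam)) * C * (Φ y * ew lam y)) := by
  intro n q hn
  refine le_trans (pint_mono n q (g := fun b => (ENNReal.ofReal (Real.exp (2 * lam)) *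
    (Φ ‖q‖ * ew lam ‖q‖)) * (Metric.ball q 1).indicator Λ b) fun b => ?_) ?_
  · by_cases hb : b ∈ Metric.ball q 1
    · rw [indicator_of_mem hb, indicator_of_mem hb]
      refine mul_le_mul_left ?_ _
      have h1 : Φ ‖b‖ ≤ Φ ‖q‖ * ENNReal.ofReal (Real.exp lam) := by
        rcases le_total ‖b‖ ‖q‖ with h2 | h2
        · exact (hΦ.1 h2).trans (le_mul_of_one_le_right' (ENNReal.one_le_ofReal.2 (Real.one_le_exp hl.le)))
        · refine (hΦ.2 _ _ (norm_nonneg _) h2).trans (mul_le_mul_right (ENNReal.ofReal_le_ofReal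
            (Real.exp_le_exp.2 ?_)) _)
          have h3 := norm_sub_norm_le b q
          rw [mem_ball_iff_norm] at hb
          nlinarith
      refine (mul_le_mul' h1 (PBd.W_le hl.le hb)).trans (le_of_eq ?_)
      rw [two_mul, Real.exp_add, ENNReal.ofReal_mul (Real.exp_pos _).le]
      ring
    · rw [indicator_of_notMem hb]
      exact zero_le
  · rw [pint_cmul n q _ (hΛ.indicator measurableSet_ball)]
    refine (mul_le_mul_right (h n q hn) _).trans (le_of_eq ?_)
    ring

/-- a small set in a bounded part of a plane carries little of `Λ` -/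
theorem pint_small (L : ℝ) : ∃ C : ℝ≥0, ∀ {Λ : R3 → ℝ≥0∞}, Measurable Λ → ∀ {CΛ : ℝ≥0∞},
    PB (fun a => Λ a ^ (3 / 2 : ℝ)) (fun _ => CΛ) → ∀ {S : Set R3}, MeasurableSet S →
    ∀ {n : R3}, n ≠ 0 → ∀ z : R3, S ⊆ Metric.closedBall z L →
    pint n z (S.indicator Λ) ≤ C * CΛ ^ (2 / 3 : ℝ) * pint n z (S.indicator 1) ^ (1 / 3 : ℝ) := by
  refine ⟨(Real.toNNReal (Real.pi * (|L| + 1) ^ 2)) ^ (2 / 3 : ℝ), ?_⟩
  intro Λ hΛ CΛ h S hS n hn z hSL
  refine (PBd.holder hn z hΛ measurableSet_closedBall hS hSL).trans (mul_le_mul_left ?_ _)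
  have h1 := cover (Ψ := (Metric.closedBall z L).indicator 1) (Ψ' := (Metric.ball z (|L| + 1)).indicator 1)
    (hΛ.pow_const _) (measurable_one.indicator measurableSet_closedBall) h (fun q b hqb => by
      by_cases hb : b ∈ Metric.closedBall z L
      · have : q ∈ Metric.ball z (|L| + 1) := by
          rw [Metric.mem_closedBall] at hb
          rw [Metric.mem_ball]
          linarith [dist_triangle_left q z b, le_abs_self L]
        simp [hb, this]
      · simp [hb]) hn z
  rw [pint_cmul n z _ (measurable_one.indicator measurableSet_ball), pint_ball hn z (by positivity)] at h1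
  have e : (Metric.closedBall z L).indicator (fun a => Λ a ^ (3 / 2 : ℝ))
      = fun b => Λ b ^ (3 / 2 : ℝ) * (Metric.closedBall z L).indicator 1 b := by
    funext b
    by_cases hb : b ∈ Metric.closedBall z L <;> simp [hb]
  rw [e, ENNReal.coe_rpow_of_nonneg _ (by norm_num), ← ENNReal.mul_rpow_of_nonneg _ _ (by norm_num),
    mul_comm]
  exact ENNReal.rpow_le_rpow h1 (by norm_num)

/-- a point singularity integrated over a planar set of given area (`0 < p < 2`) -/
theorem sing_area {p : ℝ} (hp0 : 0 < p) (hp2 : p < 2) : ∃ C : ℝ≥0, ∀ {S : Set R3}, MeasurableSet S →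
    ∀ {n : R3}, n ≠ 0 → ∀ z c : R3,
    pint n z (S.indicator (fun v => invn (v - c) ^ p)) ≤
      C * pint n z (S.indicator 1) ^ (1 - p / 2) := by
  have hq : 0 < 2 - p := by linarith
  refine ⟨Real.toNNReal (2 * Real.pi / (2 - p) + 1), ?_⟩
  intro S hS n hn z c
  have hC : 0 < 2 * Real.pi / (2 - p) + 1 := by positivity
  have hm : ∀ c : R3, Measurable fun v => invn (v - c) ^ p := fun c =>
    (measurable_invn.comp (measurable_id.sub_const c)).pow_const _
  change _ ≤ ENNReal.ofReal _ * _
  rcases eq_or_ne (pint n z (S.indicator 1)) ⊤ with hA | hA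
  · rw [hA, ENNReal.top_rpow_of_pos (by linarith), ENNReal.mul_top (by simpa using hC)]
    exact le_top
  rcases eq_or_ne (pint n z (S.indicator 1)) 0 with hA0 | hA0
  · obtain ⟨ι, hι⟩ := exists_iso hn
    have hι' : Measurable fun p => z + ι p := by fun_prop
    rw [pint_param hn ι hι z (measurable_one.indicator hS),
      lintegral_eq_zero_iff (f := fun p => S.indicator (1 : R3 → ℝ≥0∞) (z + ι p))
        ((measurable_one.indicator hS).comp hι')] at hA0
    rw [pint_param hn ι hι z ((hm c).indicator hS), lintegral_congr_ae (g := fun _ => 0)]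
    · simp
    · filter_upwards [hA0] with q hq
      by_cases hb : z + ι q ∈ S
      · simp [hb] at hq
      · simp [hb]
  obtain ⟨A, hA', hA0'⟩ : ∃ A : ℝ, pint n z (S.indicator 1) = ENNReal.ofReal A ∧ 0 < A :=
    ⟨_, (ENNReal.ofReal_toReal hA).symm, ENNReal.toReal_pos hA0 hA⟩
  set r : ℝ := A ^ (1 / 2 : ℝ) with hr
  have hr0 : 0 < r := Real.rpow_pos_of_pos hA0' _
  -- the projection of `c`
  set d : R3 := (c - z) - (inner ℝ (c - z) n / inner ℝ n n) • n with hd
  have hnn : inner ℝ n n ≠ (0 : ℝ) := inner_self_ne_zero.2 hn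
  have hdn : inner ℝ d n = (0 : ℝ) := by
    rw [hd, inner_sub_left, real_inner_smul_left, div_mul_cancel₀ _ hnn, sub_self]
  have hφ : Measurable fun x : ℝ => (Iio r).indicator (fun x => (ENNReal.ofReal x)⁻¹ ^ p) x :=
    Measurable.indicator (by fun_prop) measurableSet_Iio
  have hφ' : Measurable fun b : R3 => (Iio r).indicator (fun x => (ENNReal.ofReal x)⁻¹ ^ p) ‖b - (z + d)‖ :=
    hφ.comp (by fun_prop)
  calc pint n z (S.indicator fun v => invn (v - c) ^ p)
      ≤ pint n z fun b => (Iio r).indicator (fun x => (ENNReal.ofReal x)⁻¹ ^ p) ‖b - (z + d)‖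
          + ENNReal.ofReal (r ^ (-p)) * S.indicator 1 b := by
        refine pint_mono_on hn z fun b hb => ?_
        by_cases hbS : b ∈ S
        · have h1 : ‖b - (z + d)‖ ≤ ‖b - c‖ := by
            have h2 : b - c = (b - (z + d)) - (inner ℝ (c - z) n / inner ℝ n n) • n := by
              rw [hd]
              abel
            have h3 : inner ℝ (b - (z + d)) ((inner ℝ (c - z) n / inner ℝ n n) • n) = (0 : ℝ) := by
              rw [real_inner_smul_right, ← sub_sub, inner_sub_left (b - z), hb, hdn, sub_self, mul_zero]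
            refine abs_le_of_sq_le_sq' ?_ (norm_nonneg _) |>.2
            rw [h2, norm_sub_sq_real (b - (z + d)), h3]
            nlinarith [sq_nonneg ‖(inner ℝ (c - z) n / inner ℝ n n) • n‖]
          have h4 : invn (b - c) ^ p ≤ (ENNReal.ofReal ‖b - (z + d)‖)⁻¹ ^ p :=
            ENNReal.rpow_le_rpow (ENNReal.inv_le_inv.2 (ENNReal.ofReal_le_ofReal h1)) hp0.le
          rw [indicator_of_mem hbS, indicator_of_mem hbS, Pi.one_apply, mul_one]
          refine h4.trans ?_
          by_cases h5 : ‖b - (z + d)‖ < r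
          · rw [indicator_of_mem (mem_Iio.2 h5)]
            exact le_self_add
          · refine le_trans ?_ le_add_self
            rw [Real.rpow_neg hr0.le, ← Real.inv_rpow hr0.le,
              ← ENNReal.ofReal_rpow_of_nonneg (inv_pos.2 hr0).le hp0.le, ENNReal.ofReal_inv_of_pos hr0]
            exact ENNReal.rpow_le_rpow (ENNReal.inv_le_inv.2 (ENNReal.ofReal_le_ofReal (not_lt.1 h5))) hp0.le
        · rw [indicator_of_notMem hbS]
          exact zero_le
    _ = ENNReal.ofReal (2 * Real.pi / (2 - p) * r ^ (2 - p)) + ENNReal.ofReal (r ^ (-p)) * ENNReal.ofReal A := by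
        rw [pint_add n z hφ', pint_cmul n z _ (measurable_one.indicator hS), hA',
          ← pint_translate hn hdn z hφ', pint_radial hn (z + d) hφ, PBd.radial hp0 hp2 hr0]
    _ = _ := by
        rw [hA', ENNReal.ofReal_rpow_of_pos hA0', ← ENNReal.ofReal_mul (by positivity),
          ← ENNReal.ofReal_mul hC.le, ← ENNReal.ofReal_add (by positivity) (by positivity)]
        congr 1
        have h1 : r ^ (2 - p) = A ^ (1 - p / 2) := by
          rw [hr, ← Real.rpow_mul hA0'.le]
          congr 1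
          ring
        have h2 : r ^ (-p) * A = A ^ (1 - p / 2) := by
          rw [hr, ← Real.rpow_mul hA0'.le, ← Real.rpow_add_one hA0'.ne']
          congr 1
          ring
        rw [h1, h2]
        ring

theorem Slow_const (lam : ℝ) (hl : 0 ≤ lam) (c : ℝ≥0∞) : Slow lam (fun _ => c) := by
  refine ⟨monotone_const, fun x y _ hxy => le_mul_of_one_le_right' (ENNReal.one_le_ofReal.2 ?_)⟩
  exact Real.one_le_exp (div_nonneg (mul_nonneg hl (sub_nonneg.2 hxy)) zero_le_two)

/-- `(α + β y)^j` is slowly varying when `2 j β ≤ lam α` -/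
theorem Slow_pow {lam α β : ℝ} {j : ℕ} (hα : 0 ≤ α) (hβ : 0 ≤ β) (hl : 0 ≤ lam)
    (h : 2 * j * β ≤ lam * α) : Slow lam (fun y => ENNReal.ofReal ((α + β * max y 0) ^ j)) := by
  refine ⟨fun x y hxy => ENNReal.ofReal_le_ofReal ?_, fun x y hx hxy => ?_⟩
  · have := max_le_max_right (0 : ℝ) hxy
    have h0 := le_max_right x (0 : ℝ)
    gcongr
  · dsimp only
    rw [max_eq_left hx, max_eq_left (hx.trans hxy), ← ENNReal.ofReal_mul (by positivity)]
    refine ENNReal.ofReal_le_ofReal ?_
    have hd : 0 ≤ y - x := sub_nonneg.2 hxy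
    rcases Nat.eq_zero_or_pos j with rfl | hj
    · simpa using div_nonneg (mul_nonneg hl hd) zero_le_two
    have hj' : (0 : ℝ) < j := by exact_mod_cast hj
    have e : lam * (y - x) / 2 = j * (lam * (y - x) / (2 * j)) := by field_simp
    rw [e, Real.exp_nat_mul, ← mul_pow]
    refine pow_le_pow_left₀ (add_nonneg hα (mul_nonneg hβ (hx.trans hxy))) ?_ j
    have ht : 0 ≤ lam * (y - x) / (2 * j) := by positivity
    have h1 : β * (y - x) ≤ α * (lam * (y - x) / (2 * j)) := by
      rw [← mul_div_assoc, le_div_iff₀ (by positivity)]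
      nlinarith
    have h2 := mul_le_mul_of_nonneg_left (Real.add_one_le_exp (lam * (y - x) / (2 * j)))
      (add_nonneg hα (mul_nonneg hβ hx))
    nlinarith [mul_nonneg (mul_nonneg hβ hx) ht]

end Crest.Agent.R68
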