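import Crest.Agent.R68.Tile1

/-! Measurability and invariance under `hat` of everything in `Defs` (parts C, D, G).  Routine: `Measurable.ite`, `Measurable.tsum`
(countable index types), continuity of `Metric.infDist`, `measurable_fract`, `meas_timeInt`, `meas_Qp`, `meas_Ex`, `meas_S2`; `hat_hat`, `hat_hat_sub`. -/

set_option autoImplicit false

open MeasureTheory Set Filter Topology Crest.AnalysisR.VecCalc3 Crest.AnalysisR.PDE.Boltzmann
open scoped ENNReal NNReal

namespace Crest.Agent.R68

variable {P : Par}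

theorem t2_toLp {α : Type} [MeasurableSpace α] {f : α → Fin 3 → ℝ} (h : ∀ j, Measurable fun a => f a j) :
    Measurable fun a => (WithLp.toLp 2 (f a) : R3) :=
  (MeasurableEquiv.toLp 2 (Fin 3 → ℝ)).measurable.comp (measurable_pi_lambda _ h)

theorem t2_and {α : Type} [MeasurableSpace α] {p q : α → Prop} (hp : MeasurableSet {a | p a})
    (hq : MeasurableSet {a | q a}) : MeasurableSet {a | p a ∧ q a} := hp.inter hq

theorem t2_coord (j : Fin 3) : Measurable fun v : R3 => v j := by fun_prop

theorem t2_csub {α : Type} [MeasurableSpace α] {f g : α → R3} (hf : Measurable f) (hg : Measurable g)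
    (j : Fin 3) : Measurable fun a => |f a j - g a j| := by fun_prop

theorem t2_Ck {α : Type} [MeasurableSpace α] {s d : α → ℝ} {v u : α → R3} (hs : Measurable s)
    (hd : Measurable d) (hv : Measurable v) (hu : Measurable u) (A B C : ℝ) :
    Measurable fun a => ENNReal.ofReal (A *
      Real.exp (-((2 - s a) * ‖v a - u a‖ ^ 2 / B) - d a / (C * Real.sqrt (s a)))) := by fun_prop

theorem t2_hat2 : Measurable fun p : ℝ × R3 × R3 => (p.1, hat p.2.1) :=
  measurable_fst.prodMk (measurable_hat.comp measurable_snd.fst)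

theorem t2_char : Measurable fun p : (ℝ × R3 × R3) × ℝ => p.1.2.1 - (p.1.1 - p.2) • p.1.2.2 := by
  fun_prop

theorem t2_unc {α : Type} [MeasurableSpace α] {F : Den} (hF : MeasD F) {s : α → ℝ} {y : α → R3}
    (hs : Measurable s) (hy : Measurable y) : Measurable (Function.uncurry fun a => F (s a) (y a)) :=
  hF.comp (hs.comp measurable_fst) (hy.comp measurable_fst) measurable_snd

theorem measurable_lab (τ : Tile) : Measurable (fun q : ℝ × R3 => lab P τ q.1 q.2) := by
  unfold lab
  fun_prop
theorem measurable_U (k : Bm) : Measurable (fun q : ℝ × R3 => U P k q.1 q.2) := by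
  unfold U
  exact t2_toLp fun j => by fun_prop
theorem measurable_dS (k : Bm) : Measurable (fun q : ℝ × R3 => dS P k q.1 q.2) := by
  exact (Metric.continuous_infDist_pt _).measurable.comp (measurable_lab k.1)
theorem measurableSet_layer (k : Bm) : MeasurableSet (layer P k) := by
  refine (measurableSet_le measurable_const measurable_fst).inter
    ((measurableSet_le measurable_fst measurable_const).inter (MeasurableSet.inter ?_
      (measurableSet_le measurable_snd.abs measurable_const)))
  exact (measurable_fract.comp ((measurable_fst.sub_const _).div_const _)) measurableSet_Icc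
theorem measurableSet_tile (τ : Tile) : MeasurableSet {q : ℝ × R3 | lab P τ q.1 q.2 ∈ tileL P τ} := by
  exact measurable_lab τ (measurableSet_Ioo.prod measurableSet_Ioo)
theorem measurableSet_core (k : Bm) : MeasurableSet {q : ℝ × R3 | InCore P k q.1 q.2} := by
  exact measurableSet_lt (measurable_dS k) measurable_const
theorem measurableSet_deep (N : ℕ) (δ : ℝ) (τ : Tile) :
    MeasurableSet {q : ℝ × R3 | Deep P N δ τ q.1 q.2} := by
  unfold Deep Par.X
  refine t2_and (MeasurableSet.const _) (t2_and ?_ (t2_and ?_ (t2_and ?_ ?_))) <;>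
    exact measurableSet_le (by fun_prop) (by fun_prop)
theorem measurableSet_good (N : ℕ) (δ Lv : ℝ) :
    MeasurableSet {q : ℝ × R3 × R3 | GoodSt P N δ Lv q.1 q.2.1 q.2.2} := by
  unfold GoodSt
  rw [Set.ofPred_exists]
  refine MeasurableSet.iUnion fun τ => ?_
  have h1 : Measurable fun q : ℝ × R3 × R3 => (q.1, q.2.1) := by fun_prop
  have h2 : Measurable fun q : ℝ × R3 × R3 => U P (τ, true) q.1 q.2.1 := (measurable_U _).comp h1
  exact t2_and (h1 (measurableSet_deep N δ τ))
    (t2_and (measurableSet_le measurable_snd.snd.norm measurable_const)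
    (measurableSet_le measurable_const
      (t2_csub measurable_snd.snd h2 _)))
theorem measD_gk (k : Bm) : MeasD (gk P k) := by
  unfold MeasD gk
  have h1 : Measurable fun q : ℝ × R3 × R3 => ((0 : ℝ), q.2.1 - q.1 • q.2.2) := by fun_prop
  have h2 : Measurable fun q : ℝ × R3 × R3 => U P k 0 (q.2.1 - q.1 • q.2.2) := (measurable_U _).comp h1
  refine Measurable.ite (MeasurableSet.inter (((measurable_lab k.1).comp h1) (measurableSet_layer k)) ?_)
    measurable_const measurable_const
  change MeasurableSet {q : ℝ × R3 × R3 | ∀ j, |q.2.2 j - U P k 0 (q.2.1 - q.1 • q.2.2) j| ≤ P.ww k.1.1}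
  rw [Set.ofPred_forall]
  exact MeasurableSet.iInter fun j => measurableSet_le
    (t2_csub measurable_snd.snd h2 _) measurable_const
theorem measD_Ck (k : Bm) : MeasD (Ck P k) := by
  unfold MeasD Ck
  have h1 : Measurable fun q : ℝ × R3 × R3 => (q.1, q.2.1) := by fun_prop
  have h2 : Measurable fun q : ℝ × R3 × R3 => U P k q.1 q.2.1 := (measurable_U _).comp h1
  have h3 : Measurable fun q : ℝ × R3 × R3 => dS P k q.1 q.2.1 := by
    simpa only [Function.comp_def] using (measurable_dS (P := P) k).comp h1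
  exact t2_Ck measurable_fst h3 measurable_snd.snd h2 _ _ _
theorem measD_Cke (k : Bm) : MeasD (Cke P k) := by
  unfold MeasD Cke
  have h1 : Measurable fun q : ℝ × R3 × R3 => (q.1, q.2.1) := by fun_prop
  have h2 : Measurable fun q : ℝ × R3 × R3 => U P k q.1 q.2.1 := (measurable_U _).comp h1
  exact Measurable.ite (measurableSet_le (measurable_snd.snd.sub h2).norm measurable_const)
    (Measurable.const_mul (measD_Ck k) _) measurable_const
theorem meas2_g0 (N : ℕ∞) : Meas2 (g0 P N) := by
  unfold Meas2 g0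
  refine Measurable.tsum fun k => Measurable.ite (MeasurableSet.const _) ?_ measurable_const
  exact (measD_gk k).comp measurable_const (measurable_hat.comp measurable_fst) measurable_snd
theorem measD_gs (N : ℕ∞) : MeasD (gs P N) := by
  exact (meas2_g0 N).comp (by fun_prop) (by fun_prop)
theorem measD_GC (N : ℕ∞) : MeasD (GC P N) := by
  unfold MeasD GC
  refine Measurable.tsum fun k => Measurable.ite
    ((MeasurableSet.const _).inter (t2_hat2 (measurableSet_core k))) ?_ measurable_const
  exact (measD_Cke k).comp measurable_fst (measurable_hat.comp measurable_snd.fst) measurable_snd.snd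
theorem measD_G (N : ℕ∞) : MeasD (G P N) := by
  exact Measurable.add (measD_gs N) (measD_GC N)
theorem measurable_rb (N : ℕ) : Measurable (fun q : ℝ × R3 => rb P N q.1 q.2) := by
  unfold rb
  exact (Measurable.const_div (((measurable_fst.const_mul _).add
    (measurable_dd.comp measurable_snd)).add_const _) _).ennreal_ofReal
theorem measD_sig : MeasD (sig P) := by
  unfold MeasD sig
  refine Measurable.const_add (Measurable.tsum fun τ => Measurable.ite
    (t2_hat2 (measurableSet_tile τ)) ?_ measurable_const) _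
  refine Finset.measurable_sum _ fun χ _ => Finset.measurable_sum _ fun ε _ => ?_
  refine Measurable.pow_const (measurable_invn.comp (measurable_snd.snd.sub ?_)) _
  have h2 : Measurable fun q : ℝ × R3 × R3 => U P (τ, ε) q.1 (hat q.2.1) := (measurable_U _).comp t2_hat2
  unfold ctr
  refine t2_toLp fun j => ?_
  split_ifs
  exacts [(t2_coord _).comp h2, measurable_const, measurable_const, measurable_const]
theorem measD_Lam : MeasD (Lam P) := by
  unfold MeasD Lam
  refine Measurable.const_add (Measurable.pow_const (Measurable.mul (by fun_prop) ?_) _) _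
  refine meas_timeInt (g := fun (p : ℝ × R3 × R3) s => sig P s (p.2.1 - (p.1 - s) • p.2.2) p.2.2 ^ (3 / 2 : ℝ))
    ?_ measurable_const measurable_fst
  exact (measD_sig.comp measurable_snd t2_char measurable_fst.snd.snd).pow_const _
theorem measurable_om (ϱ : ℝ) : Measurable (fun q : ℝ × R3 × R3 => om P ϱ q.1 q.2.1 q.2.2) := by
  unfold om
  exact (((measurable_fst.const_mul _).add (measurable_dd.comp measurable_snd.fst)).add
    ((measurable_fst.const_mul _).mul measurable_snd.snd.norm)).add_const _
theorem measD_Th (ϱ : ℝ) (j : ℕ) : MeasD (Th P ϱ j) := by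
  unfold MeasD Th
  exact (((measurable_om ϱ).pow_const _).mul measurable_snd.snd.norm.neg.exp).ennreal_ofReal
theorem meas2_gas : Meas2 (gas P) := by
  unfold Meas2 gas
  exact Measurable.ite (t2_and (measurableSet_le measurable_const (measurable_dd.comp measurable_fst))
    (measurableSet_lt measurable_snd.norm measurable_const)) (measurable_MM.comp measurable_snd)
    measurable_const
theorem meas2_seed (N : ℕ) : Meas2 (seed P N) := by
  unfold Meas2 seed
  exact Measurable.ite (t2_and (measurableSet_le (measurable_dd.comp measurable_fst) measurable_const)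
    (measurableSet_le (measurable_snd.sub_const _).norm measurable_const)) measurable_const
    measurable_const
theorem meas2_F0 (N : ℕ) (σ : ℝ≥0) : Meas2 (F0 P N σ) := by
  exact Measurable.add (Measurable.add (meas2_g0 N) meas2_gas) (Measurable.const_mul (meas2_seed N) _)
theorem meas2_F0lim : Meas2 (F0lim P) := by
  exact Measurable.add (meas2_g0 ⊤) meas2_gas
theorem measurable_chi : Measurable chi := by
  unfold chi
  exact Measurable.ite (measurableSet_le measurable_const measurable_nrm) measurable_const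
    measurable_const
theorem measD_hot (N : ℕ) {F : Den} (hF : MeasD F) : MeasD (hot P N F) := by
  exact Measurable.sub hF (measD_G N)
theorem measD_hot1 (N : ℕ) (B'' : ℝ≥0∞) {F : Den} (hF : MeasD F) : MeasD (hot1 P N B'' F) := by
  exact Measurable.sub (measD_hot N hF) (Measurable.const_mul (Measurable.mul (measD_Th _ _) measD_Lam) _)
theorem measD_KK (N : ℕ) {F f : Den} (hF : MeasD F) (hf : MeasD f) : MeasD (KK P N F f) := by
  unfold MeasD KK
  refine meas_timeInt (g := fun (p : ℝ × R3 × R3) s => Ex F s p.1 p.2.1 p.2.2 *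
    (2 * Qp (G P N s (p.2.1 - (p.1 - s) • p.2.2)) (f s (p.2.1 - (p.1 - s) • p.2.2)) p.2.2))
    ?_ measurable_const measurable_fst
  exact (meas_Ex hF measurable_snd measurable_fst.fst measurable_fst.snd.fst measurable_fst.snd.snd).mul
    ((meas_Qp (t2_unc (measD_G N) measurable_snd t2_char) (t2_unc hf measurable_snd t2_char)
      measurable_fst.snd.snd).const_mul _)
theorem measD_NL {f : Den} (hf : MeasD f) : MeasD (NL f) := by
  unfold MeasD NL
  refine meas_timeInt (g := fun (p : ℝ × R3 × R3) s =>
    Qp (f s (p.2.1 - (p.1 - s) • p.2.2)) (f s (p.2.1 - (p.1 - s) • p.2.2)) p.2.2)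
    ?_ measurable_const measurable_fst
  exact meas_Qp (t2_unc hf measurable_snd t2_char) (t2_unc hf measurable_snd t2_char)
    measurable_fst.snd.snd
theorem MeasD.slice {F : Den} (hF : MeasD F) (t : ℝ) : Meas2 (F t) := by
  exact hF.comp measurable_const measurable_fst measurable_snd
theorem MeasD.vel {F : Den} (hF : MeasD F) (t : ℝ) (x : R3) : Measurable (F t x) := by
  exact hF.comp measurable_const measurable_const measurable_id
theorem Meas2.vel {f : R3 → R3 → ℝ≥0∞} (hf : Meas2 f) (x : R3) : Measurable (f x) := by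
  exact hf.comp measurable_const measurable_id
theorem measD_tr (t1 : ℝ) {g : R3 → R3 → ℝ≥0∞} (hg : Meas2 g) : MeasD (tr t1 g) := by
  exact hg.comp (by fun_prop) (by fun_prop)
theorem measD_Ds (t1 : ℝ) {g : R3 → R3 → ℝ≥0∞} (hg : Meas2 g) : MeasD (Ds t1 g) := by
  unfold MeasD Ds
  refine meas_timeInt (g := fun (p : ℝ × R3 × R3) s =>
    Qp (tr t1 g s (p.2.1 - (p.1 - s) • p.2.2)) (tr t1 g s (p.2.1 - (p.1 - s) • p.2.2)) p.2.2)
    ?_ measurable_const measurable_fst
  exact meas_Qp (t2_unc (measD_tr t1 hg) measurable_snd t2_char)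
    (t2_unc (measD_tr t1 hg) measurable_snd t2_char) measurable_fst.snd.snd
theorem measD_Lam2 (t1 : ℝ) (ρ : ℝ≥0∞) {g Λ1 : R3 → R3 → ℝ≥0∞} (hg : Meas2 g) (hΛ : Meas2 Λ1) :
    MeasD (Lam2 t1 ρ g Λ1) := by
  unfold MeasD Lam2
  refine Measurable.const_add (Measurable.mul (by unfold ew; fun_prop)
    (Measurable.add (measD_tr t1 hΛ) (Measurable.const_mul ?_ _))) _
  refine meas_timeInt (g := fun (p : ℝ × R3 × R3) s => S2 (tr t1 g s (p.2.1 - (p.1 - s) • p.2.2)) p.2.2)
    ?_ measurable_const measurable_fst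
  exact meas_S2 (t2_unc (measD_tr t1 hg) measurable_snd t2_char) measurable_fst.snd.snd
theorem measD_Maj (t1 : ℝ) (K : ℝ≥0∞) : MeasD (Maj P t1 K) := by
  unfold MeasD Maj
  have hW : Measurable fun p : ℝ × R3 × R3 => W (1 / 2) p.2.2 := (measurable_W _).comp measurable_snd.snd
  have hg : Meas2 (G P ⊤ t1) := (measD_G ⊤).slice t1
  exact Measurable.ite (measurableSet_le measurable_fst measurable_const)
    (Measurable.add (measD_G ⊤) ((hW.mul measD_Lam).const_mul _))
    (Measurable.add (Measurable.add (measD_tr t1 hg) (Measurable.const_mul (measD_Ds t1 hg) _))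
      ((hW.mul (measD_Lam2 t1 _ hg (measD_Lam.slice t1))).const_mul _))
theorem measurable_adiff : Measurable (fun q : ℝ≥0∞ × ℝ≥0∞ => adiff q.1 q.2) := by
  unfold adiff
  fun_prop
theorem measurable_dlt {F : Den} (hF : MeasD F) : Measurable (fun q : ℝ × R3 => dlt (F q.1 q.2)) := by
  unfold dlt
  refine Measurable.lintegral_prod_right' (f := fun p : (ℝ × R3) × R3 =>
    adiff (F p.1.1 p.1.2 p.2) (MM p.2) * pw 1 p.2) ?_
  exact (measurable_adiff.comp ((hF.comp measurable_fst.fst measurable_fst.snd measurable_snd).prodMk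
    (measurable_MM.comp measurable_snd))).mul ((measurable_pw 1).comp measurable_snd)

theorem t2_sub {α : Type} {f : R3 → α} (h : ∀ x, f (hat x) = f x) (x z : R3) :
    f (hat x - z) = f (x - z) := by
  rw [← h (hat x - z), hat_hat_sub, h]

theorem g0_hat (N : ℕ∞) (x : R3) : g0 P N (hat x) = g0 P N x := by
  funext v
  simp only [g0, hat_hat]
theorem gs_hat (N : ℕ∞) (t : ℝ) (x : R3) : gs P N t (hat x) = gs P N t x := by
  funext v
  simp only [gs, t2_sub (g0_hat N)]
theorem GC_hat (N : ℕ∞) (t : ℝ) (x : R3) : GC P N t (hat x) = GC P N t x := by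
  unfold GC
  rw [hat_hat]
theorem G_hat (N : ℕ∞) (t : ℝ) (x : R3) : G P N t (hat x) = G P N t x := by
  funext v
  simp only [G, gs_hat, GC_hat]
theorem rb_hat (N : ℕ) (t : ℝ) (x : R3) : rb P N t (hat x) = rb P N t x := by
  simp only [rb, dd_hat]
theorem sig_hat (t : ℝ) (x : R3) : sig P t (hat x) = sig P t x := by
  unfold sig
  rw [hat_hat]
theorem Lam_hat (t : ℝ) (x : R3) : Lam P t (hat x) = Lam P t x := by
  funext v
  simp only [Lam, t2_sub (sig_hat _)]
theorem Th_hat (ϱ : ℝ) (j : ℕ) (t : ℝ) (x : R3) : Th P ϱ j t (hat x) = Th P ϱ j t x := by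
  funext v
  simp only [Th, om, dd_hat]
theorem gas_hat (x : R3) : gas P (hat x) = gas P x := by
  funext v
  simp only [gas, dd_hat]
theorem seed_hat (N : ℕ) (x : R3) : seed P N (hat x) = seed P N x := by
  funext v
  simp only [seed, dd_hat]
theorem F0_hat (N : ℕ) (σ : ℝ≥0) (x : R3) : F0 P N σ (hat x) = F0 P N σ x := by
  funext v
  simp only [F0, g0_hat, gas_hat, seed_hat]
theorem F0lim_hat (x : R3) : F0lim P (hat x) = F0lim P x := by
  funext v
  simp only [F0lim, g0_hat, gas_hat]
theorem Maj_hat (t1 : ℝ) (K : ℝ≥0∞) (t : ℝ) (x : R3) : Maj P t1 K t (hat x) = Maj P t1 K t x := by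
  funext v
  have h1 : ∀ {g : R3 → R3 → ℝ≥0∞}, (∀ x, g (hat x) = g x) → ∀ s x, tr t1 g s (hat x) = tr t1 g s x :=
    fun hg s x => by
      funext v
      simp only [tr, t2_sub hg]
  have h2 := h1 (G_hat (P := P) ⊤ t1)
  have h3 := h1 (Lam_hat (P := P) t1)
  simp only [Maj, G_hat, Lam_hat, Ds, Lam2, h2, h3, fun s => t2_sub (h2 s)]
theorem Inv.t2 {T : ℝ} {F : Den} (h : Inv T F) {t : ℝ} (ht : t ∈ Icc 0 T) (x : R3) :
    F t (hat x) = F t x := funext fun v => (h t ht x v).symm

theorem Inv.hot {T : ℝ} {F : Den} (h : Inv T F) (N : ℕ) : Inv T (hot P N F) := by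
  intro t ht x v
  simp only [R68.hot, G_hat, h.t2 ht]
theorem Inv.hot1 {T : ℝ} {F : Den} (h : Inv T F) (N : ℕ) (B'' : ℝ≥0∞) : Inv T (hot1 P N B'' F) := by
  intro t ht x v
  simp only [R68.hot1, Th_hat, Lam_hat, (h.hot N).t2 ht]
theorem Inv.Ex {T : ℝ} {F : Den} (h : Inv T F) {s t : ℝ} (hs : 0 ≤ s) (ht : t ≤ T) (x v : R3) :
    Ex F s t x v = Ex F s t (hat x) v := by
  unfold R68.Ex
  congr 1
  refine setLIntegral_congr_fun measurableSet_Ioo fun σ hσ => ?_
  rw [t2_sub (h.t2 ⟨hs.trans hσ.1.le, hσ.2.le.trans ht⟩)]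
theorem Inv.KK {T : ℝ} {F f : Den} (h : Inv T F) (hf : Inv T f) (N : ℕ) : Inv T (KK P N F f) := by
  intro t ht x v
  unfold R68.KK
  refine setLIntegral_congr_fun measurableSet_Ioo fun s hs => ?_
  rw [t2_sub (hf.t2 ⟨hs.1.le, hs.2.le.trans ht.2⟩), t2_sub (G_hat N s), h.Ex hs.1.le ht.2]
theorem per_of_hat {α : Type} {f : R3 → α} (h : ∀ x, f (hat x) = f x) : IsPeriodic3 f := by
  intro x i
  rw [← h (x + _), hat_periodic x i, h]
theorem one_le_sig (s : ℝ) (x v : R3) : 1 ≤ sig P s x v := by
  exact le_self_add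
theorem one_le_Lam (s : ℝ) (x v : R3) : 1 ≤ Lam P s x v := by
  exact le_self_add
theorem Lam_zero (x v : R3) : Lam P 0 x v = 1 := by
  simp [Lam]
theorem gs_transport (N : ℕ∞) (s σ : ℝ) (y v : R3) : gs P N (s + σ) (y + σ • v) v = gs P N s y v := by
  simp only [gs, add_smul, add_sub_add_right_eq_sub]
theorem chi_le_one (v : R3) : chi v ≤ 1 := by
  unfold chi
  split_ifs <;> simp

end Crest.Agent.R68
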