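import Crest.Agent.R68.Beam
import Crest.Agent.R68.PBd
import Crest.Agent.R68.Tile2

/-! `LateIn` from a majorant by countably many Gaussian beams.  For `v` in the unit ball about `q` the point `x - τ v` stays within distance `τ` of `x - τ q`, so only lattice vectors `j` with
`nrm (x - τ q - j) ≤ 1 + (s - t1) + τ` matter; there are at most `(2(1 + (s-t1) + τ) + 1)² ≤ 9 (1+(s-t1)+τ)²` of them.  `tilt2`: Hölder `S2(g)^{3/2} ≤ (∫ g)^{1/2} ∫ g ‖v-a‖^{-3/2}`, `beam_mass`, `beam_tilt2`.  `tilt3`: `Qp_tsum`, `beam_tilt3`. -/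

set_option autoImplicit false

open MeasureTheory Set Filter Topology Crest.AnalysisR.VecCalc3 Crest.AnalysisR.PDE.Boltzmann
open scoped ENNReal NNReal

namespace Crest.Agent.R68

/-- lattice vector in the transversal plane -/
noncomputable def lat (j : ℤ × ℤ) : R3 := lift ((j.1 : ℝ), (j.2 : ℝ))

namespace BeamSumX

theorem nrm_le (y : R3) : nrm y ≤ ‖y‖ :=
  max_le (by simpa using PiLp.norm_apply_le y 0) (by simpa using PiLp.norm_apply_le y 1)

theorem card_le (z : ℝ) {R : ℝ} (hR : 1 ≤ R) : ((Finset.Icc ⌈z - R⌉ ⌊z + R⌋).card : ℝ) ≤ 3 * R := by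
  rw [Int.card_Icc]
  have h1 := Int.le_ceil (z - R)
  have h2 := Int.floor_le (z + R)
  rcases le_total (⌊z + R⌋ + 1 - ⌈z - R⌉) 0 with h | h
  · rw [Int.toNat_of_nonpos h]
    push_cast
    linarith
  · have : ((⌊z + R⌋ + 1 - ⌈z - R⌉).toNat : ℝ) = ((⌊z + R⌋ + 1 - ⌈z - R⌉ : ℤ) : ℝ) := by
      exact_mod_cast congrArg (Int.cast : ℤ → ℝ) (Int.toNat_of_nonneg h)
    rw [this]
    push_cast
    linarith

theorem exists_J (z : R3) {R : ℝ} (hR : 1 ≤ R) : ∃ J : Finset (ℤ × ℤ),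
    (J.card : ℝ≥0∞) ≤ 9 * ENNReal.ofReal (R ^ 2) ∧ ∀ j, nrm (z - lat j) ≤ R → j ∈ J := by
  refine ⟨Finset.Icc ⌈z 0 - R⌉ ⌊z 0 + R⌋ ×ˢ Finset.Icc ⌈z 1 - R⌉ ⌊z 1 + R⌋, ?_, fun j hj => ?_⟩
  · rw [← ENNReal.ofReal_natCast, show (9 : ℝ≥0∞) = ENNReal.ofReal 9 by simp, ← ENNReal.ofReal_mul (by norm_num)]
    refine ENNReal.ofReal_le_ofReal ?_
    rw [Finset.card_product, Nat.cast_mul]
    exact (mul_le_mul (card_le _ hR) (card_le _ hR) (Nat.cast_nonneg _) (by linarith)).trans_eq (by ring)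
  · have h0 : |z 0 - j.1| ≤ R := by simpa [lat, lift] using (le_max_left _ _).trans hj
    have h1 : |z 1 - j.2| ≤ R := by simpa [lat, lift] using (le_max_right _ _).trans hj
    rw [abs_le] at h0 h1
    simp only [Finset.mem_product, Finset.mem_Icc, Int.ceil_le, Int.le_floor]
    refine ⟨⟨?_, ?_⟩, ?_, ?_⟩ <;> linarith [h0.1, h0.2, h1.1, h1.2]

theorem beam_shift (ρ : ℝ≥0∞) (b p μ : Fin 3 → ℝ) (s : ℝ) (y l a : R3) :
    beam ρ b p μ s (y - l) a = beam ρ b (fun c => p c - b c * l c) μ s y a := by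
  unfold beam
  congr 5
  refine Finset.sum_congr rfl fun i _ => ?_
  simp only [PiLp.sub_apply]
  ring

theorem pint_tsum {κ : Type} [Countable κ] (n z : R3) {f : κ → R3 → ℝ≥0∞} (hf : ∀ i, Measurable (f i)) :
    pint n z (fun b => ∑' i, f i b) = ∑' i, pint n z (f i) := by
  unfold pint
  rw [← lintegral_tsum fun i => (Plane.meas n z (hf i)).aemeasurable]
  simp only [ENNReal.tsum_mul_left]

theorem holder {G : R3 → ℝ≥0∞} (hG : Measurable G) (v : R3) :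
    S2 G v ^ (3 / 2 : ℝ) ≤ (∫⁻ a, G a) ^ (1 / 2 : ℝ) * ∫⁻ a, G a * invn (v - a) ^ (3 / 2 : ℝ) := by
  have hm : Measurable fun a => G a * invn (v - a) ^ (3 / 2 : ℝ) := by
    unfold invn
    fun_prop
  have h := ENNReal.lintegral_mul_norm_pow_le (μ := volume) hG.aemeasurable hm.aemeasurable (p := 1 / 3) (q := 2 / 3)
    (by norm_num) (by norm_num) (by norm_num)
  have e : ∀ a, G a ^ (1 / 3 : ℝ) * (G a * invn (v - a) ^ (3 / 2 : ℝ)) ^ (2 / 3 : ℝ) = G a * invn (v - a) := by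
    intro a
    rw [ENNReal.mul_rpow_of_nonneg _ _ (by norm_num), ← mul_assoc,
      ← ENNReal.rpow_add_of_nonneg _ _ (by norm_num) (by norm_num), ← ENNReal.rpow_mul]
    norm_num
  simp only [e] at h
  refine (ENNReal.rpow_le_rpow h (by norm_num)).trans_eq ?_
  rw [ENNReal.mul_rpow_of_nonneg _ _ (by norm_num), ← ENNReal.rpow_mul, ← ENNReal.rpow_mul]
  norm_num

section
variable {κ : Type} [Countable κ] {ρ : κ → ℝ≥0∞} {b p μ : κ → Fin 3 → ℝ} {s τ : ℝ}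

omit [Countable κ] in
theorem meas_beam (i : κ) (x : R3) : Measurable
    (Function.uncurry fun v a : R3 => beam (ρ i) (b i) (p i) (μ i) s (x - τ • v) a) :=
  (measurable_beam (ρ i) (b i) (p i) (μ i)).comp
    (f := fun q : R3 × R3 => (s, x - τ • q.1, q.2)) (by fun_prop)

omit [Countable κ] in
theorem meas_beam1 (i : κ) (y : R3) : Measurable (beam (ρ i) (b i) (p i) (μ i) s y) :=
  (measurable_beam (ρ i) (b i) (p i) (μ i)).comp (f := fun a : R3 => (s, y, a)) (by fun_prop)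

theorem mass (hb : ∀ k i, 0 ≤ b k i) (hμ : ∀ k i, 0 < μ k i) (hs : 0 ≤ s) (y : R3) :
    ∫⁻ a, ∑' i, beam (ρ i) (b i) (p i) (μ i) s y a ≤ 6 * ∑' i, ρ i := by
  rw [lintegral_tsum fun i => (meas_beam1 i y).aemeasurable, ← ENNReal.tsum_mul_left]
  exact ENNReal.tsum_le_tsum fun i => beam_mass _ _ (hb i) (hμ i) hs y

end

theorem tilt2 : ∃ C : ℝ≥0, ∀ {κ : Type} [Countable κ] {ρ : κ → ℝ≥0∞} {b p μ : κ → Fin 3 → ℝ} {s τ : ℝ},
    (∀ k i, 0 ≤ b k i) → (∀ k i, 0 < μ k i) → 0 ≤ s → 0 ≤ τ → ∀ x : R3,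
    PB (fun v => S2 (fun a => ∑' i, beam (ρ i) (b i) (p i) (μ i) s (x - τ • v) a) v ^ (3 / 2 : ℝ))
      (fun _ => (C * ∑' i, ρ i) ^ (3 / 2 : ℝ)) := by
  obtain ⟨C, hC⟩ := beam_tilt2
  refine ⟨6 + C, fun {κ} _ {ρ b p μ s τ} hb hμ hs hτ x n q hn => ?_⟩
  have hm : ∀ i, Measurable fun v : R3 =>
      ∫⁻ a, beam (ρ i) (b i) (p i) (μ i) s (x - τ • v) a * invn (v - a) ^ (3 / 2 : ℝ) := fun i => by
    refine Measurable.lintegral_prod_right' (f := fun q : R3 × R3 =>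
      beam (ρ i) (b i) (p i) (μ i) s (x - τ • q.1) q.2 * invn (q.1 - q.2) ^ (3 / 2 : ℝ))
      ((meas_beam i x).mul ?_)
    unfold invn
    fun_prop
  calc _ ≤ pint n q (fun v => (6 * ∑' i, ρ i) ^ (1 / 2 : ℝ) * ∑' i, (Metric.ball q 1).indicator (fun v =>
          ∫⁻ a, beam (ρ i) (b i) (p i) (μ i) s (x - τ • v) a * invn (v - a) ^ (3 / 2 : ℝ)) v) := by
        refine pint_mono _ _ fun v => ?_
        by_cases hv : v ∈ Metric.ball q 1
        · simp only [indicator_of_mem hv]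
          refine (holder (Measurable.tsum fun i => meas_beam1 i _) v).trans ?_
          refine mul_le_mul' (ENNReal.rpow_le_rpow (mass hb hμ hs _) (by norm_num)) (le_of_eq ?_)
          simp only [← ENNReal.tsum_mul_right]
          refine lintegral_tsum fun i => ((meas_beam1 i _).mul ?_).aemeasurable
          unfold invn
          fun_prop
        · simp [indicator_of_notMem hv]
    _ ≤ (6 * ∑' i, ρ i) ^ (1 / 2 : ℝ) * ∑' i, C * ρ i := by
        rw [pint_cmul _ _ _ (Measurable.tsum fun i => (hm i).indicator measurableSet_ball),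
          pint_tsum _ _ fun i => (hm i).indicator measurableSet_ball]
        exact mul_le_mul_right (ENNReal.tsum_le_tsum fun i => hC _ _ _ _ (hb i) (hμ i) s τ hs hτ x n q hn) _
    _ ≤ ((6 + C : ℝ≥0) * ∑' i, ρ i) ^ (1 / 2 : ℝ) * ((6 + C : ℝ≥0) * ∑' i, ρ i) ^ (1 : ℝ) := by
        rw [ENNReal.tsum_mul_left, ENNReal.rpow_one]
        push_cast
        gcongr
        · exact le_self_add
        · exact le_add_self
    _ = _ := by
        rw [← ENNReal.rpow_add_of_nonneg _ _ (by norm_num) (by norm_num)]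
        norm_num

theorem tilt3 : ∃ C : ℝ≥0, ∀ {κ : Type} [Countable κ] {ρ : κ → ℝ≥0∞} {b p μ : κ → Fin 3 → ℝ} {s τ : ℝ},
    (∀ k i, 0 ≤ b k i) → (∀ k i, 0 < μ k i) → 0 ≤ s → 0 ≤ τ → ∀ x n z : R3, n ≠ 0 →
    pint n z (fun v => Qp (fun a => ∑' i, beam (ρ i) (b i) (p i) (μ i) s (x - τ • v) a)
      (fun a => ∑' i, beam (ρ i) (b i) (p i) (μ i) s (x - τ • v) a) v) ≤ C * (∑' i, ρ i) ^ 2 := by
  obtain ⟨C, hC⟩ := beam_tilt3
  refine ⟨C, fun {κ} _ {ρ b p μ s τ} hb hμ hs hτ x n z hn => ?_⟩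
  have hm : ∀ i j, Measurable fun v : R3 => Qp (beam (ρ i) (b i) (p i) (μ i) s (x - τ • v))
      (beam (ρ j) (b j) (p j) (μ j) s (x - τ • v)) v := fun i j =>
    meas_Qp (meas_beam i x) (meas_beam j x) measurable_id
  simp only [Qp_tsum (fun i => meas_beam1 (ρ := ρ) (b := b) (p := p) (μ := μ) (s := s) i _)
    (fun i => meas_beam1 (ρ := ρ) (b := b) (p := p) (μ := μ) (s := s) i _)]
  rw [pint_tsum _ _ fun i => Measurable.tsum (hm i), sq, ← ENNReal.tsum_mul_right, ← ENNReal.tsum_mul_left]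
  refine ENNReal.tsum_le_tsum fun i => ?_
  rw [pint_tsum _ _ (hm i), ← ENNReal.tsum_mul_left, ← ENNReal.tsum_mul_left]
  exact ENNReal.tsum_le_tsum fun j => hC _ _ _ _ _ _ _ _ (hb i) (hμ i) (hb j) (hμ j) s τ hs hτ x n z hn

open Classical in
theorem loc {ι : Type} {ρ : ℝ≥0∞} {G : R3 → R3 → ℝ≥0∞} {b p μ : ι → Fin 3 → ℝ} {ρk : ι → ℝ≥0∞} {s R τ : ℝ}
    (hR : 1 ≤ R) (hτ : 0 ≤ τ) (hρ : ∑' k, ρk k ≤ ρ)
    (h : ∀ y a, G y a ≤ ∑' j : ℤ × ℤ, ∑' k,
      if nrm (y - lat j) ≤ R then beam (ρk k) (b k) (p k) (μ k) s (y - lat j) a else 0) (z : R3) :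
    ∃ ρ' : (ℤ × ℤ) × ι → ℝ≥0∞, ∑' i, ρ' i ≤ 9 * ENNReal.ofReal ((R + τ) ^ 2) * ρ ∧ ∀ y, nrm (z - y) ≤ τ → ∀ a,
      G y a ≤ ∑' i, beam (ρ' i) (b i.2) (fun c => p i.2 c - b i.2 c * lat i.1 c) (μ i.2) s y a := by
  obtain ⟨J, hJ, hmem⟩ := exists_J z (R := R + τ) (by linarith)
  refine ⟨fun i => if i.1 ∈ J then ρk i.2 else 0, ?_, fun y hy a => (h y a).trans ?_⟩
  · rw [ENNReal.tsum_prod', tsum_eq_sum (s := J) fun j hj => by simp [hj]]
    calc _ ≤ ∑ _j ∈ J, ρ := Finset.sum_le_sum fun j hj => by simpa [hj] using hρ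
      _ ≤ _ := by
        rw [Finset.sum_const, nsmul_eq_mul]
        exact mul_le_mul_left hJ _
  · refine le_trans (ENNReal.tsum_le_tsum fun j => ENNReal.tsum_le_tsum fun k => ?_) ENNReal.tsum_prod'.ge
    dsimp only
    split_ifs with h1 h2
    · rw [beam_shift]
    · refine absurd (hmem j ?_) h2
      have := nrm_add_le (z - y) (y - lat j)
      rw [sub_add_sub_cancel] at this
      linarith
    · exact zero_le
    · exact zero_le

theorem near (x : R3) {τ : ℝ} (hτ : 0 ≤ τ) {q v : R3} (hv : v ∈ Metric.ball q 1) :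
    nrm (x - τ • q - (x - τ • v)) ≤ τ := by
  refine (nrm_le _).trans ?_
  rw [sub_sub_sub_cancel_left, ← smul_sub, norm_smul, Real.norm_of_nonneg hτ]
  exact mul_le_of_le_one_right hτ (mem_ball_iff_norm.1 hv).le

end BeamSumX

open BeamSumX

open Classical in
theorem lateIn_of_beams (CΛ : ℝ≥0) : ∃ C : ℝ≥0, ∀ {ι : Type} [Countable ι] {ρ : ℝ≥0∞} {t1 : ℝ} {g Λ1 : R3 → R3 → ℝ≥0∞}
    (b p μ : ι → Fin 3 → ℝ) (ρk : ℝ → ι → ℝ≥0∞), 0 ≤ t1 → Meas2 g → Meas2 Λ1 → (∀ x v, 1 ≤ Λ1 x v) →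
    (∀ x v, g x v ≠ 0 → ‖v‖ ≤ 3) → (∀ k i, 0 ≤ b k i) → (∀ k i, 0 < μ k i) →
    (∀ s, t1 ≤ s → ∑' k, ρk s k ≤ ρ) →
    (∀ s, t1 ≤ s → ∀ y a, tr t1 g s y a ≤ ∑' j : ℤ × ℤ, ∑' k,
      if nrm (y - lat j) ≤ 1 + (s - t1) then beam (ρk s k) (b k) (p k) (μ k) s (y - lat j) a else 0) →
    (∀ τ, 0 ≤ τ → ∀ x, PB (fun v => Λ1 (x - τ • v) v ^ (3 / 2 : ℝ)) (fun _ => CΛ * ENNReal.ofReal ((1 + τ) ^ 2))) →
    LateIn C ρ t1 g Λ1 := by
  obtain ⟨C2, h2⟩ := tilt2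
  obtain ⟨C3, h3⟩ := tilt3
  refine ⟨54 + 9 * C2 + 81 * C3 + CΛ, fun {ι} _ {ρ t1 g Λ1} b p μ ρk ht mg mΛ hΛ hs hb hμ hρ hg hL =>
    ⟨mg, mΛ, hΛ, hs, fun s hts y => ?_, fun s τ hts hτ x n q hn => ?_, fun s τ hts hτ x n q hn => ?_,
      fun τ hτ x => (hL τ hτ x).mono (fun _ => le_rfl) fun _ _ => ?_⟩⟩
  · obtain ⟨ρ', h1, h2⟩ := loc (by linarith) le_rfl (hρ s hts) (hg s hts) y
    refine (lintegral_mono (h2 y (by simp [nrm]))).trans
      ((mass (b := fun i : (ℤ × ℤ) × ι => b i.2) (μ := fun i => μ i.2) (fun k => hb k.2) (fun k => hμ k.2) (ht.trans hts) y).trans ((mul_le_mul_right h1 6).trans ?_))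
    rw [add_zero]
    calc _ = 54 * ENNReal.ofReal ((1 + (s - t1)) ^ 2) * ρ := by ring
      _ ≤ _ := by
        push_cast
        gcongr ?_ * _ * _
        exact (le_self_add.trans le_self_add).trans le_self_add
  · obtain ⟨ρ', h1, h4⟩ := loc (by linarith) hτ (hρ s hts) (hg s hts) (x - τ • q)
    refine le_trans (pint_mono _ _ fun v => ?_) ((h2 (ρ := ρ') (b := fun i => b i.2)
      (p := fun i c => p i.2 c - b i.2 c * lat i.1 c) (μ := fun i => μ i.2) (fun k => hb k.2) (fun k => hμ k.2) (ht.trans hts) hτ x n q hn).trans ?_)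
    · refine indicator_le_indicator' fun hv => ENNReal.rpow_le_rpow ?_ (by norm_num)
      exact lintegral_mono fun a => mul_le_mul_left (h4 _ (near x hτ hv) a) _
    · refine ENNReal.rpow_le_rpow ((mul_le_mul_right h1 _).trans ?_) (by norm_num)
      calc _ = 9 * C2 * ENNReal.ofReal ((1 + (s - t1) + τ) ^ 2) * ρ := by ring
        _ ≤ _ := by
          push_cast
          gcongr ?_ * _ * _
          exact (le_add_self.trans le_self_add).trans le_self_add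
  · obtain ⟨ρ', h1, h4⟩ := loc (by linarith) hτ (hρ s hts) (hg s hts) (x - τ • q)
    refine le_trans (pint_mono _ _ fun v => ?_) ((h3 (ρ := ρ') (b := fun i => b i.2)
      (p := fun i c => p i.2 c - b i.2 c * lat i.1 c) (μ := fun i => μ i.2) (fun k => hb k.2) (fun k => hμ k.2) (ht.trans hts) hτ x n q hn).trans ?_)
    · by_cases hv : v ∈ Metric.ball q 1
      · rw [indicator_of_mem hv]
        exact Qp_mono (h4 _ (near x hτ hv)) (h4 _ (near x hτ hv)) v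
      · simp [indicator_of_notMem hv]
    · calc _ ≤ C3 * (9 * ENNReal.ofReal ((1 + (s - t1) + τ) ^ 2) * ρ) ^ 2 := by gcongr
        _ = 81 * C3 * ENNReal.ofReal ((1 + (s - t1) + τ) ^ 2) ^ 2 * ρ ^ 2 := by ring
        _ ≤ _ := by
          rw [← ENNReal.ofReal_pow (sq_nonneg _), ← pow_mul]
          push_cast
          gcongr ?_ * _ * _
          exact le_add_self.trans le_self_add
  · push_cast
    gcongr ?_ * _
    exact le_add_self

end Crest.Agent.R68
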