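import Crest.Agent.R68.Basic1

/-! Convergence of products `f_n(y,v) f_n(y,v_*)` when the velocity averages converge strongly.  On `Y_L = {y : ∫ g(y,v) dv ≤ L}` and for a measurable rectangle `A × B × C` (`A ⊆ Y_L`, `B`, `C` bounded) the integral is
`∫_A ρ_n^B ρ_n^C` with both factors bounded by `L` and convergent in `L¹`.  Remove the boundedness of `B, C` by domination, extend to all measurable sets by Dynkin's theorem
(`MeasurableSpace.induction_on_inter`; the dominating measure `g g_*` is finite on `Y_L × V × V`), to simple functions, and to all `κ` by dominated approximation; finally `L → ∞`. -/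

set_option autoImplicit false

open MeasureTheory Set Filter Topology Crest.AnalysisR.VecCalc3 Crest.AnalysisR.PDE.Boltzmann
open scoped ENNReal NNReal

namespace Crest.Agent.R68

namespace BilinA

section abstract
variable {Z : Type} [MeasurableSpace Z] {ν : Measure Z} {D : ℕ → Z → ℝ} {G : Z → ℝ}

/-- weak convergence to zero against `κ` -/
def Cv (ν : Measure Z) (D : ℕ → Z → ℝ) (κ : Z → ℝ) : Prop :=
  Tendsto (fun n => ∫ q, D n q * κ q ∂ν) atTop (𝓝 0)

theorem int_of {b κ : Z → ℝ} (hG : Measurable G) (hκ : Measurable κ) (hb : Integrable (fun q => G q * b q) ν)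
    (h : ∀ q, |κ q| ≤ |b q|) : Integrable (fun q => G q * κ q) ν :=
  hb.mono (hG.mul hκ).aestronglyMeasurable (Eventually.of_forall fun q => by
    simp only [Real.norm_eq_abs, abs_mul]
    exact mul_le_mul_of_nonneg_left (h q) (abs_nonneg _))

theorem intD (hD : ∀ n, Measurable (D n)) (hle : ∀ n, ∀ᵐ q ∂ν, |D n q| ≤ |G q|) {κ : Z → ℝ} (hκ : Measurable κ)
    (hi : Integrable (fun q => G q * κ q) ν) (n : ℕ) : Integrable (fun q => D n q * κ q) ν :=
  hi.mono ((hD n).mul hκ).aestronglyMeasurable ((hle n).mono fun q hq => by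
    simp only [Real.norm_eq_abs, abs_mul]
    exact mul_le_mul_of_nonneg_right hq (abs_nonneg _))

theorem Cv.close (hD : ∀ n, Measurable (D n)) (hG : Measurable G) (hle : ∀ n, ∀ᵐ q ∂ν, |D n q| ≤ |G q|)
    {κ b : Z → ℝ} {κk : ℕ → Z → ℝ} (hκ : Measurable κ) (hκk : ∀ k, Measurable (κk k))
    (hb : Integrable (fun q => G q * b q) ν) (h1 : ∀ q, |κ q| ≤ |b q|) (h2 : ∀ k q, |κk k q| ≤ |b q|)
    (hlim : ∀ᵐ q ∂ν, Tendsto (fun k => κk k q) atTop (𝓝 (κ q))) (hcv : ∀ k, Cv ν D (κk k)) : Cv ν D κ := by
  have hdc : Tendsto (fun k => ∫ q, |G q * (κ q - κk k q)| ∂ν) atTop (𝓝 0) := by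
    have := tendsto_integral_of_dominated_convergence (μ := ν) (F := fun k q => |G q * (κ q - κk k q)|)
      (f := fun _ => 0) (fun q => 2 * |G q * b q|)
      (fun k => (hG.mul (hκ.sub (hκk k))).abs.aestronglyMeasurable) (hb.abs.const_mul 2)
      (fun k => Eventually.of_forall fun q => by
        rw [Real.norm_eq_abs, abs_abs, abs_mul, abs_mul]
        have h3 := abs_sub (κ q) (κk k q)
        have h4 := mul_le_mul_of_nonneg_left (show |κ q - κk k q| ≤ 2 * |b q| by linarith [h1 q, h2 k q])
          (abs_nonneg (G q))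
        linarith)
      (hlim.mono fun q hq => by
        have := ((hq.const_sub (κ q)).const_mul (G q)).abs
        simpa using this)
    simpa using this
  rw [Cv, Metric.tendsto_atTop]
  intro ε hε
  obtain ⟨k, hk⟩ := (hdc.eventually (gt_mem_nhds (half_pos hε))).exists
  obtain ⟨N, hN⟩ := Metric.tendsto_atTop.1 (hcv k) _ (half_pos hε)
  refine ⟨N, fun n hn => ?_⟩
  have h3 := hN n hn
  have i1 := intD hD hle hκ (int_of hG hκ hb h1) n
  have i2 := intD hD hle (hκk k) (int_of hG (hκk k) hb (h2 k)) n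
  have h4 : |∫ q, D n q * κ q ∂ν - ∫ q, D n q * κk k q ∂ν| ≤ ∫ q, |G q * (κ q - κk k q)| ∂ν := by
    rw [← integral_sub i1 i2, ← Real.norm_eq_abs]
    refine norm_integral_le_of_norm_le ?_ ((hle n).mono fun q hq => ?_)
    · have := ((int_of hG hκ hb h1).sub (int_of hG (hκk k) hb (h2 k))).abs
      refine this.congr (Eventually.of_forall fun q => ?_)
      simp only [Pi.sub_apply, mul_sub]
    · rw [← mul_sub, Real.norm_eq_abs, abs_mul, abs_mul]
      exact mul_le_mul_of_nonneg_right hq (abs_nonneg _)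
  rw [Real.dist_eq, sub_zero] at h3 ⊢
  have h5 := abs_sub_abs_le_abs_sub (∫ q, D n q * κ q ∂ν) (∫ q, D n q * κk k q ∂ν)
  linarith

theorem Cv.add (hD : ∀ n, Measurable (D n)) (hle : ∀ n, ∀ᵐ q ∂ν, |D n q| ≤ |G q|) {κ κ' : Z → ℝ}
    (hκ : Measurable κ) (hκ' : Measurable κ') (hi : Integrable (fun q => G q * κ q) ν)
    (hi' : Integrable (fun q => G q * κ' q) ν) (c : ℝ) (h : Cv ν D κ) (h' : Cv ν D κ') :
    Cv ν D (fun q => κ q + c * κ' q) := by
  have := Tendsto.add h (Tendsto.const_mul c h')
  rw [mul_zero, add_zero] at this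
  refine this.congr fun n => ?_
  rw [← integral_const_mul, ← integral_add (intD hD hle hκ hi n) ((intD hD hle hκ' hi' n).const_mul c)]
  congr 1; ext q; ring

omit [MeasurableSpace Z] in
theorem abs_ind_le (S : Set Z) (e : Z → ℝ) (q : Z) : |S.indicator e q| ≤ |e q| := by
  by_cases h : q ∈ S <;> simp [h]

/-- from a generating π-system to all test functions, for a weight `e` with `G e` integrable -/
theorem cv_sets (hD : ∀ n, Measurable (D n)) (hG : Measurable G) (hle : ∀ n, ∀ᵐ q ∂ν, |D n q| ≤ |G q|)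
    {C : Set (Set Z)} (hC : ‹MeasurableSpace Z› = MeasurableSpace.generateFrom C) (hpi : IsPiSystem C)
    {e : Z → ℝ} (he : Measurable e) (hi : Integrable (fun q => G q * e q) ν) (h0 : Cv ν D e)
    (h1 : ∀ S ∈ C, Cv ν D (S.indicator e)) (S : Set Z) (hS : MeasurableSet S) : Cv ν D (S.indicator e) := by
  have ii : ∀ S : Set Z, MeasurableSet S → Integrable (fun q => G q * S.indicator e q) ν := fun S hS =>
    int_of hG (he.indicator hS) hi (abs_ind_le S e)
  induction S, hS using MeasurableSpace.induction_on_inter hC hpi with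
  | empty => simp [Cv]
  | basic t ht => exact h1 t ht
  | compl t htm ht =>
    have := Cv.add hD hle he (he.indicator htm) hi (ii t htm) (-1) h0 ht
    convert this using 1
    ext q
    by_cases h : q ∈ t <;> simp [h]
  | iUnion f hd hfm hf =>
    have hacc : ∀ k, Cv ν D ((⋃ i ∈ Finset.range k, f i).indicator e) := by
      intro k
      induction k with
      | zero => simp [Cv]
      | succ k ih =>
        have hm : MeasurableSet (⋃ i ∈ Finset.range k, f i) := Finset.measurableSet_biUnion _ fun i _ => hfm i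
        have := Cv.add hD hle (he.indicator hm) (he.indicator (hfm k)) (ii _ hm) (ii _ (hfm k)) 1 ih (hf k)
        convert this using 1
        ext q
        rw [Finset.range_add_one, Finset.set_biUnion_insert, one_mul, add_comm]
        refine congrFun (indicator_union_of_disjoint ?_ e) q
        simp only [disjoint_iUnion_right]
        intro i hi
        exact hd (Finset.mem_range.1 hi).ne'
    refine Cv.close hD hG hle (he.indicator (MeasurableSet.iUnion hfm))
      (fun k => he.indicator (Finset.measurableSet_biUnion _ fun i _ => hfm i)) hi (abs_ind_le _ e)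
      (fun k => abs_ind_le _ e) (Eventually.of_forall fun q => ?_) hacc
    by_cases h : q ∈ ⋃ i, f i
    · obtain ⟨i, hi⟩ := mem_iUnion.1 h
      rw [indicator_of_mem h]
      refine tendsto_const_nhds.congr' ?_
      filter_upwards [eventually_gt_atTop i] with k hk
      rw [indicator_of_mem]
      exact mem_biUnion (Finset.mem_range.2 hk) hi
    · rw [indicator_of_notMem h]
      refine tendsto_const_nhds.congr fun k => ?_
      rw [indicator_of_notMem]
      intro h'
      obtain ⟨i, _, hi⟩ := mem_iUnion₂.1 h'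
      exact h (mem_iUnion.2 ⟨i, hi⟩)

theorem cv_simple (hD : ∀ n, Measurable (D n)) (hG : Measurable G) (hle : ∀ n, ∀ᵐ q ∂ν, |D n q| ≤ |G q|)
    {e : Z → ℝ} (he : Measurable e) (hi : Integrable (fun q => G q * e q) ν)
    (h1 : ∀ S, MeasurableSet S → Cv ν D (S.indicator e)) (s : SimpleFunc Z ℝ) :
    Integrable (fun q => G q * (s q * e q)) ν ∧ Cv ν D (fun q => s q * e q) := by
  induction s using SimpleFunc.induction with
  | const c hs =>
    rename_i S
    have e1 : (fun q => (SimpleFunc.piecewise S hs (SimpleFunc.const Z c) (SimpleFunc.const Z 0)) q * e q) =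
        fun q => 0 + c * S.indicator e q := by
      ext q
      by_cases h : q ∈ S <;> simp [h]
    have i1 := int_of hG (he.indicator hs) hi (abs_ind_le S e)
    refine ⟨?_, ?_⟩
    · refine (i1.const_mul c).congr (Eventually.of_forall fun q => ?_)
      have := congrFun e1 q
      simp only at this ⊢
      rw [this]; ring
    · rw [e1]
      exact Cv.add hD hle measurable_const (he.indicator hs) (by simp) i1 c (by simp [Cv]) (h1 S hs)
  | @add f g _ hf hg =>
    refine ⟨(hf.1.add hg.1).congr (Eventually.of_forall fun q => ?_), ?_⟩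
    · simp only [Pi.add_apply, SimpleFunc.coe_add]; ring
    · have := Cv.add hD hle (f.measurable.mul he) (g.measurable.mul he) hf.1 hg.1 1 hf.2 hg.2
      convert this using 1
      ext q
      simp only [SimpleFunc.coe_add, Pi.add_apply, Pi.mul_apply]; ring

theorem cv_all (hD : ∀ n, Measurable (D n)) (hG : Measurable G) (hle : ∀ n, ∀ᵐ q ∂ν, |D n q| ≤ |G q|)
    {E : ℕ → Set Z} (hE : ∀ L, MeasurableSet (E L)) (hi : ∀ L, Integrable (fun q => G q * (E L).indicator 1 q) ν)
    (hcov : ∀ᵐ q ∂ν, ∀ᶠ L in atTop, q ∈ E L)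
    (h1 : ∀ L S, MeasurableSet S → Cv ν D (S.indicator ((E L).indicator 1))) {κ : Z → ℝ} (hκ : Measurable κ)
    (hκi : Integrable (fun q => G q * κ q) ν) : Cv ν D κ := by
  refine Cv.close hD hG hle (b := fun q => 2 * κ q)
    (κk := fun k q => SimpleFunc.approxOn κ hκ univ 0 (mem_univ _) k q * (E k).indicator 1 q) hκ
    (fun k => (SimpleFunc.measurable _).mul (measurable_one.indicator (hE k)))
    ((hκi.const_mul 2).congr (Eventually.of_forall fun q => by simp only; ring))
    (fun q => by rw [abs_mul, abs_two]; linarith [abs_nonneg (κ q)]) (fun k q => ?_) (hcov.mono fun q hq => ?_)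
    (fun k => (cv_simple hD hG hle (measurable_one.indicator (hE k)) (hi k) (h1 k) _).2)
  · have h2 := SimpleFunc.norm_approxOn_zero_le hκ (mem_univ (0 : ℝ)) q k
    have h3 : |(E k).indicator (1 : Z → ℝ) q| ≤ 1 := by simpa using abs_ind_le (E k) 1 q
    rw [abs_mul, abs_mul, abs_two]
    simp only [Real.norm_eq_abs] at h2
    have := mul_le_mul h2 h3 (abs_nonneg _) (by positivity)
    linarith
  · refine (SimpleFunc.tendsto_approxOn hκ (mem_univ (0 : ℝ)) (x := q) (by simp)).congr' ?_
    filter_upwards [hq] with k hk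
    simp [hk]

end abstract

theorem qmp1 {Y : Type} [MeasurableSpace Y] (μ : Measure Y) [SFinite μ] :
    Measure.QuasiMeasurePreserving (fun q : Y × R3 × R3 => (q.1, q.2.1))
      (μ.prod ((volume : Measure R3).prod volume)) (μ.prod volume) :=
  QuasiMeasurePreserving.prodMap (Measure.QuasiMeasurePreserving.id μ) Measure.quasiMeasurePreserving_fst

theorem qmp2 {Y : Type} [MeasurableSpace Y] (μ : Measure Y) [SFinite μ] :
    Measure.QuasiMeasurePreserving (fun q : Y × R3 × R3 => (q.1, q.2.2))
      (μ.prod ((volume : Measure R3).prod volume)) (μ.prod volume) :=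
  QuasiMeasurePreserving.prodMap (Measure.QuasiMeasurePreserving.id μ) Measure.quasiMeasurePreserving_snd

end BilinA

open BilinA in
theorem bilin {Y : Type} [MeasurableSpace Y] (μ : Measure Y) [IsFiniteMeasure μ]
    {f : ℕ → Y → R3 → ℝ} {f0 g : Y → R3 → ℝ} (hf : ∀ n, Measurable (Function.uncurry (f n)))
    (hf0 : Measurable (Function.uncurry f0)) (hg : Measurable (Function.uncurry g))
    (hgi : Integrable (Function.uncurry g) (μ.prod volume))
    (hle : ∀ n, ∀ᵐ q ∂(μ.prod (volume : Measure R3)), |f n q.1 q.2| ≤ g q.1 q.2)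
    (hle0 : ∀ᵐ q ∂(μ.prod (volume : Measure R3)), |f0 q.1 q.2| ≤ g q.1 q.2)
    (hav : ∀ B : Set R3, MeasurableSet B → Bornology.IsBounded B →
      Tendsto (fun n => ∫ y, |∫ v in B, (f n y v - f0 y v)| ∂μ) atTop (𝓝 0))
    {κ : Y × R3 × R3 → ℝ} (hκ : Measurable κ)
    (hκi : Integrable (fun q : Y × R3 × R3 => g q.1 q.2.1 * g q.1 q.2.2 * κ q)
      (μ.prod ((volume : Measure R3).prod volume))) :
    Tendsto (fun n => ∫ q, f n q.1 q.2.1 * f n q.1 q.2.2 * κ q ∂(μ.prod ((volume : Measure R3).prod volume)))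
      atTop (𝓝 (∫ q, f0 q.1 q.2.1 * f0 q.1 q.2.2 * κ q ∂(μ.prod ((volume : Measure R3).prod volume)))) := by
  obtain ⟨ν, hν⟩ : ∃ ν, ν = μ.prod ((volume : Measure R3).prod (volume : Measure R3)) := ⟨_, rfl⟩
  have m1 : Measurable fun q : Y × R3 × R3 => (q.1, q.2.1) := by fun_prop
  have m2 : Measurable fun q : Y × R3 × R3 => (q.1, q.2.2) := by fun_prop
  have mf : ∀ {h : Y → R3 → ℝ}, Measurable (Function.uncurry h) →
      Measurable fun q : Y × R3 × R3 => h q.1 q.2.1 * h q.1 q.2.2 := fun hh => (hh.comp m1).mul (hh.comp m2)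
  have bf : ∀ {h : Y → R3 → ℝ}, (∀ᵐ q ∂(μ.prod (volume : Measure R3)), |h q.1 q.2| ≤ g q.1 q.2) →
      ∀ᵐ q ∂ν, |h q.1 q.2.1 * h q.1 q.2.2| ≤ |g q.1 q.2.1 * g q.1 q.2.2| := fun hh => by
    rw [hν]
    filter_upwards [(qmp1 μ).ae hh, (qmp2 μ).ae hh] with q h1 h2
    rw [abs_mul, abs_mul]
    exact mul_le_mul (h1.trans (le_abs_self _)) (h2.trans (le_abs_self _)) (abs_nonneg _) (abs_nonneg _)
  obtain ⟨D, hDe⟩ : ∃ D : ℕ → Y × R3 × R3 → ℝ,
      D = fun n q => f n q.1 q.2.1 * f n q.1 q.2.2 - f0 q.1 q.2.1 * f0 q.1 q.2.2 := ⟨_, rfl⟩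
  obtain ⟨G, hGe⟩ : ∃ G : Y × R3 × R3 → ℝ, G = fun q => 2 * (g q.1 q.2.1 * g q.1 q.2.2) := ⟨_, rfl⟩
  have hD : ∀ n, Measurable (D n) := fun n => by rw [hDe]; exact (mf (hf n)).sub (mf hf0)
  have hG : Measurable G := by rw [hGe]; exact (mf hg).const_mul 2
  have hDG : ∀ n, ∀ᵐ q ∂ν, |D n q| ≤ |G q| := fun n => by
    filter_upwards [bf (hle n), bf hle0] with q h1 h2
    rw [hDe, hGe]
    simp only
    rw [abs_mul 2, abs_two]
    linarith [abs_sub (f n q.1 q.2.1 * f n q.1 q.2.2) (f0 q.1 q.2.1 * f0 q.1 q.2.2)]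
  rw [← hν] at hκi ⊢
  -- the sets
  obtain ⟨YL, hYL⟩ : ∃ YL : ℕ → Set Y, YL = fun L : ℕ => {y | ∫⁻ v, ‖g y v‖ₑ ≤ (L : ℝ≥0∞)} := ⟨_, rfl⟩
  have mN : Measurable fun y => ∫⁻ v, ‖g y v‖ₑ := hg.enorm.lintegral_prod_right'
  have hYm : ∀ L, MeasurableSet (YL L) := fun L => by rw [hYL]; exact measurableSet_le mN measurable_const
  have hEm : ∀ L, MeasurableSet (YL L ×ˢ (univ : Set (R3 × R3))) := fun L => (hYm L).prod MeasurableSet.univ
  have hgy : ∀ L, ∀ y ∈ YL L, Integrable (g y) ∧ ∫ v, |g y v| ≤ L := fun L y hy => by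
    rw [hYL] at hy
    have hi : Integrable (g y) := ⟨(hg.of_uncurry_left).aestronglyMeasurable,
      lt_of_le_of_lt hy (ENNReal.natCast_lt_top L)⟩
    refine ⟨hi, ?_⟩
    have := integral_norm_eq_lintegral_enorm hi.1
    simp only [Real.norm_eq_abs] at this
    rw [this]
    exact ENNReal.toReal_le_of_le_ofReal (Nat.cast_nonneg L) (by rwa [ENNReal.ofReal_natCast])
  have hEi : ∀ L, Integrable (fun q => G q * (YL L ×ˢ (univ : Set (R3 × R3))).indicator 1 q) ν := fun L => by
    have mm : Measurable fun q => G q * (YL L ×ˢ (univ : Set (R3 × R3))).indicator 1 q :=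
      hG.mul ((measurable_one : Measurable (1 : Y × R3 × R3 → ℝ)).indicator (hEm L))
    rw [hν, integrable_prod_iff mm.aestronglyMeasurable]
    refine ⟨Eventually.of_forall fun y => ?_, ?_⟩
    · by_cases hy : y ∈ YL L
      · simp only [hGe, mem_prod, hy, mem_univ, and_self, indicator_of_mem, Pi.one_apply, mul_one]
        exact ((hgy L y hy).1.mul_prod (hgy L y hy).1).const_mul 2
      · simp [hy]
    · refine Integrable.of_bound (mm.stronglyMeasurable.norm.integral_prod_right').aestronglyMeasurable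
        (2 * (L * L)) (Eventually.of_forall fun y => ?_)
      by_cases hy : y ∈ YL L
      · simp only [hGe, mem_prod, hy, mem_univ, and_self, indicator_of_mem, Pi.one_apply, mul_one, norm_mul,
          Real.norm_eq_abs, abs_two]
        rw [integral_const_mul, integral_prod_mul (fun a => |g y a|) (fun a => |g y a|), abs_mul, abs_two,
          abs_mul_self]
        have h0 : 0 ≤ ∫ v, |g y v| := integral_nonneg fun v => abs_nonneg _
        have := mul_le_mul (hgy L y hy).2 (hgy L y hy).2 h0 (Nat.cast_nonneg L)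
        linarith
      · simp only [mem_prod, hy, false_and, not_false_eq_true, indicator_of_notMem, mul_zero, norm_zero,
          integral_zero]
        positivity
  have hcov : ∀ᵐ q ∂ν, ∀ᶠ L in atTop, q ∈ YL L ×ˢ (univ : Set (R3 × R3)) := by
    rw [hν]
    filter_upwards [Measure.quasiMeasurePreserving_fst.ae hgi.prod_right_ae] with q hq
    obtain ⟨L, hL⟩ := ENNReal.exists_nat_gt hq.2.ne
    filter_upwards [eventually_ge_atTop L] with k hk
    refine ⟨?_, mem_univ _⟩
    rw [hYL]
    exact hL.le.trans (Nat.cast_le.2 hk)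
  -- bounded rectangles
  have hrect : ∀ L (A : Set Y) (B C : Set R3), MeasurableSet A → MeasurableSet B → MeasurableSet C →
      Bornology.IsBounded B → Bornology.IsBounded C →
      Cv ν D ((A ×ˢ (B ×ˢ C)).indicator ((YL L ×ˢ (univ : Set (R3 × R3))).indicator 1)) := by
    intro L A B C hA hB hC bB bC
    have hlim := ((hav B hB bB).const_mul (L : ℝ)).add ((hav C hC bC).const_mul (L : ℝ))
    rw [mul_zero, add_zero] at hlim
    refine squeeze_zero_norm (fun n => ?_) hlim
    have mi := ((measurable_one : Measurable (1 : Y × R3 × R3 → ℝ)).indicator (hEm L)).indicator (hA.prod (hB.prod hC))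
    have i1 := intD hD hDG mi (int_of hG mi (hEi L) (abs_ind_le _ _)) n
    have idiff : Integrable (Function.uncurry fun y v => f n y v - f0 y v) (μ.prod volume) := by
      refine (hgi.const_mul 2).mono' ((hf n).sub hf0).aestronglyMeasurable ?_
      filter_upwards [hle n, hle0] with q h1 h2
      have := abs_sub (f n q.1 q.2) (f0 q.1 q.2)
      simp only [Function.uncurry, Real.norm_eq_abs]
      linarith
    have iav : ∀ B : Set R3, Integrable (fun y => |∫ v in B, (f n y v - f0 y v)|) μ := fun B => by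
      have : Integrable (Function.uncurry fun y v => f n y v - f0 y v) (μ.prod (volume.restrict B)) := by
        rw [← Measure.restrict_univ (μ := μ), Measure.prod_restrict]
        exact idiff.restrict
      exact this.integral_prod_left.abs
    rw [hν] at i1 ⊢
    rw [integral_prod _ i1, ← integral_const_mul, ← integral_const_mul,
      ← integral_add ((iav B).const_mul _) ((iav C).const_mul _)]
    refine norm_integral_le_of_norm_le (((iav B).const_mul _).add ((iav C).const_mul _)) ?_
    filter_upwards [Measure.ae_ae_of_ae_prod (hle n), Measure.ae_ae_of_ae_prod hle0] with y h1 h2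
    by_cases hy : y ∈ A ∧ y ∈ YL L
    · have hgi := hgy L y hy.2
      have ib : ∀ {h : R3 → ℝ}, Measurable h → (∀ᵐ v, |h v| ≤ g y v) →
          Integrable h ∧ ∀ B : Set R3, |∫ v in B, h v| ≤ L := fun {h} hm hh => by
        have hi : Integrable h := hgi.1.mono' hm.aestronglyMeasurable hh
        refine ⟨hi, fun B => ?_⟩
        calc |∫ v in B, h v| ≤ ∫ v in B, |h v| := abs_integral_le_integral_abs
          _ ≤ ∫ v, |h v| := setIntegral_le_integral hi.abs (Eventually.of_forall fun v => abs_nonneg _)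
          _ ≤ ∫ v, |g y v| := integral_mono_ae hi.abs hgi.1.abs (hh.mono fun v hv => hv.trans (le_abs_self _))
          _ ≤ L := hgi.2
      have b1 := ib (hf n).of_uncurry_left h1
      have b2 := ib hf0.of_uncurry_left h2
      have e1 : (fun z : R3 × R3 => D n (y, z) * (A ×ˢ (B ×ˢ C)).indicator
          ((YL L ×ˢ (univ : Set (R3 × R3))).indicator 1) (y, z)) =
          (B ×ˢ C).indicator fun z => f n y z.1 * f n y z.2 - f0 y z.1 * f0 y z.2 := by
        ext z
        by_cases hz : z ∈ B ×ˢ C
        · rw [indicator_of_mem hz, indicator_of_mem (mk_mem_prod hy.1 hz),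
            indicator_of_mem (mk_mem_prod hy.2 (mem_univ _)), hDe]
          simp
        · rw [indicator_of_notMem hz, indicator_of_notMem (fun h => hz h.2), mul_zero]
      rw [e1, integral_indicator (hB.prod hC),
        integral_sub (b1.1.mul_prod b1.1).restrict (b2.1.mul_prod b2.1).restrict,
        setIntegral_prod_mul (f n y) (f n y), setIntegral_prod_mul (f0 y) (f0 y),
        integral_sub b1.1.restrict b2.1.restrict, integral_sub b1.1.restrict b2.1.restrict, Real.norm_eq_abs]
      have e2 : (∫ v in B, f n y v) * (∫ v in C, f n y v) - (∫ v in B, f0 y v) * ∫ v in C, f0 y v =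
          (∫ v in C, f n y v) * ((∫ v in B, f n y v) - ∫ v in B, f0 y v) +
            (∫ v in B, f0 y v) * ((∫ v in C, f n y v) - ∫ v in C, f0 y v) := by ring
      rw [e2]
      refine (abs_add_le _ _).trans (add_le_add ?_ ?_)
      · rw [abs_mul]; exact mul_le_mul_of_nonneg_right (b1.2 C) (abs_nonneg _)
      · rw [abs_mul]; exact mul_le_mul_of_nonneg_right (b2.2 B) (abs_nonneg _)
    · have e1 : (fun z : R3 × R3 => D n (y, z) * (A ×ˢ (B ×ˢ C)).indicator
          ((YL L ×ˢ (univ : Set (R3 × R3))).indicator 1) (y, z)) = fun _ => 0 := by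
        ext z
        by_cases h3 : y ∈ A
        · have h4 : y ∉ YL L := fun h => hy ⟨h3, h⟩
          by_cases hz : (y, z) ∈ A ×ˢ (B ×ˢ C)
          · rw [indicator_of_mem hz, indicator_of_notMem (fun h => h4 h.1), mul_zero]
          · rw [indicator_of_notMem hz, mul_zero]
        · rw [indicator_of_notMem (fun h => h3 h.1), mul_zero]
      rw [e1]
      simp only [integral_zero, norm_zero]
      positivity
  have hrect' : ∀ L (A : Set Y) (B C : Set R3), MeasurableSet A → MeasurableSet B → MeasurableSet C →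
      Cv ν D ((A ×ˢ (B ×ˢ C)).indicator ((YL L ×ˢ (univ : Set (R3 × R3))).indicator 1)) := by
    intro L A B C hA hB hC
    have me := (measurable_one : Measurable (1 : Y × R3 × R3 → ℝ)).indicator (hEm L)
    refine Cv.close hD hG hDG (κk := fun k : ℕ => (A ×ˢ ((B ∩ Metric.ball 0 k) ×ˢ (C ∩ Metric.ball 0 k))).indicator
        ((YL L ×ˢ (univ : Set (R3 × R3))).indicator 1)) (me.indicator (hA.prod (hB.prod hC)))
      (fun k => me.indicator (hA.prod ((hB.inter measurableSet_ball).prod (hC.inter measurableSet_ball))))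
      (hEi L) (abs_ind_le _ _) (fun k => abs_ind_le _ _) (Eventually.of_forall fun q => ?_)
      (fun k => hrect L A _ _ hA (hB.inter measurableSet_ball) (hC.inter measurableSet_ball)
        (Metric.isBounded_ball.subset inter_subset_right) (Metric.isBounded_ball.subset inter_subset_right))
    refine tendsto_const_nhds.congr' ?_
    obtain ⟨k0, hk0⟩ := exists_nat_gt (max ‖q.2.1‖ ‖q.2.2‖)
    filter_upwards [eventually_ge_atTop k0] with k hk
    have hk' : (k0 : ℝ) ≤ k := Nat.cast_le.2 hk
    have k1 : q.2.1 ∈ Metric.ball (0 : R3) k := mem_ball_zero_iff.2 (by linarith [le_max_left ‖q.2.1‖ ‖q.2.2‖])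
    have k2 : q.2.2 ∈ Metric.ball (0 : R3) k := mem_ball_zero_iff.2 (by linarith [le_max_right ‖q.2.1‖ ‖q.2.2‖])
    have : q ∈ A ×ˢ (B ×ˢ C) ↔ q ∈ A ×ˢ ((B ∩ Metric.ball 0 k) ×ˢ (C ∩ Metric.ball 0 k)) := by
      simp only [mem_prod, mem_inter_iff, k1, k2, and_true]
    by_cases h : q ∈ A ×ˢ (B ×ˢ C)
    · rw [indicator_of_mem h, indicator_of_mem (this.1 h)]
    · rw [indicator_of_notMem h, indicator_of_notMem (fun h' => h (this.2 h'))]
  have hκG : Integrable (fun q => G q * κ q) ν :=
    (hκi.const_mul 2).congr (Eventually.of_forall fun q => by rw [hGe]; simp only; ring)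
  have hcv : Cv ν D κ := by
    refine cv_all hD hG hDG hEm hEi hcov (fun L => cv_sets hD hG hDG
      (C := image2 (· ×ˢ ·) {s : Set Y | MeasurableSet s}
        (image2 (· ×ˢ ·) {s : Set R3 | MeasurableSet s} {t : Set R3 | MeasurableSet t}))
      (generateFrom_eq_prod MeasurableSpace.generateFrom_measurableSet generateFrom_prod
        isCountablySpanning_measurableSet
        (isCountablySpanning_measurableSet.prod isCountablySpanning_measurableSet)).symm
      (MeasurableSpace.isPiSystem_measurableSet.prod isPiSystem_prod)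
      (measurable_one.indicator (hEm L)) (hEi L) ?_ ?_) hκ hκG
    · simpa using hrect' L univ univ univ MeasurableSet.univ MeasurableSet.univ MeasurableSet.univ
    · rintro - ⟨A, hA, -, ⟨B, hB, C, hC, rfl⟩, rfl⟩
      exact hrect' L A B C hA hB hC
  have ih : ∀ {h : Y → R3 → ℝ}, Measurable (Function.uncurry h) →
      (∀ᵐ q ∂(μ.prod (volume : Measure R3)), |h q.1 q.2| ≤ g q.1 q.2) →
      Integrable (fun q : Y × R3 × R3 => h q.1 q.2.1 * h q.1 q.2.2 * κ q) ν := fun hm hh =>
    hκi.mono ((mf hm).mul hκ).aestronglyMeasurable ((bf hh).mono fun q hq => by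
      simp only [Real.norm_eq_abs]
      rw [abs_mul _ (κ q), abs_mul _ (κ q)]
      exact mul_le_mul_of_nonneg_right hq (abs_nonneg _))
  rw [← tendsto_sub_nhds_zero_iff]
  refine Tendsto.congr (fun n => ?_) hcv
  rw [← integral_sub (ih (hf n) (hle n)) (ih hf0 hle0), hDe]
  congr 1; ext q; ring

end Crest.Agent.R68
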