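import Crest.Agent.R68.Plane
import Crest.Agent.R68.Basic2

/-! Carleman's representation.  For a unit vector `w` slice `vs = v - s w + p`, `p ⊥ w`
(`lintegral_slices`): then `⟪v - vs, w⟫ = s`, `postVel = v - s w`, `postVelStar = v + p`, so
`Qp f h v = ∫_S ∫_ℝ |s| f(v - s w) pint w v h ds dw = 2 ∫_S ∫_0^∞ r f(v - r w) pint w v h dr dw`
(`sphere_neg`, `pint_smul`), and `polar` turns this into the claim. -/

set_option autoImplicit false

open MeasureTheory Set Filter Topology Crest.AnalysisR.VecCalc3 Crest.AnalysisR.PDE.Boltzmann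
open scoped ENNReal NNReal

namespace Crest.Agent.R68

theorem carleman {f h : R3 → ℝ≥0∞} (hf : Measurable f) (hh : Measurable h) (v : R3) :
    Qp f h v = 2 * ∫⁻ a, f a * (invn (v - a) * pint (v - a) v h) := by
  have hP : Measurable fun w : R3 => pint w v h :=
    meas_pint (f := fun _ => h) (hh.comp measurable_snd) measurable_id measurable_const
  let K : R3 → ℝ≥0∞ := fun w => ∫⁻ r in Ioi (0 : ℝ), ENNReal.ofReal r * f (v - r • w) * pint w v h
  have hK : Measurable K := by
    refine Measurable.lintegral_prod_right' (f := fun q : R3 × ℝ => ENNReal.ofReal q.2 * f (v - q.2 • q.1) * pint q.1 v h) ?_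
    exact ((ENNReal.measurable_ofReal.comp measurable_snd).mul (hf.comp (by fun_prop))).mul (hP.comp measurable_fst)
  have hG : Measurable fun q : R3 × R3 => ENNReal.ofReal |inner ℝ (v - q.1) q.2| * f (postVel v q.1 q.2) *
      h (postVelStar v q.1 q.2) := by
    unfold postVel postVelStar
    exact ((ENNReal.measurable_ofReal.comp (by fun_prop)).mul (hf.comp (by fun_prop))).mul (hh.comp (by fun_prop))
  have h1 : Qp f h v = ∫⁻ w, (K (-w) + K w) ∂sphereMeasure := by
    unfold Qp
    rw [lintegral_lintegral_swap hG.aemeasurable]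
    refine lintegral_congr_ae (ae_sphere.mono fun w hw => ?_)
    have hw0 : w ≠ 0 := fun h0 => by simp [h0] at hw
    obtain ⟨ι, hι⟩ := exists_iso hw0
    have hGw : Measurable fun vs : R3 => ENNReal.ofReal |inner ℝ (v - vs) w| * f (postVel v vs w) *
        h (postVelStar v vs w) := hG.of_uncurry_right (f := fun vs w : R3 => ENNReal.ofReal |inner ℝ (v - vs) w| *
          f (postVel v vs w) * h (postVelStar v vs w))
    have hneg : pint (-w) v h = pint w v h := by
      rw [← pint_smul hw0 (c := -1) (by norm_num) v hh, neg_one_smul]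
    dsimp only
    rw [lintegral_slices hw0 v hGw]
    have h2 : ∀ s : ℝ, pint w (v + s • (‖w‖⁻¹ • w)) (fun vs : R3 => ENNReal.ofReal |inner ℝ (v - vs) w| *
        f (postVel v vs w) * h (postVelStar v vs w)) = ENNReal.ofReal |s| * f (v + s • w) * pint w v h := by
      intro s
      rw [pint_param hw0 ι hι _ hGw, pint_param hw0 ι hι _ hh,
        ← lintegral_const_mul _ (by exact hh.comp (measurable_const.add ι.continuous.measurable))]
      refine lintegral_congr fun p => ?_
      have h3 : inner ℝ (v - (v + s • (‖w‖⁻¹ • w) + ι p)) w = -s := by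
        rw [add_assoc, sub_add_cancel_left, inner_neg_left, inner_add_left, hι, hw, inv_one, one_smul,
          real_inner_smul_left, real_inner_self_eq_norm_sq, hw]
        ring
      unfold postVel postVelStar
      rw [h3, abs_neg, hw, inv_one, one_smul, neg_smul, sub_neg_eq_add]
      congr 2
      abel
    simp only [h2]
    rw [← lintegral_add_compl _ (measurableSet_Ioi (a := (0 : ℝ))), compl_Ioi, ← restrict_Iio_eq_restrict_Iic]
    congr 1
    · refine setLIntegral_congr_fun measurableSet_Ioi fun r hr => ?_
      have hr' : 0 < r := hr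
      simp only [abs_of_pos hr', hneg, smul_neg, sub_neg_eq_add]
    · rw [← lintegral_indicator measurableSet_Iio, ← lintegral_neg_eq_self]
      change _ = ∫⁻ r in Ioi (0 : ℝ), _
      rw [← lintegral_indicator measurableSet_Ioi]
      refine lintegral_congr fun r => ?_
      by_cases hr : 0 < r
      · rw [indicator_of_mem (show -r ∈ Iio (0 : ℝ) by simpa using hr), indicator_of_mem (show r ∈ Ioi (0 : ℝ) from hr),
          abs_neg, abs_of_pos hr, neg_smul, ← sub_eq_add_neg]
      · rw [indicator_of_notMem (show -r ∉ Iio (0 : ℝ) by simpa using hr),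
          indicator_of_notMem (show r ∉ Ioi (0 : ℝ) from hr)]
  have h2 : ∫⁻ a, f a * (invn (v - a) * pint (v - a) v h) = ∫⁻ w, K w ∂sphereMeasure := by
    rw [← lintegral_sub_left_eq_self _ v]
    simp only [sub_sub_cancel]
    rw [polar (f := fun z => f (v - z) * (invn z * pint z v h))
      ((hf.comp (by fun_prop)).mul (measurable_invn.mul hP))]
    refine lintegral_congr_ae (ae_sphere.mono fun w hw => ?_)
    have hw0 : w ≠ 0 := fun h0 => by simp [h0] at hw
    refine setLIntegral_congr_fun measurableSet_Ioi fun r hr => ?_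
    have hr' : 0 < r := hr
    have h3 : ENNReal.ofReal (r ^ 2) * invn (r • w) = ENNReal.ofReal r := by
      unfold invn
      rw [norm_smul, hw, mul_one, Real.norm_of_nonneg hr'.le, sq, ENNReal.ofReal_mul hr'.le, mul_assoc,
        ENNReal.mul_inv_cancel (by simpa using hr') ENNReal.ofReal_ne_top, mul_one]
    rw [pint_smul hw0 hr'.ne' v hh, ← h3]
    ring
  rw [h1, h2, lintegral_add_right _ hK, sphere_neg hK, two_mul]


end Crest.Agent.R68
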