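import Crest.Agent.R68.Law

/-! Cold-cold collisions.  At time `s` and `y = x-(t-s)v`, `G ≤ 201 Ck k s (hat y)` for the core `k` that contains `hat y` (`G_core`), a Maxwellian in the velocity, so
`Qp G G v ≤ 201² Ck(v) nu Ck v` (`Qp_maxw`, `nu_Ck`).  Put `x' = hat y + (t-s) v` (a lattice translate of `x` up to the third coordinate), `ρ = ‖v - U k s (hat y)‖`.
NEAR case: `InCore k t x'` and `‖v - U k t x'‖ ≤ kap`.  Then `Same x' (hat x)` (as `nrm x' < 1/4`), `k` is the core of `(t, hat x)` (so it does not depend on `s`), and by `rel_mono`, `dS_shift`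
`Ck(s)/Ck(t) ≤ exp((t-s)(-ρ²/w² + ρ/√(wt))) ≤ exp(-(t-s)ρ²/(2w²) + w/2)` (`w = ww n`); `ρ exp(-(t-s)ρ²/(2w²)) ≤ w/√(t-s)`, so the time integral is at most
`201²·100 cc/rr n · 2 · 3 w · Ck(t) ≤ √w Ck(t)` (`near_pt` is the pointwise form).
FAR case: otherwise `ρ > kap`, or `ρ ≥ per/32`, or `dS k s ≥ per/32`; in each case the exponent `E = ρ²/w² + dS/√(ws)` is at least `1/(2 √P.w p)`, `p = per n/16`; use half of it with
`exp(-z) ≤ j!/z^j`, `j = m + 14`, `1/rr n ≤ 1/p`, the other half for `(ρ + w) exp(-ρ²/(2w²)) ≤ C e^{-‖v‖}`, and `om t x v ≥ om s y v ≥ dd y ≥ rr n / 4`. -/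

set_option autoImplicit false

open MeasureTheory Set Filter Topology Crest.AnalysisR.VecCalc3 Crest.AnalysisR.PDE.Boltzmann
open scoped ENNReal NNReal

namespace Crest.Agent.R68

namespace ColdA

open LawA

theorem time_int {t : ℝ} (ht : t ∈ Icc (0 : ℝ) 1) :
    ∫⁻ s in Ioo 0 t, ENNReal.ofReal (1 + 1 / Real.sqrt (t - s)) ≤ 3 := by
  have e : ∀ x : ℝ, 0 ≤ x → 1 / Real.sqrt x = x ^ (-(1 / 2) : ℝ) := fun x hx => by
    rw [Real.sqrt_eq_rpow, Real.rpow_neg hx, one_div]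
  have h1 : IntervalIntegrable (fun x : ℝ => x ^ (-(1 / 2) : ℝ)) volume 0 t :=
    intervalIntegral.intervalIntegrable_rpow' (by norm_num)
  have h2 : IntervalIntegrable (fun s : ℝ => (t - s) ^ (-(1 / 2) : ℝ)) volume 0 t := by
    have := (h1.comp_sub_left t).symm
    simpa using this
  have h3 : ∫ s in (0 : ℝ)..t, (1 + (t - s) ^ (-(1 / 2) : ℝ)) = t + 2 * t ^ (1 / 2 : ℝ) := by
    rw [intervalIntegral.integral_add intervalIntegrable_const h2,
      intervalIntegral.integral_comp_sub_left (fun x : ℝ => x ^ (-(1 / 2) : ℝ)) t,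
      integral_rpow (Or.inl (by norm_num))]
    norm_num
    ring
  have h4 : IntegrableOn (fun s : ℝ => 1 + (t - s) ^ (-(1 / 2) : ℝ)) (Ioo 0 t) :=
    ((intervalIntegrable_iff_integrableOn_Ioo_of_le ht.1).1 (intervalIntegrable_const.add h2))
  rw [setLIntegral_congr_fun measurableSet_Ioo (g := fun s => ENNReal.ofReal (1 + (t - s) ^ (-(1 / 2) : ℝ)))
    (fun s hs => by simp only [e _ (sub_nonneg.2 hs.2.le)]),
    ← ofReal_integral_eq_lintegral_ofReal h4 (ae_restrict_of_forall_mem measurableSet_Ioo fun s hs =>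
      add_nonneg zero_le_one (Real.rpow_nonneg (sub_nonneg.2 hs.2.le) _)),
    ← integral_Ioc_eq_integral_Ioo, ← intervalIntegral.integral_of_le ht.1, h3, ← ENNReal.ofReal_ofNat 3]
  refine ENNReal.ofReal_le_ofReal ?_
  have := Real.rpow_le_one ht.1 ht.2 (by norm_num : (0 : ℝ) ≤ 1 / 2)
  linarith [ht.2]

theorem Qp_Ck {P : Par} (hP : P.Ok) (k : Bm) (s : ℝ) (y v : R3) :
    Qp (Ck P k s y) (Ck P k s y) v = Ck P k s y v * nu (Ck P k s y) v := by
  have hw := ww_pos hP k.1.1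
  have hr := rr_pos hP k.1.1
  have hc := cc_pos
  have h : Ck P k s y = fun a => ENNReal.ofReal (cc / (P.rr k.1.1 * P.ww k.1.1 ^ 3) *
      Real.exp (-(dS P k s y / (Real.sqrt (P.ww k.1.1) * Real.sqrt s)))) *
      ENNReal.ofReal (Real.exp (-((2 - s) / P.ww k.1.1 ^ 2 * ‖a - U P k s y‖ ^ 2))) := by
    funext a
    rw [Ck, ← ENNReal.ofReal_mul (by positivity), mul_assoc, ← Real.exp_add]
    congr 3
    ring
  rw [h]
  exact Qp_maxw _ _ _ _

theorem Qp_G {P : Par} (hP : P.Ok) {N : ℕ∞} {k : Bm} {s : ℝ} (hs : s ∈ Icc (0 : ℝ) 1) {y : R3}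
    (h1 : ∀ v, gs P N s y v = gk P k s (hat y) v) (h2 : ∀ v, GC P N s y v = Cke P k s (hat y) v) (v : R3) :
    Qp (G P N s y) (G P N s y) v ≤ 201 * 201 * (Ck P k s (hat y) v * nu (Ck P k s (hat y)) v) := by
  have h : ∀ a, G P N s y a ≤ 201 * Ck P k s (hat y) a := fun a => by
    rw [G, h1, h2, show (201 : ℝ≥0∞) = 200 + 1 by norm_num, add_mul]
    refine add_le_add (gk_le_Ck hP k hs _ _) ((Cke_le k s _ a).trans (mul_le_mul_left ?_ _))
    refine ENNReal.ofReal_le_one.2 (Real.sqrt_le_one.2 ((ww_le hP _).trans (hP.w1.trans (by norm_num))))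
  refine (Qp_mono h h v).trans (le_of_eq ?_)
  rw [Qp_cmul ((measD_Ck k).vel _ _) ((measD_Ck k).vel _ _), Qp_Ck hP]

end ColdA

open ColdA LawA

theorem near_pt {P : Par} (hP : P.Ok) (k : Bm) {s t : ℝ} (hs : 0 < s) (hst : s < t) (ht : t ≤ 1) (x v : R3) :
    Ck P k s (x - (t - s) • v) v * nu (Ck P k s (x - (t - s) • v)) v ≤
      ENNReal.ofReal (200 * cc / P.rr k.1.1 * P.ww k.1.1 * (1 + 1 / Real.sqrt (t - s))) * Ck P k t x v := by
  have hw := ww_pos hP k.1.1
  have hr := rr_pos hP k.1.1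
  have hc := cc_pos
  have hw1 : P.ww k.1.1 ≤ 1 := (ww_le hP _).trans (hP.w1.trans (by norm_num))
  have ht0 : 0 < t := hs.trans hst
  have hu : 0 < t - s := sub_pos.2 hst
  refine (mul_le_mul_right (nu_Ck hP k ⟨hs.le, hst.le.trans ht⟩ _ v) _).trans ?_
  have h1 := rel_mono hP k hs.le hst.le x v
  have h2 := dS_shift hP k hs.le hst.le x v
  have h3 : 0 ≤ dS P k s (x - (t - s) • v) := Metric.infDist_nonneg
  have h4 : 0 ≤ ‖v - U P k t x‖ := norm_nonneg _
  rw [Ck, Ck, ← ENNReal.ofReal_mul (by positivity), ← ENNReal.ofReal_mul (by positivity)]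
  refine ENNReal.ofReal_le_ofReal ?_
  generalize ‖v - U P k s (x - (t - s) • v)‖ = ρ at *
  generalize ‖v - U P k t x‖ = ρ' at *
  generalize dS P k s (x - (t - s) • v) = d at *
  generalize dS P k t x = d' at *
  generalize P.ww k.1.1 = w at *
  have hρ : 0 ≤ ρ := h4.trans h1
  have hq : 0 < Real.sqrt w := Real.sqrt_pos.2 hw
  have hsq : 0 < Real.sqrt s := Real.sqrt_pos.2 hs
  have htq : 0 < Real.sqrt t := Real.sqrt_pos.2 ht0
  have huq : 0 < Real.sqrt (t - s) := Real.sqrt_pos.2 hu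
  have e1 : (2 - t) * ρ' ^ 2 / w ^ 2 ≤ (2 - t) * ρ ^ 2 / w ^ 2 := by gcongr; linarith
  have e2 : d' / (Real.sqrt w * Real.sqrt t) ≤
      d / (Real.sqrt w * Real.sqrt s) + (t - s) * (ρ / (Real.sqrt w * Real.sqrt t)) := by
    have a1 : d / (Real.sqrt w * Real.sqrt t) ≤ d / (Real.sqrt w * Real.sqrt s) := by gcongr
    have a2 := div_le_div_of_nonneg_right h2 (by positivity : 0 ≤ Real.sqrt w * Real.sqrt t)
    rw [add_div, mul_comm ρ, mul_div_assoc] at a2
    linarith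
  have e3 : ρ / (Real.sqrt w * Real.sqrt t) ≤ ρ ^ 2 / w ^ 2 / 2 + w / t / 2 := by
    have a1 : w / t = (w / (Real.sqrt w * Real.sqrt t)) ^ 2 := by
      rw [div_pow, mul_pow, Real.sq_sqrt hw.le, Real.sq_sqrt ht0.le]; field_simp
    have a2 : ρ / (Real.sqrt w * Real.sqrt t) = ρ / w * (w / (Real.sqrt w * Real.sqrt t)) := by field_simp
    rw [a1, a2, ← div_pow]
    nlinarith [sq_nonneg (ρ / w - w / (Real.sqrt w * Real.sqrt t))]
  have e4 : (t - s) * (w / t) ≤ 1 := by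
    rw [← mul_div_assoc, div_le_one ht0]; nlinarith
  have e5 : -((2 - s) * ρ ^ 2 / w ^ 2) - d / (Real.sqrt w * Real.sqrt s) ≤
      (-((2 - t) * ρ' ^ 2 / w ^ 2) - d' / (Real.sqrt w * Real.sqrt t)) +
        (1 / 2 + -((t - s) * (ρ ^ 2 / w ^ 2) / 2)) := by
    have a1 := mul_le_mul_of_nonneg_left e3 hu.le
    have a2 : (2 - s) * ρ ^ 2 / w ^ 2 = (2 - t) * ρ ^ 2 / w ^ 2 + (t - s) * (ρ ^ 2 / w ^ 2) := by ring
    nlinarith
  have e6 : Real.exp (1 / 2) ≤ 2 := by
    have a1 : Real.exp (1 / 2) * Real.exp (1 / 2) = Real.exp 1 := by rw [← Real.exp_add]; norm_num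
    nlinarith [Real.exp_one_lt_d9, Real.exp_pos (1 / 2)]
  have e7 : (ρ + w) * Real.exp (-((t - s) * (ρ ^ 2 / w ^ 2) / 2)) ≤ w * (1 + 1 / Real.sqrt (t - s)) := by
    set E := Real.exp (-((t - s) * (ρ ^ 2 / w ^ 2) / 2)) with hE
    have a0 : 0 < E := Real.exp_pos _
    have a1 : E ≤ 1 := Real.exp_le_one_iff.2 (by rw [neg_nonpos]; positivity)
    have a2 : Real.sqrt (t - s) * (ρ / w) * E ≤ 1 := by
      have b1 := Real.add_one_le_exp ((t - s) * (ρ ^ 2 / w ^ 2) / 2)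
      have b2 : (t - s) * (ρ ^ 2 / w ^ 2) = (Real.sqrt (t - s) * (ρ / w)) ^ 2 := by
        rw [mul_pow, Real.sq_sqrt hu.le, div_pow]
      rw [hE, Real.exp_neg, ← div_eq_mul_inv, div_le_one (Real.exp_pos _)]
      rw [b2] at b1 ⊢
      nlinarith [sq_nonneg (Real.sqrt (t - s) * (ρ / w) - 1)]
    have a3 : ρ * E = w / Real.sqrt (t - s) * (Real.sqrt (t - s) * (ρ / w) * E) := by field_simp
    have a4 := mul_le_of_le_one_right (by positivity : 0 ≤ w / Real.sqrt (t - s)) a2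
    rw [add_mul, mul_add, mul_one, mul_one_div, a3]
    nlinarith
  have e8 := Real.exp_le_exp.2 e5
  rw [Real.exp_add, Real.exp_add] at e8
  generalize Real.exp (-((2 - s) * ρ ^ 2 / w ^ 2) - d / (Real.sqrt w * Real.sqrt s)) = A at *
  have hB := Real.exp_pos (-((2 - t) * ρ' ^ 2 / w ^ 2) - d' / (Real.sqrt w * Real.sqrt t))
  generalize Real.exp (-((2 - t) * ρ' ^ 2 / w ^ 2) - d' / (Real.sqrt w * Real.sqrt t)) = B at *
  have hE := Real.exp_pos (-((t - s) * (ρ ^ 2 / w ^ 2) / 2))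
  generalize Real.exp (-((t - s) * (ρ ^ 2 / w ^ 2) / 2)) = E at *
  calc cc / (P.rr k.1.1 * w ^ 3) * A * (100 * cc / P.rr k.1.1 * (ρ + w))
      ≤ cc / (P.rr k.1.1 * w ^ 3) * (B * (2 * E)) * (100 * cc / P.rr k.1.1 * (ρ + w)) := by
        gcongr
        exact e8.trans (by gcongr)
    _ = 200 * cc / P.rr k.1.1 * ((ρ + w) * E) * (cc / (P.rr k.1.1 * w ^ 3) * B) := by ring
    _ ≤ 200 * cc / P.rr k.1.1 * (w * (1 + 1 / Real.sqrt (t - s))) * (cc / (P.rr k.1.1 * w ^ 3) * B) := by gcongr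
    _ = _ := by ring
theorem far_pt (m : ℕ) : ∃ C : ℝ≥0, ∀ {P : Par}, P.Ok → ∀ (k : Bm) {s t : ℝ}, 0 < s → s < t → t ≤ 1 →
    ∀ x v : R3, InCore P k s (x - (t - s) • v) → ¬ (InCore P k t x ∧ ‖v - U P k t x‖ ≤ kap) →
    Ck P k s (x - (t - s) • v) v * nu (Ck P k s (x - (t - s) • v)) v ≤
      C * ENNReal.ofReal (P.w * P.rr (k.1.1 + 1) ^ m) * W 1 v := by
  refine ⟨Real.toNNReal (100 * cc ^ 2 * ((m + 14).factorial * 4 ^ (m + 14)) * Real.exp 4),
    fun {P} hP k {s t} hs hst ht x v hin hfar => ?_⟩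
  have hw := ww_pos hP k.1.1
  have hr := rr_pos hP k.1.1
  have hc := cc_pos
  have hs1 : s ≤ 1 := hst.le.trans ht
  refine (mul_le_mul_right (nu_Ck hP k ⟨hs.le, hs1⟩ _ v) _).trans ?_
  have h1 := rel_mono hP k hs.le hst.le x v
  have h2 := dS_shift hP k hs.le hst.le x v
  have h3 : 0 ≤ dS P k s (x - (t - s) • v) := Metric.infDist_nonneg
  have h4 : 0 ≤ ‖v - U P k s (x - (t - s) • v)‖ := norm_nonneg _
  have h5 : ‖v‖ ≤ ‖v - U P k s (x - (t - s) • v)‖ + 2 := by
    have a1 := (U_tile hP hs.le (core_tile hP hin)).2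
    have a2 : ‖(EuclideanSpace.single 2 (sg k.2) : R3)‖ = 1 := by
      unfold sg; split_ifs <;> simp
    have a3 := norm_le_norm_sub_add v (U P k s (x - (t - s) • v))
    have a4 := norm_le_norm_sub_add (U P k s (x - (t - s) • v)) (EuclideanSpace.single 2 (sg k.2))
    rw [kap] at a1
    linarith
  rw [InCore, not_and_or, not_lt, not_le] at hfar
  obtain ⟨p0, p1, p2, p3⟩ := p_le hP k.1.1
  have hq0 : 0 < Real.sqrt P.w := Real.sqrt_pos.2 hP.w0
  have hq1 := sqrt_w_le hP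
  have hq2 : P.w = Real.sqrt P.w ^ 2 := (Real.sq_sqrt hP.w0.le).symm
  have hsw := sqrt_ww hP k.1.1
  have hww : P.ww k.1.1 = Real.sqrt P.w ^ 2 * (P.per k.1.1 / 16) ^ 4 := by rw [← hq2]; rfl
  rw [Ck, W, ← ENNReal.ofReal_mul (by positivity), ENNReal.ofNNReal_toNNReal,
    ← ENNReal.ofReal_mul (by positivity), ← ENNReal.ofReal_mul (by
      have := hP.w0
      have := rr_pos hP (k.1.1 + 1)
      positivity), hsw, hww]
  refine ENNReal.ofReal_le_ofReal ?_
  generalize ‖v - U P k s (x - (t - s) • v)‖ = ρ at *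
  generalize ‖v - U P k t x‖ = ρ' at *
  generalize dS P k s (x - (t - s) • v) = d at *
  generalize dS P k t x = d' at *
  generalize P.per k.1.1 / 16 = p at *
  generalize Real.sqrt P.w = q at *
  have hp1 : p ≤ 1 := by linarith
  have hq3 : q ≤ 1 := hq1.trans (by norm_num)
  have hsq : 0 < Real.sqrt s := Real.sqrt_pos.2 hs
  set w := q ^ 2 * p ^ 4 with hwdef
  have hw0 : 0 < w := by positivity
  have hw1 : w ≤ 1 := mul_le_one₀ (pow_le_one₀ hq0.le hq3) (by positivity) (pow_le_one₀ p0.le hp1)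
  have e1 : ρ ^ 2 / w ^ 2 ≤ (2 - s) * ρ ^ 2 / w ^ 2 :=
    div_le_div_of_nonneg_right (le_mul_of_one_le_left (by positivity) (by linarith)) (by positivity)
  have e2 : d / (q * p ^ 2) ≤ d / (q * p ^ 2 * Real.sqrt s) :=
    div_le_div_of_nonneg_left h3 (by positivity) (mul_le_of_le_one_right (by positivity) (Real.sqrt_le_one.2 hs1))
  have e3 : 1 / (2 * q * p) ≤ ρ ^ 2 / w ^ 2 + d / (q * p ^ 2) := by
    have b1 : 0 ≤ d / (q * p ^ 2) := by positivity
    have b2 : 0 ≤ ρ ^ 2 / w ^ 2 := by positivity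
    have b3 : ∀ c : ℝ, 0 ≤ c → c ≤ ρ → w ^ 2 ≤ c ^ 2 * (2 * q * p) → 1 / (2 * q * p) ≤ ρ ^ 2 / w ^ 2 := by
      intro c hc0 hc hc'
      rw [div_le_div_iff₀ (by positivity) (by positivity), one_mul]
      exact hc'.trans (by gcongr)
    have b4 : q ^ 3 ≤ (1 / 10 ^ 15) ^ 3 := by gcongr
    rcases hfar with hf | hf
    · have b5 : p ≤ d + ρ := by nlinarith
      rcases le_total (p / 2) ρ with hρ | hρ
      · refine (b3 _ (by positivity) hρ ?_).trans (by linarith)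
        have : w ^ 2 = (p / 2) ^ 2 * (2 * q * p) * (2 * (q ^ 3 * p ^ 5)) := by rw [hwdef]; ring
        rw [this]
        refine mul_le_of_le_one_right (by positivity) ?_
        have := mul_le_of_le_one_right (by positivity : 0 ≤ q ^ 3) (pow_le_one₀ p0.le hp1 (n := 5))
        linarith
      · refine le_trans ?_ (le_add_of_nonneg_left b2)
        rw [div_le_div_iff₀ (by positivity) (by positivity)]
        nlinarith [mul_le_mul_of_nonneg_right (by linarith : p / 2 ≤ d) (by positivity : 0 ≤ 2 * q * p)]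
    · refine (b3 kap kap_pos.le (hf.le.trans h1) ?_).trans (by linarith)
      have : w ^ 2 = (q ^ 3 * p ^ 7 / 2) * (2 * q * p) := by rw [hwdef]; ring
      rw [this]
      refine mul_le_mul_of_nonneg_right ?_ (by positivity)
      have := mul_le_of_le_one_right (by positivity : 0 ≤ q ^ 3) (pow_le_one₀ p0.le hp1 (n := 7))
      rw [kap]
      linarith
  have e4 : ρ ^ 2 ≤ ρ ^ 2 / w ^ 2 := le_div_self (by positivity) (by positivity) (pow_le_one₀ hw0.le hw1)
  have e5 : -((2 - s) * ρ ^ 2 / w ^ 2) - d / (q * p ^ 2 * Real.sqrt s) ≤ -(1 / (4 * q * p)) + -(ρ ^ 2 / 2) := by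
    have b1 : 0 ≤ d / (q * p ^ 2) := by positivity
    have b2 : 1 / (4 * q * p) = 1 / (2 * q * p) / 2 := by field_simp; norm_num
    linarith
  have e6 : Real.exp (-(1 / (4 * q * p))) ≤ (m + 14).factorial * (4 * q * p) ^ (m + 14) := by
    have b1 := Real.pow_div_factorial_le_exp (1 / (4 * q * p)) (by positivity) (m + 14)
    rw [Real.exp_neg, inv_le_comm₀ (Real.exp_pos _) (by positivity)]
    refine le_trans (le_of_eq ?_) b1
    rw [one_div, inv_pow, mul_inv, div_eq_mul_inv, mul_comm]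
  have e7 : Real.exp (-(ρ ^ 2 / 2)) * (ρ + w) ≤ Real.exp 4 * Real.exp (-(1 * ‖v‖)) := by
    have b1 : ρ + w ≤ Real.exp ρ := by linarith [Real.add_one_le_exp ρ]
    refine (mul_le_mul_of_nonneg_left b1 (Real.exp_pos _).le).trans ?_
    rw [← Real.exp_add, ← Real.exp_add]
    exact Real.exp_le_exp.2 (by nlinarith [sq_nonneg (ρ - 2)])
  have e8 := Real.exp_le_exp.2 e5
  rw [Real.exp_add] at e8
  have e9 : p ^ m ≤ P.rr (k.1.1 + 1) ^ m := by gcongr
  have e10 : q ^ (m + 8) ≤ q ^ 2 := pow_le_pow_of_le_one hq0.le hq3 (by omega)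
  have e11 : p ≤ P.rr k.1.1 := p1.trans p2
  have e12 := rr_pos hP (k.1.1 + 1)
  calc _ ≤ cc / (p * w ^ 3) * (((m + 14).factorial * (4 * q * p) ^ (m + 14)) * Real.exp (-(ρ ^ 2 / 2))) *
        (100 * cc / p * (ρ + w)) := by
        gcongr
        exact e8.trans (by gcongr)
    _ = 100 * cc ^ 2 * ((m + 14).factorial * 4 ^ (m + 14)) * (q ^ (m + 8) * p ^ m) *
        (Real.exp (-(ρ ^ 2 / 2)) * (ρ + w)) := by
        rw [hwdef]
        field_simp
        ring
    _ ≤ 100 * cc ^ 2 * ((m + 14).factorial * 4 ^ (m + 14)) * (q ^ 2 * P.rr (k.1.1 + 1) ^ m) *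
        (Real.exp 4 * Real.exp (-(1 * ‖v‖))) := by gcongr
    _ = _ := by rw [hq2]; ring
theorem cold (m : ℕ) : ∃ C : ℝ≥0, ∀ {P : Par}, P.Ok → ∀ (N : ℕ∞) {t : ℝ}, t ∈ Icc (0 : ℝ) 1 → ∀ x v : R3,
    ∫⁻ s in Ioo 0 t, Qp (G P N s (x - (t - s) • v)) (G P N s (x - (t - s) • v)) v ≤
      GC P N t x v + C * ENNReal.ofReal P.w * Th P 0 m t x v := by
  obtain ⟨C, hC⟩ := far_pt m
  refine ⟨201 * 201 * C, fun {P} hP N t ht x v => ?_⟩
  have hc := cc_pos
  have key : ∀ s ∈ Ioo 0 t, Qp (G P N s (x - (t - s) • v)) (G P N s (x - (t - s) • v)) v ≤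
      ENNReal.ofReal (1 + 1 / Real.sqrt (t - s)) * (3⁻¹ * GC P N t x v) +
        (201 * 201 * C : ℝ≥0) * ENNReal.ofReal P.w * Th P 0 m t x v := by
    intro s hs
    have hs1 : s ∈ Icc (0 : ℝ) 1 := ⟨hs.1.le, hs.2.le.trans ht.2⟩
    rcases G_core hP N hs1 (x - (t - s) • v) with h | ⟨k, h1, h2, h3, h4⟩
    · have : G P N s (x - (t - s) • v) = fun _ => 0 := by
        funext a; rw [G, h.1, h.2, add_zero]
      rw [this, Qp_zero_left]
      exact zero_le
    refine (Qp_G hP hs1 h3 h4 v).trans ?_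
    set x' := hat (x - (t - s) • v) + (t - s) • v with hx'
    have e1 : hat (x - (t - s) • v) = x' - (t - s) • v := by rw [hx', add_sub_cancel_right]
    rw [e1] at h2 ⊢
    by_cases hn : InCore P k t x' ∧ ‖v - U P k t x'‖ ≤ kap
    · refine le_trans ?_ le_self_add
      have a1 : Same x' (hat x) := by
        have b1 := (tile_nrm hP ht.1 (core_tile hP hn.1)).2.trans (X_lt_half hP _ ht)
        have b2 : hat x' = hat x := by
          rw [hx', ← sub_neg_eq_add, hat_hat_sub, sub_neg_eq_add, sub_add_cancel]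
        rw [← b2]
        exact Same.hat_ (by linarith)
      have a2 : ENNReal.ofReal (Real.sqrt (P.ww k.1.1)) * Ck P k t x' v ≤ GC P N t x v := by
        refine le_trans (le_of_eq ?_) (ENNReal.le_tsum k)
        rw [if_pos ⟨h1, (a1.core_iff k t).1 hn.1⟩, ← a1.Cke_eq, Cke, if_pos hn.2]
      refine (mul_le_mul_right (near_pt hP k hs.1 hs.2 ht.2 x' v) _).trans
        (le_trans ?_ (mul_le_mul_right (mul_le_mul_right a2 _) _))
      rw [← mul_assoc, ← mul_assoc, ← mul_assoc]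
      refine mul_le_mul_left ?_ _
      have a3 : (3⁻¹ : ℝ≥0∞) = ENNReal.ofReal 3⁻¹ := by
        rw [ENNReal.ofReal_inv_of_pos (by norm_num)]; simp
      have a4 : 0 ≤ 1 + 1 / Real.sqrt (t - s) := by positivity
      rw [a3, ← ENNReal.ofReal_ofNat 201, ← ENNReal.ofReal_mul (by norm_num), ← ENNReal.ofReal_mul (by norm_num),
        ← ENNReal.ofReal_mul a4, ← ENNReal.ofReal_mul (by positivity)]
      refine ENNReal.ofReal_le_ofReal ?_
      have hr := rr_pos hP k.1.1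
      have hw := ww_pos hP k.1.1
      have a5 : Real.sqrt (P.ww k.1.1) / P.rr k.1.1 ≤ 1 / 10 ^ 15 := by
        rw [div_le_iff₀ hr]
        exact (sqrt_ww_le hP _).trans (mul_le_mul_of_nonneg_right (sqrt_w_le hP) hr.le)
      have a6 : 201 * 201 * (200 * cc / P.rr k.1.1 * P.ww k.1.1 * (1 + 1 / Real.sqrt (t - s))) =
          (1 + 1 / Real.sqrt (t - s)) * (201 * 201 * 200 * cc * (Real.sqrt (P.ww k.1.1) / P.rr k.1.1)) *
            Real.sqrt (P.ww k.1.1) := by
        conv_lhs => rw [← Real.mul_self_sqrt hw.le]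
        ring
      rw [a6]
      gcongr
      rw [cc]
      linarith
    · refine le_trans ?_ le_add_self
      refine (mul_le_mul_right (hC hP k hs.1 hs.2 ht.2 x' v h2 hn) _).trans ?_
      have a1 : P.rr (k.1.1 + 1) ≤ om P 0 t x v := by
        have b1 := (tile_nrm hP hs1.1 (core_tile hP h2)).1
        rw [← e1] at b1
        have b2 := om_mono hP 0 hs.2.le x v
        have b3 := L_ge hP
        have b4 : P.rr (k.1.1 + 1) ≤ P.X (k.1.1 + 1) s :=
          le_add_of_nonneg_right (mul_nonneg (add_nonneg kap_pos.le (et_pos hP _).le) hs1.1)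
        have b5 : 0 ≤ (P.L + ‖v‖) * (t - s) := mul_nonneg (by positivity) (sub_nonneg.2 hs.2.le)
        have b6 : 0 ≤ P.L * s := mul_nonneg (by linarith) hs1.1
        have b7 : 0 ≤ 2 * s * ‖v‖ := by have := hs1.1; positivity
        rw [om, dd] at b2
        linarith
      have a2 := rr_pos hP (k.1.1 + 1)
      rw [ENNReal.ofReal_mul hP.w0.le, Th, ENNReal.ofReal_mul (pow_nonneg (a2.le.trans a1) _), W, one_mul]
      push_cast
      simp only [mul_assoc]
      gcongr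
  refine (setLIntegral_mono' measurableSet_Ioo key).trans ?_
  rw [lintegral_add_right _ measurable_const, lintegral_mul_const _ (by fun_prop), setLIntegral_const,
    Real.volume_Ioo]
  refine add_le_add ((mul_le_mul_left (time_int ht) _).trans (le_of_eq ?_))
    (mul_le_of_le_one_right' (ENNReal.ofReal_le_one.2 (by linarith [ht.2])))
  rw [← mul_assoc, ENNReal.mul_inv_cancel (by norm_num) (by norm_num), one_mul]

end Crest.Agent.R68
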