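import Crest.Agent.R68.Sharp

/-! Symmetrisation of the collision integral at a fixed point `(t,x)`. -/

set_option autoImplicit false

open MeasureTheory Set Filter Topology Crest.AnalysisR.VecCalc3 Crest.AnalysisR.PDE.Boltzmann
open scoped ENNReal NNReal

namespace Crest.Agent.R68

namespace CollSym

noncomputable section

abbrev PP : Type := R3 × R3 × R3

abbrev mP : Measure PP := (volume : Measure R3).prod ((volume : Measure R3).prod sphereMeasure)

def aa (p : PP) : ℝ := |inner ℝ (p.1 - p.2.1) p.2.2|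
def pr (p : PP) : PP := (postVel p.1 p.2.1 p.2.2, postVelStar p.1 p.2.1 p.2.2, p.2.2)
def sw (p : PP) : PP := (p.2.1, p.1, p.2.2)
def Lo (f : R3 → ℝ) (p : PP) : ℝ := aa p * f p.1 * f p.2.1
def Ga (f : R3 → ℝ) (p : PP) : ℝ := aa p * f (pr p).1 * f (pr p).2.1
def sl (K : PP → ℝ) (v : R3) : ℝ≥0∞ := ∫⁻ vs, ∫⁻ w, ENNReal.ofReal (K (v, vs, w)) ∂sphereMeasure

theorem gain_eq (F : ℝ → R3 → R3 → ℝ) (t : ℝ) (x v : R3) : collGain F t x v = sl (Ga (F t x)) v := rfl
theorem loss_eq (F : ℝ → R3 → R3 → ℝ) (t : ℝ) (x v : R3) : collLoss F t x v = sl (Lo (F t x)) v := rfl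

theorem mp_pr : MeasurePreserving pr mP mP := measurePreserving_prepost
theorem mp_sw : MeasurePreserving sw mP mP := measurePreserving_swapPart

theorem continuous_aa : Continuous aa := by unfold aa; fun_prop
theorem continuous_pr : Continuous pr := by unfold pr postVel postVelStar; fun_prop
theorem continuous_sw : Continuous sw := by unfold sw; fun_prop
@[fun_prop] theorem measurable_aa : Measurable aa := continuous_aa.measurable
@[fun_prop] theorem measurable_pr : Measurable pr := continuous_pr.measurable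
@[fun_prop] theorem measurable_sw : Measurable sw := continuous_sw.measurable
theorem aa_nonneg (p : PP) : 0 ≤ aa p := abs_nonneg _

theorem ae_unit : ∀ᵐ p ∂mP, ‖p.2.2‖ = 1 :=
  Measure.quasiMeasurePreserving_snd.ae (Measure.quasiMeasurePreserving_snd.ae ae_sphere)

theorem inner_pr {p : PP} (h : ‖p.2.2‖ = 1) :
    inner ℝ ((pr p).1 - (pr p).2.1) p.2.2 = -inner ℝ (p.1 - p.2.1) p.2.2 := by
  obtain ⟨v, vs, w⟩ := p
  simp only [pr, postVel, postVelStar] at *
  have : v - inner ℝ (v - vs) w • w - (vs + inner ℝ (v - vs) w • w) =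
      (v - vs) - (2 * inner ℝ (v - vs) w) • w := by
    rw [mul_smul, two_smul]; abel
  rw [this, inner_sub_left, real_inner_smul_left, real_inner_self_eq_norm_sq, h]
  ring

theorem aa_pr {p : PP} (h : ‖p.2.2‖ = 1) : aa (pr p) = aa p := by
  have := inner_pr h
  unfold aa
  rw [show (pr p).2.2 = p.2.2 from rfl, this, abs_neg]

theorem pr_pr {p : PP} (h : ‖p.2.2‖ = 1) : pr (pr p) = p := by
  have h1 := inner_pr h
  obtain ⟨v, vs, w⟩ := p
  have e1 : postVel (pr (v, vs, w)).1 (pr (v, vs, w)).2.1 w = v := by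
    rw [postVel, h1]; simp [pr, postVel]
  have e2 : postVelStar (pr (v, vs, w)).1 (pr (v, vs, w)).2.1 w = vs := by
    rw [postVelStar, h1]; simp [pr, postVelStar]
  exact Prod.ext e1 (Prod.ext e2 rfl)

theorem aa_sw (p : PP) : aa (sw p) = aa p := by
  unfold aa sw
  rw [← neg_sub, inner_neg_left, abs_neg]

theorem pr_sw (p : PP) : pr (sw p) = sw (pr p) :=
  Prod.ext (post_swap _ _ _) (Prod.ext (post_swap _ _ _).symm rfl)

theorem Lo_sw (f : R3 → ℝ) (p : PP) : Lo f (sw p) = Lo f p := by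
  unfold Lo; rw [aa_sw]; simp only [sw]; ring
theorem Ga_sw (f : R3 → ℝ) (p : PP) : Ga f (sw p) = Ga f p := by
  unfold Ga; rw [aa_sw, pr_sw]; simp only [sw]; ring
theorem Lo_pr (f : R3 → ℝ) {p : PP} (h : ‖p.2.2‖ = 1) : Lo f (pr p) = Ga f p := by
  unfold Lo Ga; rw [aa_pr h]
theorem Ga_pr (f : R3 → ℝ) {p : PP} (h : ‖p.2.2‖ = 1) : Ga f (pr p) = Lo f p := by
  unfold Lo Ga; rw [aa_pr h, pr_pr h]

theorem meas_Lo {f : R3 → ℝ} (hf : Measurable f) : Measurable (Lo f) := by
  unfold Lo; fun_prop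
theorem meas_Ga {f : R3 → ℝ} (hf : Measurable f) : Measurable (Ga f) := by
  unfold Ga
  exact (measurable_aa.mul (hf.comp measurable_pr.fst)).mul (hf.comp measurable_pr.snd.fst)
theorem Lo_nonneg {f : R3 → ℝ} (hf : ∀ v, 0 ≤ f v) (p : PP) : 0 ≤ Lo f p :=
  mul_nonneg (mul_nonneg (aa_nonneg _) (hf _)) (hf _)
theorem Ga_nonneg {f : R3 → ℝ} (hf : ∀ v, 0 ≤ f v) (p : PP) : 0 ≤ Ga f p :=
  mul_nonneg (mul_nonneg (aa_nonneg _) (hf _)) (hf _)

theorem sl_eq {K : PP → ℝ} (hK : Measurable K) (v : R3) :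
    sl K v = ∫⁻ y, ENNReal.ofReal (K (v, y)) ∂((volume : Measure R3).prod sphereMeasure) := by
  rw [lintegral_prod _ (by fun_prop)]; rfl

theorem meas_sl {K : PP → ℝ} (hK : Measurable K) : Measurable (sl K) := by
  have : sl K = fun v => ∫⁻ y, ENNReal.ofReal (K (v, y)) ∂((volume : Measure R3).prod sphereMeasure) :=
    funext (sl_eq hK)
  rw [this]
  exact Measurable.lintegral_prod_right' (f := fun p : PP => ENNReal.ofReal (K p)) (by fun_prop)

theorem lint_sl {K : PP → ℝ} (hK : Measurable K) : ∫⁻ p, ENNReal.ofReal (K p) ∂mP = ∫⁻ v, sl K v := by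
  rw [lintegral_prod _ (by fun_prop)]
  exact lintegral_congr fun v => (sl_eq hK v).symm

theorem int_slice {K : PP → ℝ} (hK : Measurable K) (h0 : ∀ p, 0 ≤ K p) {ψ : R3 → ℝ}
    (hψ : Measurable ψ) (hfin : ∫⁻ v, ‖ψ v‖ₑ * sl K v < ⊤) :
    Integrable (fun p => K p * ψ p.1) mP ∧ Integrable (fun v => (sl K v).toReal * ψ v) ∧
      ∫ v, (sl K v).toReal * ψ v = ∫ p, K p * ψ p.1 ∂mP := by
  have hI : Integrable (fun p => K p * ψ p.1) mP := by
    refine ⟨(by fun_prop : Measurable fun p : PP => K p * ψ p.1).aestronglyMeasurable, ?_⟩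
    rw [hasFiniteIntegral_iff_enorm, lintegral_prod _ (by fun_prop)]
    refine lt_of_eq_of_lt (lintegral_congr fun v => ?_) hfin
    rw [sl_eq hK, ← lintegral_const_mul _ (by fun_prop)]
    refine lintegral_congr fun y => ?_
    rw [enorm_mul, Real.enorm_of_nonneg (h0 _), mul_comm]
  have he : ∀ v, ∫ y, K (v, y) * ψ v ∂((volume : Measure R3).prod sphereMeasure) =
      (sl K v).toReal * ψ v := by
    intro v
    rw [integral_mul_const, sl_eq hK, integral_eq_lintegral_of_nonneg_ae (ae_of_all _ fun y => h0 _)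
      (by fun_prop : Measurable fun y => K (v, y)).aestronglyMeasurable]
  refine ⟨hI, ?_, ?_⟩
  · have := hI.integral_prod_left
    simpa only [he] using this
  · rw [integral_prod _ hI]
    exact integral_congr_ae (ae_of_all _ fun v => (he v).symm)

theorem int_comp {g : PP → PP} (hg : MeasurePreserving g mP mP) {I : PP → ℝ} (hI : Integrable I mP) :
    ∫ p, I (g p) ∂mP = ∫ p, I p ∂mP := by
  conv_rhs => rw [← hg.map_eq]
  rw [integral_map hg.measurable.aemeasurable (by rw [hg.map_eq]; exact hI.1)]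

theorem coll_sym {f ψ : R3 → ℝ} (hf : Measurable f) (hf0 : ∀ v, 0 ≤ f v) (hψ : Measurable ψ)
    (hfin : ∫⁻ v, ‖ψ v‖ₑ * (sl (Ga f) v + sl (Lo f) v) < ⊤) :
    Integrable (fun p => (Ga f p - Lo f p) * (ψ (pr p).1 + ψ (pr p).2.1 - ψ p.1 - ψ p.2.1)) mP ∧
    ∫ v, ((sl (Ga f) v).toReal - (sl (Lo f) v).toReal) * ψ v =
      -(1 / 4) * ∫ p, (Ga f p - Lo f p) * (ψ (pr p).1 + ψ (pr p).2.1 - ψ p.1 - ψ p.2.1) ∂mP := by
  obtain ⟨g1, g2, g3⟩ := int_slice (meas_Ga hf) (Ga_nonneg hf0) hψ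
    (lt_of_le_of_lt (lintegral_mono fun v => by gcongr; exact le_self_add) hfin)
  obtain ⟨l1, l2, l3⟩ := int_slice (meas_Lo hf) (Lo_nonneg hf0) hψ
    (lt_of_le_of_lt (lintegral_mono fun v => by gcongr; exact le_add_self) hfin)
  set I : PP → ℝ := fun p => (Ga f p - Lo f p) * ψ p.1 with hIdef
  have hI : Integrable I mP := (g1.sub l1).congr (ae_of_all _ fun p => by simp only [hIdef, Pi.sub_apply]; ring)
  have hv : ∫ v, ((sl (Ga f) v).toReal - (sl (Lo f) v).toReal) * ψ v = ∫ p, I p ∂mP := by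
    simp only [sub_mul, hIdef]
    rw [integral_sub g2 l2, integral_sub g1 l1, g3, l3]
  have i2 : Integrable (fun p => I (sw p)) mP := mp_sw.integrable_comp_of_integrable hI
  have i3 : Integrable (fun p => I (pr p)) mP := mp_pr.integrable_comp_of_integrable hI
  have i4 : Integrable (fun p => I (sw (pr p))) mP := mp_pr.integrable_comp_of_integrable i2
  have e : (fun p => (Ga f p - Lo f p) * (ψ (pr p).1 + ψ (pr p).2.1 - ψ p.1 - ψ p.2.1)) =ᵐ[mP]
      fun p => -(I p + I (sw p) + I (pr p) + I (sw (pr p))) := by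
    filter_upwards [ae_unit] with p hp
    simp only [hIdef, Ga_sw, Lo_sw, Ga_pr f hp, Lo_pr f hp]
    simp only [sw]
    ring
  have j2 : Integrable (fun p => I p + I (sw p)) mP := hI.add i2
  have j3 : Integrable (fun p => I p + I (sw p) + I (pr p)) mP := j2.add i3
  refine ⟨(j3.add i4).neg.congr e.symm, ?_⟩
  rw [hv, integral_congr_ae e, integral_neg, integral_add j3 i4,
    integral_add j2 i3, integral_add hI i2, int_comp mp_pr i2, int_comp mp_pr hI,
    int_comp mp_sw hI]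
  ring

end

end CollSym

end Crest.Agent.R68
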