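import Crest.Agent.R68.Basic1

/-! One-dimensional change of variables for a rational function: off the finitely many roots of
`Q · (P'Q - PQ')` (if that polynomial is nonzero; otherwise the derivative vanishes wherever `Q ≠ 0`) the line splits into at most
`3N + 1` open intervals on each of which `P/Q` is differentiable with nonvanishing continuous derivative, hence injective;
use `lintegral_image_eq_lintegral_abs_deriv_mul` on each. -/

set_option autoImplicit false

open MeasureTheory Set Filter Topology Crest.AnalysisR.VecCalc3 Crest.AnalysisR.PDE.Boltzmann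
open scoped ENNReal NNReal

namespace Crest.Agent.R68

theorem rat1D_aux (g : ℝ → ℝ) (f : ℝ → ℝ≥0∞) (Z : Finset ℝ) : ∀ I : Set ℝ, I.OrdConnected →
    (∀ s ∈ I, s ∉ Z → DifferentiableAt ℝ g s ∧ deriv g s ≠ 0) →
    ∫⁻ s in I \ (Z : Set ℝ), f (g s) * ENNReal.ofReal |deriv g s| ≤ 2 ^ Z.card * ∫⁻ u, f u := by
  classical
  induction Z using Finset.induction_on with
  | empty =>
    intro I hI h
    have hd : ∀ s ∈ I, HasDerivAt g (deriv g s) s := fun s hs => (h s hs (Finset.notMem_empty s)).1.hasDerivAt
    have key : ∀ a ∈ I, ∀ b ∈ I, a < b → g a ≠ g b := fun a ha b hb hab he => by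
      have hsub : Icc a b ⊆ I := hI.out ha hb
      obtain ⟨c, hc, h0⟩ := exists_hasDerivAt_eq_zero hab
        (fun x hx => (hd x (hsub hx)).continuousAt.continuousWithinAt) he
        (fun x hx => hd x (hsub (Ioo_subset_Icc_self hx)))
      exact (h c (hsub (Ioo_subset_Icc_self hc)) (Finset.notMem_empty c)).2 h0
    have hinj : InjOn g I := fun a ha b hb he => by
      rcases lt_trichotomy a b with h1 | h1 | h1
      · exact absurd he (key a ha b hb h1)
      · exact h1
      · exact absurd he.symm (key b hb a ha h1)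
    have h1 := lintegral_image_eq_lintegral_abs_deriv_mul hI.measurableSet
      (fun s hs => (hd s hs).hasDerivWithinAt) hinj f
    simp only [Finset.coe_empty, sdiff_empty, Finset.card_empty, pow_zero, one_mul]
    simp only [mul_comm (f _)]
    rw [← h1]
    exact setLIntegral_le_lintegral _ _
  | insert z Z hz ih =>
    intro I hI h
    have hsub : I \ ((insert z Z : Finset ℝ) : Set ℝ) ⊆ ((I ∩ Iio z) \ (Z : Set ℝ)) ∪ ((I ∩ Ioi z) \ (Z : Set ℝ)) := by
      rintro s ⟨hs, hn⟩
      simp only [Finset.coe_insert, mem_insert_iff, not_or] at hn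
      rcases lt_or_gt_of_ne hn.1 with h1 | h1
      · exact Or.inl ⟨⟨hs, h1⟩, hn.2⟩
      · exact Or.inr ⟨⟨hs, h1⟩, hn.2⟩
    have h1 := ih (I ∩ Iio z) (hI.inter ordConnected_Iio) fun s hs hn =>
      h s hs.1 (by simp only [Finset.mem_insert, not_or]; exact ⟨ne_of_lt hs.2, hn⟩)
    have h2 := ih (I ∩ Ioi z) (hI.inter ordConnected_Ioi) fun s hs hn =>
      h s hs.1 (by simp only [Finset.mem_insert, not_or]; exact ⟨ne_of_gt hs.2, hn⟩)
    refine (lintegral_mono_set hsub).trans ((lintegral_union_le _ _ _).trans ?_)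
    rw [Finset.card_insert_of_notMem hz, pow_succ', mul_assoc, two_mul]
    exact add_le_add h1 h2

theorem rat1D (N : ℕ) : ∃ C : ℝ≥0, ∀ P Q : Polynomial ℝ, P.natDegree ≤ N → Q.natDegree ≤ N →
    ∀ f : ℝ → ℝ≥0∞, Measurable f →
    ∫⁻ s in {s : ℝ | Q.eval s ≠ 0}, f (P.eval s / Q.eval s) *
      ENNReal.ofReal |deriv (fun s => P.eval s / Q.eval s) s| ≤ C * ∫⁻ u, f u := by
  classical
  refine ⟨2 ^ (3 * N), fun P Q hP hQ f _ => ?_⟩
  set Wp : Polynomial ℝ := P.derivative * Q - P * Q.derivative with hW
  have hd : ∀ s, Q.eval s ≠ 0 → HasDerivAt (fun s => P.eval s / Q.eval s) (Wp.eval s / Q.eval s ^ 2) s :=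
    fun s hs => by
      have h1 := (P.hasDerivAt s).fun_div (Q.hasDerivAt s) hs
      simpa only [hW, Polynomial.eval_sub, Polynomial.eval_mul] using h1
  have hm : MeasurableSet {s : ℝ | Q.eval s ≠ 0} :=
    (isOpen_ne_fun Q.continuous continuous_const).measurableSet
  by_cases h0 : Q * Wp = 0
  · rw [setLIntegral_congr_fun hm (g := fun _ => 0) (fun s hs => ?_)]
    · simp
    · have h1 : Wp.eval s = 0 := by
        have h2 := congrArg (Polynomial.eval s) h0
        rw [Polynomial.eval_mul, Polynomial.eval_zero] at h2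
        exact (mul_eq_zero.1 h2).resolve_left hs
      simp only [(hd s hs).deriv, h1, zero_div, abs_zero, ENNReal.ofReal_zero, mul_zero]
  · set Z : Finset ℝ := (Q * Wp).roots.toFinset with hZ
    have hcard : Z.card ≤ 3 * N := by
      have h1 : Wp.natDegree ≤ N + N := by
        refine (Polynomial.natDegree_sub_le _ _).trans (max_le ?_ ?_)
        · exact Polynomial.natDegree_mul_le.trans
            (add_le_add (((Polynomial.natDegree_derivative_le P).trans (Nat.sub_le _ _)).trans hP) hQ)
        · exact Polynomial.natDegree_mul_le.trans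
            (add_le_add hP (((Polynomial.natDegree_derivative_le Q).trans (Nat.sub_le _ _)).trans hQ))
      have h2 : (Q * Wp).natDegree ≤ N + (N + N) := Polynomial.natDegree_mul_le.trans (add_le_add hQ h1)
      have h3 : Z.card ≤ _ := (Multiset.toFinset_card_le (Q * Wp).roots).trans (Polynomial.card_roots' _)
      omega
    have h1 := rat1D_aux (fun s => P.eval s / Q.eval s) f Z univ ordConnected_univ fun s _ hs => by
      have h2 : Q.eval s * Wp.eval s ≠ 0 := fun h3 => hs (by
        rw [hZ, Multiset.mem_toFinset, Polynomial.mem_roots h0, Polynomial.IsRoot.def, Polynomial.eval_mul]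
        exact h3)
      have h3 := left_ne_zero_of_mul h2
      refine ⟨(hd s h3).differentiableAt, ?_⟩
      rw [(hd s h3).deriv]
      exact div_ne_zero (right_ne_zero_of_mul h2) (pow_ne_zero _ h3)
    have h2 : {s : ℝ | Q.eval s ≠ 0} ≤ᵐ[volume] (univ \ (Z : Set ℝ) : Set ℝ) := by
      filter_upwards [Z.finite_toSet.countable.ae_notMem volume] with s hs _
      exact ⟨mem_univ _, hs⟩
    refine (lintegral_mono_set' h2).trans (h1.trans ?_)
    push_cast
    gcongr
    exact one_le_two

end Crest.Agent.R68
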