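import Crest.Agent.R68.Plane
import Crest.Agent.R68.Rat1D

/-! A one-parameter family of planes sweeps space.  Put `n s = η s - a`.  If all polynomials `Pn i - a i Q` vanish then `η' = 0` on `A` and the integrand is `⊤ * 0 = 0`; otherwise `n s = 0` only for finitely many `s`.
Split `A` according to the first `i` with `n s i ≠ 0`; by `pint_graph` the integrand is `|n s i|⁻¹ ∫ du f(ins i (ξ_i(s,u)) u) 1[cut]`, with `ξ_i(s,u)` a rational function of `s` with denominator `Q (Pn i - a i Q)` and degrees `≤ 2N`.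
Differentiating `⟪ξ - η, η - a⟫ = 0` gives `ξ_i' n_i = ⟪η', 2η - a - ξ⟫`, so on the cut `|n_i|⁻¹ ≤ |ξ_i'|/δ`; Tonelli, `rat1D`, `lintegral_ins`. -/

set_option autoImplicit false

open MeasureTheory Set Filter Topology Crest.AnalysisR.VecCalc3 Crest.AnalysisR.PDE.Boltzmann
open scoped ENNReal NNReal

namespace Crest.Agent.R68

namespace Core1X
open Polynomial

noncomputable def ee (Pn : Fin 3 → ℝ[X]) (Q : ℝ[X]) (j : Fin 3) (s : ℝ) : ℝ :=
  (Pn j).eval s / Q.eval s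

noncomputable def ccx (e : Fin 3 → ℝ → ℝ) (a : R3) (i : Fin 3) (u : ℝ × ℝ) (s : ℝ) : ℝ :=
  e i s - ((e (i + 1) s - a (i + 1)) * (u.1 - e (i + 1) s) +
    (e (i + 2) s - a (i + 2)) * (u.2 - e (i + 2) s)) / (e i s - a i)

noncomputable def DDx (e : Fin 3 → ℝ → ℝ) (a : R3) (i : Fin 3) (u : ℝ × ℝ) (s : ℝ) : ℝ :=
  (deriv (e i) s * (2 * e i s - a i - ccx e a i u s) +
    deriv (e (i + 1)) s * (2 * e (i + 1) s - a (i + 1) - u.1) +
    deriv (e (i + 2)) s * (2 * e (i + 2) s - a (i + 2) - u.2)) / (e i s - a i)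

theorem hasDeriv_cc {e : Fin 3 → ℝ → ℝ} {a : R3} {i : Fin 3} (u : ℝ × ℝ) {s : ℝ}
    (he : ∀ j, DifferentiableAt ℝ (e j) s) (hn : e i s - a i ≠ 0) :
    HasDerivAt (ccx e a i u) (DDx e a i u s) s := by
  have h0 := (he i).hasDerivAt
  have h1 := (he (i + 1)).hasDerivAt
  have h2 := (he (i + 2)).hasDerivAt
  have h := h0.sub ((((h1.sub_const (a (i + 1))).mul (h1.const_sub u.1)).add
    ((h2.sub_const (a (i + 2))).mul (h2.const_sub u.2))).div (h0.sub_const (a i)) hn)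
  refine HasDerivAt.congr_deriv (f := ccx e a i u) h ?_
  simp only [DDx, ccx, Pi.add_apply, Pi.mul_apply]
  field_simp
  ring

theorem meas_ee (Pn : Fin 3 → ℝ[X]) (Q : ℝ[X]) (j : Fin 3) : Measurable (ee Pn Q j) :=
  (Pn j).continuous.measurable.div Q.continuous.measurable

theorem diff_ee (Pn : Fin 3 → ℝ[X]) {Q : ℝ[X]} {s : ℝ} (hs : Q.eval s ≠ 0) (j : Fin 3) :
    DifferentiableAt ℝ (ee Pn Q j) s :=
  (Pn j).differentiableAt.div Q.differentiableAt hs

theorem meas_cc {e : Fin 3 → ℝ → ℝ} (he : ∀ j, Measurable (e j)) (a : R3) (i : Fin 3) :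
    Measurable fun q : ℝ × (ℝ × ℝ) => ccx e a i q.2 q.1 := by
  have h0 := (he i).comp (measurable_fst : Measurable fun q : ℝ × (ℝ × ℝ) => q.1)
  have h1 := (he (i + 1)).comp (measurable_fst : Measurable fun q : ℝ × (ℝ × ℝ) => q.1)
  have h2 := (he (i + 2)).comp (measurable_fst : Measurable fun q : ℝ × (ℝ × ℝ) => q.1)
  exact h0.sub ((((h1.sub_const _).mul (measurable_snd.fst.sub h1)).add
    ((h2.sub_const _).mul (measurable_snd.snd.sub h2))).div (h0.sub_const _))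

theorem meas_DD {e : Fin 3 → ℝ → ℝ} (he : ∀ j, Measurable (e j)) (a : R3) (i : Fin 3) :
    Measurable fun q : ℝ × (ℝ × ℝ) => DDx e a i q.2 q.1 := by
  have h0 := (he i).comp (measurable_fst : Measurable fun q : ℝ × (ℝ × ℝ) => q.1)
  have h1 := (he (i + 1)).comp (measurable_fst : Measurable fun q : ℝ × (ℝ × ℝ) => q.1)
  have h2 := (he (i + 2)).comp (measurable_fst : Measurable fun q : ℝ × (ℝ × ℝ) => q.1)
  have d0 := (measurable_deriv (e i)).comp (measurable_fst : Measurable fun q : ℝ × (ℝ × ℝ) => q.1)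
  have d1 := (measurable_deriv (e (i + 1))).comp (measurable_fst : Measurable fun q : ℝ × (ℝ × ℝ) => q.1)
  have d2 := (measurable_deriv (e (i + 2))).comp (measurable_fst : Measurable fun q : ℝ × (ℝ × ℝ) => q.1)
  exact (((d0.mul (((h0.const_mul 2).sub_const _).sub (meas_cc he a i))).add
    (d1.mul (((h1.const_mul 2).sub_const _).sub measurable_snd.fst))).add
    (d2.mul (((h2.const_mul 2).sub_const _).sub measurable_snd.snd))).div (h0.sub_const _)

noncomputable def RR (Pn : Fin 3 → ℝ[X]) (Q : ℝ[X]) (a : R3) (j : Fin 3) : ℝ[X] :=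
  Pn j - C (a j) * Q

theorem deg_lin {N : ℕ} {P Q : ℝ[X]} (hP : P.natDegree ≤ N) (hQ : Q.natDegree ≤ N) (c : ℝ) :
    (P - C c * Q).natDegree ≤ N :=
  (natDegree_sub_le _ _).trans (max_le hP ((natDegree_C_mul_le _ _).trans hQ))

theorem deg_mul {N : ℕ} {P Q : ℝ[X]} (hP : P.natDegree ≤ N) (hQ : Q.natDegree ≤ N) :
    (P * Q).natDegree ≤ 2 * N :=
  natDegree_mul_le.trans (by omega)

theorem ee_sub (Pn : Fin 3 → ℝ[X]) {Q : ℝ[X]} (a : R3) (j : Fin 3) {s : ℝ} (hs : Q.eval s ≠ 0) :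
    ee Pn Q j s - a j = (RR Pn Q a j).eval s / Q.eval s := by
  simp only [ee, RR, eval_sub, eval_mul, eval_C]
  field_simp

theorem sweep (N : ℕ) : ∃ K : ℝ≥0, ∀ (Pn : Fin 3 → ℝ[X]) (Q : ℝ[X]), (∀ i, (Pn i).natDegree ≤ N) →
    Q.natDegree ≤ N → ∀ (a : R3) (i : Fin 3) {f : R3 → ℝ≥0∞}, Measurable f →
    ∫⁻ s in {s | (Q * RR Pn Q a i).eval s ≠ 0}, ∫⁻ u : ℝ × ℝ,
      f (ins i (ccx (ee Pn Q) a i u s) u) * ENNReal.ofReal |DDx (ee Pn Q) a i u s| ≤
      K * ∫⁻ ξ, f ξ := by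
  obtain ⟨K, hK⟩ := rat1D (2 * N)
  refine ⟨K, fun Pn Q hP hQ a i f hf => ?_⟩
  have hm : Measurable fun q : ℝ × (ℝ × ℝ) => f (ins i (ccx (ee Pn Q) a i q.2 q.1) q.2) *
      ENNReal.ofReal |DDx (ee Pn Q) a i q.2 q.1| :=
    (hf.comp ((measurable_ins i).comp ((meas_cc (meas_ee Pn Q) a i).prodMk measurable_snd))).mul
      (ENNReal.measurable_ofReal.comp (continuous_abs.measurable.comp (meas_DD (meas_ee Pn Q) a i)))
  rw [lintegral_lintegral_swap hm.aemeasurable, lintegral_ins i hf,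
    ← lintegral_const_mul' _ _ ENNReal.coe_ne_top]
  refine lintegral_mono fun u => ?_
  have hR : ∀ j, (RR Pn Q a j).natDegree ≤ N := fun j => deg_lin (hP j) hQ _
  set PP : ℝ[X] := Pn i * RR Pn Q a i + RR Pn Q a (i + 1) * (Pn (i + 1) - C u.1 * Q) +
    RR Pn Q a (i + 2) * (Pn (i + 2) - C u.2 * Q) with hPP
  have hPPd : PP.natDegree ≤ 2 * N :=
    (natDegree_add_le _ _).trans (max_le ((natDegree_add_le _ _).trans
      (max_le (deg_mul (hP i) (hR i)) (deg_mul (hR _) (deg_lin (hP _) hQ _))))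
      (deg_mul (hR _) (deg_lin (hP _) hQ _)))
  have hfu : Measurable fun c : ℝ => f (ins i c u) :=
    hf.comp ((measurable_ins i).comp (measurable_id.prodMk measurable_const))
  refine le_trans (le_of_eq ?_) (hK PP (Q * RR Pn Q a i) hPPd (deg_mul hQ (hR i)) _ hfu)
  have hO : IsOpen {s : ℝ | (Q * RR Pn Q a i).eval s ≠ 0} :=
    isOpen_ne_fun (Q * RR Pn Q a i).continuous continuous_const
  have hEq : ∀ s ∈ {s : ℝ | (Q * RR Pn Q a i).eval s ≠ 0},
      PP.eval s / (Q * RR Pn Q a i).eval s = ccx (ee Pn Q) a i u s := by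
    intro s hs
    have hs' : Q.eval s * (RR Pn Q a i).eval s ≠ 0 := by simpa using hs
    have hQs := left_ne_zero_of_mul hs'
    have hRs := right_ne_zero_of_mul hs'
    simp only [ccx, ee_sub Pn a _ hQs]
    simp only [hPP, ee, eval_add, eval_mul, eval_sub, eval_C]
    field_simp
    ring
  refine setLIntegral_congr_fun hO.measurableSet fun s hs => ?_
  have hs' : Q.eval s * (RR Pn Q a i).eval s ≠ 0 := by simpa using hs
  have hQs := left_ne_zero_of_mul hs'
  have hRs := right_ne_zero_of_mul hs'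
  have hd : HasDerivAt (fun s => PP.eval s / (Q * RR Pn Q a i).eval s) (DDx (ee Pn Q) a i u s) s := by
    refine (hasDeriv_cc u (diff_ee Pn hQs) ?_).congr_of_eventuallyEq ?_
    · rw [ee_sub Pn a i hQs]; exact div_ne_zero hRs hQs
    · filter_upwards [hO.mem_nhds hs] with t ht using hEq t ht
  simp only [hEq s hs, hd.deriv]

theorem inner_ins (i : Fin 3) (w z a : R3) (c : ℝ) (u : ℝ × ℝ) :
    inner ℝ w ((2 : ℝ) • z - a - ins i c u) = w i * (2 * z i - a i - c) +
      w (i + 1) * (2 * z (i + 1) - a (i + 1) - u.1) + w (i + 2) * (2 * z (i + 2) - a (i + 2) - u.2) := by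
  rw [PiLp.inner_apply, Fin.sum_univ_three]
  fin_cases i <;> simp [ins] <;> ring

end Core1X

open Core1X in
open Classical in
theorem core1 (N : ℕ) : ∃ C : ℝ≥0, ∀ (Pn : Fin 3 → Polynomial ℝ) (Q : Polynomial ℝ), (∀ i, (Pn i).natDegree ≤ N) →
    Q.natDegree ≤ N → ∀ (a : R3) {δ : ℝ}, 0 < δ → ∀ {A : Set ℝ}, MeasurableSet A → (∀ s ∈ A, Q.eval s ≠ 0) →
    ∀ (η η' : ℝ → R3), (∀ s i, η s i = (Pn i).eval s / Q.eval s) →
    (∀ s ∈ A, ∀ i, η' s i = deriv (fun s => (Pn i).eval s / Q.eval s) s) → ∀ {f : R3 → ℝ≥0∞}, Measurable f →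
    ∫⁻ s in A, invn (η s - a) * pint (η s - a) (η s)
      (fun ξ => if δ ≤ |inner ℝ (η' s) ((2 : ℝ) • η s - a - ξ)| then f ξ else 0) ≤
      C * ENNReal.ofReal (1 / δ) * ∫⁻ ξ, f ξ := by
  obtain ⟨K, hK⟩ := sweep N
  refine ⟨K, fun Pn Q hP hQ a δ hδ A hA hAQ η η' hη hη' f hf => ?_⟩
  set F : ℝ → ℝ≥0∞ := fun s => invn (η s - a) * pint (η s - a) (η s)
      (fun ξ => if δ ≤ |inner ℝ (η' s) ((2 : ℝ) • η s - a - ξ)| then f ξ else 0) with hF
  have hηe : ∀ s i, η s i = ee Pn Q i s := hη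
  have hη'e : ∀ s ∈ A, ∀ i, η' s i = deriv (ee Pn Q i) s := hη'
  by_cases hz : ∀ i, RR Pn Q a i = 0
  · have h0 : ∀ s ∈ A, F s = 0 := by
      intro s hs
      have h1 : η' s = 0 := by
        ext i
        rw [hη'e s hs i]
        have hO : IsOpen {s : ℝ | Q.eval s ≠ 0} := isOpen_ne_fun Q.continuous continuous_const
        have : ee Pn Q i =ᶠ[𝓝 s] fun _ => a i := by
          filter_upwards [hO.mem_nhds (hAQ s hs)] with t ht
          have := ee_sub Pn a i ht
          rw [hz i] at this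
          simpa [sub_eq_zero] using this
        rw [this.deriv_eq]
        simp
      simp only [hF, h1, inner_zero_left, abs_zero, not_le.2 hδ, if_false, pint, mul_zero,
        lintegral_zero]
    rw [setLIntegral_congr_fun hA h0]
    simp
  push Not at hz
  obtain ⟨i0, hi0⟩ := hz
  have hfin : volume {s : ℝ | (RR Pn Q a i0).IsRoot s} = 0 :=
    (Polynomial.finite_setOfPred_isRoot hi0).measure_zero _
  have hsub : A ≤ᵐ[volume] (A ∩ {s | (Q * RR Pn Q a i0).eval s ≠ 0} : Set ℝ) := by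
    filter_upwards [measure_eq_zero_iff_ae_notMem.1 hfin] with s hs hsA
    refine ⟨hsA, ?_⟩
    simpa using ⟨hAQ s hsA, hs⟩
  refine (lintegral_mono' (Measure.restrict_mono_ae hsub) le_rfl).trans ?_
  have hO : IsOpen {s : ℝ | (Q * RR Pn Q a i0).eval s ≠ 0} :=
    isOpen_ne_fun (Q * RR Pn Q a i0).continuous continuous_const
  have hpt : ∀ s ∈ (A ∩ {s | (Q * RR Pn Q a i0).eval s ≠ 0} : Set ℝ), F s ≤
      ENNReal.ofReal (1 / δ) * ∫⁻ u : ℝ × ℝ,
        f (ins i0 (ccx (ee Pn Q) a i0 u s) u) * ENNReal.ofReal |DDx (ee Pn Q) a i0 u s| := by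
    intro s hs
    have hs' : Q.eval s * (RR Pn Q a i0).eval s ≠ 0 := by simpa using hs.2
    have hQs := left_ne_zero_of_mul hs'
    have hRs := right_ne_zero_of_mul hs'
    have hn0 : ee Pn Q i0 s - a i0 ≠ 0 := by
      rw [ee_sub Pn a i0 hQs]; exact div_ne_zero hRs hQs
    have hn : (η s - a) i0 ≠ 0 := by rw [PiLp.sub_apply, hηe]; exact hn0
    have hnn : η s - a ≠ 0 := by intro h; rw [h] at hn; exact hn rfl
    have hnp : 0 < ‖η s - a‖ := norm_pos_iff.2 hnn
    have hm : Measurable fun ξ : R3 =>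
        if δ ≤ |inner ℝ (η' s) ((2 : ℝ) • η s - a - ξ)| then f ξ else 0 :=
      Measurable.ite (measurableSet_le measurable_const (by fun_prop)) hf measurable_const
    simp only [hF]
    rw [pint_graph hn _ hm, ← mul_assoc, invn, ← ENNReal.ofReal_inv_of_pos hnp,
      ← ENNReal.ofReal_mul (by positivity), ← lintegral_const_mul' _ _ ENNReal.ofReal_ne_top,
      ← lintegral_const_mul' _ _ ENNReal.ofReal_ne_top]
    refine lintegral_mono fun u => ?_
    have hc : η s i0 - ((η s - a) (i0 + 1) * (u.1 - η s (i0 + 1)) +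
        (η s - a) (i0 + 2) * (u.2 - η s (i0 + 2))) / (η s - a) i0 = ccx (ee Pn Q) a i0 u s := by
      simp only [PiLp.sub_apply, hηe, ccx]
    simp only [hc]
    split_ifs with hcut
    · rw [mul_comm (f _), ← mul_assoc, ← ENNReal.ofReal_mul (by positivity)]
      refine mul_le_mul_left (ENNReal.ofReal_le_ofReal ?_) _
      rw [inner_ins] at hcut
      simp only [hηe, hη'e s hs.1] at hcut
      have hpos : 0 < |ee Pn Q i0 s - a i0| := abs_pos.2 hn0
      simp only [DDx, abs_div, PiLp.sub_apply, hηe]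
      rw [inv_mul_eq_div, div_div, mul_comm, ← div_div, div_self hnp.ne', ← mul_div_assoc]
      refine div_le_div_of_nonneg_right ?_ hpos.le
      rw [one_div, le_inv_mul_iff₀ hδ, mul_one]
      exact hcut
    · simp
  refine (setLIntegral_mono' (hA.inter hO.measurableSet) hpt).trans ?_
  rw [lintegral_const_mul' _ _ ENNReal.ofReal_ne_top]
  have h1 := (lintegral_mono_set (μ := volume) (Set.inter_subset_right (s := A))).trans
    (hK Pn Q hP hQ a i0 hf)
  calc _ ≤ ENNReal.ofReal (1 / δ) * (K * ∫⁻ ξ, f ξ) := mul_le_mul_right h1 _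
    _ = (K : ℝ≥0∞) * ENNReal.ofReal (1 / δ) * ∫⁻ ξ, f ξ := by ring

end Crest.Agent.R68
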