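import Crest.Agent.R68.One

/-! Bad intermediate velocities contribute little.  If `‖v‖ ≥ L0` use `KK_fast`; if `om ≥ K0 t (L + 2‖v‖)` use `KK_far`.  Otherwise `‖v‖ ≤ L0`, `om t x v ≤ K1 t`, `TL 1 ≥ t e^{-L0} Λ`, and it is enough to bound everything by `ε' t Λ`.
Window `s ≤ t/K2`: integrand `≤ C rb Θ_1 sig ≤ C' sig` (`src_bound`, `sing_G`, `Th_one_le_al`, `rb_al`), `holder_time` with an indicator.  For `s > t/K2` and `‖η‖ ≤ Lv`, `om s y_s η ≤ om t x v + 2 s Lv ≤ (K1 K2 + 2Lv) s`, so a bad `η` has `‖η‖ > Lv` or lies in one of six slabs.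
`carleman`; tail: `pint_TL`, `sing_G`; `GC` part: `sing_GC`; `gs` part: if `v` is within `θ0` of one of the 18 centres of the active tile use `near_ctr`; otherwise for every `a` in the support and every slab the second alternative of `strip_coord` is impossible
(it would put `v` within `3(θ+w)` of the centre whose `i`-th coordinate is `c` and whose other coordinates are those of `U k`), so the area is small and `pint_TL_small` applies.  Finish with `sig_time`. -/

set_option autoImplicit false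

open MeasureTheory Set Filter Topology Crest.AnalysisR.VecCalc3 Crest.AnalysisR.PDE.Boltzmann
open scoped ENNReal NNReal

namespace Crest.Agent.R68

theorem KKb.small (C : ℝ≥0) {η : ℝ≥0} (hη : 0 < η) : ∃ ε : ℝ≥0, 0 < ε ∧ ε ≤ 1 ∧ (C : ℝ≥0∞) * ε ≤ η := by
  refine ⟨min 1 (η / (C + 1)), by positivity, min_le_left _ _, ?_⟩
  rw [← ENNReal.coe_mul, ENNReal.coe_le_coe]
  calc C * min 1 (η / (C + 1)) ≤ (C + 1) * (η / (C + 1)) := mul_le_mul' le_self_add (min_le_right _ _)
    _ = η := by field_simp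

theorem KKb.Qp_le {g h : R3 → ℝ≥0∞} (hg : Measurable g) (hh : Measurable h) {v : R3} {c : ℝ≥0∞}
    (H : ∀ a, g a ≠ 0 → v - a ≠ 0 → pint (v - a) v h ≤ c) : Qp g h v ≤ 2 * c * S2 g v := by
  have hm : Measurable fun a => g a * invn (v - a) :=
    hg.mul (measurable_invn.comp (measurable_const.sub measurable_id))
  rw [carleman hg hh, mul_assoc, S2, ← lintegral_const_mul _ hm]
  refine mul_le_mul_right (lintegral_mono_ae ?_) _
  filter_upwards [compl_mem_ae_iff.2 (measure_singleton v)] with a ha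
  by_cases h0 : g a = 0
  · simp [h0]
  · calc g a * (invn (v - a) * pint (v - a) v h) ≤ g a * (invn (v - a) * c) :=
          mul_le_mul_right (mul_le_mul_right (H a h0 (sub_ne_zero.2 (Ne.symm ha))) _) _
      _ = _ := by ring

theorem KKb.slab {ε L θ : ℝ} (hε : 0 < ε) (hL : 0 < L) (hθ : 0 < θ) : ∃ δ > 0, δ ≤ θ ∧ ∀ n z : R3, n ≠ 0 →
    ‖n‖ ≤ L → (∀ (i : Fin 3) (o : Bool), |z i - sg o * (if i = 2 then 1 else kap)| ≤ θ →
      ¬ ∀ j, j ≠ i → |n j| ≤ θ) →
    pint n z ({ξ : R3 | ‖ξ - z‖ ≤ L ∧ ¬ Slabs δ ξ}.indicator 1) ≤ 6 * ENNReal.ofReal ε := by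
  obtain ⟨δ, h0, h1, h⟩ := strip_coord hε hL hθ
  refine ⟨δ, h0, h1, fun n z hn hnL H => ?_⟩
  set S : Fin 3 × Bool → Set R3 := fun p =>
    {ξ : R3 | ‖ξ - z‖ ≤ L ∧ |ξ p.1 - sg p.2 * (if p.1 = 2 then 1 else kap)| < δ} with hS
  have key : ∀ p : Fin 3 × Bool, pint n z ((S p).indicator 1) ≤ ENNReal.ofReal ε := fun p =>
    (h n z p.1 _ hn hnL).resolve_right fun h' => H p.1 p.2 h'.1 h'.2
  have hm : ∀ p, MeasurableSet (S p) := fun p =>
    t2_and (measurableSet_le (by fun_prop) measurable_const) (measurableSet_lt (by fun_prop) measurable_const)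
  calc _ ≤ pint n z (fun ξ => ∑ p : Fin 3 × Bool, (S p).indicator 1 ξ) := by
        refine pint_mono _ _ fun ξ => ?_
        by_cases hξ : ξ ∈ {ξ : R3 | ‖ξ - z‖ ≤ L ∧ ¬ Slabs δ ξ}
        · obtain ⟨p, hp⟩ : ∃ p : Fin 3 × Bool, |ξ p.1 - sg p.2 * (if p.1 = 2 then 1 else kap)| < δ := by
            by_contra hc
            push Not at hc
            exact hξ.2 ⟨by simpa [sg] using hc (2, true), by simpa [sg] using hc (2, false),
              by simpa [sg] using hc (0, true), by simpa [sg] using hc (0, false),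
              by simpa [sg] using hc (1, true), by simpa [sg] using hc (1, false)⟩
          rw [indicator_of_mem hξ]
          refine le_trans ?_ (Finset.single_le_sum (f := fun p => (S p).indicator (1 : R3 → ℝ≥0∞) ξ)
            (fun _ _ => zero_le) (Finset.mem_univ p))
          exact (indicator_of_mem (show ξ ∈ S p from ⟨hξ.1, hp⟩) _).ge
        · simp [indicator_of_notMem hξ]
    _ = ∑ p : Fin 3 × Bool, pint n z ((S p).indicator 1) :=
        Tilt.pint_sum _ _ _ fun p => measurable_one.indicator (hm p)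
    _ ≤ ∑ _p : Fin 3 × Bool, ENNReal.ofReal ε := Finset.sum_le_sum fun p _ => key p
    _ = _ := by simp

theorem KKb.geo {P : Par} (hP : P.Ok) {k : Bm} {s : ℝ} (hs : s ∈ Icc (0 : ℝ) 1) {y a v : R3}
    (h : gk P k s y a ≠ 0) {θ : ℝ} {i : Fin 3} {o : Bool}
    (h1 : |v i - sg o * (if i = 2 then 1 else kap)| ≤ θ) (h2 : ∀ j, j ≠ i → |(v - a) j| ≤ θ) :
    ∃ χ e, ‖v - ctr P k.1 χ e s y‖ ≤ 2 * (θ + P.w) := by
  obtain ⟨-, h3, -, -⟩ := gk_supp hP hs h
  have h4 := ww_le hP k.1.1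
  have hw := hP.w0
  have h0 : 0 ≤ θ := (abs_nonneg _).trans h1
  have b : ∀ j, j ≠ i → |v j - U P k s y j| ≤ θ + P.w := fun j hj => by
    have := h2 j hj
    rw [PiLp.sub_apply] at this
    linarith [abs_sub_le (v j) (a j) (U P k s y j), h3 j]
  have b2 := b 2
  rw [U_two] at b2
  have b' : ∀ e j, j ≠ 2 → j ≠ i → |v j - U P (k.1, e) s y j| ≤ θ + P.w := fun e j hj hj' => by
    rw [U_sign k.1 e k.2 s y hj]
    exact b j hj'
  refine ⟨fun j => if j.castSucc = i then (if o then 1 else 2) else 0, if i = 2 then o else k.2, ?_⟩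
  have key : ∀ j, |(v - ctr P k.1 (fun j => if j.castSucc = i then (if o then 1 else 2) else 0)
      (if i = 2 then o else k.2) s y) j| ≤ θ + P.w := by
    intro j
    have h1' : |v i - sg o * (if i = 2 then 1 else kap)| ≤ θ + P.w := by linarith
    fin_cases i <;> fin_cases j <;> cases o <;>
      first
        | simpa [ctr, sg] using h1'
        | simpa [ctr] using b2 (by decide)
        | simpa [ctr] using b' _ 0 (by decide) (by decide)
        | simpa [ctr] using b' _ 1 (by decide) (by decide)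
  have := Tile3X.normsq_le key
  refine (pow_le_pow_iff_left₀ (norm_nonneg _) (by positivity) two_ne_zero).1 ?_
  nlinarith [sq_nonneg (θ + P.w)]

theorem KKb.meas_slabs (δ : ℝ) : MeasurableSet {η : R3 | Slabs δ η} := by
  have h : ∀ (i : Fin 3) (c : ℝ), MeasurableSet {q : R3 | δ ≤ |q i - c|} := fun i c =>
    measurableSet_le measurable_const (by fun_prop)
  have h' : ∀ (i : Fin 3) (c : ℝ), MeasurableSet {q : R3 | δ ≤ |q i + c|} := fun i c =>
    measurableSet_le measurable_const (by fun_prop)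
  exact (h 2 1).inter ((h' 2 1).inter ((h 0 _).inter ((h' 0 _).inter ((h 1 _).inter (h' 1 _)))))

open Classical in
/-- the source at a fixed time -/
theorem KKb.core {ε : ℝ≥0} (hε : 0 < ε) {L0 : ℝ} (hL0 : 0 ≤ L0) : ∃ Lv δv w0 : ℝ, 1 ≤ Lv ∧ 0 < δv ∧ δv ≤ 1 ∧ 0 < w0 ∧
    ∀ {P : Par}, P.Ok → P.w ≤ w0 → ∀ (N : ℕ) {s : ℝ}, s ∈ Icc (0 : ℝ) 1 → ∀ y v : R3, ‖v‖ ≤ L0 →
    Qp (G P N s y) (fun η => if ‖η‖ ≤ Lv ∧ Slabs δv η then 0 else TL P N 1 s y η) v ≤
      3 * ε * (ENNReal.ofReal (al P N s y) * (rb P N s y * sig P s y v)) := by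
  obtain ⟨C1, hC1⟩ := pint_TL
  obtain ⟨C2, hC2⟩ := sing_GC
  obtain ⟨C', hC'⟩ := sing_G
  obtain ⟨e1, p1, -, q1⟩ := KKb.small (2 * C1 * C2) hε
  obtain ⟨e2, p2, -, q2⟩ := KKb.small (2 * C1) hε
  obtain ⟨e3, p3, r3, q3⟩ := KKb.small (2 * C1 * C') hε
  have p1' : (0 : ℝ) < e1 := p1
  have p3' : (0 : ℝ) < e3 := p3
  have r3' : (e3 : ℝ) ≤ 1 := r3
  have hLv : 1 ≤ 4 / (e3 : ℝ) := by rw [le_div_iff₀ p3']; linarith
  obtain ⟨C3, hC3⟩ := pint_TL_small (4 / (e3 : ℝ) + L0 + 2)
  obtain ⟨e5, p5, -, q5⟩ := KKb.small (2 * C3 * C') hε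
  have p5' : (0 : ℝ) < e5 := p5
  obtain ⟨θ, hθ, hnear⟩ := near_ctr p2
  obtain ⟨δ, hδ, hδθ, hslab⟩ := KKb.slab (ε := (e5 : ℝ) ^ 3 / 6) (L := 4 / (e3 : ℝ) + L0 + 2) (θ := min 1 (θ / 4))
    (by positivity) (by positivity) (by positivity)
  refine ⟨4 / (e3 : ℝ), δ, min (θ / 4) (e1 ^ 2), hLv, hδ, hδθ.trans (min_le_left _ _), by positivity,
    fun {P} hP hw N s hs y v hv => ?_⟩
  push_cast at q1 q2 q3 q5
  set h : R3 → ℝ≥0∞ := fun η => if ‖η‖ ≤ 4 / (e3 : ℝ) ∧ Slabs δ η then 0 else TL P N 1 s y η with hh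
  set A := ENNReal.ofReal (al P N s y)
  have hT := (measD_TL (P := P) N 1).vel s y
  have hm : Measurable h := Measurable.ite (t2_and (measurableSet_le measurable_norm measurable_const)
    (KKb.meas_slabs δ)) measurable_const hT
  have hle : ∀ a, v - a ≠ 0 → pint (v - a) v h ≤ C1 * A := fun a ha => by
    refine le_trans (pint_mono _ _ fun η => ?_) (hC1 hP N hs y _ v 0 ha).1
    simp only [hh]
    split_ifs
    exacts [zero_le, le_rfl]
  have hw1 : P.w ≤ θ / 4 := hw.trans (min_le_left _ _)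
  have hS : S2 (gs P N s y) v ≤ (∫⁻ a, G P N s y a) + S2 (G P N s y) v :=
    le_add_left (lintegral_mono fun a => mul_le_mul_left (gs_le_G _ _ _ _) _)
  have b1 : Qp (GC P N s y) h v ≤ ε * (A * (rb P N s y * sig P s y v)) := by
    have c1 : ENNReal.ofReal (Real.sqrt P.w) ≤ e1 := by
      rw [← ENNReal.ofReal_coe_nnreal]
      exact ENNReal.ofReal_le_ofReal (Real.sqrt_le_iff.2 ⟨p1'.le, hw.trans (min_le_right _ _)⟩)
    have c2 : 1 ≤ rb P N s y := le_trans (ENNReal.one_le_ofReal.2 (by norm_num [cc])) (rb_ge hP N hs y)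
    calc _ ≤ 2 * (C1 * A) * (C2 * e1 * (rb P N s y * sig P s y v)) :=
          (KKb.Qp_le ((measD_GC N).vel s y) hm fun a _ => hle a).trans (mul_le_mul_right
            ((le_add_self.trans (hC2 hP N hs y v)).trans (mul_le_mul' (mul_le_mul_right c1 _)
              (le_mul_of_one_le_left' c2))) _)
      _ = 2 * C1 * C2 * e1 * (A * (rb P N s y * sig P s y v)) := by ring
      _ ≤ _ := mul_le_mul_left q1 _
  have b2 : Qp (gs P N s y) h v ≤ 2 * ε * (A * (rb P N s y * sig P s y v)) := by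
    rcases G_core hP N hs y with ⟨a1, -⟩ | ⟨k, -, hc, a1, -⟩
    · rw [show gs P N s y = fun _ => 0 from funext a1, Qp_zero_left]
      exact zero_le
    by_cases hn : ∃ χ e, ‖v - ctr P k.1 χ e s (hat y)‖ ≤ θ
    · obtain ⟨χ, e, hn⟩ := hn
      calc _ ≤ 2 * (C1 * A) * (e2 * (rb P N s y * sig P s y v)) :=
            (KKb.Qp_le ((measD_gs N).vel s y) hm fun a _ => hle a).trans (mul_le_mul_right
              (hS.trans (hnear hP (by linarith) N hs y v k.1 χ e (core_tile hP hc) hn)) _)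
        _ = 2 * C1 * e2 * (A * (rb P N s y * sig P s y v)) := by ring
        _ ≤ _ := mul_le_mul_left (q2.trans (le_mul_of_one_le_left' one_le_two)) _
    have key : ∀ a, gs P N s y a ≠ 0 → v - a ≠ 0 → pint (v - a) v h ≤ C1 * A * e3 + C3 * A * e5 := by
      intro a ha hva
      have ha2 : ‖a‖ ≤ 2 := (G_supp hP hs fun h0 => ha (le_antisymm (h0 ▸ gs_le_G N s y a) zero_le)).1
      have hS' : MeasurableSet {ξ : R3 | ‖ξ - v‖ ≤ 4 / (e3 : ℝ) + L0 + 2 ∧ ¬ Slabs δ ξ} :=
        t2_and (measurableSet_le (by fun_prop) measurable_const) (KKb.meas_slabs δ).compl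
      have c1 := hslab (v - a) v hva (by linarith [norm_sub_le v a]) fun i o d1 d2 => by
        obtain ⟨χ, e, d3⟩ := KKb.geo hP hs (a1 a ▸ ha) d1 d2
        exact hn ⟨χ, e, by linarith [min_le_right 1 (θ / 4)]⟩
      have c2 := (hC3 hP N hs y (v - a) v hva hS' fun ξ hξ => mem_closedBall_iff_norm.2 hξ.1).1
      have c3 : (6 * ENNReal.ofReal ((e5 : ℝ) ^ 3 / 6)) ^ (1 / 3 : ℝ) = e5 := by
        rw [← ENNReal.ofReal_ofNat 6, ← ENNReal.ofReal_mul (by norm_num), mul_div_cancel₀ _ (by norm_num),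
          ENNReal.ofReal_rpow_of_nonneg (by positivity) (by norm_num), one_div,
          show (3 : ℝ) = (3 : ℕ) by norm_num, Real.pow_rpow_inv_natCast p5'.le three_ne_zero,
          ENNReal.ofReal_coe_nnreal]
      have c4 : ew (1 / 4) (4 / (e3 : ℝ)) ≤ e3 := by
        rw [← ENNReal.ofReal_coe_nnreal]
        refine ENNReal.ofReal_le_ofReal ?_
        rw [Real.exp_neg, inv_le_comm₀ (Real.exp_pos _) p3']
        refine le_trans ?_ (Real.add_one_le_exp _)
        rw [show 1 / 4 * (4 / (e3 : ℝ)) = (e3 : ℝ)⁻¹ by field_simp]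
        linarith
      calc _ ≤ pint (v - a) v (fun η => {η : R3 | 4 / (e3 : ℝ) ≤ ‖η‖}.indicator (TL P N 1 s y) η +
            {ξ : R3 | ‖ξ - v‖ ≤ 4 / (e3 : ℝ) + L0 + 2 ∧ ¬ Slabs δ ξ}.indicator (TL P N 1 s y) η) := by
            refine pint_mono _ _ fun η => ?_
            simp only [hh]
            split_ifs with d
            · exact zero_le
            rcases le_total (4 / (e3 : ℝ)) ‖η‖ with d1 | d1
            · exact le_add_right (indicator_of_mem (show η ∈ {η : R3 | 4 / (e3 : ℝ) ≤ ‖η‖} from d1) _).ge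
            · exact le_add_left (indicator_of_mem (show η ∈ {ξ : R3 | ‖ξ - v‖ ≤ 4 / (e3 : ℝ) + L0 + 2 ∧
                ¬ Slabs δ ξ} from ⟨by linarith [norm_sub_le η v], fun d2 => d ⟨d1, d2⟩⟩) _).ge
        _ ≤ _ := by
            rw [pint_add _ _ (hT.indicator (measurableSet_le measurable_const measurable_norm))]
            refine add_le_add ((hC1 hP N hs y _ v _ hva).2.trans (mul_le_mul_right c4 _))
              (c2.trans (mul_le_mul_right ?_ _))
            exact (ENNReal.rpow_le_rpow c1 (by norm_num)).trans_eq c3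
    calc _ ≤ 2 * (C1 * A * e3 + C3 * A * e5) * (C' * (rb P N s y * sig P s y v)) :=
          (KKb.Qp_le ((measD_gs N).vel s y) hm key).trans (mul_le_mul_right (hS.trans (hC' hP N hs y v)) _)
      _ = (2 * C1 * C' * e3 + 2 * C3 * C' * e5) * (A * (rb P N s y * sig P s y v)) := by ring
      _ ≤ _ := mul_le_mul_left ((add_le_add q3 q5).trans_eq (two_mul _).symm) _
  calc _ = Qp (gs P N s y) h v + Qp (GC P N s y) h v :=
        Qp_add_left ((measD_gs N).vel s y) ((measD_GC N).vel s y) hm v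
    _ ≤ _ := (add_le_add b2 b1).trans_eq (by ring)

theorem KKb.window (P : Par) {t e : ℝ} (ht : 0 ≤ t) (he : 0 ≤ e) (x v : R3) :
    ∫⁻ s in Ioo 0 t, (Iic (t * e ^ 3)).indicator 1 s * sig P s (x - (t - s) • v) v ≤
      ENNReal.ofReal e * (ENNReal.ofReal t * Lam P t x v) := by
  refine (holder_time P ht x v (measurable_one.indicator measurableSet_Iic)).trans ?_
  rw [← mul_assoc]
  refine mul_le_mul_left ?_ _
  have h1 : ∫⁻ s in Ioo 0 t, (Iic (t * e ^ 3)).indicator (1 : ℝ → ℝ≥0∞) s ^ (3 : ℝ) ≤ ENNReal.ofReal (t * e ^ 3) :=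
    calc _ = ∫⁻ s in Ioo 0 t, (Iic (t * e ^ 3)).indicator 1 s := lintegral_congr fun s => by
          by_cases h : s ∈ Iic (t * e ^ 3) <;> simp [h]
      _ ≤ volume (Ioc 0 (t * e ^ 3)) := by
          rw [lintegral_indicator_one measurableSet_Iic, Measure.restrict_apply measurableSet_Iic]
          exact measure_mono fun s hs => ⟨hs.2.1, hs.1⟩
      _ = _ := by simp
  refine (mul_le_mul_left (ENNReal.rpow_le_rpow h1 (by norm_num)) _).trans_eq ?_
  rw [ENNReal.ofReal_rpow_of_nonneg (by positivity) (by norm_num), ← ENNReal.ofReal_mul (by positivity),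
    ← ENNReal.ofReal_mul he, Real.mul_rpow ht (by positivity), mul_right_comm, ← Real.rpow_add' ht (by norm_num),
    one_div, show (3 : ℝ) = (3 : ℕ) by norm_num, Real.pow_rpow_inv_natCast he three_ne_zero, mul_comm]
  norm_num

open Classical in
theorem KK_bad (m : ℕ) : ∃ Lv K δv w0 : ℝ, 1 ≤ Lv ∧ 1 ≤ K ∧ 0 < δv ∧ δv ≤ 1 ∧ 0 < w0 ∧
    ∀ {P : Par}, P.Ok → P.m = m → P.w ≤ w0 → ∀ (N : ℕ) {F : Den}, MeasD F → ∀ {t : ℝ}, t ∈ Icc (0 : ℝ) 1 →
    (∀ s ∈ Icc 0 t, ∀ y a, ENNReal.ofReal (99 / 100) * gs P N s y a ≤ F s y a) → ∀ x v : R3,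
    KK P N F (fun s y η => if GT P N Lv K δv s y η then 0 else TL P N 1 s y η) t x v ≤ 4⁻¹ * TL P N 1 t x v := by
  obtain ⟨Cf, hCf⟩ := KK_fast
  obtain ⟨Cr, hCr⟩ := KK_far
  obtain ⟨C1, hC1⟩ := pint_TL
  obtain ⟨C', hC'⟩ := sing_G
  obtain ⟨ef, pf, rf, qf⟩ := KKb.small (Cf * 2) (η := 4⁻¹) (by norm_num)
  have pf' : (0 : ℝ) < ef := pf
  have rf' : (ef : ℝ) ≤ 1 := rf
  obtain ⟨L0, hL0⟩ : ∃ L0 : ℝ, L0 = 3 + 1 / ef := ⟨_, rfl⟩
  have hL4 : 4 ≤ L0 := by
    have : 1 ≤ 1 / (ef : ℝ) := by rw [le_div_iff₀ pf']; linarith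
    linarith
  have hη : 0 < (Real.exp (-L0) / 8).toNNReal := Real.toNNReal_pos.2 (by positivity)
  obtain ⟨e1, p1, -, q1⟩ := KKb.small (6 * (4 * cc * (4 * m) / kap).toNNReal) hη
  obtain ⟨e2, p2, -, q2⟩ := KKb.small (4 * C1 * C' * (4 * cc * (4 * m) / kap).toNNReal) hη
  have p2' : (0 : ℝ) < e2 := p2
  obtain ⟨Lv, δv, w0, h1, h2, h3, h4, hcore⟩ := KKb.core p1 (L0 := L0) (by linarith)
  have hK1 : 0 ≤ 4 * Cr * (4 * m + 2 * L0) := by positivity
  refine ⟨Lv, 4 * Cr * (4 * m + 2 * L0) / e2 ^ 3 + 2 * Lv, δv, min w0 (ef ^ 2), h1,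
    by linarith [div_nonneg hK1 (pow_pos p2' 3).le], h2, h3, by positivity,
    fun {P} hP hm hw N F hF t ht hdep x v => ?_⟩
  have hL : P.L = 4 * m := by rw [Par.L, hm]
  have hle : ∀ s y η, (if GT P N Lv (4 * Cr * (4 * m + 2 * L0) / e2 ^ 3 + 2 * Lv) δv s y η then 0
      else TL P N 1 s y η) ≤ TL P N 1 s y η := fun s y η => by
    split_ifs
    exacts [zero_le, le_rfl]
  push_cast at qf q1 q2
  rcases le_total L0 ‖v‖ with hv | hv
  · refine ((KK_mono (fun s _ => hle s) x v).trans (hCf hP N hF ht hdep x v (hL4.trans hv))).trans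
      (mul_le_mul' (le_trans ?_ (qf.trans_eq (by simp))) (le_mul_of_one_le_right' (one_le_Lam _ _ _)))
    rw [mul_assoc, two_mul, ← ENNReal.ofReal_coe_nnreal (p := ef), ← ENNReal.ofReal_add pf'.le pf'.le]
    refine mul_le_mul_right (ENNReal.ofReal_le_ofReal ?_) _
    have a1 : Real.sqrt P.w ≤ ef := Real.sqrt_le_iff.2 ⟨pf'.le, hw.trans (min_le_right _ _)⟩
    have a2 : 1 / (‖v‖ - 3) ≤ ef := (one_div_le (by linarith) pf').2 (by linarith)
    linarith
  rcases le_total (4 * Cr * (t * (P.L + 2 * ‖v‖))) (om P (P.fl N) t x v) with ho | ho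
  · refine ((KK_mono (fun s _ => hle s) x v).trans (hCr hP N F ht x v)).trans ?_
    have a1 := om_nonneg hP (fl_pos hP N).le ht.1 x v
    rw [TL, Th, pow_one, ENNReal.ofReal_mul a1, W, one_mul, mul_assoc (ENNReal.ofReal (om _ _ _ _ _)), ← mul_assoc 4⁻¹]
    refine mul_le_mul_left ?_ _
    rw [← ENNReal.ofReal_coe_nnreal (p := Cr), ← ENNReal.ofReal_mul Cr.coe_nonneg, ← ENNReal.ofReal_ofNat 4,
      ← ENNReal.ofReal_inv_of_pos four_pos, ← ENNReal.ofReal_mul (by norm_num)]
    exact ENNReal.ofReal_le_ofReal (by linarith)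
  have ho' : om P (P.fl N) t x v ≤ 4 * Cr * (4 * m + 2 * L0) * t := by
    refine ho.trans ?_
    rw [hL, mul_comm t, ← mul_assoc]
    have := ht.1
    gcongr
  set B := ENNReal.ofReal (4 * cc * (4 * m) / kap) with hB
  have key : ∀ s ∈ Ioo 0 t, Ex F s t x v * (2 * Qp (G P N s (x - (t - s) • v)) (fun η =>
      if GT P N Lv (4 * Cr * (4 * m + 2 * L0) / e2 ^ 3 + 2 * Lv) δv s (x - (t - s) • v) η then 0
      else TL P N 1 s (x - (t - s) • v) η) v) ≤
      4 * C1 * C' * B * ((Iic (t * e2 ^ 3)).indicator 1 s * sig P s (x - (t - s) • v) v) +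
        6 * B * e1 * sig P s (x - (t - s) • v) v := by
    intro s hs
    have hs' : s ∈ Icc (0 : ℝ) 1 := ⟨hs.1.le, hs.2.le.trans ht.2⟩
    have a0 := om_mono hP (P.fl N) hs.2.le x v
    set y := x - (t - s) • v
    have a1 : ENNReal.ofReal (al P N s y) * (rb P N s y * sig P s y v) ≤ B * sig P s y v := by
      rw [← mul_assoc, mul_comm _ (rb P N s y), hB, ← hL]
      exact mul_le_mul_left (rb_al hP N hs.1.le y) _
    refine (mul_le_of_le_one_left' (Ex_le_one _ _ _ _ _)).trans ?_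
    rcases le_total s (t * e2 ^ 3) with h | h
    · refine le_add_right ?_
      rw [indicator_of_mem (show s ∈ Iic _ from h), Pi.one_apply, one_mul]
      calc _ ≤ 2 * (2 * (C1 * ENNReal.ofReal (al P N s y)) * (C' * (rb P N s y * sig P s y v))) :=
            mul_le_mul_right ((Qp_mono (fun _ => le_rfl) (hle s y) v).trans
              ((KKb.Qp_le ((measD_G N).vel s y) ((measD_TL N 1).vel s y) fun a _ ha =>
                (hC1 hP N hs' y _ v 0 ha).1).trans (mul_le_mul_right (le_add_self.trans (hC' hP N hs' y v)) _))) _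
        _ = 4 * C1 * C' * (ENNReal.ofReal (al P N s y) * (rb P N s y * sig P s y v)) := by ring
        _ ≤ _ := by
            rw [mul_assoc _ B]
            exact mul_le_mul_right a1 _
    · refine le_add_left ?_
      calc _ ≤ 2 * (3 * e1 * (ENNReal.ofReal (al P N s y) * (rb P N s y * sig P s y v))) := by
            refine mul_le_mul_right (le_trans (Qp_mono (fun _ => le_rfl) (fun η => ?_) v)
              (hcore hP (hw.trans (min_le_left _ _)) N hs' y v hv)) _
            by_cases d : ‖η‖ ≤ Lv ∧ Slabs δv η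
            · refine (if_pos ⟨d.1, ?_, d.2⟩).trans_le zero_le
              have b1 : 4 * Cr * (4 * m + 2 * L0) * t ≤ 4 * Cr * (4 * m + 2 * L0) / e2 ^ 3 * s := by
                rw [div_mul_eq_mul_div, mul_div_assoc]
                exact mul_le_mul_of_nonneg_left ((le_div_iff₀ (pow_pos p2' 3)).2 h) hK1
              have b2 := mul_nonneg (add_nonneg (zero_le_four.trans (L_ge hP)) (norm_nonneg v)) (sub_pos.2 hs.2).le
              have b3 := mul_le_mul_of_nonneg_left d.1 hs.1.le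
              have b4 := mul_nonneg hs.1.le (norm_nonneg v)
              have b5 : om P (P.fl N) s y η = om P (P.fl N) s y v + 2 * (s * ‖η‖) - 2 * (s * ‖v‖) := by
                unfold om
                ring
              linarith
            · rw [if_neg d]
              exact hle s y η
        _ ≤ 2 * (3 * e1 * (B * sig P s y v)) := by gcongr
        _ = _ := by ring
  have hsig : Measurable fun s => sig P s (x - (t - s) • v) v :=
    measD_sig.comp measurable_id (by fun_prop) measurable_const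
  have hI : Measurable fun s => (Iic (t * e2 ^ 3)).indicator 1 s * sig P s (x - (t - s) • v) v :=
    (measurable_one.indicator measurableSet_Iic).mul hsig
  refine (setLIntegral_mono' measurableSet_Ioo key).trans ?_
  rw [lintegral_add_left (hI.const_mul _), lintegral_const_mul _ hI, lintegral_const_mul _ hsig]
  calc _ ≤ 4 * C1 * C' * B * (e2 * (ENNReal.ofReal t * Lam P t x v)) +
        6 * B * e1 * (ENNReal.ofReal t * Lam P t x v) :=
        add_le_add (mul_le_mul_right ((KKb.window P ht.1 p2'.le x v).trans_eq (by simp)) _)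
          (mul_le_mul_right (sig_time P ht.1 x v) _)
    _ ≤ ENNReal.ofReal (Real.exp (-L0) / 8) * (ENNReal.ofReal t * Lam P t x v) +
        ENNReal.ofReal (Real.exp (-L0) / 8) * (ENNReal.ofReal t * Lam P t x v) := by
        rw [← mul_assoc]
        exact add_le_add (mul_le_mul_left q2 _) (mul_le_mul_left q1 _)
    _ = 4⁻¹ * (ENNReal.ofReal (t * Real.exp (-L0)) * Lam P t x v) := by
        rw [← add_mul, ← ENNReal.ofReal_add (by positivity) (by positivity), ← mul_assoc, ← mul_assoc,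
          ← ENNReal.ofReal_mul (by positivity), ← ENNReal.ofReal_ofNat 4, ← ENNReal.ofReal_inv_of_pos four_pos,
          ← ENNReal.ofReal_mul (by norm_num)]
        congr 2
        ring
    _ ≤ _ := mul_le_mul_right (mul_le_mul_left (Th_one_ge hP N ht.1 x hv) _) _

end Crest.Agent.R68
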