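import Crest.Agent.R68.DF2
import Crest.Agent.R68.KKbad

/-! Doeblin–Fortet inequality: on good `(s,y,η)`, `f ≤ S' TL 1` with `S' = S + C₂ S + ε B + C₂ 𝔪` (`df2`, `1 ≤ Lam`), elsewhere `f ≤ B TL 1`; so `KK f ≤ S' C₁ TL 1 + (B/4) TL 1` (`KK_mono/add/cmul`, `KK_one`, `KK_bad`); `ε = 1/(4 C₁)`. -/

set_option autoImplicit false

open MeasureTheory Set Filter Topology Crest.AnalysisR.VecCalc3 Crest.AnalysisR.PDE.Boltzmann
open scoped ENNReal NNReal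

namespace Crest.Agent.R68

theorem df (m : ℕ) : ∃ (C : ℝ≥0) (δ Lv K w0 : ℝ), 0 < δ ∧ δ ≤ 1 ∧ 1 ≤ Lv ∧ 1 ≤ K ∧ 0 < w0 ∧
    ∀ {P : Par}, P.Ok → P.m = m → P.eta ≤ δ → P.w ≤ w0 → ∀ (N : ℕ) {T : ℝ} {F f : Den} {B S 𝔪 : ℝ≥0∞},
    K * T ≤ 1 / 4 → Reg P N T F → MeasD f → Inv T f → Le1 P N B T f →
    (∀ t ∈ Icc 0 T, ∀ x v, f t x v ≤ S * TL P N 1 t x v + KK P N F f t x v) →
    (∀ s ∈ Icc (P.fl N / K) ((1 - 1 / K) * T), Ngood P N δ Lv f s (K * s) ≤ 𝔪 * ENNReal.ofReal (s ^ 3)) →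
    Le1 P N (C * S + B / 2 + C * 𝔪) T f := by
  classical
  obtain ⟨C1, hC1, h1⟩ := KK_one
  obtain ⟨Lv, K, δv, w1, a1, a2, a3, a4, a5, h2⟩ := KK_bad m
  obtain ⟨C2, δ, L3, K', w2, b1, b2, b3, b4, b5, h3⟩ :=
    df2 m (ε := (4 * C1)⁻¹) (by positivity) a1 a2 a3 a4
  refine ⟨1 + C1 * (1 + C2), δ, L3, K', min w1 w2, b1, b2, b3, b4, lt_min a5 b5,
    fun {P} hP hm he hw N {T F f B S 𝔪} hT hR hf hi hB hS hN t ht x v => ?_⟩
  obtain ⟨F00, hF, -⟩ := hR.mild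
  have ht1 : t ∈ Icc (0 : ℝ) 1 :=
    ⟨ht.1, by linarith [ht.2, le_mul_of_one_le_left (ht.1.trans ht.2) b4]⟩
  have hb : MeasD fun s y η => if GT P N Lv K δv s y η then 0 else TL P N 1 s y η :=
    Measurable.ite (measurableSet_GT N Lv K δv) measurable_const (measD_TL N 1)
  have h4 := KK_mono (P := P) (N := N) (F := F) (f := f) (t := t) (f' := fun s y η =>
    (S + (C2 * S + ((4 * C1)⁻¹ : ℝ≥0) * B + C2 * 𝔪)) * TL P N 1 s y η +
      B * if GT P N Lv K δv s y η then 0 else TL P N 1 s y η) (fun s hs y η => by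
    have hs' : s ∈ Icc 0 T := ⟨hs.1.le, hs.2.le.trans ht.2⟩
    split_ifs with hg
    · refine le_add_right ((hS s hs' y η).trans ?_)
      rw [add_mul S]
      exact add_le_add le_rfl ((h3 hP hm he (hw.trans (min_le_right _ _)) N hT hF hf hR.inv hi hB hS
        hN s ⟨hs.1, hs'.2⟩ y η hg).trans (mul_le_mul' le_rfl
          (le_mul_of_one_le_right' (one_le_Lam s y η))))
    · exact le_add_left (hB s hs' y η)) x v
  have hc : ∀ (c : ℝ≥0∞) {g : Den}, MeasD g → MeasD fun s y η => c * g s y η := fun c _ hg =>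
    Measurable.const_mul hg c
  rw [KK_add hF (hc _ (measD_TL N 1)) (hc _ hb), KK_cmul hF (measD_TL N 1),
    KK_cmul hF hb] at h4
  refine (hS t ht x v).trans ((add_le_add le_rfl (h4.trans (add_le_add
    (mul_le_mul' le_rfl (h1 hP N F ht1 x v)) (mul_le_mul' le_rfl (h2 hP hm
      (hw.trans (min_le_left _ _)) N hF ht1 (fun s hs => hR.dep s ⟨hs.1, hs.2.trans ht.2⟩)
        x v))))).trans ?_)
  have e1 : (((4 * C1)⁻¹ : ℝ≥0) : ℝ≥0∞) * C1 = 4⁻¹ := by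
    rw [← ENNReal.coe_mul, mul_inv, inv_mul_cancel_right₀ hC1.ne', ENNReal.coe_inv (by norm_num)]
    rfl
  have e2 : B / 2 = 4⁻¹ * B + 4⁻¹ * B := by
    rw [← add_mul, div_eq_mul_inv, mul_comm, ← two_mul, show (4 : ℝ≥0∞) = 2 * 2 by norm_num,
      ENNReal.mul_inv (by simp) (by simp), ← mul_assoc, ENNReal.mul_inv_cancel (by simp) (by simp),
      one_mul]
  rw [e2, ← mul_assoc, ← mul_assoc, ← add_mul, ← add_mul]
  refine mul_le_mul' ?_ le_rfl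
  calc _ = (1 + C1 * (1 + C2)) * S + (((4 * C1)⁻¹ : ℝ≥0) * C1 * B + 4⁻¹ * B) + C1 * C2 * 𝔪 := by ring
    _ ≤ _ + (1 + C1) * 𝔪 := le_self_add
    _ = _ := by
      rw [e1]
      push_cast
      ring

end Crest.Agent.R68
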