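import Crest.Agent.R68.MainF

/-! The main term and the bad-position term.  `main_term`: at most `8 (1 + log₄(4K/δt))` beams are thick; for each, `gk_law_le` with `dens ≤ cc/X n s ≤ cc K1/(kap t)`; `v - avel k s (x-(t-s)v) ζ = R s` with `c i = v i (1 + b i t) - p i - b i x i - ww ζ i`, `|c 2| ≥ δv/2`;
`pint_lintegral` and Tonelli bring `ζ` and `s'` outside (`s' < s - t/K2`), `x - (t-s) v - (s-s') η = x0 + (s-s')(v-η)` with `x0 = x - (t-s') v`, `‖η‖ ≤ L2` gives `nrm ≤ (K+L2) t`; `main_fixed` with `κ = t/K2`, `g = gs s'`, `ρ = 4 cc K2/(kap t)` (`G_mass`, `rb_le_time`).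
`bad_term`: `K1op_le`; `invn (v-a) pint (v-a) v H = |(v-a) 2|⁻¹ ∫ du H` (`pint_graph`), Tonelli in `s'`, and `badPos` (with `K := (K+L2) K2`): `y' i = y i - (s-s') u i ∈ 𝒮` holds for a set of `u i` of measure `≤ ε₁ s'/(s-s') ≤ ε₁ K2`. -/

set_option autoImplicit false

open MeasureTheory Set Filter Topology Crest.AnalysisR.VecCalc3 Crest.AnalysisR.PDE.Boltzmann
open scoped ENNReal NNReal

namespace Crest.Agent.R68

namespace MainTX

open Classical in
/-- the number of thick beams is bounded -/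
theorem count {δt K : ℝ} (hδt : 0 < δt) : ∃ M : ℕ, ∀ {P : Par}, P.Ok → ∀ (N : ℕ) {t : ℝ}, 0 < t →
    ∀ {B : ℝ≥0∞} {F : Bm → ℝ≥0∞}, (∀ k, F k ≤ B) → ∑' k, (if Thick P N δt K t k then F k else 0) ≤ M * B := by
  obtain ⟨L, hL⟩ := pow_unbounded_of_one_lt (4 * K / δt) (by norm_num : (1 : ℝ) < 4)
  refine ⟨L * 4 * 2, fun {P} hP N t ht B F hF => ?_⟩
  by_cases h : ∃ n, P.rr n ≤ 4 * K * t
  · let S : Finset Bm := (Finset.Ico (Nat.find h) (Nat.find h + L) ×ˢ Finset.univ) ×ˢ Finset.univ
    have hS : ∀ k, Thick P N δt K t k → k ∈ S := fun k hk => by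
      simp only [S, Finset.mem_product, Finset.mem_univ, and_true, Finset.mem_Ico]
      refine ⟨Nat.find_min' h hk.2.2, ?_⟩
      by_contra h1
      have h2 := rr_anti hP (not_lt.1 h1)
      have h3 : ∀ n, P.rr (n + L) * 4 ^ L = P.rr n := fun n => by
        unfold Par.rr
        rw [pow_add]
        field_simp
      have h4 := Nat.find_spec h
      rw [div_lt_iff₀ hδt] at hL
      have h5 : δt * t * 4 ^ L ≤ P.rr (Nat.find h + L) * 4 ^ L := by gcongr; exact hk.2.1.trans h2
      rw [h3] at h5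
      nlinarith
    rw [tsum_eq_sum (s := S) fun k hk => if_neg fun h1 => hk (hS k h1)]
    refine (Finset.sum_le_card_nsmul _ _ B fun k _ => ?_).trans_eq ?_
    · split_ifs
      exacts [hF k, zero_le]
    · simp [S]
  · simp only [show ∀ k, ¬ Thick P N δt K t k from fun k hk => h ⟨_, hk.2.2⟩]
    simp

theorem nrm_back {t s : ℝ} (hs : 0 ≤ s) (hst : s ≤ t) (x v : R3) : nrm (x - (t - s) • v) ≤ nrm x + t * ‖v‖ := by
  have h1 := nrm_add_le x (-((t - s) • v))
  rw [nrm_neg, nrm_smul, abs_of_nonneg (sub_nonneg.2 hst), ← sub_eq_add_neg] at h1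
  have h2 := mul_le_mul (sub_le_self t hs) (nrm_le_norm v) ((abs_nonneg _).trans (le_max_left _ _)) (hs.trans hst)
  linarith

theorem nrm_back2 {K L2 t s s' : ℝ} (hs' : 0 ≤ s') (h1 : s' ≤ s) (h2 : s ≤ t) {x v η : R3}
    (hx : nrm x + t * ‖v‖ ≤ K * t) (hη : ‖η‖ ≤ L2) : nrm (x - (t - s) • v - (s - s') • η) ≤ (K + L2) * t := by
  have h3 := nrm_back hs' h1 (x - (t - s) • v) η
  have h4 := nrm_back (hs'.trans h1) h2 x v
  have h5 := mul_le_mul h2 hη (norm_nonneg _) (hs'.trans (h1.trans h2))
  linarith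

open Classical in
/-- one beam, one fluctuation -/
theorem one_beam : ∃ C : ℝ≥0, ∀ {δv δ K K1 K2 L2 : ℝ}, 0 < δv → 0 < δ → 1 ≤ K2 → ∀ {P : Par}, P.Ok → ∀ (N : ℕ)
    {φ : Den}, MeasD φ → ∀ {t : ℝ} {x v : R3}, 0 < t → t ≤ 1 → (∀ s ∈ Icc 0 t, SameInv (φ s)) →
    nrm x + t * ‖v‖ ≤ K * t → ∀ (b : Fin 3 → ℝ) (c : R3), (∀ i, 0 ≤ b i) → b 2 = 0 → δv / 2 ≤ |c 2| →
    ∀ (R : ℝ → R3), (∀ s i, R s i = c i / (1 + b i * s)) →
    ∫⁻ s in Ioo (t / K1) t, invn (R s) * pint (R s) v (fun η => if ‖η‖ ≤ L2 then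
      H2 P N δ K2 t φ (fun s' => evec b s (s - s') v (R s) η) s (x - (t - s) • v) η else 0) ≤
    C * ENNReal.ofReal (cc * K2 ^ 3 / (kap * δ * δv * t ^ 2)) * ∫⁻ s' in Ioo (t / K2) (t - t / K2),
      ∫⁻ y in Metric.closedBall (0 : ℝ × ℝ) ((K + L2) * t), ∫⁻ ξ, φ s' (lift y) ξ := by
  obtain ⟨C, hC⟩ := main_fixed
  refine ⟨16 * C, fun {δv δ K K1 K2 L2} hδv hδ hK2 P hP N φ hφ t x v ht0 ht1 sφ hx b c hb hb2 hc R hR => ?_⟩
  have hκ : 0 < t / K2 := by positivity
  have hcc := LawA.cc_pos
  have hk := kap_pos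
  have hRm : Measurable R := by
    have : R = fun s => WithLp.toLp 2 fun i => c i / (1 + b i * s) := by
      funext s
      ext i
      exact hR s i
    rw [this]
    exact (WithLp.measurable_toLp _ _).comp (measurable_pi_lambda _ fun i => by fun_prop)
  let T : ℝ → ℝ → R3 → ℝ≥0∞ := fun s s' η =>
    if nrm (x - (t - s') • v + (s - s') • (v - η)) ≤ (K + L2) * t then
      ∫⁻ a', gs P N s' (x - (t - s') • v + (s - s') • (v - η)) a' * (invn (η - a') * pint (η - a') η (fun ξ =>
        if δ ≤ |inner ℝ (evec b s (s - s') v (R s) η) ((2 : ℝ) • η - a' - ξ)|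
        then φ s' (x - (t - s') • v + (s - s') • (v - η)) ξ else 0))
    else 0
  have hT : Measurable fun p : (ℝ × ℝ) × R3 => T p.1.1 p.1.2 p.2 := by
    refine Measurable.ite (measurableSet_le (measurable_nrm.comp (by fun_prop)) measurable_const) ?_ measurable_const
    refine Measurable.lintegral_prod_right' (f := fun q : ((ℝ × ℝ) × R3) × R3 =>
      gs P N q.1.1.2 (x - (t - q.1.1.2) • v + (q.1.1.1 - q.1.1.2) • (v - q.1.2)) q.2 *
        (invn (q.1.2 - q.2) * pint (q.1.2 - q.2) q.1.2 (fun ξ =>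
          if δ ≤ |inner ℝ (evec b q.1.1.1 (q.1.1.1 - q.1.1.2) v (R q.1.1.1) q.1.2) ((2 : ℝ) • q.1.2 - q.2 - ξ)|
          then φ q.1.1.2 (x - (t - q.1.1.2) • v + (q.1.1.1 - q.1.1.2) • (v - q.1.2)) ξ else 0)))
      (((measD_gs N).comp (by fun_prop) (by fun_prop) measurable_snd).mul ?_)
    exact MainFX.meas_ker δ ((measurable_evec b).comp (f := fun q : ((ℝ × ℝ) × R3) × R3 =>
      (q.1.1.1, q.1.1.1 - q.1.1.2, v, R q.1.1.1, q.1.2)) (by fun_prop)) measurable_fst.snd measurable_snd
      (f := fun q ξ => φ q.1.1.2 (x - (t - q.1.1.2) • v + (q.1.1.1 - q.1.1.2) • (v - q.1.2)) ξ)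
      (hφ.comp (by fun_prop) (by fun_prop) measurable_snd)
  let A : Set (ℝ × ℝ) := {p | p.2 + t / K2 < p.1 ∧ p.1 < t}
  have hA : MeasurableSet A :=
    (measurableSet_lt (by fun_prop) measurable_fst).inter (measurableSet_lt measurable_fst measurable_const)
  let G : ℝ × ℝ → ℝ≥0∞ := fun p => invn (R p.1) * pint (R p.1) v (T p.1 p.2)
  have hG : Measurable G := (measurable_invn.comp (hRm.comp measurable_fst)).mul
    (meas_pint (f := fun p : ℝ × ℝ => T p.1 p.2) hT (hRm.comp measurable_fst) measurable_const)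
  calc _ ≤ ∫⁻ s in Ioo (t / K1) t, 4 * ∫⁻ s' in Ioo (t / K2) (t - t / K2), A.indicator G (s, s') := by
        refine setLIntegral_mono' measurableSet_Ioo fun s hs => ?_
        have hTs : Measurable (Function.uncurry fun s' η => T s s' η) :=
          hT.comp (f := fun p : ℝ × R3 => ((s, p.1), p.2)) (by fun_prop)
        calc _ ≤ invn (R s) * pint (R s) v (fun η => 4 * ∫⁻ s' in Ioo (t / K2) (s - t / K2), T s s' η) := by
              refine mul_le_mul_right (pint_mono _ _ fun η => ?_) _
              split_ifs with hη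
              · refine mul_le_mul_right (setLIntegral_mono' measurableSet_Ioo fun s' hs' => le_of_eq ?_) _
                have e : x - (t - s') • v + (s - s') • (v - η) = x - (t - s) • v - (s - s') • η := by module
                simp only [T, e]
                rw [if_pos (nrm_back2 (hκ.trans hs'.1).le (by linarith [hs'.2]) hs.2.le hx hη)]
              · exact zero_le
          _ = 4 * ∫⁻ s' in Ioo (t / K2) (s - t / K2), G (s, s') := by
              rw [pint_cmul _ _ _ (by exact hTs.lintegral_prod_left'), pint_lintegral _ _ _ hTs, mul_left_comm,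
                ← lintegral_const_mul _ (by exact meas_pint hTs measurable_const measurable_const)]
          _ ≤ _ := by
              refine mul_le_mul_right ((setLIntegral_mono' measurableSet_Ioo fun s' hs' => ?_).trans
                (lintegral_mono_set (Ioo_subset_Ioo_right (by linarith [hs.2])))) _
              rw [indicator_of_mem (show (s, s') ∈ A from ⟨by linarith [hs'.2], hs.2⟩)]
    _ = 4 * ∫⁻ s' in Ioo (t / K2) (t - t / K2), ∫⁻ s in Ioo (t / K1) t, A.indicator G (s, s') := by
        rw [lintegral_const_mul' _ _ (by simp),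
          lintegral_lintegral_swap (f := fun s s' => A.indicator G (s, s')) (hG.indicator hA).aemeasurable]
    _ ≤ 4 * ∫⁻ s' in Ioo (t / K2) (t - t / K2), (C * ENNReal.ofReal (t / (δ * δv * (t / K2) ^ 2)) *
        ENNReal.ofReal (4 * cc * K2 / (kap * t))) *
        ∫⁻ y in Metric.closedBall (0 : ℝ × ℝ) ((K + L2) * t), ∫⁻ ξ, φ s' (lift y) ξ := by
        refine mul_le_mul_right (setLIntegral_mono' measurableSet_Ioo fun s' hs' => ?_) _
        have h0 : 0 < s' := hκ.trans hs'.1
        have h1 : s' ≤ t := by linarith [hs'.2]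
        refine le_trans ?_ (hC b c hb hb2 hδv hc hδ hκ h0.le (x - (t - s') • v) v R hR ((measD_gs (P := P) N).slice s')
          (hφ.slice s') (sameInv_gs N s') (sφ s' ⟨h0.le, h1⟩) fun y => ?_)
        · refine (setLIntegral_le_lintegral _ _).trans_eq ?_
          rw [← lintegral_indicator measurableSet_Ioo]
          rfl
        · refine (lintegral_mono fun a => gs_le_G _ _ _ a).trans ((G_mass hP N ⟨h0.le, h1.trans ht1⟩ _).trans
            ((rb_le_time hP N h0 _).trans (ENNReal.ofReal_le_ofReal ?_)))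
          have h2 := hs'.1
          rw [div_lt_iff₀ (by positivity)] at h2
          rw [div_le_div_iff₀ (by positivity) (by positivity)]
          nlinarith [mul_pos hcc hk]
    _ = _ := by
        have e : ENNReal.ofReal (t / (δ * δv * (t / K2) ^ 2)) * ENNReal.ofReal (4 * cc * K2 / (kap * t)) =
            4 * ENNReal.ofReal (cc * K2 ^ 3 / (kap * δ * δv * t ^ 2)) := by
          rw [← ENNReal.ofReal_mul (by positivity), ← ENNReal.ofReal_ofNat, ← ENNReal.ofReal_mul (by positivity)]
          congr 1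
          field_simp
        rw [lintegral_const_mul' _ _ (by finiteness), mul_assoc (C : ℝ≥0∞), e, ENNReal.coe_mul, ENNReal.coe_ofNat]
        ring

theorem strip {S : Set ℝ} (y0 : ℝ) {ς : ℝ} (hς : 0 < ς) :
    volume {u : ℝ | y0 - ς * u ∈ S} = ENNReal.ofReal ς⁻¹ * volume S := by
  have e : {u : ℝ | y0 - ς * u ∈ S} = (fun u => -ς * u) ⁻¹' ((fun z => y0 + z) ⁻¹' S) := by
    ext u
    simp [sub_eq_add_neg]
  rw [e, Real.volume_preimage_mul_left (neg_ne_zero.2 hς.ne'), measure_preimage_add, inv_neg, abs_neg,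
    abs_of_pos (inv_pos.2 hς)]

end MainTX

open Classical in
theorem main_term {δv δ δt K K1 K2 L2 : ℝ} (hδv : 0 < δv) (hδ : 0 < δ) (hδt : 0 < δt) (hK : 1 ≤ K) (hK1 : 1 ≤ K1)
    (hK2 : 1 ≤ K2) (hL2 : 1 ≤ L2) : ∃ C : ℝ≥0, ∀ {P : Par}, P.Ok → P.w ≤ δv / 2 → ∀ (N : ℕ) {φ : Den}, MeasD φ →
    ∀ {t : ℝ} {x v : R3}, 0 < t → t ≤ 1 → (∀ s ∈ Icc 0 t, SameInv (φ s)) → Slabs δv v → nrm x + t * ‖v‖ ≤ K * t →
    K1op P N δt K K1 t x v (fun k s a η => if ‖η‖ ≤ L2 then
      H2 P N δ K2 t φ (fun s' => evec (bb P k.1) s (s - s') v (v - a) η) s (x - (t - s) • v) η else 0) ≤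
    C * ENNReal.ofReal (1 / t ^ 3) * ∫⁻ s' in Ioo (t / K2) (t - t / K2),
      ∫⁻ y in Metric.closedBall (0 : ℝ × ℝ) ((K + L2) * t), ∫⁻ ξ, φ s' (lift y) ξ := by
  obtain ⟨M, hM⟩ := MainTX.count (K := K) hδt
  obtain ⟨C, hC⟩ := MainTX.one_beam
  have hcc := LawA.cc_pos
  have hk := kap_pos
  refine ⟨4 * M * C * Real.toNNReal (cc * K1 / kap * (cc * K2 ^ 3 / (kap * δ * δv))),
    fun {P} hP hw N φ hφ t x v ht0 ht1 sφ hv hx => ?_⟩
  set I := ∫⁻ s' in Ioo (t / K2) (t - t / K2),
    ∫⁻ y in Metric.closedBall (0 : ℝ × ℝ) ((K + L2) * t), ∫⁻ ξ, φ s' (lift y) ξ with hI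
  let H : Bm → ℝ → R3 → R3 → ℝ≥0∞ := fun k s a η => if ‖η‖ ≤ L2 then
    H2 P N δ K2 t φ (fun s' => evec (bb P k.1) s (s - s') v (v - a) η) s (x - (t - s) • v) η else 0
  have hH : ∀ k, Measurable fun q : ℝ × R3 × R3 => H k q.1 q.2.1 q.2.2 := fun k =>
    Measurable.ite (measurableSet_le measurable_snd.snd.norm measurable_const)
      (meas_H2 (α := ℝ × R3 × R3) N δ K2 t hφ
        (e := fun q s' => evec (bb P k.1) q.1 (q.1 - s') v (v - q.2.1) q.2.2)
        ((measurable_evec (bb P k.1)).comp (f := fun p : (ℝ × R3 × R3) × ℝ =>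
          (p.1.1, p.1.1 - p.2, v, v - p.1.2.1, p.1.2.2)) (by fun_prop))
        measurable_fst (by fun_prop) measurable_snd.snd) measurable_const
  have key : ∀ k : Bm, ∫⁻ s in Ioo (t / K1) t, ∫⁻ a, gk P k s (x - (t - s) • v) a *
      (invn (v - a) * pint (v - a) v (H k s a)) ≤ ENNReal.ofReal (cc * K1 / (kap * t)) *
        (C * ENNReal.ofReal (cc * K2 ^ 3 / (kap * δ * δv * t ^ 2)) * I) := by
    intro k
    have hΦ : Measurable fun p : ℝ × R3 => invn (v - p.2) * pint (v - p.2) v (H k p.1 p.2) :=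
      (measurable_invn.comp (by fun_prop)).mul (meas_pint (MeasD.comp (F := H k) (hH k) (by fun_prop) (by fun_prop)
        (by fun_prop)) (by fun_prop) measurable_const)
    have ha : Measurable fun p : ℝ × R3 => avel P k p.1 (x - (t - p.1) • v) p.2 :=
      (WithLp.measurable_toLp _ _).comp (measurable_pi_lambda _ fun i => by fun_prop)
    have h0 : ∀ s ∈ Ioo (t / K1) t, 0 < s := fun s hs => (div_pos ht0 (by linarith)).trans hs.1
    calc _ ≤ ∫⁻ s in Ioo (t / K1) t, ENNReal.ofReal (cc * K1 / (kap * t)) * (8⁻¹ * ∫⁻ ζ in cube,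
          invn (v - avel P k s (x - (t - s) • v) ζ) * pint (v - avel P k s (x - (t - s) • v) ζ) v
            (H k s (avel P k s (x - (t - s) • v) ζ))) := by
          refine setLIntegral_mono' measurableSet_Ioo fun s hs => ?_
          refine (gk_law_le hP k (h0 s hs).le _ (hΦ.comp (f := fun a : R3 => (s, a)) measurable_prodMk_left)).trans
            (mul_le_mul_left (ENNReal.ofReal_le_ofReal ((dens_le hP k.1 (h0 s hs).le).trans ?_)) _)
          have h1 := hs.1
          have h2 := rr_pos hP k.1.1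
          have h3 := mul_pos (et_pos hP k.1.1) (h0 s hs)
          have h4 : kap * s ≤ P.X k.1.1 s := by
            unfold Par.X
            linarith
          rw [div_lt_iff₀ (by linarith)] at h1
          rw [div_le_div_iff₀ (X_pos hP _ (h0 s hs).le) (by positivity), mul_assoc]
          refine mul_le_mul_of_nonneg_left ?_ hcc.le
          nlinarith [mul_le_mul_of_nonneg_left h4 (by linarith : 0 ≤ K1)]
      _ = ENNReal.ofReal (cc * K1 / (kap * t)) * (8⁻¹ * ∫⁻ ζ in cube, ∫⁻ s in Ioo (t / K1) t,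
          invn (v - avel P k s (x - (t - s) • v) ζ) * pint (v - avel P k s (x - (t - s) • v) ζ) v
            (H k s (avel P k s (x - (t - s) • v) ζ))) := by
          rw [lintegral_const_mul' _ _ ENNReal.ofReal_ne_top, lintegral_const_mul' _ _ (by simp),
            lintegral_lintegral_swap (by exact (hΦ.comp (measurable_fst.prodMk ha)).aemeasurable)]
      _ ≤ ENNReal.ofReal (cc * K1 / (kap * t)) * (8⁻¹ * ∫⁻ _ in cube,
          C * ENNReal.ofReal (cc * K2 ^ 3 / (kap * δ * δv * t ^ 2)) * I) := by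
          refine mul_le_mul_right (mul_le_mul_right (setLIntegral_mono' measurableSet_cube fun ζ hζ => ?_) _) _
          let c : R3 := WithLp.toLp 2 fun i =>
            v i * (1 + bb P k.1 i * t) - pp P k i - bb P k.1 i * x i - P.ww k.1.1 * ζ i
          have hc : δv / 2 ≤ |c 2| := by
            have h1 : c 2 = v 2 - sg k.2 - P.ww k.1.1 * ζ 2 := by
              simp [c, bb_two, pp, (iR_ne_two k.1).symm]
            have h2 : δv ≤ |v 2 - sg k.2| := by
              cases hk : k.2
              · simpa [sg] using hv.2.1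
              · simpa [sg] using hv.1
            have h3 : |P.ww k.1.1 * ζ 2| ≤ P.w := by
              rw [abs_mul, abs_of_pos (ww_pos hP _)]
              exact (mul_le_of_le_one_right (ww_pos hP _).le (hζ 2)).trans (ww_le hP _)
            have h4 := abs_sub_abs_le_abs_sub (v 2 - sg k.2) (P.ww k.1.1 * ζ 2)
            rw [h1]
            linarith
          refine le_trans (le_of_eq (setLIntegral_congr_fun measurableSet_Ioo fun s hs => ?_))
            (hC (K1 := K1) hδv hδ hK2 hP N hφ ht0 ht1 sφ hx (bb P k.1) c (bb_nonneg hP _) (bb_two _) hc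
              (fun s => WithLp.toLp 2 fun i => c i / (1 + bb P k.1 i * s)) fun s i => rfl)
          have e : v - avel P k s (x - (t - s) • v) ζ = WithLp.toLp 2 fun i => c i / (1 + bb P k.1 i * s) := by
            ext i
            have := (den_pos hP k.1 i (h0 s hs).le).ne'
            simp only [avel, c, PiLp.sub_apply, PiLp.smul_apply, smul_eq_mul]
            rw [eq_div_iff this, sub_mul, div_mul_cancel₀ _ this]
            ring
          simp only [H, e]
      _ = _ := by
          rw [setLIntegral_const, volume_cube, mul_comm _ (8 : ℝ≥0∞), ← mul_assoc (8⁻¹ : ℝ≥0∞),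
            ENNReal.inv_mul_cancel (by simp) (by simp), one_mul]
  have e : ENNReal.ofReal (cc * K1 / (kap * t)) * ENNReal.ofReal (cc * K2 ^ 3 / (kap * δ * δv * t ^ 2)) =
      ENNReal.ofReal (cc * K1 / kap * (cc * K2 ^ 3 / (kap * δ * δv))) * ENNReal.ofReal (1 / t ^ 3) := by
    rw [← ENNReal.ofReal_mul (by positivity), ← ENNReal.ofReal_mul (by positivity)]
    congr 1
    field_simp
  calc _ = 4 * ∑' k : Bm, if Thick P N δt K t k then ∫⁻ s in Ioo (t / K1) t, ∫⁻ a, gk P k s (x - (t - s) • v) a *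
        (invn (v - a) * pint (v - a) v (H k s a)) else 0 := by
        unfold K1op
        rw [lintegral_tsum fun k => ?_]
        · congr 1
          refine tsum_congr fun k => ?_
          split_ifs
          · rfl
          · simp
        · split_ifs
          · exact (DefsDX.meas_in k (hH k)).lintegral_prod_right'.aemeasurable
          · exact aemeasurable_const
    _ ≤ 4 * (M * _) := mul_le_mul_right (hM hP N ht0 key) _
    _ = _ := by
        rw [mul_assoc (C : ℝ≥0∞), mul_left_comm (ENNReal.ofReal _), ← mul_assoc (ENNReal.ofReal _), e]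
        simp only [ENNReal.coe_mul, ENNReal.coe_ofNat, ENNReal.coe_natCast, ENNReal.ofReal]
        ring
open Classical in
theorem bad_term {ε : ℝ≥0} (hε : 0 < ε) {δv K K1 K2 L2 : ℝ} (hδv : 0 < δv) (hK : 1 ≤ K) (hK1 : 1 ≤ K1)
    (hK2 : 1 ≤ K2) (hL2 : 1 ≤ L2) : ∃ δ0 > 0, ∀ δ', 0 < δ' → δ' ≤ δ0 → ∀ {P : Par}, P.Ok → P.eta ≤ δ' →
    P.w ≤ δv / 2 → ∀ (N : ℕ) (δt : ℝ) {t : ℝ} {x v : R3}, 0 < t → K * t ≤ 1 / 4 → Slabs δv v →
    nrm x + t * ‖v‖ ≤ K * t →
    K1op P N δt K K1 t x v (fun _ s _ η => if ‖η‖ ≤ L2 then BadT P N δ' K2 t s (x - (t - s) • v) η else 0) ≤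
      ε * ENNReal.ofReal t := by
  have hcc := LawA.cc_pos
  have hk := kap_pos
  have hε' : (0 : ℝ) < ε := hε
  set ε₁ : ℝ := ε * kap * δv / (128 * cc * K1 * K2 * L2) with hε₁
  have hε₁0 : 0 < ε₁ := by positivity
  obtain ⟨δ0, h0, -, hB⟩ := badPos (ε := ε₁) (K := (K + L2) * K2) hε₁0 (by nlinarith)
  refine ⟨δ0, h0, fun δ' hδ' hδ0 P hP he hw N δt t x v ht hKt hv hx => ?_⟩
  have ht1 : t ≤ 1 := by nlinarith
  have hκ : 0 < t / K2 := by positivity
  refine (K1op_le hP hK1 ht ht1 hw hv (by linarith) (c := fun _ => ENNReal.ofReal (8 * L2 * K2 * ε₁ * t / δv))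
    fun k s a hs hg => ?_).trans ?_
  · have hs0 : 0 < s := (div_pos ht (by linarith)).trans hs.1
    have h1 := (slab_gk hP hw hv ⟨hs0.le, hs.2.le.trans ht1⟩ hg).1
    have h2 : (v - a) 2 ≠ 0 := fun h => by
      rw [h, abs_zero] at h1
      linarith
    set y := x - (t - s) • v with hy
    let η : ℝ × ℝ → R3 := fun u => ins 2 (v 2 - ((v - a) 0 * (u.1 - v 0) + (v - a) 1 * (u.2 - v 1)) / (v - a) 2) u
    have hη : Measurable η := (measurable_ins 2).comp (f := fun u : ℝ × ℝ =>
      (v 2 - ((v - a) 0 * (u.1 - v 0) + (v - a) 1 * (u.2 - v 1)) / (v - a) 2, u)) (by fun_prop)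
    let E : Set ((ℝ × ℝ) × ℝ) := {p | ‖η p.1‖ ≤ L2 ∧ (t / K2 < p.2 ∧ p.2 < s - t / K2) ∧
      BadP P N δ' p.2 (y - (s - p.2) • η p.1)}
    have hE : MeasurableSet E := (measurableSet_le (hη.comp measurable_fst).norm measurable_const).inter
      (((measurableSet_lt measurable_const measurable_snd).inter (measurableSet_lt measurable_snd measurable_const)).inter
        ((measurableSet_BadP P N δ').preimage (f := fun p : (ℝ × ℝ) × ℝ => (p.2, y - (s - p.2) • η p.1))
          (by fun_prop)))
    rw [MainFX.graph2 h2 v (by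
      exact Measurable.ite (measurableSet_le measurable_norm measurable_const) ((measD_BadT N δ' K2 t).vel s y)
        measurable_const)]
    calc _ = ENNReal.ofReal (1 / |(v - a) 2|) * ∫⁻ u : ℝ × ℝ, volume (Prod.mk u ⁻¹' E) := by
          congr 1
          refine lintegral_congr fun u => ?_
          change (if ‖η u‖ ≤ L2 then BadT P N δ' K2 t s y (η u) else 0) = _
          split_ifs with h3
          · unfold BadT
            congr 1
            ext s'
            simp [E, h3]
          · have : Prod.mk u ⁻¹' E = ∅ := by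
              ext s'
              simp [E, h3]
            rw [this, measure_empty]
      _ = ENNReal.ofReal (1 / |(v - a) 2|) * ∫⁻ s', volume ((fun u => (u, s')) ⁻¹' E) := by
          rw [← Measure.prod_apply hE, Measure.prod_apply_symm hE]
      _ ≤ ENNReal.ofReal (2 / δv) * ∫⁻ s', (Ioo 0 t).indicator (fun _ => ENNReal.ofReal (4 * L2 * K2 * ε₁)) s' := by
          refine mul_le_mul' (ENNReal.ofReal_le_ofReal ?_) (lintegral_mono fun s' => ?_)
          · rw [div_le_div_iff₀ (abs_pos.2 h2) hδv]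
            linarith
          by_cases hs' : t / K2 < s' ∧ s' < s - t / K2
          · have h3 : 0 < s' := hκ.trans hs'.1
            have h4 : s' < t := by linarith [hs'.2, hs.2]
            have h5 : 0 < s - s' := by linarith [hs'.2]
            obtain ⟨S, -, hSv, hS⟩ := hB δ' hδ' hδ0 hP he N h3
            have hsub : (fun u => (u, s')) ⁻¹' E ⊆ {u : ℝ | y 0 - (s - s') * u ∈ S} ×ˢ Icc (-L2) L2 ∪
                Icc (-L2) L2 ×ˢ {u : ℝ | y 1 - (s - s') * u ∈ S} := by
              rintro u ⟨h6, -, h7⟩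
              have e0 : η u 0 = u.1 := by simp [η, ins]
              have e1 : η u 1 = u.2 := by simp [η, ins]
              have b0 : |u.1| ≤ L2 := e0 ▸ (PiLp.norm_apply_le (η u) 0).trans h6
              have b1 : |u.2| ≤ L2 := e1 ▸ (PiLp.norm_apply_le (η u) 1).trans h6
              have h8 : nrm (y - (s - s') • η u) ≤ (K + L2) * K2 * s' := by
                refine (MainTX.nrm_back2 h3.le (by linarith) hs.2.le hx h6).trans ?_
                have h9 := hs'.1
                rw [div_lt_iff₀ (by linarith)] at h9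
                nlinarith
              rcases hS _ h8 h7 with h9 | h9
              · exact Or.inl ⟨by simpa [e0] using h9, abs_le.1 b1⟩
              · exact Or.inr ⟨abs_le.1 b0, by simpa [e1] using h9⟩
            have h6 : ENNReal.ofReal (s - s')⁻¹ * volume S * ENNReal.ofReal (L2 - -L2) ≤
                ENNReal.ofReal (2 * L2 * K2 * ε₁) := by
              refine (mul_le_mul_left (mul_le_mul_right hSv _) _).trans ?_
              rw [← ENNReal.ofReal_mul (by positivity), ← ENNReal.ofReal_mul (by positivity)]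
              refine ENNReal.ofReal_le_ofReal ?_
              have h7 : (s - s')⁻¹ * s' ≤ K2 := by
                rw [inv_mul_le_iff₀ h5]
                have h8 : t / K2 * K2 ≤ (s - s') * K2 := by gcongr; linarith [hs'.2]
                rw [div_mul_cancel₀ _ (by linarith)] at h8
                linarith
              nlinarith [mul_le_mul_of_nonneg_right h7 (by positivity : 0 ≤ ε₁ * L2)]
            rw [indicator_of_mem (show s' ∈ Ioo 0 t from ⟨h3, h4⟩)]
            refine (measure_mono hsub).trans ((measure_union_le _ _).trans ?_)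
            rw [Measure.volume_eq_prod, Measure.prod_prod, Measure.prod_prod, MainTX.strip _ h5, MainTX.strip _ h5,
              Real.volume_Icc, mul_comm (ENNReal.ofReal (L2 - -L2))]
            refine (add_le_add h6 h6).trans_eq ?_
            rw [← ENNReal.ofReal_add (by positivity) (by positivity)]
            congr 1
            ring
          · have : (fun u => (u, s')) ⁻¹' E = ∅ := eq_empty_of_forall_notMem fun u hu => hs' hu.2.1
            rw [this, measure_empty]
            exact zero_le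
      _ = _ := by
          rw [lintegral_indicator measurableSet_Ioo, setLIntegral_const, Real.volume_Ioo,
            ← ENNReal.ofReal_mul (by positivity), ← ENNReal.ofReal_mul (by positivity)]
          congr 1
          field_simp
          ring
  · calc _ ≤ 4 * ∫⁻ _ in Ioo (t / K1) t, ENNReal.ofReal (4 * cc * K1 / (kap * t)) *
          ENNReal.ofReal (8 * L2 * K2 * ε₁ * t / δv) := by
          refine mul_le_mul_right (setLIntegral_mono' measurableSet_Ioo fun s hs => mul_le_mul_left ?_ _) _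
          have hs0 : 0 < s := (div_pos ht (by linarith)).trans hs.1
          refine (rb_le_time hP N hs0 _).trans (ENNReal.ofReal_le_ofReal ?_)
          have h2 := hs.1
          rw [div_lt_iff₀ (by positivity)] at h2
          rw [div_le_div_iff₀ (by positivity) (by positivity)]
          nlinarith [mul_pos hcc hk]
      _ ≤ 4 * (ENNReal.ofReal (4 * cc * K1 / (kap * t)) * ENNReal.ofReal (8 * L2 * K2 * ε₁ * t / δv) *
          ENNReal.ofReal t) := by
          rw [setLIntegral_const, Real.volume_Ioo]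
          gcongr
          exact sub_le_self _ (by positivity)
      _ = _ := by
          rw [← ENNReal.ofReal_mul (by positivity), ← mul_assoc, ← ENNReal.ofReal_ofNat,
            ← ENNReal.ofReal_mul (by positivity), ← ENNReal.ofReal_coe_nnreal]
          congr 2
          rw [hε₁]
          field_simp
          norm_num

end Crest.Agent.R68
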