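import Crest.Agent.R68.One

/-! The previous collision.  `y' = y - (s-s')η` has `nrm y' < 1/2`.  `GC` part: `src_bound`, `sing_GC`, `cc ≤ rb`, `Th_one_le_al`, `rb_al`, `sig_time`.  `gs` part, for each `s'` let `k` be the core (`G_core`): if `‖η - U k‖ ≤ θ` use `near_ctr` (`ctr_zero`) and `sig_time`;
otherwise `‖η - a'‖ ≥ θ/2` on the support and the integrand is `≤ C* B` (`pint_TL`, `rb_al`), which pays for the two time windows (`1 ≤ Lam`) and for the bad positions.  In the remaining case `y'` is deep in the tile of `k` (`tile_nrm` excludes the vacuum and `nrm ≥ X 0`; `deep_tile`, `tile_unique`) and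
on the plane `f ≤ tail + strip₁ + strip₂ + main`: with `n = η - a'`, `2η - a' - ξ = n - (ξ - η)` (`strip` with `sgn = -1`, `e = e s'`), and `⟪e_R, n + (ξ - η)⟫ = ξ_R - a'_R` (`strip` with `sgn = 1`, threshold `2δ`; `|a'_R - U_R| ≤ w ≤ δ`); `pint_TL_small`. -/

set_option autoImplicit false

open MeasureTheory Set Filter Topology Crest.AnalysisR.VecCalc3 Crest.AnalysisR.PDE.Boltzmann
open scoped ENNReal NNReal

namespace Crest.Agent.R68

namespace SecA

theorem small (C : ℝ≥0) {ε : ℝ≥0} (hε : 0 < ε) : ∃ η : ℝ≥0, 0 < η ∧ (C : ℝ≥0∞) * η ≤ ε := by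
  refine ⟨ε / (C + 1), div_pos hε (by positivity), ?_⟩
  have : C * (ε / (C + 1)) ≤ ε := by
    rw [← mul_div_assoc, div_le_iff₀ (by positivity), mul_comm]
    gcongr
    exact le_self_add
  exact_mod_cast this

theorem ew_le {η : ℝ≥0} (hη : 0 < η) : ∃ L : ℝ, 1 ≤ L ∧ ew (1 / 4) L ≤ η := by
  have hη' : (0 : ℝ) < η := hη
  refine ⟨max 1 (4 / η), le_max_left _ _, ?_⟩
  unfold ew
  rw [← ENNReal.ofReal_coe_nnreal]
  refine ENNReal.ofReal_le_ofReal ?_
  have h1 : 4 / (η : ℝ) ≤ max 1 (4 / (η : ℝ)) := le_max_right _ _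
  have h2 := Real.add_one_le_exp (1 / 4 * max 1 (4 / (η : ℝ)))
  rw [div_le_iff₀ hη'] at h1
  rw [Real.exp_neg, inv_le_iff_one_le_mul₀ (Real.exp_pos _)]
  nlinarith

theorem Qp_B {g f h : R3 → ℝ≥0∞} (hg : Measurable g) (hh : Measurable h) {B : ℝ≥0∞}
    (hle : ∀ ξ, f ξ ≤ B * h ξ) (v : R3) : Qp g f v ≤ B * Qp g h v := by
  have h1 := Qp_cmul hg hh 1 B v
  simp only [one_mul] at h1
  exact (Qp_mono (fun _ => le_rfl) hle v).trans h1.le

theorem al_le {P : Par} (hP : P.Ok) (N : ℕ) {s : ℝ} (hs : s ∈ Icc (0 : ℝ) 1) (y : R3) :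
    ENNReal.ofReal (al P N s y) ≤ ENNReal.ofReal (4 * cc * P.L / kap) := by
  refine le_trans (le_mul_of_one_le_left' (le_trans ?_ (rb_ge hP N hs y))) (rb_al hP N hs.1 y)
  rw [ENNReal.one_le_ofReal]
  unfold cc
  norm_num

theorem ind_cmul (S : Set R3) (c : ℝ≥0∞) (f : R3 → ℝ≥0∞) (a : R3) :
    S.indicator (fun a => c * f a) a = c * S.indicator f a := by
  by_cases h : a ∈ S <;> simp [h]

theorem pt (m : ℕ) {ε : ℝ≥0} (hε : 0 < ε) {L2 δe Le : ℝ} (hL2 : 1 ≤ L2) (hδe : 0 < δe) :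
    ∃ (δ L3 w0 : ℝ) (C : ℝ≥0), 0 < δ ∧ δ ≤ 1 ∧ 1 ≤ L3 ∧ 0 < w0 ∧ ∀ δ', 0 < δ' → δ' ≤ δ →
    ∀ {P : Par}, P.Ok → P.m = m → P.w ≤ w0 → ∀ (N : ℕ) {s : ℝ}, 0 < s → s ≤ 1 →
    ∀ {y η e : R3} {f : Den} {B : ℝ≥0∞}, MeasD f → (∀ ξ, f s y ξ ≤ B * TL P N 1 s y ξ) → nrm y < 1 / 2 →
    ‖η‖ ≤ L2 → δe ≤ ‖e‖ → ‖e‖ ≤ Le →
    2 * Qp (G P N s y) (f s y) η ≤ ε * B * sig P s y η + C * B ∧
    (¬ BadP P N δ' s y → 2 * Qp (G P N s y) (f s y) η ≤ ε * B * sig P s y η +
      4 * ∫⁻ a', gs P N s y a' * (invn (η - a') * pint (η - a') η (fun ξ =>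
        if δ ≤ |inner ℝ e ((2 : ℝ) • η - a' - ξ)| then fG P N δ' L3 f s y ξ else 0))) := by
  obtain ⟨Csrc, hsrc⟩ := src_bound
  obtain ⟨CGC, hGC⟩ := sing_GC
  obtain ⟨Cp, hp⟩ := pint_TL
  set A : ℝ≥0 := Real.toNNReal (4 * cc * (4 * m) / kap) with hA
  have hε2 : 0 < ε / 2 := half_pos hε
  obtain ⟨η1, hη1, h1⟩ := small (2 * Csrc * A * CGC) hε2
  obtain ⟨η2, hη2, h2⟩ := small (2 * Csrc * A) hε2
  obtain ⟨θ, hθ, hnear⟩ := near_ctr hη2
  set I : ℝ≥0 := Real.toNNReal (θ / 2)⁻¹ with hI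
  obtain ⟨η3, hη3, h3⟩ := small (4 * A * I * 3) hε2
  obtain ⟨η4, hη4, h4⟩ := small Cp hη3
  obtain ⟨L3, hL3, hew⟩ := ew_le hη4
  set Ls := L3 + L2 + |Le| with hLs
  have hLe := abs_nonneg Le
  obtain ⟨Cs, hsm⟩ := pint_TL_small Ls
  obtain ⟨η5, hη5, h5⟩ := small Cs hη3
  have hη5' : (0 : ℝ) < η5 := hη5
  have hη1' : (0 : ℝ) < η1 := hη1
  obtain ⟨δs, hδs, hstrip⟩ := strip (ε := (η5 : ℝ) ^ 3) (L := Ls) (δ₁ := min δe (min (θ / 2) 1))
    (by positivity) (by linarith) (by positivity)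
  refine ⟨min 1 (δs / 2), L3, min (θ / 4) (min (δs / 2) ((η1 : ℝ) ^ 2)), 4 * A * I * Cp, by positivity,
    min_le_left _ _, hL3, by positivity,
    fun δ' hδ' hδ'' P hP hm hw N s hs0 hs1 y η e f B hf hle hy hη he1 he2 => ?_⟩
  have hs : s ∈ Icc (0 : ℝ) 1 := ⟨hs0.le, hs1⟩
  have hw1 : P.w ≤ θ / 4 := hw.trans (min_le_left _ _)
  have hw2 : P.w ≤ δs / 2 := hw.trans ((min_le_right _ _).trans (min_le_left _ _))
  have hw3 : P.w ≤ (η1 : ℝ) ^ 2 := hw.trans ((min_le_right _ _).trans (min_le_right _ _))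
  have hAe : ENNReal.ofReal (4 * cc * P.L / kap) = A := by rw [Par.L, hm]; rfl
  have hal : ENNReal.ofReal (al P N s y) ≤ A := (al_le hP N hs y).trans hAe.le
  have hrb : rb P N s y * ENNReal.ofReal (al P N s y) ≤ A := (rb_al hP N hs.1 y).trans hAe.le
  have hTh := Th_one_le_al hP N hs.1 y η
  have mG := (measD_G (P := P) N).vel s y
  have mgs := (measD_gs (P := P) N).vel s y
  have mGC := (measD_GC (P := P) N).vel s y
  have mTL := (measD_TL (P := P) N 1).vel s y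
  have mf := hf.vel s y
  have hsig := one_le_sig (P := P) s y η
  have hsplit : Qp (G P N s y) (f s y) η = Qp (gs P N s y) (f s y) η + Qp (GC P N s y) (f s y) η :=
    Qp_add_left mgs mGC mf η
  have hhalf : ((ε / 2 : ℝ≥0) : ℝ≥0∞) * B * sig P s y η + ((ε / 2 : ℝ≥0) : ℝ≥0∞) * B * sig P s y η =
      ε * B * sig P s y η := by
    rw [← add_mul, ← add_mul, ← ENNReal.coe_add, add_halves]
  -- the `GC` part
  have hGCp : 2 * Qp (GC P N s y) (f s y) η ≤ ((ε / 2 : ℝ≥0) : ℝ≥0∞) * B * sig P s y η := by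
    have e1 := Qp_B mGC mTL hle η
    have e2 := hsrc hP N hP.m1 hs y η mGC fun a ha => ((G_supp hP hs (N := N) (x := y) (v := a)
      fun h => ha (add_eq_zero.1 h).2).1).trans (by norm_num)
    have e3 := hGC hP N hs y η
    have e4 : ENNReal.ofReal (Real.sqrt P.w) ≤ η1 := by
      rw [← ENNReal.ofReal_coe_nnreal]
      exact ENNReal.ofReal_le_ofReal (Real.sqrt_le_iff.2 ⟨hη1'.le, hw3⟩)
    calc _ ≤ 2 * (B * (Csrc * A * (CGC * η1 * sig P s y η))) := by
          gcongr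
          refine e1.trans ?_
          gcongr
          refine e2.trans ?_
          gcongr
          · exact hTh.trans hal
          · exact e3.trans (by gcongr)
      _ = ((2 * Csrc * A * CGC : ℝ≥0) : ℝ≥0∞) * η1 * B * sig P s y η := by push_cast; ring
      _ ≤ _ := by gcongr
  suffices hgs : 2 * Qp (gs P N s y) (f s y) η ≤ ((ε / 2 : ℝ≥0) : ℝ≥0∞) * B * sig P s y η +
      ((4 * A * I * Cp : ℝ≥0) : ℝ≥0∞) * B ∧ (¬ BadP P N δ' s y → 2 * Qp (gs P N s y) (f s y) η ≤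
      ((ε / 2 : ℝ≥0) : ℝ≥0∞) * B * sig P s y η +
      4 * ∫⁻ a', gs P N s y a' * (invn (η - a') * pint (η - a') η (fun ξ =>
        if min 1 (δs / 2) ≤ |inner ℝ e ((2 : ℝ) • η - a' - ξ)| then fG P N δ' L3 f s y ξ else 0))) by
    rw [hsplit, mul_add, ← hhalf]
    exact ⟨(add_le_add hgs.1 hGCp).trans (le_of_eq (by ring)),
      fun h => (add_le_add (hgs.2 h) hGCp).trans (le_of_eq (by ring))⟩
  rcases G_core hP N hs y with ⟨h0, -⟩ | ⟨k, hkN, hcore, hgk, -⟩
  · rw [show gs P N s y = fun _ => 0 from funext h0, Qp_zero_left, mul_zero]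
    exact ⟨zero_le, fun _ => zero_le⟩
  have htile := core_tile hP hcore
  by_cases hθU : ‖η - U P k s (hat y)‖ ≤ θ
  · have e0 : 2 * Qp (gs P N s y) (f s y) η ≤ ((ε / 2 : ℝ≥0) : ℝ≥0∞) * B * sig P s y η := by
      have e1 := Qp_B mG mTL hle η
      have e2 := hsrc hP N hP.m1 hs y η mG fun a ha => ((G_supp hP hs ha).1).trans (by norm_num)
      have e3 := hnear hP (by linarith) N hs y η k.1 0 k.2 htile (by rw [ctr_zero]; exact hθU)
      calc _ ≤ 2 * (B * (Csrc * ENNReal.ofReal (al P N s y) * (η2 * (rb P N s y * sig P s y η)))) := by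
            gcongr
            refine (Qp_mono (gs_le_G N s y) (fun _ => le_rfl) η).trans (e1.trans ?_)
            gcongr
            refine e2.trans ?_
            gcongr
        _ = 2 * Csrc * (rb P N s y * ENNReal.ofReal (al P N s y)) * η2 * B * sig P s y η := by ring
        _ ≤ 2 * Csrc * A * η2 * B * sig P s y η := by gcongr
        _ = ((2 * Csrc * A : ℝ≥0) : ℝ≥0∞) * η2 * B * sig P s y η := by push_cast; ring
        _ ≤ _ := by gcongr
    exact ⟨e0.trans le_self_add, fun _ => e0.trans le_self_add⟩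
  have hsupp : ∀ a, gs P N s y a ≠ 0 → θ / 2 ≤ ‖η - a‖ ∧ ∀ j, |a j - U P k s (hat y) j| ≤ P.w := by
    intro a ha
    rw [hgk] at ha
    obtain ⟨-, e1, e2, -⟩ := gk_supp hP hs ha
    have e3 := ww_le hP k.1.1
    have e4 := norm_sub_le_norm_sub_add_norm_sub η a (U P k s (hat y))
    exact ⟨by linarith [not_le.1 hθU], fun j => (e1 j).trans e3⟩
  have hmass : ∫⁻ a, gs P N s y a ≤ rb P N s y :=
    (lintegral_mono fun a => gs_le_G N s y a).trans (G_mass hP N hs y)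
  have hgen : ∀ (c : ℝ≥0∞) (H : R3 → ℝ≥0∞), (∀ a, gs P N s y a ≠ 0 →
      pint (η - a) η (f s y) ≤ c * B * ENNReal.ofReal (al P N s y) + H a) →
      2 * Qp (gs P N s y) (f s y) η ≤ 4 * A * I * c * B + 4 * ∫⁻ a, gs P N s y a * (invn (η - a) * H a) := by
    intro c H hH
    have e1 : ∫⁻ a, gs P N s y a * (invn (η - a) * pint (η - a) η (f s y)) ≤
        ∫⁻ a, (gs P N s y a * (I * (c * B * ENNReal.ofReal (al P N s y))) +
          gs P N s y a * (invn (η - a) * H a)) := by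
      refine lintegral_mono fun a => ?_
      by_cases ha : gs P N s y a = 0
      · simp [ha]
      have e2 : invn (η - a) ≤ I := SingX.invn_le (half_pos hθ) (hsupp a ha).1
      rw [← mul_add]
      gcongr
      calc _ ≤ invn (η - a) * (c * B * ENNReal.ofReal (al P N s y) + H a) := by gcongr; exact hH a ha
        _ ≤ _ := by rw [mul_add]; gcongr
    rw [lintegral_add_left (mgs.mul_const _), lintegral_mul_const _ mgs] at e1
    rw [carleman mgs mf, ← mul_assoc, show (2 : ℝ≥0∞) * 2 = 4 by norm_num]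
    calc _ ≤ 4 * (rb P N s y * (I * (c * B * ENNReal.ofReal (al P N s y))) +
          ∫⁻ a, gs P N s y a * (invn (η - a) * H a)) := by
          gcongr
          exact e1.trans (by gcongr)
      _ = 4 * (rb P N s y * ENNReal.ofReal (al P N s y)) * I * c * B +
          4 * ∫⁻ a, gs P N s y a * (invn (η - a) * H a) := by ring
      _ ≤ _ := by gcongr
  have hn0 : ∀ a, gs P N s y a ≠ 0 → η - a ≠ 0 := fun a ha h => by
    have := (hsupp a ha).1
    rw [h, norm_zero] at this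
    linarith
  constructor
  · have e1 := hgen Cp (fun _ => 0) fun a ha => by
      refine (pint_mono _ _ hle).trans ?_
      rw [pint_cmul _ _ _ mTL, add_zero, mul_comm (Cp : ℝ≥0∞), mul_assoc]
      gcongr
      exact (hp hP N hs y _ η 0 (hn0 a ha)).1
    simp only [mul_zero, lintegral_zero, add_zero] at e1
    refine e1.trans (le_trans (le_of_eq ?_) le_add_self)
    push_cast
    ring
  intro hbad
  have hsame := Same.hat_ hy
  have hkN' : k.1.1 ≤ N := by exact_mod_cast hkN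
  obtain ⟨τ, hτ⟩ : ∃ τ, Deep P N δ' τ s y := by
    by_contra hno
    have e1 := tile_nrm hP hs.1 htile
    rw [← hsame.nrm_eq] at e1
    have e2 := X_anti hP (Nat.succ_le_succ hkN') hs.1
    have e3 := X_anti hP (Nat.zero_le k.1.1) hs.1
    have e4 : 0 ≤ δ' ^ 2 * s := by positivity
    exact hbad ⟨hno, by linarith [e1.1], by linarith [e1.2]⟩
  have hτk : τ = k.1 := by
    have e1 := deep_tile hP hδ' hs0 hτ
    rw [hsame.lab_eq] at e1
    exact tile_unique hP hs.1 e1 htile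
  subst hτk
  refine (hgen (3 * η3) _ fun a ha => ?_).trans (add_le_add ?_ le_rfl)
  swap
  · calc 4 * (A : ℝ≥0∞) * I * (3 * η3) * B = ((4 * A * I * 3 : ℝ≥0) : ℝ≥0∞) * η3 * B * 1 := by
          push_cast; ring
      _ ≤ _ := by gcongr
  set eR : R3 := EuclideanSpace.single (iR k.1) 1 with heR
  set S1 : Set R3 := {ξ | ‖ξ - η‖ ≤ Ls ∧ |inner ℝ e (η - a + (-1 : ℝ) • (ξ - η))| < δs} with hS1
  set S2 : Set R3 := {ξ | ‖ξ - η‖ ≤ Ls ∧ |inner ℝ eR (η - a + (1 : ℝ) • (ξ - η))| < δs} with hS2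
  have mS : ∀ (u : R3) (c : ℝ),
      MeasurableSet {ξ : R3 | ‖ξ - η‖ ≤ Ls ∧ |inner ℝ u (η - a + c • (ξ - η))| < δs} := fun u c =>
    t2_and (measurableSet_le (by fun_prop) measurable_const)
      (measurableSet_lt (by fun_prop) measurable_const)
  have m0 : MeasurableSet {ξ : R3 | L3 ≤ ‖ξ‖} := measurableSet_le measurable_const measurable_norm
  have hna := (hsupp a ha).1
  have hstr : ∀ (u : R3) (c : ℝ), (c = 1 ∨ c = -1) → min δe (min (θ / 2) 1) ≤ ‖u‖ → ‖u‖ ≤ Ls →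
      pint (η - a) η ({ξ : R3 | ‖ξ - η‖ ≤ Ls ∧ |inner ℝ u (η - a + c • (ξ - η))| < δs}.indicator
        (TL P N 1 s y)) ≤ η3 * ENNReal.ofReal (al P N s y) := fun u c hc hu1 hu2 => by
    have e1 := (hsm hP N hs y _ η (hn0 a ha) (mS u c) fun ξ hξ => by
      rw [Metric.mem_closedBall, dist_eq_norm]; exact hξ.1).1
    have e2 := hstrip (η - a) u η c hc (((min_le_right _ _).trans (min_le_left _ _)).trans hna) hu1 hu2
    have e3 : ENNReal.ofReal ((η5 : ℝ) ^ 3) ^ (1 / 3 : ℝ) = η5 := by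
      rw [ENNReal.ofReal_pow hη5'.le, ENNReal.ofReal_coe_nnreal, ← ENNReal.rpow_natCast,
        ← ENNReal.rpow_mul]
      norm_num
    calc _ ≤ Cs * ENNReal.ofReal (al P N s y) * η5 := by
          refine e1.trans ?_
          rw [← e3]
          gcongr
      _ = Cs * η5 * ENNReal.ofReal (al P N s y) := by ring
      _ ≤ _ := by gcongr
  have hpt : ∀ ξ, f s y ξ ≤ B * ({ξ : R3 | L3 ≤ ‖ξ‖}.indicator (TL P N 1 s y) ξ +
      (S1.indicator (TL P N 1 s y) ξ + S2.indicator (TL P N 1 s y) ξ)) +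
      if min 1 (δs / 2) ≤ |inner ℝ e ((2 : ℝ) • η - a - ξ)| then fG P N δ' L3 f s y ξ else 0 := by
    intro ξ
    by_cases c0 : ξ ∈ {ξ : R3 | L3 ≤ ‖ξ‖}
    · rw [indicator_of_mem c0]
      exact (hle ξ).trans (le_trans (by gcongr; exact le_self_add) le_self_add)
    by_cases c1 : ξ ∈ S1
    · rw [indicator_of_mem c1]
      exact (hle ξ).trans (le_trans (by gcongr; exact le_self_add.trans le_add_self) le_self_add)
    by_cases c2 : ξ ∈ S2
    · rw [indicator_of_mem c2]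
      exact (hle ξ).trans (le_trans (by gcongr; exact le_add_self.trans le_add_self) le_self_add)
    have d0 : ‖ξ‖ ≤ L3 := (not_le.1 c0).le
    have d1 : ‖ξ - η‖ ≤ Ls := (norm_sub_le _ _).trans (by linarith)
    have d2 : δs ≤ |inner ℝ e ((2 : ℝ) • η - a - ξ)| := by
      rw [show (2 : ℝ) • η - a - ξ = η - a + (-1 : ℝ) • (ξ - η) by module]
      exact not_lt.1 fun h => c1 ⟨d1, h⟩
    have d3 : δs ≤ |ξ (iR k.1) - a (iR k.1)| := by
      have : δs ≤ |inner ℝ eR (η - a + (1 : ℝ) • (ξ - η))| := not_lt.1 fun h => c2 ⟨d1, h⟩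
      rw [show η - a + (1 : ℝ) • (ξ - η) = ξ - a by module, heR, EuclideanSpace.inner_single_left] at this
      simpa using this
    have d4 : GoodSt P N δ' L3 s y ξ := by
      refine ⟨k.1, hτ, d0, ?_⟩
      rw [hsame.U_eq, U_sign k.1 true k.2 s (hat y) (LawA.iR_ne k.1)]
      have e1 := (hsupp a ha).2 (iR k.1)
      have e2 := abs_sub_le (ξ (iR k.1)) (U P k s (hat y) (iR k.1)) (a (iR k.1))
      rw [abs_sub_comm (U P k s (hat y) (iR k.1))] at e2
      have e3 : δ' ≤ δs / 2 := hδ''.trans (min_le_right _ _)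
      change δ' ≤ |ξ (iR k.1) - U P k s (hat y) (iR k.1)|
      linarith
    rw [if_pos ((min_le_right _ _).trans (by linarith)), fG, if_pos d4]
    exact le_add_self
  refine (pint_mono _ _ hpt).trans ?_
  have m1 : Measurable ({ξ : R3 | L3 ≤ ‖ξ‖}.indicator (TL P N 1 s y)) := mTL.indicator m0
  have m2 : Measurable (S1.indicator (TL P N 1 s y)) := mTL.indicator (mS e (-1))
  have m3 : Measurable (S2.indicator (TL P N 1 s y)) := mTL.indicator (mS eR 1)
  have m123 : Measurable fun b => {ξ : R3 | L3 ≤ ‖ξ‖}.indicator (TL P N 1 s y) b +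
      (S1.indicator (TL P N 1 s y) b + S2.indicator (TL P N 1 s y) b) := m1.add (m2.add m3)
  have mB : Measurable fun b => B * ({ξ : R3 | L3 ≤ ‖ξ‖}.indicator (TL P N 1 s y) b +
      (S1.indicator (TL P N 1 s y) b + S2.indicator (TL P N 1 s y) b)) := m123.const_mul B
  rw [pint_add _ _ mB, pint_cmul _ _ _ m123, pint_add _ _ m1, pint_add _ _ m2]
  refine add_le_add ?_ le_rfl
  have f1 : pint (η - a) η ({ξ : R3 | L3 ≤ ‖ξ‖}.indicator (TL P N 1 s y)) ≤
      η3 * ENNReal.ofReal (al P N s y) := by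
    refine (hp hP N hs y _ η L3 (hn0 a ha)).2.trans ?_
    rw [mul_right_comm]
    gcongr
    exact le_trans (by gcongr) h4
  have f2 := hstr e (-1) (Or.inr rfl) ((min_le_left _ _).trans he1)
    (he2.trans ((le_abs_self _).trans (by linarith)))
  have f3 := hstr eR 1 (Or.inl rfl)
    (((min_le_right _ _).trans (min_le_right _ _)).trans (by simp [heR])) (by simp [heR]; linarith)
  calc _ ≤ B * (η3 * ENNReal.ofReal (al P N s y) + (η3 * ENNReal.ofReal (al P N s y) +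
        η3 * ENNReal.ofReal (al P N s y))) :=
        mul_le_mul_right (add_le_add f1 (add_le_add f2 f3)) _
    _ = _ := by ring

end SecA

theorem second (m : ℕ) {ε : ℝ≥0} (hε : 0 < ε) {L2 δe Le : ℝ} (hL2 : 1 ≤ L2) (hδe : 0 < δe) :
    ∃ (δ K2 L3 w0 : ℝ) (C : ℝ≥0), 0 < δ ∧ δ ≤ 1 ∧ 1 ≤ K2 ∧ 1 ≤ L3 ∧ 0 < w0 ∧ ∀ δ', 0 < δ' → δ' ≤ δ →
    ∀ {P : Par}, P.Ok → P.m = m → P.w ≤ w0 → ∀ (N : ℕ) {T : ℝ} (F : Den) {f : Den} {B : ℝ≥0∞}, T ≤ 1 →
    MeasD f → Le1 P N B T f → ∀ {t s : ℝ} {y η : R3} {e : ℝ → R3}, 0 < s → s ≤ t → s ≤ T →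
    nrm y + s * ‖η‖ < 1 / 2 → ‖η‖ ≤ L2 → Measurable e → (∀ s' ∈ Ioo 0 s, δe ≤ ‖e s'‖ ∧ ‖e s'‖ ≤ Le) →
    KK P N F f s y η ≤ ε * B * ENNReal.ofReal t * Lam P s y η + C * B * BadT P N δ' K2 t s y η +
      H2 P N δ K2 t (fG P N δ' L3 f) e s y η := by
  have hε2 : 0 < ε / 2 := half_pos hε
  obtain ⟨δ, L3, w0, C, hδ, hδ1, hL3, hw0, hpt⟩ := SecA.pt m hε2 (Le := Le) hL2 hδe
  obtain ⟨η1, hη1, h1⟩ := SecA.small (C * 2) hε2
  have hη1' : (0 : ℝ) < η1 := hη1
  refine ⟨δ, max 1 (η1 : ℝ)⁻¹, L3, w0, C, hδ, hδ1, le_max_left _ _, hL3, hw0,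
    fun δ' hδ' hδ'' P hP hm hw N T F f B hT hf hle t s y η e hs0 hst hsT hy hη _ he => ?_⟩
  set K2 : ℝ := max 1 (η1 : ℝ)⁻¹ with hK2
  have hK0 : 0 < K2 := lt_of_lt_of_le one_pos (le_max_left _ _)
  have ht0 : 0 < t := hs0.trans_le hst
  have htK : t / K2 ≤ η1 * t := by
    rw [div_le_iff₀ hK0]
    have h2 : 1 ≤ η1 * K2 := by
      rw [← inv_mul_le_iff₀ hη1', mul_one]
      exact le_max_right _ _
    nlinarith
  set Wn : Set ℝ := Ioo (t / K2) (s - t / K2) with hWn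
  set Bd : Set ℝ := {s' ∈ Wn | BadP P N δ' s' (y - (s - s') • η)} with hBd
  set Out : Set ℝ := Ioc 0 (t / K2) ∪ Ico (s - t / K2) s with hOut
  have mOut : MeasurableSet Out := measurableSet_Ioc.union measurableSet_Ico
  have mBd : MeasurableSet Bd := measurableSet_Ioo.inter
    ((by fun_prop : Measurable fun s' : ℝ => (s', y - (s - s') • η)) (measurableSet_BadP P N δ'))
  set H : ℝ → ℝ≥0∞ := fun s' => ∫⁻ a', gs P N s' (y - (s - s') • η) a' *
    (invn (η - a') * pint (η - a') η (fun ξ => if δ ≤ |inner ℝ (e s') ((2 : ℝ) • η - a' - ξ)|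
      then fG P N δ' L3 f s' (y - (s - s') • η) ξ else 0)) with hH
  have msig : Measurable fun s' : ℝ => sig P s' (y - (s - s') • η) η :=
    measD_sig.comp measurable_id (by fun_prop) measurable_const
  have e1 : KK P N F f s y η ≤ ∫⁻ s' in Ioo 0 s,
      (((ε / 2 : ℝ≥0) : ℝ≥0∞) * B * sig P s' (y - (s - s') • η) η +
        (Out.indicator (fun _ => C * B) s' + (Bd.indicator (fun _ => C * B) s' +
          Wn.indicator (fun s' => 4 * H s') s'))) := by
    refine setLIntegral_mono' measurableSet_Ioo fun s' hs' => ?_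
    have hy' : nrm (y - (s - s') • η) < 1 / 2 := by
      rw [sub_eq_add_neg]
      refine (nrm_add_le _ _).trans_lt ?_
      rw [nrm_neg, nrm_smul, abs_of_nonneg (by linarith [hs'.2])]
      have h2 := nrm_le_norm η
      have h3 := norm_nonneg η
      have h4 : (s - s') * nrm η ≤ s * ‖η‖ :=
        (mul_le_mul_of_nonneg_left h2 (by linarith [hs'.2])).trans (by nlinarith [hs'.1])
      linarith
    obtain ⟨p1, p2⟩ := hpt δ' hδ' hδ'' hP hm hw N hs'.1 (by linarith [hs'.2]) (e := e s') hf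
      (hle s' ⟨hs'.1.le, by linarith [hs'.2]⟩ _) hy' hη (he s' hs').1 (he s' hs').2
    refine (mul_le_of_le_one_left' (Ex_le_one _ _ _ _ _)).trans ?_
    by_cases c1 : s' ∈ Wn
    · by_cases c2 : BadP P N δ' s' (y - (s - s') • η)
      · rw [indicator_of_mem (show s' ∈ Bd from ⟨c1, c2⟩)]
        exact p1.trans (add_le_add le_rfl (le_self_add.trans le_add_self))
      · rw [indicator_of_mem c1]
        exact (p2 c2).trans (add_le_add le_rfl (le_add_self.trans le_add_self))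
    · have c3 : s' ∈ Out := by
        rcases le_or_gt s' (t / K2) with h | h
        · exact Or.inl ⟨hs'.1, h⟩
        · exact Or.inr ⟨not_lt.1 fun h' => c1 ⟨h, h'⟩, hs'.2⟩
      rw [indicator_of_mem c3]
      exact p1.trans (add_le_add le_rfl le_self_add)
  rw [lintegral_add_left (msig.const_mul _), lintegral_add_left (measurable_const.indicator mOut),
    lintegral_add_left (measurable_const.indicator mBd), lintegral_const_mul _ msig] at e1
  have hL := one_le_Lam (P := P) s y η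
  have e2 : ((ε / 2 : ℝ≥0) : ℝ≥0∞) * B * ∫⁻ s' in Ioo 0 s, sig P s' (y - (s - s') • η) η ≤
      ((ε / 2 : ℝ≥0) : ℝ≥0∞) * B * ENNReal.ofReal t * Lam P s y η := by
    rw [mul_assoc _ (ENNReal.ofReal t)]
    gcongr
    exact (sig_time P hs0.le y η).trans (by gcongr)
  have e3 : ∫⁻ s' in Ioo 0 s, Out.indicator (fun _ => (C : ℝ≥0∞) * B) s' ≤
      ((ε / 2 : ℝ≥0) : ℝ≥0∞) * B * ENNReal.ofReal t * Lam P s y η := by
    refine (setLIntegral_le_lintegral _ _).trans ?_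
    rw [lintegral_indicator_const mOut]
    have h2 : volume Out ≤ 2 * (η1 * ENNReal.ofReal t) := by
      refine (measure_union_le _ _).trans ?_
      rw [Real.volume_Ioc, Real.volume_Ico, sub_zero, sub_sub_cancel, two_mul,
        ← ENNReal.ofReal_coe_nnreal, ← ENNReal.ofReal_mul hη1'.le]
      gcongr
    calc _ ≤ (C : ℝ≥0∞) * B * (2 * (η1 * ENNReal.ofReal t)) := by gcongr
      _ = ((C * 2 : ℝ≥0) : ℝ≥0∞) * η1 * B * ENNReal.ofReal t * 1 := by push_cast; ring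
      _ ≤ _ := by gcongr
  have e4 : ∫⁻ s' in Ioo 0 s, Bd.indicator (fun _ => (C : ℝ≥0∞) * B) s' ≤
      C * B * BadT P N δ' K2 t s y η := by
    refine (setLIntegral_le_lintegral _ _).trans ?_
    rw [lintegral_indicator_const mBd]
    exact le_rfl
  have e5 : ∫⁻ s' in Ioo 0 s, Wn.indicator (fun s' => 4 * H s') s' ≤
      H2 P N δ K2 t (fG P N δ' L3 f) e s y η := by
    refine (setLIntegral_le_lintegral _ _).trans ?_
    rw [lintegral_indicator measurableSet_Ioo, lintegral_const_mul' _ _ (by simp)]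
    exact le_rfl
  refine e1.trans ((add_le_add e2 (add_le_add e3 (add_le_add e4 e5))).trans (le_of_eq ?_))
  rw [← add_assoc, ← add_assoc, ← add_mul, ← add_mul, ← add_mul, ← ENNReal.coe_add, add_halves]

end Crest.Agent.R68
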