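import Crest.Agent.R68.First
import Crest.Agent.R68.Second
import Crest.Agent.R68.MainT

/-! Assembly for good targets.  Replace `x` by `hat x` (`Inv.KK`, `GT_hat`, `Th_hat`; `nrm (hat x) = dd x ≤ K t ≤ 1/4`).  Apply `first`; inside, `f ≤ S TL 1 + KK f` and `second` with `e s' = evec (bb k.1) s (s-s') v (v-a) η` (`evec_ge`, `evec_le`, `slab_gk`; `Le = (Lv+L2)(1 + 4(Lv+2)/δv)`);
`K1op_mono/add/cmul`.  The `S` term and the `ε Λ` term by `K1op_le` (`pint_TL`, `rb_al`; `pint_TL_small` second item, `rb_le_time`), then `bad_term`, `main_term` (`δ' = min δ δ0 δt`), and `Ngood` is the integral of `fG`;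
`K' = (K + L2) K2`; `t e^{-Lv} ≤ Θ_1` (`Th_one_ge`). -/

set_option autoImplicit false

open MeasureTheory Set Filter Topology Crest.AnalysisR.VecCalc3 Crest.AnalysisR.PDE.Boltzmann
open scoped ENNReal NNReal

namespace Crest.Agent.R68

theorem DF2.invn_le {δv : ℝ} (hδ : 0 < δv) {z : R3} (h : δv / 2 ≤ |z 2|) :
    z ≠ 0 ∧ invn z ≤ ENNReal.ofReal (2 / δv) := by
  have h1 : |z 2| ≤ ‖z‖ := by simpa using PiLp.norm_apply_le z 2
  have h2 : 0 < ‖z‖ := by linarith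
  refine ⟨norm_pos_iff.1 h2, ?_⟩
  rw [invn, ← ENNReal.ofReal_inv_of_pos h2]
  refine ENNReal.ofReal_le_ofReal ?_
  rw [inv_eq_one_div, div_le_div_iff₀ h2 hδ]
  linarith

theorem DF2.vol_le {a t : ℝ} (ha : 0 ≤ a) {g : ℝ → ℝ≥0∞} {c : ℝ≥0∞} {b : ℝ} (hb : b ≤ t)
    (h : ∀ s ∈ Ioo a b, g s ≤ c) : ∫⁻ s in Ioo a b, g s ≤ c * ENNReal.ofReal t := by
  refine (setLIntegral_mono' measurableSet_Ioo h).trans ?_
  rw [setLIntegral_const, Real.volume_Ioo]
  exact mul_le_mul_right (ENNReal.ofReal_le_ofReal (by linarith)) _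

theorem DF2.small {ε E c : ℝ≥0} (hE : 0 < E) : ((ε / (3 * E * (c + 1)) : ℝ≥0) : ℝ≥0∞) * c * E ≤ ε / 3 := by
  have h : (ε / (3 * E * (c + 1)) : ℝ≥0) * c * E ≤ ε / 3 := by
    rw [← NNReal.coe_le_coe]
    have h1 : (0 : ℝ) < E := hE
    have h2 := c.coe_nonneg
    have h3 := ε.coe_nonneg
    push_cast
    rw [div_mul_eq_mul_div, div_mul_eq_mul_div, div_le_div_iff₀ (by positivity) (by norm_num)]
    nlinarith [mul_nonneg h3 h1.le]
  have h' := ENNReal.coe_le_coe.2 h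
  rwa [ENNReal.coe_mul, ENNReal.coe_mul, ENNReal.coe_div (by norm_num : (3 : ℝ≥0) ≠ 0)] at h'

theorem DF2.a1 {f K L2 K2 t s : ℝ} (h : f ≤ K * t) (hK : 1 ≤ K) (hL : 1 ≤ L2) (ht : 0 < t)
    (h1 : t < s * K2) : f ≤ s * ((K + L2) * K2) := by
  nlinarith

theorem DF2.a2 {K L2 K2 t T s : ℝ} (hK : 1 ≤ K) (hL : 1 ≤ L2) (hK2 : 1 ≤ K2) (ht : 0 < t) (hT : t ≤ T)
    (h2 : s < t - t / K2) : s ≤ (1 - 1 / ((K + L2) * K2)) * T := by
  have hK20 : 0 < K2 := by linarith
  have h5 : 1 / ((K + L2) * K2) ≤ 1 / K2 :=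
    one_div_le_one_div_of_le hK20 (le_mul_of_one_le_left hK20.le (by linarith))
  have h6 : 1 / K2 ≤ 1 := by rw [div_le_one hK20]; exact hK2
  have h7 : t / K2 = t * (1 / K2) := by ring
  nlinarith

set_option maxHeartbeats 1000000 in
open Classical in
theorem df2 (m : ℕ) {ε : ℝ≥0} (hε : 0 < ε) {Lv K δv : ℝ} (hLv : 1 ≤ Lv) (hK : 1 ≤ K) (hδ0 : 0 < δv) (hδ1 : δv ≤ 1) :
    ∃ (C : ℝ≥0) (δ L3 K' w0 : ℝ), 0 < δ ∧ δ ≤ 1 ∧ 1 ≤ L3 ∧ 1 ≤ K' ∧ 0 < w0 ∧
    ∀ {P : Par}, P.Ok → P.m = m → P.eta ≤ δ → P.w ≤ w0 → ∀ (N : ℕ) {T : ℝ} {F f : Den} {B S 𝔪 : ℝ≥0∞},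
    K' * T ≤ 1 / 4 → MeasD F → MeasD f → Inv T F → Inv T f → Le1 P N B T f →
    (∀ t ∈ Icc 0 T, ∀ x v, f t x v ≤ S * TL P N 1 t x v + KK P N F f t x v) →
    (∀ s ∈ Icc (P.fl N / K') ((1 - 1 / K') * T), Ngood P N δ L3 f s (K' * s) ≤ 𝔪 * ENNReal.ofReal (s ^ 3)) →
    ∀ t ∈ Ioc 0 T, ∀ x v, GT P N Lv K δv t x v →
      KK P N F f t x v ≤ (C * S + ε * B + C * 𝔪) * Th P (P.fl N) 1 t x v := by
  have hkap := kap_pos
  have hcc := LawA.cc_pos
  set E : ℝ≥0 := (Real.exp Lv).toNNReal with hE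
  have hE0 : 0 < E := Real.toNNReal_pos.2 (Real.exp_pos _)
  obtain ⟨L2, δe, K1, δt, wa, hL2, hδe, hK1, hδt, hwa, hwa', hfirst⟩ :=
    first m (ε := ε / (3 * E * (1 + 1))) (by positivity) hLv hK hδ0 hδ1
  have hL2' : 1 ≤ L2 := hLv.trans hL2
  obtain ⟨CT, hCT⟩ := pint_TL
  obtain ⟨CL, hCL⟩ := pint_TL_small (Lv + L2)
  set C1 : ℝ≥0 := 4 * ((4 * cc * K1 / kap).toNNReal * ((2 / δv).toNNReal * CL)) with hC1
  set CS : ℝ≥0 := 4 * ((4 * cc * (4 * m) / kap).toNNReal * ((2 / δv).toNNReal * CT)) with hCS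
  obtain ⟨δ, K2, L3, wb, C2, hδ, hδ', hK2, hL3, hwb, hsecond⟩ :=
    second m (ε := ε / (3 * E * (C1 + 1))) (by positivity) (L2 := L2) (δe := δe)
      (Le := (Lv + L2) * (1 + 2 * (Lv + 2) / (δv / 2))) hL2' hδe
  obtain ⟨δ0, hδ00, hbad⟩ := bad_term (ε := ε / (3 * E * (C2 + 1))) (by positivity) hδ0 hK hK1 hK2 hL2'
  obtain ⟨C3, hmain⟩ := main_term hδ0 hδ hδt hK hK1 hK2 hL2'
  have hK' : K + L2 ≤ (K + L2) * K2 := le_mul_of_one_le_right (by linarith) hK2
  refine ⟨(CS + C3) * E, min δ (min δ0 δt), L3, (K + L2) * K2, min wa wb, by positivity,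
    (min_le_left _ _).trans hδ', hL3, by linarith, by positivity, ?_⟩
  intro P hP hm heta hw N T F f B S 𝔪 hT hF hf hIF hIf hLe hle hgood t ht x v hGT
  have ht0 := ht.1
  have hT0 : 0 < T := ht0.trans_le ht.2
  have hKt : (K + L2) * t ≤ 1 / 4 :=
    le_trans (mul_le_mul hK' ht.2 ht0.le (by linarith)) hT
  have hT1 : T ≤ 1 := by nlinarith
  have ht1 : t ≤ 1 := ht.2.trans hT1
  have hKt' : K * t ≤ 1 / 4 := by nlinarith
  have hwv : P.w ≤ δv / 2 := (hw.trans (min_le_left _ _)).trans hwa'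
  rw [hIF.KK hIf N t ⟨ht0.le, ht.2⟩ x v, ← Th_hat]
  rw [← GT_hat] at hGT
  have hx0 : dd (hat x) = nrm (hat x) := dd_hat x
  generalize hat x = x at hGT hx0 ⊢
  have hfl := fl_pos hP N
  have hLt : 0 ≤ P.L * t := mul_nonneg (by linarith [L_ge hP]) ht0.le
  have hvt : 0 ≤ t * ‖v‖ := by positivity
  have hom := hGT.2.1
  unfold om at hom
  have hdd := dd_nonneg x
  have hx1 : nrm x + t * ‖v‖ ≤ K * t := by linarith
  have hfl' : P.fl N ≤ K * t := by linarith
  have hx2 : nrm x + t * ‖v‖ < 1 / 2 := by linarith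
  have hv := hGT.1
  have hsl := hGT.2.2
  have hs01 : ∀ {s}, s ∈ Ioo (t / K1) t → 0 < s ∧ s ∈ Icc (0 : ℝ) 1 := fun {s} hs =>
    have h := (div_pos ht0 (by linarith)).trans hs.1
    ⟨h, h.le, hs.2.le.trans ht1⟩
  have mTL : Measurable fun q : ℝ × R3 × R3 => TL P N 1 q.1 (x - (t - q.1) • v) q.2.2 :=
    (measD_TL N 1).comp (by fun_prop) (by fun_prop) (by fun_prop)
  have mS : MeasurableSet {q : ℝ × R3 × R3 | ‖q.2.2‖ ≤ L2} :=
    measurableSet_le measurable_snd.snd.norm measurable_const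
  have mL : Measurable fun q : ℝ × R3 × R3 =>
      if ‖q.2.2‖ ≤ L2 then Lam P q.1 (x - (t - q.1) • v) q.2.2 else 0 :=
    Measurable.ite mS (measD_Lam.comp (by fun_prop) (by fun_prop) (by fun_prop)) measurable_const
  have mB : Measurable fun q : ℝ × R3 × R3 => if ‖q.2.2‖ ≤ L2 then
      BadT P N (min δ (min δ0 δt)) K2 t q.1 (x - (t - q.1) • v) q.2.2 else 0 :=
    Measurable.ite mS ((measD_BadT N _ K2 t).comp (by fun_prop) (by fun_prop) (by fun_prop))
      measurable_const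
  -- the four terms
  have tS : K1op P N δt K K1 t x v (fun _ s _ η => TL P N 1 s (x - (t - s) • v) η) ≤
      CS * ENNReal.ofReal t := by
    refine (K1op_le hP hK1 ht0 ht1 hwv hsl hx2 (c := fun s => ENNReal.ofReal (2 / δv) *
      (CT * ENNReal.ofReal (al P N s (x - (t - s) • v)))) fun k s a hs ha => ?_).trans ?_
    · obtain ⟨h1, h2⟩ := DF2.invn_le hδ0 (slab_gk hP hwv hsl (hs01 hs).2 ha).1
      exact mul_le_mul' h2 (hCT hP N (hs01 hs).2 _ _ _ 0 h1).1
    · rw [hCS, ENNReal.coe_mul, mul_assoc]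
      refine mul_le_mul_right (DF2.vol_le (by positivity) le_rfl fun s hs => ?_) _
      have h1 := rb_al hP N (hs01 hs).1.le (x - (t - s) • v)
      rw [Par.L, hm] at h1
      calc _ = rb P N s (x - (t - s) • v) * ENNReal.ofReal (al P N s (x - (t - s) • v)) *
            (ENNReal.ofReal (2 / δv) * CT) := by ring
        _ ≤ _ := mul_le_mul_left h1 _
  have tL : K1op P N δt K K1 t x v
      (fun _ s _ η => if ‖η‖ ≤ L2 then Lam P s (x - (t - s) • v) η else 0) ≤ C1 := by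
    refine (K1op_le hP hK1 ht0 ht1 hwv hsl hx2 (c := fun _ => ENNReal.ofReal (2 / δv) * CL)
      fun k s a hs ha => ?_).trans ?_
    · obtain ⟨h1, h2⟩ := DF2.invn_le hδ0 (slab_gk hP hwv hsl (hs01 hs).2 ha).1
      refine mul_le_mul' h2 (le_trans (pint_mono _ _ fun η => ?_) (hCL hP N (hs01 hs).2
        (x - (t - s) • v) _ v h1 (S := {η | ‖η‖ ≤ L2})
        (measurableSet_le measurable_norm measurable_const) fun η hη => ?_).2)
      · simp only [indicator, mem_ofPred_eq, le_refl]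
      · rw [mem_closedBall_iff_norm]
        exact (norm_sub_le _ _).trans (by have : ‖η‖ ≤ L2 := hη; linarith)
    · rw [hC1, ENNReal.coe_mul]
      refine mul_le_mul_right ((DF2.vol_le (c := ENNReal.ofReal (4 * cc * K1 / kap / t) *
        (ENNReal.ofReal (2 / δv) * CL)) (by positivity) le_rfl fun s hs => ?_).trans (le_of_eq ?_)) _
      · refine mul_le_mul_left ((rb_le_time hP N (hs01 hs).1 _).trans (ENNReal.ofReal_le_ofReal ?_)) _
        have h1 := hs.1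
        have h2 := (hs01 hs).1
        rw [div_lt_iff₀ (by linarith)] at h1
        rw [div_div, div_le_div_iff₀ (by positivity) (by positivity)]
        nlinarith [mul_pos hcc hkap]
      · rw [mul_right_comm, ← ENNReal.ofReal_mul (by positivity), div_mul_cancel₀ _ ht0.ne']
        rfl
  have tB := hbad (min δ (min δ0 δt)) (by positivity) ((min_le_right _ _).trans (min_le_left _ _)) hP heta
    hwv N δt ht0 hKt' hsl hx1
  have tM : K1op P N δt K K1 t x v (fun k s a η => if ‖η‖ ≤ L2 then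
      H2 P N δ K2 t (fG P N (min δ (min δ0 δt)) L3 f)
        (fun s' => evec (bb P k.1) s (s - s') v (v - a) η) s (x - (t - s) • v) η else 0) ≤
      C3 * 𝔪 * ENNReal.ofReal t := by
    refine (hmain hP hwv N (measD_fG N _ L3 hf) ht0 ht1
      (fun s hs => sameInv_fG N _ L3 hIf ⟨hs.1, hs.2.trans ht.2⟩) hsl hx1).trans ?_
    have hK20 : 0 < K2 := by linarith
    have h1 := DF2.vol_le (a := t / K2) (t := t) (b := t - t / K2) (c := 𝔪 * ENNReal.ofReal (t ^ 3))
      (g := fun s' => ∫⁻ y in Metric.closedBall (0 : ℝ × ℝ) ((K + L2) * t), ∫⁻ ξ,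
        fG P N (min δ (min δ0 δt)) L3 f s' (lift y) ξ) (by positivity)
      (sub_le_self _ (by positivity)) fun s hs => by
        have h1 := hs.1
        have h2 := hs.2
        have h3 : 0 < s := (div_pos ht0 hK20).trans h1
        have h4 : 0 < t / K2 := by positivity
        rw [div_lt_iff₀ hK20] at h1
        refine le_trans (lintegral_mono_set (Metric.closedBall_subset_closedBall
          (show (K + L2) * t ≤ (K + L2) * K2 * s by
            rw [mul_assoc, mul_comm K2]; exact mul_le_mul_of_nonneg_left h1.le (by linarith)))) ((hgood s ⟨?_, ?_⟩).trans ?_)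
        · rw [div_le_iff₀ (by positivity)]
          exact DF2.a1 hfl' hK hL2' ht0 h1
        · exact DF2.a2 hK hL2' hK2 ht0 ht.2 h2
        · exact mul_le_mul_right (ENNReal.ofReal_le_ofReal (pow_le_pow_left₀ h3.le (by linarith) 3)) _
    refine (mul_le_mul_right h1 _).trans (le_of_eq ?_)
    have h2 : ENNReal.ofReal (1 / t ^ 3) * ENNReal.ofReal (t ^ 3) = 1 := by
      rw [← ENNReal.ofReal_mul (by positivity), one_div_mul_cancel (by positivity), ENNReal.ofReal_one]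
    calc _ = C3 * 𝔪 * ENNReal.ofReal t * (ENNReal.ofReal (1 / t ^ 3) * ENNReal.ofReal (t ^ 3)) := by ring
      _ = _ := by rw [h2, mul_one]
  have tK : K1op P N δt K K1 t x v
      (fun _ s _ η => if ‖η‖ ≤ L2 ∧ δe ≤ nrm (v - η) then f s (x - (t - s) • v) η else 0) ≤
      S * (CS * ENNReal.ofReal t) + (((ε / (3 * E * (C1 + 1)) : ℝ≥0) * B * ENNReal.ofReal t) * C1 +
        ((C2 * B) * ((ε / (3 * E * (C2 + 1)) : ℝ≥0) * ENNReal.ofReal t) + C3 * 𝔪 * ENNReal.ofReal t)) := by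
    refine le_trans (K1op_mono (H' := fun k s a η => S * TL P N 1 s (x - (t - s) • v) η +
      (((ε / (3 * E * (C1 + 1)) : ℝ≥0) * B * ENNReal.ofReal t) *
        (if ‖η‖ ≤ L2 then Lam P s (x - (t - s) • v) η else 0) +
      ((C2 * B) * (if ‖η‖ ≤ L2 then BadT P N (min δ (min δ0 δt)) K2 t s (x - (t - s) • v) η else 0) +
      (if ‖η‖ ≤ L2 then H2 P N δ K2 t (fG P N (min δ (min δ0 δt)) L3 f)
        (fun s' => evec (bb P k.1) s (s - s') v (v - a) η) s (x - (t - s) • v) η else 0))))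
      fun k s a η hs ha => ?_) ?_
    · by_cases hc : ‖η‖ ≤ L2 ∧ δe ≤ nrm (v - η)
      swap
      · rw [if_neg hc]; exact zero_le
      rw [if_pos hc, if_pos hc.1, if_pos hc.1, if_pos hc.1, ← add_assoc _ (C2 * B * _)]
      obtain ⟨hs0, hs1⟩ := hs01 hs
      obtain ⟨ha1, ha2⟩ := slab_gk hP hwv hsl hs1 ha
      refine (hle s ⟨hs0.le, hs.2.le.trans ht.2⟩ _ _).trans (add_le_add le_rfl ?_)
      refine hsecond _ (by positivity) (min_le_left _ _) hP hm (hw.trans (min_le_right _ _)) N F hT1 hf hLe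
        hs0 hs.2.le (hs.2.le.trans ht.2) ?_ hc.1 ?_ fun s' hs' => ⟨hc.2.trans (evec_ge _ _ _ _ _ _), ?_⟩
      · have h1 := nrm_add_le x (-((t - s) • v))
        rw [nrm_neg, nrm_smul, abs_of_pos (sub_pos.2 hs.2), ← sub_eq_add_neg] at h1
        have h2 := mul_le_mul (sub_le_self t hs0.le) (nrm_le_norm v)
          ((abs_nonneg _).trans (le_max_left _ _)) ht0.le
        have h3 := mul_le_mul hs.2.le hc.1 (norm_nonneg _) ht0.le
        linarith
      · exact (measurable_evec (bb P k.1)).comp (f := fun s' : ℝ => (s, s - s', v, v - a, η)) (by fun_prop)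
      · refine (evec_le (bb_nonneg hP k.1) (sub_nonneg.2 hs'.2.le) (sub_le_self _ hs'.1.le)
          (half_pos hδ0) v (v - a) η ha1).trans ?_
        have h1 : ‖v - η‖ ≤ Lv + L2 := (norm_sub_le _ _).trans (add_le_add hv hc.1)
        have h2 : ‖v - a‖ ≤ Lv + 2 := (norm_sub_le _ _).trans (add_le_add hv ha2)
        gcongr
    · rw [K1op_add (fun _ => mTL.const_mul _), K1op_add (fun _ => mL.const_mul _),
        K1op_add (fun _ => mB.const_mul _), K1op_cmul (fun _ => mTL), K1op_cmul (fun _ => mL),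
        K1op_cmul (fun _ => mB)]
      exact add_le_add (mul_le_mul_right tS _) (add_le_add (mul_le_mul_right tL _)
        (add_le_add (mul_le_mul_right tB _) tM))
  have hfi := hfirst hP hm (heta.trans ((min_le_right _ _).trans (min_le_right _ _)))
    (hw.trans (min_le_left _ _)) N F hf hLe ht0 ht.2 hKt' (by linarith) hGT
  have hTh : ENNReal.ofReal t ≤ E * Th P (P.fl N) 1 t x v := by
    refine le_trans (le_of_eq ?_) (mul_le_mul_right (Th_one_ge hP N ht0.le x hv) _)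
    change _ = ENNReal.ofReal (Real.exp Lv) * _
    rw [← ENNReal.ofReal_mul (Real.exp_pos _).le, mul_left_comm, ← Real.exp_add]
    simp
  have s1 := DF2.small (ε := ε) (c := 1) hE0
  have s2 := DF2.small (ε := ε) (c := C1) hE0
  have s3 := DF2.small (ε := ε) (c := C2) hE0
  refine (hfi.trans (add_le_add le_rfl tK)).trans ?_
  calc _ = (CS * S + C3 * 𝔪 + (((ε / (3 * E * (1 + 1)) : ℝ≥0) * (1 : ℝ≥0) + (ε / (3 * E * (C1 + 1)) : ℝ≥0) * C1 +
          (ε / (3 * E * (C2 + 1)) : ℝ≥0) * C2) * B)) * ENNReal.ofReal t := by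
        rw [ENNReal.coe_one]; ring
    _ ≤ (CS * S + C3 * 𝔪 + (((ε / (3 * E * (1 + 1)) : ℝ≥0) * (1 : ℝ≥0) + (ε / (3 * E * (C1 + 1)) : ℝ≥0) * C1 +
          (ε / (3 * E * (C2 + 1)) : ℝ≥0) * C2) * B)) * (E * Th P (P.fl N) 1 t x v) := mul_le_mul_right hTh _
    _ = (CS * E * S + (((ε / (3 * E * (1 + 1)) : ℝ≥0) * (1 : ℝ≥0) * E + (ε / (3 * E * (C1 + 1)) : ℝ≥0) * C1 * E +
          (ε / (3 * E * (C2 + 1)) : ℝ≥0) * C2 * E) * B) + C3 * E * 𝔪) * Th P (P.fl N) 1 t x v := by ring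
    _ ≤ _ := by
        refine mul_le_mul_left (add_le_add (add_le_add (mul_le_mul_left ?_ _) (mul_le_mul_left ?_ _))
          (mul_le_mul_left ?_ _)) _
        · push_cast; gcongr; exact le_self_add
        · exact (add_le_add (add_le_add s1 s2) s3).trans (le_of_eq (ENNReal.add_thirds _))
        · push_cast; gcongr; exact le_add_self

end Crest.Agent.R68
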