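import Mathlib
import Crest.Prelude.Def_VecCalc3
import Crest.Prelude.Def_HardSphereBoltzmann

/-! # Row 68 (S0091): definitions.

Plan (see `Crest/Agent/R68/Plan.lean` for the whole proof).  All densities are `ℝ≥0∞`-valued. -/

set_option autoImplicit false

open MeasureTheory Set Crest.AnalysisR.VecCalc3 Crest.AnalysisR.PDE.Boltzmann
open scoped ENNReal NNReal

namespace Crest.Agent.R68

noncomputable section

/-! ## Part A: collision operators, plane integrals -/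

/-- time dependent densities -/
abbrev Den : Type := ℝ → R3 → R3 → ℝ≥0∞

/-- joint measurability of a density -/
def MeasD (F : Den) : Prop := Measurable (fun p : ℝ × R3 × R3 => F p.1 p.2.1 p.2.2)

/-- joint measurability of a datum -/
def Meas2 (F : R3 → R3 → ℝ≥0∞) : Prop := Measurable (fun q : R3 × R3 => F q.1 q.2)

/-- bilinear gain term -/
def Qp (f h : R3 → ℝ≥0∞) (v : R3) : ℝ≥0∞ :=
  ∫⁻ vs, ∫⁻ w, ENNReal.ofReal |inner ℝ (v - vs) w| * f (postVel v vs w) * h (postVelStar v vs w)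
    ∂sphereMeasure

/-- collision frequency -/
def nu (f : R3 → ℝ≥0∞) (v : R3) : ℝ≥0∞ :=
  ∫⁻ vs, ENNReal.ofReal (2 * Real.pi * ‖v - vs‖) * f vs

/-- `exp (-a)` on `ℝ≥0∞` -/
def expNeg (a : ℝ≥0∞) : ℝ≥0∞ := if a = ⊤ then 0 else ENNReal.ofReal (Real.exp (-a.toReal))

/-- survival factor between times `s ≤ t` along the characteristic that is at `x` at time `t` -/
def Ex (F : Den) (s t : ℝ) (x v : R3) : ℝ≥0∞ :=
  expNeg (∫⁻ σ in Ioo s t, nu (F σ (x - (t - σ) • v)) v)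

/-- exponential weight -/
def W (lam : ℝ) (v : R3) : ℝ≥0∞ := ENNReal.ofReal (Real.exp (-(lam * ‖v‖)))

/-- `‖z‖⁻¹` in `ℝ≥0∞` (it is `⊤` at `z = 0`) -/
def invn (z : R3) : ℝ≥0∞ := (ENNReal.ofReal ‖z‖)⁻¹

/-- integral of `f` over the plane through `z` orthogonal to `n` (for `n ≠ 0`), written as a
jointly measurable expression: integrate over the slab `0 ≤ ⟪q, n̂⟫ ≤ 1` the function `f` at the
projection of `q`. -/
def pint (n z : R3) (f : R3 → ℝ≥0∞) : ℝ≥0∞ :=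
  ∫⁻ q : R3, (Icc (0 : ℝ) 1).indicator (fun _ => (1 : ℝ≥0∞)) (inner ℝ q (‖n‖⁻¹ • n)) *
    f (z + (q - (inner ℝ q (‖n‖⁻¹ • n)) • (‖n‖⁻¹ • n)))

/-- uniformly local plane bound: the integral of `f` over any unit disc centred at `q` is at most
`φ ‖q‖` -/
def PB (f : R3 → ℝ≥0∞) (φ : ℝ → ℝ≥0∞) : Prop :=
  ∀ n q : R3, n ≠ 0 → pint n q ((Metric.ball q 1).indicator f) ≤ φ ‖q‖

/-- `Φ` is monotone and grows at most like `exp (lam * y / 2)` -/
def Slow (lam : ℝ) (Φ : ℝ → ℝ≥0∞) : Prop :=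
  Monotone Φ ∧ ∀ x y : ℝ, 0 ≤ x → x ≤ y → Φ y ≤ Φ x * ENNReal.ofReal (Real.exp (lam * (y - x) / 2))

/-- `exp (-lam y)` -/
def ew (lam y : ℝ) : ℝ≥0∞ := ENNReal.ofReal (Real.exp (-(lam * y)))

/-- the point of `R3` whose `i`-th coordinate is `c` and whose two other coordinates are `u` -/
def ins (i : Fin 3) (c : ℝ) (u : ℝ × ℝ) : R3 :=
  WithLp.toLp 2 (fun j => if j = i then c else if j = i + 1 then u.1 else u.2)

/-- anisotropic Gaussian beam carried by the affine flow with rates `b`, offsets `p`, widths `μ`;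
its velocity integral is `ρ π^{3/2}` -/
def beam (ρ : ℝ≥0∞) (b p μ : Fin 3 → ℝ) (s : ℝ) (y a : R3) : ℝ≥0∞ :=
  ρ * ENNReal.ofReal ((∏ i, (1 + b i * s) / μ i) *
    Real.exp (-∑ i, ((a i * (1 + b i * s) - p i - b i * y i) / μ i) ^ 2))

/-- approximate delta function -/
def dl (ε x : ℝ) : ℝ≥0∞ := if |x| ≤ ε then ENNReal.ofReal (1 / (2 * ε)) else 0

/-- the Maxwellian in `ℝ≥0∞` -/
def MM (v : R3) : ℝ≥0∞ := ENNReal.ofReal (maxwellian v)

/-! ## Mild solutions -/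

/-- mild solution in exponential form on `[0,T]`, the identity holding everywhere -/
def Mild (F0 : R3 → R3 → ℝ≥0∞) (T : ℝ) (F : Den) : Prop :=
  MeasD F ∧ ∀ t ∈ Icc 0 T, ∀ x v : R3,
    F t x v = F0 (x - t • v) v * Ex F 0 t x v +
      ∫⁻ s in Ioo 0 t, Ex F s t x v * Qp (F s (x - (t - s) • v)) (F s (x - (t - s) • v)) v

/-- `F ≤ K W_lam` on `[0,T]` -/
def Bd (lam : ℝ) (K : ℝ≥0∞) (T : ℝ) (F : Den) : Prop :=
  ∀ t ∈ Icc 0 T, ∀ x v : R3, F t x v ≤ K * W lam v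

/-- bounded mild solution -/
structure Sol (F0 : R3 → R3 → ℝ≥0∞) (T : ℝ) (F : Den) : Prop where
  mild : Mild F0 T F
  bdd : ∃ K : ℝ≥0, Bd (1 / 2) K T F

/-- real-valued version -/
def toR (F : Den) : ℝ → R3 → R3 → ℝ := fun t x v => (F t x v).toReal

/-- real-valued version of a datum -/
def toR2 (F : R3 → R3 → ℝ≥0∞) : R3 → R3 → ℝ := fun x v => (F x v).toReal

/-- `ℝ≥0∞`-valued version of a real density -/
def ofR (F : ℝ → R3 → R3 → ℝ) : Den := fun t x v => ENNReal.ofReal (F t x v)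

/-- collision term -/
def Src (F : ℝ → R3 → R3 → ℝ) (s : ℝ) (x v : R3) : ℝ :=
  (collGain F s x v).toReal - (collLoss F s x v).toReal

/-- mild solution in plain form, for every time and almost every `(x,v)` -/
def PlainMild (F0 : R3 → R3 → ℝ) (T : ℝ) (F : ℝ → R3 → R3 → ℝ) : Prop :=
  ∀ t ∈ Icc 0 T, ∀ᵐ q : R3 × R3,
    F t q.1 q.2 = F0 (q.1 - t • q.2) q.2 + ∫ s in Ioo 0 t, Src F s (q.1 - (t - s) • q.2) q.2

/-- `log⁺` -/
def lp (a : ℝ≥0∞) : ℝ≥0∞ := ENNReal.ofReal (Real.log a.toReal)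

/-- polynomial weight -/
def pw (k : ℕ) (v : R3) : ℝ≥0∞ := ENNReal.ofReal ((1 + ‖v‖) ^ k)

/-- admissible majorant on `[0,T]` -/
structure Major (𝓜 : Den) (T : ℝ) : Prop where
  meas : MeasD 𝓜
  per : ∀ t v, IsPeriodic3 (fun x => 𝓜 t x v)
  m1 : ∃ C : ℝ≥0∞, C < ⊤ ∧ ∀ t ∈ Icc 0 T,
    ∫⁻ q in cell ×ˢ (univ : Set R3), 𝓜 t q.1 q.2 * (pw 2 q.2 + lp (𝓜 t q.1 q.2)) ≤ C
  m2 : ∀ k : ℕ, ∫⁻ p in Ioo 0 T ×ˢ (cell ×ˢ (univ : Set R3)),
    𝓜 p.1 p.2.1 p.2.2 * (pw k p.2.2 * (1 + lp (𝓜 p.1 p.2.1 p.2.2))) *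
      nu (fun vs => 𝓜 p.1 p.2.1 vs * pw k vs) p.2.2 < ⊤

/-- plain mild solution under an admissible majorant -/
structure Good (F0 : R3 → R3 → ℝ) (T : ℝ) (F : ℝ → R3 → R3 → ℝ) (𝓜 : Den) : Prop where
  meas : Measurable (fun p : ℝ × R3 × R3 => F p.1 p.2.1 p.2.2)
  nonneg : ∀ t x v, 0 ≤ t → 0 ≤ F t x v
  per : ∀ t ∈ Icc 0 T, ∀ v, IsPeriodic3 (fun x => F t x v)
  init : ∀ x v, F 0 x v = F0 x v
  plain : PlainMild F0 T F
  major : Major 𝓜 T
  le : ∀ t ∈ Icc 0 T, ∀ᵐ q : R3 × R3, ENNReal.ofReal (F t q.1 q.2) ≤ 𝓜 t q.1 q.2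

/-! ## Part C: the cold background -/

/-- optical depth -/
def cc : ℝ := 10000
/-- outflow speed -/
def kap : ℝ := 1 / 10 ^ 7
/-- threshold of the productive velocities -/
def DD : ℝ := 1 / 1000

/-- parameters of the construction -/
structure Par where
  m : ℕ
  M : ℕ
  eta : ℝ
  r : ℝ
  w : ℝ
  a : ℝ
  R : ℝ

/-- standing assumptions -/
structure Par.Ok (P : Par) : Prop where
  m1 : 1 ≤ P.m
  M1 : 1 ≤ P.M
  eta0 : 0 < P.eta
  eta1 : P.eta ≤ kap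
  r0 : 0 < P.r
  r1 : P.r ≤ 1 / 100
  w0 : 0 < P.w
  w1 : P.w ≤ 1 / 10 ^ 30
  a0 : 4 * P.r ≤ P.a
  a1 : P.a ≤ 1 / 4
  R1 : 4 ≤ P.R

namespace Par
variable (P : Par)
/-- `L = 4m` -/
def L : ℝ := 4 * P.m
/-- radii of the levels -/
def rr (n : ℕ) : ℝ := P.r / 4 ^ n
/-- extra radial speeds -/
def et (n : ℕ) : ℝ := P.eta / 2 ^ n
/-- period of the layers at level `n` -/
def per (n : ℕ) : ℝ := 3 * P.rr (n + 1) / P.M
/-- velocity width at level `n` -/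
def ww (n : ℕ) : ℝ := P.w * (P.per n / 16) ^ 4
/-- position at time `s` of the outer boundary of level `n` -/
def X (n : ℕ) (s : ℝ) : ℝ := P.rr n + (kap + P.et n) * s
/-- the floor scale of the truncation at level `N` -/
def fl (N : ℕ) : ℝ := P.rr (N + 1) / kap
end Par

/-- tiles: level, side (the radial coordinate), orientation -/
abbrev Tile : Type := ℕ × Fin 2 × Bool
/-- beams: a tile and the sign of the axial velocity -/
abbrev Bm : Type := Tile × Bool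

/-- sign -/
def sg (o : Bool) : ℝ := if o then 1 else -1
/-- radial coordinate of a tile -/
def iR (τ : Tile) : Fin 3 := τ.2.1.castSucc
/-- tangential coordinate of a tile -/
def iT (τ : Tile) : Fin 3 := τ.2.1.rev.castSucc
/-- level whose outer boundary bounds the tile tangentially -/
def nT (τ : Tile) : ℕ := τ.1 + τ.2.1.val

/-- expansion rates -/
def bb (P : Par) (τ : Tile) (j : Fin 3) : ℝ :=
  if j = iR τ then 2 * P.et τ.1 / (3 * P.rr τ.1)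
  else if j = iT τ then (kap + P.et (nT τ)) / P.rr (nT τ) else 0

/-- offsets -/
def pp (P : Par) (k : Bm) (j : Fin 3) : ℝ :=
  if j = iR k.1 then sg k.1.2.2 * (kap + P.et k.1.1 / 3) else if j = 2 then sg k.2 else 0

/-- velocity field of beam `k` at time `s` (affine, defined everywhere) -/
def U (P : Par) (k : Bm) (s : ℝ) (y : R3) : R3 :=
  WithLp.toLp 2 (fun j => (pp P k j + bb P k.1 j * y j) / (1 + bb P k.1 j * s))

/-- Lagrangian label (radial, tangential) of the point `y` at time `s` for the flow of `τ` -/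
def lab (P : Par) (τ : Tile) (s : ℝ) (y : R3) : ℝ × ℝ :=
  (sg τ.2.2 * (y (iR τ) - s * pp P (τ, true) (iR τ)) / (1 + bb P τ (iR τ) * s),
    y (iT τ) / (1 + bb P τ (iT τ) * s))

/-- label rectangle of a tile -/
def tileL (P : Par) (τ : Tile) : Set (ℝ × ℝ) :=
  Ioo (P.rr (τ.1 + 1)) (P.rr τ.1) ×ˢ Ioo (-P.rr (nT τ)) (P.rr (nT τ))

/-- start of the phase window of the layers of sign `ε` -/
def lo (ε : Bool) : ℝ := if ε then 1 / 8 else 5 / 8

/-- labels occupied by beam `k` -/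
def layer (P : Par) (k : Bm) : Set (ℝ × ℝ) :=
  {z | P.rr (k.1.1 + 1) ≤ z.1 ∧ z.1 ≤ P.rr k.1.1 ∧
    Int.fract ((z.1 - P.rr (k.1.1 + 1)) / P.per k.1.1) ∈ Icc (lo k.2) (lo k.2 + 1 / 4) ∧
    |z.2| ≤ P.rr (nT k.1) - P.per k.1.1 / 8}

/-- (sup-norm) distance of the label to the layers of beam `k` -/
def dS (P : Par) (k : Bm) (s : ℝ) (y : R3) : ℝ := Metric.infDist (lab P k.1 s y) (layer P k)

/-- `y` lies in the core of beam `k` at time `s` -/
def InCore (P : Par) (k : Bm) (s : ℝ) (y : R3) : Prop := dS P k s y < P.per k.1.1 / 16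

open Classical in
/-- freely transported cold beam (central copy) -/
def gk (P : Par) (k : Bm) (s : ℝ) (y v : R3) : ℝ≥0∞ :=
  if lab P k.1 0 (y - s • v) ∈ layer P k ∧ ∀ j, |v j - U P k 0 (y - s • v) j| ≤ P.ww k.1.1
  then ENNReal.ofReal (cc / (P.rr k.1.1 * (2 * P.ww k.1.1) ^ 3)) else 0

/-- Maxwellian majorant of the cold particles of beam `k` -/
def Ck (P : Par) (k : Bm) (s : ℝ) (y v : R3) : ℝ≥0∞ :=
  ENNReal.ofReal (cc / (P.rr k.1.1 * P.ww k.1.1 ^ 3) *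
    Real.exp (-((2 - s) * ‖v - U P k s y‖ ^ 2 / P.ww k.1.1 ^ 2) -
      dS P k s y / (Real.sqrt (P.ww k.1.1) * Real.sqrt s)))

open Classical in
/-- small multiple of `Ck`, cut off in velocity -/
def Cke (P : Par) (k : Bm) (s : ℝ) (y v : R3) : ℝ≥0∞ :=
  if ‖v - U P k s y‖ ≤ kap then ENNReal.ofReal (Real.sqrt (P.ww k.1.1)) * Ck P k s y v else 0

/-- representative of `x` in the centred cell, third coordinate dropped -/
def hat (x : R3) : R3 := WithLp.toLp 2 ![x 0 - round (x 0), x 1 - round (x 1), 0]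
/-- sup norm of the two first coordinates -/
def nrm (y : R3) : ℝ := max |y 0| |y 1|
/-- distance to the axes lattice -/
def dd (x : R3) : ℝ := nrm (hat x)
/-- lift of a transversal position -/
def lift (y : ℝ × ℝ) : R3 := WithLp.toLp 2 ![y.1, y.2, 0]

open Classical in
/-- cold datum, levels `≤ N` -/
def g0 (P : Par) (N : ℕ∞) (x v : R3) : ℝ≥0∞ :=
  ∑' k : Bm, if (k.1.1 : ℕ∞) ≤ N then gk P k 0 (hat x) v else 0

/-- freely transported cold datum -/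
def gs (P : Par) (N : ℕ∞) : Den := fun t x v => g0 P N (x - t • v) v

open Classical in
/-- the part of the cold majorant that bounds the products of cold-cold collisions -/
def GC (P : Par) (N : ℕ∞) : Den := fun t x v =>
  ∑' k : Bm, if (k.1.1 : ℕ∞) ≤ N ∧ InCore P k t (hat x) then Cke P k t (hat x) v else 0

/-- cold majorant -/
def G (P : Par) (N : ℕ∞) : Den := fun t x v => gs P N t x v + GC P N t x v

/-- bound for the density of `G` (floor `r_{N+1}`) -/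
def rb (P : Par) (N : ℕ) (s : ℝ) (x : R3) : ℝ≥0∞ :=
  ENNReal.ofReal (4 * cc / (kap * s + dd x + P.rr (N + 1)))

/-- singular centres attached to a tile -/
def ctr (P : Par) (τ : Tile) (χ : Fin 2 → Fin 3) (ε : Bool) (s : ℝ) (y : R3) : R3 :=
  WithLp.toLp 2 (fun j : Fin 3 =>
    if h : j.val < 2 then
      (if χ ⟨j.val, h⟩ = 0 then U P (τ, ε) s y j else if χ ⟨j.val, h⟩ = 1 then kap else -kap)
    else sg ε)

open Classical in
/-- singular weight at a fixed time -/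
def sig (P : Par) : Den := fun s x v =>
  1 + ∑' τ : Tile, if lab P τ s (hat x) ∈ tileL P τ then
    ∑ χ : Fin 2 → Fin 3, ∑ ε : Bool, invn (v - ctr P τ χ ε s (hat x)) ^ (5 / 4 : ℝ) else 0

/-- singular weight: `1 +` the `L^{3/2}` time average of `sig` along the characteristic -/
def Lam (P : Par) : Den := fun t x v =>
  1 + (ENNReal.ofReal t⁻¹ * ∫⁻ s in Ioo 0 t, sig P s (x - (t - s) • v) v ^ (3 / 2 : ℝ)) ^ (2 / 3 : ℝ)

/-- scale function, nondecreasing along characteristics -/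
def om (P : Par) (ϱ t : ℝ) (x v : R3) : ℝ := P.L * t + dd x + 2 * t * ‖v‖ + ϱ

/-- weights `ω^j e^{-|v|}` -/
def Th (P : Par) (ϱ : ℝ) (j : ℕ) : Den := fun t x v =>
  ENNReal.ofReal (om P ϱ t x v ^ j * Real.exp (-‖v‖))

open Classical in
/-- the Maxwellian gas outside the hole -/
def gas (P : Par) (x v : R3) : ℝ≥0∞ := if P.a ≤ dd x ∧ ‖v‖ < P.R then MM v else 0

open Classical in
/-- seeds at the floor scale -/
def seed (P : Par) (N : ℕ) (x v : R3) : ℝ≥0∞ :=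
  if dd x ≤ P.fl N ∧ ‖v - EuclideanSpace.single 0 1‖ ≤ 1 / 2 then 1 else 0

/-- data of the approximate solutions -/
def F0 (P : Par) (N : ℕ) (σ : ℝ≥0) (x v : R3) : ℝ≥0∞ :=
  g0 P N x v + gas P x v + σ * seed P N x v

/-- the datum -/
def F0lim (P : Par) (x v : R3) : ℝ≥0∞ := g0 P ⊤ x v + gas P x v

/-! ## Part D: the instability -/

/-- hot part -/
def hot (P : Par) (N : ℕ) (F : Den) : Den := fun t x v => F t x v - G P N t x v

/-- linear gain operator on the cold background -/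
def KK (P : Par) (N : ℕ) (F f : Den) : Den := fun t x v =>
  ∫⁻ s in Ioo 0 t, Ex F s t x v *
    (2 * Qp (G P N s (x - (t - s) • v)) (f s (x - (t - s) • v)) v)

/-- quadratic gain of the hot part -/
def NL (f : Den) : Den := fun t x v =>
  ∫⁻ s in Ioo 0 t, Qp (f s (x - (t - s) • v)) (f s (x - (t - s) • v)) v

open Classical in
/-- productive velocities -/
def chi (v : R3) : ℝ≥0∞ := if DD ≤ nrm v then 1 else 0

/-- productive mass in the square of radius `ρ` -/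
def Nf (F : Den) (t ρ : ℝ) : ℝ≥0∞ :=
  ∫⁻ y in Metric.closedBall (0 : ℝ × ℝ) ρ, ∫⁻ v, F t (lift y) v * chi v

/-- periodic and independent of the third coordinate on `[0,T]` -/
def Inv (T : ℝ) (F : Den) : Prop := ∀ t ∈ Icc 0 T, ∀ x v, F t x v = F t (hat x) v

/-- `y` lies deep inside the thick tile `τ` at time `s` -/
def Deep (P : Par) (N : ℕ) (δ : ℝ) (τ : Tile) (s : ℝ) (y : R3) : Prop :=
  τ.1 ≤ N ∧ δ * s ≤ P.rr τ.1 ∧ P.X (τ.1 + 1) s + δ ^ 2 * s ≤ sg τ.2.2 * y (iR τ) ∧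
    sg τ.2.2 * y (iR τ) ≤ P.X τ.1 s - δ ^ 2 * s ∧ |y (iT τ)| ≤ P.X (nT τ) s - δ ^ 2 * s

/-- good states: deep in a thick tile, bounded speed, radial relative speed at least `δ` -/
def GoodSt (P : Par) (N : ℕ) (δ Lv s : ℝ) (y ξ : R3) : Prop :=
  ∃ τ : Tile, Deep P N δ τ s y ∧ ‖ξ‖ ≤ Lv ∧ δ ≤ |ξ (iR τ) - U P (τ, true) s y (iR τ)|

open Classical in
/-- mass of the good states in the square of radius `ρ` -/
def Ngood (P : Par) (N : ℕ) (δ Lv : ℝ) (F : Den) (s ρ : ℝ) : ℝ≥0∞ :=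
  ∫⁻ y in Metric.closedBall (0 : ℝ × ℝ) ρ, ∫⁻ ξ,
    if GoodSt P N δ Lv s (lift y) ξ then F s (lift y) ξ else 0

/-- what the lower bounds need to know about the solution -/
structure Reg (P : Par) (N : ℕ) (T : ℝ) (F : Den) : Prop where
  mild : ∃ F00 : R3 → R3 → ℝ≥0∞, Mild F00 T F
  inv : Inv T F
  dep : ∀ t ∈ Icc 0 T, ∀ x v, ENNReal.ofReal (99 / 100) * gs P N t x v ≤ F t x v
  nu_le : ∀ t ∈ Icc 0 T, ∀ x v, dd x ≤ 2 * P.r →
    nu (F t x) v ≤ nu (gs P N t x) v + ENNReal.ofReal (1 + ‖v‖)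

/-- the part of the hot density above the level `B'' Θ_m Λ` -/
def hot1 (P : Par) (N : ℕ) (B'' : ℝ≥0∞) (F : Den) : Den := fun t x v =>
  hot P N F t x v - B'' * (Th P (P.fl N) P.m t x v * Lam P t x v)

/-- the norm of `hot1` on `[0,T]` relative to `Θ_1 Λ` -/
def Bsup (P : Par) (N : ℕ) (B'' : ℝ≥0∞) (T : ℝ) (F : Den) : ℝ≥0∞ :=
  ⨆ t ∈ Icc 0 T, ⨆ x, ⨆ v, hot1 P N B'' F t x v / (Th P (P.fl N) 1 t x v * Lam P t x v)

/-- `hot ≤ (B Θ_1 + B'' Θ_m) Λ` on `[t₀,t₁]` -/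
def HotLe (P : Par) (N : ℕ) (B B'' : ℝ≥0∞) (t₀ t₁ : ℝ) (F : Den) : Prop :=
  ∀ t ∈ Icc t₀ t₁, ∀ x v, hot P N F t x v ≤
    (B * Th P (P.fl N) 1 t x v + B'' * Th P (P.fl N) P.m t x v) * Lam P t x v

/-! ## Part G: the late stage -/

/-- free transport from time `t1` -/
def tr (t1 : ℝ) (f : R3 → R3 → ℝ≥0∞) : Den := fun t x v => f (x - (t - t1) • v) v

/-- products of late cold-cold collisions -/
def Ds (t1 : ℝ) (g : R3 → R3 → ℝ≥0∞) : Den := fun t x v =>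
  ∫⁻ s in Ioo t1 t, Qp (tr t1 g s (x - (t - s) • v)) (tr t1 g s (x - (t - s) • v)) v

/-- `∫ g(a) |v-a|⁻¹ da` -/
def S2 (g : R3 → ℝ≥0∞) (v : R3) : ℝ≥0∞ := ∫⁻ a, g a * invn (v - a)

/-- late singular weight -/
def Lam2 (t1 : ℝ) (ρ : ℝ≥0∞) (g Λ1 : R3 → R3 → ℝ≥0∞) : Den := fun t x v =>
  1 + ew 1 (t - t1) * (tr t1 Λ1 t x v +
    ρ⁻¹ * ∫⁻ s in Ioo t1 t, S2 (tr t1 g s (x - (t - s) • v)) v)

/-- what the late stage needs to know about the cold majorant `g` and the weight `Λ1` at time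
`t1` (constant `C`, density scale `ρ`) -/
structure LateIn (C : ℝ≥0∞) (ρ : ℝ≥0∞) (t1 : ℝ) (g Λ1 : R3 → R3 → ℝ≥0∞) : Prop where
  meas_g : Meas2 g
  meas_L : Meas2 Λ1
  one_le : ∀ x v, 1 ≤ Λ1 x v
  supp : ∀ x v, g x v ≠ 0 → ‖v‖ ≤ 3
  dens : ∀ s, t1 ≤ s → ∀ y, ∫⁻ a, tr t1 g s y a ≤ C * ENNReal.ofReal ((1 + (s - t1)) ^ 2) * ρ
  tilt2 : ∀ s τ, t1 ≤ s → 0 ≤ τ → ∀ x,
    PB (fun v => S2 (tr t1 g s (x - τ • v)) v ^ (3 / 2 : ℝ))
      (fun _ => (C * ENNReal.ofReal ((1 + (s - t1) + τ) ^ 2) * ρ) ^ (3 / 2 : ℝ))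
  tilt3 : ∀ s τ, t1 ≤ s → 0 ≤ τ → ∀ x,
    PB (fun v => Qp (tr t1 g s (x - τ • v)) (tr t1 g s (x - τ • v)) v)
      (fun _ => C * ENNReal.ofReal ((1 + (s - t1) + τ) ^ 4) * ρ ^ 2)
  tiltL : ∀ τ, 0 ≤ τ → ∀ x,
    PB (fun v => Λ1 (x - τ • v) v ^ (3 / 2 : ℝ)) (fun _ => C * ENNReal.ofReal ((1 + τ) ^ 2))

/-- late density scale -/
def rhoL (P : Par) (t1 : ℝ) : ℝ≥0∞ := ENNReal.ofReal (P.r / (P.eta * t1 ^ 2))

/-- `|a - b|` in `ℝ≥0∞` -/
def adiff (a b : ℝ≥0∞) : ℝ≥0∞ := (a - b) + (b - a)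

/-- local deviation from the Maxwellian -/
def dlt (f : R3 → ℝ≥0∞) : ℝ≥0∞ := ∫⁻ v, adiff (f v) (MM v) * pw 1 v

open Classical in
/-- the global majorant -/
def Maj (P : Par) (t1 : ℝ) (K : ℝ≥0∞) : Den := fun t x v =>
  if t ≤ t1 then G P ⊤ t x v + K * (W (1 / 2) v * Lam P t x v)
  else tr t1 (G P ⊤ t1) t x v + K * Ds t1 (G P ⊤ t1) t x v +
    K * (W (1 / 2) v * Lam2 t1 (rhoL P t1) (G P ⊤ t1) (Lam P t1) t x v)

end

end Crest.Agent.R68
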