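import Crest.Agent.R68.Tile3
import Crest.Agent.R68.Beam
import Crest.Agent.R68.PrePost

/-! The velocity law of a cold beam, and mass bounds.  Substitute `a j = (p j + b j y j + ww ζ j)/(1 + b j s)` (diagonal affine change of variables, as in
`beam_lintegral`); then `a j - U k 0 (y - s a) j = ww ζ j` and the initial label is `lab s y` shifted by at most `s ww` in each coordinate.
`dens_le`: `rr n (1 + b_T s)` is `X n s` (side 0) or `4 X (n+1) s ≥ X n s` (side 1).  In a tile of level `n ≤ N`, `kap s + dd + rr (N+1) ≤ 2 X n s`.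
`∫ Ck ≤ 6 cc / rr n` (`gauss3_le`) and `√(ww n) ≤ √w (rr n)²`. -/

set_option autoImplicit false

open MeasureTheory Set Filter Topology Crest.AnalysisR.VecCalc3 Crest.AnalysisR.PDE.Boltzmann
open scoped ENNReal NNReal

namespace Crest.Agent.R68

variable {P : Par}

/-- the cube `[-1,1]³` -/
def cube : Set R3 := {ζ | ∀ j, |ζ j| ≤ 1}
/-- velocity of the cold particle with normalised fluctuation `ζ` -/
noncomputable def avel (P : Par) (k : Bm) (s : ℝ) (y ζ : R3) : R3 :=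
  WithLp.toLp 2 (fun j => (pp P k j + bb P k.1 j * y j + P.ww k.1.1 * ζ j) / (1 + bb P k.1 j * s))
/-- density inside the layers -/
noncomputable def dens (P : Par) (τ : Tile) (s : ℝ) : ℝ := cc / (P.rr τ.1 * ∏ j, (1 + bb P τ j * s))

theorem measurableSet_cube : MeasurableSet cube := by
  have : cube = ⋂ j, {ζ : R3 | |ζ j| ≤ 1} := by ext; simp [cube]
  rw [this]
  exact MeasurableSet.iInter fun j => measurableSet_le (by fun_prop) measurable_const
theorem volume_cube : volume cube = 8 := by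
  rw [← (PiLp.volume_preserving_toLp (Fin 3)).measure_preimage measurableSet_cube.nullMeasurableSet]
  have : (WithLp.toLp 2 : (Fin 3 → ℝ) → R3) ⁻¹' cube = Icc (fun _ => -1) (fun _ => 1) := by
    ext x
    simp only [cube, mem_preimage, mem_ofPred_eq, mem_Icc, Pi.le_def, abs_le, forall_and]
  rw [this, Real.volume_Icc_pi]
  norm_num
namespace LawA

theorem iR_ne (τ : Tile) : iR τ ≠ 2 := by
  obtain ⟨n, i, o⟩ := τ
  fin_cases i <;> simp [iR]
theorem iT_ne (τ : Tile) : iT τ ≠ 2 := by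
  obtain ⟨n, i, o⟩ := τ
  fin_cases i <;> simp [iT]
theorem iT_ne_iR (τ : Tile) : iT τ ≠ iR τ := by
  obtain ⟨n, i, o⟩ := τ
  fin_cases i <;> simp [iT, iR]

theorem cc_pos : 0 < cc := by norm_num [cc]
theorem kap_pos : 0 < kap := by norm_num [kap]

theorem den_ge (hP : P.Ok) (τ : Tile) {s : ℝ} (hs : 0 ≤ s) (j : Fin 3) : 1 ≤ 1 + bb P τ j * s :=
  le_add_of_nonneg_right (mul_nonneg (bb_nonneg hP τ j) hs)

theorem den_pos (hP : P.Ok) (τ : Tile) {s : ℝ} (hs : 0 ≤ s) (j : Fin 3) : 0 < 1 + bb P τ j * s :=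
  one_pos.trans_le (den_ge hP τ hs j)

theorem sub_avel (hP : P.Ok) (k : Bm) {s : ℝ} (hs : 0 ≤ s) (y : R3) {G : R3 → ℝ≥0∞} (hG : Measurable G) :
    ∫⁻ a, G a = ENNReal.ofReal (P.ww k.1.1 ^ 3 / ∏ j, (1 + bb P k.1 j * s)) * ∫⁻ ζ, G (avel P k s y ζ) := by
  rw [BeamX.lintegral_diag (fun j => (pp P k j + bb P k.1 j * y j) / (1 + bb P k.1 j * s))
    (fun j => P.ww k.1.1 / (1 + bb P k.1 j * s)) (fun j => div_pos (ww_pos hP _) (den_pos hP _ hs j)) hG,
    Finset.prod_div_distrib, Finset.prod_const, Finset.card_univ, Fintype.card_fin]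
  congr 1
  refine lintegral_congr fun ζ => ?_
  congr 2
  funext j
  ring

theorem avel_rel (hP : P.Ok) (k : Bm) {s : ℝ} (hs : 0 ≤ s) (y ζ : R3) (j : Fin 3) :
    avel P k s y ζ j - U P k 0 (y - s • avel P k s y ζ) j = P.ww k.1.1 * ζ j := by
  have := (den_pos hP k.1 hs j).ne'
  simp only [avel, U, PiLp.sub_apply, PiLp.smul_apply, smul_eq_mul, mul_zero, add_zero, div_one]
  field_simp
  ring

open Classical in
theorem gk_avel (hP : P.Ok) (k : Bm) {s : ℝ} (hs : 0 ≤ s) (y ζ : R3) :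
    gk P k s y (avel P k s y ζ) = if lab P k.1 0 (y - s • avel P k s y ζ) ∈ layer P k ∧ ζ ∈ cube
      then ENNReal.ofReal (cc / (P.rr k.1.1 * (2 * P.ww k.1.1) ^ 3)) else 0 := by
  have hw := ww_pos hP k.1.1
  rw [gk]
  refine if_congr (and_congr_right fun _ => forall_congr' fun j => ?_) rfl rfl
  rw [avel_rel hP k hs, abs_mul, abs_of_pos hw]
  exact mul_le_iff_le_one_right hw

theorem const_eq (hP : P.Ok) (k : Bm) {s : ℝ} (hs : 0 ≤ s) :
    ENNReal.ofReal (P.ww k.1.1 ^ 3 / ∏ j, (1 + bb P k.1 j * s)) *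
      ENNReal.ofReal (cc / (P.rr k.1.1 * (2 * P.ww k.1.1) ^ 3)) = ENNReal.ofReal (dens P k.1 s) * 8⁻¹ := by
  have hw := ww_pos hP k.1.1
  have hr := rr_pos hP k.1.1
  have hp : 0 < ∏ j, (1 + bb P k.1 j * s) := Finset.prod_pos fun j _ => den_pos hP _ hs j
  have h8 : (8⁻¹ : ℝ≥0∞) = ENNReal.ofReal 8⁻¹ := by
    rw [ENNReal.ofReal_inv_of_pos (by norm_num)]; simp
  rw [h8, ← ENNReal.ofReal_mul (by positivity), ← ENNReal.ofReal_mul' (by norm_num), dens]
  congr 1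
  generalize ∏ j, (1 + bb P k.1 j * s) = D at hp
  field_simp
  norm_num

theorem meas_avel (k : Bm) (s : ℝ) (y : R3) : Measurable (avel P k s y) :=
  ((PiLp.continuous_toLp 2 _).comp (continuous_pi fun j => by fun_prop)).measurable

theorem lab_avel (hP : P.Ok) (k : Bm) {s : ℝ} (hs : 0 ≤ s) (y : R3) {ζ : R3} (hζ : ζ ∈ cube) :
    dist (lab P k.1 0 (y - s • avel P k s y ζ)) (lab P k.1 s y) ≤ s * P.ww k.1.1 := by
  have hw := ww_pos hP k.1.1
  have key : ∀ j, |s * P.ww k.1.1 * ζ j / (1 + bb P k.1 j * s)| ≤ s * P.ww k.1.1 := fun j => by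
    rw [abs_div, abs_mul, abs_of_nonneg (by positivity : 0 ≤ s * P.ww k.1.1), abs_of_pos (den_pos hP _ hs j)]
    exact (div_le_self (by positivity) (den_ge hP _ hs j)).trans
      (mul_le_of_le_one_right (by positivity) (hζ j))
  have hsg : |sg k.1.2.2| = 1 := by unfold sg; split_ifs <;> simp
  have alg : ∀ (σ y p b s w ζ : ℝ), 1 + b * s ≠ 0 →
      σ * (y - s * ((p + b * y + w * ζ) / (1 + b * s))) - σ * (y - s * p) / (1 + b * s) =
        σ * -(s * w * ζ / (1 + b * s)) := by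
    intro σ y p b s w ζ h
    simp only [div_eq_mul_inv]
    linear_combination (-(σ * y)) * mul_inv_cancel₀ h
  rw [Prod.dist_eq, max_le_iff, Real.dist_eq, Real.dist_eq]
  constructor
  · have h1 := (den_pos hP k.1 hs (iR k.1)).ne'
    have h2 : pp P (k.1, true) (iR k.1) = pp P k (iR k.1) := by simp [pp]
    refine le_trans (le_of_eq ?_) (key (iR k.1))
    simp only [lab, avel, h2, PiLp.sub_apply, PiLp.smul_apply, smul_eq_mul, mul_zero, add_zero, div_one,
      zero_mul, sub_zero]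
    rw [alg _ _ _ _ _ _ _ h1, abs_mul, hsg, one_mul, abs_neg]
  · have h1 := (den_pos hP k.1 hs (iT k.1)).ne'
    have h2 : pp P k (iT k.1) = 0 := by simp [pp, iT_ne, iT_ne_iR]
    refine le_trans (le_of_eq ?_) (key (iT k.1))
    have h3 := alg 1 (y (iT k.1)) 0 _ s (P.ww k.1.1) (ζ (iT k.1)) h1
    simp only [one_mul, mul_zero, sub_zero] at h3
    simp only [lab, avel, h2, PiLp.sub_apply, PiLp.smul_apply, smul_eq_mul, mul_zero, add_zero, div_one]
    rw [h3, abs_neg]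

theorem gauss_mass {A w : ℝ} (hA : 0 ≤ A) (hw : 0 < w) (u : R3) :
    ∫⁻ a : R3, ENNReal.ofReal (A * Real.exp (-(‖a - u‖ ^ 2 / w ^ 2))) ≤ ENNReal.ofReal (6 * A * w ^ 3) := by
  rw [BeamX.lintegral_diag u (fun _ => w) (fun _ => hw) (by fun_prop), Finset.prod_const, Finset.card_univ,
    Fintype.card_fin]
  have h1 : ∀ ζ : R3, ENNReal.ofReal (A * Real.exp (-(‖(WithLp.toLp 2 (fun i => u i + w * ζ i) : R3) - u‖ ^ 2 /
      w ^ 2))) = ENNReal.ofReal A * ENNReal.ofReal (Real.exp (-‖ζ‖ ^ 2)) := fun ζ => by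
    have : (WithLp.toLp 2 (fun i => u i + w * ζ i) : R3) - u = w • ζ := by
      ext i; simp
    rw [this, norm_smul, Real.norm_eq_abs, abs_of_pos hw, mul_pow, mul_div_cancel_left₀ _ (by positivity),
      ENNReal.ofReal_mul hA]
  simp only [h1]
  rw [lintegral_const_mul _ BeamX.meas_g]
  calc _ ≤ ENNReal.ofReal (w ^ 3) * (ENNReal.ofReal A * 6) := by gcongr; exact gauss3_le
    _ = _ := by
      rw [← ENNReal.ofReal_ofNat, ← ENNReal.ofReal_mul hA, ← ENNReal.ofReal_mul (by positivity)]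
      congr 1; ring

theorem Ck_le (hP : P.Ok) (k : Bm) {s : ℝ} (hs : s ≤ 1) (y a : R3) :
    Ck P k s y a ≤ ENNReal.ofReal (cc / (P.rr k.1.1 * P.ww k.1.1 ^ 3) *
      Real.exp (-(‖a - U P k s y‖ ^ 2 / P.ww k.1.1 ^ 2))) := by
  have hw := ww_pos hP k.1.1
  have hr := rr_pos hP k.1.1
  have hc := cc_pos
  refine ENNReal.ofReal_le_ofReal (mul_le_mul_of_nonneg_left (Real.exp_le_exp.2 ?_) (by positivity))
  have h1 : 0 ≤ dS P k s y / (Real.sqrt (P.ww k.1.1) * Real.sqrt s) :=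
    div_nonneg Metric.infDist_nonneg (by positivity)
  have h2 : ‖a - U P k s y‖ ^ 2 / P.ww k.1.1 ^ 2 ≤ (2 - s) * ‖a - U P k s y‖ ^ 2 / P.ww k.1.1 ^ 2 :=
    div_le_div_of_nonneg_right (le_mul_of_one_le_left (by positivity) (by linarith)) (by positivity)
  linarith

theorem Cke_le (k : Bm) (s : ℝ) (y a : R3) :
    Cke P k s y a ≤ ENNReal.ofReal (Real.sqrt (P.ww k.1.1)) * Ck P k s y a := by
  rw [Cke]; split_ifs
  exacts [le_rfl, zero_le]

theorem sqrt_w_le (hP : P.Ok) : Real.sqrt P.w ≤ 1 / 10 ^ 15 :=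
  Real.sqrt_le_iff.2 ⟨by positivity, hP.w1.trans (by norm_num)⟩

theorem p_le (hP : P.Ok) (n : ℕ) : 0 < P.per n / 16 ∧ P.per n / 16 ≤ P.rr (n + 1) ∧ P.rr (n + 1) ≤ P.rr n ∧
    P.rr n ≤ 1 := by
  have h1 := per_pos hP n
  have h2 := per_le hP n
  have h3 := rr_succ (P := P) n
  have h4 := rr_le hP n
  have h5 := hP.r1
  refine ⟨by linarith, by linarith, by linarith, by linarith⟩

theorem sqrt_ww_le (hP : P.Ok) (n : ℕ) : Real.sqrt (P.ww n) ≤ Real.sqrt P.w * P.rr n := by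
  obtain ⟨h1, h2, h3, h4⟩ := p_le hP n
  rw [sqrt_ww hP]
  exact mul_le_mul_of_nonneg_left (by nlinarith) (Real.sqrt_nonneg _)

theorem nu_le_of_supp {f : R3 → ℝ≥0∞} {v : R3} {R : ℝ} (h : ∀ a, f a ≠ 0 → ‖v - a‖ ≤ R) :
    nu f v ≤ ENNReal.ofReal (2 * Real.pi * R) * ∫⁻ a, f a := by
  rw [← lintegral_const_mul' _ _ ENNReal.ofReal_ne_top]
  refine lintegral_mono fun a => ?_
  by_cases ha : f a = 0
  · simp [ha]
  · exact mul_le_mul_left (ENNReal.ofReal_le_ofReal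
      (mul_le_mul_of_nonneg_left (h a ha) (by positivity))) _

theorem rb_tile (hP : P.Ok) {N : ℕ} {τ : Tile} (hN : τ.1 ≤ N) {s : ℝ} (hs : 0 ≤ s) {x : R3}
    (h : lab P τ s (hat x) ∈ tileL P τ) : ENNReal.ofReal (2 * (cc / P.X τ.1 s)) ≤ rb P N s x := by
  have h1 := (tile_nrm hP hs h).2
  have h2 := rr_anti hP (hN.trans (Nat.le_succ N))
  have h3 := rr_pos hP (N + 1)
  have h4 := mul_nonneg (et_pos hP τ.1).le hs
  have h5 := mul_nonneg kap_pos.le hs
  have h6 := dd_nonneg x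
  have h7 := X_pos hP τ.1 hs
  have hc := cc_pos
  refine ENNReal.ofReal_le_ofReal ?_
  rw [← mul_div_assoc, div_le_div_iff₀ h7 (by positivity)]
  have h8 : kap * s + dd x + P.rr (N + 1) ≤ 2 * P.X τ.1 s := by
    have : P.X τ.1 s = P.rr τ.1 + (kap + P.et τ.1) * s := rfl
    rw [dd]; nlinarith
  nlinarith

end LawA

open LawA

theorem gk_law_le (hP : P.Ok) (k : Bm) {s : ℝ} (hs : 0 ≤ s) (y : R3) {Φ : R3 → ℝ≥0∞} (hΦ : Measurable Φ) :
    ∫⁻ a, gk P k s y a * Φ a ≤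
      ENNReal.ofReal (dens P k.1 s) * (8⁻¹ * ∫⁻ ζ in cube, Φ (avel P k s y ζ)) := by
  rw [sub_avel hP k hs y (G := fun a => gk P k s y a * Φ a) (((measD_gk k).vel s y).mul hΦ), ← mul_assoc, ← const_eq hP k hs, mul_assoc]
  refine mul_le_mul_right ?_ _
  rw [← lintegral_const_mul' _ _ ENNReal.ofReal_ne_top, ← lintegral_indicator measurableSet_cube]
  refine lintegral_mono fun ζ => ?_
  rw [gk_avel hP k hs]
  split_ifs with h
  · rw [indicator_of_mem h.2]
  · simp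
theorem gk_mass_eq (hP : P.Ok) (k : Bm) {s : ℝ} (hs : 0 ≤ s) (y : R3)
    (h : Metric.closedBall (lab P k.1 s y) (s * P.ww k.1.1) ⊆ layer P k) :
    ∫⁻ a, gk P k s y a = ENNReal.ofReal (dens P k.1 s) := by
  rw [sub_avel hP k hs y ((measD_gk k).vel s y)]
  have h1 : ∀ ζ, gk P k s y (avel P k s y ζ) =
      cube.indicator (fun _ => ENNReal.ofReal (cc / (P.rr k.1.1 * (2 * P.ww k.1.1) ^ 3))) ζ := fun ζ => by
    rw [gk_avel hP k hs]
    by_cases hζ : ζ ∈ cube
    · rw [indicator_of_mem hζ, if_pos ⟨h (lab_avel hP k hs y hζ), hζ⟩]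
    · rw [indicator_of_notMem hζ, if_neg fun h => hζ h.2]
  simp only [h1]
  rw [lintegral_indicator_const measurableSet_cube, volume_cube, ← mul_assoc, const_eq hP k hs, mul_assoc,
    ENNReal.inv_mul_cancel (by norm_num) (by norm_num), mul_one]
theorem dens_le (hP : P.Ok) (τ : Tile) {s : ℝ} (hs : 0 ≤ s) : dens P τ s ≤ cc / P.X τ.1 s := by
  have hr := rr_pos hP τ.1
  refine div_le_div_of_nonneg_left cc_pos.le (X_pos hP _ hs) ?_
  have h1 : 1 + bb P τ (iT τ) * s ≤ ∏ j, (1 + bb P τ j * s) := by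
    rw [← Finset.mul_prod_erase _ _ (Finset.mem_univ (iT τ))]
    exact le_mul_of_one_le_right (LawA.den_pos hP τ hs _).le
      (Finset.one_le_prod fun j _ => den_ge hP τ hs j)
  refine le_trans ?_ (mul_le_mul_of_nonneg_left h1 hr.le)
  rw [bb, if_neg (iT_ne_iR τ), if_pos rfl]
  obtain ⟨n, i, o⟩ := τ
  fin_cases i
  · simp only [nT, Par.X, add_zero] at hr ⊢
    field_simp
    exact le_rfl
  · have h2 := rr_pos hP (n + 1)
    refine (X_le_four hP n hs).trans (le_of_eq ?_)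
    simp only [nT, Par.X]
    rw [rr_succ n]
    field_simp
theorem gk_mass (hP : P.Ok) (k : Bm) {s : ℝ} (hs : 0 ≤ s) (y : R3) :
    ∫⁻ a, gk P k s y a ≤ ENNReal.ofReal (cc / P.X k.1.1 s) := by
  have h := gk_law_le hP k hs y (Φ := fun _ => 1) measurable_const
  simp only [mul_one, lintegral_const, one_mul, Measure.restrict_apply MeasurableSet.univ, univ_inter,
    volume_cube] at h
  rw [ENNReal.inv_mul_cancel (by norm_num) (by norm_num), mul_one] at h
  exact h.trans (ENNReal.ofReal_le_ofReal (dens_le hP _ hs))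
theorem Ck_mass (hP : P.Ok) (k : Bm) {s : ℝ} (hs : s ∈ Icc (0 : ℝ) 1) (y : R3) :
    ∫⁻ a, Ck P k s y a ≤ ENNReal.ofReal (6 * cc / P.rr k.1.1) := by
  have hw := ww_pos hP k.1.1
  have hr := rr_pos hP k.1.1
  have hc := cc_pos
  refine (lintegral_mono fun a => Ck_le hP k hs.2 y a).trans ((gauss_mass (by positivity) hw _).trans (le_of_eq ?_))
  congr 1
  field_simp
theorem nu_Ck (hP : P.Ok) (k : Bm) {s : ℝ} (hs : s ∈ Icc (0 : ℝ) 1) (y v : R3) :
    nu (Ck P k s y) v ≤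
      ENNReal.ofReal (100 * cc / P.rr k.1.1 * (‖v - U P k s y‖ + P.ww k.1.1)) := by
  have hw := ww_pos hP k.1.1
  have hr := rr_pos hP k.1.1
  have hc := cc_pos
  have hpi := Real.pi_pos
  set w := P.ww k.1.1
  set B := cc / (P.rr k.1.1 * w ^ 3) with hB
  have hB0 : 0 < B := by positivity
  set u := U P k s y
  have h1 : ∀ a, ENNReal.ofReal (2 * Real.pi * ‖v - a‖) * Ck P k s y a ≤
      ENNReal.ofReal (2 * Real.pi * ‖v - u‖ * B * Real.exp (-(‖a - u‖ ^ 2 / w ^ 2))) +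
      ENNReal.ofReal (2 * Real.pi * (5 / 6 * w) * B * Real.exp (-(‖a - u‖ ^ 2 / (5 / 4 * w) ^ 2))) := by
    intro a
    refine (mul_le_mul_right (Ck_le hP k hs.2 y a) _).trans ?_
    rw [← ENNReal.ofReal_mul (by positivity), ← ENNReal.ofReal_add (by positivity) (by positivity)]
    refine ENNReal.ofReal_le_ofReal ?_
    have h2 : ‖v - a‖ ≤ ‖v - u‖ + ‖a - u‖ := by
      rw [norm_sub_rev a u]; exact norm_sub_le_norm_sub_add_norm_sub _ _ _
    have h3 : ‖a - u‖ * Real.exp (-(‖a - u‖ ^ 2 / w ^ 2)) ≤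
        5 / 6 * w * Real.exp (-(‖a - u‖ ^ 2 / (5 / 4 * w) ^ 2)) := by
      obtain ⟨z, hz⟩ : ∃ z, ‖a - u‖ = z * w := ⟨‖a - u‖ / w, by field_simp⟩
      have e1 : -(‖a - u‖ ^ 2 / (5 / 4 * w) ^ 2) = 9 / 25 * z ^ 2 + -(‖a - u‖ ^ 2 / w ^ 2) := by
        rw [hz]; field_simp; ring
      rw [e1, Real.exp_add, ← mul_assoc]
      refine mul_le_mul_of_nonneg_right ?_ (Real.exp_pos _).le
      have e2 := Real.add_one_le_exp (9 / 25 * z ^ 2)
      have e3 : z ≤ 5 / 6 * Real.exp (9 / 25 * z ^ 2) := by nlinarith [sq_nonneg (z - 5 / 3)]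
      rw [hz]
      nlinarith
    have h4 := mul_le_mul_of_nonneg_right h2 (Real.exp_pos (-(‖a - u‖ ^ 2 / w ^ 2))).le
    have h5 : 0 < 2 * Real.pi * B := by positivity
    nlinarith [mul_le_mul_of_nonneg_left h3 h5.le, mul_le_mul_of_nonneg_left h4 h5.le]
  refine (lintegral_mono h1).trans ?_
  rw [lintegral_add_left (by fun_prop)]
  refine (add_le_add (gauss_mass (by positivity) hw u) (gauss_mass (by positivity) (by positivity) u)).trans ?_
  rw [← ENNReal.ofReal_add (by positivity) (by positivity)]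
  refine ENNReal.ofReal_le_ofReal ?_
  have h2 : 6 * (2 * Real.pi * ‖v - u‖ * B) * w ^ 3 + 6 * (2 * Real.pi * (5 / 6 * w) * B) * (5 / 4 * w) ^ 3 =
      cc / P.rr k.1.1 * (Real.pi * (12 * ‖v - u‖ + 625 / 32 * w)) := by
    rw [hB]; field_simp; ring
  rw [h2, mul_div_assoc, mul_comm 100, mul_assoc]
  refine mul_le_mul_of_nonneg_left ?_ (by positivity)
  nlinarith [mul_le_mul_of_nonneg_right Real.pi_le_four (by positivity : 0 ≤ 12 * ‖v - u‖ + 625 / 32 * w),
    norm_nonneg (v - u)]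
theorem LawA.Cke_mass (hP : P.Ok) (k : Bm) {s : ℝ} (hs : s ∈ Icc (0 : ℝ) 1) (y : R3) :
    ∫⁻ a, Cke P k s y a ≤ ENNReal.ofReal (6 * cc * Real.sqrt P.w) := by
  refine (lintegral_mono fun a => Cke_le k s y a).trans ?_
  rw [lintegral_const_mul' _ _ ENNReal.ofReal_ne_top]
  refine (mul_le_mul_right (Ck_mass hP k hs y) _).trans ?_
  rw [← ENNReal.ofReal_mul (Real.sqrt_nonneg _)]
  refine ENNReal.ofReal_le_ofReal ?_
  have hr := rr_pos hP k.1.1
  have hc := cc_pos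
  rw [← mul_div_assoc, div_le_iff₀ hr]
  nlinarith [sqrt_ww_le hP k.1.1]

theorem GC_mass (hP : P.Ok) (N : ℕ∞) {s : ℝ} (hs : s ∈ Icc (0 : ℝ) 1) (x : R3) :
    ∫⁻ a, GC P N s x a ≤ ENNReal.ofReal (6 * cc * Real.sqrt P.w) := by
  rcases G_core hP N hs x with h | ⟨k, -, -, -, h⟩
  · simp [h.2]
  · simp only [h]
    exact LawA.Cke_mass hP k hs _
theorem G_mass (hP : P.Ok) (N : ℕ) {s : ℝ} (hs : s ∈ Icc (0 : ℝ) 1) (x : R3) :
    ∫⁻ a, G P N s x a ≤ rb P N s x := by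
  rcases G_core hP N hs x with h | ⟨k, h1, h2, h3, h4⟩
  · simp [G, h.1, h.2]
  · simp only [G, h3, h4]
    rw [lintegral_add_left ((measD_gk k).vel _ _)]
    refine le_trans ?_ (rb_tile hP (by exact_mod_cast h1) hs.1 (core_tile hP h2))
    have h5 := X_pos hP k.1.1 hs.1
    have hc := cc_pos
    rw [two_mul, ENNReal.ofReal_add (by positivity) (by positivity)]
    refine add_le_add (gk_mass hP k hs.1 _) ((LawA.Cke_mass hP k hs _).trans (ENNReal.ofReal_le_ofReal ?_))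
    rw [le_div_iff₀ h5]
    have h6 := mul_le_mul (sqrt_w_le hP) (X_lt_half hP k.1.1 hs).le h5.le (by positivity)
    nlinarith
/-- inside the tile `τ` the density of the freely transported cold gas is at most `cc / X n s` -/
theorem gs_mass_tile (hP : P.Ok) (N : ℕ∞) {τ : Tile} {s : ℝ} (hs : s ∈ Icc (0 : ℝ) 1) {x : R3}
    (h : lab P τ s (hat x) ∈ tileL P τ) : ∫⁻ a, gs P N s x a ≤ ENNReal.ofReal (cc / P.X τ.1 s) := by
  rcases G_core hP N hs x with h' | ⟨k, -, h2, h3, -⟩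
  · simp [h'.1]
  · simp only [h3]
    rw [tile_unique hP hs.1 h (core_tile hP h2)]
    exact gk_mass hP k hs.1 _
theorem nu_gs (hP : P.Ok) (N : ℕ) {s : ℝ} (hs : s ∈ Icc (0 : ℝ) 1) (x v : R3) :
    nu (gs P N s x) v ≤ 21 * ENNReal.ofReal (1 + ‖v‖) * rb P N s x := by
  refine (nu_le_of_supp (R := ‖v‖ + 2) fun a ha => (norm_sub_le _ _).trans (add_le_add le_rfl
    (G_supp hP hs (N := N) (x := x) fun h => ha (le_antisymm ((gs_le_G _ _ _ _).trans h.le) zero_le)).1)).trans ?_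
  refine mul_le_mul' ?_ ((lintegral_mono fun a => gs_le_G _ _ _ a).trans (G_mass hP N hs x))
  rw [← ENNReal.ofReal_ofNat 21, ← ENNReal.ofReal_mul (by norm_num)]
  refine ENNReal.ofReal_le_ofReal ?_
  nlinarith [mul_le_mul_of_nonneg_right Real.pi_le_four (by positivity : 0 ≤ ‖v‖ + 2), norm_nonneg v]
theorem nu_GC (hP : P.Ok) (N : ℕ∞) {s : ℝ} (hs : s ∈ Icc (0 : ℝ) 1) (x v : R3) :
    nu (GC P N s x) v ≤ 2⁻¹ * ENNReal.ofReal (1 + ‖v‖) := by
  refine (nu_le_of_supp (R := ‖v‖ + 2) fun a ha => (norm_sub_le _ _).trans (add_le_add le_rfl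
    (G_supp hP hs (N := N) (x := x) fun h => ha (le_antisymm (le_add_self.trans h.le) zero_le)).1)).trans ?_
  refine (mul_le_mul_right (GC_mass hP N hs x) _).trans ?_
  have h2 : (2⁻¹ : ℝ≥0∞) = ENNReal.ofReal 2⁻¹ := by
    rw [ENNReal.ofReal_inv_of_pos (by norm_num)]; simp
  rw [h2, ← ENNReal.ofReal_mul (by positivity), ← ENNReal.ofReal_mul (by norm_num)]
  refine ENNReal.ofReal_le_ofReal ?_
  have h3 : 6 * cc * Real.sqrt P.w ≤ 1 / 100 := by
    have := sqrt_w_le hP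
    rw [cc]; linarith
  have h4 : 2 * Real.pi * (‖v‖ + 2) ≤ 16 * (1 + ‖v‖) := by
    nlinarith [mul_le_mul_of_nonneg_right Real.pi_le_four (by positivity : 0 ≤ ‖v‖ + 2), norm_nonneg v]
  have hc := cc_pos
  refine (mul_le_mul h4 h3 (by positivity) (by positivity)).trans ?_
  nlinarith [norm_nonneg v]
/-- a cold particle hardly collides with the cold majorant -/
theorem nu_self (hP : P.Ok) (N : ℕ∞) {s : ℝ} (hs : s ∈ Icc (0 : ℝ) 1) {x v : R3} (h : gs P N s x v ≠ 0) :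
    nu (G P N s x) v ≤ ENNReal.ofReal (1 / 1000) := by
  rcases G_core hP N hs x with h' | ⟨k, -, -, h3, h4⟩
  · exact absurd (h'.1 v) h
  have h5 : G P N s x = fun a => gk P k s (hat x) a + Cke P k s (hat x) a := by
    funext a; rw [G, h3, h4]
  rw [h3] at h
  have h6 := (gk_supp hP hs h).2.2.1
  have tri : ∀ a, ‖v - a‖ ≤ ‖v - U P k s (hat x)‖ + ‖a - U P k s (hat x)‖ := fun a => by
    rw [norm_sub_rev a]; exact norm_sub_le_norm_sub_add_norm_sub _ _ _
  have hw := ww_pos hP k.1.1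
  have hw1 := (ww_le hP k.1.1).trans hP.w1
  have hc := cc_pos
  have hX := X_pos hP k.1.1 hs.1
  rw [h5, nu_add ((measD_gk k).vel _ _)]
  refine (add_le_add ((nu_le_of_supp (R := 4 * P.ww k.1.1) fun a ha => ?_).trans
    (mul_le_mul_right (gk_mass hP k hs.1 _) _)) ((nu_le_of_supp (R := 1) fun a ha => ?_).trans
    (mul_le_mul_right (LawA.Cke_mass hP k hs _) _))).trans ?_
  · linarith [tri a, (gk_supp hP hs ha).2.2.1]
  · have : ‖a - U P k s (hat x)‖ ≤ kap := by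
      by_contra hn
      exact ha (if_neg hn)
    rw [kap] at this
    linarith [tri a]
  rw [← ENNReal.ofReal_mul (by positivity), ← ENNReal.ofReal_mul (by positivity),
    ← ENNReal.ofReal_add (by positivity) (by positivity)]
  refine ENNReal.ofReal_le_ofReal ?_
  have h7 : P.ww k.1.1 / P.X k.1.1 s ≤ 1 / 10 ^ 15 := by
    rw [div_le_iff₀ hX]
    have e1 : P.rr k.1.1 ≤ P.X k.1.1 s :=
      le_add_of_nonneg_right (mul_nonneg (add_nonneg kap_pos.le (et_pos hP _).le) hs.1)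
    have e2 := sqrt_ww_le hP k.1.1
    have e3 : P.ww k.1.1 ≤ Real.sqrt (P.ww k.1.1) := Real.le_sqrt_of_sq_le (by nlinarith)
    have e4 := mul_le_mul (sqrt_w_le hP) e1 (rr_pos hP _).le (by positivity)
    linarith
  have h8 : 2 * Real.pi * (4 * P.ww k.1.1) * (cc / P.X k.1.1 s) + 2 * Real.pi * 1 * (6 * cc * Real.sqrt P.w) =
      Real.pi * (cc * (8 * (P.ww k.1.1 / P.X k.1.1 s) + 12 * Real.sqrt P.w)) := by ring
  rw [h8]
  refine (mul_le_mul_of_nonneg_right Real.pi_le_four (by positivity)).trans ?_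
  have := sqrt_w_le hP
  rw [cc]
  linarith

end Crest.Agent.R68
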