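import Crest.Agent.R68.BadPos
import Crest.Agent.R68.Law

/-! Definitions for part D (the instability), with their measurability and invariance properties. -/

set_option autoImplicit false

open MeasureTheory Set Filter Topology Crest.AnalysisR.VecCalc3 Crest.AnalysisR.PDE.Boltzmann
open scoped ENNReal NNReal

namespace Crest.Agent.R68

noncomputable section

/-- `Θ_j Λ` -/
def TL (P : Par) (N j : ℕ) : Den := fun t x v => Th P (P.fl N) j t x v * Lam P t x v
/-- the velocity independent part of `om` -/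
def al (P : Par) (N : ℕ) (s : ℝ) (y : R3) : ℝ := P.L * s + dd y + P.fl N
/-- `f ≤ B Θ_1 Λ` on `[0,T]` -/
def Le1 (P : Par) (N : ℕ) (B : ℝ≥0∞) (T : ℝ) (f : Den) : Prop :=
  ∀ t ∈ Icc 0 T, ∀ x v, f t x v ≤ B * TL P N 1 t x v
/-- velocities away from six slabs -/
def Slabs (δv : ℝ) (v : R3) : Prop :=
  δv ≤ |v 2 - 1| ∧ δv ≤ |v 2 + 1| ∧ δv ≤ |v 0 - kap| ∧ δv ≤ |v 0 + kap| ∧ δv ≤ |v 1 - kap| ∧ δv ≤ |v 1 + kap|
/-- good targets -/
def GT (P : Par) (N : ℕ) (Lv K δv t : ℝ) (x v : R3) : Prop :=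
  ‖v‖ ≤ Lv ∧ om P (P.fl N) t x v ≤ K * t ∧ Slabs δv v
/-- `ς` times the derivative of the intermediate velocity -/
def evec (b : Fin 3 → ℝ) (s ς : ℝ) (v R η : R3) : R3 :=
  WithLp.toLp 2 ![v 0 - η 0, v 1 - η 1, (v 2 - η 2) -
    ς * (b 0 / (1 + b 0 * s) * R 0 * (v 0 - η 0) + b 1 / (1 + b 1 * s) * R 1 * (v 1 - η 1)) / R 2]
/-- thick beams -/
def Thick (P : Par) (N : ℕ) (δt K t : ℝ) (k : Bm) : Prop :=
  k.1.1 ≤ N ∧ δt * t ≤ P.rr k.1.1 ∧ P.rr k.1.1 ≤ 4 * K * t
open Classical in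
/-- last collision, with a thick beam, at a time in `(t/K1, t)` -/
def K1op (P : Par) (N : ℕ) (δt K K1 t : ℝ) (x v : R3) (H : Bm → ℝ → R3 → R3 → ℝ≥0∞) : ℝ≥0∞ :=
  4 * ∫⁻ s in Ioo (t / K1) t, ∑' k : Bm, if Thick P N δt K t k then
    ∫⁻ a, gk P k s (x - (t - s) • v) a * (invn (v - a) * pint (v - a) v (H k s a)) else 0
open Classical in
/-- restriction to good states -/
def fG (P : Par) (N : ℕ) (δ Lv : ℝ) (f : Den) : Den := fun s y ξ =>
  if GoodSt P N δ Lv s y ξ then f s y ξ else 0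
open Classical in
/-- the previous collision, transversal part -/
def H2 (P : Par) (N : ℕ) (δ K2 t : ℝ) (φ : Den) (e : ℝ → R3) (s : ℝ) (y η : R3) : ℝ≥0∞ :=
  4 * ∫⁻ s' in Ioo (t / K2) (s - t / K2), ∫⁻ a', gs P N s' (y - (s - s') • η) a' *
    (invn (η - a') * pint (η - a') η (fun ξ =>
      if δ ≤ |inner ℝ (e s') ((2 : ℝ) • η - a' - ξ)| then φ s' (y - (s - s') • η) ξ else 0))
/-- time spent at bad positions -/
def BadT (P : Par) (N : ℕ) (δ K2 t s : ℝ) (y η : R3) : ℝ≥0∞ :=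
  volume {s' ∈ Ioo (t / K2) (s - t / K2) | BadP P N δ s' (y - (s - s') • η)}
/-- dependence on the transversal coordinates only -/
def SameInv (f : R3 → R3 → ℝ≥0∞) : Prop := ∀ y y', Same y y' → f y = f y'
/-- backward one-collision operator on test functions -/
def Aop (P : Par) (N : ℕ) (F : Den) (s h : ℝ) (φ : R3 → R3 → ℝ≥0∞) (y ξ : R3) : ℝ≥0∞ :=
  Ex F s (s + h) (y + h • ξ) ξ * φ (y + h • ξ) ξ +
    ∫⁻ σ in Ioo 0 h, Ex F s (s + σ) (y + σ • ξ) ξ * ∫⁻ a, ENNReal.ofReal (99 / 100) * gs P N (s + σ) (y + σ • ξ) a *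
      ∫⁻ w, ENNReal.ofReal |inner ℝ (ξ - a) w| *
        (Ex F (s + σ) (s + h) (y + σ • ξ + (h - σ) • postVel ξ a w) (postVel ξ a w) *
            φ (y + σ • ξ + (h - σ) • postVel ξ a w) (postVel ξ a w) +
          Ex F (s + σ) (s + h) (y + σ • ξ + (h - σ) • postVelStar ξ a w) (postVelStar ξ a w) *
            φ (y + σ • ξ + (h - σ) • postVelStar ξ a w) (postVelStar ξ a w)) ∂sphereMeasure
open Classical in
/-- discount for the time that will be spent in the central vacuum -/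
def vth (P : Par) (N : ℕ) (ρ s : ℝ) (y ξ : R3) : ℝ≥0∞ :=
  ∫⁻ σ in Ioi (0 : ℝ), if nrm (y + σ • ξ) ≤ P.X (N + 1) (s + σ) then
    ENNReal.ofReal (8 * (1 + nrm ξ) / (s + σ + ρ)) else 0
open Classical in
/-- the monotone weight -/
def Psi (P : Par) (N : ℕ) (ρ s : ℝ) (y ξ : R3) : ℝ≥0∞ :=
  if nrm y ≤ P.r / 2 then chi ξ * ENNReal.ofReal ((s + nrm y + ρ)⁻¹ ^ 4) * expNeg (vth P N ρ s y ξ) else 0
/-- the monotone quantity -/
def II (P : Par) (N : ℕ) (ρ : ℝ) (F : Den) (s : ℝ) : ℝ≥0∞ :=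
  ∫⁻ y : ℝ × ℝ, ∫⁻ ξ, F s (lift y) ξ * Psi P N ρ s (lift y) ξ
/-- upper bound for the productive part near the axis -/
def ProdLe (P : Par) (N : ℕ) (B' : ℝ≥0∞) (T : ℝ) (F : Den) : Prop :=
  ∀ t ∈ Icc 0 T, ∀ y ξ, nrm y ≤ P.r / 2 →
    F t y ξ * chi ξ ≤ B' * ENNReal.ofReal (t + nrm y + P.fl N) * (W (1 / 2) ξ * Lam P t y ξ)

end

variable {P : Par}

theorem measD_TL (N j : ℕ) : MeasD (TL P N j) := by
  exact Measurable.mul (measD_Th _ _) measD_Lam
theorem TL_hat (N j : ℕ) (t : ℝ) (x : R3) : TL P N j t (hat x) = TL P N j t x := by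
  funext v
  simp only [TL, Th_hat, Lam_hat]
theorem al_pos (hP : P.Ok) (N : ℕ) {s : ℝ} (hs : 0 ≤ s) (y : R3) : 0 < al P N s y := by
  have h1 := L_ge hP
  have h2 := dd_nonneg y
  have h3 := fl_pos hP N
  unfold al
  positivity
theorem rb_al (hP : P.Ok) (N : ℕ) {s : ℝ} (hs : 0 ≤ s) (y : R3) :
    rb P N s y * ENNReal.ofReal (al P N s y) ≤ ENNReal.ofReal (4 * cc * P.L / kap) := by
  have h1 := L_ge hP
  have h2 := dd_nonneg y
  have h3 := fl_pos hP N
  have h4 := kap_pos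
  have h5 := LawA.cc_pos
  refine (mul_le_mul' (rb_le hP N hs y) (ENNReal.ofReal_le_ofReal
    (show al P N s y ≤ P.L * (s + dd y + P.fl N) by unfold al; nlinarith))).trans ?_
  rw [← ENNReal.ofReal_mul (by positivity)]
  refine ENNReal.ofReal_le_ofReal (le_of_eq ?_)
  field_simp
theorem rb_le_time (hP : P.Ok) (N : ℕ) {s : ℝ} (hs : 0 < s) (y : R3) :
    rb P N s y ≤ ENNReal.ofReal (4 * cc / (kap * s)) := by
  have h2 := dd_nonneg y
  have h3 := rr_pos hP (N + 1)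
  have h4 := kap_pos
  have h5 := LawA.cc_pos
  exact ENNReal.ofReal_le_ofReal (div_le_div_of_nonneg_left (by positivity) (by positivity) (by linarith))
theorem Th_one_le_al (hP : P.Ok) (N : ℕ) {s : ℝ} (hs : 0 ≤ s) (y η : R3) :
    Th P (P.fl N) 1 s y η ≤ ENNReal.ofReal (al P N s y) := by
  have h1 := L_ge hP
  have h2 := dd_nonneg y
  have h3 := fl_pos hP N
  have h4 := norm_nonneg η
  refine ENNReal.ofReal_le_ofReal ?_
  have h5 : om P (P.fl N) s y η ≤ al P N s y * (‖η‖ + 1) := by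
    unfold om al
    nlinarith [mul_nonneg hs h4, mul_nonneg h2 h4, mul_nonneg h3.le h4, mul_nonneg (mul_nonneg hs h4) (sub_nonneg.2 h1)]
  rw [pow_one, Real.exp_neg, ← div_eq_mul_inv, div_le_iff₀ (Real.exp_pos _)]
  exact h5.trans (mul_le_mul_of_nonneg_left (Real.add_one_le_exp _) (al_pos hP N hs y).le)
theorem Th_one_ge (hP : P.Ok) (N : ℕ) {t Lv : ℝ} (ht : 0 ≤ t) (x : R3) {v : R3} (hv : ‖v‖ ≤ Lv) :
    ENNReal.ofReal (t * Real.exp (-Lv)) ≤ Th P (P.fl N) 1 t x v := by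
  have h1 := L_ge hP
  have h2 := dd_nonneg x
  have h3 := fl_pos hP N
  have h4 := norm_nonneg v
  refine ENNReal.ofReal_le_ofReal (mul_le_mul ?_ (Real.exp_le_exp.2 (neg_le_neg hv)) (Real.exp_pos _).le
    (pow_nonneg (om_nonneg hP h3.le ht x v) 1))
  rw [pow_one]
  unfold om
  nlinarith [mul_nonneg ht h4]
theorem measurableSet_GT (N : ℕ) (Lv K δv : ℝ) :
    MeasurableSet {q : ℝ × R3 × R3 | GT P N Lv K δv q.1 q.2.1 q.2.2} := by
  have h : ∀ (i : Fin 3) (c : ℝ), MeasurableSet {q : ℝ × R3 × R3 | δv ≤ |q.2.2 i - c|} := fun i c =>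
    measurableSet_le measurable_const (by fun_prop)
  have h' : ∀ (i : Fin 3) (c : ℝ), MeasurableSet {q : ℝ × R3 × R3 | δv ≤ |q.2.2 i + c|} := fun i c =>
    measurableSet_le measurable_const (by fun_prop)
  exact (measurableSet_le measurable_snd.snd.norm measurable_const).inter
    ((measurableSet_le (measurable_om _) (measurable_fst.const_mul K)).inter
      ((h 2 1).inter ((h' 2 1).inter ((h 0 _).inter ((h' 0 _).inter ((h 1 _).inter (h' 1 _)))))))
theorem GT_hat (N : ℕ) (Lv K δv t : ℝ) (x v : R3) : GT P N Lv K δv t (hat x) v ↔ GT P N Lv K δv t x v := by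
  simp only [GT, om, dd_hat]
theorem measurable_evec (b : Fin 3 → ℝ) :
    Measurable (fun q : ℝ × ℝ × R3 × R3 × R3 => evec b q.1 q.2.1 q.2.2.1 q.2.2.2.1 q.2.2.2.2) := by
  unfold evec
  refine (WithLp.measurable_toLp _ _).comp (measurable_pi_lambda _ fun i => ?_)
  fin_cases i
  · change Measurable fun q : ℝ × ℝ × R3 × R3 × R3 => q.2.2.1 0 - q.2.2.2.2 0
    fun_prop
  · change Measurable fun q : ℝ × ℝ × R3 × R3 × R3 => q.2.2.1 1 - q.2.2.2.2 1
    fun_prop
  · change Measurable fun q : ℝ × ℝ × R3 × R3 × R3 => (q.2.2.1 2 - q.2.2.2.2 2) -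
      q.2.1 * (b 0 / (1 + b 0 * q.1) * q.2.2.2.1 0 * (q.2.2.1 0 - q.2.2.2.2 0) +
        b 1 / (1 + b 1 * q.1) * q.2.2.2.1 1 * (q.2.2.1 1 - q.2.2.2.2 1)) / q.2.2.2.1 2
    fun_prop
theorem evec_ge (b : Fin 3 → ℝ) (s ς : ℝ) (v R η : R3) : nrm (v - η) ≤ ‖evec b s ς v R η‖ := by
  refine le_trans (le_of_eq ?_) (nrm_le_norm _)
  simp [nrm, evec]
theorem evec_le {b : Fin 3 → ℝ} (hb : ∀ i, 0 ≤ b i) {s ς δ : ℝ} (h0 : 0 ≤ ς) (h1 : ς ≤ s) (hδ : 0 < δ)
    (v R η : R3) (hR : δ ≤ |R 2|) : ‖evec b s ς v R η‖ ≤ ‖v - η‖ * (1 + 2 * ‖R‖ / δ) := by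
  have key : ∀ i, |ς * (b i / (1 + b i * s) * R i * (v i - η i))| ≤ ‖R‖ * ‖v - η‖ := by
    intro i
    have hb' := hb i
    have hd : 0 < 1 + b i * s := by nlinarith [mul_nonneg hb' (h0.trans h1)]
    have e1 : 0 ≤ ς * (b i / (1 + b i * s)) := by positivity
    have e2 : ς * (b i / (1 + b i * s)) ≤ 1 := by
      rw [← mul_div_assoc, div_le_one hd]
      nlinarith [mul_le_mul_of_nonneg_left h1 hb']
    have e3 : |R i| ≤ ‖R‖ := by simpa using PiLp.norm_apply_le R i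
    have e4 : |v i - η i| ≤ ‖v - η‖ := by simpa using PiLp.norm_apply_le (v - η) i
    rw [← mul_assoc, ← mul_assoc, abs_mul, abs_mul, abs_of_nonneg e1]
    exact mul_le_mul ((mul_le_of_le_one_left (abs_nonneg _) e2).trans e3) e4 (abs_nonneg _) (norm_nonneg _)
  set c := ς * (b 0 / (1 + b 0 * s) * R 0 * (v 0 - η 0) + b 1 / (1 + b 1 * s) * R 1 * (v 1 - η 1)) / R 2 with hc
  have e : evec b s ς v R η = (v - η) - EuclideanSpace.single 2 c := by
    ext i
    fin_cases i <;> simp [evec, hc]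
  have hc' : |c| ≤ 2 * (‖R‖ * ‖v - η‖) / δ := by
    rw [hc, abs_div, mul_add]
    exact div_le_div₀ (by positivity) ((abs_add_le _ _).trans (by linarith [key 0, key 1])) hδ hR
  rw [e]
  refine (norm_sub_le _ _).trans ?_
  rw [PiLp.norm_single, Real.norm_eq_abs]
  exact (add_le_add le_rfl hc').trans_eq (by ring)
theorem measD_fG (N : ℕ) (δ Lv : ℝ) {f : Den} (hf : MeasD f) : MeasD (fG P N δ Lv f) := by
  exact Measurable.ite (measurableSet_good N δ Lv) hf measurable_const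
theorem sameInv_fG (N : ℕ) (δ Lv : ℝ) {f : Den} {T : ℝ} (hf : Inv T f) {s : ℝ} (hs : s ∈ Icc 0 T) :
    SameInv (fG P N δ Lv f s) := by
  intro y y' h
  funext ξ
  simp only [fG]
  rw [hf.same hs h, h.good_iff N δ Lv s ξ]
theorem DefsDX.meas_invn : Measurable invn := by
  unfold invn
  fun_prop

theorem meas_H2 {α : Type} [MeasurableSpace α] (N : ℕ) (δ K2 t : ℝ) {φ : Den} (hφ : MeasD φ) {e : α → ℝ → R3}
    (he : Measurable (Function.uncurry e)) {s : α → ℝ} {y η : α → R3} (hs : Measurable s) (hy : Measurable y)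
    (hη : Measurable η) : Measurable (fun a => H2 P N δ K2 t φ (e a) (s a) (y a) (η a)) := by
  unfold H2
  refine Measurable.const_mul (meas_timeInt (g := fun a s' => ∫⁻ a', gs P N s' (y a - (s a - s') • η a) a' *
    (invn (η a - a') * pint (η a - a') (η a) (fun ξ => if δ ≤ |inner ℝ (e a s') ((2 : ℝ) • η a - a' - ξ)| then
      φ s' (y a - (s a - s') • η a) ξ else 0))) ?_ measurable_const (hs.sub_const _)) _
  refine Measurable.lintegral_prod_right' (f := fun p : (α × ℝ) × R3 =>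
    gs P N p.1.2 (y p.1.1 - (s p.1.1 - p.1.2) • η p.1.1) p.2 * (invn (η p.1.1 - p.2) *
      pint (η p.1.1 - p.2) (η p.1.1) (fun ξ => if δ ≤ |inner ℝ (e p.1.1 p.1.2) ((2 : ℝ) • η p.1.1 - p.2 - ξ)| then
        φ p.1.2 (y p.1.1 - (s p.1.1 - p.1.2) • η p.1.1) ξ else 0))) ?_
  refine ((measD_gs N).comp (by fun_prop) (by fun_prop) (by fun_prop)).mul
    ((DefsDX.meas_invn.comp (by fun_prop)).mul (meas_pint ?_ (by fun_prop) (by fun_prop)))
  have he' : Measurable fun q : ((α × ℝ) × R3) × R3 => e q.1.1.1 q.1.1.2 := he.comp measurable_fst.fst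
  exact Measurable.ite (measurableSet_le measurable_const (he'.inner (𝕜 := ℝ) (by fun_prop)).abs)
    (hφ.comp (by fun_prop) (by fun_prop) (by fun_prop)) measurable_const
theorem measD_BadT (N : ℕ) (δ K2 t : ℝ) : MeasD (BadT P N δ K2 t) := by
  have h : MeasurableSet {q : (ℝ × R3 × R3) × ℝ | (t / K2 < q.2 ∧ q.2 < q.1.1 - t / K2) ∧
      BadP P N δ q.2 (q.1.2.1 - (q.1.1 - q.2) • q.1.2.2)} :=
    ((measurableSet_lt measurable_const measurable_snd).inter (measurableSet_lt measurable_snd (by fun_prop))).inter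
      ((measurableSet_BadP P N δ).preimage (f := fun q : (ℝ × R3 × R3) × ℝ =>
        (q.2, q.1.2.1 - (q.1.1 - q.2) • q.1.2.2)) (by fun_prop))
  exact measurable_measure_prodMk_left h
theorem meas2_Aop (N : ℕ) {F : Den} (hF : MeasD F) (s h : ℝ) {φ : R3 → R3 → ℝ≥0∞} (hφ : Meas2 φ) :
    Meas2 (Aop P N F s h φ) := by
  have m1 : Measurable fun q : R3 × R3 × R3 => postVel q.1 q.2.1 q.2.2 :=
    (by unfold postVel; fun_prop : Continuous fun q : R3 × R3 × R3 => postVel q.1 q.2.1 q.2.2).measurable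
  have m2 : Measurable fun q : R3 × R3 × R3 => postVelStar q.1 q.2.1 q.2.2 :=
    (by unfold postVelStar; fun_prop : Continuous fun q : R3 × R3 × R3 => postVelStar q.1 q.2.1 q.2.2).measurable
  have key : ∀ u : (((R3 × R3) × ℝ) × R3) × R3 → R3, Measurable u → Measurable fun p : (((R3 × R3) × ℝ) × R3) × R3 =>
      Ex F (s + p.1.1.2) (s + h) (p.1.1.1.1 + p.1.1.2 • p.1.1.1.2 + (h - p.1.1.2) • u p) (u p) *
        φ (p.1.1.1.1 + p.1.1.2 • p.1.1.1.2 + (h - p.1.1.2) • u p) (u p) := fun u hu =>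
    (meas_Ex hF (by fun_prop) measurable_const (by fun_prop) hu).mul (hφ.comp (by fun_prop) hu)
  unfold Meas2 Aop
  refine ((meas_Ex hF measurable_const measurable_const (by fun_prop) measurable_snd).mul
    (hφ.comp (by fun_prop) measurable_snd)).add ?_
  refine Measurable.lintegral_prod_right' (f := fun p : (R3 × R3) × ℝ => Ex F s (s + p.2) (p.1.1 + p.2 • p.1.2) p.1.2 *
    ∫⁻ a, ENNReal.ofReal (99 / 100) * gs P N (s + p.2) (p.1.1 + p.2 • p.1.2) a *
      ∫⁻ w, ENNReal.ofReal |inner ℝ (p.1.2 - a) w| *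
        (Ex F (s + p.2) (s + h) (p.1.1 + p.2 • p.1.2 + (h - p.2) • postVel p.1.2 a w) (postVel p.1.2 a w) *
            φ (p.1.1 + p.2 • p.1.2 + (h - p.2) • postVel p.1.2 a w) (postVel p.1.2 a w) +
          Ex F (s + p.2) (s + h) (p.1.1 + p.2 • p.1.2 + (h - p.2) • postVelStar p.1.2 a w) (postVelStar p.1.2 a w) *
            φ (p.1.1 + p.2 • p.1.2 + (h - p.2) • postVelStar p.1.2 a w) (postVelStar p.1.2 a w)) ∂sphereMeasure) ?_
  refine (meas_Ex hF measurable_const (by fun_prop) (by fun_prop) (by fun_prop)).mul ?_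
  refine Measurable.lintegral_prod_right' (f := fun p : ((R3 × R3) × ℝ) × R3 =>
    ENNReal.ofReal (99 / 100) * gs P N (s + p.1.2) (p.1.1.1 + p.1.2 • p.1.1.2) p.2 *
      ∫⁻ w, ENNReal.ofReal |inner ℝ (p.1.1.2 - p.2) w| *
        (Ex F (s + p.1.2) (s + h) (p.1.1.1 + p.1.2 • p.1.1.2 + (h - p.1.2) • postVel p.1.1.2 p.2 w)
            (postVel p.1.1.2 p.2 w) *
            φ (p.1.1.1 + p.1.2 • p.1.1.2 + (h - p.1.2) • postVel p.1.1.2 p.2 w) (postVel p.1.1.2 p.2 w) +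
          Ex F (s + p.1.2) (s + h) (p.1.1.1 + p.1.2 • p.1.1.2 + (h - p.1.2) • postVelStar p.1.1.2 p.2 w)
            (postVelStar p.1.1.2 p.2 w) *
            φ (p.1.1.1 + p.1.2 • p.1.1.2 + (h - p.1.2) • postVelStar p.1.1.2 p.2 w) (postVelStar p.1.1.2 p.2 w))
        ∂sphereMeasure) ?_
  refine (((measD_gs N).comp (by fun_prop) (by fun_prop) (by fun_prop)).const_mul _).mul ?_
  have a1 : Measurable fun p : (((R3 × R3) × ℝ) × R3) × R3 => (p.1.1.1.2, p.1.2, p.2) := by fun_prop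
  have a2 : Measurable fun p : (((R3 × R3) × ℝ) × R3) × R3 => ENNReal.ofReal |inner ℝ (p.1.1.1.2 - p.1.2) p.2| :=
    (by fun_prop : Continuous fun p : (((R3 × R3) × ℝ) × R3) × R3 =>
      |inner ℝ (p.1.1.1.2 - p.1.2) p.2|).measurable.ennreal_ofReal
  exact (a2.mul ((key _ (m1.comp a1)).add (key _ (m2.comp a1)))).lintegral_prod_right'
theorem measD_vth (N : ℕ) (ρ : ℝ) : MeasD (vth P N ρ) := by
  unfold MeasD vth
  refine Measurable.lintegral_prod_right' (f := fun p : (ℝ × R3 × R3) × ℝ =>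
    if nrm (p.1.2.1 + p.2 • p.1.2.2) ≤ P.X (N + 1) (p.1.1 + p.2) then
      ENNReal.ofReal (8 * (1 + nrm p.1.2.2) / (p.1.1 + p.2 + ρ)) else 0) ?_
  have h := measurable_nrm
  refine Measurable.ite (measurableSet_le (h.comp (by fun_prop)) ?_) (by fun_prop) measurable_const
  unfold Par.X
  fun_prop
theorem measD_Psi (N : ℕ) (ρ : ℝ) : MeasD (Psi P N ρ) := by
  have h := measurable_nrm
  have h1 := measurable_chi
  refine Measurable.ite (measurableSet_le (h.comp (by fun_prop)) measurable_const) ?_ measurable_const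
  exact Measurable.mul (by fun_prop) (measurable_expNeg.comp (measD_vth N ρ))
theorem sameInv_Psi (N : ℕ) (ρ s : ℝ) : SameInv (Psi P N ρ s) := by
  intro y y' h
  funext ξ
  simp only [Psi, vth, h.nrm_eq, fun z => (h.add z).nrm_eq]
theorem sameInv_gs (N : ℕ∞) (s : ℝ) : SameInv (gs P N s) := by
  intro y y' h
  rw [← gs_hat, h.hat_eq, gs_hat]
theorem K1op_mono {N : ℕ} {δt K K1 t : ℝ} {x v : R3} {H H' : Bm → ℝ → R3 → R3 → ℝ≥0∞}
    (h : ∀ k s a η, s ∈ Ioo (t / K1) t → gk P k s (x - (t - s) • v) a ≠ 0 → H k s a η ≤ H' k s a η) :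
    K1op P N δt K K1 t x v H ≤ K1op P N δt K K1 t x v H' := by
  refine mul_le_mul_right (setLIntegral_mono' measurableSet_Ioo fun s hs => ENNReal.tsum_le_tsum fun k => ?_) _
  split_ifs
  · refine lintegral_mono fun a => ?_
    by_cases h0 : gk P k s (x - (t - s) • v) a = 0
    · simp [h0]
    · exact mul_le_mul_right (mul_le_mul_right (pint_mono _ _ fun η => h k s a η hs h0) _) _
  · exact le_rfl
theorem DefsDX.meas_in {t : ℝ} {x v : R3} (k : Bm) {H : ℝ → R3 → R3 → ℝ≥0∞}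
    (hH : Measurable (fun q : ℝ × R3 × R3 => H q.1 q.2.1 q.2.2)) : Measurable fun p : ℝ × R3 =>
      gk P k p.1 (x - (t - p.1) • v) p.2 * (invn (v - p.2) * pint (v - p.2) v (H p.1 p.2)) :=
  ((measD_gk k).comp (by fun_prop) (by fun_prop) (by fun_prop)).mul ((DefsDX.meas_invn.comp (by fun_prop)).mul
    (meas_pint (MeasD.comp (F := H) hH (by fun_prop) (by fun_prop) (by fun_prop)) (by fun_prop) measurable_const))
theorem DefsDX.meas_in' {t : ℝ} {x v : R3} (k : Bm) {H : ℝ → R3 → R3 → ℝ≥0∞}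
    (hH : Measurable (fun q : ℝ × R3 × R3 => H q.1 q.2.1 q.2.2)) (s : ℝ) : Measurable fun a : R3 =>
      gk P k s (x - (t - s) • v) a * (invn (v - a) * pint (v - a) v (H s a)) :=
  (DefsDX.meas_in k hH).comp (f := fun a : R3 => (s, a)) measurable_prodMk_left
open Classical in
theorem DefsDX.meas_sum {N : ℕ} {δt K t : ℝ} {x v : R3} {H : Bm → ℝ → R3 → R3 → ℝ≥0∞}
    (hH : ∀ k, Measurable (fun q : ℝ × R3 × R3 => H k q.1 q.2.1 q.2.2)) : Measurable fun s =>
      ∑' k : Bm, if Thick P N δt K t k then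
        ∫⁻ a, gk P k s (x - (t - s) • v) a * (invn (v - a) * pint (v - a) v (H k s a)) else 0 := by
  refine Measurable.tsum fun k => ?_
  split_ifs
  · exact (DefsDX.meas_in k (hH k)).lintegral_prod_right'
  · exact measurable_const

theorem K1op_add {N : ℕ} {δt K K1 t : ℝ} {x v : R3} {H H' : Bm → ℝ → R3 → R3 → ℝ≥0∞}
    (hH : ∀ k, Measurable (fun q : ℝ × R3 × R3 => H k q.1 q.2.1 q.2.2)) :
    K1op P N δt K K1 t x v (fun k s a η => H k s a η + H' k s a η) =
      K1op P N δt K K1 t x v H + K1op P N δt K K1 t x v H' := by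
  unfold K1op
  rw [← mul_add, ← lintegral_add_left (DefsDX.meas_sum hH)]
  congr 1
  refine lintegral_congr fun s => ?_
  rw [← ENNReal.tsum_add]
  refine tsum_congr fun k => ?_
  split_ifs
  · rw [← lintegral_add_left (DefsDX.meas_in' k (hH k) s)]
    refine lintegral_congr fun a => ?_
    dsimp only
    rw [pint_add _ _ (MeasD.vel (F := H k) (hH k) s a), mul_add, mul_add]
  · simp
theorem K1op_cmul {N : ℕ} {δt K K1 t : ℝ} {x v : R3} {H : Bm → ℝ → R3 → R3 → ℝ≥0∞}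
    (hH : ∀ k, Measurable (fun q : ℝ × R3 × R3 => H k q.1 q.2.1 q.2.2)) (c : ℝ≥0∞) :
    K1op P N δt K K1 t x v (fun k s a η => c * H k s a η) = c * K1op P N δt K K1 t x v H := by
  unfold K1op
  rw [mul_left_comm, ← lintegral_const_mul _ (DefsDX.meas_sum hH)]
  congr 1
  refine lintegral_congr fun s => ?_
  rw [← ENNReal.tsum_mul_left]
  refine tsum_congr fun k => ?_
  split_ifs
  · rw [← lintegral_const_mul _ (DefsDX.meas_in' k (hH k) s)]
    refine lintegral_congr fun a => ?_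
    dsimp only
    rw [pint_cmul _ _ _ (MeasD.vel (F := H k) (hH k) s a), mul_left_comm (invn _), mul_left_comm]
  · simp
/-- on the support of a cold beam the third coordinate of `v - a` is not small -/
theorem slab_gk (hP : P.Ok) {δv : ℝ} (hw : P.w ≤ δv / 2) {v : R3} (hv : Slabs δv v) {k : Bm} {s : ℝ}
    (hs : s ∈ Icc (0 : ℝ) 1) {y a : R3} (h : gk P k s y a ≠ 0) : δv / 2 ≤ |(v - a) 2| ∧ ‖a‖ ≤ 2 := by
  obtain ⟨-, h1, h2, h3⟩ := gk_supp hP hs h
  have h4 := ww_le hP k.1.1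
  constructor
  · have h5 := h1 2
    rw [U_two] at h5
    have h6 : δv ≤ |v 2 - sg k.2| := by
      cases hk : k.2
      · simpa [sg] using hv.2.1
      · simpa [sg] using hv.1
    have h7 := abs_sub_le (v 2) (a 2) (sg k.2)
    rw [PiLp.sub_apply]
    linarith
  · have h5 := (U_tile hP hs.1 (core_tile hP h3)).2
    have h6 := norm_sub_le_norm_sub_add_norm_sub a (U P k s y) (EuclideanSpace.single 2 (sg k.2))
    have h7 := norm_le_norm_sub_add a (EuclideanSpace.single (2 : Fin 3) (sg k.2))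
    rw [PiLp.norm_single, Real.norm_eq_abs, abs_sg] at h7
    have h8 := hP.w1
    unfold kap at h5
    norm_num at h5 h8
    linarith
theorem K1op_le (hP : P.Ok) {N : ℕ} {δt K K1 t δv : ℝ} (hK1 : 1 ≤ K1) (ht0 : 0 < t) (ht1 : t ≤ 1) {x v : R3}
    (hw : P.w ≤ δv / 2) (hv : Slabs δv v) (hx : nrm x + t * ‖v‖ < 1 / 2)
    {H : Bm → ℝ → R3 → R3 → ℝ≥0∞} {c : ℝ → ℝ≥0∞}
    (h : ∀ k s a, s ∈ Ioo (t / K1) t → gk P k s (x - (t - s) • v) a ≠ 0 →
      invn (v - a) * pint (v - a) v (H k s a) ≤ c s) :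
    K1op P N δt K K1 t x v H ≤ 4 * ∫⁻ s in Ioo (t / K1) t, rb P N s (x - (t - s) • v) * c s := by
  refine mul_le_mul_right (setLIntegral_mono' measurableSet_Ioo fun s hs => ?_) _
  have hs0 : 0 < s := (div_pos ht0 (by linarith)).trans hs.1
  have hs' : s ∈ Icc (0 : ℝ) 1 := ⟨hs0.le, hs.2.le.trans ht1⟩
  have hy : nrm (x - (t - s) • v) < 1 / 2 := by
    have h1 := nrm_add_le x (-((t - s) • v))
    rw [nrm_neg, nrm_smul, abs_of_pos (sub_pos.2 hs.2), ← sub_eq_add_neg] at h1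
    have h2 := mul_le_mul (sub_le_self t hs0.le) (nrm_le_norm v) ((abs_nonneg _).trans (le_max_left _ _)) ht0.le
    linarith
  have hm : ∀ k : Bm, Measurable fun a => if (k.1.1 : ℕ∞) ≤ (N : ℕ∞) then gk P k s (hat (x - (t - s) • v)) a else 0 :=
    fun k => by
      split_ifs
      · exact (measD_gk k).vel _ _
      · exact measurable_const
  calc _ ≤ ∑' k : Bm, (∫⁻ a, if (k.1.1 : ℕ∞) ≤ (N : ℕ∞) then gk P k s (hat (x - (t - s) • v)) a else 0) * c s := by
        refine ENNReal.tsum_le_tsum fun k => ?_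
        split_ifs with h1 h2
        · rw [← (Same.hat_ hy).gk_eq, ← lintegral_mul_const _ ((measD_gk k).vel _ _)]
          refine lintegral_mono fun a => ?_
          by_cases h0 : gk P k s (x - (t - s) • v) a = 0
          · simp [h0]
          · exact mul_le_mul_right (h k s a hs h0) _
        · exact absurd (by exact_mod_cast h1.1) h2
        · exact zero_le
        · exact zero_le
    _ = (∫⁻ a, gs P N s (x - (t - s) • v) a) * c s := by
        rw [ENNReal.tsum_mul_right, ← lintegral_tsum fun k => (hm k).aemeasurable]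
        simp only [gs_eq hP N hs']
    _ ≤ _ := mul_le_mul_left ((lintegral_mono fun a => gs_le_G _ _ _ a).trans (G_mass hP N hs' _)) _

end Crest.Agent.R68
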