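import Crest.Agent.R68.EntL1
import Crest.Agent.R68.PropW

/-! Mild inequality for the deviation from the Maxwellian.  With `E = Ex F`, `M = M E(t1,t) + ∫ E(s,t) ν_F(s) M ds` (`expNeg_add_lintegral`, the integral is finite by `Bd` and `nu_of_PB`/`nu_le_pw`), `D = adiff F M`:
`Qp F F ≤ Qp M M + 2 Qp M D + Qp D D`, `Qp M M = M ν_M ≤ M ν_F + M ν_D` gives `F ≤ M + …`; and `ν_F M ≤ ν_M M + ν_D M`, `Qp M M ≤ Qp F F + 2 Qp M D` (with `m = min F M`, `M ≤ m + D`) gives `M ≤ F + …` (`Mild.restart`, `adiff_le_iff`, `Qp_symm`). -/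

set_option autoImplicit false

open MeasureTheory Set Filter Topology Crest.AnalysisR.VecCalc3 Crest.AnalysisR.PDE.Boltzmann
open scoped ENNReal NNReal

namespace Crest.Agent.R68

/-- deviation -/
noncomputable def Dv (F : Den) : Den := fun t x v => adiff (F t x v) (MM v)
/-- source of the deviation inequality -/
noncomputable def Sd (D : R3 → ℝ≥0∞) (v : R3) : ℝ≥0∞ := MM v * nu D v + 2 * Qp MM D v + Qp D D v

theorem DevMild.meas_adiff {α : Type} [MeasurableSpace α] {f g : α → ℝ≥0∞} (hf : Measurable f)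
    (hg : Measurable g) : Measurable fun a => adiff (f a) (g a) := by
  unfold adiff
  exact (hf.sub hg).add (hg.sub hf)

theorem DevMild.MM_le (v : R3) : MM v ≤ W (1 / 2) v := by
  refine (MM_le_W v).trans ?_
  unfold W
  refine ENNReal.ofReal_le_ofReal (Real.exp_le_exp.2 ?_)
  have := norm_nonneg v
  linarith

theorem DevMild.MM_mul (v : R3) : MM v * ENNReal.ofReal (1 + ‖v‖) ≤ 2 * W (1 / 2) v := by
  refine (mul_le_mul_left (MM_le_W v) _).trans ?_
  unfold W
  have h3 := norm_nonneg v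
  have e2 : ∀ r : ℝ, (2 : ℝ≥0∞) * ENNReal.ofReal r = ENNReal.ofReal (2 * r) := fun r => by
    rw [ENNReal.ofReal_mul (by norm_num), ENNReal.ofReal_ofNat]
  rw [← ENNReal.ofReal_mul (by positivity), e2]
  refine ENNReal.ofReal_le_ofReal ?_
  have h4 := Real.add_one_le_exp (1 / 2 * ‖v‖)
  have h5 : Real.exp (-(1 / 2 * ‖v‖)) = Real.exp (-(1 * ‖v‖)) * Real.exp (1 / 2 * ‖v‖) := by
    rw [← Real.exp_add]; congr 1; ring
  rw [h5]
  have := Real.exp_pos (-(1 * ‖v‖))
  nlinarith

theorem DevMild.PB_MM : PB MM (fun y => ENNReal.ofReal (4 * Real.exp (1 / 2)) * ew (1 / 2) y) :=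
  (PB_W (lam := 1 / 2) (by norm_num)).mono DevMild.MM_le fun _ _ => le_rfl

theorem DevMild.gain_le {f : R3 → ℝ≥0∞} (hf : Measurable f) (v : R3) :
    Qp f f v ≤ MM v * nu f v + Sd (fun a => adiff (f a) (MM a)) v := by
  set D : R3 → ℝ≥0∞ := fun a => adiff (f a) (MM a) with hDdef
  have hD : Measurable D := DevMild.meas_adiff hf measurable_MM
  have h1 : ∀ a, f a ≤ MM a + D a := fun a => le_add_adiff _ _
  have h2 : ∀ a, MM a ≤ f a + D a := fun a => by
    simp only [hDdef]; rw [adiff_comm]; exact le_add_adiff _ _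
  have h3 : nu MM v ≤ nu f v + nu D v := (nu_mono h2 v).trans (nu_add hf v).le
  calc Qp f f v ≤ Qp (fun a => MM a + D a) (fun a => MM a + D a) v := Qp_mono h1 h1 v
    _ = MM v * nu MM v + 2 * Qp MM D v + Qp D D v := by
        rw [Qp_add_left measurable_MM hD (measurable_MM.fun_add hD),
          Qp_add_right measurable_MM measurable_MM hD, Qp_add_right hD measurable_MM hD,
          Qp_symm hD measurable_MM, Qp_MM]
        ring
    _ ≤ MM v * (nu f v + nu D v) + 2 * Qp MM D v + Qp D D v := by gcongr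
    _ = _ := by unfold Sd; ring

theorem DevMild.loss_le {f : R3 → ℝ≥0∞} (hf : Measurable f) (v : R3) :
    MM v * nu f v ≤ Qp f f v + Sd (fun a => adiff (f a) (MM a)) v := by
  set D : R3 → ℝ≥0∞ := fun a => adiff (f a) (MM a) with hDdef
  have hD : Measurable D := DevMild.meas_adiff hf measurable_MM
  have h1 : ∀ a, f a ≤ MM a + D a := fun a => le_add_adiff _ _
  have hm : Measurable fun a => min (f a) (MM a) := hf.min measurable_MM
  have h2 : ∀ a, MM a ≤ min (f a) (MM a) + D a := fun a => by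
    rcases le_total (f a) (MM a) with h | h
    · rw [min_eq_left h]; simp only [hDdef]; rw [adiff_comm]; exact le_add_adiff _ _
    · rw [min_eq_right h]; exact le_self_add
  have h3 : nu f v ≤ nu MM v + nu D v := (nu_mono h1 v).trans (nu_add measurable_MM v).le
  have h4 : Qp MM MM v ≤ Qp f f v + 2 * Qp MM D v := by
    calc Qp MM MM v ≤ Qp (fun a => min (f a) (MM a) + D a) MM v := Qp_mono h2 (fun _ => le_rfl) v
      _ = Qp (fun a => min (f a) (MM a)) MM v + Qp MM D v := by
          rw [Qp_add_left hm hD measurable_MM, Qp_symm hD measurable_MM]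
      _ ≤ Qp (fun a => min (f a) (MM a)) (fun a => min (f a) (MM a) + D a) v + Qp MM D v := by
          gcongr; exact Qp_mono (fun _ => le_rfl) h2 v
      _ = Qp (fun a => min (f a) (MM a)) (fun a => min (f a) (MM a)) v +
            Qp (fun a => min (f a) (MM a)) D v + Qp MM D v := by
          rw [Qp_add_right hm hm hD]
      _ ≤ Qp f f v + Qp MM D v + Qp MM D v := by
          gcongr
          · exact Qp_mono (fun _ => min_le_left _ _) (fun _ => min_le_left _ _) v
          · exact Qp_mono (fun _ => min_le_right _ _) (fun _ => le_rfl) v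
      _ = _ := by ring
  calc MM v * nu f v ≤ MM v * (nu MM v + nu D v) := by gcongr
    _ = Qp MM MM v + MM v * nu D v := by rw [Qp_MM]; ring
    _ ≤ Qp f f v + 2 * Qp MM D v + MM v * nu D v + Qp D D v := by
        refine le_trans ?_ le_self_add; gcongr
    _ = _ := by unfold Sd; ring

theorem measD_Dv {F : Den} (hF : MeasD F) : MeasD (Dv F) :=
  DevMild.meas_adiff hF (measurable_MM.comp (measurable_snd.comp measurable_snd))
theorem measD_Sd {D : Den} (hD : MeasD D) : MeasD (fun t x v => Sd (D t x) v) := by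
  have hv : Measurable fun p : ℝ × R3 × R3 => p.2.2 := measurable_snd.comp measurable_snd
  have h1 : Measurable (Function.uncurry fun (p : ℝ × R3 × R3) (a : R3) => D p.1 p.2.1 a) :=
    hD.comp (measurable_fst.comp measurable_fst)
      (measurable_fst.comp (measurable_snd.comp measurable_fst)) measurable_snd
  have h2 : Measurable (Function.uncurry fun (_ : ℝ × R3 × R3) (a : R3) => MM a) :=
    measurable_MM.comp measurable_snd
  unfold MeasD Sd
  exact (((measurable_MM.comp hv).mul (meas_nu h1 hv)).add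
    ((meas_Qp h2 h1 hv).const_mul 2)).add (meas_Qp h1 h1 hv)
theorem Sd_mono {D D' : R3 → ℝ≥0∞} (h : ∀ a, D a ≤ D' a) (v : R3) : Sd D v ≤ Sd D' v := by
  unfold Sd
  gcongr
  · exact nu_mono h v
  · exact Qp_mono (fun _ => le_rfl) h v
  · exact Qp_mono h h v
theorem Sd_add {D D' : R3 → ℝ≥0∞} (hD : Measurable D) (hD' : Measurable D') (v : R3) :
    Sd (fun a => D a + D' a) v = Sd D v + Sd D' v + 2 * Qp D D' v := by
  unfold Sd
  rw [nu_add hD, Qp_add_right measurable_MM hD hD', Qp_add_left hD hD' (hD.fun_add hD'),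
    Qp_add_right hD hD hD', Qp_add_right hD' hD hD', Qp_symm hD' hD]
  ring
theorem dev_mild {F0 : R3 → R3 → ℝ≥0∞} {T : ℝ} {F : Den} (h : Sol F0 T F) {t1 t : ℝ} (h0 : 0 ≤ t1)
    (h1 : t1 ≤ t) (h2 : t ≤ T) (x v : R3) :
    Dv F t x v ≤ Dv F t1 (x - (t - t1) • v) v * Ex F t1 t x v +
      ∫⁻ s in Ioo t1 t, Ex F s t x v * Sd (Dv F s (x - (t - s) • v)) v := by
  have hF := h.mild.1
  obtain ⟨K, hK⟩ := h.bdd
  have hy : Measurable fun s : ℝ => x - (t - s) • v := by fun_prop
  have hu : Measurable (Function.uncurry fun (s : ℝ) (a : R3) => F s (x - (t - s) • v) a) :=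
    hF.comp measurable_fst (hy.comp measurable_fst) measurable_snd
  have ha : Measurable fun s : ℝ => nu (F s (x - (t - s) • v)) v := meas_nu hu measurable_const
  have hE : Measurable fun s : ℝ => Ex F s t x v :=
    meas_Ex hF measurable_id measurable_const measurable_const measurable_const
  have hQ : Measurable fun s : ℝ => Qp (F s (x - (t - s) • v)) (F s (x - (t - s) • v)) v :=
    meas_Qp hu hu measurable_const
  have hfin : ∫⁻ s in Ioo t1 t, nu (F s (x - (t - s) • v)) v ≠ ⊤ := by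
    obtain ⟨C, hC⟩ := nu_of_PB (lam := 1 / 2) (by norm_num)
    have hb := hC (measurable_W _) (PB_W (lam := 1 / 2) (by norm_num)) v
    refine ne_top_of_le_ne_top (b := ∫⁻ _ in Ioo t1 t, K * (C * ENNReal.ofReal (4 * Real.exp (1 / 2)) *
      ENNReal.ofReal (1 + ‖v‖))) ?_ (setLIntegral_mono' measurableSet_Ioo fun s hs => ?_)
    · rw [setLIntegral_const, Real.volume_Ioo]
      exact ENNReal.mul_ne_top (ENNReal.mul_ne_top ENNReal.coe_ne_top (ENNReal.mul_ne_top
        (ENNReal.mul_ne_top ENNReal.coe_ne_top ENNReal.ofReal_ne_top) ENNReal.ofReal_ne_top))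
        ENNReal.ofReal_ne_top
    · refine (nu_mono (hK s ⟨h0.trans hs.1.le, hs.2.le.trans h2⟩ _) v).trans ?_
      rw [nu_cmul (measurable_W _)]
      gcongr
  have hone : Ex F t1 t x v + ∫⁻ s in Ioo t1 t, nu (F s (x - (t - s) • v)) v * Ex F s t x v = 1 :=
    expNeg_add_lintegral ha hfin
  have hM : MM v = MM v * Ex F t1 t x v +
      ∫⁻ s in Ioo t1 t, Ex F s t x v * (MM v * nu (F s (x - (t - s) • v)) v) := by
    calc MM v = MM v * (Ex F t1 t x v +
          ∫⁻ s in Ioo t1 t, nu (F s (x - (t - s) • v)) v * Ex F s t x v) := by rw [hone, mul_one]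
      _ = _ := by
          rw [mul_add, ← lintegral_const_mul _ (ha.fun_mul hE)]
          congr 1
          refine lintegral_congr fun s => by ring
  have hR := h.mild.restart h0 h1 h2 x v
  have hV : ∀ s y, Measurable (F s y) := fun s y => locEx_measV hF s y
  refine adiff_le_iff.2 ⟨?_, ?_⟩
  · calc F t x v = _ := hR
      _ ≤ (MM v + Dv F t1 (x - (t - t1) • v) v) * Ex F t1 t x v +
          ∫⁻ s in Ioo t1 t, (Ex F s t x v * (MM v * nu (F s (x - (t - s) • v)) v) +
            Ex F s t x v * Sd (Dv F s (x - (t - s) • v)) v) := by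
          refine add_le_add (mul_le_mul_left (le_add_adiff _ _) _) (lintegral_mono fun s => ?_)
          rw [← mul_add]
          exact mul_le_mul_right (DevMild.gain_le (hV _ _) v) _
      _ = _ := by
          rw [lintegral_add_left (hE.fun_mul (ha.const_mul _)), add_mul, add_add_add_comm, ← hM]
  · calc MM v = _ := hM
      _ ≤ (F t1 (x - (t - t1) • v) v + Dv F t1 (x - (t - t1) • v) v) * Ex F t1 t x v +
          ∫⁻ s in Ioo t1 t, (Ex F s t x v * Qp (F s (x - (t - s) • v)) (F s (x - (t - s) • v)) v +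
            Ex F s t x v * Sd (Dv F s (x - (t - s) • v)) v) := by
          refine add_le_add (mul_le_mul_left ?_ _) (lintegral_mono fun s => ?_)
          · unfold Dv; rw [adiff_comm]; exact le_add_adiff _ _
          · rw [← mul_add]
            exact mul_le_mul_right (DevMild.loss_le (hV _ _) v) _
      _ = _ := by
          rw [lintegral_add_left (hE.fun_mul hQ), add_mul, add_add_add_comm, ← hR]
theorem Sd_PB : ∃ C : ℝ≥0, ∀ {D : R3 → ℝ≥0∞}, Measurable D → ∀ {A : ℝ≥0∞},
    PB D (fun y => A * ew (1 / 2) y) → ∀ v, Sd D v ≤ C * (A * (1 + A)) * W (1 / 2) v := by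
  obtain ⟨C1, hC1⟩ := nu_of_PB (lam := 1 / 2) (by norm_num)
  obtain ⟨C2, hC2⟩ := QQ_const (lam := 1 / 2) (by norm_num)
  refine ⟨2 * C1 + 2 * C2 * (4 * Real.exp (1 / 2)).toNNReal + C2, fun {D} hD {A} hP v => ?_⟩
  have e1 : A ≤ A * (1 + A) := le_mul_of_one_le_right' le_self_add
  have e2 : A * A ≤ A * (1 + A) := mul_le_mul_right le_add_self _
  have h1 : MM v * nu D v ≤ 2 * C1 * (A * (1 + A)) * W (1 / 2) v := by
    calc MM v * nu D v ≤ MM v * (C1 * A * ENNReal.ofReal (1 + ‖v‖)) :=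
          mul_le_mul_right (hC1 hD hP v) _
      _ = C1 * A * (MM v * ENNReal.ofReal (1 + ‖v‖)) := by ring
      _ ≤ C1 * (A * (1 + A)) * (2 * W (1 / 2) v) :=
          mul_le_mul' (mul_le_mul_right e1 _) (DevMild.MM_mul v)
      _ = _ := by ring
  have h2 : Qp MM D v ≤ C2 * ENNReal.ofReal (4 * Real.exp (1 / 2)) * (A * (1 + A)) * W (1 / 2) v := by
    calc Qp MM D v ≤ _ := hC2 measurable_MM hD DevMild.PB_MM hP v
      _ ≤ C2 * (ENNReal.ofReal (4 * Real.exp (1 / 2)) * (A * (1 + A))) * W (1 / 2) v := by gcongr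
      _ = _ := by ring
  have h3 : Qp D D v ≤ C2 * (A * (1 + A)) * W (1 / 2) v :=
    (hC2 hD hD hP hP v).trans (by gcongr)
  unfold Sd
  refine (add_le_add (add_le_add h1 (mul_le_mul_right h2 2)) h3).trans (le_of_eq ?_)
  push_cast
  rw [ENNReal.ofReal]
  ring
theorem Sd_crude (K : ℝ≥0) : ∃ C : ℝ≥0, ∀ {f : R3 → ℝ≥0∞}, Measurable f → (∀ a, f a ≤ K * W (1 / 2) a) →
    ∀ v, Sd (fun a => adiff (f a) (MM a)) v ≤ C * W (1 / 2) v := by
  obtain ⟨C, hC⟩ := Sd_PB
  set A : ℝ≥0 := (K + 1) * (4 * Real.exp (1 / 2)).toNNReal with hA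
  refine ⟨C * (A * (1 + A)), fun {f} hf hK v => ?_⟩
  have hP : PB (fun a => adiff (f a) (MM a)) (fun y => (A : ℝ≥0∞) * ew (1 / 2) y) := by
    refine ((PB_W (lam := 1 / 2) (by norm_num)).cmul (measurable_W _) ((K : ℝ≥0∞) + 1)).mono
      (fun a => ?_) (fun y _ => le_of_eq ?_)
    · unfold adiff
      rw [add_mul, one_mul]
      exact add_le_add (tsub_le_self.trans (hK a)) (tsub_le_self.trans (DevMild.MM_le a))
    · rw [hA]; push_cast; rw [ENNReal.ofReal, mul_assoc]
  refine (hC (DevMild.meas_adiff hf measurable_MM) hP v).trans (le_of_eq ?_)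
  push_cast
  ring
/-- decay of the survival factor once the local deviation is small -/
theorem Ex_decay {F : Den} (hF : MeasD F) {t2 t0 s t : ℝ} (h0 : t0 ≤ t)
    (hd : ∀ σ ∈ Ico t2 t0, ∀ y, dlt (F σ y) ≤ 7⁻¹) (x v : R3) :
    Ex F s t x v ≤ ENNReal.ofReal (Real.exp (-(2 * (1 + ‖v‖) * (t0 - max s t2)))) := by
  have hn := norm_nonneg v
  rcases le_total t0 (max s t2) with hm | hm
  · refine (Ex_le_one F s t x v).trans (ENNReal.one_le_ofReal.2 (Real.one_le_exp ?_))
    nlinarith
  · rw [← expNeg_ofReal (by nlinarith)]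
    unfold Ex
    refine expNeg_anti ?_
    calc ENNReal.ofReal (2 * (1 + ‖v‖) * (t0 - max s t2))
        = ∫⁻ _ in Ioo (max s t2) t0, ENNReal.ofReal (2 * (1 + ‖v‖)) := by
          rw [setLIntegral_const, Real.volume_Ioo, ← ENNReal.ofReal_mul (by positivity)]
      _ ≤ ∫⁻ σ in Ioo (max s t2) t0, nu (F σ (x - (t - σ) • v)) v :=
          setLIntegral_mono' measurableSet_Ioo fun σ hσ =>
            nu_ge_of_dlt (locEx_measV hF _ _)
              (hd σ ⟨(le_max_right _ _).trans hσ.1.le, hσ.2⟩ _) v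
      _ ≤ _ := lintegral_mono_set (Ioo_subset_Ioo (le_max_left _ _) h0)

end Crest.Agent.R68
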