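import Crest.Agent.R68.GoodB
import Crest.Agent.R68.CollSym

/-! One-dimensional convexity inequality along a characteristic, and the regularised entropy balance.
`chain_le`: `f` is continuous; for a partition, `β(f(t_{j+1})) - β(f(t_j)) ≤ β'(f(t_{j+1})) ∫_{t_j}^{t_{j+1}} S`; pass to the limit
(uniform continuity of `β' ∘ f`).  `f` must stay in `[0,∞)`: for a.e. `(x,v)` it does so at rational times, hence everywhere.
In `ent_balance` use `β(z) = (z+εM) log((z+εM)/M) - (z+εM) + M`, `β'(z) = log(z/M + ε)` truncated at `Λ`: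
`ℓ(z) = min (log (z/M+ε)) Λ` is bounded, continuous and monotone, and `β_Λ(z) = β(0) + ∫_0^z ℓ` is convex. -/

set_option autoImplicit false

open MeasureTheory Set Filter Topology Crest.AnalysisR.VecCalc3 Crest.AnalysisR.PDE.Boltzmann
open scoped ENNReal NNReal

namespace Crest.Agent.R68

namespace Ent1

theorem chain_eq {U : Set ℝ} {β β' : ℝ → ℝ} (hβ : ∀ z ∈ U, HasDerivWithinAt β (β' z) U z)
    (hc : ContinuousOn β' U) {S : ℝ → ℝ} {t f0 : ℝ} (ht : 0 ≤ t)
    (hS : IntegrableOn S (Ioo 0 t)) (hpos : ∀ s ∈ Icc 0 t, f0 + ∫ σ in Ioo 0 s, S σ ∈ U) :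
    β (f0 + ∫ σ in Ioo 0 t, S σ) - β f0 = ∫ s in Ioo 0 t, β' (f0 + ∫ σ in Ioo 0 s, S σ) * S s := by
  have hI : IntervalIntegrable S volume 0 t :=
    (intervalIntegrable_iff_integrableOn_Ioo_of_le ht).2 hS
  have hac := hI.absolutelyContinuousOnInterval_intervalIntegral (c := 0) left_mem_uIcc
  have he : ∀ s, 0 ≤ s → ∫ σ in (0 : ℝ)..s, S σ = ∫ σ in Ioo 0 s, S σ := fun s hs => by
    rw [intervalIntegral.integral_of_le hs, integral_Ioc_eq_integral_Ioo]
  set f : ℝ → ℝ := fun s => f0 + ∫ σ in (0 : ℝ)..s, S σ with hf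
  have hfU : ∀ s ∈ Icc 0 t, f s ∈ U := fun s hs => by
    simp only [hf]; rw [he s hs.1]; exact hpos s hs
  have hfc : ContinuousOn f (Icc 0 t) := by
    have := hac.continuousOn
    rw [uIcc_of_le ht] at this
    exact continuousOn_const.add this
  have hK := hfc.image_Icc ht
  have hKU : f '' Icc 0 t ⊆ U := by rintro _ ⟨s, hs, rfl⟩; exact hfU s hs
  obtain ⟨C, hC⟩ := (isCompact_Icc.image_of_continuousOn hfc).exists_bound_of_continuousOn (hc.mono hKU)
  have hlip : ∀ a ∈ Icc 0 t, ∀ b ∈ Icc 0 t, dist (β (f a)) (β (f b)) ≤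
      C * dist (∫ σ in (0 : ℝ)..a, S σ) (∫ σ in (0 : ℝ)..b, S σ) := by
    intro a ha b hb
    have := Convex.norm_image_sub_le_of_norm_hasDerivWithin_le (f := β) (f' := β') (s := f '' Icc 0 t)
      (fun x hx => (hβ x (hKU hx)).mono hKU) hC (by rw [hK]; exact convex_Icc _ _)
      (mem_image_of_mem f hb) (mem_image_of_mem f ha)
    rw [dist_eq_norm, dist_eq_norm]
    simpa [hf] using this
  have hac2 : AbsolutelyContinuousOnInterval (fun s => β (f s)) 0 t := by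
    have h1 := hac.const_mul C
    have h2 : Tendsto (fun E : ℕ × (ℕ → ℝ × ℝ) => C * ∑ i ∈ Finset.range E.1,
        dist (∫ σ in (0 : ℝ)..(E.2 i).1, S σ) (∫ σ in (0 : ℝ)..(E.2 i).2, S σ)) _ (𝓝 (C * 0)) :=
      Tendsto.const_mul C hac
    rw [mul_zero] at h2
    refine squeeze_zero' (Eventually.of_forall fun E => Finset.sum_nonneg fun _ _ => dist_nonneg) ?_ h2
    refine eventually_inf_principal.2 (Eventually.of_forall fun E hE => ?_)
    rw [Finset.mul_sum]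
    refine Finset.sum_le_sum fun i hi => ?_
    have := hE.1 i hi
    rw [uIcc_of_le ht] at this
    exact hlip _ this.1 _ this.2
  have h3 := hac2.integral_deriv_eq_sub
  have h4 : β (f t) - β (f 0) = β (f0 + ∫ σ in Ioo 0 t, S σ) - β f0 := by
    simp only [hf, intervalIntegral.integral_same, add_zero, he t ht]
  rw [← h4, ← h3, intervalIntegral.integral_of_le ht, integral_Ioc_eq_integral_Ioo]
  refine integral_congr_ae ?_
  filter_upwards [ae_restrict_of_ae hI.ae_hasDerivAt_integral, ae_restrict_mem measurableSet_Ioo]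
    with s hs hs'
  have h5 := (hs (by rw [uIcc_of_le ht]; exact Ioo_subset_Icc_self hs') 0 left_mem_uIcc).const_add f0
  have h6 := (hβ (f s) (hfU s (Ioo_subset_Icc_self hs'))).comp_hasDerivAt s h5 (by
    filter_upwards [Ioo_mem_nhds hs'.1 hs'.2] with y hy using hfU y (Ioo_subset_Icc_self hy))
  rw [← he s hs'.1.le]
  exact h6.deriv

end Ent1

theorem chain_le {β β' : ℝ → ℝ} (hβ : ∀ z, 0 ≤ z → HasDerivWithinAt β (β' z) (Ici 0) z)
    (hc : ContinuousOn β' (Ici 0)) (hm : MonotoneOn β' (Ici 0)) {S : ℝ → ℝ} {t f0 : ℝ} (ht : 0 ≤ t)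
    (hS : IntegrableOn S (Ioo 0 t)) (hpos : ∀ s ∈ Icc 0 t, 0 ≤ f0 + ∫ σ in Ioo 0 s, S σ) :
    β (f0 + ∫ σ in Ioo 0 t, S σ) - β f0 ≤ ∫ s in Ioo 0 t, β' (f0 + ∫ σ in Ioo 0 s, S σ) * S s := by
  exact (Ent1.chain_eq hβ hc ht hS hpos).le
/-- truncated regularised logarithm -/
noncomputable def ell (ε Λ : ℝ) (v : R3) (z : ℝ) : ℝ := min (Real.log (z / maxwellian v + ε)) Λ
/-- its primitive times `M`-normalisation -/
noncomputable def bet (ε Λ : ℝ) (v : R3) (z : ℝ) : ℝ := ∫ u in (0 : ℝ)..z, ell ε Λ v u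
namespace Ent1

theorem max_pos (v : R3) : 0 < maxwellian v := by
  unfold maxwellian; positivity

theorem continuous_max : Continuous maxwellian := by
  unfold maxwellian; fun_prop

theorem meas_ell (ε Λ : ℝ) : Measurable (fun z : R3 × ℝ => ell ε Λ z.1 z.2) := by
  unfold ell
  exact (((measurable_snd.div (continuous_max.measurable.comp measurable_fst)).add_const ε).log).min
    measurable_const

theorem ell_abs {ε : ℝ} (hε : 0 < ε) (Λ : ℝ) (v : R3) {z : ℝ} (hz : 0 ≤ z) :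
    |ell ε Λ v z| ≤ |Real.log ε| + |Λ| := by
  have h1 : Real.log ε ≤ Real.log (z / maxwellian v + ε) :=
    Real.log_le_log hε (by linarith [div_nonneg hz (max_pos v).le])
  have := neg_abs_le (Real.log ε)
  have := neg_abs_le Λ
  have := le_abs_self Λ
  have := abs_nonneg Λ
  have := abs_nonneg (Real.log ε)
  unfold ell
  rw [abs_le]
  exact ⟨le_min (by linarith) (by linarith), (min_le_right _ _).trans (by linarith)⟩

theorem bet_abs {ε : ℝ} (hε : 0 < ε) (Λ : ℝ) (v : R3) {z : ℝ} (hz : 0 ≤ z) :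
    |bet ε Λ v z| ≤ (|Real.log ε| + |Λ|) * z := by
  have := intervalIntegral.norm_integral_le_of_norm_le_const (a := 0) (b := z)
    (f := fun u => ell ε Λ v u) (C := |Real.log ε| + |Λ|) (fun u hu => by
      rw [uIoc_of_le hz] at hu
      exact ell_abs hε Λ v hu.1.le)
  rwa [sub_zero, abs_of_nonneg hz] at this

theorem bet_eq (ε Λ : ℝ) (v : R3) {z : ℝ} (hz : 0 ≤ z) :
    bet ε Λ v z = ∫ u in Ioo 0 z, ell ε Λ v u := by
  rw [bet, intervalIntegral.integral_of_le hz, integral_Ioc_eq_integral_Ioo]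

theorem meas_bet (ε Λ : ℝ) {f : R3 × R3 → ℝ} (hf : Measurable f) (h0 : ∀ q, 0 ≤ f q) :
    Measurable (fun q : R3 × R3 => bet ε Λ q.2 (f q)) := by
  simp only [bet_eq ε Λ _ (h0 _)]
  exact Sharp.meas_timeInt_real (g := fun (q : R3 × R3) u => ell ε Λ q.2 u)
    ((meas_ell ε Λ).comp (f := fun z : (R3 × R3) × ℝ => (z.1.2, z.2)) (by fun_prop)) hf

theorem int_F {F0 : R3 → R3 → ℝ} {T : ℝ} {F : ℝ → R3 → R3 → ℝ} {𝓜 : Den} (h : Good F0 T F 𝓜)
    {t : ℝ} (ht : t ∈ Icc 0 T) : Integrable (fun q : R3 × R3 => F t q.1 q.2) Sharp.muC := by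
  refine Integrable.mono (h.integrable t ht) (h.meas.comp (f := fun q : R3 × R3 => (t, q.1, q.2))
    (by fun_prop)).aestronglyMeasurable (ae_of_all _ fun q => ?_)
  rw [norm_mul, Real.norm_of_nonneg (by positivity : 0 ≤ (1 + ‖q.2‖) ^ 2)]
  exact le_mul_of_one_le_left (norm_nonneg _) (one_le_pow₀ (by linarith [norm_nonneg q.2]))

theorem int_bet {F0 : R3 → R3 → ℝ} {T : ℝ} {F : ℝ → R3 → R3 → ℝ} {𝓜 : Den} (h : Good F0 T F 𝓜)
    {ε : ℝ} (hε : 0 < ε) (Λ : ℝ) {t : ℝ} (ht : t ∈ Icc 0 T) :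
    Integrable (fun q : R3 × R3 => bet ε Λ q.2 (F t q.1 q.2)) Sharp.muC :=
  ((int_F h ht).const_mul (|Real.log ε| + |Λ|)).mono'
    (meas_bet ε Λ (h.meas.comp (f := fun q : R3 × R3 => (t, q.1, q.2)) (by fun_prop))
      (fun q => h.nonneg t q.1 q.2 ht.1)).aestronglyMeasurable
    (ae_of_all _ fun q => bet_abs hε Λ q.2 (h.nonneg t q.1 q.2 ht.1))

theorem int_ell_src {F0 : R3 → R3 → ℝ} {T : ℝ} {F : ℝ → R3 → R3 → ℝ} {𝓜 : Den} (h : Good F0 T F 𝓜)
    {ε : ℝ} (hε : 0 < ε) (Λ : ℝ) :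
    IntegrableOn (fun p : ℝ × R3 × R3 => ell ε Λ p.2.2 (F p.1 p.2.1 p.2.2) * Src F p.1 p.2.1 p.2.2)
      (Ioo 0 T ×ˢ (cell ×ˢ (univ : Set R3))) := by
  refine (Sharp.src_int h).bdd_mul (c := |Real.log ε| + |Λ|)
    ((meas_ell ε Λ).comp (measurable_snd.snd.prodMk h.meas)).aestronglyMeasurable ?_
  rw [Sharp.vol3]
  filter_upwards [Sharp.ae_fst_mem measurableSet_Ioo] with p hp
  exact ell_abs hε Λ _ (h.nonneg _ _ _ hp.1.le)

theorem chain_bet {ε : ℝ} (hε : 0 < ε) (Λ : ℝ) (v : R3) {S G : ℝ → ℝ} {t f0 : ℝ} (ht : 0 ≤ t)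
    (hS : IntegrableOn S (Ioo 0 t)) (hf0 : 0 ≤ f0) (hG0 : ∀ s, 0 ≤ s → 0 ≤ G s)
    (hG : ∀ᵐ s ∂(volume.restrict (Ioo 0 t)), G s = f0 + ∫ σ in Ioo 0 s, S σ)
    (hGt : G t = f0 + ∫ σ in Ioo 0 t, S σ) :
    bet ε Λ v (G t) - bet ε Λ v f0 = ∫ s in Ioo 0 t, ell ε Λ v (G s) * S s := by
  have hc : Continuous (fun u => ell ε Λ v (max u 0)) := by
    unfold ell
    refine Continuous.min (Continuous.log (by fun_prop) fun u => ?_) continuous_const
    have := div_nonneg (le_max_right u 0) (max_pos v).le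
    linarith
  have hb : ∀ z, 0 ≤ z → bet ε Λ v z = ∫ u in (0 : ℝ)..z, ell ε Λ v (max u 0) := by
    intro z hz
    refine intervalIntegral.integral_congr fun u hu => ?_
    rw [uIcc_of_le hz] at hu
    simp only [max_eq_left hu.1]
  have := chain_eq (U := univ) (β := fun z => ∫ u in (0 : ℝ)..z, ell ε Λ v (max u 0))
    (β' := fun u => ell ε Λ v (max u 0))
    (fun z _ => (hc.integral_hasStrictDerivAt 0 z).hasDerivAt.hasDerivWithinAt) hc.continuousOn
    (f0 := f0) ht hS (fun _ _ => mem_univ _)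
  rw [hb _ (hG0 t ht), hb _ hf0, hGt, this]
  refine integral_congr_ae ?_
  filter_upwards [hG, ae_restrict_mem measurableSet_Ioo] with s hs hs'
  rw [← hs, max_eq_left (hG0 s hs'.1.le)]

end Ent1

theorem ent_balance {F0 : R3 → R3 → ℝ} {T : ℝ} {F : ℝ → R3 → R3 → ℝ} {𝓜 : Den} (h : Good F0 T F 𝓜)
    {ε Λ : ℝ} (hε : 0 < ε) {t : ℝ} (ht : t ∈ Icc 0 T) :
    (∫ q in cell ×ˢ (univ : Set R3), bet ε Λ q.2 (F t q.1 q.2)) -
      ∫ q in cell ×ˢ (univ : Set R3), bet ε Λ q.2 (F0 q.1 q.2) ≤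
    ∫ p in Ioo 0 t ×ˢ (cell ×ˢ (univ : Set R3)),
      ell ε Λ p.2.2 (F p.1 p.2.1 p.2.2) * Src F p.1 p.2.1 p.2.2 := by
  have hG := Sharp.good_mono h ht.2
  have i1 := Ent1.int_bet h hε Λ ht
  have i0 : Integrable (fun q : R3 × R3 => bet ε Λ q.2 (F0 q.1 q.2)) Sharp.muC := by
    simpa only [h.init] using Ent1.int_bet hG hε Λ ⟨le_rfl, ht.1⟩
  have hp : ∀ v, IsPeriodic3 (fun x => bet ε Λ v (F t x v)) := fun v x i => by
    have := h.per t ht v x i
    simp only at this ⊢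
    rw [this]
  rw [Sharp.shear2_integral (f := fun x v => bet ε Λ v (F t x v)) hp t i1.1,
    Sharp.shear3_integral (G := fun s x v => ell ε Λ v (F s x v) * Src F s x v) measurableSet_Ioo
      (fun s hs v x i => by
        have a1 := hG.per s (Ioo_subset_Icc_self hs) v x i
        have a2 := hG.per_src s (Ioo_subset_Icc_self hs) v x i
        simp only at a1 a2 ⊢
        rw [a1, a2]) (Ent1.int_ell_src hG hε Λ),
    ← integral_sub (Sharp.shear2_integrable (f := fun x v => bet ε Λ v (F t x v)) hp t i1) i0]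
  refine le_of_eq (integral_congr_ae ?_)
  filter_upwards [Sharp.sharp_ae hG, Sharp.plain_sharp h ht] with q hq hq'
  exact Ent1.chain_bet hε Λ q.2 (G := fun s => F s (q.1 + s • q.2) q.2) ht.1 hq.1
    (by rw [← h.init]; exact h.nonneg _ _ _ le_rfl) (fun s hs => h.nonneg _ _ _ hs) hq.2 hq'

end Crest.Agent.R68
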