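import Crest.Agent.R68.Ent1

/-! Pointwise inequalities for the H-theorem, and the limit of the regularised entropies. -/

set_option autoImplicit false

open MeasureTheory Set Filter Topology Crest.AnalysisR.VecCalc3 Crest.AnalysisR.PDE.Boltzmann
open scoped ENNReal NNReal

namespace Crest.Agent.R68.Ent2

/-- the diagonal regularisation of `log (f / M)` -/
noncomputable def lk (k : ℕ) (M f : ℝ) : ℝ := min (Real.log (f / M + 1 / ((k : ℝ) + 1))) k
/-- an upper bound -/
noncomputable def EE (M f : ℝ) : ℝ := Real.log (f / M + 1)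

section
variable {k : ℕ} {M f : ℝ}

theorem EE_nonneg (hM : 0 < M) (hf : 0 ≤ f) : 0 ≤ EE M f :=
  Real.log_nonneg (by have := div_nonneg hf hM.le; linarith)

theorem log_le (hM : 0 < M) (hf : 0 ≤ f) : Real.log (f / M + 1 / ((k : ℝ) + 1)) ≤ EE M f := by
  refine Real.log_le_log (by positivity) (add_le_add le_rfl ?_)
  rw [div_le_one (by positivity)]
  linarith [(Nat.cast_nonneg k : (0 : ℝ) ≤ k)]

theorem lk_le (hM : 0 < M) (hf : 0 ≤ f) : lk k M f ≤ EE M f := (min_le_left _ _).trans (log_le hM hf)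

theorem log_le_EE (hM : 0 < M) (hf : 0 < f) : Real.log (f / M) ≤ EE M f :=
  Real.log_le_log (by positivity) (by linarith)

theorem le_lk (hM : 0 < M) (hf : 0 < f) : Real.log (f / M) - EE M f ≤ lk k M f := by
  have h1 := log_le_EE hM hf
  have h2 := EE_nonneg hM hf.le
  have h3 : Real.log (f / M) ≤ Real.log (f / M + 1 / ((k : ℝ) + 1)) :=
    Real.log_le_log (by positivity) (le_add_of_nonneg_right (by positivity))
  exact le_min (by linarith) (by linarith [(Nat.cast_nonneg k : (0 : ℝ) ≤ k)])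

theorem abs_lk (hM : 0 < M) (hf : 0 ≤ f) : |lk k M f| ≤ |Real.log (1 / ((k : ℝ) + 1))| + k := by
  have h3 : Real.log (1 / ((k : ℝ) + 1)) ≤ Real.log (f / M + 1 / ((k : ℝ) + 1)) :=
    Real.log_le_log (by positivity) (le_add_of_nonneg_left (by positivity))
  have h1 := neg_abs_le (Real.log (1 / ((k : ℝ) + 1)))
  have h2 := abs_nonneg (Real.log (1 / ((k : ℝ) + 1)))
  have h4 : (0 : ℝ) ≤ k := Nat.cast_nonneg k
  exact abs_le.2 ⟨le_min (by linarith) (by linarith), (min_le_right _ _).trans (by linarith)⟩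

theorem lk_tendsto (hM : 0 < M) (hf : 0 < f) :
    Tendsto (fun k => lk k M f) atTop (𝓝 (Real.log (f / M))) := by
  have h1 : Tendsto (fun k : ℕ => f / M + 1 / ((k : ℝ) + 1)) atTop (𝓝 (f / M + 0)) :=
    tendsto_const_nhds.add tendsto_one_div_add_atTop_nhds_zero_nat
  rw [add_zero] at h1
  refine (h1.log (by positivity)).congr' ?_
  filter_upwards [tendsto_natCast_atTop_atTop.eventually_ge_atTop (EE M f)] with k hk
  exact (min_eq_left ((log_le hM hf.le).trans hk)).symm

theorem lk_zero : Tendsto (fun k => lk k M 0) atTop atBot := by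
  refine tendsto_atBot_mono (fun k => min_le_left _ _) ?_
  simp only [zero_div, zero_add, one_div, Real.log_inv]
  exact tendsto_neg_atTop_atBot.comp (Real.tendsto_log_atTop.comp
    (tendsto_atTop_add_const_right _ _ tendsto_natCast_atTop_atTop))

theorem EE_le (hM : 0 < M) (hM1 : M ≤ 1) (hf : 0 ≤ f) :
    EE M f ≤ 1 + max (Real.log f) 0 - Real.log M := by
  have h1 : EE M f = Real.log (f + M) - Real.log M := by
    rw [EE, ← Real.log_div (by positivity) hM.ne', add_div, div_self hM.ne']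
  have h2 : Real.log 2 ≤ 1 := by linarith [Real.log_two_lt_d9]
  rw [h1, sub_le_sub_iff_right]
  rcases le_total f 1 with h | h
  · have : Real.log (f + M) ≤ Real.log 2 := Real.log_le_log (by positivity) (by linarith)
    linarith [le_max_right (Real.log f) 0]
  · have : Real.log (f + M) ≤ Real.log (2 * f) := Real.log_le_log (by positivity) (by linarith)
    rw [Real.log_mul (by norm_num) (by positivity)] at this
    linarith [le_max_left (Real.log f) 0]

end

section
variable {k : ℕ} {M1 M2 M3 M4 f1 f2 f3 f4 : ℝ}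

theorem lk_sum (h1 : 0 < M1) (h2 : 0 < M2) (g1 : 0 ≤ f1) (g2 : 0 ≤ f2) (h : f1 * f2 = 0) :
    Tendsto (fun k => lk k M1 f1 + lk k M2 f2) atTop atBot := by
  rcases mul_eq_zero.1 h with rfl | rfl
  · exact tendsto_atBot_add_right_of_ge _ (EE M2 f2) lk_zero fun k => lk_le h2 g2
  · exact tendsto_atBot_add_left_of_ge _ (EE M1 f1) (fun k => lk_le h1 g1) lk_zero

/-- regularised dissipation -/
noncomputable def Dk (k : ℕ) (M1 M2 M3 M4 f1 f2 f3 f4 : ℝ) : ℝ :=
  (f3 * f4 - f1 * f2) * (lk k M3 f3 + lk k M4 f4 - lk k M1 f1 - lk k M2 f2)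

/-- error terms -/
noncomputable def KK (M1 M2 f1 f2 : ℝ) : ℝ := f1 * (1 + EE M1 f1) * f2 + (f1 + M1) * M2

theorem KK_nonneg (h1 : 0 < M1) (h2 : 0 < M2) (g1 : 0 ≤ f1) (g2 : 0 ≤ f2) : 0 ≤ KK M1 M2 f1 f2 := by
  have := EE_nonneg h1 g1
  unfold KK
  positivity

theorem Dk_symm : Dk k M1 M2 M3 M4 f1 f2 f3 f4 = Dk k M3 M4 M1 M2 f3 f4 f1 f2 := by
  unfold Dk; ring

theorem pos_of_mul (g1 : 0 ≤ f1) (g2 : 0 ≤ f2) (h : 0 < f1 * f2) : 0 < f1 ∧ 0 < f2 :=
  ⟨g1.lt_of_ne fun e => by simp [← e] at h, g2.lt_of_ne fun e => by simp [← e] at h⟩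

theorem half_lower (h1 : 0 < M1) (h2 : 0 < M2) (h3 : 0 < M3) (h4 : 0 < M4) (g1 : 0 ≤ f1)
    (g2 : 0 ≤ f2) (g3 : 0 ≤ f3) (g4 : 0 ≤ f4) (hM : M1 * M2 = M3 * M4) (h : f1 * f2 ≤ f3 * f4) :
    0 ≤ Dk k M1 M2 M3 M4 f1 f2 f3 f4 +
      (KK M1 M2 f1 f2 + KK M2 M1 f2 f1 + KK M3 M4 f3 f4 + KK M4 M3 f4 f3) := by
  have e1 := EE_nonneg h1 g1
  have e2 := EE_nonneg h2 g2
  have e3 := EE_nonneg h3 g3
  have e4 := EE_nonneg h4 g4
  have hA : 0 ≤ f1 * f2 := mul_nonneg g1 g2
  rcases (hA.trans h).eq_or_lt with h0 | h0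
  · have : f3 * f4 - f1 * f2 = 0 := by linarith
    rw [Dk, this, zero_mul, zero_add]
    linarith [KK_nonneg h1 h2 g1 g2, KK_nonneg h2 h1 g2 g1, KK_nonneg h3 h4 g3 g4,
      KK_nonneg h4 h3 g4 g3]
  obtain ⟨p3, p4⟩ := pos_of_mul g3 g4 h0
  have a1 := lk_le (k := k) h1 g1
  have a2 := lk_le (k := k) h2 g2
  have a3 := le_lk (k := k) h3 p3
  have a4 := le_lk (k := k) h4 p4
  have hB : (f1 + M1) * (f2 + M2) / (f3 * f4) =
      (f1 / M1 + 1) * (f2 / M2 + 1) / (f3 / M3 * (f4 / M4)) := by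
    rw [div_add_one h1.ne', div_add_one h2.ne', div_mul_div_comm, div_mul_div_comm, hM,
      div_div_div_cancel_right₀ (by positivity)]
  have a5 := Real.log_le_sub_one_of_pos (x := (f1 + M1) * (f2 + M2) / (f3 * f4)) (by positivity)
  have a6 : Real.log ((f1 + M1) * (f2 + M2) / (f3 * f4)) =
      EE M1 f1 + EE M2 f2 - (Real.log (f3 / M3) + Real.log (f4 / M4)) := by
    rw [hB, Real.log_div (by positivity) (by positivity), Real.log_mul (by positivity) (by positivity),
      Real.log_mul (by positivity) (by positivity)]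
    rfl
  set Y := (f1 + M1) * (f2 + M2) / (f3 * f4) + EE M3 f3 + EE M4 f4 with hY
  have hY0 : 0 ≤ Y := by positivity
  have a7 : -Y ≤ lk k M3 f3 + lk k M4 f4 - lk k M1 f1 - lk k M2 f2 := by linarith
  have a8 := mul_le_mul_of_nonneg_left a7 (sub_nonneg.2 h)
  have a9 : f3 * f4 * Y = (f1 + M1) * (f2 + M2) + f3 * f4 * (EE M3 f3 + EE M4 f4) := by
    rw [hY]; field_simp; ring
  have b1 := mul_nonneg hA hY0
  have b2 := mul_nonneg hA e1
  have b3 := mul_nonneg hA e2
  have b4 : 0 ≤ (f3 + M3) * M4 := by positivity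
  have b5 : 0 ≤ (f4 + M4) * M3 := by positivity
  have b6 : 0 ≤ M1 * M2 := by positivity
  unfold Dk KK
  nlinarith

theorem pt_lower (h1 : 0 < M1) (h2 : 0 < M2) (h3 : 0 < M3) (h4 : 0 < M4) (g1 : 0 ≤ f1)
    (g2 : 0 ≤ f2) (g3 : 0 ≤ f3) (g4 : 0 ≤ f4) (hM : M1 * M2 = M3 * M4) :
    0 ≤ Dk k M1 M2 M3 M4 f1 f2 f3 f4 +
      (KK M1 M2 f1 f2 + KK M2 M1 f2 f1 + KK M3 M4 f3 f4 + KK M4 M3 f4 f3) := by
  rcases le_total (f1 * f2) (f3 * f4) with h | h
  · exact half_lower h1 h2 h3 h4 g1 g2 g3 g4 hM h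
  · have := half_lower (k := k) h3 h4 h1 h2 g3 g4 g1 g2 hM.symm h
    rw [Dk_symm]
    linarith

theorem half_top (h1 : 0 < M1) (h2 : 0 < M2) (h3 : 0 < M3) (h4 : 0 < M4) (g1 : 0 ≤ f1)
    (g2 : 0 ≤ f2) (g3 : 0 ≤ f3) (g4 : 0 ≤ f4) (h : f1 * f2 = 0) (h' : 0 < f3 * f4) (G : ℝ) :
    Tendsto (fun k => ENNReal.ofReal (Dk k M1 M2 M3 M4 f1 f2 f3 f4 + G)) atTop (𝓝 ⊤) := by
  obtain ⟨p3, p4⟩ := pos_of_mul g3 g4 h'
  refine ENNReal.tendsto_ofReal_atTop.comp (tendsto_atTop_add_const_right _ _ ?_)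
  have := (((lk_tendsto h3 p3).add (lk_tendsto h4 p4)).add_atTop
    (tendsto_neg_atBot_atTop.comp (lk_sum h1 h2 g1 g2 h))).const_mul_atTop h'
  refine this.congr fun k => ?_
  simp only [Dk, h, Function.comp]
  ring

theorem pt_tendsto (h1 : 0 < M1) (h2 : 0 < M2) (h3 : 0 < M3) (h4 : 0 < M4) (g1 : 0 ≤ f1)
    (g2 : 0 ≤ f2) (g3 : 0 ≤ f3) (g4 : 0 ≤ f4) (hM : M1 * M2 = M3 * M4) {G : ℝ} (hG : 0 ≤ G) :
    Tendsto (fun k => ENNReal.ofReal (Dk k M1 M2 M3 M4 f1 f2 f3 f4 + G)) atTop
      (𝓝 (pairDissipation (f3 * f4) (f1 * f2) + ENNReal.ofReal G)) := by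
  rcases (mul_nonneg g1 g2).eq_or_lt with a | a <;> rcases (mul_nonneg g3 g4).eq_or_lt with b | b
  · simp [pairDissipation, Dk, ← a, ← b]
  · rw [pairDissipation, if_neg (fun h => b.ne' h.1), if_neg (fun h => h.2.ne a), top_add]
    exact half_top h1 h2 h3 h4 g1 g2 g3 g4 a.symm b G
  · rw [pairDissipation, if_neg (fun h => a.ne' h.2), if_neg (fun h => h.1.ne b), top_add]
    simp only [Dk_symm (M1 := M1)]
    exact half_top h3 h4 h1 h2 g3 g4 g1 g2 b.symm a G
  · obtain ⟨p1, p2⟩ := pos_of_mul g1 g2 a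
    obtain ⟨p3, p4⟩ := pos_of_mul g3 g4 b
    have e : Real.log (f3 / M3) + Real.log (f4 / M4) - Real.log (f1 / M1) - Real.log (f2 / M2) =
        Real.log (f3 * f4 / (f1 * f2)) := by
      rw [sub_sub, ← Real.log_mul (by positivity) (by positivity),
        ← Real.log_mul (by positivity) (by positivity), ← Real.log_div (by positivity) (by positivity),
        div_mul_div_comm, div_mul_div_comm, hM, div_div_div_cancel_right₀ (by positivity)]
    have h0 : 0 ≤ (f3 * f4 - f1 * f2) * Real.log (f3 * f4 / (f1 * f2)) := by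
      rcases le_total (f1 * f2) (f3 * f4) with h | h
      · exact mul_nonneg (sub_nonneg.2 h) (Real.log_nonneg ((one_le_div a).2 h))
      · exact mul_nonneg_of_nonpos_of_nonpos (sub_nonpos.2 h)
          (Real.log_nonpos (by positivity) ((div_le_one a).2 h))
    rw [pairDissipation, if_neg (fun h => a.ne' h.2), if_pos ⟨b, a⟩, ← ENNReal.ofReal_add h0 hG, ← e]
    exact ENNReal.tendsto_ofReal ((((((lk_tendsto h3 p3).add (lk_tendsto h4 p4)).sub
      (lk_tendsto h1 p1)).sub (lk_tendsto h2 p2)).const_mul _).add_const G)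

end

theorem mw_pos (v : R3) : 0 < maxwellian v := by unfold maxwellian; positivity

theorem mw_le (v : R3) : maxwellian v ≤ Real.exp (-‖v‖ ^ 2 / 2) :=
  mul_le_of_le_one_left (Real.exp_pos _).le
    (Real.rpow_le_one_of_one_le_of_nonpos (by linarith [Real.pi_gt_three]) (by norm_num))

theorem mw_le_one (v : R3) : maxwellian v ≤ 1 :=
  (mw_le v).trans (Real.exp_le_one_iff.2 (by nlinarith [sq_nonneg ‖v‖]))

theorem measurable_mw : Measurable maxwellian := by unfold maxwellian; fun_prop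

theorem neg_log_mw (v : R3) : -Real.log (maxwellian v) ≤ 9 + ‖v‖ ^ 2 / 2 := by
  have h := Real.log_le_sub_one_of_pos (x := 2 * Real.pi) (by positivity)
  rw [maxwellian, Real.log_mul (by positivity) (by positivity), Real.log_exp,
    Real.log_rpow (by positivity)]
  linarith [Real.pi_lt_d2]

theorem mw_post (v vs w : R3) (hw : ‖w‖ = 1) :
    maxwellian v * maxwellian vs = maxwellian (postVel v vs w) * maxwellian (postVelStar v vs w) := by
  unfold maxwellian
  rw [mul_mul_mul_comm, mul_mul_mul_comm _ (Real.exp _), ← Real.exp_add, ← Real.exp_add]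
  congr 2
  linarith [post_energy v vs w hw]

theorem integrable_mw : Integrable fun v : R3 => (1 + ‖v‖) * maxwellian v := by
  have h := (GaussianFourier.integrable_cexp_neg_mul_sq_norm_add (V := R3) (b := (1 / 4 : ℝ))
    (by simp) 0 0).norm.const_mul 2
  refine h.mono' ((measurable_const.add measurable_norm).mul measurable_mw).aestronglyMeasurable
    (Eventually.of_forall fun v => ?_)
  have h1 := Real.add_one_le_exp (‖v‖ ^ 2 / 4)
  have h2 : ‖Complex.exp (-((1 / 4 : ℝ) : ℂ) * (‖v‖ : ℂ) ^ 2 + 0 * (inner ℝ (0 : R3) v : ℝ))‖ =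
      Real.exp (‖v‖ ^ 2 / 4) * Real.exp (-‖v‖ ^ 2 / 2) := by
    rw [Complex.norm_exp, ← Real.exp_add]
    congr 1
    simp [← Complex.ofReal_pow]
    ring
  rw [h2, Real.norm_of_nonneg (by have := mw_pos v; positivity), ← mul_assoc]
  exact mul_le_mul (by nlinarith [sq_nonneg (‖v‖ - 1)]) (mw_le v) (mw_pos v).le (by positivity)

theorem int_log {M : ℝ} (hM : 0 < M) (z : ℝ) :
    IntervalIntegrable (fun u => Real.log (u / M)) volume 0 z ∧
      ∫ u in (0 : ℝ)..z, Real.log (u / M) = z * Real.log (z / M) - z := by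
  constructor
  · have := (intervalIntegral.intervalIntegrable_log' (a := 0) (b := z / M)).comp_mul_right (c := M⁻¹)
    simpa [div_eq_mul_inv, mul_assoc, hM.ne'] using this
  · rw [intervalIntegral.integral_comp_div (f := Real.log) hM.ne', integral_log]
    simp only [zero_div, zero_mul, sub_zero, add_zero, smul_eq_mul]
    field_simp

theorem bet_pt {M z : ℝ} (hM : 0 < M) (hz : 0 ≤ z) :
    (∀ k, |∫ u in (0 : ℝ)..z, lk k M u| ≤ 2 * EE M z * z - (z * Real.log (z / M) - z)) ∧
    Tendsto (fun k => ∫ u in (0 : ℝ)..z, lk k M u) atTop (𝓝 (z * Real.log (z / M) - z)) := by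
  obtain ⟨i1, i2⟩ := int_log hM z
  have hb : ∀ k, ∀ᵐ u, u ∈ Ioc 0 z → ‖lk k M u‖ ≤ 2 * EE M z - Real.log (u / M) := fun k =>
    Eventually.of_forall fun u hu => by
      have a1 := lk_le (k := k) hM hu.1.le
      have a2 := le_lk (k := k) hM hu.1
      have a3 := log_le_EE hM hu.1
      have a4 : EE M u ≤ EE M z :=
        Real.log_le_log (by have := hu.1; positivity) (by gcongr; exact hu.2)
      have a5 := EE_nonneg hM hz
      exact abs_le.2 ⟨by linarith, by linarith⟩
  have i3 : IntervalIntegrable (fun u => 2 * EE M z - Real.log (u / M)) volume 0 z :=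
    intervalIntegrable_const.sub i1
  refine ⟨fun k => ?_, ?_⟩
  · refine (intervalIntegral.norm_integral_le_of_norm_le hz (hb k) i3).trans_eq ?_
    rw [intervalIntegral.integral_sub intervalIntegrable_const i1, i2]
    simp only [intervalIntegral.integral_const, sub_zero, smul_eq_mul]
    ring
  · rw [← i2]
    refine intervalIntegral.tendsto_integral_filter_of_dominated_convergence _
      (Eventually.of_forall fun k => Measurable.aestronglyMeasurable (by unfold lk; fun_prop))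
      (Eventually.of_forall fun k => by rw [uIoc_of_le hz]; exact hb k) i3
      (Eventually.of_forall fun u hu => lk_tendsto hM (by rw [uIoc_of_le hz] at hu; exact hu.1))

theorem ent_lim {f : R3 → R3 → ℝ} (hf : Measurable fun q : R3 × R3 => f q.1 q.2)
    (h0 : ∀ x v, 0 ≤ f x v) (hi : (∫⁻ q in cell ×ˢ (univ : Set R3),
      ENNReal.ofReal (f q.1 q.2 * (1 + ‖q.2‖ ^ 2 + |Real.log (f q.1 q.2)|))) < ⊤) :
    ∃ H : ℝ, Tendsto (fun k : ℕ => ∫ q in cell ×ˢ (univ : Set R3),
        bet (1 / ((k : ℝ) + 1)) k q.2 (f q.1 q.2)) atTop (𝓝 H) ∧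
      0 ≤ H + ∫ q in cell ×ˢ (univ : Set R3), maxwellian q.2 ∧
      relEntropy f = ENNReal.ofReal (H + ∫ q in cell ×ˢ (univ : Set R3), maxwellian q.2) := by
  have hM : Measurable fun q : R3 × R3 => maxwellian q.2 := measurable_mw.comp measurable_snd
  have i0 : Integrable (fun q : R3 × R3 => f q.1 q.2 * (1 + ‖q.2‖ ^ 2 + |Real.log (f q.1 q.2)|))
      (volume.restrict (cell ×ˢ (univ : Set R3))) :=
    ⟨Measurable.aestronglyMeasurable (by fun_prop), (hasFiniteIntegral_iff_ofReal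
      (Eventually.of_forall fun q => by have := h0 q.1 q.2; positivity)).2 hi⟩
  have hb : ∀ (k : ℕ) (q : R3 × R3), |bet (1 / ((k : ℝ) + 1)) k q.2 (f q.1 q.2)| ≤
      30 * (f q.1 q.2 * (1 + ‖q.2‖ ^ 2 + |Real.log (f q.1 q.2)|)) := fun k q => by
    refine ((bet_pt (mw_pos q.2) (h0 q.1 q.2)).1 k).trans ?_
    rcases (h0 q.1 q.2).eq_or_lt with h | h
    · simp [← h]
    have a1 := EE_le (mw_pos q.2) (mw_le_one q.2) h.le
    have a2 := neg_log_mw q.2
    have a3 : max (Real.log (f q.1 q.2)) 0 ≤ |Real.log (f q.1 q.2)| :=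
      max_le (le_abs_self _) (abs_nonneg _)
    have a4 := neg_abs_le (Real.log (f q.1 q.2))
    have a5 := Real.log_nonpos (mw_pos q.2).le (mw_le_one q.2)
    have a6 : 2 * EE (maxwellian q.2) (f q.1 q.2) - (Real.log (f q.1 q.2) -
        Real.log (maxwellian q.2)) + 1 ≤ 30 * (1 + ‖q.2‖ ^ 2 + |Real.log (f q.1 q.2)|) := by
      nlinarith [sq_nonneg ‖q.2‖, abs_nonneg (Real.log (f q.1 q.2))]
    rw [Real.log_div h.ne' (mw_pos _).ne']
    nlinarith [mul_le_mul_of_nonneg_left a6 h.le]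
  have hl := fun q : R3 × R3 => (bet_pt (mw_pos q.2) (h0 q.1 q.2)).2
  have i1 : Integrable (fun q : R3 × R3 => f q.1 q.2 * Real.log (f q.1 q.2 / maxwellian q.2) -
      f q.1 q.2) (volume.restrict (cell ×ˢ (univ : Set R3))) :=
    (i0.const_mul 30).mono' (Measurable.aestronglyMeasurable (by fun_prop))
      (Eventually.of_forall fun q => le_of_tendsto' (hl q).abs fun k => hb k q)
  have i2 : Integrable (fun q : R3 × R3 => maxwellian q.2)
      (volume.restrict (cell ×ˢ (univ : Set R3))) := by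
    have : IsFiniteMeasure (volume.restrict cell) :=
      ⟨by rw [Measure.restrict_apply_univ, volume_cell]; exact ENNReal.one_lt_top⟩
    rw [Measure.volume_eq_prod, ← Measure.prod_restrict, Measure.restrict_univ]
    refine Integrable.comp_snd (integrable_mw.mono' measurable_mw.aestronglyMeasurable
      (Eventually.of_forall fun v => ?_)) _
    rw [Real.norm_of_nonneg (mw_pos v).le]
    exact le_mul_of_one_le_left (mw_pos v).le (by linarith [norm_nonneg v])
  have hn : ∀ q : R3 × R3, 0 ≤ f q.1 q.2 * Real.log (f q.1 q.2 / maxwellian q.2) - f q.1 q.2 +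
      maxwellian q.2 := fun q => by
    have hq := mw_pos q.2
    rcases (h0 q.1 q.2).eq_or_lt with h | h
    · simp [← h, hq.le]
    have a1 := mul_le_mul_of_nonneg_left
      (Real.one_sub_inv_le_log_of_pos (x := f q.1 q.2 / maxwellian q.2) (by positivity)) h.le
    rw [inv_div, mul_sub, mul_div_cancel₀ _ h.ne'] at a1
    linarith
  refine ⟨_, tendsto_integral_of_dominated_convergence _ (fun k => ?_) (i0.const_mul 30)
    (fun k => Eventually.of_forall (hb k)) (Eventually.of_forall hl), ?_, ?_⟩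
  · have e : (fun q : R3 × R3 => bet (1 / ((k : ℝ) + 1)) k q.2 (f q.1 q.2)) = fun q =>
        ∫ u, if 0 < u ∧ u ≤ f q.1 q.2 then lk k (maxwellian q.2) u else 0 := by
      funext q
      rw [bet, intervalIntegral.integral_of_le (h0 _ _), ← integral_indicator measurableSet_Ioc]
      congr 1
      funext u
      simp only [indicator, mem_Ioc]
      rfl
    rw [e]
    refine StronglyMeasurable.aestronglyMeasurable (StronglyMeasurable.integral_prod_right'
      (f := fun z : (R3 × R3) × ℝ => if 0 < z.2 ∧ z.2 ≤ f z.1.1 z.1.2 then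
        lk k (maxwellian z.1.2) z.2 else 0) (Measurable.stronglyMeasurable ?_))
    refine Measurable.ite ((measurableSet_lt measurable_const measurable_snd).inter
      (measurableSet_le measurable_snd (hf.comp measurable_fst))) ?_ measurable_const
    have : Measurable fun z : (R3 × R3) × ℝ => maxwellian z.1.2 := hM.comp measurable_fst
    unfold lk
    exact ((measurable_snd.div this).add_const _).log.min measurable_const
  · rw [← integral_add i1 i2]
    exact integral_nonneg hn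
  · rw [← integral_add i1 i2]
    exact (ofReal_integral_eq_lintegral_ofReal (i1.add i2) (Eventually.of_forall hn)).symm

end Crest.Agent.R68.Ent2
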