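import Crest.Agent.R68.QQ
import Crest.Agent.R68.PL

/-! Local existence and the basic difference estimate.  Let `𝒯 F` be the right side of `Mild`.  If `F ≤ 2K W(1/2)` then `𝒯F ≤ K W + t C (2K)² W ≤ 2K W`
(`QWW`).  For `F, F' ≤ K W(1/2)` with `adiff F F' ≤ d W(1/4)`: `|E - E'| ≤ t C d (1+‖v‖)` (`expNeg_le_add`, `nu_le_pw`), `(1+‖v‖) W(1/2) ≤ C W(1/4)`, and
`|Qp F F - Qp F' F'| ≤ 2 Qp(adiff, F+F')` (additivity; `F ≤ F' + adiff`), so `adiff (𝒯F) (𝒯F') ≤ adiff of data + C t (K + T K²) d W(1/4)`.  The Picard iterates from `0` converge pointwise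
(geometric bound), the limit is measurable, and the same estimate shows that it is a fixed point.  Set the iterates to `0` outside `[0,τ]` or not, as you like. -/

set_option autoImplicit false

open MeasureTheory Set Filter Topology Crest.AnalysisR.VecCalc3 Crest.AnalysisR.PDE.Boltzmann
open scoped ENNReal NNReal

namespace Crest.Agent.R68

theorem adiff_comm (a b : ℝ≥0∞) : adiff a b = adiff b a := by
  unfold adiff; rw [add_comm]
theorem le_add_adiff (a b : ℝ≥0∞) : a ≤ b + adiff a b := by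
  unfold adiff
  exact le_add_tsub.trans (add_le_add le_rfl le_self_add)
theorem adiff_le_iff {a b c : ℝ≥0∞} : adiff a b ≤ c ↔ (a ≤ b + c ∧ b ≤ a + c) := by
  unfold adiff
  rcases le_total a b with h | h
  · rw [tsub_eq_zero_of_le h, zero_add, tsub_le_iff_left]
    exact ⟨fun h' => ⟨h.trans le_self_add, h'⟩, fun h' => h'.2⟩
  · rw [tsub_eq_zero_of_le h, add_zero, tsub_le_iff_left]
    exact ⟨fun h' => ⟨h', h.trans le_self_add⟩, fun h' => h'.1⟩

theorem locEx_W_le (v : R3) : W (1 / 2) v ≤ W (1 / 4) v := by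
  unfold W
  refine ENNReal.ofReal_le_ofReal (Real.exp_le_exp.2 ?_)
  have := norm_nonneg v
  linarith

theorem locEx_W_ne_top (lam : ℝ) (v : R3) : W lam v ≠ ⊤ := ENNReal.ofReal_ne_top

theorem locEx_nuW : ∃ C : ℝ≥0, ∀ v, nu (W (1 / 4)) v * W (1 / 2) v ≤ C * W (1 / 4) v := by
  obtain ⟨C, hC⟩ := nu_of_PB (lam := 1 / 4) (by norm_num)
  refine ⟨C * (4 * Real.exp (1 / 4)).toNNReal * 4, fun v => ?_⟩
  have h1 := hC (measurable_W _) (PB_W (lam := 1 / 4) (by norm_num)) v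
  have h2 : ENNReal.ofReal (1 + ‖v‖) * W (1 / 2) v ≤ 4 * W (1 / 4) v := by
    unfold W
    have h3 := norm_nonneg v
    rw [← ENNReal.ofReal_mul (by positivity), ← ENNReal.ofReal_ofNat 4,
      ← ENNReal.ofReal_mul (by norm_num)]
    refine ENNReal.ofReal_le_ofReal ?_
    have h4 := Real.add_one_le_exp (1 / 4 * ‖v‖)
    have h5 : Real.exp (-(1 / 4 * ‖v‖)) =
        Real.exp (1 / 4 * ‖v‖) * Real.exp (-(1 / 2 * ‖v‖)) := by
      rw [← Real.exp_add]; congr 1; ring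
    rw [h5, ← mul_assoc]
    exact mul_le_mul_of_nonneg_right (by linarith) (Real.exp_pos _).le
  calc nu (W (1 / 4)) v * W (1 / 2) v
      ≤ C * ENNReal.ofReal (4 * Real.exp (1 / 4)) * ENNReal.ofReal (1 + ‖v‖) * W (1 / 2) v := by
        gcongr
    _ = C * ENNReal.ofReal (4 * Real.exp (1 / 4)) * (ENNReal.ofReal (1 + ‖v‖) * W (1 / 2) v) := by
        ring
    _ ≤ C * ENNReal.ofReal (4 * Real.exp (1 / 4)) * (4 * W (1 / 4) v) := by gcongr
    _ = _ := by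
        push_cast
        rw [ENNReal.ofReal, ← mul_assoc]

/-- the right side of the mild formulation -/
noncomputable def locExT (F0 : R3 → R3 → ℝ≥0∞) (F : Den) : Den := fun t x v =>
  F0 (x - t • v) v * Ex F 0 t x v +
    ∫⁻ s in Ioo 0 t, Ex F s t x v * Qp (F s (x - (t - s) • v)) (F s (x - (t - s) • v)) v

theorem locEx_measV {F : Den} (hF : MeasD F) (s : ℝ) (y : R3) : Measurable (F s y) :=
  hF.comp measurable_const measurable_const measurable_id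

theorem locEx_Ex {F F' : Den} (hF : MeasD F) {d : ℝ → ℝ≥0∞} (hd : Measurable d) {T t s : ℝ}
    (h : ∀ s ∈ Icc 0 T, ∀ x v, F' s x v ≤ F s x v + d s * W (1 / 4) v) (ht : t ≤ T) (hs : 0 ≤ s)
    (x v : R3) :
    Ex F s t x v ≤ Ex F' s t x v + (∫⁻ σ in Ioo 0 t, d σ) * nu (W (1 / 4)) v := by
  unfold Ex
  refine expNeg_le_add _ _ _ ?_
  calc ∫⁻ σ in Ioo s t, nu (F' σ (x - (t - σ) • v)) v
      ≤ ∫⁻ σ in Ioo s t, (nu (F σ (x - (t - σ) • v)) v + d σ * nu (W (1 / 4)) v) := by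
        refine setLIntegral_mono' measurableSet_Ioo fun σ hσ => ?_
        rw [← nu_cmul (measurable_W _), ← nu_add (locEx_measV hF _ _)]
        exact nu_mono (h σ ⟨hs.trans hσ.1.le, hσ.2.le.trans ht⟩ _) v
    _ = (∫⁻ σ in Ioo s t, nu (F σ (x - (t - σ) • v)) v) +
          (∫⁻ σ in Ioo s t, d σ) * nu (W (1 / 4)) v := by
        rw [lintegral_add_right _ (hd.mul_const _), lintegral_mul_const _ hd]
    _ ≤ _ := by
        gcongr

theorem locEx_Qp {f f' : R3 → ℝ≥0∞} (hf : Measurable f) (hf' : Measurable f') {K d C : ℝ≥0∞}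
    (hK : ∀ a, f a ≤ K * W (1 / 2) a) (hK' : ∀ a, f' a ≤ K * W (1 / 2) a)
    (h : ∀ a, f a ≤ f' a + d * W (1 / 4) a) (v : R3)
    (hC : Qp (W (1 / 4)) (W (1 / 4)) v ≤ C * W (1 / 4) v) :
    Qp f f v ≤ Qp f' f' v + 2 * K * C * W (1 / 4) v * d := by
  have hW : Measurable fun a => d * W (1 / 4) a := (measurable_W _).const_mul _
  have h1 : ∀ a, f a ≤ K * W (1 / 4) a := fun a => (hK a).trans (by gcongr; exact locEx_W_le a)
  have h2 : ∀ a, f' a ≤ K * W (1 / 4) a := fun a => (hK' a).trans (by gcongr; exact locEx_W_le a)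
  calc Qp f f v ≤ Qp (fun a => f' a + d * W (1 / 4) a) f v := Qp_mono h (fun _ => le_rfl) v
    _ = Qp f' f v + Qp (fun a => d * W (1 / 4) a) f v := Qp_add_left hf' hW hf v
    _ ≤ Qp f' (fun a => f' a + d * W (1 / 4) a) v +
          Qp (fun a => d * W (1 / 4) a) (fun a => K * W (1 / 4) a) v :=
        add_le_add (Qp_mono (fun _ => le_rfl) h v) (Qp_mono (fun _ => le_rfl) h1 v)
    _ = Qp f' f' v + Qp f' (fun a => d * W (1 / 4) a) v +
          Qp (fun a => d * W (1 / 4) a) (fun a => K * W (1 / 4) a) v := by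
        rw [Qp_add_right hf' hf' hW]
    _ ≤ Qp f' f' v + Qp (fun a => K * W (1 / 4) a) (fun a => d * W (1 / 4) a) v +
          Qp (fun a => d * W (1 / 4) a) (fun a => K * W (1 / 4) a) v := by
        gcongr
        exact Qp_mono h2 (fun _ => le_rfl) v
    _ = Qp f' f' v + 2 * K * d * Qp (W (1 / 4)) (W (1 / 4)) v := by
        rw [Qp_cmul (measurable_W _) (measurable_W _), Qp_cmul (measurable_W _) (measurable_W _)]
        ring
    _ ≤ Qp f' f' v + 2 * K * d * (C * W (1 / 4) v) := by gcongr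
    _ = _ := by ring

theorem locEx_one (K : ℝ≥0) (T : ℝ) : ∃ C : ℝ≥0, ∀ {T' : ℝ}, T' ≤ T →
    ∀ {F0 F0' : R3 → R3 → ℝ≥0∞} {F F' : Den},
    MeasD F → MeasD F' → Bd (1 / 2) K T' F → Bd (1 / 2) K T' F' →
    (∀ x v, F0' x v ≤ K * W (1 / 2) v) →
    ∀ {η : ℝ≥0∞} {d : ℝ → ℝ≥0∞}, Measurable d → (∀ x v, F0 x v ≤ F0' x v + η * W (1 / 4) v) →
    (∀ s ∈ Icc 0 T', ∀ x v, adiff (F s x v) (F' s x v) ≤ d s * W (1 / 4) v) →
    ∀ t ∈ Icc 0 T', ∀ x v,
    locExT F0 F t x v ≤ locExT F0' F' t x v + (η + C * ∫⁻ s in Ioo 0 t, d s) * W (1 / 4) v := by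
  obtain ⟨Cn, hCn⟩ := locEx_nuW
  obtain ⟨C2, hC2⟩ := QWW (lam := 1 / 2) (by norm_num)
  obtain ⟨C4, hC4⟩ := QWW (lam := 1 / 4) (by norm_num)
  refine ⟨K * Cn + T.toNNReal * (K * K * C2 * Cn) + 2 * K * C4, ?_⟩
  intro T' hT' F0 F0' F F' hF hF' hB hB' h0' η d hd hη hdiff t ht x v
  set D := ∫⁻ s in Ioo 0 t, d s with hD
  have hE : ∀ s, 0 ≤ s → Ex F s t x v ≤ Ex F' s t x v + D * nu (W (1 / 4)) v := fun s hs =>
    locEx_Ex hF hd (fun s hs x v => (adiff_le_iff.1 (hdiff s hs x v)).2) ht.2 hs x v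
  have h1 : F0 (x - t • v) v * Ex F 0 t x v ≤
      F0' (x - t • v) v * Ex F' 0 t x v + (η + K * Cn * D) * W (1 / 4) v := by
    calc F0 (x - t • v) v * Ex F 0 t x v
        ≤ (F0' (x - t • v) v + η * W (1 / 4) v) * Ex F 0 t x v := by gcongr; exact hη _ _
      _ = F0' (x - t • v) v * Ex F 0 t x v + η * W (1 / 4) v * Ex F 0 t x v := by ring
      _ ≤ F0' (x - t • v) v * (Ex F' 0 t x v + D * nu (W (1 / 4)) v) + η * W (1 / 4) v * 1 := by
          gcongr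
          · exact hE 0 le_rfl
          · exact Ex_le_one _ _ _ _ _
      _ = F0' (x - t • v) v * Ex F' 0 t x v + F0' (x - t • v) v * (D * nu (W (1 / 4)) v) +
            η * W (1 / 4) v := by ring
      _ ≤ F0' (x - t • v) v * Ex F' 0 t x v + K * W (1 / 2) v * (D * nu (W (1 / 4)) v) +
            η * W (1 / 4) v := by gcongr; exact h0' _ _
      _ = F0' (x - t • v) v * Ex F' 0 t x v + K * D * (nu (W (1 / 4)) v * W (1 / 2) v) +
            η * W (1 / 4) v := by ring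
      _ ≤ F0' (x - t • v) v * Ex F' 0 t x v + K * D * (Cn * W (1 / 4) v) +
            η * W (1 / 4) v := by have := hCn v; gcongr _ + _ * ?_ + _
      _ = _ := by ring
  have h2 : ∀ s ∈ Ioo 0 t,
      Ex F s t x v * Qp (F s (x - (t - s) • v)) (F s (x - (t - s) • v)) v ≤
        Ex F' s t x v * Qp (F' s (x - (t - s) • v)) (F' s (x - (t - s) • v)) v +
          (K * K * C2 * Cn * D * W (1 / 4) v + 2 * K * C4 * W (1 / 4) v * d s) := by
    intro s hs
    have hs' : s ∈ Icc 0 T' := ⟨hs.1.le, hs.2.le.trans ht.2⟩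
    have h3 := locEx_Qp (locEx_measV hF s (x - (t - s) • v)) (locEx_measV hF' s (x - (t - s) • v))
      (hB s hs' _) (hB' s hs' _) (fun a => (adiff_le_iff.1 (hdiff s hs' _ a)).1) v (hC4 v)
    have h4 : Qp (F' s (x - (t - s) • v)) (F' s (x - (t - s) • v)) v ≤
        K * K * (C2 * W (1 / 2) v) := by
      refine (Qp_mono (hB' s hs' _) (hB' s hs' _) v).trans ?_
      rw [Qp_cmul (measurable_W _) (measurable_W _)]
      gcongr
      exact hC2 v
    set Q := Qp (F s (x - (t - s) • v)) (F s (x - (t - s) • v)) v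
    set Q' := Qp (F' s (x - (t - s) • v)) (F' s (x - (t - s) • v)) v
    calc Ex F s t x v * Q ≤ Ex F s t x v * (Q' + 2 * K * C4 * W (1 / 4) v * d s) := by gcongr
      _ = Ex F s t x v * Q' + Ex F s t x v * (2 * K * C4 * W (1 / 4) v * d s) := by ring
      _ ≤ (Ex F' s t x v + D * nu (W (1 / 4)) v) * Q' + 1 * (2 * K * C4 * W (1 / 4) v * d s) := by
          gcongr
          · exact hE s hs.1.le
          · exact Ex_le_one _ _ _ _ _
      _ = Ex F' s t x v * Q' + D * nu (W (1 / 4)) v * Q' + 2 * K * C4 * W (1 / 4) v * d s := by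
          ring
      _ ≤ Ex F' s t x v * Q' + D * nu (W (1 / 4)) v * (K * K * (C2 * W (1 / 2) v)) +
            2 * K * C4 * W (1 / 4) v * d s := by gcongr
      _ = Ex F' s t x v * Q' + K * K * C2 * D * (nu (W (1 / 4)) v * W (1 / 2) v) +
            2 * K * C4 * W (1 / 4) v * d s := by ring
      _ ≤ Ex F' s t x v * Q' + K * K * C2 * D * (Cn * W (1 / 4) v) +
            2 * K * C4 * W (1 / 4) v * d s := by have := hCn v; gcongr _ + _ * ?_ + _
      _ = _ := by ring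
  have h5 := setLIntegral_mono' (μ := volume) measurableSet_Ioo h2
  rw [lintegral_add_right _ (measurable_const.fun_add (hd.const_mul _)),
    lintegral_add_left measurable_const, lintegral_const_mul _ hd, setLIntegral_const,
    Real.volume_Ioo, sub_zero, ← hD] at h5
  have h6 : ENNReal.ofReal t ≤ (T.toNNReal : ℝ≥0∞) := ENNReal.ofReal_le_ofReal (ht.2.trans hT')
  unfold locExT
  refine (add_le_add h1 h5).trans ?_
  calc _ ≤ F0' (x - t • v) v * Ex F' 0 t x v + (η + K * Cn * D) * W (1 / 4) v +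
        ((∫⁻ s in Ioo 0 t, Ex F' s t x v * Qp (F' s (x - (t - s) • v)) (F' s (x - (t - s) • v)) v) +
          (K * K * C2 * Cn * D * W (1 / 4) v * T.toNNReal + 2 * K * C4 * W (1 / 4) v * D)) := by
        gcongr
    _ = _ := by
        push_cast
        ring

/-- `diff_step` with a constant uniform in the time horizon `T' ≤ T` -/
theorem diff_step' (K : ℝ≥0) (T : ℝ) : ∃ C : ℝ≥0, ∀ {T' : ℝ}, T' ≤ T →
    ∀ {F0 F0' : R3 → R3 → ℝ≥0∞} {F F' : Den},
    MeasD F → MeasD F' → Bd (1 / 2) K T' F → Bd (1 / 2) K T' F' →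
    (∀ x v, F0 x v ≤ K * W (1 / 2) v) → (∀ x v, F0' x v ≤ K * W (1 / 2) v) →
    ∀ {η : ℝ≥0∞} {d : ℝ → ℝ≥0∞}, Measurable d → (∀ x v, adiff (F0 x v) (F0' x v) ≤ η * W (1 / 4) v) →
    (∀ s ∈ Icc 0 T', ∀ x v, adiff (F s x v) (F' s x v) ≤ d s * W (1 / 4) v) →
    ∀ t ∈ Icc 0 T', ∀ x v,
    adiff (locExT F0 F t x v) (locExT F0' F' t x v) ≤
      (η + C * ∫⁻ s in Ioo 0 t, d s) * W (1 / 4) v := by
  obtain ⟨C, hC⟩ := locEx_one K T
  refine ⟨C, ?_⟩
  intro T' hT' F0 F0' F F' hF hF' hB hB' h0 h0' η d hd hη hdiff t ht x v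
  exact adiff_le_iff.2 ⟨hC hT' hF hF' hB hB' h0' hd (fun x v => (adiff_le_iff.1 (hη x v)).1)
      hdiff t ht x v,
    hC hT' hF' hF hB' hB h0 hd (fun x v => (adiff_le_iff.1 (hη x v)).2)
      (fun s hs x v => by rw [adiff_comm]; exact hdiff s hs x v) t ht x v⟩

theorem locEx_meas_int {F : Den} (hF : MeasD F) :
    Measurable (fun q : (ℝ × R3 × R3) × ℝ => Ex F q.2 q.1.1 q.1.2.1 q.1.2.2 *
      Qp (F q.2 (q.1.2.1 - (q.1.1 - q.2) • q.1.2.2)) (F q.2 (q.1.2.1 - (q.1.1 - q.2) • q.1.2.2))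
        q.1.2.2) := by
  have h2 : Measurable fun r : ((ℝ × R3 × R3) × ℝ) × R3 =>
      r.1.1.2.1 - (r.1.1.1 - r.1.2) • r.1.1.2.2 := by fun_prop
  have h1 : Measurable (fun r : ((ℝ × R3 × R3) × ℝ) × R3 =>
      F r.1.2 (r.1.1.2.1 - (r.1.1.1 - r.1.2) • r.1.1.2.2) r.2) :=
    hF.comp measurable_fst.snd h2 measurable_snd
  have h3 := meas_Ex hF (α := (ℝ × R3 × R3) × ℝ) measurable_snd measurable_fst.fst
    measurable_fst.snd.fst measurable_fst.snd.snd
  have h4 := meas_Qp (α := (ℝ × R3 × R3) × ℝ)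
    (f := fun q => F q.2 (q.1.2.1 - (q.1.1 - q.2) • q.1.2.2))
    (h := fun q => F q.2 (q.1.2.1 - (q.1.1 - q.2) • q.1.2.2)) h1 h1 measurable_fst.snd.snd
  exact h3.fun_mul h4

theorem locExT_meas {F0 : R3 → R3 → ℝ≥0∞} (h0 : Meas2 F0) {F : Den} (hF : MeasD F) :
    MeasD (locExT F0 F) := by
  have h1 : Measurable fun p : ℝ × R3 × R3 => p.2.1 - p.1 • p.2.2 := by fun_prop
  have h2 := h0.comp h1 measurable_snd.snd
  have h3 := meas_Ex hF (α := ℝ × R3 × R3) (measurable_const (a := (0 : ℝ))) measurable_fst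
    measurable_snd.fst measurable_snd.snd
  have h4 := meas_timeInt (α := ℝ × R3 × R3) (g := fun p s => Ex F s p.1 p.2.1 p.2.2 *
    Qp (F s (p.2.1 - (p.1 - s) • p.2.2)) (F s (p.2.1 - (p.1 - s) • p.2.2)) p.2.2)
    (locEx_meas_int hF) (measurable_const (a := (0 : ℝ))) measurable_fst
  exact (h2.fun_mul h3).fun_add h4

theorem locEx_le_of_geom {a b c : ℝ≥0∞} (hc : c ≠ ⊤) (h : ∀ n : ℕ, a ≤ b + c * 2⁻¹ ^ n) : a ≤ b := by
  have h1 : Tendsto (fun n : ℕ => b + c * 2⁻¹ ^ n) atTop (𝓝 (b + c * 0)) :=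
    tendsto_const_nhds.add (ENNReal.Tendsto.const_mul
      (ENNReal.tendsto_pow_atTop_nhds_zero_of_lt_one (by norm_num)) (Or.inr hc))
  rw [mul_zero, add_zero] at h1
  exact ge_of_tendsto' h1 h

/-- one step of the difference estimate, in integral form -/
theorem diff_step (K : ℝ≥0) (T : ℝ) : ∃ C : ℝ≥0, ∀ {F0 F0' : R3 → R3 → ℝ≥0∞} {F F' : Den},
    MeasD F → MeasD F' → Bd (1 / 2) K T F → Bd (1 / 2) K T F' → (∀ x v, F0 x v ≤ K * W (1 / 2) v) →
    (∀ x v, F0' x v ≤ K * W (1 / 2) v) →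
    ∀ {η : ℝ≥0∞} {d : ℝ → ℝ≥0∞}, Measurable d → (∀ x v, adiff (F0 x v) (F0' x v) ≤ η * W (1 / 4) v) →
    (∀ s ∈ Icc 0 T, ∀ x v, adiff (F s x v) (F' s x v) ≤ d s * W (1 / 4) v) →
    ∀ t ∈ Icc 0 T, ∀ x v,
    adiff (F0 (x - t • v) v * Ex F 0 t x v +
        ∫⁻ s in Ioo 0 t, Ex F s t x v * Qp (F s (x - (t - s) • v)) (F s (x - (t - s) • v)) v)
      (F0' (x - t • v) v * Ex F' 0 t x v +
        ∫⁻ s in Ioo 0 t, Ex F' s t x v * Qp (F' s (x - (t - s) • v)) (F' s (x - (t - s) • v)) v) ≤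
      (η + C * ∫⁻ s in Ioo 0 t, d s) * W (1 / 4) v := by
  obtain ⟨C, hC⟩ := diff_step' K T
  exact ⟨C, fun hF hF' hB hB' h0 h0' _ _ hd hη hdiff t ht x v =>
    hC le_rfl hF hF' hB hB' h0 h0' hd hη hdiff t ht x v⟩
theorem locex (K : ℝ≥0) : ∃ τ > 0, ∀ F0 : R3 → R3 → ℝ≥0∞, Meas2 F0 →
    (∀ x v, F0 x v ≤ K * W (1 / 2) v) → ∃ F, Mild F0 τ F ∧ Bd (1 / 2) (2 * K) τ F := by
  obtain ⟨C2, hC2⟩ := QWW (lam := 1 / 2) (by norm_num)
  obtain ⟨C, hC⟩ := diff_step' (2 * K) 1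
  set τ : ℝ≥0 := (4 * K * C2 + 2 * C + 1)⁻¹ with hτ
  have hpos : (0 : ℝ≥0) < 4 * K * C2 + 2 * C + 1 := by positivity
  have hτ0 : τ * (4 * K * C2 + 2 * C + 1) = 1 := inv_mul_cancel₀ hpos.ne'
  have hτ1 : τ ≤ 1 := by
    rw [← hτ0]; exact le_mul_of_one_le_right' le_add_self
  have hτ2 : τ * (4 * K * C2) ≤ 1 := by
    rw [← hτ0]; gcongr; rw [add_assoc]; exact le_self_add
  have hτ3 : τ * (2 * C) ≤ 1 := by
    rw [← hτ0]; gcongr; exact le_add_self.trans le_self_add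
  have hτ2' : (τ : ℝ≥0∞) * (4 * K * C2) ≤ 1 := by exact_mod_cast hτ2
  have hτ3' : (C : ℝ≥0∞) * τ ≤ 2⁻¹ := by
    have h1 : (τ : ℝ≥0∞) * (2 * C) ≤ 1 := by exact_mod_cast hτ3
    rw [ENNReal.le_inv_iff_mul_le]
    calc (C : ℝ≥0∞) * τ * 2 = τ * (2 * C) := by ring
      _ ≤ 1 := h1
  refine ⟨τ, by exact_mod_cast inv_pos.2 hpos, fun F0 h0 hK => ?_⟩
  have hvol : ∀ t ∈ Icc (0 : ℝ) τ, volume (Ioo 0 t) ≤ (τ : ℝ≥0∞) := by
    intro t ht
    rw [Real.volume_Ioo, sub_zero, ← ENNReal.ofReal_coe_nnreal]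
    exact ENNReal.ofReal_le_ofReal ht.2
  have hK2 : ∀ x v, F0 x v ≤ ((2 * K : ℝ≥0) : ℝ≥0∞) * W (1 / 2) v := fun x v =>
    (hK x v).trans (by push_cast; gcongr; rw [two_mul]; exact le_self_add)
  have hTB : ∀ F : Den, Bd (1 / 2) ((2 * K : ℝ≥0) : ℝ≥0∞) τ F →
      Bd (1 / 2) ((2 * K : ℝ≥0) : ℝ≥0∞) τ (locExT F0 F) := by
    intro F hB t ht x v
    have h1 : ∀ s ∈ Ioo 0 t,
        Ex F s t x v * Qp (F s (x - (t - s) • v)) (F s (x - (t - s) • v)) v ≤
          4 * K * C2 * (K * W (1 / 2) v) := by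
      intro s hs
      have hs' : s ∈ Icc (0 : ℝ) τ := ⟨hs.1.le, hs.2.le.trans ht.2⟩
      refine (mul_le_of_le_one_left' (Ex_le_one _ _ _ _ _)).trans ?_
      refine (Qp_mono (hB s hs' _) (hB s hs' _) v).trans ?_
      rw [Qp_cmul (measurable_W _) (measurable_W _)]
      calc _ ≤ ((2 * K : ℝ≥0) : ℝ≥0∞) * ((2 * K : ℝ≥0) : ℝ≥0∞) * (C2 * W (1 / 2) v) := by
            gcongr; exact hC2 v
        _ = _ := by push_cast; ring
    have h2 := setLIntegral_mono' (μ := volume) measurableSet_Ioo h1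
    rw [setLIntegral_const] at h2
    unfold locExT
    calc _ ≤ K * W (1 / 2) v * 1 + 4 * K * C2 * (K * W (1 / 2) v) * τ := by
          refine add_le_add ?_ (h2.trans ?_)
          · gcongr
            · exact hK _ _
            · exact Ex_le_one _ _ _ _ _
          · gcongr
            exact hvol t ht
      _ = K * W (1 / 2) v + τ * (4 * K * C2) * (K * W (1 / 2) v) := by ring
      _ ≤ K * W (1 / 2) v + 1 * (K * W (1 / 2) v) := by gcongr
      _ = _ := by push_cast; ring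
  have hcon : ∀ {F F' : Den} {c : ℝ≥0∞}, MeasD F → MeasD F' →
      Bd (1 / 2) ((2 * K : ℝ≥0) : ℝ≥0∞) τ F → Bd (1 / 2) ((2 * K : ℝ≥0) : ℝ≥0∞) τ F' →
      (∀ s ∈ Icc (0 : ℝ) τ, ∀ x v, adiff (F s x v) (F' s x v) ≤ c * W (1 / 4) v) →
      ∀ t ∈ Icc (0 : ℝ) τ, ∀ x v,
        adiff (locExT F0 F t x v) (locExT F0 F' t x v) ≤ c * 2⁻¹ * W (1 / 4) v := by
    intro F F' c hF hF' hB hB' hd t ht x v
    refine (hC (by exact_mod_cast hτ1) hF hF' hB hB' hK2 hK2 (η := 0) (d := fun _ => c)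
      measurable_const (fun x v => adiff_le_iff.2 ⟨le_self_add, le_self_add⟩) hd t ht x v).trans ?_
    rw [zero_add, setLIntegral_const]
    refine mul_le_mul' ?_ le_rfl
    calc (C : ℝ≥0∞) * (c * volume (Ioo 0 t)) ≤ C * (c * τ) := by gcongr; exact hvol t ht
      _ = c * (C * τ) := by ring
      _ ≤ c * 2⁻¹ := by gcongr
  let it : ℕ → Den := fun n => (locExT F0)^[n] fun _ _ _ => 0
  have it_succ : ∀ n, it (n + 1) = locExT F0 (it n) := fun n => Function.iterate_succ_apply' _ _ _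
  have hm : ∀ n, MeasD (it n) := by
    intro n
    induction n with
    | zero => exact measurable_const
    | succ n ih => rw [it_succ]; exact locExT_meas h0 ih
  have hb : ∀ n, Bd (1 / 2) ((2 * K : ℝ≥0) : ℝ≥0∞) τ (it n) := by
    intro n
    induction n with
    | zero => exact fun _ _ _ _ => zero_le
    | succ n ih => rw [it_succ]; exact hTB _ ih
  have hc : ∀ n m, ∀ t ∈ Icc (0 : ℝ) τ, ∀ x v, adiff (it n t x v) (it (m + n) t x v) ≤
      ((2 * K : ℝ≥0) : ℝ≥0∞) * 2⁻¹ ^ n * W (1 / 4) v := by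
    intro n m
    induction n with
    | zero =>
      intro t ht x v
      rw [pow_zero, mul_one]
      refine adiff_le_iff.2 ⟨zero_le, ((hb _ t ht x v).trans ?_).trans le_add_self⟩
      gcongr
      exact locEx_W_le v
    | succ n ih =>
      intro t ht x v
      rw [← add_assoc, it_succ, it_succ, pow_succ, ← mul_assoc]
      exact hcon (hm _) (hm _) (hb _) (hb _) ih t ht x v
  let F : Den := fun t x v => liminf (fun n => it n t x v) atTop
  have hFm : MeasD F := Measurable.liminf hm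
  have hFb : Bd (1 / 2) ((2 * K : ℝ≥0) : ℝ≥0∞) τ F := fun t ht x v =>
    liminf_le_of_frequently_le' (Frequently.of_forall fun n => hb n t ht x v)
  have hFc : ∀ n, ∀ t ∈ Icc (0 : ℝ) τ, ∀ x v, adiff (it n t x v) (F t x v) ≤
      ((2 * K : ℝ≥0) : ℝ≥0∞) * 2⁻¹ ^ n * W (1 / 4) v := by
    intro n t ht x v
    have h1 : ∀ᶠ m in atTop, adiff (it n t x v) (it m t x v) ≤
        ((2 * K : ℝ≥0) : ℝ≥0∞) * 2⁻¹ ^ n * W (1 / 4) v := by
      filter_upwards [eventually_ge_atTop n] with m hm'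
      obtain ⟨k, rfl⟩ := Nat.exists_eq_add_of_le' hm'
      exact hc n k t ht x v
    refine adiff_le_iff.2 ⟨?_, ?_⟩
    · rw [← tsub_le_iff_right]
      refine le_liminf_of_le (by isBoundedDefault) ?_
      filter_upwards [h1] with m hm'
      exact tsub_le_iff_right.2 (adiff_le_iff.1 hm').1
    · refine liminf_le_of_frequently_le' (Eventually.frequently ?_)
      filter_upwards [h1] with m hm'
      exact (adiff_le_iff.1 hm').2
  refine ⟨F, ⟨hFm, fun t ht x v => ?_⟩, by simpa using hFb⟩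
  change F t x v = locExT F0 F t x v
  have hfin : ((2 * K : ℝ≥0) : ℝ≥0∞) * W (1 / 4) v ≠ ⊤ :=
    ENNReal.mul_ne_top ENNReal.coe_ne_top (locEx_W_ne_top _ _)
  have e1 : ∀ n : ℕ, ((2 * K : ℝ≥0) : ℝ≥0∞) * 2⁻¹ ^ (n + 1) * W (1 / 4) v +
      ((2 * K : ℝ≥0) : ℝ≥0∞) * 2⁻¹ ^ n * 2⁻¹ * W (1 / 4) v =
        ((2 * K : ℝ≥0) : ℝ≥0∞) * W (1 / 4) v * 2⁻¹ ^ n := by
    intro n
    calc _ = ((2 * K : ℝ≥0) : ℝ≥0∞) * W (1 / 4) v * 2⁻¹ ^ n * (2⁻¹ + 2⁻¹) := by ring
      _ = _ := by rw [ENNReal.inv_two_add_inv_two, mul_one]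
  have h1 := fun n => adiff_le_iff.1 (hFc (n + 1) t ht x v)
  have h2 := fun n => adiff_le_iff.1 (hcon (hm n) hFm (hb n) hFb (hFc n) t ht x v)
  simp only [← it_succ] at h2
  refine le_antisymm (locEx_le_of_geom hfin fun n => ?_) (locEx_le_of_geom hfin fun n => ?_)
  · rw [← e1, add_comm (_ * _ * _), ← add_assoc]
    exact (h1 n).2.trans (add_le_add (h2 n).1 le_rfl)
  · rw [← e1, ← add_assoc]
    exact (h2 n).2.trans (add_le_add (h1 n).1 le_rfl)

end Crest.Agent.R68
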