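import Crest.Agent.R68.Tile2
import Crest.Agent.R68.PrePost
import Crest.Agent.R68.LocEx
import Crest.Agent.R68.Shear

/-! Relative entropy controls the weighted `L¹` distance to the Maxwellian; lower bound for `ν[M]`.  With `u = z/M`, `φ(u) = u log u - u + 1`, Fenchel's inequality `u q ≤ φ(u) + e^q - 1` for `q = ± λ p`, `p = 1 + ‖v‖`, gives
`λ p |u-1| ≤ φ(u) + e^{λp} - 1 - λp ≤ φ(u) + λ² p² e^{p}` for `0 < λ ≤ 1`; multiply by `M`, integrate over the cell (volume 1), divide by `λ`.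
`nu_MM`: by the symmetry `u ↦ -u`, `∫ ‖v-u‖ M = ½∫(‖v-u‖+‖v+u‖) M ≥ ½ ∫ (‖v‖+‖u‖) M`, `∫ M = 1`, `∫ ‖u‖ M = 2√(2/π) ≥ 1` (`polar`, Gamma integrals; any proof of `≥ 0.96` is enough).
`hole_small`: cut `‖v‖ ≤ L`; substitute `y = x - t v`; the ball of radius `tL` meets at most `(2tL+2)²` columns of area `(2a)²` (or use `lintegral_ball_per`-type counting in the two transversal coordinates), and `a²/t² ≤ a`. -/

set_option autoImplicit false

open MeasureTheory Set Filter Topology Crest.AnalysisR.VecCalc3 Crest.AnalysisR.PDE.Boltzmann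
open scoped ENNReal NNReal

namespace Crest.Agent.R68

namespace EntL1

theorem max_pos (v : R3) : 0 < maxwellian v := by
  unfold maxwellian
  have := Real.pi_pos
  positivity

theorem c_mul : (2 * Real.pi) ^ (-(3 / 2 : ℝ)) * (2 * Real.pi) ^ (3 / 2 : ℝ) = 1 := by
  rw [← Real.rpow_add (by positivity)]
  simp

theorem int_max : ∫ v : R3, maxwellian v = 1 := by
  have h := GaussianFourier.integral_rexp_neg_mul_sq_norm (V := R3) (b := 1 / 2) (by norm_num)
  have h2 : ∀ v : R3, maxwellian v = (2 * Real.pi) ^ (-(3 / 2 : ℝ)) * Real.exp (-(1 / 2) * ‖v‖ ^ 2) := fun v => by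
    unfold maxwellian
    congr 2
    ring
  simp only [h2]
  rw [integral_const_mul, h, finrank_euclideanSpace_fin]
  rw [show Real.pi / (1 / 2) = 2 * Real.pi by ring]
  exact_mod_cast c_mul

theorem int_norm_max : ∫ v : R3, ‖v‖ * maxwellian v = 8 * Real.pi * (2 * Real.pi) ^ (-(3 / 2 : ℝ)) := by
  have h := integral_fun_norm_addHaar (volume : Measure R3)
    (fun y : ℝ => y * ((2 * Real.pi) ^ (-(3 / 2 : ℝ)) * Real.exp (-y ^ 2 / 2)))
  have h1 := integral_rpow_mul_exp_neg_mul_rpow (p := 2) (q := 3) (b := 1 / 2) (by norm_num) (by norm_num)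
    (by norm_num)
  have h2 : ∫ y in Ioi (0 : ℝ), y ^ 3 * Real.exp (-y ^ 2 / 2) = 2 := by
    have h3 : ((1 / 2 : ℝ)) ^ (-((3 : ℝ) + 1) / 2) * (1 / 2) * Real.Gamma (((3 : ℝ) + 1) / 2) = 2 := by
      rw [show -((3 : ℝ) + 1) / 2 = ((-2 : ℤ) : ℝ) by norm_num, Real.rpow_intCast,
        show ((3 : ℝ) + 1) / 2 = 2 by norm_num, Real.Gamma_two]
      norm_num
    refine Eq.trans ?_ (h1.trans h3)
    refine setIntegral_congr_fun measurableSet_Ioi fun y _ => ?_
    rw [show (3 : ℝ) = ((3 : ℕ) : ℝ) by norm_num, Real.rpow_natCast, Real.rpow_two]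
    congr 2
    ring
  unfold maxwellian
  rw [h, finrank_euclideanSpace_fin, Measure.real, EuclideanSpace.volume_ball_fin_three]
  have h4 : ∫ y in Ioi (0 : ℝ), y ^ (3 - 1) • (y * ((2 * Real.pi) ^ (-(3 / 2 : ℝ)) * Real.exp (-y ^ 2 / 2))) =
      (2 * Real.pi) ^ (-(3 / 2 : ℝ)) * 2 := by
    refine Eq.trans ?_ (congrArg _ h2)
    rw [← integral_const_mul]
    refine setIntegral_congr_fun measurableSet_Ioi fun y _ => ?_
    simp only [smul_eq_mul]
    ring
  rw [h4]
  have := Real.pi_pos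
  simp only [ENNReal.ofReal_one, one_pow, one_mul, ENNReal.toReal_ofReal (by positivity : 0 ≤ Real.pi * 4 / 3),
    smul_eq_mul, nsmul_eq_mul]
  push_cast
  ring

theorem one_le_const : 1 ≤ 8 * Real.pi * (2 * Real.pi) ^ (-(3 / 2 : ℝ)) := by
  have hp := Real.pi_pos
  have h1 : (2 * Real.pi) ^ (3 / 2 : ℝ) = (2 * Real.pi) * Real.sqrt (2 * Real.pi) := by
    rw [show (3 / 2 : ℝ) = 1 + 1 / 2 by norm_num, Real.rpow_add (by positivity), Real.rpow_one, Real.sqrt_eq_rpow]
  have h2 : Real.sqrt (2 * Real.pi) ≤ 4 := by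
    rw [Real.sqrt_le_left (by norm_num)]
    linarith [Real.pi_lt_four]
  have h3 := c_mul
  rw [h1] at h3
  have h4 : 0 < (2 * Real.pi) ^ (-(3 / 2 : ℝ)) := by positivity
  nlinarith [mul_le_mul_of_nonneg_left h2 (by positivity : 0 ≤ (2 * Real.pi) ^ (-(3 / 2 : ℝ)) * (2 * Real.pi))]

theorem lint_norm_MM : 1 ≤ ∫⁻ v : R3, ENNReal.ofReal ‖v‖ * MM v := by
  have h := Basic2A.lint_of_int (μ := (volume : Measure R3)) (f := fun v => ‖v‖ * maxwellian v)
    (by linarith [one_le_const]) (Eventually.of_forall fun v => (mul_nonneg (norm_nonneg v) (max_pos v).le))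
    int_norm_max
  have h2 : ∀ v : R3, ENNReal.ofReal ‖v‖ * MM v = ENNReal.ofReal (‖v‖ * maxwellian v) := fun v => by
    rw [ENNReal.ofReal_mul (norm_nonneg v), MM]
  simp only [h2]
  rw [h]
  exact ENNReal.one_le_ofReal.2 one_le_const

theorem mom (k : ℕ) : ∫⁻ v, W (1 / 2) v * pw k v < ⊤ := by
  obtain ⟨C, hC⟩ := moment_of_PB (lam := 1 / 2) (by norm_num) k
  exact lt_of_le_of_lt (hC (measurable_W _) (PB_W (by norm_num)))
    (ENNReal.mul_lt_top ENNReal.coe_lt_top ENNReal.ofReal_lt_top)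

theorem pw_succ (k : ℕ) (v : R3) : pw (k + 1) v = pw k v * pw 1 v := by
  unfold pw
  rw [pow_succ, pow_one, ENNReal.ofReal_mul (by positivity)]

theorem MM_le (v : R3) : MM v ≤ W (1 / 2) v :=
  (MM_le_W v).trans (ENNReal.ofReal_le_ofReal (Real.exp_le_exp.2 (by linarith [norm_nonneg v])))

/-- Fenchel -/
theorem fenchel {z M : ℝ} (hz : 0 ≤ z) (hM : 0 < M) (q : ℝ) :
    (z - M) * q ≤ (z * Real.log (z / M) - z + M) + M * (q ^ 2 * Real.exp |q|) := by
  have h1 : z * q ≤ z * Real.log (z / M) - z + M * Real.exp q := by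
    rcases hz.eq_or_lt with rfl | hz
    · simp only [zero_mul, sub_zero, zero_add]
      positivity
    · have h2 := Real.add_one_le_exp (q - Real.log (z / M))
      rw [Real.exp_sub, Real.exp_log (by positivity)] at h2
      have h3 : z * (Real.exp q / (z / M)) = M * Real.exp q := by field_simp
      nlinarith [mul_le_mul_of_nonneg_left h2 hz.le]
  have h2 : Real.exp q - 1 - q ≤ q ^ 2 * Real.exp |q| := by
    have h3 := Real.add_one_le_exp (-q)
    have h4 := Real.add_one_le_exp q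
    have h5 : Real.exp (-q) * Real.exp q = 1 := by rw [← Real.exp_add]; simp
    have h6 := Real.exp_pos q
    have h7 : Real.exp q - 1 ≤ q * Real.exp q := by nlinarith
    rcases le_total 0 q with hq | hq
    · rw [abs_of_nonneg hq]
      nlinarith [mul_le_mul_of_nonneg_left h7 hq]
    · have h8 : 1 ≤ Real.exp |q| := Real.one_le_exp (abs_nonneg q)
      nlinarith [mul_le_mul_of_nonneg_left h8 (sq_nonneg q)]
  nlinarith [mul_le_mul_of_nonneg_left h2 hM.le]

theorem fenchel' {z M p l : ℝ} (hz : 0 ≤ z) (hM : 0 < M) (hp : 0 ≤ p) (hl : 0 ≤ l) (hl1 : l ≤ 1) :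
    l * (|z - M| * p) ≤ (z * Real.log (z / M) - z + M) + l ^ 2 * (M * (p ^ 2 * Real.exp p)) := by
  have h1 : ∀ q : ℝ, |q| = l * p → M * (q ^ 2 * Real.exp |q|) ≤ l ^ 2 * (M * (p ^ 2 * Real.exp p)) := fun q hq => by
    rw [← sq_abs q, hq]
    have : Real.exp (l * p) ≤ Real.exp p := Real.exp_le_exp.2 (by nlinarith)
    calc M * ((l * p) ^ 2 * Real.exp (l * p)) ≤ M * ((l * p) ^ 2 * Real.exp p) := by gcongr
      _ = _ := by ring
  rcases le_total M z with h | h
  · rw [abs_of_nonneg (sub_nonneg.2 h)]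
    have := fenchel hz hM (l * p)
    have h2 := h1 (l * p) (abs_of_nonneg (by positivity))
    nlinarith
  · rw [abs_of_nonpos (sub_nonpos.2 h)]
    have := fenchel hz hM (-(l * p))
    have h2 := h1 (-(l * p)) (by rw [abs_neg, abs_of_nonneg (by positivity)])
    nlinarith

theorem adiff_eq {a : ℝ≥0∞} (ha : a ≠ ⊤) {M : ℝ} (hM : 0 ≤ M) :
    adiff a (ENNReal.ofReal M) = ENNReal.ofReal |a.toReal - M| := by
  lift a to ℝ≥0 using ha
  rw [adiff, ENNReal.coe_toReal, ← ENNReal.ofReal_coe_nnreal, ← ENNReal.ofReal_sub _ hM,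
    ← ENNReal.ofReal_sub _ a.coe_nonneg]
  rcases le_total M a with h | h
  · rw [abs_of_nonneg (sub_nonneg.2 h), ENNReal.ofReal_of_nonpos (sub_nonpos.2 h), add_zero]
  · rw [abs_of_nonpos (sub_nonpos.2 h), ENNReal.ofReal_of_nonpos (sub_nonpos.2 h), zero_add, neg_sub]

theorem max_exp (v : R3) : maxwellian v * ((1 + ‖v‖) ^ 2 * Real.exp (1 + ‖v‖)) ≤
    Real.exp 3 * (Real.exp (-(1 / 2 * ‖v‖)) * (1 + ‖v‖) ^ 2) := by
  have h1 : (2 * Real.pi) ^ (-(3 / 2 : ℝ)) ≤ 1 :=
    Real.rpow_le_one_of_one_le_of_nonpos (by linarith [Real.pi_gt_three]) (by norm_num)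
  have h2 : Real.exp (-‖v‖ ^ 2 / 2) * Real.exp (1 + ‖v‖) ≤ Real.exp 3 * Real.exp (-(1 / 2 * ‖v‖)) := by
    rw [← Real.exp_add, ← Real.exp_add, Real.exp_le_exp]
    nlinarith [sq_nonneg (‖v‖ - 3 / 2)]
  unfold maxwellian
  calc _ ≤ 1 * Real.exp (-‖v‖ ^ 2 / 2) * ((1 + ‖v‖) ^ 2 * Real.exp (1 + ‖v‖)) := by gcongr
    _ = (Real.exp (-‖v‖ ^ 2 / 2) * Real.exp (1 + ‖v‖)) * (1 + ‖v‖) ^ 2 := by ring
    _ ≤ (Real.exp 3 * Real.exp (-(1 / 2 * ‖v‖))) * (1 + ‖v‖) ^ 2 := by gcongr
    _ = _ := by ring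

/-- absolute continuity with a velocity cut-off -/
theorem key {g : R3 → ℝ≥0∞} (hg : ∫⁻ v, g v * pw 1 v < ⊤) {ε : ℝ≥0} (hε : 0 < ε) :
    ∃ L : ℝ, 1 ≤ L ∧ ∃ δ : ℝ≥0, 0 < δ ∧ ∀ S : Set R3, volume (S ∩ Metric.closedBall 0 L) ≤ δ →
      ∫⁻ v in S, g v ≤ ε := by
  have h1 : ∀ v, 1 ≤ pw 1 v := fun v => ENNReal.one_le_ofReal.2 (by rw [pow_one]; linarith [norm_nonneg v])
  have h2 : ∫⁻ v, g v ≠ ⊤ := (lt_of_le_of_lt (lintegral_mono fun v => le_mul_of_one_le_right' (h1 v)) hg).ne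
  have hε2 : ((ε / 2 : ℝ≥0) : ℝ≥0∞) ≠ 0 := by exact_mod_cast (half_pos hε).ne'
  obtain ⟨δ, hδ, hδ'⟩ := exists_pos_setLIntegral_lt_of_measure_lt h2 hε2
  obtain ⟨δ', h3, h4⟩ := ENNReal.lt_iff_exists_nnreal_btwn.1 hδ
  obtain ⟨C, hC⟩ : ∃ C : ℝ≥0, ∫⁻ v, g v * pw 1 v = C := ⟨_, (ENNReal.coe_toNNReal hg.ne).symm⟩
  refine ⟨1 + 2 * C / ε, by have : 0 ≤ 2 * (C : ℝ) / ε := by positivity
                            linarith, δ', by exact_mod_cast h3, fun S hS => ?_⟩
  set L : ℝ := 1 + 2 * C / ε with hL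
  have h5 : ∫⁻ v in (Metric.closedBall (0 : R3) L)ᶜ, g v ≤ (ε / 2 : ℝ≥0) := by
    have hL0 : 0 < L := by positivity
    calc ∫⁻ v in (Metric.closedBall (0 : R3) L)ᶜ, g v
        ≤ ∫⁻ v in (Metric.closedBall (0 : R3) L)ᶜ, ENNReal.ofReal L⁻¹ * (g v * pw 1 v) := by
          refine setLIntegral_mono' measurableSet_closedBall.compl fun v hv => ?_
          rw [mul_left_comm, pw, ← ENNReal.ofReal_mul (by positivity)]
          refine le_mul_of_one_le_right' (ENNReal.one_le_ofReal.2 ?_)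
          rw [mem_compl_iff, mem_closedBall_zero_iff, not_le] at hv
          rw [pow_one, ← div_eq_inv_mul, one_le_div hL0]
          linarith
      _ ≤ ∫⁻ v, ENNReal.ofReal L⁻¹ * (g v * pw 1 v) := setLIntegral_le_lintegral _ _
      _ = ENNReal.ofReal L⁻¹ * C := by rw [lintegral_const_mul' _ _ ENNReal.ofReal_ne_top, hC]
      _ ≤ _ := by
          rw [← ENNReal.ofReal_coe_nnreal, ← ENNReal.ofReal_mul (by positivity), ← ENNReal.ofReal_coe_nnreal]
          refine ENNReal.ofReal_le_ofReal ?_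
          have hε' : (0 : ℝ) < ε := hε
          rw [← div_eq_inv_mul, div_le_iff₀ hL0, hL]
          push_cast
          have : (ε : ℝ) / 2 * (1 + 2 * C / ε) = ε / 2 + C := by field_simp
          linarith
  calc ∫⁻ v in S, g v ≤ ∫⁻ v in (S ∩ Metric.closedBall 0 L) ∪ (Metric.closedBall (0 : R3) L)ᶜ, g v :=
        lintegral_mono_set fun v hv => by
          by_cases h : v ∈ Metric.closedBall (0 : R3) L
          · exact Or.inl ⟨hv, h⟩
          · exact Or.inr h
    _ ≤ _ := lintegral_union_le _ _ _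
    _ ≤ (ε / 2 : ℝ≥0) + (ε / 2 : ℝ≥0) := add_le_add (hδ' _ (hS.trans_lt h4)).le h5
    _ = ε := by rw [← ENNReal.coe_add, add_halves]

theorem vol_pre {A : Set R3} (hA : MeasurableSet A) (hp : IsPeriodic3 (fun x => x ∈ A)) {τ L : ℝ} (hτ : 0 < τ)
    (hL : 0 ≤ L) (x : R3) : volume ({v : R3 | x - τ • v ∈ A} ∩ Metric.closedBall 0 L) ≤
      ENNReal.ofReal ((2 * L + 2 / τ) ^ 3) * volume (A ∩ cell) := by
  have h1 : {v : R3 | x - τ • v ∈ A} ∩ Metric.closedBall 0 L ⊆
      (τ • ·) ⁻¹' ((fun y => x - y) ⁻¹' (A ∩ Metric.closedBall x (τ * L))) := fun v hv => by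
    refine ⟨hv.1, ?_⟩
    have := mem_closedBall_zero_iff.1 hv.2
    simp only [Metric.mem_closedBall, dist_eq_norm, sub_sub_cancel_left, norm_neg, norm_smul,
      Real.norm_of_nonneg hτ.le]
    gcongr
  refine (measure_mono h1).trans ?_
  rw [Measure.addHaar_preimage_smul _ hτ.ne',
    ((volume : Measure R3).measurePreserving_sub_left x).measure_preimage
      (hA.inter measurableSet_closedBall).nullMeasurableSet, finrank_euclideanSpace_fin]
  have h2 := lintegral_ball_per (f := A.indicator 1) (measurable_one.indicator hA) (fun y i => by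
    have := hp y i
    simp only [eq_iff_iff] at this
    by_cases h : y ∈ A
    · rw [indicator_of_mem h, indicator_of_mem (this.2 h)]
      rfl
    · rw [indicator_of_notMem h, indicator_of_notMem (fun h' => h (this.1 h'))]) x (ρ := τ * L) (by positivity)
  rw [lintegral_indicator_one hA, lintegral_indicator_one hA, Measure.restrict_apply hA,
    Measure.restrict_apply hA] at h2
  refine (mul_le_mul' le_rfl h2).trans ?_
  rw [← mul_assoc, ← ENNReal.ofReal_mul (abs_nonneg _), abs_of_pos (by positivity)]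
  refine le_of_eq ?_
  congr 2
  field_simp

theorem vol_dd {a : ℝ} (ha : 0 ≤ a) : volume ({x : R3 | dd x < a} ∩ cell) ≤ ENNReal.ofReal ((2 * a) ^ 2) := by
  have hm : MeasurableSet {y : R3 | nrm y < a} := measurableSet_lt measurable_nrm measurable_const
  have hA : MeasurableSet {x : R3 | dd x < a} := measurableSet_lt measurable_dd measurable_const
  have h1 := lintegral_cell_hat (f := {y : R3 | nrm y < a}.indicator 1) (measurable_one.indicator hm)
  have h2 : ∫⁻ x in cell, {y : R3 | nrm y < a}.indicator (1 : R3 → ℝ≥0∞) (hat x) =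
      volume ({x : R3 | dd x < a} ∩ cell) := by
    rw [← Measure.restrict_apply hA, ← lintegral_indicator_one hA]
    rfl
  have h3 : ∀ y : ℝ × ℝ, {y : R3 | nrm y < a}.indicator (1 : R3 → ℝ≥0∞) (lift y) =
      (Metric.ball (0 : ℝ × ℝ) a).indicator 1 y := fun y => by
    by_cases h : y ∈ Metric.ball (0 : ℝ × ℝ) a
    · rw [indicator_of_mem h, indicator_of_mem (by exact mem_ball_zero_iff.1 h)]
      rfl
    · rw [indicator_of_notMem h, indicator_of_notMem (s := {y : R3 | nrm y < a})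
        (fun h' => h (mem_ball_zero_iff.2 h'))]
  rw [← h2, h1]
  simp only [h3]
  refine (setLIntegral_le_lintegral _ _).trans ?_
  rw [lintegral_indicator_one measurableSet_ball, show (0 : ℝ × ℝ) = (0, 0) from rfl, ← ball_prod_same,
    Measure.volume_eq_prod, Measure.prod_prod, Real.volume_ball, ← ENNReal.ofReal_mul (by positivity), sq]

end EntL1

open EntL1

theorem lintegral_MM : ∫⁻ v, MM v = 1 := by
  have h := Basic2A.lint_of_int (μ := (volume : Measure R3)) (f := maxwellian) one_ne_zero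
    (Eventually.of_forall fun v => (max_pos v).le) int_max
  rw [ENNReal.ofReal_one] at h
  exact h
theorem nu_MM (v : R3) : 3 * ENNReal.ofReal (1 + ‖v‖) ≤ nu MM v := by
  have hp := Real.pi_pos
  have h1 : nu MM v = ∫⁻ u, ENNReal.ofReal (2 * Real.pi * ‖v + u‖) * MM u := by
    unfold nu
    rw [← lintegral_neg_eq_self]
    refine lintegral_congr fun u => ?_
    simp [MM, maxwellian]
  have h2 : ∫⁻ u, (ENNReal.ofReal (6 * ‖v‖) * MM u + 6 * (ENNReal.ofReal ‖u‖ * MM u)) ≤ nu MM v + nu MM v := by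
    nth_rewrite 2 [h1]
    unfold nu
    rw [← lintegral_add_left (by exact Measurable.mul (by fun_prop) measurable_MM)]
    refine lintegral_mono fun u => ?_
    rw [← mul_assoc, ← add_mul, ← add_mul, ← ENNReal.ofReal_ofNat 6, ← ENNReal.ofReal_mul (by norm_num),
      ← ENNReal.ofReal_add (by positivity) (by positivity), ← ENNReal.ofReal_add (by positivity) (by positivity)]
    refine mul_le_mul' (ENNReal.ofReal_le_ofReal ?_) le_rfl
    have h3 : 2 * ‖v‖ ≤ ‖v - u‖ + ‖v + u‖ := by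
      have := norm_add_le (v - u) (v + u)
      rwa [sub_add_add_cancel, ← two_smul ℝ v, norm_smul, Real.norm_two] at this
    have h4 : 2 * ‖u‖ ≤ ‖v - u‖ + ‖v + u‖ := by
      have := norm_sub_le (v + u) (v - u)
      rw [add_sub_sub_cancel, ← two_smul ℝ u, norm_smul, Real.norm_two] at this
      linarith
    nlinarith [Real.pi_gt_three, norm_nonneg (v - u), norm_nonneg (v + u)]
  rw [lintegral_add_left (measurable_MM.const_mul _), lintegral_const_mul _ measurable_MM, lintegral_MM,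
    lintegral_const_mul' _ _ (by norm_num), mul_one] at h2
  have h5 : 2 * (3 * ENNReal.ofReal (1 + ‖v‖)) ≤ 2 * nu MM v := by
    rw [two_mul (nu MM v)]
    refine le_trans ?_ h2
    rw [ENNReal.ofReal_add zero_le_one (norm_nonneg v), ENNReal.ofReal_mul (by norm_num), ENNReal.ofReal_one,
      ENNReal.ofReal_ofNat, ← mul_assoc, show (2 : ℝ≥0∞) * 3 = 6 by norm_num, mul_add, add_comm]
    exact add_le_add le_rfl (mul_le_mul' le_rfl lint_norm_MM)
  exact (ENNReal.mul_le_mul_iff_right (by norm_num) (by norm_num)).1 h5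
theorem nu_ge_of_dlt {f : R3 → ℝ≥0∞} (hf : Measurable f) (h : dlt f ≤ 7⁻¹) (v : R3) :
    ENNReal.ofReal (2 * (1 + ‖v‖)) ≤ nu f v := by
  have h1 : nu MM v ≤ nu f v + ENNReal.ofReal (1 + ‖v‖) := by
    refine (nu_mono (f' := fun a => f a + adiff (f a) (MM a))
      (fun a => le_add_tsub.trans (add_le_add le_rfl le_add_self)) v).trans ?_
    rw [nu_add hf]
    refine add_le_add le_rfl ((nu_le_pw _ v).trans ?_)
    refine (mul_le_mul' le_rfl h).trans (le_of_eq ?_)
    rw [mul_right_comm, ENNReal.mul_inv_cancel (by norm_num) (by norm_num), one_mul]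
  have h2 := (nu_MM v).trans h1
  rw [show (3 : ℝ≥0∞) = 2 + 1 by norm_num, add_mul, one_mul] at h2
  rw [ENNReal.ofReal_mul (by norm_num), ENNReal.ofReal_ofNat]
  exact (ENNReal.add_le_add_iff_right ENNReal.ofReal_ne_top).1 h2
theorem ent_L1 {η : ℝ≥0} (hη : 0 < η) : ∃ H0 : ℝ≥0, 0 < H0 ∧ ∀ {f : R3 → R3 → ℝ≥0∞}, Meas2 f →
    (∀ x v, f x v ≠ ⊤) → relEntropy (toR2 f) ≤ H0 → ∫⁻ x in cell, dlt (f x) ≤ η := by
  obtain ⟨C, hC⟩ : ∃ C : ℝ≥0, ENNReal.ofReal (Real.exp 3) * ∫⁻ v, W (1 / 2) v * pw 2 v = C :=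
    ⟨_, (ENNReal.coe_toNNReal (ENNReal.mul_ne_top ENNReal.ofReal_ne_top (mom 2).ne)).symm⟩
  set l : ℝ≥0 := min 1 (η / (2 * (C + 1))) with hl
  have hl0 : 0 < l := lt_min one_pos (by positivity)
  have hl1 : l ≤ 1 := min_le_left _ _
  have hl2 : l * C ≤ η / 2 := by
    have h1 : l ≤ η / (2 * (C + 1)) := min_le_right _ _
    rw [le_div_iff₀ (by positivity)] at h1
    rw [le_div_iff₀ (by positivity)]
    calc l * C * 2 ≤ l * (C + 1) * 2 := by gcongr; exact le_self_add
      _ = l * (2 * (C + 1)) := by ring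
      _ ≤ η := h1
  refine ⟨l * (η / 2), by positivity, fun {f} hf hfin hH => ?_⟩
  have hmW : Measurable fun v : R3 => W (1 / 2) v * pw 2 v := (measurable_W _).mul (measurable_pw _)
  have h1 : ∫⁻ x in cell, dlt (f x) =
      ∫⁻ q in cell ×ˢ (univ : Set R3), adiff (f q.1 q.2) (MM q.2) * pw 1 q.2 := by
    have hm : Measurable fun q : R3 × R3 => adiff (f q.1 q.2) (MM q.2) * pw 1 q.2 :=
      ((Measurable.sub hf (measurable_MM.comp measurable_snd)).add
        (Measurable.sub (measurable_MM.comp measurable_snd) hf)).mul ((measurable_pw 1).comp measurable_snd)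
    rw [Measure.volume_eq_prod, ← Measure.prod_restrict, lintegral_prod _ hm.aemeasurable, Measure.restrict_univ]
    rfl
  have h2 : ∫⁻ q in cell ×ˢ (univ : Set R3), W (1 / 2) q.2 * pw 2 q.2 = ∫⁻ v, W (1 / 2) v * pw 2 v := by
    rw [Measure.volume_eq_prod, ← Measure.prod_restrict,
      lintegral_prod _ (by exact (hmW.comp measurable_snd).aemeasurable)]
    simp [volume_cell]
  have h3 : (l : ℝ≥0∞) * ∫⁻ x in cell, dlt (f x) ≤ relEntropy (toR2 f) + l * (l * C) := by
    rw [h1, ← lintegral_const_mul' _ _ ENNReal.coe_ne_top, ← hC, ← h2,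
      ← lintegral_const_mul' _ _ ENNReal.ofReal_ne_top, ← lintegral_const_mul' _ _ ENNReal.coe_ne_top,
      ← lintegral_const_mul' _ _ ENNReal.coe_ne_top, relEntropy,
      ← lintegral_add_right _ (by exact (((hmW.comp measurable_snd).const_mul _).const_mul _).const_mul _)]
    refine lintegral_mono fun q => ?_
    have h4 := fenchel' (z := (f q.1 q.2).toReal) (M := maxwellian q.2) (p := 1 + ‖q.2‖) (l := l)
      ENNReal.toReal_nonneg (max_pos _) (by positivity) l.2 hl1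
    have h5 := max_exp q.2
    rw [MM, adiff_eq (hfin _ _) (max_pos _).le, pw, pw, W, pow_one, ← ENNReal.ofReal_coe_nnreal,
      ← ENNReal.ofReal_mul (abs_nonneg _), ← ENNReal.ofReal_mul l.coe_nonneg, ← ENNReal.ofReal_mul (Real.exp_pos _).le,
      ← ENNReal.ofReal_mul (Real.exp_pos _).le, ← ENNReal.ofReal_mul l.coe_nonneg, ← ENNReal.ofReal_mul l.coe_nonneg]
    refine le_trans (ENNReal.ofReal_le_ofReal ?_) ENNReal.ofReal_add_le
    have h6 := mul_le_mul_of_nonneg_left h5 (sq_nonneg (l : ℝ))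
    simp only [toR2]
    nlinarith
  have h4 : (l : ℝ≥0∞) * ∫⁻ x in cell, dlt (f x) ≤ l * η := by
    refine h3.trans ((add_le_add hH (mul_le_mul' le_rfl
      (show (l : ℝ≥0∞) * C ≤ (η / 2 : ℝ≥0) by exact_mod_cast hl2))).trans (le_of_eq ?_))
    rw [ENNReal.coe_mul, ← mul_add, ← ENNReal.coe_add, add_halves]
  exact (ENNReal.mul_le_mul_iff_right (by exact_mod_cast hl0.ne') ENNReal.coe_ne_top).1 h4
open Classical in
/-- the missing part of the Maxwellian -/
noncomputable def hole (a R : ℝ) (x v : R3) : ℝ≥0∞ := if dd x < a ∨ R ≤ ‖v‖ then MM v else 0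
theorem meas2_hole (a R : ℝ) : Meas2 (hole a R) := by
  refine Measurable.ite ?_ (measurable_MM.comp measurable_snd) measurable_const
  exact (measurableSet_lt (measurable_dd.comp measurable_fst) measurable_const).union
    (measurableSet_le measurable_const measurable_snd.norm)
theorem gas_add_hole (P : Par) (x v : R3) : gas P x v + hole P.a P.R x v = MM v := by
  unfold gas hole
  by_cases h : P.a ≤ dd x ∧ ‖v‖ < P.R
  · rw [if_pos h, if_neg (by push Not; exact h), add_zero]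
  · rw [if_neg h, if_pos (by rwa [not_and_or, not_le, not_lt] at h), zero_add]
theorem hole_small {ε : ℝ≥0} (hε : 0 < ε) : ∃ β > 0, ∀ a R t : ℝ, 0 < a → a ≤ β → 1 ≤ β * R →
    Real.sqrt a ≤ t → ∀ x : R3, ∫⁻ v, hole a R (x - t • v) v * pw 1 v ≤ ε := by
  obtain ⟨L, hL, δ, hδ, h⟩ := key (g := fun v => W (1 / 2) v * pw 1 v)
    (by simpa only [mul_assoc, ← pw_succ] using mom 2) hε
  have hδ' : (0 : ℝ) < δ := hδ
  set γ : ℝ := min (1 / (L + 1)) (δ / (4 * (2 * L + 2) ^ 3)) with hγ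
  have hγ0 : 0 < γ := lt_min (by positivity) (by positivity)
  have hγ1 : γ ≤ 1 / (L + 1) := min_le_left _ _
  have hγ2 : γ ≤ δ / (4 * (2 * L + 2) ^ 3) := min_le_right _ _
  rw [le_div_iff₀ (by positivity)] at hγ1 hγ2
  have hγ3 : γ ≤ 1 := by nlinarith
  refine ⟨γ ^ 2, by positivity, fun a R t ha haβ hR ht x => ?_⟩
  set s := Real.sqrt a with hs
  have hs0 : 0 < s := Real.sqrt_pos.2 ha
  have hs1 : s ≤ γ := by rw [hs, Real.sqrt_le_left hγ0.le]; exact haβ
  have hs2 : a = s ^ 2 := (Real.sq_sqrt ha.le).symm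
  have ht0 : 0 < t := hs0.trans_le ht
  have hLR : L < R := by
    by_contra hc
    push Not at hc
    have : γ ^ 2 * R ≤ γ ^ 2 * L := by gcongr
    nlinarith
  have hA : MeasurableSet {x : R3 | dd x < a} := measurableSet_lt measurable_dd measurable_const
  have hS : MeasurableSet {v : R3 | dd (x - t • v) < a ∨ R ≤ ‖v‖} :=
    (measurableSet_lt (measurable_dd.comp (by fun_prop)) measurable_const).union
      (measurableSet_le measurable_const measurable_norm)
  refine le_trans ?_ (h {v : R3 | dd (x - t • v) < a ∨ R ≤ ‖v‖} ?_)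
  · rw [← lintegral_indicator hS]
    refine lintegral_mono fun v => ?_
    by_cases hv : dd (x - t • v) < a ∨ R ≤ ‖v‖
    · rw [indicator_of_mem (by exact hv), hole, if_pos hv]
      exact mul_le_mul' (MM_le v) le_rfl
    · rw [hole, if_neg hv, zero_mul]
      exact zero_le
  · have h1 := vol_pre hA (fun y i => by simp only [mem_setOf_eq, dd, hat_periodic y i]) ht0 (L := L)
      (by linarith) x
    refine le_trans (measure_mono fun v hv => ?_) (h1.trans ?_)
    · refine ⟨hv.1.resolve_right fun h' => ?_, hv.2⟩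
      have := mem_closedBall_zero_iff.1 hv.2
      linarith
    · refine (mul_le_mul' le_rfl (vol_dd ha.le)).trans ?_
      rw [← ENNReal.ofReal_mul (by positivity), ← ENNReal.ofReal_coe_nnreal]
      refine ENNReal.ofReal_le_ofReal ?_
      have h2 : (2 * L + 2 / t) * s ≤ 2 * L + 2 := by
        have h3 : 2 / t * s ≤ 2 := by
          rw [div_mul_eq_mul_div, div_le_iff₀ ht0]
          linarith
        nlinarith
      calc (2 * L + 2 / t) ^ 3 * (2 * a) ^ 2 = ((2 * L + 2 / t) * s) ^ 3 * (4 * s) := by rw [hs2]; ring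
        _ ≤ (2 * L + 2) ^ 3 * (4 * γ) := by gcongr
        _ ≤ δ := by linarith
/-- velocity averaging of a set that is small in the cell -/
theorem avg_small {ε : ℝ≥0} (hε : 0 < ε) {κ : ℝ} (hκ : 0 < κ) : ∃ η : ℝ≥0, 0 < η ∧ ∀ {A : Set R3}, MeasurableSet A →
    IsPeriodic3 (fun x => x ∈ A) → volume (A ∩ cell) ≤ η → ∀ τ, κ ≤ τ → ∀ x : R3,
    ∫⁻ v in {v : R3 | x - τ • v ∈ A}, W (1 / 2) v * pw 2 v ≤ ε := by
  obtain ⟨L, hL, δ, hδ, h⟩ := key (g := fun v => W (1 / 2) v * pw 2 v)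
    (by simpa only [mul_assoc, ← pw_succ] using mom 3) hε
  have hδ' : (0 : ℝ) < δ := hδ
  have hc : 0 < (2 * L + 2 / κ) ^ 3 := by positivity
  refine ⟨Real.toNNReal (δ / (2 * L + 2 / κ) ^ 3), Real.toNNReal_pos.2 (by positivity),
    fun {A} hA hp hη τ hτ x => h _ ?_⟩
  have hτ0 : 0 < τ := hκ.trans_le hτ
  refine (vol_pre hA hp hτ0 (L := L) (by linarith) x).trans ((mul_le_mul' le_rfl hη).trans ?_)
  change _ * ENNReal.ofReal _ ≤ _
  rw [← ENNReal.ofReal_mul (by positivity), ← ENNReal.ofReal_coe_nnreal]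
  refine ENNReal.ofReal_le_ofReal ?_
  calc (2 * L + 2 / τ) ^ 3 * (δ / (2 * L + 2 / κ) ^ 3) ≤ (2 * L + 2 / κ) ^ 3 * (δ / (2 * L + 2 / κ) ^ 3) := by
        gcongr
    _ = (δ : ℝ) := by field_simp

end Crest.Agent.R68
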