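import Crest.Agent.R68.One

/-! The last collision for a good target.  `y_s = x - (t-s) v` has `nrm y_s ≤ om ≤ K t ≤ 1/4`.  `Qp G f = Qp gs f + Qp GC f`.  `GC` part: `src_bound`, `sing_GC`, `cc ≤ rb`, `Th_one_le_al`, `rb_al`, and `sig ≤ 1 + 18 δv^{-5/4}` because the third coordinate of every centre is `±1`.
`gs` part: `carleman`, `gs_eq`, `Same.hat_`.  On the support `invn (v-a) ≤ 2/δv` (`slab_gk`) and `pint ≤ C B al` (`pint_TL`), so the integrand in `s` is at most `C* B` (`G_mass`, `rb_al`): the window `s ≤ t/K1` and the set of times at which the active beam is thin cost `≤ C* B ·` measure.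
Thin: `rr n < δt t` (the bound `rr n ≤ 4 K t` is automatic by `tile_nrm`) forces `kap s < nrm y_s < kap s + 2 δt t`, i.e. `0 < ± y_s i - kap s < 2 δt t` for some `i`, an affine function of `s` of slope `± v i - kap`, of absolute value `≥ δv`: measure `≤ 8 δt t/δv`.
Tail `‖η‖ > L2`: `pint_TL`.  `nrm (v-η) < δe`, `‖η‖ ≤ L2`: area `≤ (‖n‖/|n 2|)(2δe)²` (`pint_graph` with `i = 2`), `pint_TL_small`. -/

set_option autoImplicit false

open MeasureTheory Set Filter Topology Crest.AnalysisR.VecCalc3 Crest.AnalysisR.PDE.Boltzmann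
open scoped ENNReal NNReal

namespace Crest.Agent.R68

theorem FirstX.area {n v : R3} {δ δe R : ℝ} (hδ : 0 < δ) (hn : δ ≤ |n 2|) (hR : ‖n‖ ≤ R) (he : 0 < δe)
    {S : Set R3} (hS : ∀ η ∈ S, nrm (v - η) < δe) :
    pint n v (S.indicator 1) ≤ ENNReal.ofReal (R / δ * (2 * δe) ^ 2) := by
  have hm : MeasurableSet {η : R3 | nrm (v - η) < δe} :=
    measurableSet_lt (measurable_nrm.comp (by fun_prop)) measurable_const
  have h2 : n 2 ≠ 0 := fun h => by
    rw [h, abs_zero] at hn
    linarith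
  refine (pint_mono _ _ fun η => indicator_le_indicator_of_subset (t := {η : R3 | nrm (v - η) < δe}) hS
    (fun _ => zero_le) η).trans ?_
  rw [pint_graph h2 v (measurable_one.indicator hm), ENNReal.ofReal_mul (div_nonneg ((norm_nonneg _).trans hR) hδ.le)]
  refine mul_le_mul' (ENNReal.ofReal_le_ofReal (div_le_div₀ ((norm_nonneg _).trans hR) hR hδ hn)) ?_
  calc _ ≤ ∫⁻ u : ℝ × ℝ, (Ioo (v 0 - δe) (v 0 + δe) ×ˢ Ioo (v 1 - δe) (v 1 + δe)).indicator 1 u := by
        refine lintegral_mono fun u => ?_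
        by_cases hu : u ∈ Ioo (v 0 - δe) (v 0 + δe) ×ˢ Ioo (v 1 - δe) (v 1 + δe)
        · rw [indicator_of_mem hu]
          exact indicator_le_self' (fun _ _ => zero_le) _
        · rw [indicator_of_notMem hu, indicator_of_notMem]
          intro h
          apply hu
          simp only [mem_ofPred_eq, nrm, ins, max_lt_iff, PiLp.sub_apply, abs_lt] at h
          simp at h
          exact ⟨⟨by linarith [h.1.2], by linarith [h.1.1]⟩, ⟨by linarith [h.2.2], by linarith [h.2.1]⟩⟩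
    _ = _ := by
        rw [lintegral_indicator_one (measurableSet_Ioo.prod measurableSet_Ioo), Measure.volume_eq_prod,
          Measure.prod_prod, Real.volume_Ioo, Real.volume_Ioo, ← ENNReal.ofReal_mul (by linarith)]
        congr 1
        ring

theorem FirstX.slab {δv : ℝ} {v : R3} (hv : Slabs δv v) (o : Bool) : δv ≤ |v 2 - sg o| := by
  cases o
  · simpa [sg] using hv.2.1
  · simpa [sg] using hv.1

theorem FirstX.slope {δv : ℝ} {v : R3} (hv : Slabs δv v) (i : Fin 2) (o : Bool) :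
    δv ≤ |sg o * v i.castSucc - kap| := by
  obtain ⟨-, -, h1, h2, h3, h4⟩ := hv
  have e : ∀ a : ℝ, |-1 * a - kap| = |a + kap| := fun a => by
    rw [← abs_neg]
    congr 1
    ring
  fin_cases i <;> cases o <;> simp only [sg, if_true, Bool.false_eq_true, if_false, one_mul, e] <;> assumption

theorem FirstX.sig_le {P : Par} (hP : P.Ok) {δv : ℝ} (hδ : 0 < δv) {v : R3} (hv : Slabs δv v) {s : ℝ} (hs : 0 ≤ s)
    (y : R3) : sig P s y v ≤ 1 + 18 * ENNReal.ofReal δv⁻¹ ^ (5 / 4 : ℝ) := by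
  unfold sig
  refine add_le_add le_rfl ?_
  by_cases hex : ∃ τ, lab P τ s (hat y) ∈ tileL P τ
  · obtain ⟨τ, hτ⟩ := hex
    rw [tsum_eq_single τ (fun τ' h' => if_neg fun h => h' (tile_unique hP hs h hτ)), if_pos hτ,
      ← Fintype.sum_prod_type' (f := fun χ ε => invn (v - ctr P τ χ ε s (hat y)) ^ (5 / 4 : ℝ))]
    refine (Finset.sum_le_card_nsmul _ _ (ENNReal.ofReal δv⁻¹ ^ (5 / 4 : ℝ)) fun m _ =>
      ENNReal.rpow_le_rpow (SingX.invn_le hδ ?_) (by norm_num)).trans_eq (by simp)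
    have h1 : |(v - ctr P τ m.1 m.2 s (hat y)) 2| ≤ ‖v - ctr P τ m.1 m.2 s (hat y)‖ := by
      simpa using PiLp.norm_apply_le (v - ctr P τ m.1 m.2 s (hat y)) 2
    refine le_trans ?_ h1
    rw [PiLp.sub_apply]
    simpa [ctr] using FirstX.slab hv m.2
  · push Not at hex
    simp [hex]

theorem FirstX.vol_aff {c β δ d : ℝ} (hδ : 0 < δ) (hβ : δ ≤ |β|) :
    volume {s : ℝ | c + β * s ∈ Ioo 0 d} ≤ ENNReal.ofReal (d / δ) := by
  have h0 : β ≠ 0 := fun h => by
    rw [h, abs_zero] at hβ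
    linarith
  have e : {s : ℝ | c + β * s ∈ Ioo 0 d} = (β * ·) ⁻¹' ((c + ·) ⁻¹' Ioo 0 d) := rfl
  rw [e, Real.volume_preimage_mul_left h0, measure_preimage_add, Real.volume_Ioo, sub_zero, div_eq_inv_mul,
    ENNReal.ofReal_mul (inv_nonneg.2 hδ.le), abs_inv]
  exact mul_le_mul_left (ENNReal.ofReal_le_ofReal (inv_anti₀ hδ hβ)) _

open Classical in
theorem FirstX.pt : ∃ C1 : ℝ≥0, ∀ L2 : ℝ, ∃ C2 : ℝ≥0, ∀ {P : Par}, P.Ok → ∀ (N : ℕ) {s : ℝ}, s ∈ Icc (0 : ℝ) 1 →
    ∀ {δ δe R : ℝ}, 0 < δ → 0 < δe → ∀ (y n v : R3) {g : R3 → ℝ≥0∞} {B : ℝ≥0∞}, Measurable g →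
    (∀ η, g η ≤ B * TL P N 1 s y η) → ‖v‖ ≤ L2 → δ ≤ |n 2| → ‖n‖ ≤ R →
    invn n * pint n v g ≤ ENNReal.ofReal δ⁻¹ * C1 * B * ENNReal.ofReal (al P N s y) ∧
    invn n * pint n v g ≤ invn n * pint n v (fun η => if ‖η‖ ≤ L2 ∧ δe ≤ nrm (v - η) then g η else 0) +
      ENNReal.ofReal δ⁻¹ * (C1 * ew (1 / 4) L2 + C2 * ENNReal.ofReal (R / δ * (2 * δe) ^ 2) ^ (1 / 3 : ℝ)) * B *
        ENNReal.ofReal (al P N s y) := by
  obtain ⟨C1, hC1⟩ := pint_TL
  refine ⟨C1, fun L2 => ?_⟩
  obtain ⟨C2, hC2⟩ := pint_TL_small (2 * L2)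
  refine ⟨C2, fun {P} hP N s hs δ δe R hδ he y n v g B hg hle hv hn hR => ?_⟩
  have hn0 : n ≠ 0 := fun h => by
    rw [h] at hn
    simp at hn
    linarith
  have hi : invn n ≤ ENNReal.ofReal δ⁻¹ :=
    SingX.invn_le hδ (hn.trans (by simpa using PiLp.norm_apply_le n 2))
  have hT := (measD_TL (P := P) N 1).vel s y
  obtain ⟨h1, h2⟩ := hC1 hP N hs y n v L2 hn0
  have m1 : MeasurableSet {η : R3 | ‖η‖ ≤ L2} := measurableSet_le measurable_norm measurable_const
  have m2 : MeasurableSet {η : R3 | L2 ≤ ‖η‖} := measurableSet_le measurable_const measurable_norm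
  have m3 : Measurable fun η : R3 => nrm (v - η) := measurable_nrm.comp (by fun_prop)
  have mS : MeasurableSet {η : R3 | ‖η‖ ≤ L2 ∧ nrm (v - η) < δe} := m1.inter (measurableSet_lt m3 measurable_const)
  have h3 := (hC2 hP N hs y n v hn0 mS fun η hη => by
    rw [mem_closedBall_iff_norm]
    linarith [norm_sub_le η v, hη.1]).1
  constructor
  · calc _ ≤ ENNReal.ofReal δ⁻¹ * (B * (C1 * ENNReal.ofReal (al P N s y))) := by
          refine mul_le_mul' hi ((pint_mono _ _ hle).trans ?_)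
          rw [pint_cmul _ _ _ hT]
          exact mul_le_mul_right h1 _
      _ = _ := by ring
  · have h4 : pint n v g ≤ pint n v (fun η => if ‖η‖ ≤ L2 ∧ δe ≤ nrm (v - η) then g η else 0) +
        B * (pint n v ({η : R3 | L2 ≤ ‖η‖}.indicator (TL P N 1 s y)) +
          pint n v ({η : R3 | ‖η‖ ≤ L2 ∧ nrm (v - η) < δe}.indicator (TL P N 1 s y))) := by
      rw [← pint_add _ _ (hT.indicator m2), ← pint_cmul _ _ _ ((hT.indicator m2).fun_add (hT.indicator mS)),
        ← pint_add _ _ (f := fun η => if ‖η‖ ≤ L2 ∧ δe ≤ nrm (v - η) then g η else 0)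
          (Measurable.ite (m1.inter (measurableSet_le measurable_const m3)) hg measurable_const)]
      refine pint_mono _ _ fun η => ?_
      split_ifs with h
      · exact le_self_add
      · refine le_add_left ((hle η).trans (mul_le_mul_right ?_ _))
        by_cases h' : L2 ≤ ‖η‖
        · rw [indicator_of_mem (s := {η : R3 | L2 ≤ ‖η‖}) h']
          exact le_self_add
        · rw [indicator_of_mem (s := {η : R3 | ‖η‖ ≤ L2 ∧ nrm (v - η) < δe})
            ⟨(not_le.1 h').le, not_le.1 fun h'' => h ⟨(not_le.1 h').le, h''⟩⟩]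
          exact le_add_self
    refine (mul_le_mul_right h4 _).trans ?_
    rw [mul_add]
    refine add_le_add le_rfl ?_
    calc _ ≤ ENNReal.ofReal δ⁻¹ * (B * (C1 * ENNReal.ofReal (al P N s y) * ew (1 / 4) L2 +
          C2 * ENNReal.ofReal (al P N s y) * ENNReal.ofReal (R / δ * (2 * δe) ^ 2) ^ (1 / 3 : ℝ))) :=
          mul_le_mul' hi (mul_le_mul_right (add_le_add h2 (h3.trans (mul_le_mul_right (ENNReal.rpow_le_rpow
            (FirstX.area hδ hn hR he fun η hη => hη.2) (by norm_num)) _))) _)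
      _ = _ := by ring

theorem FirstX.small {C ε : ℝ≥0∞} (hC : C ≠ ⊤) (hε : 0 < ε) {l : Filter ℝ} {φ : ℝ → ℝ} (h : Tendsto φ l (𝓝 0)) :
    ∀ᶠ i in l, C * ENNReal.ofReal (φ i) ≤ ε := by
  have h1 := ENNReal.Tendsto.const_mul (a := C) (ENNReal.tendsto_ofReal h) (Or.inr hC)
  rw [ENNReal.ofReal_zero, mul_zero] at h1
  exact h1.eventually (ge_mem_nhds hε)

theorem FirstX.small0 {C ε : ℝ≥0∞} (hC : C ≠ ⊤) (hε : 0 < ε) {φ : ℝ → ℝ} (h : Continuous φ) (h0 : φ 0 = 0) {b : ℝ}
    (hb : 0 < b) : ∃ a, 0 < a ∧ a ≤ b ∧ C * ENNReal.ofReal (φ a) ≤ ε := by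
  obtain ⟨a, h1, h2⟩ := ((FirstX.small (l := 𝓝[>] 0) hC hε ((h.tendsto' 0 0 h0).mono_left nhdsWithin_le_nhds)).and
    (Ioc_mem_nhdsGT hb)).exists
  exact ⟨a, h2.1, h2.2, h1⟩

open Classical in
theorem first (m : ℕ) {ε : ℝ≥0} (hε : 0 < ε) {Lv K δv : ℝ} (hLv : 1 ≤ Lv) (hK : 1 ≤ K) (hδ0 : 0 < δv) (hδ1 : δv ≤ 1) :
    ∃ L2 δe K1 δt w0 : ℝ, Lv ≤ L2 ∧ 0 < δe ∧ 1 ≤ K1 ∧ 0 < δt ∧ 0 < w0 ∧ w0 ≤ δv / 2 ∧
    ∀ {P : Par}, P.Ok → P.m = m → P.eta ≤ δt → P.w ≤ w0 → ∀ (N : ℕ) {T : ℝ} (F : Den) {f : Den} {B : ℝ≥0∞},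
    MeasD f → Le1 P N B T f → ∀ {t : ℝ} {x v : R3}, 0 < t → t ≤ T → K * t ≤ 1 / 4 → nrm x < 1 / 2 →
    GT P N Lv K δv t x v →
    KK P N F f t x v ≤ ε * B * ENNReal.ofReal t + K1op P N δt K K1 t x v
      (fun _ s _ η => if ‖η‖ ≤ L2 ∧ δe ≤ nrm (v - η) then f s (x - (t - s) • v) η else 0) := by
  obtain ⟨C1, hC1⟩ := FirstX.pt
  obtain ⟨C3, hC3⟩ := src_bound
  obtain ⟨C4, hC4⟩ := sing_GC
  obtain ⟨e, he0, hee⟩ : ∃ e : ℝ≥0∞, 0 < e ∧ 5 * e = ε :=
    ⟨(ε / 5 : ℝ≥0), by exact_mod_cast (by positivity : 0 < ε / 5), by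
      exact_mod_cast (by field_simp : 5 * (ε / 5) = ε)⟩
  set A := ENNReal.ofReal (4 * cc * (4 * m) / kap) with hA
  set D := ENNReal.ofReal (δv / 2)⁻¹ with hD
  set S := 1 + 18 * ENNReal.ofReal δv⁻¹ ^ (5 / 4 : ℝ) with hS
  have fA : A ≠ ⊤ := ENNReal.ofReal_ne_top
  have fD : D ≠ ⊤ := ENNReal.ofReal_ne_top
  have fS : S ≠ ⊤ := by
    rw [hS]
    finiteness
  obtain ⟨L2, e1, hL2⟩ := ((FirstX.small (C := 4 * D * A * C1) (l := atTop) (φ := fun L => Real.exp (-(1 / 4 * L)))
    (by finiteness) he0 (Real.tendsto_exp_neg_atTop_nhds_zero.comp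
      (tendsto_id.const_mul_atTop (by norm_num)))).and (eventually_ge_atTop Lv)).exists
  obtain ⟨C2, hC2⟩ := hC1 L2
  obtain ⟨δe, hδe, -, e2⟩ := FirstX.small0 (C := 4 * D * A * C2)
    (φ := fun δe => ((Lv + 2) / (δv / 2) * (2 * δe) ^ 2) ^ (1 / 3 : ℝ)) (by finiteness) he0
    (Continuous.rpow_const (by fun_prop) fun _ => Or.inr (by norm_num)) (by simp) one_pos
  obtain ⟨K1, e3, hK1⟩ := ((FirstX.small (C := 4 * D * A * C1) (l := atTop) (φ := fun L => L⁻¹)
    (by finiteness) he0 tendsto_inv_atTop_zero).and (eventually_ge_atTop 1)).exists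
  obtain ⟨δt, hδt, -, e4⟩ := FirstX.small0 (C := 4 * D * A * C1) (φ := fun δt => 8 * δt / δv) (by finiteness) he0
    (by fun_prop) (by simp) one_pos
  obtain ⟨w0, hw0, hw1, e5⟩ := FirstX.small0 (C := 2 * C3 * C4 * S) (φ := Real.sqrt) (by finiteness) he0
    Real.continuous_sqrt Real.sqrt_zero (half_pos hδ0)
  refine ⟨L2, δe, K1, δt, w0, hL2, hδe, hK1, hδt, hw0, hw1, ?_⟩
  intro P hP hm heta hw N T F f B hf hle t x v ht0 htT hKt hx hGT
  obtain ⟨hv, hom, hsl⟩ := hGT
  have ht1 : t ≤ 1 := by nlinarith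
  have hxv : nrm x + t * ‖v‖ ≤ K * t := by
    have h1 := L_ge hP
    have h2 := fl_pos hP N
    unfold om at hom
    rw [dd_eq_nrm hx] at hom
    nlinarith [mul_nonneg ht0.le (norm_nonneg v)]
  set Z : Set ℝ := Ioc 0 (t / K1) ∪ ⋃ p : Fin 2 × Bool, {s : ℝ | sg p.2 * (x p.1.castSucc - t * v p.1.castSucc) +
    (sg p.2 * v p.1.castSucc - kap) * s ∈ Ioo 0 (2 * δt * t)} with hZ
  have mZ : MeasurableSet Z :=
    measurableSet_Ioc.union (MeasurableSet.iUnion fun p => measurableSet_Ioo.preimage (by fun_prop))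
  have vZ : volume Z ≤ ENNReal.ofReal t * (ENNReal.ofReal K1⁻¹ + ENNReal.ofReal (8 * δt / δv)) := by
    refine (measure_union_le _ _).trans ?_
    rw [mul_add, Real.volume_Ioc, sub_zero, div_eq_mul_inv, ENNReal.ofReal_mul ht0.le]
    refine add_le_add le_rfl ((measure_iUnion_fintype_le _ _).trans ?_)
    refine (Finset.sum_le_card_nsmul _ _ _ fun p _ => FirstX.vol_aff hδ0 (FirstX.slope hsl p.1 p.2)).trans_eq ?_
    rw [← ENNReal.ofReal_mul ht0.le, ← ENNReal.ofReal_nsmul]
    congr 1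
    simp only [Finset.card_univ, Fintype.card_prod, Fintype.card_fin, Fintype.card_bool, nsmul_eq_mul]
    push_cast
    ring
  set J : ℝ → ℝ≥0∞ := fun s => ∑' k : Bm, if Thick P N δt K t k then
    ∫⁻ a, gk P k s (x - (t - s) • v) a * (invn (v - a) * pint (v - a) v
      (fun η => if ‖η‖ ≤ L2 ∧ δe ≤ nrm (v - η) then f s (x - (t - s) • v) η else 0)) else 0 with hJ
  have key : ∀ s ∈ Ioo 0 t, Ex F s t x v * (2 * Qp (G P N s (x - (t - s) • v)) (f s (x - (t - s) • v)) v) ≤
      (Ioo (t / K1) t).indicator (fun s => 4 * J s) s + (3 * e * B + Z.indicator (fun _ => 4 * D * A * C1 * B) s) := by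
    intro s hs
    have hs' : s ∈ Icc (0 : ℝ) 1 := ⟨hs.1.le, hs.2.le.trans ht1⟩
    set y := x - (t - s) • v with hy
    have hyn : nrm y ≤ K * t := by
      have h1 := nrm_add_le x (-((t - s) • v))
      rw [nrm_neg, nrm_smul, abs_of_pos (sub_pos.2 hs.2), ← sub_eq_add_neg] at h1
      have h2 := mul_le_mul (sub_le_self t hs.1.le) (nrm_le_norm v) ((abs_nonneg _).trans (le_max_left _ _)) ht0.le
      linarith
    have hfy := hf.vel s y
    have hly : ∀ η, f s y η ≤ B * TL P N 1 s y η := hle s ⟨hs.1.le, hs.2.le.trans htT⟩ y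
    have hC : 2 * Qp (GC P N s y) (f s y) v ≤ e * B := by
      have h1 : Qp (GC P N s y) (f s y) v ≤ B * Qp (GC P N s y) (TL P N 1 s y) v := by
        have := Qp_cmul ((measD_GC (P := P) N).vel s y) ((measD_TL (P := P) N 1).vel s y) 1 B v
        simp only [one_mul] at this
        rw [← this]
        exact Qp_mono (fun _ => le_rfl) hly v
      have h2 := hC3 hP N hP.m1 hs' y v ((measD_GC N).vel s y) fun a ha =>
        (G_supp hP hs' (N := N) (x := y) (v := a) fun h => ha (add_eq_zero.1 h).2).1.trans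
          (by norm_num)
      have h3 : Th P (P.fl N) 1 s y v ≤ 1 := by
        refine (Th_mono hP (fl_pos hP N).le 1 hs.1.le hs.2.le x v).trans (ENNReal.ofReal_le_one.2 ?_)
        rw [pow_one]
        exact mul_le_one₀ (by linarith) (Real.exp_pos _).le (Real.exp_le_one_iff.2 (by simp))
      calc _ ≤ 2 * (B * (C3 * 1 * (C4 * ENNReal.ofReal (Real.sqrt w0) * S))) := by
            refine mul_le_mul_right (h1.trans (mul_le_mul_right (h2.trans (mul_le_mul' (mul_le_mul_right h3 _)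
              ((hC4 hP N hs' y v).trans ?_))) _)) _
            exact mul_le_mul' (mul_le_mul_right (ENNReal.ofReal_le_ofReal (Real.sqrt_le_sqrt hw)) _)
              (FirstX.sig_le hP hδ0 hsl hs.1.le y)
        _ = 2 * C3 * C4 * S * ENNReal.ofReal (Real.sqrt w0) * B := by ring
        _ ≤ _ := mul_le_mul_left e5 _
    have hG : 2 * Qp (gs P N s y) (f s y) v ≤ (Ioo (t / K1) t).indicator (fun s => 4 * J s) s +
        (2 * e * B + Z.indicator (fun _ => 4 * D * A * C1 * B) s) := by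
      rw [carleman ((measD_gs N).vel s y) hfy, ← mul_assoc, show (2 * 2 : ℝ≥0∞) = 4 by norm_num]
      rcases G_core hP N hs' y with ⟨h0, -⟩ | ⟨k, hkN, hcore, hgs, -⟩
      · simp [h0]
      have hsame := Same.hat_ (y := y) (by linarith)
      rw [← hsame.gk_eq] at hgs
      rw [← hsame.core_iff] at hcore
      have hmass : ∀ c : ℝ≥0∞, ∫⁻ a, gk P k s y a * (c * ENNReal.ofReal (al P N s y)) ≤ c * A := fun c => by
        rw [lintegral_mul_const _ ((measD_gk k).vel s y), mul_left_comm]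
        refine mul_le_mul_right ((mul_le_mul_left ((lintegral_mono fun a => ?_).trans (G_mass hP N hs' y)) _).trans
          ((rb_al hP N hs.1.le y).trans_eq ?_)) _
        · rw [← hgs]
          exact gs_le_G _ _ _ _
        · rw [Par.L, hm]
      have hpt := fun a (ha : gk P k s y a ≠ 0) => hC2 hP N hs' (R := Lv + 2) (half_pos hδ0) hδe y (v - a) v hfy hly
        (hv.trans hL2) (slab_gk hP (hw.trans hw1) hsl hs' ha).1
        (by linarith [norm_sub_le v a, (slab_gk hP (hw.trans hw1) hsl hs' ha).2])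
      simp only [hgs]
      by_cases hsZ : s ∈ Z
      · rw [indicator_of_mem hsZ]
        refine le_add_left (le_add_left ?_)
        calc _ ≤ 4 * (D * C1 * B * A) := by
              refine mul_le_mul_right ((lintegral_mono fun a => ?_).trans (hmass _)) _
              by_cases ha : gk P k s y a = 0
              · simp [ha]
              · exact mul_le_mul_right (hpt a ha).1 _
          _ = _ := by ring
      · have hs1 : t / K1 < s := not_le.1 fun h => hsZ (Or.inl ⟨hs.1, h⟩)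
        have hth : Thick P N δt K t k := by
          have htile := core_tile hP hcore
          obtain ⟨h1, h2, -⟩ := (tile_iff hP k.1 hs.1.le y).1 htile
          have h3 := (tile_nrm hP hs.1.le htile).1
          have h4 := SingX.rr_le_X hP (k.1.1 + 1) hs.1.le
          refine ⟨by exact_mod_cast hkN, not_lt.1 fun h => hsZ (Or.inr (mem_iUnion.2 ⟨(k.1.2.1, k.1.2.2), ?_⟩)), ?_⟩
          · have h5 : y (iR k.1) = x k.1.2.1.castSucc - (t - s) * v k.1.2.1.castSucc := rfl
            have h6 := rr_pos hP (k.1.1 + 1)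
            have h7 := mul_pos (et_pos hP (k.1.1 + 1)) hs.1
            have h8 := mul_le_mul ((et_le hP k.1.1).trans heta) hs.2.le hs.1.le hδt.le
            rw [h5] at h1 h2
            unfold Par.X at h1 h2
            exact ⟨by linarith, by linarith⟩
          · rw [rr_succ]
            linarith
        rw [indicator_of_mem (show s ∈ Ioo (t / K1) t from ⟨hs1, hs.2⟩), indicator_of_notMem hsZ, add_zero]
        calc _ ≤ 4 * ((∫⁻ a, gk P k s y a * (invn (v - a) * pint (v - a) v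
              (fun η => if ‖η‖ ≤ L2 ∧ δe ≤ nrm (v - η) then f s y η else 0))) +
              ∫⁻ a, gk P k s y a * (D * (C1 * ew (1 / 4) L2 +
                C2 * ENNReal.ofReal ((Lv + 2) / (δv / 2) * (2 * δe) ^ 2) ^ (1 / 3 : ℝ)) * B *
                ENNReal.ofReal (al P N s y))) := by
              rw [← lintegral_add_right _ (((measD_gk k).vel s y).mul_const _)]
              refine mul_le_mul_right (lintegral_mono fun a => ?_) _
              by_cases ha : gk P k s y a = 0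
              · simp [ha]
              · exact (mul_le_mul_right (hpt a ha).2 _).trans_eq (mul_add _ _ _)
          _ ≤ 4 * (J s + D * (C1 * ew (1 / 4) L2 +
                C2 * ENNReal.ofReal ((Lv + 2) / (δv / 2) * (2 * δe) ^ 2) ^ (1 / 3 : ℝ)) * B * A) := by
              refine mul_le_mul_right (add_le_add (le_trans (le_of_eq ?_) (ENNReal.le_tsum k)) (hmass _)) _
              rw [if_pos hth]
          _ = 4 * J s + (4 * D * A * C1 * ew (1 / 4) L2 + 4 * D * A * C2 *
                ENNReal.ofReal (((Lv + 2) / (δv / 2) * (2 * δe) ^ 2) ^ (1 / 3 : ℝ))) * B := by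
              rw [ENNReal.ofReal_rpow_of_nonneg (by positivity) (by norm_num)]
              ring
          _ ≤ 4 * J s + (e + e) * B := add_le_add le_rfl (mul_le_mul_left (add_le_add e1 e2) _)
          _ = _ := by ring
    calc _ ≤ 1 * (2 * (Qp (gs P N s y) (f s y) v + Qp (GC P N s y) (f s y) v)) := by
          refine mul_le_mul' (Ex_le_one _ _ _ _ _) (le_of_eq ?_)
          rw [← Qp_add_left ((measD_gs N).vel s y) ((measD_GC N).vel s y) hfy]
          rfl
      _ ≤ (Ioo (t / K1) t).indicator (fun s => 4 * J s) s +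
          (2 * e * B + Z.indicator (fun _ => 4 * D * A * C1 * B) s) + e * B := by
          rw [one_mul, mul_add]
          exact add_le_add hG hC
      _ = _ := by ring
  refine (setLIntegral_mono' measurableSet_Ioo key).trans ?_
  rw [lintegral_add_right _ (measurable_const.fun_add (measurable_const.indicator mZ)), add_comm]
  refine add_le_add ?_ ?_
  · rw [lintegral_add_left measurable_const, setLIntegral_const, Real.volume_Ioo, sub_zero,
      lintegral_indicator_const mZ]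
    calc _ ≤ 3 * e * B * ENNReal.ofReal t + 4 * D * A * C1 * B *
          (ENNReal.ofReal t * (ENNReal.ofReal K1⁻¹ + ENNReal.ofReal (8 * δt / δv))) :=
          add_le_add le_rfl (mul_le_mul_right ((Measure.restrict_le_self Z).trans vZ) _)
      _ = (3 * e + (4 * D * A * C1 * ENNReal.ofReal K1⁻¹ + 4 * D * A * C1 * ENNReal.ofReal (8 * δt / δv))) *
          (B * ENNReal.ofReal t) := by ring
      _ ≤ (3 * e + (e + e)) * (B * ENNReal.ofReal t) := mul_le_mul_left (add_le_add le_rfl (add_le_add e3 e4)) _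
      _ = _ := by
          rw [← hee]
          ring
  · refine (lintegral_mono' Measure.restrict_le_self le_rfl).trans_eq ?_
    rw [lintegral_indicator measurableSet_Ioo, lintegral_const_mul' _ _ (by norm_num)]
    rfl

end Crest.Agent.R68
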