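import Crest.Agent.R68.LateStep

/-! The late stage: induction over steps of a fixed length `τ0 ≤ 1/4` with `CF τ0 ≤ min (K/2) (δ0/2)`: if the two bounds hold on `[t1, t1 + jτ0)` then `late_step` gives them on `[t1 + jτ0, t1 + (j+1)τ0]`.  Finally `F ≤ M + Dv F`, `Eb ≤ 1`, `Eb' ≤ e³`, `M ≤ W(1/2) ≤ W(1/2) Λ₂`. -/

set_option autoImplicit false

open MeasureTheory Set Filter Topology Crest.AnalysisR.VecCalc3 Crest.AnalysisR.PDE.Boltzmann
open scoped ENNReal NNReal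

namespace Crest.Agent.R68

theorem late (C : ℝ≥0) : ∃ K β η : ℝ≥0, 0 < β ∧ (β : ℝ) ≤ 1 / 16 ∧ 0 < η ∧
    ∀ {F0 : R3 → R3 → ℝ≥0∞} {T : ℝ} {F : Den} {ρ : ℝ≥0∞} {t1 a R : ℝ} {g Λ1 : R3 → R3 → ℝ≥0∞},
    Sol F0 T F → (∀ t ∈ Icc 0 T, ∀ v, IsPeriodic3 (fun x => F t x v)) →
    ρ ≠ 0 → ρ ≤ β → LateIn C ρ t1 g Λ1 → 0 < a → a ≤ β → 1 ≤ β * R → 0 ≤ t1 → t1 ≤ Real.sqrt a →
    (∀ x v, Dv F t1 x v ≤ g x v + β * (W (1 / 2) v * Λ1 x v) + hole a R (x - t1 • v) v + β * (MM v * pw 1 v)) →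
    (∀ t ∈ Icc t1 T, ∫⁻ x in cell, dlt (F t x) ≤ η) →
    ∀ t ∈ Icc t1 T, ∀ x v, F t x v ≤ tr t1 g t x v + K * Ds t1 g t x v +
      K * (W (1 / 2) v * Lam2 t1 ρ g Λ1 t x v) := by
  obtain ⟨K, δ0, β, η, hK, hδ, hβ, hβ', hη, hstep⟩ := late_step C
  refine ⟨K + 1 + (Real.exp 3).toNNReal, β, η, hβ, hβ', hη, ?_⟩
  intro F0 T F ρ t1 a R g Λ1 hS hper hρ0 hρ hL ha haβ hR ht1 ht1a hI hsm
  obtain ⟨KF, hKF⟩ := hS.bdd
  obtain ⟨CF, hCF⟩ := hstep KF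
  have hst := hCF hS.mild hKF hper hρ0 hρ hL ha haβ hR ht1 ht1a hI hsm
  set m : ℝ≥0 := min K δ0 with hm
  have hm0 : (0 : ℝ) < m := by
    have : 0 < m := lt_min (lt_of_lt_of_le one_pos hK) hδ
    exact_mod_cast this
  have hCF0 : (0 : ℝ) ≤ CF := CF.2
  set τ0 : ℝ := min (1 / 4) (m / (2 * (CF + 1))) with hτ0
  have hτ : 0 < τ0 := lt_min (by norm_num) (by positivity)
  have hsmall : ∀ τ : ℝ, τ ≤ τ0 → (CF : ℝ≥0∞) * ENNReal.ofReal τ ≤ (m : ℝ≥0∞) / 2 := by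
    intro τ h
    have h1 : τ ≤ m / (2 * (CF + 1)) := h.trans (min_le_right _ _)
    have h2 : (CF : ℝ) * τ ≤ m / 2 := by
      calc (CF : ℝ) * τ ≤ (CF + 1) * (m / (2 * (CF + 1))) :=
            (mul_le_mul_of_nonneg_left h1 hCF0).trans
              (mul_le_mul_of_nonneg_right (by linarith) (by positivity))
        _ = m / 2 := by field_simp
    calc (CF : ℝ≥0∞) * ENNReal.ofReal τ = ENNReal.ofReal (CF * τ) := by
          rw [ENNReal.ofReal_mul hCF0, ENNReal.ofReal_coe_nnreal]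
      _ ≤ ENNReal.ofReal (m / 2) := ENNReal.ofReal_le_ofReal h2
      _ = _ := by
          rw [ENNReal.ofReal_div_of_pos (by norm_num), ENNReal.ofReal_coe_nnreal,
            ENNReal.ofReal_ofNat]
  have hhalf : ∀ (c : ℝ≥0) (τ : ℝ), m ≤ c → τ ≤ τ0 →
      (c : ℝ≥0∞) / 2 + CF * ENNReal.ofReal τ ≤ c := by
    intro c τ hc h
    calc (c : ℝ≥0∞) / 2 + CF * ENNReal.ofReal τ ≤ c / 2 + c / 2 := by
          refine add_le_add le_rfl ((hsmall τ h).trans ?_)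
          gcongr
      _ = c := ENNReal.add_halves _
  have hind : ∀ j : ℕ, ∀ s, t1 ≤ s → s ≤ T → s < t1 + j * τ0 → ∀ y,
      DevLe t1 ρ g Λ1 K F s y ∧ (Real.sqrt a ≤ s → dlt (F s y) ≤ δ0) := by
    intro j
    induction j with
    | zero => intro s h1 _ h3; simp at h3; linarith
    | succ j ih =>
      intro s h1 h2 h3 y
      rcases lt_or_ge s (t1 + j * τ0) with h4 | h4
      · exact ih s h1 h2 h4 y
      · have h5 : s - (t1 + j * τ0) ≤ τ0 := by push_cast at h3; linarith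
        have h6 : t1 ≤ t1 + j * τ0 := le_add_of_nonneg_right (by positivity)
        obtain ⟨h7, h8⟩ := hst (t1 + j * τ0) s h6 h4 h2 (h5.trans (min_le_left _ _))
          (fun σ hσ y => (ih σ hσ.1 (hσ.2.le.trans (h4.trans h2)) hσ.2 y).1)
          (fun σ hσ y => (ih σ (ht1a.trans hσ.1) (hσ.2.le.trans (h4.trans h2)) hσ.2 y).2 hσ.1) y
        refine ⟨fun v => (h7 v).trans ?_, fun h => (h8 h).trans (hhalf δ0 _ (min_le_right _ _) h5)⟩
        gcongr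
        exact hhalf K _ (min_le_left _ _) h5
  intro t ht x v
  obtain ⟨j, hj⟩ := exists_nat_gt ((t - t1) / τ0)
  have hj' : t < t1 + j * τ0 := by
    rw [div_lt_iff₀ hτ] at hj; linarith
  have hD := (hind j t ht.1 ht.2 hj' x).1 v
  have hE : Eb (t - t1) ≤ 1 := by
    unfold Eb
    exact ENNReal.ofReal_le_one.2 (min_le_left _ _)
  have hE' : Eb' (t - t1) ≤ ((K + 1 + (Real.exp 3).toNNReal : ℝ≥0) : ℝ≥0∞) := by
    unfold Eb'
    push_cast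
    refine le_trans ?_ le_add_self
    exact ENNReal.ofReal_le_ofReal (Real.exp_le_exp.2 (by linarith [ht.1]))
  have hM : MM v ≤ W (1 / 2) v * Lam2 t1 ρ g Λ1 t x v :=
    (DevMild.MM_le v).trans (le_mul_of_one_le_right' (one_le_Lam2 _ _ _ _ _ _ _))
  calc F t x v ≤ MM v + Dv F t x v := le_add_adiff _ _
    _ ≤ W (1 / 2) v * Lam2 t1 ρ g Λ1 t x v + (1 * tr t1 g t x v +
        ((K + 1 + (Real.exp 3).toNNReal : ℝ≥0) : ℝ≥0∞) * Ds t1 g t x v +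
        K * (W (1 / 2) v * Lam2 t1 ρ g Λ1 t x v)) := by
        refine add_le_add hM (hD.trans ?_)
        gcongr
    _ = tr t1 g t x v + ((K + 1 + (Real.exp 3).toNNReal : ℝ≥0) : ℝ≥0∞) * Ds t1 g t x v +
        (K + 1) * (W (1 / 2) v * Lam2 t1 ρ g Λ1 t x v) := by ring
    _ ≤ _ := by
        gcongr
        push_cast
        exact le_self_add

end Crest.Agent.R68
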