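import Crest.Agent.R68.PBd

/-! Small strips in discs.  A condition `|c + ⟪e, p⟫| < δ` on `p ⊥ n`, `‖p‖ ≤ L` cuts out a strip of area
`≤ 4 L δ / ‖e_⊥‖` where `e_⊥` is the projection of `e` on the plane (use `pint_param`, rotate the
plane so that `e_⊥` is the first axis, or slice).  `strip`: if `‖e_⊥‖ < κ₀ ‖e‖` with `κ₀ = δ₁²/(4L²)` small then
`|⟪e,n⟫| ≥ ‖e‖‖n‖/2` and `|⟪e,p⟫| ≤ κ₀ L²`, so the set is empty for `δ < δ₁²/4`. -/

set_option autoImplicit false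

open MeasureTheory Set Filter Topology Crest.AnalysisR.VecCalc3 Crest.AnalysisR.PDE.Boltzmann
open scoped ENNReal NNReal

namespace Crest.Agent.R68

theorem Strip.inner_perp {n p : R3} (e : R3) (hp : inner ℝ p n = 0) :
    inner ℝ e p = inner ℝ (e - (inner ℝ e (‖n‖⁻¹ • n)) • (‖n‖⁻¹ • n)) p := by
  rw [inner_sub_left, real_inner_smul_left, real_inner_smul_left, real_inner_comm p n, hp]
  ring

theorem Strip.norm_le {n : R3} (hn : n ≠ 0) (e : R3) :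
    ‖e‖ ≤ ‖e - (inner ℝ e (‖n‖⁻¹ • n)) • (‖n‖⁻¹ • n)‖ + |inner ℝ e (‖n‖⁻¹ • n)| := by
  have h1 := norm_add_le (e - (inner ℝ e (‖n‖⁻¹ • n)) • (‖n‖⁻¹ • n)) ((inner ℝ e (‖n‖⁻¹ • n)) • (‖n‖⁻¹ • n))
  rwa [sub_add_cancel, norm_smul (inner ℝ e (‖n‖⁻¹ • n)), Plane.norm_unit hn, mul_one, Real.norm_eq_abs] at h1

theorem Strip.empty {n : R3} (hn : n ≠ 0) (z : R3) {S : Set R3} (h : ∀ b, inner ℝ (b - z) n = 0 → b ∉ S)
    (c : ℝ≥0∞) : pint n z (S.indicator 1) ≤ c := by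
  refine (pint_mono_on hn z (g := fun _ => 0) fun b hb => (indicator_of_notMem (h b hb) _).le).trans ?_
  simp [pint]

theorem Strip.set {n : R3} (hn : n ≠ 0) (z e : R3) (c L θ : ℝ) (hθ : 0 < θ) (hL : 0 ≤ L)
    {A : Set ℝ} (hA : MeasurableSet A)
    (he : θ ≤ ‖e - (inner ℝ e (‖n‖⁻¹ • n)) • (‖n‖⁻¹ • n)‖) :
    pint n z ({ξ : R3 | ‖ξ - z‖ ≤ L ∧ c + inner ℝ e (ξ - z) ∈ A}.indicator 1) ≤
      ENNReal.ofReal (2 * L / θ) * volume A := by
  obtain ⟨ι, hι⟩ := exists_iso hn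
  have hn' : ‖n‖ ≠ 0 := norm_ne_zero_iff.2 hn
  obtain ⟨e', he'⟩ := iso_surj hn ι hι (q := e - (inner ℝ e (‖n‖⁻¹ • n)) • (‖n‖⁻¹ • n)) (by
    rw [inner_sub_left, real_inner_smul_left, real_inner_smul_left, real_inner_smul_right, real_inner_self_eq_norm_sq]
    field_simp
    ring)
  rw [← he', ι.norm_map] at he
  have hk : 0 < ‖e'‖ := lt_of_lt_of_le hθ he
  let u : EuclideanSpace ℝ (Fin 2) := EuclideanSpace.single 0 ‖e'‖
  let R := Submodule.reflection (ℝ ∙ (u - e'))ᗮ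
  have hR : R u = e' := Submodule.reflection_sub (by simp [u])
  have hS : MeasurableSet {ξ : R3 | ‖ξ - z‖ ≤ L ∧ c + inner ℝ e (ξ - z) ∈ A} :=
    (measurableSet_le (f := fun ξ : R3 => ‖ξ - z‖) (by fun_prop) measurable_const).inter
      (hA.preimage (f := fun ξ : R3 => c + inner ℝ e (ξ - z)) (by fun_prop))
  rw [pint_param hn (ι.comp R.toLinearIsometry) (fun p => hι _) z (measurable_one.indicator hS)]
  have h3 : MeasurePreserving (fun p : EuclideanSpace ℝ (Fin 2) => (p 0, p 1)) volume volume :=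
    (volume_preserving_finTwoArrow ℝ).comp (PiLp.volume_preserving_ofLp (Fin 2))
  have hB : MeasurableSet (((fun s => ‖e'‖ * s) ⁻¹' ((fun s => c + s) ⁻¹' A)) ×ˢ Icc (-L) L) :=
    ((hA.preimage (measurable_const_add c)).preimage (measurable_const_mul _)).prod measurableSet_Icc
  have h4 := h3.lintegral_comp (measurable_one.indicator hB : Measurable (indicator _ (1 : ℝ × ℝ → ℝ≥0∞)))
  refine le_trans (lintegral_mono fun p => ?_) (h4.le.trans ?_)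
  · refine indicator_le_indicator_of_subset (f := fun _ => (1 : ℝ≥0∞))
      (s := {p | z + (ι.comp R.toLinearIsometry) p ∈ {ξ : R3 | ‖ξ - z‖ ≤ L ∧ c + inner ℝ e (ξ - z) ∈ A}})
      (t := {p : EuclideanSpace ℝ (Fin 2) |
        (p 0, p 1) ∈ ((fun s => ‖e'‖ * s) ⁻¹' ((fun s => c + s) ⁻¹' A)) ×ˢ Icc (-L) L})
      (fun p hp => ?_) (fun _ => zero_le) p
    simp only [mem_ofPred_eq, add_sub_cancel_left, LinearIsometry.norm_map] at hp
    obtain ⟨h5, h6⟩ := hp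
    have h7 : inner ℝ e ((ι.comp R.toLinearIsometry) p) = ‖e'‖ * p 0 := by
      change inner ℝ e (ι (R p)) = _
      rw [Strip.inner_perp e (hι _), ← he', ι.inner_map_map]
      conv_lhs => rw [← hR]
      rw [R.inner_map_map]
      simp [u, EuclideanSpace.inner_single_left]
    rw [h7] at h6
    exact ⟨h6, abs_le.1 ((PiLp.norm_apply_le p 1).trans h5)⟩
  · rw [lintegral_indicator_one hB, Measure.volume_eq_prod, Measure.prod_prod, Real.volume_preimage_mul_left hk.ne',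
      measure_preimage_add, Real.volume_Icc, mul_right_comm, ← ENNReal.ofReal_mul (abs_nonneg _)]
    refine mul_le_mul_left (ENNReal.ofReal_le_ofReal ?_) _
    rw [abs_of_pos (inv_pos.2 hk), sub_neg_eq_add, ← two_mul, mul_comm, ← div_eq_mul_inv]
    exact div_le_div_of_nonneg_left (by positivity) hθ he

theorem strip_basic {n : R3} (hn : n ≠ 0) (z e : R3) (c L δ θ : ℝ) (hθ : 0 < θ) (hL : 0 ≤ L)
    (hδ : 0 ≤ δ) (he : θ ≤ ‖e - (inner ℝ e (‖n‖⁻¹ • n)) • (‖n‖⁻¹ • n)‖) :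
    pint n z ({ξ : R3 | ‖ξ - z‖ ≤ L ∧ |c + inner ℝ e (ξ - z)| < δ}.indicator 1) ≤
      ENNReal.ofReal (4 * L * δ / θ) := by
  have h1 := Strip.set hn z e c L θ hθ hL (A := Ioo (-δ) δ) measurableSet_Ioo he
  simp only [mem_Ioo, ← abs_lt] at h1
  refine h1.trans (le_of_eq ?_)
  rw [Real.volume_Ioo, ← ENNReal.ofReal_mul (by positivity)]
  congr 1
  ring

/-- the same for a set of values of small measure -/
theorem strip_set {n : R3} (hn : n ≠ 0) (z e : R3) (c L θ : ℝ) (hθ : 0 < θ) (hL : 0 ≤ L)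
    {A : Set ℝ} (hA : MeasurableSet A)
    (he : θ ≤ ‖e - (inner ℝ e (‖n‖⁻¹ • n)) • (‖n‖⁻¹ • n)‖) :
    pint n z ({ξ : R3 | ‖ξ - z‖ ≤ L ∧ c + inner ℝ e (ξ - z) ∈ A}.indicator 1) ≤
      ENNReal.ofReal (2 * L / θ) * volume A := by
  exact Strip.set hn z e c L θ hθ hL hA he

theorem strip {ε L δ₁ : ℝ} (hε : 0 < ε) (hL : 0 < L) (hδ₁ : 0 < δ₁) : ∃ δ > 0, ∀ (n e z : R3) (sgn : ℝ),
    (sgn = 1 ∨ sgn = -1) → δ₁ ≤ ‖n‖ → δ₁ ≤ ‖e‖ → ‖e‖ ≤ L →
    pint n z ({ξ : R3 | ‖ξ - z‖ ≤ L ∧ |inner ℝ e (n + sgn • (ξ - z))| < δ}.indicator 1) ≤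
      ENNReal.ofReal ε := by
  have hθ : 0 < min (δ₁ / 2) (δ₁ ^ 2 / (4 * L)) := lt_min (by positivity) (by positivity)
  have hθ1 := min_le_left (δ₁ / 2) (δ₁ ^ 2 / (4 * L))
  have hθ2 := min_le_right (δ₁ / 2) (δ₁ ^ 2 / (4 * L))
  generalize min (δ₁ / 2) (δ₁ ^ 2 / (4 * L)) = θ at hθ hθ1 hθ2
  rw [le_div_iff₀ (by positivity)] at hθ2
  have hδ : 0 < min (δ₁ ^ 2 / 4) (ε * θ / (4 * L)) := lt_min (by positivity) (by positivity)
  have hδ1 := min_le_left (δ₁ ^ 2 / 4) (ε * θ / (4 * L))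
  have hδ2 := min_le_right (δ₁ ^ 2 / 4) (ε * θ / (4 * L))
  generalize min (δ₁ ^ 2 / 4) (ε * θ / (4 * L)) = δ at hδ hδ1 hδ2
  rw [le_div_iff₀ (by positivity)] at hδ2
  refine ⟨δ, hδ, fun n e z sgn hs hn he _ => ?_⟩
  have hn0 : 0 < ‖n‖ := lt_of_lt_of_le hδ₁ hn
  have hn' : n ≠ 0 := norm_pos_iff.1 hn0
  have hs1 : |sgn| = 1 := by rcases hs with rfl | rfl <;> simp
  by_cases h : θ ≤ ‖e - (inner ℝ e (‖n‖⁻¹ • n)) • (‖n‖⁻¹ • n)‖
  · have h1 := strip_basic hn' z (sgn • e) (inner ℝ e n) L δ θ hθ hL.le hδ.le (by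
      rw [real_inner_smul_left, mul_smul, ← smul_sub, norm_smul, Real.norm_eq_abs, hs1, one_mul]
      exact h)
    simp only [inner_add_right, real_inner_smul_right]
    simp only [real_inner_smul_left] at h1
    refine h1.trans (ENNReal.ofReal_le_ofReal ?_)
    rw [div_le_iff₀ hθ]
    linarith
  · refine Strip.empty hn' z (fun b hb hS => ?_) _
    rw [not_le] at h
    obtain ⟨h1, h2⟩ := hS
    have h3 : |inner ℝ e (b - z)| ≤ θ * L := by
      rw [Strip.inner_perp e hb]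
      exact (abs_real_inner_le_norm _ _).trans (mul_le_mul h.le h1 (norm_nonneg _) hθ.le)
    have h4 := Strip.norm_le hn' e
    have h5 : |inner ℝ e n| = ‖n‖ * |inner ℝ e (‖n‖⁻¹ • n)| := by
      rw [real_inner_smul_right, abs_mul, abs_of_pos (inv_pos.2 hn0)]
      field_simp
    have h6 : δ₁ * (δ₁ / 2) ≤ |inner ℝ e n| := by
      rw [h5]
      exact mul_le_mul hn (by linarith) (by positivity) hn0.le
    rw [inner_add_right, real_inner_smul_right] at h2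
    have h7 := abs_add_le (inner ℝ e n + sgn * inner ℝ e (b - z)) (-(sgn * inner ℝ e (b - z)))
    rw [add_neg_cancel_right, abs_neg, abs_mul, hs1, one_mul] at h7
    nlinarith

/-- coordinate slabs: either small, or the normal is almost the `i`-th axis and `z i` is close to `c` -/
theorem strip_coord {ε L θ : ℝ} (hε : 0 < ε) (hL : 0 < L) (hθ : 0 < θ) : ∃ δ > 0, δ ≤ θ ∧
    ∀ (n z : R3) (i : Fin 3) (c : ℝ), n ≠ 0 → ‖n‖ ≤ L →
    pint n z ({ξ : R3 | ‖ξ - z‖ ≤ L ∧ |ξ i - c| < δ}.indicator 1) ≤ ENNReal.ofReal ε ∨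
      (|z i - c| ≤ θ ∧ ∀ j, j ≠ i → |n j| ≤ θ) := by
  have hκ : 0 < min (1 / 2 : ℝ) (θ / (2 * L)) := lt_min (by positivity) (by positivity)
  have hκ1 := min_le_left (1 / 2 : ℝ) (θ / (2 * L))
  have hκ2 := min_le_right (1 / 2 : ℝ) (θ / (2 * L))
  generalize min (1 / 2 : ℝ) (θ / (2 * L)) = κ at hκ hκ1 hκ2
  rw [le_div_iff₀ (by positivity)] at hκ2
  have hδ : 0 < min (θ / 2) (ε * κ / (4 * L)) := lt_min (by positivity) (by positivity)
  have hδ1 := min_le_left (θ / 2) (ε * κ / (4 * L))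
  have hδ2 := min_le_right (θ / 2) (ε * κ / (4 * L))
  generalize min (θ / 2) (ε * κ / (4 * L)) = δ at hδ hδ1 hδ2
  rw [le_div_iff₀ (by positivity)] at hδ2
  refine ⟨δ, hδ, by linarith, fun n z i c hn hnL => ?_⟩
  have hn0 : 0 < ‖n‖ := norm_pos_iff.2 hn
  let e : R3 := EuclideanSpace.single i (1 : ℝ)
  have he : ∀ ξ : R3, ξ i - c = z i - c + inner ℝ e (ξ - z) := fun ξ => by
    simp [e, EuclideanSpace.inner_single_left]
  by_cases h : κ ≤ ‖e - (inner ℝ e (‖n‖⁻¹ • n)) • (‖n‖⁻¹ • n)‖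
  · refine Or.inl ?_
    rw [show {ξ : R3 | ‖ξ - z‖ ≤ L ∧ |ξ i - c| < δ} = {ξ : R3 | ‖ξ - z‖ ≤ L ∧ |z i - c + inner ℝ e (ξ - z)| < δ} from
      Set.ext fun ξ => by rw [mem_ofPred_eq, mem_ofPred_eq, he ξ]]
    refine (strip_basic hn z e (z i - c) L δ κ hκ hL.le hδ.le h).trans (ENNReal.ofReal_le_ofReal ?_)
    rw [div_le_iff₀ hκ]
    linarith
  · rw [not_le] at h
    by_cases hz : |z i - c| ≤ θ
    · refine Or.inr ⟨hz, fun j hj => ?_⟩
      have h1 := Strip.norm_le hn e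
      have h2 : ‖e‖ = 1 := by simp [e]
      have h3 := (PiLp.norm_apply_le (e - (inner ℝ e (‖n‖⁻¹ • n)) • (‖n‖⁻¹ • n)) j).trans h.le
      generalize inner ℝ e (‖n‖⁻¹ • n) = a at h h1 h3
      have h4 : (e - a • (‖n‖⁻¹ • n)) j = -(a * (‖n‖⁻¹ * n j)) := by simp [e, hj]
      rw [h4, norm_neg, Real.norm_eq_abs, abs_mul, abs_mul, abs_of_pos (inv_pos.2 hn0), ← mul_assoc, mul_right_comm,
        ← div_eq_mul_inv, div_le_iff₀ hn0] at h3
      have h5 : 1 / 2 * |n j| ≤ |a| * |n j| := mul_le_mul_of_nonneg_right (by linarith) (abs_nonneg _)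
      have h6 : κ * ‖n‖ ≤ κ * L := mul_le_mul_of_nonneg_left hnL hκ.le
      linarith
    · refine Or.inl (Strip.empty hn z (fun b hb hS => ?_) _)
      obtain ⟨h1, h2⟩ := hS
      have h3 : |inner ℝ e (b - z)| ≤ κ * L := by
        rw [Strip.inner_perp e hb]
        exact (abs_real_inner_le_norm _ _).trans (mul_le_mul h.le h1 (norm_nonneg _) hκ.le)
      rw [he] at h2
      have h7 := abs_add_le (z i - c + inner ℝ e (b - z)) (-(inner ℝ e (b - z)))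
      rw [add_neg_cancel_right, abs_neg] at h7
      rw [not_le] at hz
      linarith


end Crest.Agent.R68
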