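import Crest.Agent.R68.Tile2
import Crest.Agent.R68.Strip

/-! Plane bounds for the singular weights.  At most one tile is active, so `sig^{3/2} ≤ C (1 + Σ_τ 1_τ Σ_{18 centres} ‖v - ctr‖^{-15/8})`.  For `v` in the unit ball about `q`,
`hat (x - τ v)` has the transversal coordinates of `x - τ v - j` for `j` in a set of at most `(2τ+2)²` lattice vectors; for fixed `j`, tile and centre each coordinate of `v - ctr` is `λ_i (v_i - c_i)` with `λ_i ≥ 1` and `c` independent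
of `v`, so `‖v - ctr‖ ≥ ‖v - c‖` and `sing_area` (`p = 15/8`) bounds the plane integral by `C area^{1/16}`, where the set is contained in the strip
`X (n+1) s < ±(x_i - j_i - τ v_i) < X n s`.  `levels_sum`: let `θ' = ‖e_⊥‖`; on the disc the affine function ranges over an interval of length `≤ 2θ'`; the intervals `I n` are disjoint with lengths
`ℓ (n+1) ≤ ℓ n / 2`; at most 3 of those with `ℓ n > θ'` are met (area `≤ π` each), and the others have area `≤ 2 ℓ n/θ'` (`strip_set`), a geometric sum.  If `θ' = 0` at most one is met. -/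

set_option autoImplicit false

open MeasureTheory Set Filter Topology Crest.AnalysisR.VecCalc3 Crest.AnalysisR.PDE.Boltzmann
open scoped ENNReal NNReal

namespace Crest.Agent.R68

theorem Tilt.pint_tsum {ι : Type} [Countable ι] (n z : R3) {f : ι → R3 → ℝ≥0∞} (hf : ∀ i, Measurable (f i)) :
    pint n z (fun b => ∑' i, f i b) = ∑' i, pint n z (f i) := by
  unfold pint
  simp only [← ENNReal.tsum_mul_left]
  exact lintegral_tsum fun i => (Plane.meas n z (hf i)).aemeasurable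

theorem Tilt.pint_sum {ι : Type} (s : Finset ι) (n z : R3) {f : ι → R3 → ℝ≥0∞} (hf : ∀ i, Measurable (f i)) :
    pint n z (fun b => ∑ i ∈ s, f i b) = ∑ i ∈ s, pint n z (f i) := by
  unfold pint
  simp only [Finset.mul_sum]
  exact lintegral_finsetSum s fun i _ => Plane.meas n z (hf i)

theorem Tilt.area_le {n : R3} (hn : n ≠ 0) (q : R3) {S : Set R3} (hS : S ⊆ Metric.ball q 1) :
    pint n q (S.indicator 1) ≤ 4 := by
  have h := PB_const 1 n q hn
  rw [mul_one] at h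
  exact (pint_mono n q fun b => indicator_le_indicator_of_subset hS (fun _ => zero_le) b).trans h

theorem levels_sum : ∃ C : ℝ≥0, ∀ (X : ℕ → ℝ), StrictAnti X →
    (∀ n, X (n + 1) - X (n + 2) ≤ (X n - X (n + 1)) / 2) → ∀ (n q e : R3) (c : ℝ), n ≠ 0 →
    ∑' l : ℕ, pint n q ({v : R3 | v ∈ Metric.ball q 1 ∧ c + inner ℝ e (v - q) ∈ Ioo (X (l + 1)) (X l)}.indicator 1)
      ^ (1 / 16 : ℝ) ≤ C := by
  classical
  -- the constant
  have hfin : ∑' k : ℕ, ((16 : ℝ≥0∞) * (2⁻¹) ^ k) ^ (1 / 16 : ℝ) ≠ ⊤ := by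
    have e : ∀ k : ℕ, ((16 : ℝ≥0∞) * (2⁻¹) ^ k) ^ (1 / 16 : ℝ) =
        16 ^ (1 / 16 : ℝ) * (((2⁻¹ : ℝ≥0∞)) ^ (1 / 16 : ℝ)) ^ k := fun k => by
      rw [ENNReal.mul_rpow_of_nonneg _ _ (by norm_num), ← ENNReal.rpow_natCast, ← ENNReal.rpow_natCast,
        ← ENNReal.rpow_mul, ← ENNReal.rpow_mul, mul_comm (k : ℝ)]
    simp only [e]
    rw [ENNReal.tsum_mul_left, ENNReal.tsum_geometric]
    refine ENNReal.mul_ne_top (ENNReal.rpow_ne_top_of_nonneg (by norm_num) (by norm_num)) ?_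
    rw [ENNReal.inv_ne_top]
    have : (2⁻¹ : ℝ≥0∞) ^ (1 / 16 : ℝ) < 1 := ENNReal.rpow_lt_one (by norm_num) (by norm_num)
    exact (tsub_pos_of_lt this).ne'
  refine ⟨(∑' k : ℕ, ((16 : ℝ≥0∞) * (2⁻¹) ^ k) ^ (1 / 16 : ℝ)).toNNReal, ?_⟩
  intro X hX hl n q e c hn
  rw [ENNReal.coe_toNNReal hfin]
  set θ : ℝ := ‖e - (inner ℝ e (‖n‖⁻¹ • n)) • (‖n‖⁻¹ • n)‖ with hθ
  have hθ0 : 0 ≤ θ := norm_nonneg _
  set A : ℕ → ℝ≥0∞ := fun l => pint n q
    ({v : R3 | v ∈ Metric.ball q 1 ∧ c + inner ℝ e (v - q) ∈ Ioo (X (l + 1)) (X l)}.indicator 1) with hA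
  change ∑' l, A l ^ (1 / 16 : ℝ) ≤ _
  let met : ℕ → Prop := fun l => ∃ y ∈ Ioo (X (l + 1)) (X l), |y - c| ≤ θ
  have h0 : ∀ l, ¬ met l → A l = 0 := by
    intro l hm
    refine le_antisymm (Strip.empty hn q (fun b hb hb' => hm ⟨_, hb'.2, ?_⟩) 0) zero_le
    rw [add_sub_cancel_left, Strip.inner_perp e hb]
    refine (abs_real_inner_le_norm _ _).trans ?_
    have := hb'.1
    rw [mem_ball_iff_norm] at this
    nlinarith
  have h4 : ∀ l, A l ≤ 4 := fun l => Tilt.area_le hn q fun v hv => hv.1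
  have hgeo : ∀ a k : ℕ, X (a + k) - X (a + k + 1) ≤ (X a - X (a + 1)) / 2 ^ k := by
    intro a k
    induction k with
    | zero => simp
    | succ k ih =>
      have := hl (a + k)
      rw [pow_succ, ← div_div]
      change X (a + k + 1) - X (a + k + 2) ≤ _
      linarith
  by_cases hex : ∃ l, met l
  swap
  · push Not at hex
    simp [h0 _ (hex _)]
  set l0 := Nat.find hex with hl0
  have hb : ∀ k, A (k + l0) ≤ 16 * (2⁻¹) ^ k := by
    intro k
    rcases lt_or_ge k 2 with hk | hk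
    · refine (h4 _).trans ?_
      interval_cases k
      · norm_num
      · rw [pow_one]
        have : (16 : ℝ≥0∞) = 8 * 2 := by norm_num
        rw [this, mul_assoc, ENNReal.mul_inv_cancel (by norm_num) (by norm_num)]
        norm_num
    by_cases hm : met (k + l0)
    swap
    · rw [h0 _ hm]; exact zero_le
    obtain ⟨y, hy, hyc⟩ := hm
    obtain ⟨y0, hy0, hy0c⟩ : met l0 := Nat.find_spec hex
    have h1 : X (k + l0) ≤ X (l0 + 2) := hX.antitone (by omega)
    have h2 : X (l0 + 1) - X (l0 + 2) ≤ 2 * θ := by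
      have := abs_le.1 hyc
      have := abs_le.1 hy0c
      linarith [hy.2, hy0.1]
    have h3 : 0 < X (l0 + 1) - X (l0 + 2) := sub_pos.2 (hX (by omega))
    have hθp : 0 < θ := by linarith
    obtain ⟨k', rfl⟩ : ∃ k', k = k' + 1 := ⟨k - 1, by omega⟩
    have h5 := hgeo (l0 + 1) k'
    have e1 : l0 + 1 + k' = k' + 1 + l0 := by ring
    rw [e1] at h5
    have h6 := strip_set hn q e c 1 θ hθp zero_le_one (A := Ioo (X (k' + 1 + l0 + 1)) (X (k' + 1 + l0)))
      measurableSet_Ioo le_rfl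
    have hsub : {v : R3 | v ∈ Metric.ball q 1 ∧ c + inner ℝ e (v - q) ∈ Ioo (X (k' + 1 + l0 + 1)) (X (k' + 1 + l0))} ⊆
        {ξ : R3 | ‖ξ - q‖ ≤ 1 ∧ c + inner ℝ e (ξ - q) ∈ Ioo (X (k' + 1 + l0 + 1)) (X (k' + 1 + l0))} :=
      fun v hv => ⟨(mem_ball_iff_norm.1 hv.1).le, hv.2⟩
    refine le_trans (pint_mono n q fun b => indicator_le_indicator_of_subset hsub (fun _ => zero_le) b)
      (h6.trans ?_)
    rw [Real.volume_Ioo, ← ENNReal.ofReal_mul (by positivity)]
    have e2 : (16 : ℝ≥0∞) * (2⁻¹) ^ (k' + 1) = ENNReal.ofReal (16 * (2⁻¹) ^ (k' + 1)) := by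
      rw [ENNReal.ofReal_mul (by norm_num), ENNReal.ofReal_pow (by norm_num), ENNReal.ofReal_inv_of_pos (by norm_num)]
      norm_num
    rw [e2]
    refine ENNReal.ofReal_le_ofReal ?_
    have h7 : X (k' + 1 + l0) - X (k' + 1 + l0 + 1) ≤ 2 * θ / 2 ^ k' :=
      h5.trans (div_le_div_of_nonneg_right h2 (by positivity))
    calc 2 * 1 / θ * (X (k' + 1 + l0) - X (k' + 1 + l0 + 1)) ≤ 2 * 1 / θ * (2 * θ / 2 ^ k') :=
          mul_le_mul_of_nonneg_left h7 (by positivity)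
      _ = 4 * (2⁻¹) ^ k' := by rw [inv_pow]; field_simp; norm_num
      _ ≤ 16 * (2⁻¹) ^ (k' + 1) := by rw [pow_succ]; nlinarith [pow_pos (show (0 : ℝ) < 2⁻¹ by norm_num) k']
  rw [← Summable.sum_add_tsum_nat_add' (f := fun l => A l ^ (1 / 16 : ℝ)) (k := l0) ENNReal.summable,
    Finset.sum_eq_zero, zero_add]
  · exact ENNReal.tsum_le_tsum fun k => ENNReal.rpow_le_rpow (hb k) (by norm_num)
  · intro l hl'
    rw [h0 l (Nat.find_min hex (Finset.mem_range.1 hl'))]
    exact ENNReal.zero_rpow_of_pos (by norm_num)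

theorem Tilt.invn_anti {a b : R3} (h : ‖a‖ ≤ ‖b‖) : invn b ≤ invn a :=
  ENNReal.inv_le_inv.2 (ENNReal.ofReal_le_ofReal h)

/-- the moving centre is dominated by a fixed centre -/
theorem Tilt.ctr_fix {P : Par} (hP : P.Ok) (τ : Tile) (χ : Fin 2 → Fin 3) (ε : Bool) {s t : ℝ} (hs : 0 ≤ s)
    (ht : 0 ≤ t) (x : R3) : ∃ c : R3, ∀ v y : R3, Same y (x - t • v) → ‖v - c‖ ≤ ‖v - ctr P τ χ ε s y‖ := by
  have h1 : ∀ j : Fin 3, ∃ c : ℝ, ∀ v y : R3, Same y (x - t • v) → |v j - c| ≤ |v j - ctr P τ χ ε s y j| := by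
    intro j
    by_cases hj : j.val < 2
    · by_cases h0 : χ ⟨j.val, hj⟩ = 0
      · have hb := bb_nonneg hP τ j
        have hd : 0 < 1 + bb P τ j * s := by positivity
        have hd' : 0 < 1 + bb P τ j * (s + t) := by positivity
        refine ⟨(pp P (τ, ε) j + bb P τ j * x j) / (1 + bb P τ j * (s + t)), fun v y hy => ?_⟩
        have e : ctr P τ χ ε s y j = U P (τ, ε) s (x - t • v) j := by
          rw [← hy.U_eq]
          simp only [ctr, dif_pos hj, if_pos h0]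
        have e2 : v j - U P (τ, ε) s (x - t • v) j = (1 + bb P τ j * (s + t)) / (1 + bb P τ j * s) *
            (v j - (pp P (τ, ε) j + bb P τ j * x j) / (1 + bb P τ j * (s + t))) := by
          simp only [U, PiLp.sub_apply, PiLp.smul_apply, smul_eq_mul]
          field_simp
          ring
        rw [e, e2, abs_mul]
        refine le_mul_of_one_le_left (abs_nonneg _) ?_
        rw [abs_of_pos (by positivity), one_le_div hd]
        nlinarith [mul_nonneg hb ht]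
      · refine ⟨if χ ⟨j.val, hj⟩ = 1 then kap else -kap, fun v y _ => le_of_eq ?_⟩
        simp only [ctr, dif_pos hj, if_neg h0]
    · refine ⟨sg ε, fun v y _ => le_of_eq ?_⟩
      simp only [ctr, dif_neg hj]
  choose c hc using h1
  refine ⟨WithLp.toLp 2 c, fun v y hy => ?_⟩
  rw [EuclideanSpace.norm_eq, EuclideanSpace.norm_eq]
  refine Real.sqrt_le_sqrt (Finset.sum_le_sum fun j _ => ?_)
  refine pow_le_pow_left₀ (norm_nonneg _) ?_ 2
  simpa using hc j v y hy

theorem Tilt.pow32 (a b : ℝ≥0∞) : (a + b) ^ (3 / 2 : ℝ) ≤ 2 * (a ^ (3 / 2 : ℝ) + b ^ (3 / 2 : ℝ)) := by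
  refine (ENNReal.rpow_add_le_mul_rpow_add_rpow a b (by norm_num)).trans (mul_le_mul_left ?_ _)
  calc (2 : ℝ≥0∞) ^ (3 / 2 - 1 : ℝ) ≤ 2 ^ (1 : ℝ) := ENNReal.rpow_le_rpow_of_exponent_le (by norm_num) (by norm_num)
    _ = 2 := ENNReal.rpow_one _

open Classical in
/-- pointwise bound of `sig^{3/2}` -/
theorem Tilt.sig_pow {P : Par} (hP : P.Ok) {s : ℝ} (hs : 0 ≤ s) (y v : R3) :
    sig P s y v ^ (3 / 2 : ℝ) ≤ 2 + 36 * ∑' τ : Tile, ∑ m : (Fin 2 → Fin 3) × Bool,
      if lab P τ s (hat y) ∈ tileL P τ then invn (v - ctr P τ m.1 m.2 s (hat y)) ^ (15 / 8 : ℝ) else 0 := by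
  unfold sig
  refine (Tilt.pow32 _ _).trans ?_
  rw [ENNReal.one_rpow, mul_add, mul_one, show (36 : ℝ≥0∞) = 2 * 18 by norm_num, mul_assoc]
  refine add_le_add le_rfl (mul_le_mul_right ?_ _)
  by_cases hex : ∃ τ, lab P τ s (hat y) ∈ tileL P τ
  · obtain ⟨τ, hτ⟩ := hex
    rw [tsum_eq_single τ (fun τ' h' => if_neg fun h => h' (tile_unique hP hs h hτ)), if_pos hτ,
      ← Fintype.sum_prod_type' (f := fun χ ε => invn (v - ctr P τ χ ε s (hat y)) ^ (5 / 4 : ℝ))]
    refine (ENNReal.rpow_sum_le_const_mul_sum_rpow _ _ (by norm_num)).trans ?_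
    refine mul_le_mul' ?_ (le_trans (le_of_eq ?_) (ENNReal.le_tsum τ))
    · have : (Finset.univ : Finset ((Fin 2 → Fin 3) × Bool)).card = 18 := by simp
      rw [this]
      calc ((18 : ℕ) : ℝ≥0∞) ^ (3 / 2 - 1 : ℝ) ≤ ((18 : ℕ) : ℝ≥0∞) ^ (1 : ℝ) :=
            ENNReal.rpow_le_rpow_of_exponent_le (by norm_num) (by norm_num)
        _ = 18 := by simp
    · refine Finset.sum_congr rfl fun m _ => ?_
      rw [if_pos hτ, ← ENNReal.rpow_mul]
      norm_num
  · push Not at hex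
    simp [hex]

theorem Tilt.X_half {P : Par} (hP : P.Ok) {s : ℝ} (n : ℕ) :
    P.X (n + 1) s - P.X (n + 2) s ≤ (P.X n s - P.X (n + 1) s) / 2 := by
  have h1 := rr_succ (P := P) n
  have h2 := rr_succ (P := P) (n + 1)
  have h3 := rr_pos hP (n + 2)
  have h4 : P.et n = 2 * P.et (n + 1) := by unfold Par.et; rw [pow_succ]; field_simp
  have h5 : P.et (n + 1) = 2 * P.et (n + 2) := by unfold Par.et; rw [pow_succ _ (n + 1)]; field_simp
  unfold Par.X
  rw [h4, h5, h1, h2]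
  nlinarith

theorem tilt_sig : ∃ C : ℝ≥0, ∀ {P : Par}, P.Ok → ∀ {s τ : ℝ}, 0 ≤ s → 0 ≤ τ → ∀ x : R3,
    PB (fun v => sig P s (x - τ • v) v ^ (3 / 2 : ℝ)) (fun _ => C * ENNReal.ofReal ((1 + τ) ^ 2)) := by
  classical
  obtain ⟨C0, hC0⟩ := sing_area (p := 15 / 8) (by norm_num) (by norm_num)
  obtain ⟨C1, hC1⟩ := levels_sum
  refine ⟨8 + 36 * (4 * (4 * (18 * (C0 * C1)))), ?_⟩
  intro P hP s t hs ht x n q hn
  let J : Finset (ℤ × ℤ) := Finset.Icc (round (x 0 - t * q 0 - t)) (round (x 0 - t * q 0 + t)) ×ˢ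
    Finset.Icc (round (x 1 - t * q 1 - t)) (round (x 1 - t * q 1 + t))
  have hcard : ∀ a : ℝ, ((Finset.Icc (round (a - t)) (round (a + t))).card : ℝ) ≤ 2 * (1 + t) := by
    intro a
    have h1 := abs_le.1 (abs_sub_round (a - t))
    have h2 := abs_le.1 (abs_sub_round (a + t))
    rw [Int.card_Icc]
    have h3 : (0 : ℤ) ≤ round (a + t) + 1 - round (a - t) := by
      have : (0 : ℝ) ≤ round (a + t) + 1 - round (a - t) := by linarith
      exact_mod_cast this
    have h4 : (((round (a + t) + 1 - round (a - t)).toNat : ℤ) : ℝ) = round (a + t) + 1 - round (a - t) := by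
      rw [Int.toNat_of_nonneg h3]; push_cast; ring
    have h5 : (((round (a + t) + 1 - round (a - t)).toNat : ℕ) : ℝ) = round (a + t) + 1 - round (a - t) := by
      exact_mod_cast h4
    rw [h5]
    linarith
  have hJ : (J.card : ℝ≥0∞) ≤ 4 * ENNReal.ofReal ((1 + t) ^ 2) := by
    have h1 : (J.card : ℝ) ≤ 4 * (1 + t) ^ 2 := by
      rw [Finset.card_product]
      push_cast
      calc _ ≤ (2 * (1 + t)) * (2 * (1 + t)) :=
            mul_le_mul (hcard _) (hcard _) (Nat.cast_nonneg _) (by positivity)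
        _ = _ := by ring
    rw [← ENNReal.ofReal_natCast, ← ENNReal.ofReal_ofNat 4, ← ENNReal.ofReal_mul (by norm_num)]
    exact ENNReal.ofReal_le_ofReal h1
  let xj : ℤ × ℤ → R3 := fun j => x - WithLp.toLp 2 ![(j.1 : ℝ), (j.2 : ℝ), 0]
  choose c hc using fun (j : ℤ × ℤ) (τ : Tile) (m : (Fin 2 → Fin 3) × Bool) =>
    Tilt.ctr_fix hP τ m.1 m.2 hs ht (xj j)
  let S : ℤ × ℤ → Tile → Set R3 := fun j τ => {v : R3 | v ∈ Metric.ball q 1 ∧
    sg τ.2.2 * (xj j (iR τ) - t * q (iR τ)) +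
      inner ℝ (EuclideanSpace.single (iR τ) (-(sg τ.2.2 * t))) (v - q) ∈ Ioo (P.X (τ.1 + 1) s) (P.X τ.1 s)}
  have hS : ∀ j τ, MeasurableSet (S j τ) := fun j τ =>
    Metric.isOpen_ball.measurableSet.inter (measurableSet_Ioo.preimage (by fun_prop))
  have hm : ∀ j τ m, Measurable ((S j τ).indicator fun v => invn (v - c j τ m) ^ (15 / 8 : ℝ)) := fun j τ m =>
    ((measurable_invn.comp (measurable_id.sub_const _)).pow_const _).indicator (hS j τ)
  have key : ∀ v, (Metric.ball q 1).indicator (fun v => sig P s (x - t • v) v ^ (3 / 2 : ℝ)) v ≤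
      (Metric.ball q 1).indicator (fun _ => 2) v + 36 * ∑ j ∈ J, ∑' τ : Tile, ∑ m : (Fin 2 → Fin 3) × Bool,
        (S j τ).indicator (fun v => invn (v - c j τ m) ^ (15 / 8 : ℝ)) v := by
    intro v
    by_cases hv : v ∈ Metric.ball q 1
    swap
    · rw [indicator_of_notMem hv]; exact zero_le
    rw [indicator_of_mem hv, indicator_of_mem hv]
    refine (Tilt.sig_pow hP hs _ _).trans (add_le_add le_rfl (mul_le_mul_right ?_ _))
    let j0 : ℤ × ℤ := (round ((x - t • v) 0), round ((x - t • v) 1))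
    have hvq : ∀ i, |v i - q i| ≤ 1 := fun i => by
      have := PiLp.norm_apply_le (v - q) i
      rw [mem_ball_iff_norm] at hv
      simpa using this.trans hv.le
    have hrd : ∀ i, round ((x - t • v) i) ∈
        Finset.Icc (round (x i - t * q i - t)) (round (x i - t * q i + t)) := fun i => by
      have h1 := abs_le.1 (hvq i)
      have h2 : (x - t • v) i = x i - t * v i := by simp
      rw [Finset.mem_Icc, h2, round_eq, round_eq, round_eq]
      constructor <;> apply Int.floor_le_floor <;> nlinarith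
    have hj0 : j0 ∈ J := Finset.mem_product.2 ⟨hrd 0, hrd 1⟩
    have hsame : Same (hat (x - t • v)) (xj j0 - t • v) := by
      constructor <;> simp [hat, xj, j0] <;> ring
    refine le_trans ?_ (Finset.single_le_sum (f := fun j => ∑' τ : Tile, ∑ m : (Fin 2 → Fin 3) × Bool,
        (S j τ).indicator (fun v => invn (v - c j τ m) ^ (15 / 8 : ℝ)) v) (fun _ _ => zero_le) hj0)
    refine ENNReal.tsum_le_tsum fun τ => Finset.sum_le_sum fun m _ => ?_
    split_ifs with hτ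
    swap
    · exact zero_le
    have hvS : v ∈ S j0 τ := by
      refine ⟨hv, ?_⟩
      rw [hsame.lab_eq, tile_iff hP τ hs] at hτ
      have e : sg τ.2.2 * (xj j0 (iR τ) - t * q (iR τ)) +
          inner ℝ (EuclideanSpace.single (iR τ) (-(sg τ.2.2 * t))) (v - q) =
          sg τ.2.2 * (xj j0 - t • v) (iR τ) := by
        rw [EuclideanSpace.inner_single_left]
        simp
        ring
      rw [e]
      exact ⟨hτ.1, hτ.2.1⟩
    rw [indicator_of_mem hvS]
    exact ENNReal.rpow_le_rpow (Tilt.invn_anti (hc j0 τ m v _ hsame)) (by norm_num)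
  refine (pint_mono n q key).trans ?_
  have hm2 : ∀ j τ, Measurable fun v => ∑ m : (Fin 2 → Fin 3) × Bool,
      (S j τ).indicator (fun v => invn (v - c j τ m) ^ (15 / 8 : ℝ)) v := fun j τ =>
    Finset.measurable_sum _ fun m _ => hm j τ m
  have hm3 : ∀ j, Measurable fun v => ∑' τ : Tile, ∑ m : (Fin 2 → Fin 3) × Bool,
      (S j τ).indicator (fun v => invn (v - c j τ m) ^ (15 / 8 : ℝ)) v := fun j =>
    Measurable.tsum fun τ => hm2 j τ
  rw [pint_add n q (measurable_const.indicator Metric.isOpen_ball.measurableSet),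
    pint_cmul n q 36 (Finset.measurable_sum _ fun j _ => hm3 j), Tilt.pint_sum J n q hm3]
  have h1 : pint n q ((Metric.ball q 1).indicator fun _ => (2 : ℝ≥0∞)) ≤ 8 :=
    (PB_const 2 n q hn).trans (by norm_num)
  have h2 : ∀ j, pint n q (fun v => ∑' τ : Tile, ∑ m : (Fin 2 → Fin 3) × Bool,
      (S j τ).indicator (fun v => invn (v - c j τ m) ^ (15 / 8 : ℝ)) v) ≤ 4 * (18 * (C0 * C1)) := by
    intro j
    rw [Tilt.pint_tsum n q (hm2 j)]
    have h3 : ∀ τ, pint n q (fun v => ∑ m : (Fin 2 → Fin 3) × Bool,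
        (S j τ).indicator (fun v => invn (v - c j τ m) ^ (15 / 8 : ℝ)) v) ≤
        18 * (C0 * pint n q ((S j τ).indicator 1) ^ (1 / 16 : ℝ)) := by
      intro τ
      rw [Tilt.pint_sum _ n q (hm j τ)]
      refine (Finset.sum_le_card_nsmul _ _ (C0 * pint n q ((S j τ).indicator 1) ^ (1 / 16 : ℝ)) fun m _ => ?_).trans ?_
      · have := hC0 (hS j τ) hn q (c j τ m)
        rwa [show (1 - 15 / 8 / 2 : ℝ) = 1 / 16 by norm_num] at this
      · have : (Finset.univ : Finset ((Fin 2 → Fin 3) × Bool)).card = 18 := by simp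
        rw [this, nsmul_eq_mul]
        norm_num
    refine (ENNReal.tsum_le_tsum h3).trans ?_
    rw [ENNReal.tsum_prod', ENNReal.tsum_comm, tsum_fintype]
    refine (Finset.sum_le_card_nsmul _ _ (18 * ((C0 : ℝ≥0∞) * C1)) fun σ _ => ?_).trans ?_
    · rw [ENNReal.tsum_mul_left, ENNReal.tsum_mul_left]
      refine mul_le_mul_right (mul_le_mul_right ?_ _) _
      exact hC1 (fun l => P.X l s) (strictAnti_nat_of_succ_lt fun l => X_succ_lt hP l hs)
        (fun l => Tilt.X_half hP l) n q (EuclideanSpace.single (iR (0, σ)) (-(sg σ.2 * t)))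
        (sg σ.2 * (xj j (iR (0, σ)) - t * q (iR (0, σ)))) hn
    · have : (Finset.univ : Finset (Fin 2 × Bool)).card = 4 := by simp
      rw [this, nsmul_eq_mul]
      norm_num
  have h3 : (1 : ℝ≥0∞) ≤ ENNReal.ofReal ((1 + t) ^ 2) := ENNReal.one_le_ofReal.2 (by nlinarith)
  calc _ ≤ 8 * ENNReal.ofReal ((1 + t) ^ 2) + 36 * (4 * ENNReal.ofReal ((1 + t) ^ 2) * (4 * (18 * (C0 * C1)))) := by
        refine add_le_add (h1.trans (le_mul_of_one_le_right' h3)) (mul_le_mul_right ?_ _)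
        refine (Finset.sum_le_card_nsmul _ _ _ fun j _ => h2 j).trans ?_
        rw [nsmul_eq_mul]
        exact mul_le_mul_left hJ _
    _ = _ := by push_cast; ring

theorem tilt_Lam : ∃ C : ℝ≥0, ∀ {P : Par}, P.Ok → ∀ {t τ : ℝ}, t ∈ Icc (0 : ℝ) 1 → 0 ≤ τ → ∀ x : R3,
    PB (fun v => Lam P t (x - τ • v) v ^ (3 / 2 : ℝ)) (fun _ => C * ENNReal.ofReal ((1 + τ) ^ 2)) := by
  obtain ⟨C, hC⟩ := tilt_sig
  refine ⟨2 * (4 + 4 * C), ?_⟩
  intro P hP t τ ht hτ x
  have hm : Measurable (Function.uncurry fun (s : ℝ) (v : R3) =>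
      sig P s (x - (τ + (t - s)) • v) v ^ (3 / 2 : ℝ)) :=
    ((measD_sig (P := P)).comp (t := fun z : ℝ × R3 => z.1) (x := fun z => x - (τ + (t - z.1)) • z.2)
      (v := fun z => z.2) (by fun_prop) (by fun_prop) (by fun_prop)).pow_const _
  have h1 := PB_lintegral (volume.restrict (Ioo 0 t)) hm
    (φ := fun _ _ => C * ENNReal.ofReal (4 * (1 + τ) ^ 2)) (by
      filter_upwards [ae_restrict_mem measurableSet_Ioo] with s hs
      refine (hC hP hs.1.le (τ := τ + (t - s)) (by linarith [hs.2]) x).mono (fun _ => le_rfl) fun y _ => ?_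
      refine mul_le_mul_right (ENNReal.ofReal_le_ofReal ?_) _
      have h2 : 1 + (τ + (t - s)) ≤ 2 * (1 + τ) := by linarith [hs.1, ht.2]
      calc _ ≤ (2 * (1 + τ)) ^ 2 := pow_le_pow_left₀ (by linarith [hs.2]) h2 2
        _ = _ := by ring)
  have hm1 : Measurable fun v : R3 => ∫⁻ s in Ioo 0 t, sig P s (x - (τ + (t - s)) • v) v ^ (3 / 2 : ℝ) :=
    Measurable.lintegral_prod_left hm
  have h2 := ((PB_const 1).add measurable_const (h1.cmul hm1 (ENNReal.ofReal t⁻¹))).cmul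
    (measurable_const.add (hm1.const_mul _)) 2
  refine h2.mono (fun v => ?_) fun y _ => ?_
  · unfold Lam
    refine (Tilt.pow32 _ _).trans (le_of_eq ?_)
    rw [ENNReal.one_rpow, ← ENNReal.rpow_mul, show (2 / 3 * (3 / 2) : ℝ) = 1 by norm_num, ENNReal.rpow_one]
    simp only [add_smul, sub_sub, Pi.add_apply]
  · rw [setLIntegral_const, Real.volume_Ioo, sub_zero]
    have h3 : ENNReal.ofReal t⁻¹ * ENNReal.ofReal t ≤ 1 := by
      rw [← ENNReal.ofReal_mul (inv_nonneg.2 ht.1)]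
      refine ENNReal.ofReal_le_one.2 ?_
      rcases eq_or_ne t 0 with h | h
      · simp [h]
      · rw [inv_mul_cancel₀ h]
    have h4 : (1 : ℝ≥0∞) ≤ ENNReal.ofReal ((1 + τ) ^ 2) := ENNReal.one_le_ofReal.2 (by nlinarith)
    rw [ENNReal.ofReal_mul (by norm_num), ENNReal.ofReal_ofNat]
    calc 2 * (4 * 1 + ENNReal.ofReal t⁻¹ * (C * (4 * ENNReal.ofReal ((1 + τ) ^ 2)) * ENNReal.ofReal t))
        = 2 * (4 * 1 + C * (4 * ENNReal.ofReal ((1 + τ) ^ 2)) * (ENNReal.ofReal t⁻¹ * ENNReal.ofReal t)) := by ring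
      _ ≤ 2 * (4 * ENNReal.ofReal ((1 + τ) ^ 2) + C * (4 * ENNReal.ofReal ((1 + τ) ^ 2)) * 1) := by gcongr
      _ = _ := by push_cast; ring

theorem PB_Lam : ∃ C : ℝ≥0, ∀ {P : Par}, P.Ok → ∀ {t : ℝ}, t ∈ Icc (0 : ℝ) 1 → ∀ x : R3,
    PB (fun v => Lam P t x v ^ (3 / 2 : ℝ)) (fun _ => C) := by
  obtain ⟨C, hC⟩ := tilt_Lam
  refine ⟨C, fun {P} hP {t} ht x => ?_⟩
  simpa using hC hP ht le_rfl x

/-- Hölder in time -/
theorem holder_time (P : Par) {t : ℝ} (ht : 0 ≤ t) (x v : R3) {g : ℝ → ℝ≥0∞} (hg : Measurable g) :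
    ∫⁻ s in Ioo 0 t, g s * sig P s (x - (t - s) • v) v ≤
      (∫⁻ s in Ioo 0 t, g s ^ (3 : ℝ)) ^ (1 / 3 : ℝ) * ENNReal.ofReal (t ^ (2 / 3 : ℝ)) * Lam P t x v := by
  rcases ht.eq_or_lt with rfl | ht'
  · simp
  have hm : Measurable fun s : ℝ => sig P s (x - (t - s) • v) v :=
    (measD_sig (P := P)).comp (t := fun s : ℝ => s) (x := fun s => x - (t - s) • v) (v := fun _ => v)
      (by fun_prop) (by fun_prop) (by fun_prop)
  have h1 := ENNReal.lintegral_mul_le_Lp_mul_Lq (volume.restrict (Ioo 0 t)) (p := 3) (q := 3 / 2)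
    (by rw [Real.holderConjugate_iff]; norm_num) hg.aemeasurable hm.aemeasurable
  refine h1.trans ?_
  rw [mul_assoc]
  refine mul_le_mul_right ?_ _
  unfold Lam
  rw [← ENNReal.ofReal_rpow_of_pos ht', show (1 / (3 / 2) : ℝ) = 2 / 3 by norm_num]
  refine le_trans (le_of_eq ?_) (mul_le_mul_right le_add_self _)
  rw [← ENNReal.mul_rpow_of_nonneg _ _ (by norm_num), ← mul_assoc, ← ENNReal.ofReal_mul ht,
    mul_inv_cancel₀ ht'.ne', ENNReal.ofReal_one, one_mul]

theorem sig_time (P : Par) {t : ℝ} (ht : 0 ≤ t) (x v : R3) :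
    ∫⁻ s in Ioo 0 t, sig P s (x - (t - s) • v) v ≤ ENNReal.ofReal t * Lam P t x v := by
  have h := holder_time P ht x v (g := fun _ => 1) measurable_const
  simp only [one_mul, ENNReal.one_rpow, setLIntegral_const, Real.volume_Ioo, sub_zero] at h
  refine h.trans (le_of_eq ?_)
  rw [← ENNReal.ofReal_rpow_of_nonneg ht (by norm_num), ← ENNReal.rpow_add_of_nonneg _ _ (by norm_num) (by norm_num)]
  norm_num

end Crest.Agent.R68
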