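import Crest.Agent.R68.BeamSum
import Crest.Agent.R68.Law
import Crest.Agent.R68.Tilt

/-! The cold majorant at time `t1` satisfies `LateIn`.  Index set `Bm × Bool`.  `tr t1 (gs t1) s = gs s`, and `gk k 0 (hat (y - s a)) a = gk k s (y - lat j) a` for the lattice vector `j` of `y - s a`;
`gk k s y a ≤ beam (e³ dens/8) b p (fun _ => ww) s y a` (on the support `|a_i(1+b_i s) - p_i - b_i y_i| ≤ ww`), with `dens k s ≤ cc/(rr n · b_R s · b_T s) ≤ C rr n 2^n/(eta t1²)` for `s ≥ t1`, summable: `Σ ≤ C r/(eta t1²)`.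
The `GC` part: with `y1 = y - lat j - (s-t1) a`, `a_i - U k t1 y1 i = c_i/(1 + b_i t1)` (`rel_eq`), so `Cke ≤ beam ρ' b p (fun i => ww (1 + b_i t1)) s (y - lat j) a` with
`ρ' = √ww (cc/rr) Π (1+b_i t1)/(1+b_i s) ≤ cc rr n ≤ cc r 4^{-n}/(eta t1²)`.  On the supports `nrm a < DD` and `nrm y1 < 1/4`.  `LateIn` with constant `C` and scale `C₁ ρ` gives `LateIn` with constant `C (1+C₁)²` and scale `ρ`. -/

set_option autoImplicit false

open MeasureTheory Set Filter Topology Crest.AnalysisR.VecCalc3 Crest.AnalysisR.PDE.Boltzmann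
open scoped ENNReal NNReal

namespace Crest.Agent.R68

theorem LateIn.scale {C ρ : ℝ≥0∞} {C1 : ℝ≥0} {t1 : ℝ} {g Λ1 : R3 → R3 → ℝ≥0∞} (h : LateIn C (C1 * ρ) t1 g Λ1) :
    LateIn (C * (1 + C1) ^ 2) ρ t1 g Λ1 := by
  have h1 : (1 : ℝ≥0∞) ≤ 1 + C1 := le_self_add
  have h2 : (C1 : ℝ≥0∞) ≤ 1 + C1 := le_add_self
  have h3 : (C1 : ℝ≥0∞) ≤ (1 + C1) ^ 2 := h2.trans (le_self_pow h1 two_ne_zero)
  have h4 : ∀ a : ℝ≥0∞, C * a * (C1 * ρ) ≤ C * (1 + C1) ^ 2 * a * ρ := fun a => by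
    calc C * a * (C1 * ρ) = C * C1 * a * ρ := by ring
      _ ≤ _ := by gcongr
  refine ⟨h.meas_g, h.meas_L, h.one_le, h.supp, fun s hs y => (h.dens s hs y).trans (h4 _),
    fun s τ hs hτ x n q hn => (h.tilt2 s τ hs hτ x n q hn).trans
      (ENNReal.rpow_le_rpow (h4 _) (by norm_num)),
    fun s τ hs hτ x n q hn => (h.tilt3 s τ hs hτ x n q hn).trans ?_,
    fun τ hτ x n q hn => (h.tiltL τ hτ x n q hn).trans
      (mul_le_mul' (le_mul_of_one_le_right' (one_le_pow_of_one_le' h1 2)) le_rfl)⟩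
  calc C * ENNReal.ofReal ((1 + (s - t1) + τ) ^ 4) * (C1 * ρ) ^ 2 =
      C * C1 ^ 2 * ENNReal.ofReal ((1 + (s - t1) + τ) ^ 4) * ρ ^ 2 := by ring
    _ ≤ C * (1 + C1) ^ 2 * ENNReal.ofReal ((1 + (s - t1) + τ) ^ 4) * ρ ^ 2 := by gcongr

namespace LateBeam

variable {P : Par}

theorem dens_late (hP : P.Ok) (τ : Tile) {t1 s : ℝ} (h0 : 0 < t1) (hs : t1 ≤ s) :
    4 * dens P τ s ≤ 6 * cc / kap * (P.r / (P.eta * t1 ^ 2)) / 2 ^ τ.1 := by
  have r0 := rr_pos hP τ.1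
  have r1 := rr_pos hP (nT τ)
  have e0 := et_pos hP τ.1
  have e1 := et_pos hP (nT τ)
  have k0 := kap_pos
  have c0 := LawA.cc_pos
  have d0 := den_pos hP τ (iR τ) (h0.le.trans hs)
  have h1 : 2 * P.et τ.1 / (3 * P.rr τ.1) * t1 ≤ 1 + bb P τ (iR τ) * s := by
    rw [bb_iR]
    exact le_add_of_nonneg_of_le zero_le_one (by gcongr)
  have h2 : kap / P.rr τ.1 * t1 ≤ 1 + bb P τ (iT τ) * s := by
    rw [bb_iT]
    refine le_add_of_nonneg_of_le zero_le_one ?_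
    gcongr
    · linarith
    · exact rr_anti hP (nT_ge τ)
  have h3 : ∏ j, (1 + bb P τ j * s) = (1 + bb P τ (iR τ) * s) * (1 + bb P τ (iT τ) * s) := by
    rw [Fin.prod_univ_three, bb_two]
    rcases iRT_cases τ with h | h <;> rw [h.1, h.2.1] <;> ring
  rw [dens, h3]
  calc _ ≤ 4 * (cc / (P.rr τ.1 * (2 * P.et τ.1 / (3 * P.rr τ.1) * t1 * (kap / P.rr τ.1 * t1)))) := by
        gcongr
    _ = _ := by
        have := hP.eta0
        have := hP.r0
        rw [Par.rr, Par.et, show (4 : ℝ) ^ τ.1 = 2 ^ τ.1 * 2 ^ τ.1 by rw [← mul_pow]; norm_num]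
        field_simp
        norm_num

theorem gk_beam (hP : P.Ok) (k : Bm) {s A : ℝ} (hs : 0 ≤ s) (hA : 4 * dens P k.1 s ≤ A) (y a : R3) :
    gk P k s y a ≤ beam (ENNReal.ofReal A) (bb P k.1) (pp P k) (fun _ => P.ww k.1.1) s y a := by
  unfold gk
  split_ifs with h
  swap
  · exact zero_le
  have w0 := ww_pos hP k.1.1
  have r0 := rr_pos hP k.1.1
  have c0 := LawA.cc_pos
  have p0 : 0 < ∏ j, (1 + bb P k.1 j * s) := Finset.prod_pos fun j _ => den_pos hP _ j hs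
  have d0 : 0 < dens P k.1 s := by unfold dens; positivity
  have h1 : ∑ i, ((a i * (1 + bb P k.1 i * s) - pp P k i - bb P k.1 i * y i) / P.ww k.1.1) ^ 2 ≤ 3 := by
    refine (Finset.sum_le_card_nsmul _ _ 1 fun i _ => ?_).trans (by simp)
    have h2 := rel_eq hP k (s := 0) (t := s) le_rfl y a i
    rw [sub_zero, mul_zero, add_zero, div_one] at h2
    rw [← h2, sq_le_one_iff_abs_le_one, abs_div, abs_of_pos w0, div_le_one w0]
    exact h.2 i
  have h2 : 1 / 32 ≤ Real.exp (-∑ i, ((a i * (1 + bb P k.1 i * s) - pp P k i - bb P k.1 i * y i) /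
      P.ww k.1.1) ^ 2) := by
    refine le_trans ?_ (Real.exp_le_exp.2 (neg_le_neg h1))
    have h3 : Real.exp 3 ≤ 3 ^ 3 := by
      have := Real.exp_one_pow 3
      rw [Nat.cast_ofNat] at this
      rw [← this]
      exact pow_le_pow_left₀ (Real.exp_pos _).le (by linarith [Real.exp_one_lt_d9]) 3
    rw [Real.exp_neg, one_div]
    exact inv_anti₀ (Real.exp_pos _) (h3.trans (by norm_num))
  rw [beam, ← ENNReal.ofReal_mul (by linarith), Finset.prod_div_distrib, Finset.prod_const]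
  refine ENNReal.ofReal_le_ofReal ?_
  calc _ = 4 * dens P k.1 s * ((∏ j, (1 + bb P k.1 j * s)) / P.ww k.1.1 ^ 3 * (1 / 32)) := by
        unfold dens
        generalize ∏ j, (1 + bb P k.1 j * s) = Q at p0 ⊢
        field_simp
        norm_num
    _ ≤ _ := by
        have : 0 ≤ A := by linarith
        rw [Finset.card_univ, Fintype.card_fin]
        gcongr

theorem Cke_beam (hP : P.Ok) (k : Bm) {t1 s A : ℝ} (h0 : 0 ≤ t1) (h1 : t1 ≤ 1) (hs : t1 ≤ s)
    (hA : cc * P.rr k.1.1 ≤ A) (y a : R3) :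
    Cke P k t1 (y - (s - t1) • a) a ≤ beam (ENNReal.ofReal A) (bb P k.1) (pp P k)
      (fun i => P.ww k.1.1 * (1 + bb P k.1 i * t1)) s y a := by
  have w0 := ww_pos hP k.1.1
  have r0 := rr_pos hP k.1.1
  have c0 := LawA.cc_pos
  have A0 : 0 ≤ A := le_trans (by positivity) hA
  refine (LawA.Cke_le _ _ _ _).trans ((mul_le_mul' le_rfl (LawA.Ck_le hP k h1 _ _)).trans ?_)
  rw [beam, ← ENNReal.ofReal_mul (Real.sqrt_nonneg _), ← ENNReal.ofReal_mul A0]
  refine ENNReal.ofReal_le_ofReal ?_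
  have e : ‖a - U P k t1 (y - (s - t1) • a)‖ ^ 2 / P.ww k.1.1 ^ 2 =
      ∑ i, ((a i * (1 + bb P k.1 i * s) - pp P k i - bb P k.1 i * y i) /
        (P.ww k.1.1 * (1 + bb P k.1 i * t1))) ^ 2 := by
    rw [EuclideanSpace.real_norm_sq_eq, Finset.sum_div]
    refine Finset.sum_congr rfl fun i _ => ?_
    rw [PiLp.sub_apply, rel_eq hP k h0, ← div_pow, div_div, mul_comm (P.ww k.1.1)]
  rw [e, ← mul_assoc, ← mul_assoc]
  refine mul_le_mul_of_nonneg_right ?_ (Real.exp_pos _).le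
  have h2 : ∏ _i : Fin 3, 1 / P.ww k.1.1 ≤
      ∏ i, (1 + bb P k.1 i * s) / (P.ww k.1.1 * (1 + bb P k.1 i * t1)) := by
    refine Finset.prod_le_prod (fun _ _ => by positivity) fun i _ => ?_
    have := den_pos hP k.1 i h0
    rw [div_le_div_iff₀ w0 (by positivity), one_mul, mul_comm]
    have := bb_nonneg hP k.1 i
    gcongr
  have h3 : Real.sqrt (P.ww k.1.1) ≤ 1 * P.rr k.1.1 ^ 2 := by
    obtain ⟨a1, a2, a3, -⟩ := LawA.p_le hP k.1.1
    rw [sqrt_ww hP]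
    gcongr
    · exact (LawA.sqrt_w_le hP).trans (by norm_num)
    · exact a2.trans a3
  rw [Finset.prod_const, Finset.card_univ, Fintype.card_fin] at h2
  calc _ ≤ 1 * P.rr k.1.1 ^ 2 * (cc / (P.rr k.1.1 * P.ww k.1.1 ^ 3)) := by gcongr
    _ = cc * P.rr k.1.1 * (1 / P.ww k.1.1) ^ 3 := by field_simp
    _ ≤ _ := by gcongr

theorem sum_eq (A : ℝ) :
    ∑' x : Bm × Bool, ENNReal.ofReal (A / 2 ^ x.1.1.1) = 32 * ENNReal.ofReal A := by
  have e : ∀ n : ℕ, ENNReal.ofReal (A / 2 ^ n) = ENNReal.ofReal A * 2⁻¹ ^ n := fun n => by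
    rw [ENNReal.ofReal_div_of_pos (by positivity), ENNReal.ofReal_pow zero_le_two,
      ENNReal.ofReal_ofNat, div_eq_mul_inv, ENNReal.inv_pow]
  simp only [e, ENNReal.tsum_prod', tsum_fintype, Finset.sum_const, Finset.card_univ,
    Fintype.card_bool, Fintype.card_fin, nsmul_eq_mul, ENNReal.tsum_mul_left,
    ENNReal.tsum_geometric, ENNReal.one_sub_inv_two, inv_inv, Fintype.card_prod]
  push_cast
  ring

end LateBeam

theorem lateIn_G : ∃ C : ℝ≥0, ∀ {P : Par}, P.Ok → ∀ {t1 : ℝ}, 0 < t1 → t1 ≤ 1 →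
    LateIn C (rhoL P t1) t1 (G P ⊤ t1) (Lam P t1) := by
  classical
  obtain ⟨CΛ, hΛ⟩ := tilt_Lam
  obtain ⟨C, hC⟩ := lateIn_of_beams CΛ
  have k0 := kap_pos
  have c0 := LawA.cc_pos
  refine ⟨C * (1 + 32 * (6 * cc / kap).toNNReal) ^ 2, fun {P} hP {t1} h0 h1 => ?_⟩
  have ht : t1 ∈ Icc (0 : ℝ) 1 := ⟨h0.le, h1⟩
  have e0 := hP.eta0
  have r0 := hP.r0
  have := (hC (ι := Bm × Bool) (ρ := ((32 * (6 * cc / kap).toNNReal : ℝ≥0) : ℝ≥0∞) * rhoL P t1)
    (g := G P ⊤ t1) (Λ1 := Lam P t1) (fun x => bb P x.1.1) (fun x => pp P x.1)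
    (fun x i => if x.2 then P.ww x.1.1.1 else P.ww x.1.1.1 * (1 + bb P x.1.1 i * t1))
    (fun _ x => ENNReal.ofReal (6 * cc / kap * (P.r / (P.eta * t1 ^ 2)) / 2 ^ x.1.1.1)) h0.le
    ((measD_G ⊤).slice t1) (measD_Lam.slice t1) (one_le_Lam t1)
    (fun x v h => (G_supp hP ht h).1.trans (by norm_num)) (fun x => bb_nonneg hP _)
    (fun x i => by
      have := ww_pos hP x.1.1.1
      have := den_pos hP x.1.1 i h0.le
      split_ifs <;> positivity) (fun s _ => le_of_eq ?_) (fun s hs y a => ?_)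
    (fun τ hτ => hΛ hP ht hτ)).scale
  · simpa using this
  · rw [LateBeam.sum_eq, ENNReal.ofReal_mul (by positivity), ← mul_assoc]
    rfl
  by_cases hz : G P ⊤ t1 (y - (s - t1) • a) a = 0
  · exact hz.trans_le zero_le
  set j : ℤ × ℤ := (round ((y - (s - t1) • a) 0), round ((y - (s - t1) • a) 1)) with hj
  have hS : Same (hat (y - (s - t1) • a)) (y - lat j - (s - t1) • a) := by
    constructor <;> simp [hat, lat, lift, hj] <;> ring
  have hn : nrm (y - lat j) ≤ 1 + (s - t1) := by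
    have a1 := nrm_add_le (y - lat j - (s - t1) • a) ((s - t1) • a)
    have a2 := dd_le_half (y - (s - t1) • a)
    have a3 : nrm a ≤ 1 := (G_supp hP ht hz).2.1.le.trans (by norm_num [DD])
    rw [sub_add_cancel, ← hS.nrm_eq, nrm_smul, abs_of_nonneg (sub_nonneg.2 hs)] at a1
    have a4 := mul_le_of_le_one_right (sub_nonneg.2 hs) a3
    unfold dd at a2
    linarith
  refine le_trans ?_ (ENNReal.le_tsum j)
  simp only [if_pos hn]
  rcases G_core hP ⊤ ht (y - (s - t1) • a) with h | ⟨k, -, -, h2, h3⟩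
  · exact absurd (by rw [G, h.1, h.2, add_zero]) hz
  rw [ENNReal.tsum_prod']
  refine le_trans ?_ (ENNReal.le_tsum k)
  rw [tsum_fintype, Fintype.sum_bool, tr, G, h2, h3, hS.gk_eq, hS.Cke_eq,
    ← gk_transport k t1 (s - t1), sub_add_cancel, add_sub_cancel]
  refine add_le_add (LateBeam.gk_beam hP k (h0.le.trans hs) (LateBeam.dens_late hP _ h0 hs) _ _)
    (LateBeam.Cke_beam hP k h0.le h1 hs ?_ _ _)
  have a1 : P.eta * t1 ^ 2 ≤ 1 :=
    mul_le_one₀ (hP.eta1.trans (by norm_num [kap])) (by positivity) (pow_le_one₀ h0.le h1)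
  have a2 : cc ≤ 6 * cc / kap := by norm_num [cc, kap]
  rw [Par.rr, ← mul_div_assoc]
  gcongr
  · exact le_div_self r0.le (by positivity) a1
  · norm_num

end Crest.Agent.R68
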