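import Crest.Agent.R68.Symm
import Crest.Agent.R68.PrePost

/-! The bilinear gain estimate.  Split the integrand of `Qp` according to `‖v'‖ ≤ ‖v'_*‖` or not;
(write `f(a) h(b) 1_{‖a‖ ≤ ‖b‖}`; `carleman` extends to such non-product integrands by redoing it with the indicator inside `pint`, or
decompose `‖a‖ ∈ [j, j+1)` and use `h 1_{‖b‖ ≥ j}`; the other half follows by `Qp_symm`).  On the plane through `v` orthogonal to `v - a`
put `s² = ‖a‖² + ‖b‖² = ‖v‖² + ‖b + a - v‖²`; `‖b‖ ≥ s - (√2-1)‖a‖` when `‖a‖ ≤ ‖b‖`.  Hence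
`e^{-λ‖a‖/2} Φ(‖b‖) e^{-λ‖b‖} ≤ Φ(‖v‖) e^{-λ‖v‖} e^{-λ(s-‖v‖)/2} e^{-0.08λ‖a‖}`;
`∫_plane e^{-λ(s-‖v‖)/2} ≤ C(1+‖v‖)` (`pint_radial`; the plane `b + a - v` has distance `≥ 0` from 0) and
`∫ f(a) e^{λ‖a‖/2} e^{-0.08λ‖a‖} |v-a|⁻¹ da ≤ C A_f/(1+‖v‖)` (split `|v-a| < 1` with `avg_plane`, and `cover_vol`).
Use `cover` to pass from `PB` to plane integrals (shifts by 1 only cost constants). -/

set_option autoImplicit false

open MeasureTheory Set Filter Topology Crest.AnalysisR.VecCalc3 Crest.AnalysisR.PDE.Boltzmann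
open scoped ENNReal NNReal

namespace Crest.Agent.R68

theorem QQa.poly_exp {c : ℝ} (hc : 0 < c) (k : ℕ) :
    ∃ C : ℝ, 0 ≤ C ∧ ∀ y : ℝ, 0 ≤ y → (1 + y) ^ k * Real.exp (-(c * y)) ≤ C := by
  refine ⟨k.factorial / c ^ k * Real.exp c, by positivity, fun y hy => ?_⟩
  have h1 := Real.pow_div_factorial_le_exp (c * (1 + y)) (by positivity) k
  have h2 : (0 : ℝ) < k.factorial := by positivity
  rw [div_le_iff₀ h2, mul_pow] at h1
  have h3 : (1 + y) ^ k ≤ k.factorial / c ^ k * Real.exp (c * (1 + y)) := by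
    rw [div_mul_eq_mul_div, le_div_iff₀ (by positivity)]
    linarith
  refine (mul_le_mul_of_nonneg_right h3 (Real.exp_pos _).le).trans (le_of_eq ?_)
  rw [mul_assoc, ← Real.exp_add]
  congr 2
  ring

theorem QQa.gam {p b : ℝ} (hp : 1 ≤ p) (hb : 0 < b) :
    ∫⁻ r in Ioi (0 : ℝ), ENNReal.ofReal (r * Real.exp (-b * r ^ p)) =
      ENNReal.ofReal (b ^ (-2 / p) * (1 / p) * Real.Gamma (2 / p)) := by
  have h1 := integral_rpow_mul_exp_neg_mul_rpow (p := p) (q := 1) (b := b) (by linarith) (by norm_num) hb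
  have h2 := integrableOn_rpow_mul_exp_neg_mul_rpow (p := p) (s := 1) (b := b) (by norm_num) (by linarith) hb
  simp only [Real.rpow_one, one_add_one_eq_two] at h1 h2
  rw [← ofReal_integral_eq_lintegral_ofReal h2, h1]
  exact (ae_restrict_iff' measurableSet_Ioi).2 (Eventually.of_forall fun r hr =>
    mul_nonneg (le_of_lt hr) (Real.exp_pos _).le)

theorem QQa.radial {lam : ℝ} (hl : 0 < lam) : ∃ C : ℝ≥0, ∀ ν : ℝ, 0 ≤ ν →
    ∫⁻ r in Ioi (0 : ℝ), ENNReal.ofReal (2 * Real.pi * r) *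
      ENNReal.ofReal (Real.exp (-(lam * (Real.sqrt (ν ^ 2 + r ^ 2) - ν) / 2))) ≤
      C * ENNReal.ofReal (1 + ν) := by
  refine ⟨(2 * Real.pi * (3 / lam + 36 / lam ^ 2)).toNNReal, fun ν hν => ?_⟩
  change _ ≤ ENNReal.ofReal _ * _
  have hb : 0 < lam / 6 / (1 + ν) := by positivity
  have hb' : 0 < lam / 6 := by positivity
  have g2 := QQa.gam (p := 2) (by norm_num) hb
  have g1 := QQa.gam (p := 1) le_rfl hb'
  have key : ∀ r ∈ Ioi (0 : ℝ), ENNReal.ofReal (2 * Real.pi * r) *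
      ENNReal.ofReal (Real.exp (-(lam * (Real.sqrt (ν ^ 2 + r ^ 2) - ν) / 2))) ≤
      ENNReal.ofReal (2 * Real.pi) * (ENNReal.ofReal (r * Real.exp (-(lam / 6 / (1 + ν)) * r ^ (2 : ℝ))) +
        ENNReal.ofReal (r * Real.exp (-(lam / 6) * r ^ (1 : ℝ)))) := by
    intro r hr
    have hr' : 0 < r := hr
    rw [← ENNReal.ofReal_add (by positivity) (by positivity), ← ENNReal.ofReal_mul (by positivity),
      ← ENNReal.ofReal_mul (by positivity), mul_assoc (2 * Real.pi), ← mul_add]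
    refine ENNReal.ofReal_le_ofReal (mul_le_mul_of_nonneg_left (mul_le_mul_of_nonneg_left ?_ hr'.le) (by positivity))
    rw [Real.rpow_two, Real.rpow_one]
    rcases le_total r ν with h | h
    · refine le_add_of_le_of_nonneg (Real.exp_le_exp.2 ?_) (Real.exp_pos _).le
      have a1 : ν + r ^ 2 / (3 * (1 + ν)) ≤ Real.sqrt (ν ^ 2 + r ^ 2) := by
        refine Real.le_sqrt_of_sq_le ?_
        set t := r ^ 2 / (3 * (1 + ν)) with ht
        have t0 : 0 ≤ t := by positivity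
        have t1 : t * (3 * (1 + ν)) = r ^ 2 := by rw [ht]; field_simp
        have t2 : t ≤ ν := by
          rw [ht, div_le_iff₀ (by positivity)]
          nlinarith
        nlinarith
      have a2 : lam / 6 / (1 + ν) * r ^ 2 = lam * (r ^ 2 / (3 * (1 + ν))) / 2 := by field_simp; ring
      rw [neg_mul, a2]
      have := mul_le_mul_of_nonneg_left (show r ^ 2 / (3 * (1 + ν)) ≤ Real.sqrt (ν ^ 2 + r ^ 2) - ν by linarith) hl.le
      linarith
    · refine le_add_of_nonneg_of_le (Real.exp_pos _).le (Real.exp_le_exp.2 ?_)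
      have a1 : ν + r / 3 ≤ Real.sqrt (ν ^ 2 + r ^ 2) := Real.le_sqrt_of_sq_le (by nlinarith)
      have := mul_le_mul_of_nonneg_left (show r / 3 ≤ Real.sqrt (ν ^ 2 + r ^ 2) - ν by linarith) hl.le
      linarith
  refine (setLIntegral_mono' measurableSet_Ioi key).trans ?_
  rw [lintegral_const_mul' _ _ ENNReal.ofReal_ne_top, lintegral_add_left (by fun_prop), g2, g1,
    ← ENNReal.ofReal_add (by positivity) (by positivity), ← ENNReal.ofReal_mul (by positivity),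
    ← ENNReal.ofReal_mul (by positivity)]
  refine ENNReal.ofReal_le_ofReal ?_
  have e1 : (lam / 6 / (1 + ν)) ^ (-2 / 2 : ℝ) = 6 * (1 + ν) / lam := by
    rw [show (-2 / 2 : ℝ) = -1 by norm_num, Real.rpow_neg_one]
    field_simp
  have e2 : (lam / 6) ^ (-2 / 1 : ℝ) = 36 / lam ^ 2 := by
    rw [show (-2 / 1 : ℝ) = -2 by norm_num, Real.rpow_neg hb'.le, Real.rpow_two]
    field_simp
    norm_num
  rw [e1, e2, show (2 / 2 : ℝ) = 1 by norm_num, show (2 / 1 : ℝ) = 2 by norm_num, Real.Gamma_one, Real.Gamma_two,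
    mul_assoc (2 * Real.pi)]
  refine mul_le_mul_of_nonneg_left ?_ (by positivity)
  have : 0 ≤ 36 / lam ^ 2 * ν := by positivity
  have e3 : 6 * (1 + ν) / lam * (1 / 2) * 1 = 3 / lam * (1 + ν) := by field_simp; ring
  rw [e3]
  nlinarith

theorem QQa.meas_ew (lam : ℝ) : Measurable (ew lam) := by
  unfold ew; fun_prop

/-- the plane integral -/
theorem QQa.plane {lam : ℝ} (hl : 0 < lam) : ∃ C : ℝ≥0, ∀ {h : R3 → ℝ≥0∞}, Measurable h →
    ∀ {Φ : ℝ → ℝ≥0∞}, Slow lam Φ → PB h (fun y => Φ y * ew lam y) → ∀ v a : R3, v - a ≠ 0 →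
    pint (v - a) v (fun b => h b * (Ici ‖a‖).indicator 1 ‖b‖) ≤
      C * (Φ ‖v‖ * W lam v) * ENNReal.ofReal (1 + ‖v‖) * ENNReal.ofReal (Real.exp (21 / 50 * lam * ‖a‖)) := by
  obtain ⟨C, hC⟩ := QQa.radial hl
  refine ⟨(Real.exp lam).toNNReal * C, fun {h} hh {Φ} hΦ hP v a hn => ?_⟩
  have hn' : 0 < ‖v - a‖ := norm_pos_iff.2 hn
  refine (cover (Ψ := fun b => (Ici ‖a‖).indicator 1 ‖b‖) (Ψ' := fun q => (Ici (‖a‖ - 1)).indicator 1 ‖q‖) hh
    (by exact (measurable_one.indicator measurableSet_Ici).comp measurable_norm) hP (fun q b hqb => ?_) hn v).trans ?_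
  · by_cases hb : ‖b‖ ∈ Ici ‖a‖
    · have : ‖q‖ ∈ Ici (‖a‖ - 1) := by
        have h1 := norm_sub_norm_le b q
        rw [dist_eq_norm] at hqb
        simp only [mem_Ici] at hb ⊢
        linarith
      rw [indicator_of_mem hb, indicator_of_mem this]
      exact le_rfl
    · rw [indicator_of_notMem hb]; exact zero_le
  -- foot of the perpendicular from `v - a`
  set n := v - a with hndef
  set p : R3 := (inner ℝ v n / ‖n‖ ^ 2) • n - v with hp
  have hpn : inner ℝ p n = 0 := by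
    rw [hp, inner_sub_left, real_inner_smul_left, real_inner_self_eq_norm_sq]
    field_simp
    ring
  let φ : ℝ → ℝ≥0∞ := fun r => ENNReal.ofReal (Real.exp (-(lam * (Real.sqrt (‖v‖ ^ 2 + r ^ 2) - ‖v‖) / 2)))
  have hφ : Measurable φ := by fun_prop
  set K : ℝ≥0∞ := ENNReal.ofReal (Real.exp lam) * (Φ ‖v‖ * W lam v) *
    ENNReal.ofReal (Real.exp (21 / 50 * lam * ‖a‖)) with hK
  have hm : Measurable fun q : R3 => φ ‖q - (v + p)‖ := hφ.comp (by fun_prop)
  have key : ∀ q : R3, inner ℝ (q - v) n = 0 →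
      Φ ‖q‖ * ew lam ‖q‖ * (Ici (‖a‖ - 1)).indicator 1 ‖q‖ ≤ K * φ ‖q - (v + p)‖ := by
    intro q hq
    by_cases hb : ‖q‖ ∈ Ici (‖a‖ - 1)
    swap
    · rw [indicator_of_notMem hb, mul_zero]; exact zero_le
    rw [indicator_of_mem hb, Pi.one_apply, mul_one]
    simp only [mem_Ici] at hb
    have e1 : ‖a‖ ^ 2 + ‖q‖ ^ 2 = ‖v‖ ^ 2 + ‖q - n‖ ^ 2 := by
      have ha : a = v - n := by rw [hndef]; abel
      rw [inner_sub_left] at hq
      have e3 := norm_sub_sq_real v n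
      have e4 := norm_sub_sq_real q n
      rw [← ha] at e3
      linarith
    have e2 : ‖q - (v + p)‖ ^ 2 ≤ ‖q - n‖ ^ 2 := by
      have h1 : q - n = (q - (v + p)) + (inner ℝ v n / ‖n‖ ^ 2 - 1) • n := by
        rw [hp, sub_smul, one_smul]; abel
      have h2 : inner ℝ (q - (v + p)) n = 0 := by
        rw [← sub_sub, inner_sub_left, hq, hpn, sub_zero]
      rw [h1, norm_add_sq_real, real_inner_smul_right, h2]
      nlinarith [sq_nonneg ‖(inner ℝ v n / ‖n‖ ^ 2 - 1) • n‖]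
    set s := Real.sqrt (‖a‖ ^ 2 + ‖q‖ ^ 2) with hs
    have s1 : Real.sqrt (‖v‖ ^ 2 + ‖q - (v + p)‖ ^ 2) ≤ s := Real.sqrt_le_sqrt (by linarith)
    have s2 : ‖v‖ ≤ s := Real.le_sqrt_of_sq_le (by nlinarith [sq_nonneg ‖q - n‖])
    have s3 : ‖q‖ ≤ s := Real.le_sqrt_of_sq_le (by nlinarith [sq_nonneg ‖a‖])
    have s4 : s ≤ ‖q‖ + 1 + 21 / 50 * ‖a‖ := by
      refine Real.sqrt_le_iff.2 ⟨by positivity, ?_⟩
      have := norm_nonneg a
      have := norm_nonneg q
      nlinarith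
    refine (mul_le_mul_left ((hΦ.1 s3).trans (hΦ.2 _ _ (norm_nonneg v) s2)) _).trans ?_
    simp only [hK, φ, W, ew]
    rw [mul_assoc, ← ENNReal.ofReal_mul (Real.exp_pos _).le, mul_left_comm, mul_assoc, mul_assoc, mul_assoc,
      ← ENNReal.ofReal_mul (Real.exp_pos _).le, ← ENNReal.ofReal_mul (Real.exp_pos _).le,
      ← ENNReal.ofReal_mul (Real.exp_pos _).le]
    refine mul_le_mul_right (ENNReal.ofReal_le_ofReal ?_) _
    rw [← Real.exp_add, ← Real.exp_add, ← Real.exp_add, ← Real.exp_add, Real.exp_le_exp]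
    have := mul_le_mul_of_nonneg_left s1 hl.le
    have := mul_le_mul_of_nonneg_left s4 hl.le
    linarith
  refine (pint_mono_on hn v key).trans ?_
  rw [pint_cmul _ _ _ hm, ← pint_translate hn hpn v hm, pint_radial hn _ hφ]
  refine (mul_le_mul_right (hC _ (norm_nonneg v)) _).trans (le_of_eq ?_)
  rw [hK, ENNReal.coe_mul]
  change _ = ENNReal.ofReal _ * _ * _ * _ * _
  ring

/-- the volume integral -/
theorem QQa.outer {lam : ℝ} (hl : 0 < lam) : ∃ C : ℝ≥0, ∀ {f : R3 → ℝ≥0∞}, Measurable f →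
    ∀ {A : ℝ≥0∞}, PB f (fun y => A * ew (lam / 2) y) → ∀ v : R3,
    ENNReal.ofReal (1 + ‖v‖) *
      ∫⁻ a, f a * (invn (v - a) * ENNReal.ofReal (Real.exp (21 / 50 * lam * ‖a‖))) ≤ C * A := by
  have hc : 0 < 2 / 25 * lam := by positivity
  obtain ⟨C1, hC1, h1⟩ := QQa.poly_exp hc 1
  obtain ⟨C5, hC5, h5⟩ := QQa.poly_exp hc 5
  have hfin : ∫⁻ q : R3, ENNReal.ofReal ((1 + ‖q‖) ^ (-(4 : ℝ))) < ⊤ :=
    finite_integral_one_add_norm (by simp; norm_num)
  set J := (∫⁻ q : R3, ENNReal.ofReal ((1 + ‖q‖) ^ (-(4 : ℝ)))).toNNReal with hJ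
  have hJ' : (J : ℝ≥0∞) = ∫⁻ q : R3, ENNReal.ofReal ((1 + ‖q‖) ^ (-(4 : ℝ))) := ENNReal.coe_toNNReal hfin.ne
  set e := Real.exp (21 / 50 * lam) with he
  have he0 : 0 < e := Real.exp_pos _
  refine ⟨(2 * e * C1).toNNReal + (3 * e * C5).toNNReal * J, fun {f} hf {A} hP v => ?_⟩
  have hi : Measurable fun a : R3 => invn (v - a) := measurable_invn.comp (by fun_prop)
  let Ψ : R3 → ℝ≥0∞ := (Metric.ball v 1)ᶜ.indicator
    (fun a => invn (v - a) * ENNReal.ofReal (Real.exp (21 / 50 * lam * ‖a‖)))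
  have hΨ : Measurable Ψ := (hi.mul (by fun_prop)).indicator measurableSet_ball.compl
  have split : ∀ a, f a * (invn (v - a) * ENNReal.ofReal (Real.exp (21 / 50 * lam * ‖a‖))) ≤
      ENNReal.ofReal (e * Real.exp (21 / 50 * lam * ‖v‖)) * ((Metric.ball v 1).indicator f a * invn (v - a)) +
        f a * Ψ a := by
    intro a
    by_cases ha : a ∈ Metric.ball v 1
    · refine le_add_right ?_
      rw [indicator_of_mem ha, mul_comm (ENNReal.ofReal _), mul_assoc (f a)]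
      refine mul_le_mul_right (mul_le_mul_right (ENNReal.ofReal_le_ofReal ?_) _) _
      rw [he, ← Real.exp_add, Real.exp_le_exp]
      have h2 := norm_sub_norm_le a v
      rw [mem_ball_iff_norm] at ha
      nlinarith
    · refine le_add_left (le_of_eq ?_)
      simp only [Ψ]
      rw [indicator_of_mem (show a ∈ (Metric.ball v 1)ᶜ from ha)]
  have hfb : Measurable ((Metric.ball v 1).indicator f) := hf.indicator measurableSet_ball
  have p1 := avg_plane hfb v (fun n hn => hP n v hn)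
  have p2 := cover_vol (Ψ' := fun q => ENNReal.ofReal (3 * e * (1 + ‖q‖) / (1 + ‖v‖) * Real.exp (21 / 50 * lam * ‖q‖)))
    hf hΨ ((QQa.meas_ew _).const_mul A) (by fun_prop) hP (fun q b hqb => by
      simp only [Ψ]
      by_cases hb : b ∈ (Metric.ball v 1)ᶜ
      swap
      · rw [indicator_of_notMem hb]; exact zero_le
      rw [indicator_of_mem hb]
      have hb1 : 1 ≤ ‖v - b‖ := by
        rw [mem_compl_iff, mem_ball_iff_norm', not_lt] at hb
        exact hb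
      rw [dist_eq_norm] at hqb
      unfold invn
      rw [← ENNReal.ofReal_inv_of_pos (by linarith), ← ENNReal.ofReal_mul (by positivity)]
      refine ENNReal.ofReal_le_ofReal ?_
      have a1 : Real.exp (21 / 50 * lam * ‖b‖) ≤ e * Real.exp (21 / 50 * lam * ‖q‖) := by
        rw [he, ← Real.exp_add, Real.exp_le_exp]
        have h2 := norm_sub_norm_le b q
        nlinarith
      have a2 : ‖v - b‖⁻¹ ≤ 3 * (1 + ‖q‖) / (1 + ‖v‖) := by
        rw [inv_eq_one_div, div_le_div_iff₀ (by linarith) (by positivity)]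
        have h2 : ‖v‖ ≤ ‖v - b‖ + ‖b - q‖ + ‖q‖ := by
          have := norm_add₃_le (a := v - b) (b := b - q) (c := q)
          simpa using this
        have := norm_nonneg q
        nlinarith
      refine (mul_le_mul a2 a1 (Real.exp_pos _).le (by positivity)).trans (le_of_eq ?_)
      ring)
  have hv : 0 < 1 + ‖v‖ := by positivity
  have q1 : ENNReal.ofReal (1 + ‖v‖) * (ENNReal.ofReal (e * Real.exp (21 / 50 * lam * ‖v‖)) *
      (2 * (A * ew (lam / 2) ‖v‖))) ≤ ENNReal.ofReal (2 * e * C1) * A := by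
    have : ENNReal.ofReal (1 + ‖v‖) * ENNReal.ofReal (e * Real.exp (21 / 50 * lam * ‖v‖)) * 2 *
        ew (lam / 2) ‖v‖ ≤ ENNReal.ofReal (2 * e * C1) := by
      unfold ew
      have e2 : (2 : ℝ≥0∞) = ENNReal.ofReal 2 := (ENNReal.ofReal_ofNat 2).symm
      rw [← ENNReal.ofReal_mul hv.le, mul_assoc, mul_comm (2 : ℝ≥0∞), ← mul_assoc, ← ENNReal.ofReal_mul (by positivity)]
      refine (mul_le_mul_right e2.le _).trans ?_
      rw [← ENNReal.ofReal_mul (by positivity)]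
      refine ENNReal.ofReal_le_ofReal ?_
      have a1 := h1 _ (norm_nonneg v)
      have a2 : Real.exp (21 / 50 * lam * ‖v‖) * Real.exp (-(lam / 2 * ‖v‖)) = Real.exp (-(2 / 25 * lam * ‖v‖)) := by
        rw [← Real.exp_add]; congr 1; ring
      rw [pow_one] at a1
      calc _ = 2 * e * ((1 + ‖v‖) * (Real.exp (21 / 50 * lam * ‖v‖) * Real.exp (-(lam / 2 * ‖v‖)))) := by ring
        _ ≤ _ := by rw [a2]; exact mul_le_mul_of_nonneg_left a1 (by positivity)
    calc _ = ENNReal.ofReal (1 + ‖v‖) * ENNReal.ofReal (e * Real.exp (21 / 50 * lam * ‖v‖)) * 2 *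
          ew (lam / 2) ‖v‖ * A := by ring
      _ ≤ _ := mul_le_mul_left this _
  have q2 : ENNReal.ofReal (1 + ‖v‖) * ∫⁻ q : R3, A * ew (lam / 2) ‖q‖ *
      ENNReal.ofReal (3 * e * (1 + ‖q‖) / (1 + ‖v‖) * Real.exp (21 / 50 * lam * ‖q‖)) ≤
      ENNReal.ofReal (3 * e * C5) * J * A := by
    rw [hJ', ← lintegral_const_mul' _ _ ENNReal.ofReal_ne_top, ← lintegral_const_mul' _ _ ENNReal.ofReal_ne_top,
      ← lintegral_mul_const _ (by fun_prop)]
    refine lintegral_mono fun q => ?_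
    have : ENNReal.ofReal (1 + ‖v‖) * ew (lam / 2) ‖q‖ *
        ENNReal.ofReal (3 * e * (1 + ‖q‖) / (1 + ‖v‖) * Real.exp (21 / 50 * lam * ‖q‖)) ≤
        ENNReal.ofReal (3 * e * C5) * ENNReal.ofReal ((1 + ‖q‖) ^ (-(4 : ℝ))) := by
      unfold ew
      rw [← ENNReal.ofReal_mul hv.le, ← ENNReal.ofReal_mul (by positivity), ← ENNReal.ofReal_mul (by positivity)]
      refine ENNReal.ofReal_le_ofReal ?_
      have hq : 0 < 1 + ‖q‖ := by positivity
      have a1 := h5 _ (norm_nonneg q)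
      have a2 : Real.exp (21 / 50 * lam * ‖q‖) * Real.exp (-(lam / 2 * ‖q‖)) = Real.exp (-(2 / 25 * lam * ‖q‖)) := by
        rw [← Real.exp_add]; congr 1; ring
      rw [Real.rpow_neg hq.le, show (4 : ℝ) = (4 : ℕ) by norm_num, Real.rpow_natCast]
      calc _ = 3 * e * ((1 + ‖q‖) ^ 5 * (Real.exp (21 / 50 * lam * ‖q‖) * Real.exp (-(lam / 2 * ‖q‖)))) *
            ((1 + ‖q‖) ^ 4)⁻¹ := by field_simp
        _ ≤ _ := by
          rw [a2]
          exact mul_le_mul_of_nonneg_right (mul_le_mul_of_nonneg_left a1 (by positivity)) (by positivity)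
    calc _ = ENNReal.ofReal (1 + ‖v‖) * ew (lam / 2) ‖q‖ *
          ENNReal.ofReal (3 * e * (1 + ‖q‖) / (1 + ‖v‖) * Real.exp (21 / 50 * lam * ‖q‖)) * A := by ring
      _ ≤ _ := mul_le_mul_left this _
  refine (mul_le_mul_right (lintegral_mono split) _).trans ?_
  rw [lintegral_add_right _ (by exact hf.mul hΨ), lintegral_const_mul' _ _ ENNReal.ofReal_ne_top, mul_add,
    ENNReal.coe_add, ENNReal.coe_mul, add_mul]
  exact add_le_add ((mul_le_mul_right (mul_le_mul_right p1 _) _).trans q1) ((mul_le_mul_right p2 _).trans q2)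

theorem QQa.meas_half {f h : R3 → ℝ≥0∞} (hf : Measurable f) (hh : Measurable h) :
    Measurable (Function.uncurry fun a b : R3 => f a * (h b * (Ici ‖a‖).indicator 1 ‖b‖)) := by
  refine (hf.comp measurable_fst).mul ((hh.comp measurable_snd).mul ?_)
  have : (fun q : R3 × R3 => (Ici ‖q.1‖).indicator (1 : ℝ → ℝ≥0∞) ‖q.2‖) =
      {q : R3 × R3 | ‖q.1‖ ≤ ‖q.2‖}.indicator 1 := by
    funext q
    simp only [indicator, mem_Ici, mem_ofPred_eq, Pi.one_apply]
  exact this ▸ measurable_one.indicator (measurableSet_le (by fun_prop) (by fun_prop))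

theorem QQa.half {lam : ℝ} (hl : 0 < lam) : ∃ C : ℝ≥0, ∀ {f h : R3 → ℝ≥0∞}, Measurable f → Measurable h →
    ∀ {A : ℝ≥0∞} {Φ : ℝ → ℝ≥0∞}, Slow lam Φ → PB f (fun y => A * ew (lam / 2) y) →
    PB h (fun y => Φ y * ew lam y) →
    ∀ v, Qg (fun a b => f a * (h b * (Ici ‖a‖).indicator 1 ‖b‖)) v ≤ C * (A * Φ ‖v‖) * W lam v := by
  obtain ⟨C1, h1⟩ := QQa.plane hl
  obtain ⟨C2, h2⟩ := QQa.outer hl
  refine ⟨2 * C1 * C2, fun {f h} hf hh {A Φ} hΦ hf1 hh1 v => ?_⟩
  rw [carlemanG (QQa.meas_half hf hh)]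
  have hi : Measurable fun a : R3 => invn (v - a) := measurable_invn.comp (by fun_prop)
  have a1 : ∫⁻ a, invn (v - a) * pint (v - a) v (fun b => f a * (h b * (Ici ‖a‖).indicator 1 ‖b‖)) ≤
      C1 * (Φ ‖v‖ * W lam v) * (ENNReal.ofReal (1 + ‖v‖) *
        ∫⁻ a, f a * (invn (v - a) * ENNReal.ofReal (Real.exp (21 / 50 * lam * ‖a‖)))) := by
    rw [← mul_assoc, ← lintegral_const_mul _ (by exact hf.mul (hi.mul (by fun_prop)))]
    refine lintegral_mono_ae ?_
    filter_upwards [compl_mem_ae_iff.2 (measure_singleton v)] with a ha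
    have hn : v - a ≠ 0 := sub_ne_zero.2 (Ne.symm ha)
    rw [pint_cmul _ _ _ (by
      exact hh.mul ((measurable_one.indicator measurableSet_Ici).comp measurable_norm))]
    refine (mul_le_mul_right (mul_le_mul_right (h1 hh hΦ hh1 v a hn) _) _).trans (le_of_eq ?_)
    ring
  refine (mul_le_mul_right (a1.trans (mul_le_mul_right (h2 hf hf1 v) _)) _).trans (le_of_eq ?_)
  push_cast
  ring

theorem QQ {lam : ℝ} (hl : 0 < lam) : ∃ C : ℝ≥0, ∀ {f h : R3 → ℝ≥0∞}, Measurable f → Measurable h →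
    ∀ {Af Ah : ℝ≥0∞} {Φf Φh : ℝ → ℝ≥0∞}, Slow lam Φf → Slow lam Φh →
    PB f (fun y => Af * ew (lam / 2) y) → PB f (fun y => Φf y * ew lam y) →
    PB h (fun y => Ah * ew (lam / 2) y) → PB h (fun y => Φh y * ew lam y) →
    ∀ v, Qp f h v ≤ C * (Af * Φh ‖v‖ + Ah * Φf ‖v‖) * W lam v := by
  obtain ⟨C, hC⟩ := QQa.half hl
  refine ⟨C, fun {f h} hf hh {Af Ah Φf Φh} sf sh f1 f2 h1 h2 v => ?_⟩
  have a1 := hC hf hh sh f1 h2 v
  have a2 := hC hh hf sf h1 f2 v
  rw [Qg_symm (QQa.meas_half hh hf)] at a2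
  rw [Qp_eq_Qg, mul_add, add_mul]
  refine le_trans ?_ (add_le_add a1 a2)
  rw [← Qg_add (QQa.meas_half hf hh)]
  refine Qg_mono (fun a b => ?_) v
  rcases le_total ‖a‖ ‖b‖ with h' | h'
  · rw [indicator_of_mem (show ‖b‖ ∈ Ici ‖a‖ from h'), Pi.one_apply, mul_one]
    exact le_self_add
  · rw [indicator_of_mem (show ‖a‖ ∈ Ici ‖b‖ from h'), Pi.one_apply, mul_one, mul_comm (h b) (f a)]
    exact le_add_self

/-- special case: constant bounds -/
theorem QQ_const {lam : ℝ} (hl : 0 < lam) : ∃ C : ℝ≥0, ∀ {f h : R3 → ℝ≥0∞}, Measurable f →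
    Measurable h → ∀ {A B : ℝ≥0∞}, PB f (fun y => A * ew lam y) → PB h (fun y => B * ew lam y) →
    ∀ v, Qp f h v ≤ C * (A * B) * W lam v := by
  obtain ⟨C, hC⟩ := QQ hl
  refine ⟨2 * C, fun {f h} hf hh {A B} f1 h1 v => ?_⟩
  have e : ∀ (A : ℝ≥0∞) (y : ℝ), 0 ≤ y → A * ew lam y ≤ A * ew (lam / 2) y := fun A y hy =>
    mul_le_mul_right (ENNReal.ofReal_le_ofReal (Real.exp_le_exp.2 (by nlinarith))) _
  refine (hC hf hh (Slow_const lam hl.le A) (Slow_const lam hl.le B) (f1.mono (fun _ => le_rfl) (e A)) f1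
    (h1.mono (fun _ => le_rfl) (e B)) h1 v).trans (le_of_eq ?_)
  push_cast
  ring

theorem QWW {lam : ℝ} (hl : 0 < lam) : ∃ C : ℝ≥0, ∀ v, Qp (W lam) (W lam) v ≤ C * W lam v := by
  obtain ⟨C, hC⟩ := QQ_const hl
  refine ⟨C * ((4 * Real.exp lam).toNNReal * (4 * Real.exp lam).toNNReal), fun v => ?_⟩
  have := hC (measurable_W lam) (measurable_W lam) (PB_W hl.le) (PB_W hl.le) v
  push_cast
  exact this

end Crest.Agent.R68
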