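import Crest.Agent.R68.GoodB
import Crest.Agent.R68.QQ
import Crest.Agent.R68.PL

/-! Bounded exponential mild solutions are `Good`.  Along a characteristic, with `a = ν♯`, `q = Q⁺♯` integrable on `(0,T)` and
`f(t) = f0 E(0,t) + ∫_0^t E(s,t) q(s) ds`, Tonelli and `expNeg_add_lintegral`-type identities (in the form
`E(s,t) + ∫_s^t a(σ) E(s,σ) dσ = 1`, which is proved like `expNeg_add_lintegral` or by reflection) give `f(t) + ∫_0^t a f = f0 + ∫_0^t q`. -/

set_option autoImplicit false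

open MeasureTheory Set Filter Topology Crest.AnalysisR.VecCalc3 Crest.AnalysisR.PDE.Boltzmann
open scoped ENNReal NNReal

namespace Crest.Agent.R68

theorem lintegral_Ioo_neg (g : ℝ → ℝ≥0∞) (s t : ℝ) : ∫⁻ σ in Ioo (-t) (-s), g (-σ) = ∫⁻ σ in Ioo s t, g σ := by
  rw [← lintegral_indicator measurableSet_Ioo, ← lintegral_indicator measurableSet_Ioo, ← lintegral_neg_eq_self]
  refine lintegral_congr fun σ => ?_
  by_cases h : σ ∈ Ioo s t
  · rw [indicator_of_mem h, indicator_of_mem (show -σ ∈ Ioo (-t) (-s) from ⟨by linarith [h.2], by linarith [h.1]⟩),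
      neg_neg]
  · rw [indicator_of_notMem h, indicator_of_notMem fun h' => h ⟨by linarith [h'.2], by linarith [h'.1]⟩]

/-- `exp(-∫_s^t a) + ∫_s^t a(σ) exp(-∫_s^σ a) dσ = 1` when the integral is finite -/
theorem expNeg_add_lintegral' {a : ℝ → ℝ≥0∞} (ha : Measurable a) {s t : ℝ} (hfin : ∫⁻ σ in Ioo s t, a σ ≠ ⊤) :
    expNeg (∫⁻ σ in Ioo s t, a σ) + ∫⁻ σ in Ioo s t, a σ * expNeg (∫⁻ σ' in Ioo s σ, a σ') = 1 := by
  have h1 := expNeg_add_lintegral (a := fun σ => a (-σ)) (ha.comp measurable_neg) (s := -t) (t := -s)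
    (by rwa [lintegral_Ioo_neg])
  rw [lintegral_Ioo_neg] at h1
  rw [← h1, ← lintegral_Ioo_neg (fun σ => a σ * expNeg (∫⁻ σ' in Ioo s σ, a σ'))]
  congr 1
  refine lintegral_congr fun σ => ?_
  rw [← lintegral_Ioo_neg a s (-σ), neg_neg]

/-- Tonelli on a triangle -/
theorem lintegral_triangle {h : ℝ → ℝ → ℝ≥0∞} (hh : Measurable (Function.uncurry h)) (u t : ℝ) :
    ∫⁻ s in Ioo u t, ∫⁻ r in Ioo u s, h r s = ∫⁻ r in Ioo u t, ∫⁻ s in Ioo r t, h r s := by
  have h1 : Measurable (Function.uncurry fun s r : ℝ => if r < s then h r s else 0) :=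
    Measurable.ite (measurableSet_lt measurable_snd measurable_fst) (hh.comp measurable_swap) measurable_const
  have h2 := lintegral_lintegral_swap (μ := volume.restrict (Ioo u t)) (ν := volume.restrict (Ioo u t)) h1.aemeasurable
  refine Eq.trans (setLIntegral_congr_fun measurableSet_Ioo fun s hs => ?_)
    (h2.trans (setLIntegral_congr_fun measurableSet_Ioo fun r hr => ?_))
  · have h3 : Ioo u s = Iio s ∩ Ioo u t := by
      ext r
      exact ⟨fun h => ⟨h.2, h.1, h.2.trans hs.2⟩, fun h => ⟨h.2.1, h.1⟩⟩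
    rw [h3, ← setLIntegral_indicator measurableSet_Iio]
    rfl
  · have h3 : Ioo r t = Ioi r ∩ Ioo u t := by
      ext s
      exact ⟨fun h => ⟨h.1, hr.1.trans h.1, h.2⟩, fun h => ⟨h.1, h.2.2⟩⟩
    rw [h3, ← setLIntegral_indicator measurableSet_Ioi]
    rfl

theorem exp_to_plain {a q f : ℝ → ℝ≥0∞} {f0 : ℝ≥0∞} {T : ℝ} (ha : Measurable a) (hq : Measurable q)
    (hfin : ∫⁻ σ in Ioo 0 T, a σ ≠ ⊤)
    (hf : ∀ t ∈ Icc 0 T, f t = f0 * expNeg (∫⁻ σ in Ioo 0 t, a σ) +
      ∫⁻ s in Ioo 0 t, expNeg (∫⁻ σ in Ioo s t, a σ) * q s) :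
    ∀ t ∈ Icc 0 T, f t + ∫⁻ s in Ioo 0 t, a s * f s = f0 + ∫⁻ s in Ioo 0 t, q s := by
  intro t ht
  have hE : Measurable fun p : ℝ × ℝ => expNeg (∫⁻ σ in Ioo p.1 p.2, a σ) :=
    measurable_expNeg.comp (meas_timeInt (g := fun _ σ => a σ) (ha.comp measurable_snd) measurable_fst measurable_snd)
  have hE0 : Measurable fun s : ℝ => a s * expNeg (∫⁻ σ in Ioo 0 s, a σ) :=
    ha.mul (hE.comp (measurable_const.prodMk measurable_id))
  have hH : Measurable (Function.uncurry fun r s : ℝ => a s * expNeg (∫⁻ σ in Ioo r s, a σ) * q r) :=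
    ((ha.comp measurable_snd).mul hE).mul (hq.comp measurable_fst)
  have hK : ∀ r, 0 ≤ r → expNeg (∫⁻ σ in Ioo r t, a σ) + ∫⁻ s in Ioo r t, a s * expNeg (∫⁻ σ in Ioo r s, a σ) = 1 :=
    fun r hr => expNeg_add_lintegral' ha
      (ne_top_of_le_ne_top hfin (lintegral_mono_set (Ioo_subset_Ioo hr ht.2)))
  have h1 : ∫⁻ s in Ioo 0 t, a s * f s = f0 * (∫⁻ s in Ioo 0 t, a s * expNeg (∫⁻ σ in Ioo 0 s, a σ)) +
      ∫⁻ s in Ioo 0 t, ∫⁻ r in Ioo 0 s, a s * expNeg (∫⁻ σ in Ioo r s, a σ) * q r := by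
    rw [← lintegral_const_mul _ hE0, ← lintegral_add_left (hE0.const_mul _)]
    refine setLIntegral_congr_fun measurableSet_Ioo fun s hs => ?_
    rw [hf s ⟨hs.1.le, hs.2.le.trans ht.2⟩, mul_add, mul_left_comm, ← lintegral_const_mul _ (by
      exact (hE.comp (measurable_id.prodMk measurable_const)).mul hq)]
    simp only [mul_assoc]
  have h2 : (∫⁻ r in Ioo 0 t, expNeg (∫⁻ σ in Ioo r t, a σ) * q r) +
      ∫⁻ r in Ioo 0 t, ∫⁻ s in Ioo r t, a s * expNeg (∫⁻ σ in Ioo r s, a σ) * q r = ∫⁻ r in Ioo 0 t, q r := by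
    rw [← lintegral_add_left (by exact (hE.comp (measurable_id.prodMk measurable_const)).mul hq)]
    refine setLIntegral_congr_fun measurableSet_Ioo fun r hr => ?_
    rw [lintegral_mul_const _ (by exact ha.mul (hE.comp (measurable_const.prodMk measurable_id))), ← add_mul,
      hK r hr.1.le, one_mul]
  rw [h1, lintegral_triangle hH, hf t ht, add_add_add_comm, ← mul_add, hK 0 le_rfl, mul_one, h2]

theorem Plain.W_le_one {lam : ℝ} (hl : 0 ≤ lam) (v : R3) : W lam v ≤ 1 :=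
  ENNReal.ofReal_le_one.2 (Real.exp_le_one_iff.2 (neg_nonpos.2 (by positivity)))

theorem Plain.one_le_pw (k : ℕ) (v : R3) : 1 ≤ pw k v :=
  ENNReal.one_le_ofReal.2 (one_le_pow₀ (by linarith [norm_nonneg v]))

theorem Plain.pw_succ (k : ℕ) (v : R3) : pw (k + 1) v = pw k v * ENNReal.ofReal (1 + ‖v‖) := by
  unfold pw
  rw [pow_succ, ENNReal.ofReal_mul (by positivity)]

theorem Plain.mom (k : ℕ) : ∫⁻ v, W (1 / 2) v * pw k v < ⊤ := by
  obtain ⟨C, hC⟩ := moment_of_PB (lam := 1 / 2) (by norm_num) k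
  exact lt_of_le_of_lt (hC (measurable_W _) (PB_W (by norm_num)))
    (ENNReal.mul_lt_top ENNReal.coe_lt_top ENNReal.ofReal_lt_top)

theorem Plain.lint_cell {g : R3 → ℝ≥0∞} (hg : Measurable g) :
    ∫⁻ q in cell ×ˢ (univ : Set R3), g q.2 = ∫⁻ v, g v := by
  rw [Measure.volume_eq_prod, ← Measure.prod_restrict, lintegral_prod _ (by exact (hg.comp measurable_snd).aemeasurable)]
  simp [volume_cell]

theorem major_W (K : ℝ≥0) (T : ℝ) : Major (fun _ _ v => K * W (1 / 2) v) T := by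
  have hlp : ∀ v, lp (K * W (1 / 2) v) ≤ K := fun v => by
    unfold lp
    refine (ENNReal.ofReal_le_ofReal (Real.log_le_self ENNReal.toReal_nonneg)).trans
      (ENNReal.ofReal_toReal_le.trans ?_)
    exact mul_le_of_le_one_right' (Plain.W_le_one (by norm_num) v)
  refine ⟨measurable_const.mul ((measurable_W _).comp (measurable_snd.comp measurable_snd)), fun _ _ _ _ => rfl,
    ⟨K * (1 + K) * ∫⁻ v, W (1 / 2) v * pw 2 v, ?_, fun t _ => ?_⟩, fun k => ?_⟩
  · exact ENNReal.mul_lt_top (ENNReal.mul_lt_top ENNReal.coe_lt_top (by simp)) (Plain.mom 2)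
  · have hm : Measurable fun v => W (1 / 2) v * pw 2 v := (measurable_W _).mul (measurable_pw 2)
    rw [← lintegral_const_mul _ hm, ← Plain.lint_cell (hm.const_mul _)]
    refine lintegral_mono fun q => ?_
    calc (K : ℝ≥0∞) * W (1 / 2) q.2 * (pw 2 q.2 + lp (K * W (1 / 2) q.2))
        ≤ K * W (1 / 2) q.2 * (pw 2 q.2 + K * pw 2 q.2) := by
          gcongr
          exact (hlp _).trans (le_mul_of_one_le_right' (Plain.one_le_pw 2 _))
      _ = _ := by ring
  · have hm : Measurable fun v => W (1 / 2) v * pw (k + 1) v := (measurable_W _).mul (measurable_pw _)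
    let B : ℝ≥0∞ := K * (1 + K) * 7 * (K * ∫⁻ v, W (1 / 2) v * pw (k + 1) v)
    have hB : B < ⊤ := ENNReal.mul_lt_top (ENNReal.mul_lt_top (ENNReal.mul_lt_top ENNReal.coe_lt_top (by simp))
      (by simp)) (ENNReal.mul_lt_top ENNReal.coe_lt_top (Plain.mom _))
    have h1 : ∀ v : R3, (K : ℝ≥0∞) * W (1 / 2) v * (pw k v * (1 + lp (K * W (1 / 2) v))) *
        nu (fun vs => K * W (1 / 2) vs * pw k vs) v ≤ B * (W (1 / 2) v * pw (k + 1) v) := fun v => by
      have h2 := nu_le_pw (fun vs => K * W (1 / 2) vs * pw k vs) v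
      have h3 : ∫⁻ a, K * W (1 / 2) a * pw k a * pw 1 a = K * ∫⁻ v, W (1 / 2) v * pw (k + 1) v := by
        rw [← lintegral_const_mul _ hm]
        exact lintegral_congr fun a => by
          rw [Plain.pw_succ k a, show pw 1 a = ENNReal.ofReal (1 + ‖a‖) by rw [pw, pow_one]]
          ring
      rw [h3] at h2
      calc _ ≤ (K : ℝ≥0∞) * W (1 / 2) v * (pw k v * (1 + K)) *
            (7 * ENNReal.ofReal (1 + ‖v‖) * (K * ∫⁻ v, W (1 / 2) v * pw (k + 1) v)) := by
            gcongr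
            exact hlp v
        _ = _ := by rw [Plain.pw_succ k v]; ring
    refine lt_of_le_of_lt (lintegral_mono fun p => h1 p.2.2) ?_
    rw [Measure.volume_eq_prod, ← Measure.prod_restrict, lintegral_prod _ (by
      exact ((hm.const_mul B).comp (measurable_snd.comp measurable_snd)).aemeasurable)]
    simp only [Plain.lint_cell (hm.const_mul B), lintegral_const, Measure.restrict_apply MeasurableSet.univ, univ_inter]
    rw [lintegral_const_mul _ hm]
    exact ENNReal.mul_lt_top (ENNReal.mul_lt_top hB (Plain.mom _)) measure_Ioo_lt_top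

theorem Sol.plain {F0 : R3 → R3 → ℝ≥0∞} {T : ℝ} {F : Den} (h : Sol F0 T F) (hT : 0 ≤ T) :
    PlainMild (toR2 F0) T (toR F) := by
  obtain ⟨K, hK⟩ := h.bdd
  obtain ⟨hm, hmild⟩ := h.mild
  obtain ⟨C, hC⟩ := QWW (lam := 1 / 2) (by norm_num)
  intro t ht
  refine Eventually.of_forall fun ⟨x, v⟩ => ?_
  have hsub : ∀ s ∈ Ioo 0 t, s ∈ Icc 0 T := fun s hs => ⟨hs.1.le, hs.2.le.trans ht.2⟩
  have hle : ∀ s ∈ Icc 0 T, ∀ y u, F s y u ≤ K := fun s hs y u =>
    (hK s hs y u).trans (mul_le_of_le_one_right' (Plain.W_le_one (by norm_num) u))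
  have hne : ∀ s ∈ Icc 0 T, ∀ y u, F s y u ≠ ⊤ := fun s hs y u => ne_top_of_le_ne_top ENNReal.coe_ne_top (hle s hs y u)
  have hU : Measurable (Function.uncurry fun s u => F s (x - (t - s) • v) u) :=
    hm.comp measurable_fst (by fun_prop) measurable_snd
  have ha : Measurable fun s => nu (F s (x - (t - s) • v)) v := meas_nu hU measurable_const
  have hq : Measurable fun s => Qp (F s (x - (t - s) • v)) (F s (x - (t - s) • v)) v := meas_Qp hU hU measurable_const
  have hf : Measurable fun s => F s (x - (t - s) • v) v := hU.of_uncurry_right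
  let A : ℝ≥0∞ := 7 * ENNReal.ofReal (1 + ‖v‖) * (K * ∫⁻ u, W (1 / 2) u * pw 1 u)
  have hA : A ≠ ⊤ := ENNReal.mul_ne_top (ENNReal.mul_ne_top (by simp) ENNReal.ofReal_ne_top)
    (ENNReal.mul_ne_top ENNReal.coe_ne_top (Plain.mom 1).ne)
  have haA : ∀ s ∈ Icc 0 T, ∀ y, nu (F s y) v ≤ A := fun s hs y => by
    refine (nu_le_pw _ v).trans (mul_le_mul_right ?_ _)
    rw [← lintegral_const_mul' _ _ ENNReal.coe_ne_top]
    exact lintegral_mono fun u => (mul_le_mul_left (hK s hs y u) _).trans (le_of_eq (mul_assoc _ _ _))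
  have hqA : ∀ s ∈ Icc 0 T, ∀ y, Qp (F s y) (F s y) v ≤ K * K * C := fun s hs y => by
    refine (Qp_mono (hK s hs y) (hK s hs y) v).trans ?_
    rw [Qp_cmul (measurable_W _) (measurable_W _)]
    exact mul_le_mul_right ((hC v).trans (mul_le_of_le_one_right' (Plain.W_le_one (by norm_num) v))) _
  have hfin : ∀ {g : ℝ → ℝ≥0∞} {B : ℝ≥0∞}, B ≠ ⊤ → (∀ s ∈ Ioo 0 t, g s ≤ B) → ∫⁻ s in Ioo 0 t, g s ≠ ⊤ := by
    intro g B hB hg
    refine ne_top_of_le_ne_top ?_ (setLIntegral_mono measurable_const hg)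
    rw [setLIntegral_const]
    exact ENNReal.mul_ne_top hB measure_Ioo_lt_top.ne
  have h1 := exp_to_plain (f := fun s => F s (x - (t - s) • v) v) (f0 := F0 (x - t • v) v) (T := t) ha hq
    (hfin hA fun s hs => haA s (hsub s hs) _) (fun s hs => by
      have h2 : ∀ σ : ℝ, x - (t - s) • v - (s - σ) • v = x - (t - σ) • v := fun σ => by module
      have h3 : x - (t - s) • v - s • v = x - t • v := by module
      rw [hmild s ⟨hs.1, hs.2.trans ht.2⟩]
      simp only [Ex, h2, h3]) t ⟨ht.1, le_rfl⟩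
  simp only [sub_self, zero_smul, sub_zero] at h1
  have haf : Measurable fun s => nu (F s (x - (t - s) • v)) v * F s (x - (t - s) • v) v := ha.mul hf
  have hAK : A * K ≠ ⊤ := ENNReal.mul_ne_top hA ENNReal.coe_ne_top
  have hKC : (K : ℝ≥0∞) * K * C ≠ ⊤ :=
    ENNReal.mul_ne_top (ENNReal.mul_ne_top ENNReal.coe_ne_top ENNReal.coe_ne_top) ENNReal.coe_ne_top
  have hl : ∀ s ∈ Ioo 0 t, nu (F s (x - (t - s) • v)) v * F s (x - (t - s) • v) v ≤ A * K := fun s hs =>
    mul_le_mul' (haA s (hsub s hs) _) (hle s (hsub s hs) _ _)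
  have h2 := hfin hAK hl
  have h3 := hfin hKC fun s hs => hqA s (hsub s hs) (x - (t - s) • v)
  have h4 : F0 (x - t • v) v ≠ ⊤ := by
    rw [← h.mild.init hT]
    exact hne 0 ⟨le_rfl, hT⟩ _ _
  have h5 := congrArg ENNReal.toReal h1
  rw [ENNReal.toReal_add (hne t ht x v) h2, ENNReal.toReal_add h4 h3] at h5
  have h6 : ∫ s in Ioo 0 t, Src (toR F) s (x - (t - s) • v) v =
      ∫ s in Ioo 0 t, ((Qp (F s (x - (t - s) • v)) (F s (x - (t - s) • v)) v).toReal -
        (nu (F s (x - (t - s) • v)) v * F s (x - (t - s) • v) v).toReal) := by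
    refine setIntegral_congr_fun measurableSet_Ioo fun s hs => ?_
    have h7 : ofR (toR F) s (x - (t - s) • v) = F s (x - (t - s) • v) :=
      funext fun u => ENNReal.ofReal_toReal (hne s (hsub s hs) _ _)
    unfold Src
    rw [collGain_eq _ _ _ _ fun u => ENNReal.toReal_nonneg, collLoss_eq _ _ _ _ (fun u => ENNReal.toReal_nonneg)
      (hU.of_uncurry_left (x := s)).ennreal_toReal, h7, mul_comm]
  have h7 : ∀ {g : ℝ → ℝ≥0∞}, Measurable g → ∫⁻ s in Ioo 0 t, g s ≠ ⊤ →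
      ∫ s in Ioo 0 t, (g s).toReal = (∫⁻ s in Ioo 0 t, g s).toReal := fun hg hg' =>
    integral_toReal hg.aemeasurable (ae_lt_top hg hg')
  change (F t x v).toReal = (F0 (x - t • v) v).toReal + ∫ s in Ioo 0 t, Src (toR F) s (x - (t - s) • v) v
  rw [h6, integral_sub (integrable_toReal_of_lintegral_ne_top hq.aemeasurable h3)
    (integrable_toReal_of_lintegral_ne_top haf.aemeasurable h2), h7 hq h3, h7 haf h2]
  linarith

theorem Sol.good {F0 : R3 → R3 → ℝ≥0∞} {T : ℝ} {F : Den} (h : Sol F0 T F) (hT : 0 ≤ T)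
    (hp : ∀ t ∈ Icc 0 T, ∀ v, IsPeriodic3 (fun x => F t x v)) :
    ∃ 𝓜, Good (toR2 F0) T (toR F) 𝓜 := by
  obtain ⟨K, hK⟩ := h.bdd
  refine ⟨_, h.mild.1.ennreal_toReal, fun _ _ _ _ => ENNReal.toReal_nonneg,
    fun t ht v x i => congrArg ENNReal.toReal (hp t ht v x i), fun x v => congrArg ENNReal.toReal (h.mild.init hT x v),
    h.plain hT, major_W K T, fun t ht => Eventually.of_forall fun q => ?_⟩
  exact ENNReal.ofReal_toReal_le.trans (hK t ht _ _)


end Crest.Agent.R68
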