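import Crest.Agent.R68.RegL
import Crest.Agent.R68.Upper
import Crest.Agent.R68.Late
import Crest.Agent.R68.LateBeam
import Crest.Agent.R68.Plain
import Crest.Agent.R68.Ent2

/-! Global continuation.  A priori bound for any `Sol (F0 P N σ) T' F`: by `Sol.uniq` it equals `F1` on `[0, min T T']`; `upper` (if `T' ≥ T`) gives `HotLe B B2` on `[0, min t1 T']`; `out1` gives the bound by `Maj` there (`gas ≤ MM ≤ W(1/2) Λ`, `G_mono`), and `Bd_of_hotLe` a bound.
If `T' ≥ t1`: at time `t1`, `Dv F t1 ≤ G N t1 + β W Λ + hole + β M pw 1` (`gas_add_hole`, `adiff_le_iff`); `Sol.good`, `good_entropy`, `ent_L1` give the `L¹` smallness (`toR2 (F t) = toR F t`); apply `late` with `g = G P N t1` (`lateIn_G`, `LateIn.mono`); `t1 ≤ a ≤ √a`.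
The bound with `g = G P N t1` has a finite plane bound on `[t1,T']` (`G_bdd`, `late_PB`: `Eb' ≥ e^{3-2T'}`, `PB_WLam`), so `bdd_of_PB` applies; monotonicity in `g` (`Ds_mono`, `Lam2_mono`) gives `Maj`.  Then `global_of_apriori`. -/

set_option autoImplicit false

open MeasureTheory Set Filter Topology Crest.AnalysisR.VecCalc3 Crest.AnalysisR.PDE.Boltzmann
open scoped ENNReal NNReal

namespace Crest.Agent.R68

namespace Glob

theorem hot_congr {P : Par} {N : ℕ} {B B'' : ℝ≥0∞} {T : ℝ} {F F1 : Den}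
    (e : ∀ t ∈ Icc 0 T, ∀ x v, F t x v = F1 t x v) (h : HotLe P N B B'' 0 T F1) : HotLe P N B B'' 0 T F := by
  intro t ht x v
  have := h t ht x v
  unfold hot at this ⊢
  rwa [e t ht x v]

theorem gas_le_MM (P : Par) (x v : R3) : gas P x v ≤ MM v := by
  rw [← gas_add_hole P x v]; exact le_self_add

theorem Ds_le {t1 s T : ℝ} (h0 : 0 ≤ t1) (hs : s ≤ T) (d : ℝ≥0∞) :
    d ≤ ENNReal.ofReal (Real.exp (2 * T)) * (Eb' (s - t1) * d) := by
  rw [← mul_assoc]
  refine le_mul_of_one_le_left' ?_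
  unfold Eb'
  rw [← ENNReal.ofReal_mul (Real.exp_pos _).le, ← Real.exp_add]
  exact ENNReal.one_le_ofReal.2 (Real.one_le_exp (by linarith))

end Glob

open Glob

theorem globalize : ∃ β H0 K : ℝ≥0, 0 < β ∧ 0 < H0 ∧ ∃ m0 : ℕ, ∀ m, m0 ≤ m → ∃ C : ℝ≥0,
    ∀ {P : Par}, P.Ok → P.m = m → ∀ (N : ℕ) {σ : ℝ≥0} {T t1 : ℝ} {B B'' B2 : ℝ≥0} {F1 : Den},
    P.fl N ≤ P.r → 0 < T → T ≤ t1 → P.r ≤ t1 → P.R * t1 + P.r + 2 * kap * t1 ≤ P.a / 2 → P.a ≤ β → 1 ≤ β * P.R →
    rhoL P t1 ≤ β → C * (ENNReal.ofReal (P.a⁻¹ ^ m) + B'' + B * ENNReal.ofReal (T⁻¹ ^ (m - 1))) ≤ B2 →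
    C * (σ + ENNReal.ofReal P.w + ENNReal.ofReal t1 * (1 + B2) ^ 2) ≤ β →
    relEntropy (toR2 (F0 P N σ)) ≤ H0 → Sol (F0 P N σ) T F1 → HotLe P N B B'' 0 T F1 →
    ∃ F : Den, (∀ T', 0 ≤ T' → Sol (F0 P N σ) T' F) ∧ (∀ t ∈ Icc 0 T, F t = F1 t) ∧
      ∀ t, 0 ≤ t → ∀ x v, F t x v ≤ Maj P t1 K t x v := by
  obtain ⟨CL, hCL⟩ := lateIn_G
  obtain ⟨Kl, β, η, hβ0, hβ1, hη, hlate⟩ := late CL
  obtain ⟨H0, hH0, hent⟩ := ent_L1 hη
  obtain ⟨m0, hm0⟩ := upper
  refine ⟨β, H0, Kl + 2, hβ0, hH0, m0, fun m hm => ?_⟩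
  obtain ⟨Cu, hu⟩ := hm0 m hm
  obtain ⟨Co, ho⟩ := out1 m
  refine ⟨Cu + Co + 1, fun {P} hP hPm N {σ T t1 B B'' B2 F1} hfl hT0 hT hr ha haβ hβR hρ hB2 hC hE hS1 hH1 => ?_⟩
  have hβ1' : (β : ℝ≥0∞) ≤ 1 := by
    have : β ≤ 1 := by
      rw [← NNReal.coe_le_coe]; push_cast; linarith
    exact_mod_cast this
  have ht0 : 0 < t1 := hT0.trans_le hT
  have hkap := kap_pos
  have hta : t1 ≤ P.a := by nlinarith [hP.R1, hP.r0, mul_pos hkap ht0]
  have ha0 : 0 < P.a := ht0.trans_le hta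
  have ht1 : t1 ≤ 1 := by linarith [hP.a1]
  have hfl1 : P.fl N ≤ 1 := hfl.trans (hr.trans ht1)
  have hC1 : (1 : ℝ≥0∞) ≤ ((Cu + Co + 1 : ℝ≥0) : ℝ≥0∞) := by push_cast; exact le_add_self
  have hCu : (Cu : ℝ≥0∞) ≤ ((Cu + Co + 1 : ℝ≥0) : ℝ≥0∞) := by push_cast; exact le_self_add.trans le_self_add
  have hCo : (Co : ℝ≥0∞) ≤ ((Cu + Co + 1 : ℝ≥0) : ℝ≥0∞) := by push_cast; exact le_add_self.trans le_self_add
  have hB2' := (le_mul_of_one_le_left' hC1).trans hB2
  have hBB : (B : ℝ≥0∞) ≤ B2 := by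
    refine le_trans ?_ (le_add_self.trans hB2')
    refine le_mul_of_one_le_right' (ENNReal.one_le_ofReal.2 (one_le_pow₀ ?_))
    exact (one_le_inv₀ hT0).2 (hT.trans ht1)
  have hBB' : (B'' : ℝ≥0∞) ≤ B2 := (le_add_self.trans le_self_add).trans hB2'
  have s4 : (B2 : ℝ≥0∞) ≤ (1 + B2) ^ 2 := le_add_self.trans (le_self_pow₀ le_self_add (by norm_num))
  have hsm : ((Cu + Co + 1 : ℝ≥0) : ℝ≥0∞) * (ENNReal.ofReal t1 * B2) ≤ β := by
    refine le_trans ?_ hC
    gcongr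
    exact (mul_le_mul_right s4 _).trans le_add_self
  -- Step A
  have stepA : ∀ {T' : ℝ} {F : Den}, Sol (F0 P N σ) T' F → HotLe P N B B2 0 (min t1 T') F := by
    intro T' F hS
    rcases le_total T' T with h | h
    · have e := hS.uniq (hS1.mono h)
      exact (hot_congr e (hH1.mono le_rfl hBB' h)).mono le_rfl le_rfl (min_le_right _ _)
    · have e := (hS.mono h).uniq hS1
      refine hu hP hPm N hfl1 hT0 (le_min hT h) ((min_le_left _ _).trans ht1) (hS.mono (min_le_right _ _))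
        (hot_congr e hH1) (le_trans (by gcongr) hB2) ?_
      refine le_trans ?_ (hsm.trans hβ1')
      rw [mul_assoc]
      gcongr
      exact min_le_left _ _
  -- Step B
  have stepB : ∀ {T' : ℝ} {F : Den}, Sol (F0 P N σ) T' F → ∀ t ∈ Icc 0 (min t1 T'), ∀ x v,
      F t x v ≤ G P N t x v + gas P (x - t • v) v + β * (W (1 / 2) v * Lam P t x v) ∧
      gas P (x - t • v) v ≤ F t x v + β * (MM v * pw 1 v) := by
    intro T' F hS t ht x v
    obtain ⟨a1, a2⟩ := ho hP hPm N hfl hr (min_le_left _ _) ht1 ha hBB (hS.mild.mono (min_le_right _ _))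
      (stepA hS) t ht x v
    refine ⟨a1.trans ?_, a2.trans ?_⟩
    · gcongr
      exact le_trans (by gcongr) hC
    · gcongr
      exact le_trans (by gcongr) hsm
  have hg : Meas2 (G P N t1) := (measD_G N).slice t1
  have hgle : ∀ x v, G P N t1 x v ≤ G P ⊤ t1 x v := fun x v => G_mono le_top t1 x v
  have hLI : LateIn CL (rhoL P t1) t1 (G P N t1) (Lam P t1) := (hCL hP ht0 ht1).mono hg hgle
  have hρ0 : rhoL P t1 ≠ 0 := by
    unfold rhoL
    have := hP.r0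
    have := hP.eta0
    exact (ENNReal.ofReal_pos.2 (by positivity)).ne'
  -- Step C
  have stepC : ∀ {T' : ℝ} {F : Den}, Sol (F0 P N σ) T' F → ∀ t ∈ Icc t1 T', ∀ x v,
      F t x v ≤ tr t1 (G P N t1) t x v + Kl * Ds t1 (G P N t1) t x v +
        Kl * (W (1 / 2) v * Lam2 t1 (rhoL P t1) (G P N t1) (Lam P t1) t x v) := by
    intro T' F hS t ht
    have hT' : t1 ≤ T' := ht.1.trans ht.2
    have hper := (hS.inv fun x v => by rw [F0_hat]).per
    refine hlate hS hper hρ0 hρ hLI ha0 haβ hβR ht0.le ?_ (fun x v => ?_) (fun s hs => ?_) t ht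
    · refine hta.trans ?_
      rw [Real.le_sqrt ha0.le ha0.le]
      nlinarith [hP.a1]
    · obtain ⟨a1, a2⟩ := stepB hS t1 ⟨ht0.le, le_min le_rfl hT'⟩ x v
      unfold Dv
      rw [adiff_le_iff]
      constructor
      · refine a1.trans ?_
        calc _ = gas P (x - t1 • v) v + (G P N t1 x v + β * (W (1 / 2) v * Lam P t1 x v)) := by ring
          _ ≤ _ := add_le_add (gas_le_MM P _ v) (le_self_add.trans le_self_add)
      · calc MM v = gas P (x - t1 • v) v + hole P.a P.R (x - t1 • v) v := (gas_add_hole P _ v).symm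
          _ ≤ F t1 x v + β * (MM v * pw 1 v) + hole P.a P.R (x - t1 • v) v := by gcongr
          _ = F t1 x v + (hole P.a P.R (x - t1 • v) v + β * (MM v * pw 1 v)) := by ring
          _ ≤ _ := by
            gcongr
            exact le_add_self
    · obtain ⟨𝓜, hG⟩ := hS.good (ht0.le.trans hT') hper
      have hs' : s ∈ Icc 0 T' := ⟨ht0.le.trans hs.1, hs.2⟩
      obtain ⟨K, hK⟩ := hS.bdd
      refine hent (hS.mild.1.slice s) (fun x v => ?_) ((le_self_add.trans (good_entropy hG hs')).trans hE)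
      exact ne_top_of_le_ne_top (ENNReal.mul_ne_top ENNReal.coe_ne_top ENNReal.ofReal_ne_top) (hK s hs' x v)
  -- Step D
  obtain ⟨K0, hK0⟩ := F0_bdd hP N (1 / 2) σ
  have stepD : ∀ T'', 0 ≤ T'' → ∃ K : ℝ≥0, ∀ T' ∈ Icc 0 T'', ∀ F, Sol (F0 P N σ) T' F → Bd (1 / 2) K T' F := by
    intro T'' _
    obtain ⟨Kb, hKb⟩ := Bd_of_hotLe hP N hfl1 σ B B2
    obtain ⟨KG, hKG⟩ := G_bdd hP N (1 / 2)
    obtain ⟨C', -, hC'⟩ := late_PB CL
    obtain ⟨C2, h2⟩ := PB_WLam
    have hρt : rhoL P t1 ≠ ⊤ := ne_top_of_le_ne_top ENNReal.coe_ne_top hρ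
    set c : ℝ≥0∞ := ENNReal.ofReal (4 * Real.exp (1 / 2)) with hc
    set A : ℝ≥0∞ := Kb * c + (KG * c + Kl * (ENNReal.ofReal (Real.exp (2 * T'')) * (C' * rhoL P t1 ^ 2)) +
      Kl * (C2 * (C' : ℝ≥0∞) ^ (2 / 3 : ℝ))) with hA
    have hAt : A ≠ ⊤ := by
      have : (C' : ℝ≥0∞) ^ (2 / 3 : ℝ) ≠ ⊤ := ENNReal.rpow_ne_top_of_nonneg (by norm_num) ENNReal.coe_ne_top
      have hc' : c ≠ ⊤ := ENNReal.ofReal_ne_top
      rw [hA]
      finiteness
    obtain ⟨K', hK'⟩ := bdd_of_PB K0 A.toNNReal T''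
    refine ⟨K', fun T' hT' F hS => hK' hT'.2 hS.mild (hK0 σ le_rfl) fun s hs x => ?_⟩
    rw [ENNReal.coe_toNNReal hAt]
    have pW : ∀ k : ℝ≥0∞, PB (fun a => k * W (1 / 2) a) (fun y => k * (c * ew (1 / 2) y)) := fun k =>
      (PB_W (lam := 1 / 2) (by norm_num)).cmul (measurable_W _) k
    rcases le_total s t1 with h | h
    · have b := hKb le_rfl ((min_le_left _ _).trans ht1) (hS.mild.mono (min_le_right t1 T')) (stepA hS)
      refine (pW Kb).mono (fun a => b s ⟨hs.1, le_min h hs.2⟩ x a) fun y _ => ?_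
      rw [← mul_assoc]
      gcongr
      exact le_self_add
    · obtain ⟨p1, p2, -, -⟩ := hC' hρ0 hρt hLI s h x
      have m1 : Measurable (Ds t1 (G P N t1) s x) := (measD_Ds t1 hg).vel s x
      have m2 : Measurable (Lam2 t1 (rhoL P t1) (G P N t1) (Lam P t1) s x) :=
        (measD_Lam2 t1 _ hg (measD_Lam.slice t1)).vel s x
      have q2 := (p2.cmul (m1.const_mul _) (ENNReal.ofReal (Real.exp (2 * T'')))).cmul
        ((m1.const_mul _).const_mul _) Kl
      have q3 := (h2 m2 p1).cmul ((measurable_W _).mul m2) Kl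
      have q := ((pW KG).add ((measurable_W _).const_mul _) q2).add
        (((measurable_W _).const_mul _).add (((m1.const_mul _).const_mul _).const_mul _)) q3
      refine q.mono (fun a => (stepC hS s ⟨h, hs.2⟩ x a).trans ?_) fun y _ => ?_
      · exact add_le_add (add_le_add (hKG t1 ⟨ht0.le, ht1⟩ _ a)
          (mul_le_mul' le_rfl (Ds_le ht0.le (hs.2.trans hT'.2) _))) le_rfl
      · refine le_trans (le_of_eq ?_) (mul_le_mul_left (le_add_self (a := _) (b := Kb * c)) _)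
        ring
  -- Step E
  obtain ⟨F, hF⟩ := global_of_apriori (meas2_F0 N σ) (hK0 σ le_rfl) stepD
  refine ⟨F, hF, fun t ht => ?_, fun t ht x v => ?_⟩
  · funext x v
    exact (hF T hT0.le).uniq hS1 t ht x v
  · unfold Maj
    split_ifs with h
    · refine (stepB (hF t ht) t ⟨ht, le_min h le_rfl⟩ x v).1.trans ?_
      rw [add_assoc]
      refine add_le_add (G_mono le_top t x v) ?_
      have b1 : gas P (x - t • v) v ≤ 1 * (W (1 / 2) v * Lam P t x v) := by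
        rw [one_mul]
        exact (gas_le_MM P _ v).trans ((DevMild.MM_le v).trans (le_mul_of_one_le_right' (one_le_Lam t x v)))
      refine (add_le_add b1 (mul_le_mul_left hβ1' _)).trans ?_
      rw [← add_mul, one_add_one_eq_two]
      gcongr
      push_cast
      exact le_add_self
    · refine (stepC (hF t ht) t ⟨(not_le.1 h).le, le_rfl⟩ x v).trans ?_
      have hK : (Kl : ℝ≥0∞) ≤ ((Kl + 2 : ℝ≥0) : ℝ≥0∞) := by push_cast; exact le_self_add
      refine add_le_add (add_le_add (hgle _ _) (mul_le_mul' hK (Ds_mono hgle t x v))) ?_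
      exact mul_le_mul' hK (mul_le_mul' le_rfl (Lam2_mono hgle t x v))

end Crest.Agent.R68
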