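import Crest.Agent.R68.Shear

/-! `L¹(cell × R3)`-continuity of the shear `τ ↦ f(x - τ v, v)` for periodic integrable `f`.
Suggested proof: `g = f · 1_{cell × univ} ∈ L¹(R3 × R3)`; `L¹`-continuity of the shear on the whole space via
`Filter.Tendsto.compMeasurePreservingLp` + `measurePreserving_shear` + `Lp.tendsto_Lp_iff_tendsto_eLpNorm'`;
unfold over the lattice `ℤ³` (`f y = ∑' j, g (y + j)`, see the proof of `lintegral_cell_translate`, `per_int`):
`∫_{cell × univ} ‖f(x - τ v, v) - f(x, v)‖ ≤ ∫_{R3 × R3} ‖g(x - τ v, v) - g(x, v)‖`. -/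

set_option autoImplicit false

open MeasureTheory Set Filter Topology Crest.AnalysisR.VecCalc3 Crest.AnalysisR.PDE.Boltzmann
open scoped ENNReal NNReal

namespace Crest.Agent.R68

theorem GoodBT.whole {g : R3 × R3 → ℝ} (hi : Integrable g volume) :
    Tendsto (fun τ : ℝ => ∫⁻ q : R3 × R3, ‖g (q.1 - τ • q.2, q.2) - g q‖ₑ) (𝓝 0) (𝓝 0) := by
  have hm : MemLp g 1 volume := memLp_one_iff_integrable.2 hi
  let S : C(ℝ × (R3 × R3), R3 × R3) := ⟨fun p => (p.2.1 - p.1 • p.2.2, p.2.2), by fun_prop⟩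
  have hS : ∀ τ, MeasurePreserving (S.curry τ) volume volume := fun τ => measurePreserving_shear τ
  have h1 := Filter.Tendsto.compMeasurePreservingLp (p := 1) (f := fun _ : ℝ => hm.toLp g) (l := 𝓝 0)
    tendsto_const_nhds (S.curry.continuous.tendsto 0) hS (hS 0) ENNReal.one_ne_top
  rw [Lp.tendsto_Lp_iff_tendsto_eLpNorm'] at h1
  refine h1.congr fun τ => ?_
  rw [eLpNorm_one_eq_lintegral_enorm]
  refine lintegral_congr_ae ?_
  have h2 : ∀ σ, (Lp.compMeasurePreserving (S.curry σ) (hS σ) (hm.toLp g) : R3 × R3 → ℝ) =ᵐ[volume]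
      g ∘ S.curry σ := fun σ =>
    (Lp.coeFn_compMeasurePreserving _ _).trans ((hS σ).quasiMeasurePreserving.ae_eq_comp hm.coeFn_toLp)
  filter_upwards [h2 τ, h2 0] with q a b
  simp only [Pi.sub_apply, a, b, Function.comp]
  simp [S]

theorem transl_cont {f : R3 → R3 → ℝ} (hf : Measurable (fun q : R3 × R3 => f q.1 q.2))
    (hp : ∀ v, IsPeriodic3 (fun x => f x v))
    (hi : IntegrableOn (fun q : R3 × R3 => f q.1 q.2) (cell ×ˢ (univ : Set R3))) :
    Tendsto (fun τ : ℝ => ∫⁻ q in cell ×ˢ (univ : Set R3), ‖f (q.1 - τ • q.2) q.2 - f q.1 q.2‖ₑ)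
      (𝓝 0) (𝓝 0) := by
  set A : Set (R3 × R3) := cell ×ˢ (univ : Set R3) with hA
  have mA : MeasurableSet A := measurableSet_cell.prod MeasurableSet.univ
  set F : R3 × R3 → ℝ := fun q => f q.1 q.2 with hF
  have gi : Integrable (A.indicator F) volume := (integrable_indicator_iff mA).2 hi
  have mg : Measurable (A.indicator F) := hf.indicator mA
  refine tendsto_of_tendsto_of_tendsto_of_le_of_le tendsto_const_nhds (GoodBT.whole gi)
    (fun _ => zero_le) fun τ => ?_
  set s : R3 × R3 → R3 × R3 := fun q => (q.1 - τ • q.2, q.2) with hs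
  have ms : Measurable s := (measurePreserving_shear τ).measurable
  have e1 : ∫⁻ q in A, ‖F (s q)‖ₑ = ∫⁻ q in A, ‖F q‖ₑ :=
    lintegral_shear (f := fun x v => ‖f x v‖ₑ) hf.enorm (fun v x i => congrArg (‖·‖ₑ) (hp v x i)) τ
  have e2 : ∫⁻ q in A, ‖F q‖ₑ = ∫⁻ q, ‖A.indicator F (s q)‖ₑ := by
    rw [(measurePreserving_shear τ).lintegral_comp (f := fun q => ‖A.indicator F q‖ₑ) mg.enorm,
      ← lintegral_indicator mA]
    refine lintegral_congr fun q => ?_
    by_cases h : q ∈ A <;> simp [h]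
  have e3 : ∫⁻ q in A, ‖F (s q)‖ₑ =
      (∫⁻ q in A, ‖A.indicator F (s q)‖ₑ) + ∫⁻ q in A, ‖Aᶜ.indicator F (s q)‖ₑ := by
    rw [← lintegral_add_left (f := fun q => ‖A.indicator F (s q)‖ₑ) (mg.comp ms).enorm]
    refine lintegral_congr fun q => ?_
    by_cases h : s q ∈ A <;> simp [h]
  have e4 : ∫⁻ q in A, ‖A.indicator F (s q)‖ₑ ≠ ⊤ := by
    refine ne_top_of_le_ne_top ?_ (setLIntegral_le_lintegral _ _)
    rw [← e2]
    exact hi.2.ne
  have e5 : ∫⁻ q in A, ‖Aᶜ.indicator F (s q)‖ₑ = ∫⁻ q in Aᶜ, ‖A.indicator F (s q)‖ₑ := by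
    rw [← ENNReal.add_right_inj e4, ← e3, e1, e2, lintegral_add_compl _ mA]
  calc ∫⁻ q in A, ‖F (s q) - F q‖ₑ
      ≤ ∫⁻ q in A, (‖A.indicator F (s q) - A.indicator F q‖ₑ + ‖Aᶜ.indicator F (s q)‖ₑ) := by
        refine setLIntegral_mono' mA fun q hq => ?_
        by_cases h : s q ∈ A
        · simp [h, hq]
        · simp only [indicator_of_notMem h, indicator_of_mem hq, indicator_of_mem (mem_compl h), zero_sub,
            enorm_neg]
          rw [add_comm]
          exact enorm_sub_le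
    _ = (∫⁻ q in A, ‖A.indicator F (s q) - A.indicator F q‖ₑ) +
          ∫⁻ q in Aᶜ, ‖A.indicator F (s q) - A.indicator F q‖ₑ := by
        rw [lintegral_add_left (f := fun q => ‖A.indicator F (s q) - A.indicator F q‖ₑ)
          ((mg.comp ms).sub mg).enorm, e5]
        congr 1
        refine setLIntegral_congr_fun mA.compl fun q hq => ?_
        simp [indicator_of_notMem hq]
    _ = _ := lintegral_add_compl _ mA

end Crest.Agent.R68
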