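import Crest.Agent.R68.Shear
import Crest.Agent.R68.GoodBT
import Crest.Agent.R68.PrePost

/-! Basic consequences of `Good`: integrability of gain and loss with weights, `L¹` bounds and continuity.
`collLoss ≤ 𝓜 nu 𝓜` a.e.; the gain by `gain_moment` for a.e. `(t,x)`.  For continuity:
`F t - F s = (F0♯(t) - F0♯(s)) + (∫_0^t S♯ - ∫_0^s S♯)`; translations `τ ↦ f(x - τ v, v)` are continuous in `L¹(cell × R3)` for periodic integrable `f`
(approximate by continuous periodic functions of compact `v`-support, or use `Lp` continuity of measure preserving actions,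
e.g. `MeasureTheory.Lp.compMeasurePreserving_continuous` / `ContinuousMap.tendsto...`); then dominated convergence in the time variable. -/

set_option autoImplicit false

open MeasureTheory Set Filter Topology Crest.AnalysisR.VecCalc3 Crest.AnalysisR.PDE.Boltzmann
open scoped ENNReal NNReal

namespace Crest.Agent.R68

variable {F0 : R3 → R3 → ℝ} {T : ℝ} {F : ℝ → R3 → R3 → ℝ} {𝓜 : Den}

namespace GoodX

theorem mcomp {α : Type} [MeasurableSpace α] {F : ℝ → R3 → R3 → ℝ}
    (hF : Measurable (fun p : ℝ × R3 × R3 => F p.1 p.2.1 p.2.2)) {t : α → ℝ} {x v : α → R3} (ht : Measurable t)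
    (hx : Measurable x) (hv : Measurable v) : Measurable (fun a => F (t a) (x a) (v a)) := by
  have := hF.comp (ht.prodMk (hx.prodMk hv))
  exact this

theorem lint2 {G : R3 × R3 → ℝ≥0∞} (hG : Measurable G) :
    ∫⁻ q in cell ×ˢ (univ : Set R3), G q = ∫⁻ x in cell, ∫⁻ v, G (x, v) := by
  rw [Measure.volume_eq_prod, ← Measure.prod_restrict, Measure.restrict_univ, lintegral_prod _ hG.aemeasurable]

theorem lint3 {G : ℝ × R3 × R3 → ℝ≥0∞} (hG : Measurable G) (S : Set ℝ) :
    ∫⁻ p in S ×ˢ (cell ×ˢ (univ : Set R3)), G p = ∫⁻ t in S, ∫⁻ q in cell ×ˢ (univ : Set R3), G (t, q) := by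
  rw [Measure.volume_eq_prod, ← Measure.prod_restrict, lintegral_prod _ hG.aemeasurable]

theorem lint3' {G : ℝ × R3 × R3 → ℝ≥0∞} (hG : Measurable G) (S : Set ℝ) :
    ∫⁻ p in S ×ˢ (cell ×ˢ (univ : Set R3)), G p = ∫⁻ t in S, ∫⁻ x in cell, ∫⁻ v, G (t, x, v) := by
  rw [lint3 hG]
  exact lintegral_congr fun t => lint2 (G := fun q => G (t, q)) (hG.comp measurable_prodMk_left)

theorem one_le_pw (k : ℕ) (v : R3) : 1 ≤ pw k v := by
  unfold pw
  rw [← ENNReal.ofReal_one]
  exact ENNReal.ofReal_le_ofReal (one_le_pow₀ (by linarith [norm_nonneg v]))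

theorem meas_lp : Measurable lp := by
  unfold lp
  exact ENNReal.measurable_ofReal.comp (Real.measurable_log.comp ENNReal.measurable_toReal)

end GoodX
open GoodX

theorem Good.meas0 (h : Good F0 T F 𝓜) : Measurable (fun q : R3 × R3 => F0 q.1 q.2) := by
  have := mcomp h.meas (t := fun _ : R3 × R3 => (0 : ℝ)) measurable_const measurable_fst measurable_snd
  simpa only [h.init] using this

theorem Good.meas_gain (h : Good F0 T F 𝓜) :
    Measurable (fun p : ℝ × R3 × R3 => collGain F p.1 p.2.1 p.2.2) := by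
  unfold collGain
  refine Measurable.lintegral_prod_right' (f := fun r : (ℝ × R3 × R3) × R3 => ∫⁻ w, ENNReal.ofReal
    (|inner ℝ (r.1.2.2 - r.2) w| * F r.1.1 r.1.2.1 (postVel r.1.2.2 r.2 w) *
      F r.1.1 r.1.2.1 (postVelStar r.1.2.2 r.2 w)) ∂sphereMeasure) ?_
  refine Measurable.lintegral_prod_right' (f := fun s : ((ℝ × R3 × R3) × R3) × R3 => ENNReal.ofReal
    (|inner ℝ (s.1.1.2.2 - s.1.2) s.2| * F s.1.1.1 s.1.1.2.1 (postVel s.1.1.2.2 s.1.2 s.2) *
      F s.1.1.1 s.1.1.2.1 (postVelStar s.1.1.2.2 s.1.2 s.2))) ?_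
  refine ENNReal.measurable_ofReal.comp (Measurable.mul (Measurable.mul (by fun_prop) ?_) ?_)
  · exact mcomp h.meas (by fun_prop) (by fun_prop) (by unfold postVel; fun_prop)
  · exact mcomp h.meas (by fun_prop) (by fun_prop) (by unfold postVelStar; fun_prop)

theorem Good.meas_loss (h : Good F0 T F 𝓜) :
    Measurable (fun p : ℝ × R3 × R3 => collLoss F p.1 p.2.1 p.2.2) := by
  unfold collLoss
  refine Measurable.lintegral_prod_right' (f := fun r : (ℝ × R3 × R3) × R3 => ∫⁻ w, ENNReal.ofReal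
    (|inner ℝ (r.1.2.2 - r.2) w| * F r.1.1 r.1.2.1 r.1.2.2 * F r.1.1 r.1.2.1 r.2) ∂sphereMeasure) ?_
  refine Measurable.lintegral_prod_right' (f := fun s : ((ℝ × R3 × R3) × R3) × R3 => ENNReal.ofReal
    (|inner ℝ (s.1.1.2.2 - s.1.2) s.2| * F s.1.1.1 s.1.1.2.1 s.1.1.2.2 * F s.1.1.1 s.1.1.2.1 s.1.2)) ?_
  refine ENNReal.measurable_ofReal.comp (Measurable.mul (Measurable.mul (by fun_prop) ?_) ?_)
  · exact mcomp h.meas (by fun_prop) (by fun_prop) (by fun_prop)
  · exact mcomp h.meas (by fun_prop) (by fun_prop) (by fun_prop)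

theorem Good.meas_src' (h : Good F0 T F 𝓜) :
    Measurable (fun p : ℝ × R3 × R3 => Src F p.1 p.2.1 p.2.2) :=
  h.meas_gain.ennreal_toReal.sub h.meas_loss.ennreal_toReal

theorem Good.per_src (h : Good F0 T F 𝓜) : ∀ t ∈ Icc 0 T, ∀ v, IsPeriodic3 (fun x => Src F t x v) := by
  intro t ht v x i
  have h1 : F t (x + EuclideanSpace.single i 1) = F t x := funext fun u => h.per t ht u x i
  simp only [Src, collGain, collLoss, h1]

theorem GoodX.slice (h : Good F0 T F 𝓜) (k : ℕ) {t : ℝ} (ht : 0 ≤ t) {x : R3}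
    (hle : ∀ᵐ v : R3, ENNReal.ofReal (F t x v) ≤ 𝓜 t x v) :
    ∫⁻ v, pw k v * (collGain F t x v + collLoss F t x v) ≤
      2 * ∫⁻ v, 𝓜 t x v * (pw k v * (1 + lp (𝓜 t x v))) * nu (fun vs => 𝓜 t x vs * pw k vs) v := by
  have hFm : Measurable (F t x) := mcomp h.meas measurable_const measurable_const measurable_id
  have hf : Measurable (ofR F t x) := ENNReal.measurable_ofReal.comp hFm
  have h0 : ∀ u, 0 ≤ F t x u := fun u => h.nonneg t x u ht
  have hQ : Measurable (fun v => Qp (ofR F t x) (ofR F t x) v * pw k v) :=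
    (meas_Qp (f := fun _ : R3 => ofR F t x) (h := fun _ : R3 => ofR F t x) (v := fun v => v)
      (hf.comp measurable_snd) (hf.comp measurable_snd) measurable_id).mul (measurable_pw k)
  set B := ∫⁻ v, 𝓜 t x v * (pw k v * (1 + lp (𝓜 t x v))) * nu (fun vs => 𝓜 t x vs * pw k vs) v with hB
  have hnu : ∀ v, nu (fun a => ofR F t x a * pw k a) v ≤ nu (fun vs => 𝓜 t x vs * pw k vs) v := by
    intro v
    unfold nu
    refine lintegral_mono_ae (hle.mono fun a ha => ?_)
    exact mul_le_mul' le_rfl (mul_le_mul' ha le_rfl)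
  have hA : ∫⁻ v, ofR F t x v * pw k v * nu (fun a => ofR F t x a * pw k a) v ≤ B := by
    refine lintegral_mono_ae (hle.mono fun v hv => ?_)
    refine mul_le_mul' (mul_le_mul' hv ?_) (hnu v)
    exact le_mul_of_one_le_right' le_self_add
  have hL : ∫⁻ v, pw k v * (ofR F t x v * nu (ofR F t x) v) ≤ B := by
    refine le_trans (lintegral_mono fun v => ?_) hA
    rw [← mul_assoc, mul_comm (pw k v)]
    exact mul_le_mul' le_rfl (nu_mono (fun a => le_mul_of_one_le_right' (one_le_pw k a)) v)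
  have hG := (gain_moment hf k).trans hA
  calc ∫⁻ v, pw k v * (collGain F t x v + collLoss F t x v)
      = ∫⁻ v, (Qp (ofR F t x) (ofR F t x) v * pw k v + pw k v * (ofR F t x v * nu (ofR F t x) v)) := by
        refine lintegral_congr fun v => ?_
        rw [collGain_eq F t x v h0, collLoss_eq F t x v h0 hFm, mul_add, mul_comm (pw k v)]
    _ = (∫⁻ v, Qp (ofR F t x) (ofR F t x) v * pw k v) + ∫⁻ v, pw k v * (ofR F t x v * nu (ofR F t x) v) :=
        lintegral_add_left hQ _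
    _ ≤ B + B := add_le_add hG hL
    _ = 2 * B := (two_mul B).symm

theorem Good.coll_weight (h : Good F0 T F 𝓜) (k : ℕ) :
    ∫⁻ p in Ioo 0 T ×ˢ (cell ×ˢ (univ : Set R3)), pw k p.2.2 *
      (collGain F p.1 p.2.1 p.2.2 + collLoss F p.1 p.2.1 p.2.2) < ⊤ := by
  have hM := h.major.meas
  have m1 : Measurable fun p : ℝ × R3 × R3 => pw k p.2.2 *
      (collGain F p.1 p.2.1 p.2.2 + collLoss F p.1 p.2.1 p.2.2) :=
    ((measurable_pw k).comp measurable_snd.snd).mul (h.meas_gain.add h.meas_loss)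
  have m2 : Measurable fun p : ℝ × R3 × R3 => 𝓜 p.1 p.2.1 p.2.2 * (pw k p.2.2 * (1 + lp (𝓜 p.1 p.2.1 p.2.2))) *
      nu (fun vs => 𝓜 p.1 p.2.1 vs * pw k vs) p.2.2 := by
    refine (Measurable.mul hM (((measurable_pw k).comp measurable_snd.snd).mul
      (measurable_const.add (meas_lp.comp hM)))).mul ?_
    refine meas_nu (f := fun (p : ℝ × R3 × R3) vs => 𝓜 p.1 p.2.1 vs * pw k vs) ?_ measurable_snd.snd
    have h1 : Measurable fun r : (ℝ × R3 × R3) × R3 => 𝓜 r.1.1 r.1.2.1 r.2 * pw k r.2 :=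
      (hM.comp (by fun_prop) (by fun_prop) (by fun_prop)).mul ((measurable_pw k).comp measurable_snd)
    exact h1
  refine lt_of_le_of_lt ?_ (ENNReal.mul_lt_top (ENNReal.ofNat_lt_top (n := 2)) (h.major.m2 k))
  rw [lint3' m1, lint3' m2, ← lintegral_const_mul' _ _ ENNReal.ofNat_ne_top]
  refine setLIntegral_mono' measurableSet_Ioo fun t ht => ?_
  rw [← lintegral_const_mul' _ _ ENNReal.ofNat_ne_top]
  have hle := h.le t ⟨ht.1.le, ht.2.le⟩
  rw [Measure.volume_eq_prod] at hle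
  refine lintegral_mono_ae (ae_restrict_of_ae ((Measure.ae_ae_of_ae_prod hle).mono fun x hx => ?_))
  exact GoodX.slice h k ht.1.le hx

theorem Good.src_integrable (h : Good F0 T F 𝓜) (k : ℕ) :
    IntegrableOn (fun p : ℝ × R3 × R3 => (1 + ‖p.2.2‖) ^ k * Src F p.1 p.2.1 p.2.2)
      (Ioo 0 T ×ˢ (cell ×ˢ (univ : Set R3))) := by
  refine ⟨(Measurable.mul (by fun_prop) h.meas_src').aestronglyMeasurable, ?_⟩
  refine lt_of_le_of_lt (lintegral_mono fun p => ?_) (h.coll_weight k)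
  rw [enorm_mul]
  refine mul_le_mul' (le_of_eq ?_) ?_
  · rw [Real.enorm_of_nonneg (by positivity)]; rfl
  · unfold Src
    refine enorm_sub_le.trans (add_le_add ?_ ?_) <;>
    · rw [Real.enorm_of_nonneg ENNReal.toReal_nonneg]
      exact ENNReal.ofReal_toReal_le

theorem Good.integrable (h : Good F0 T F 𝓜) : ∀ t ∈ Icc 0 T,
    IntegrableOn (fun q : R3 × R3 => (1 + ‖q.2‖) ^ 2 * F t q.1 q.2) (cell ×ˢ (univ : Set R3)) := by
  intro t ht
  obtain ⟨C, hC, hm⟩ := h.major.m1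
  refine ⟨(Measurable.mul (by fun_prop)
    (mcomp h.meas measurable_const measurable_fst measurable_snd)).aestronglyMeasurable, ?_⟩
  refine lt_of_le_of_lt (le_trans (lintegral_mono_ae (ae_restrict_of_ae ((h.le t ht).mono fun q hq => ?_)))
    (hm t ht)) hC
  rw [enorm_mul, Real.enorm_of_nonneg (by positivity), Real.enorm_of_nonneg (h.nonneg t _ _ ht.1), mul_comm]
  exact mul_le_mul' hq le_self_add

theorem GoodX.real_ineq {z m r : ℝ} (hz : 0 ≤ z) (hm : z ≤ m) (hr : 0 ≤ r) :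
    z * (1 + r ^ 2 + |Real.log z|) ≤ 2 * (m * ((1 + r) ^ 2 + max (Real.log m) 0)) + Real.exp (-r ^ 2) := by
  have hm0 : 0 ≤ m := hz.trans hm
  have hmax : 0 ≤ max (Real.log m) 0 := le_max_right _ _
  have he := Real.exp_pos (-r ^ 2)
  have h1 : z * (1 + r ^ 2) ≤ m * (1 + r) ^ 2 := mul_le_mul hm (by nlinarith) (by positivity) hm0
  have h2 : z * r ^ 2 ≤ m * (1 + r) ^ 2 := mul_le_mul hm (by nlinarith) (by positivity) hm0
  have h3 : 0 ≤ m * max (Real.log m) 0 := mul_nonneg hm0 hmax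
  have h4 : 0 ≤ m * (1 + r) ^ 2 := by positivity
  rcases hz.eq_or_lt with h0 | h0
  · rw [← h0, zero_mul]; positivity
  rcases le_total 0 (Real.log z) with hl | hl
  · rw [abs_of_nonneg hl]
    have h5 : z * Real.log z ≤ m * max (Real.log m) 0 :=
      mul_le_mul hm ((Real.log_le_log h0 hm).trans (le_max_left _ _)) hl hm0
    nlinarith
  · rw [abs_of_nonpos hl]
    have h5 := Real.log_le_sub_one_of_pos (div_pos he h0)
    rw [Real.log_div he.ne' h0.ne', Real.log_exp] at h5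
    have h6 := mul_le_mul_of_nonneg_left h5 h0.le
    rw [mul_sub z (_ / _), mul_div_cancel₀ _ h0.ne'] at h6
    nlinarith

theorem GoodX.gauss_fin : ∫⁻ ζ : R3, ENNReal.ofReal (Real.exp (-‖ζ‖ ^ 2)) < ⊤ := by
  have h1 := GaussianFourier.integral_rexp_neg_mul_sq_norm (V := R3) (b := 1) one_pos
  have h2 : Integrable (fun ζ : R3 => Real.exp (-1 * ‖ζ‖ ^ 2)) :=
    Integrable.of_integral_ne_zero (by rw [h1]; positivity)
  have h3 := h2.lintegral_lt_top
  simpa only [neg_mul, one_mul] using h3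

/-- mass, energy and entropy are bounded (`z log⁻ z ≤ z ‖v‖² + e^{-‖v‖²/2}·const`) -/
theorem Good.mee (h : Good F0 T F 𝓜) : ∃ C : ℝ≥0∞, C < ⊤ ∧ ∀ t ∈ Icc 0 T,
    (∫⁻ q in cell ×ˢ (univ : Set R3),
      ENNReal.ofReal (F t q.1 q.2 * (1 + ‖q.2‖ ^ 2 + |Real.log (F t q.1 q.2)|))) ≤ C := by
  obtain ⟨C, hC, hm⟩ := h.major.m1
  refine ⟨(∫⁻ ζ : R3, ENNReal.ofReal (Real.exp (-‖ζ‖ ^ 2))) + 2 * C,
    ENNReal.add_lt_top.2 ⟨GoodX.gauss_fin, ENNReal.mul_lt_top ENNReal.ofNat_lt_top hC⟩, fun t ht => ?_⟩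
  have mg : Measurable fun q : R3 × R3 => ENNReal.ofReal (Real.exp (-‖q.2‖ ^ 2)) := by fun_prop
  calc _ ≤ ∫⁻ q in cell ×ˢ (univ : Set R3), (ENNReal.ofReal (Real.exp (-‖q.2‖ ^ 2)) +
        2 * (𝓜 t q.1 q.2 * (pw 2 q.2 + lp (𝓜 t q.1 q.2)))) := by
        refine lintegral_mono_ae (ae_restrict_of_ae ((h.le t ht).mono fun q hq => ?_))
        by_cases hT : 𝓜 t q.1 q.2 = ⊤
        · rw [hT, ENNReal.top_mul (ne_of_gt (lt_of_lt_of_le one_pos ((one_le_pw 2 _).trans le_self_add)))]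
          simp
        · have hz := h.nonneg t q.1 q.2 ht.1
          have h1 := GoodX.real_ineq hz ((ENNReal.ofReal_le_iff_le_toReal hT).1 hq) (norm_nonneg q.2)
          refine (ENNReal.ofReal_le_ofReal h1).trans (le_of_eq ?_)
          have hmax : 0 ≤ max (Real.log (𝓜 t q.1 q.2).toReal) 0 := le_max_right _ _
          rw [ENNReal.ofReal_add (by positivity) (Real.exp_pos _).le, add_comm, ENNReal.ofReal_mul (by norm_num),
            ENNReal.ofReal_mul ENNReal.toReal_nonneg, ENNReal.ofReal_add (by positivity) hmax,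
            ENNReal.ofReal_toReal hT, ENNReal.ofReal_max, ENNReal.ofReal_ofNat]
          simp [pw, lp]
    _ = (∫⁻ q in cell ×ˢ (univ : Set R3), ENNReal.ofReal (Real.exp (-‖q.2‖ ^ 2))) +
        2 * ∫⁻ q in cell ×ˢ (univ : Set R3), 𝓜 t q.1 q.2 * (pw 2 q.2 + lp (𝓜 t q.1 q.2)) := by
        rw [lintegral_add_left mg, lintegral_const_mul' _ _ ENNReal.ofNat_ne_top]
    _ ≤ _ := by
        refine add_le_add (le_of_eq ?_) (mul_le_mul' le_rfl (hm t ht))
        rw [lint2 mg]
        simp [volume_cell]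

theorem GoodX.enorm_int_sub {α : Type} [MeasurableSpace α] {μ : Measure α} {a b : α → ℝ} (ha : Measurable a)
    (hb : Measurable b) : ‖(∫ x, a x ∂μ) - ∫ x, b x ∂μ‖ₑ ≤ ∫⁻ x, ‖a x - b x‖ₑ ∂μ := by
  by_cases hab : Integrable (fun x => a x - b x) μ
  · by_cases h1 : Integrable a μ
    · have h2 : Integrable b μ := by
        have := h1.sub hab
        refine this.congr (Eventually.of_forall fun x => ?_)
        simp
      rw [← integral_sub h1 h2]
      exact enorm_integral_le_lintegral_enorm _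
    · have h2 : ¬ Integrable b μ := fun h2 => h1 <| by
        have := hab.add h2
        refine this.congr (Eventually.of_forall fun x => ?_)
        simp
      rw [integral_undef h1, integral_undef h2]
      simp
  · have : ∫⁻ x, ‖a x - b x‖ₑ ∂μ = ⊤ := by
      by_contra hne
      exact hab ⟨(ha.sub hb).aestronglyMeasurable, lt_top_iff_ne_top.2 hne⟩
    rw [this]
    exact le_top

theorem GoodX.mcomp2 {α : Type} [MeasurableSpace α] {f : R3 → R3 → ℝ}
    (hf : Measurable (fun q : R3 × R3 => f q.1 q.2)) {x v : α → R3}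
    (hx : Measurable x) (hv : Measurable v) : Measurable (fun a => f (x a) (v a)) := by
  have := hf.comp (hx.prodMk hv)
  exact this

theorem GoodX.shift2 {f : R3 → R3 → ℝ} (hf : Measurable (fun q : R3 × R3 => f q.1 q.2))
    (hp : ∀ v, IsPeriodic3 (fun x => f x v))
    (hi : IntegrableOn (fun q : R3 × R3 => f q.1 q.2) (cell ×ˢ (univ : Set R3))) (σ t : ℝ) :
    Tendsto (fun s : ℝ => ∫⁻ q in cell ×ˢ (univ : Set R3),
      ‖f (q.1 - (s - σ) • q.2) q.2 - f (q.1 - (t - σ) • q.2) q.2‖ₑ) (𝓝 t) (𝓝 0) := by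
  have h1 : Tendsto (fun s : ℝ => s - t) (𝓝 t) (𝓝 0) := by
    have : Tendsto (fun s : ℝ => s - t) (𝓝 t) (𝓝 (t - t)) := tendsto_id.sub_const t
    rwa [sub_self] at this
  refine ((transl_cont hf hp hi).comp h1).congr fun s => ?_
  have hm : Meas2 (fun x v => ‖f (x - (s - t) • v) v - f x v‖ₑ) :=
    ((GoodX.mcomp2 hf (by fun_prop) measurable_snd).sub hf).enorm
  have h2 := lintegral_shear hm (fun v x i => by
    have h3 := hp v x i
    have h4 := hp v (x - (s - t) • v) i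
    simp only at h3 h4 ⊢
    rw [h3, ← h4, add_sub_right_comm]) (t - σ)
  simp only [Function.comp]
  rw [← h2]
  refine lintegral_congr fun q => ?_
  rw [sub_sub, ← add_smul]
  congr 5
  ring

/-- the source along the characteristic arriving at time `s`, cut off at time `s` -/
noncomputable def GoodX.A (F : ℝ → R3 → R3 → ℝ) (s : ℝ) (q : R3 × R3) (σ : ℝ) : ℝ :=
  if σ < s then Src F σ (q.1 - (s - σ) • q.2) q.2 else 0

theorem GoodX.meas_A (h : Good F0 T F 𝓜) (s : ℝ) :
    Measurable fun r : (R3 × R3) × ℝ => GoodX.A F s r.1 r.2 :=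
  Measurable.ite (measurableSet_lt measurable_snd measurable_const)
    (mcomp h.meas_src' measurable_snd (by fun_prop) (by fun_prop)) measurable_const

theorem GoodX.int_A {s : ℝ} (hs : s ≤ T) (q : R3 × R3) :
    ∫ σ in Ioo 0 s, Src F σ (q.1 - (s - σ) • q.2) q.2 = ∫ σ in Ioo 0 T, GoodX.A F s q σ := by
  have h1 : (fun σ => GoodX.A F s q σ) = (Iio s).indicator fun σ => Src F σ (q.1 - (s - σ) • q.2) q.2 := by
    funext σ
    simp [GoodX.A, indicator]
  rw [h1, setIntegral_indicator measurableSet_Iio]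
  congr 2
  ext σ
  simp only [mem_Ioo, mem_inter_iff, mem_Iio]
  exact ⟨fun h => ⟨⟨h.1, h.2.trans_le hs⟩, h.2⟩, fun h => ⟨h.1.1, h.2⟩⟩

theorem GoodX.A_le (h : Good F0 T F 𝓜) (s : ℝ) {σ : ℝ} (hσ : σ ∈ Icc 0 T) :
    ∫⁻ q in cell ×ˢ (univ : Set R3), ‖GoodX.A F s q σ‖ₑ ≤
      ∫⁻ q in cell ×ˢ (univ : Set R3), ‖Src F σ q.1 q.2‖ₑ := by
  have hm : Meas2 (fun x v => ‖Src F σ x v‖ₑ) :=
    (mcomp h.meas_src' measurable_const measurable_fst measurable_snd).enorm
  rw [← lintegral_shear hm (fun v x i => congrArg enorm (h.per_src σ hσ v x i)) (s - σ)]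
  refine lintegral_mono fun q => ?_
  unfold GoodX.A
  split_ifs
  · exact le_rfl
  · simp

theorem GoodX.tend_A (h : Good F0 T F 𝓜) (t : ℝ) :
    Tendsto (fun s => ∫⁻ σ in Ioo 0 T, ∫⁻ q in cell ×ˢ (univ : Set R3), ‖GoodX.A F s q σ - GoodX.A F t q σ‖ₑ)
      (𝓝 t) (𝓝 0) := by
  have mS : Measurable fun p : ℝ × R3 × R3 => ‖Src F p.1 p.2.1 p.2.2‖ₑ := h.meas_src'.enorm
  have mN : Measurable fun σ : ℝ => ∫⁻ q in cell ×ˢ (univ : Set R3), ‖Src F σ q.1 q.2‖ₑ :=
    mS.lintegral_prod_right'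
  have hfin : ∫⁻ σ in Ioo 0 T, ∫⁻ q in cell ×ˢ (univ : Set R3), ‖Src F σ q.1 q.2‖ₑ < ⊤ := by
    have h1 := (h.src_integrable 0).2
    simp only [pow_zero, one_mul] at h1
    rw [← lint3 mS]
    exact h1
  have mA : ∀ s σ, Measurable fun q : R3 × R3 => GoodX.A F s q σ := fun s σ => by
    have := (GoodX.meas_A h s).comp (measurable_prodMk_right (y := σ))
    exact this
  have key := tendsto_lintegral_filter_of_dominated_convergence (μ := volume.restrict (Ioo 0 T)) (l := 𝓝 t)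
    (F := fun s σ => ∫⁻ q in cell ×ˢ (univ : Set R3), ‖GoodX.A F s q σ - GoodX.A F t q σ‖ₑ) (f := fun _ => 0)
    (fun σ => 2 * ∫⁻ q in cell ×ˢ (univ : Set R3), ‖Src F σ q.1 q.2‖ₑ)
    (Eventually.of_forall fun s => ((GoodX.meas_A h s).sub (GoodX.meas_A h t)).enorm.lintegral_prod_left')
    (Eventually.of_forall fun s => ?_) ?_ ?_
  · simpa using key
  · refine (ae_restrict_mem measurableSet_Ioo).mono fun σ hσ => ?_
    refine (lintegral_mono fun q => enorm_sub_le).trans ?_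
    rw [lintegral_add_left (mA s σ).enorm, two_mul]
    exact add_le_add (GoodX.A_le h s (Ioo_subset_Icc_self hσ)) (GoodX.A_le h t (Ioo_subset_Icc_self hσ))
  · rw [lintegral_const_mul' _ _ ENNReal.ofNat_ne_top]
    exact ENNReal.mul_ne_top ENNReal.ofNat_ne_top hfin.ne
  · have hne : ∀ᵐ σ ∂(volume.restrict (Ioo 0 T)), σ ≠ t := ae_restrict_of_ae (Measure.ae_ne _ t)
    filter_upwards [ae_restrict_mem measurableSet_Ioo, ae_lt_top mN hfin.ne, hne] with σ hσ hN hσt
    rcases lt_or_gt_of_ne hσt with hlt | hgt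
    · have hf : Measurable fun q : R3 × R3 => Src F σ q.1 q.2 :=
        mcomp h.meas_src' measurable_const measurable_fst measurable_snd
      refine (GoodX.shift2 hf (h.per_src σ (Ioo_subset_Icc_self hσ)) ⟨hf.aestronglyMeasurable, hN⟩ σ t).congr' ?_
      filter_upwards [lt_mem_nhds hlt] with s hs
      simp only [GoodX.A, if_pos hs, if_pos hlt]
    · refine tendsto_const_nhds.congr' ?_
      filter_upwards [gt_mem_nhds hgt] with s hs
      simp [GoodX.A, not_lt.2 hs.le, not_lt.2 hgt.le]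

theorem Good.cont (h : Good F0 T F 𝓜) {t : ℝ} (ht : t ∈ Ico 0 T) :
    Tendsto (fun s => ∫⁻ q in cell ×ˢ (univ : Set R3), ‖F s q.1 q.2 - F t q.1 q.2‖ₑ)
      (𝓝[Ici 0] t) (𝓝 0) := by
  have hT : (0 : ℝ) ∈ Icc 0 T := ⟨le_rfl, ht.1.trans ht.2.le⟩
  have hp0 : ∀ v, IsPeriodic3 (fun x => F0 x v) := fun v x i => by
    have := h.per 0 hT v x i
    simpa only [h.init] using this
  have hi0 : IntegrableOn (fun q : R3 × R3 => F0 q.1 q.2) (cell ×ˢ (univ : Set R3)) := by
    refine Integrable.mono (h.integrable 0 hT) h.meas0.aestronglyMeasurable (Eventually.of_forall fun q => ?_)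
    rw [h.init, norm_mul]
    refine le_mul_of_one_le_left (norm_nonneg _) ?_
    rw [Real.norm_of_nonneg (by positivity)]
    exact one_le_pow₀ (by linarith [norm_nonneg q.2])
  have h1 := (GoodX.shift2 h.meas0 hp0 hi0 0 t).add (GoodX.tend_A h t)
  rw [add_zero] at h1
  refine tendsto_of_tendsto_of_tendsto_of_le_of_le' tendsto_const_nhds (h1.mono_left nhdsWithin_le_nhds)
    (Eventually.of_forall fun s => zero_le) ?_
  filter_upwards [self_mem_nhdsWithin, mem_nhdsWithin_of_mem_nhds (gt_mem_nhds ht.2)] with s hs0 hsT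
  have mD := ((GoodX.meas_A h s).sub (GoodX.meas_A h t)).enorm
  have m0 : Measurable fun q : R3 × R3 => ‖F0 (q.1 - (s - 0) • q.2) q.2 - F0 (q.1 - (t - 0) • q.2) q.2‖ₑ :=
    ((GoodX.mcomp2 h.meas0 (by fun_prop) measurable_snd).sub
      (GoodX.mcomp2 h.meas0 (by fun_prop) measurable_snd)).enorm
  rw [← lintegral_lintegral_swap (f := fun q σ => ‖GoodX.A F s q σ - GoodX.A F t q σ‖ₑ) mD.aemeasurable,
    ← lintegral_add_left m0]
  refine lintegral_mono_ae (ae_restrict_of_ae ?_)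
  filter_upwards [h.plain s ⟨hs0, hsT.le⟩, h.plain t ⟨ht.1, ht.2.le⟩] with q hs ht'
  have mA : ∀ s, Measurable fun σ : ℝ => GoodX.A F s q σ := fun s => by
    have := (GoodX.meas_A h s).comp (measurable_prodMk_left (x := q))
    exact this
  rw [hs, ht', GoodX.int_A hsT.le, GoodX.int_A ht.2.le, add_sub_add_comm, sub_zero, sub_zero]
  exact (enorm_add_le _ _).trans (add_le_add le_rfl (GoodX.enorm_int_sub (mA s) (mA t)))

end Crest.Agent.R68
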