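import Crest.Agent.R68.LocCons
import Crest.Agent.R68.Ent2

/-! Assembly: `Good` on every `[0,T]` gives a global solution; two global solutions that differ at a positive time differ on a set of positive measure
(if `F₁ = F₂` a.e. on `region` then for a.e. `t` they agree in `L¹`, and `L¹` continuity extends this to every `t ≥ 0`). -/

set_option autoImplicit false

open MeasureTheory Set Filter Topology Crest.AnalysisR.VecCalc3 Crest.AnalysisR.PDE.Boltzmann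
open scoped ENNReal NNReal

namespace Crest.Agent.R68

theorem gs_meas_slice {F : ℝ → R3 → R3 → ℝ}
    (hm : Measurable (fun p : ℝ × R3 × R3 => F p.1 p.2.1 p.2.2)) (t : ℝ) :
    Measurable (fun q : R3 × R3 => F t q.1 q.2) :=
  hm.comp (measurable_const.prodMk measurable_id)

theorem gs_int_weight {F0 : R3 → R3 → ℝ} {F : ℝ → R3 → R3 → ℝ} {𝓜 : Den} {T t : ℝ}
    (h : Good F0 T F 𝓜) (ht : t ∈ Icc 0 T) {ψ : R3 → ℝ} (hψ : Continuous ψ)
    (hb : ∀ v, |ψ v| ≤ (1 + ‖v‖) ^ 2) :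
    IntegrableOn (fun q : R3 × R3 => ψ q.2 * F t q.1 q.2) (cell ×ˢ (univ : Set R3)) := by
  refine Integrable.mono (h.integrable t ht) ?_ (Eventually.of_forall fun q => ?_)
  · exact ((hψ.measurable.comp measurable_snd).mul (gs_meas_slice h.meas t)).aestronglyMeasurable
  · rw [norm_mul, norm_mul]
    refine mul_le_mul_of_nonneg_right ?_ (norm_nonneg _)
    rw [Real.norm_eq_abs, Real.norm_eq_abs]
    exact (hb q.2).trans (le_abs_self _)

theorem gs_weight_le (k : ℕ) (v : R3) :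
    ENNReal.ofReal ((1 + ‖v‖ ^ 2) ^ (k / 2 : ℝ)) ≤ pw k v := by
  unfold pw
  refine ENNReal.ofReal_le_ofReal ?_
  have hv := norm_nonneg v
  have h1 : (1 + ‖v‖ ^ 2) ≤ (1 + ‖v‖) ^ 2 := by nlinarith
  calc (1 + ‖v‖ ^ 2) ^ (k / 2 : ℝ) ≤ ((1 + ‖v‖) ^ 2) ^ (k / 2 : ℝ) :=
        Real.rpow_le_rpow (by positivity) h1 (by positivity)
    _ = (1 + ‖v‖) ^ k := by
        rw [← Real.rpow_natCast, ← Real.rpow_mul (by positivity), ← Real.rpow_natCast]
        congr 1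
        push_cast
        ring

theorem good_global {F0 : R3 → R3 → ℝ} {F : ℝ → R3 → R3 → ℝ} {𝓜 : Den} {R : ℝ}
    (h : ∀ T, 0 ≤ T → Good F0 T F 𝓜) (hR : ∀ x v, R ≤ ‖v‖ → F0 x v = 0)
    (hp : ∀ t v, IsPeriodic3 (fun x => F t x v)) : IsGlobalSolution F F0 := by
  have h0 := h 0 le_rfl
  refine ⟨h0.meas, h0.nonneg, hp, h0.init, weak_of_good h, loccons_of_good h hR, ?_, ?_, ?_, ?_, ?_,
    ?_⟩
  · intro T
    obtain ⟨C, hC, hb⟩ := (h (max T 0) (le_max_right _ _)).mee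
    exact ⟨C, hC, fun t ht => hb t ⟨ht.1, ht.2.trans (le_max_left _ _)⟩⟩
  · intro t ht
    exact (h (t + 1) (by linarith)).cont ⟨ht, by linarith⟩
  · intro T k
    refine lt_of_le_of_lt ?_ ((h (max T 0) (le_max_right _ _)).coll_weight k)
    refine le_trans (lintegral_mono fun p => mul_le_mul_left (gs_weight_le k p.2.2) _) ?_
    exact lintegral_mono_set (prod_mono (Ioo_subset_Ioo le_rfl (le_max_left _ _)) subset_rfl)
  · intro t ht i
    refine ⟨gs_int_weight (h t ht) ⟨ht, le_rfl⟩ (ψ := fun v => v i) (by fun_prop) fun v => ?_,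
      (h t ht).conserved (ψ := fun v => v i) (Or.inr (Or.inl ⟨i, rfl⟩)) t ⟨ht, le_rfl⟩⟩
    have h1 : |v i| ≤ ‖v‖ := by
      rw [← Real.norm_eq_abs]
      exact PiLp.norm_apply_le v i
    have hv := norm_nonneg v
    nlinarith
  · intro t ht
    have hb : ∀ v : R3, |‖v‖ ^ 2| ≤ (1 + ‖v‖) ^ 2 := fun v => by
      have hv := norm_nonneg v
      rw [abs_of_nonneg (by positivity)]
      nlinarith
    have i1 := gs_int_weight (h t ht) ⟨ht, le_rfl⟩ (ψ := fun v => ‖v‖ ^ 2) (by fun_prop) hb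
    have i0 := gs_int_weight (h t ht) ⟨le_rfl, ht⟩ (ψ := fun v => ‖v‖ ^ 2) (by fun_prop) hb
    simp only [h0.init] at i0
    have hc := (h t ht).conserved (ψ := fun v => ‖v‖ ^ 2 / 2) (Or.inr (Or.inr rfl)) t ⟨ht, le_rfl⟩
    have e1 : ∀ G : R3 × R3 → ℝ, ∫ q in cell ×ˢ (univ : Set R3), ‖q.2‖ ^ 2 * G q =
        2 * ∫ q in cell ×ˢ (univ : Set R3), ‖q.2‖ ^ 2 / 2 * G q := fun G => by
      rw [← integral_const_mul]
      congr 1
      funext q
      ring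
    rw [← ofReal_integral_eq_lintegral_ofReal i1
        (Eventually.of_forall fun q => mul_nonneg (by positivity) (h0.nonneg t _ _ ht)),
      ← ofReal_integral_eq_lintegral_ofReal i0
        (Eventually.of_forall fun q => mul_nonneg (by positivity)
          (by rw [← h0.init]; exact h0.nonneg 0 _ _ le_rfl)),
      e1 (fun q => F t q.1 q.2), e1 (fun q => F0 q.1 q.2), hc]
  · intro t ht
    exact good_entropy (h t ht) ⟨ht, le_rfl⟩

theorem distinct {F0 : R3 → R3 → ℝ} {F₁ F₂ : ℝ → R3 → R3 → ℝ} (h₁ : IsGlobalSolution F₁ F0)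
    (h₂ : IsGlobalSolution F₂ F0) {T : ℝ} (hT : 0 ≤ T) {φ : R3 × R3 → ℝ≥0∞}
    (hne : ∫⁻ q in cell ×ˢ (univ : Set R3), ENNReal.ofReal (F₁ T q.1 q.2) * φ q ≠
      ∫⁻ q in cell ×ˢ (univ : Set R3), ENNReal.ofReal (F₂ T q.1 q.2) * φ q) :
    0 < volume {p : ℝ × R3 × R3 | p ∈ region ∧ F₁ p.1 p.2.1 p.2.2 ≠ F₂ p.1 p.2.1 p.2.2} := by
  rw [pos_iff_ne_zero]
  intro hz
  apply hne
  have hcell : MeasurableSet (cell ×ˢ (univ : Set R3)) := measurableSet_cell.prod MeasurableSet.univ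
  -- a.e. time slice
  have h1 : ∀ᵐ p : ℝ × R3 × R3, p ∈ region → F₁ p.1 p.2.1 p.2.2 = F₂ p.1 p.2.1 p.2.2 := by
    rw [ae_iff]
    convert hz using 2
    ext p
    simp
  have h2 : ∀ᵐ t : ℝ, ∀ᵐ q : R3 × R3, (t, q) ∈ region → F₁ t q.1 q.2 = F₂ t q.1 q.2 :=
    Measure.ae_ae_of_ae_prod h1
  have h3 : ∀ᵐ t : ℝ, 0 < t →
      ∀ᵐ q ∂(volume.restrict (cell ×ˢ (univ : Set R3))), F₁ t q.1 q.2 = F₂ t q.1 q.2 := by
    filter_upwards [h2] with t ht hpos
    rw [ae_restrict_iff' hcell]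
    filter_upwards [ht] with q hq hqc
    exact hq ⟨hpos, hqc⟩
  -- frequently near `T` from the right
  have h4 : ∃ᶠ t in 𝓝[Ici 0] T,
      ∀ᵐ q ∂(volume.restrict (cell ×ˢ (univ : Set R3))), F₁ t q.1 q.2 = F₂ t q.1 q.2 := by
    have hd := Measure.dense_of_ae h3
    have hle : 𝓝[Ioi T] T ≤ 𝓝[Ici 0] T := nhdsWithin_mono _ fun t ht => hT.trans (le_of_lt ht)
    refine Frequently.filter_mono ?_ hle
    rw [Filter.frequently_iff]
    intro U hU
    obtain ⟨u, hu, hsub⟩ := mem_nhdsGT_iff_exists_Ioo_subset.1 hU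
    obtain ⟨t, ht1, ht2⟩ := hd.exists_between hu
    exact ⟨t, hsub ht2, ht1 (lt_of_le_of_lt hT ht2.1)⟩
  have c₁ := h₁.2.2.2.2.2.2.2.1 T hT
  have c₂ := h₂.2.2.2.2.2.2.2.1 T hT
  have hsum := c₁.add c₂
  rw [add_zero] at hsum
  have h5 : ∫⁻ q in cell ×ˢ (univ : Set R3), ‖F₁ T q.1 q.2 - F₂ T q.1 q.2‖ₑ ≤ 0 := by
    refine ge_of_tendsto_of_frequently hsum (h4.mono fun t ht => ?_)
    rw [← lintegral_add_left]
    · refine lintegral_mono_ae (ht.mono fun q hq => ?_)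
      have e : F₁ T q.1 q.2 - F₂ T q.1 q.2 =
          -(F₁ t q.1 q.2 - F₁ T q.1 q.2) + (F₂ t q.1 q.2 - F₂ T q.1 q.2) := by
        rw [hq]; ring
      rw [e]
      refine (enorm_add_le _ _).trans ?_
      rw [enorm_neg]
    · exact ((gs_meas_slice h₁.1 t).sub (gs_meas_slice h₁.1 T)).enorm
  have h6 := (lintegral_eq_zero_iff ((gs_meas_slice h₁.1 T).sub (gs_meas_slice h₂.1 T)).enorm).1
    (le_antisymm h5 zero_le)
  refine lintegral_congr_ae (h6.mono fun q hq => ?_)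
  have e : F₁ T q.1 q.2 = F₂ T q.1 q.2 := by
    have : ‖F₁ T q.1 q.2 - F₂ T q.1 q.2‖ₑ = 0 := hq
    rwa [enorm_eq_zero, sub_eq_zero] at this
  simp only [e]

end Crest.Agent.R68
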