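import Crest.Agent.R68.Qsmall
import Crest.Agent.R68.Tile2

/-! Uniform in time bounds for the late weights.  Put `τ = t - t1`.  `(∫_{t1}^t S2)^{3/2} ≤ τ^{1/2} ∫ S2^{3/2}` (Hölder), `PB_lintegral` and `LateIn.tilt2` (note `(s - t1) + (t - s) = τ`) give the plane bound
`τ^{3/2} (C (1+τ)² ρ)^{3/2}`, and the factor `e^{-τ}` kills the polynomial growth; `(a+b+c)^{3/2} ≤ 3^{1/2}·Σ`.  Similarly for `Ds` with `tilt3`. -/

set_option autoImplicit false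

open MeasureTheory Set Filter Topology Crest.AnalysisR.VecCalc3 Crest.AnalysisR.PDE.Boltzmann
open scoped ENNReal NNReal

namespace Crest.Agent.R68

/-- decay factors -/
noncomputable def Eb (τ : ℝ) : ℝ≥0∞ := ENNReal.ofReal (min 1 (Real.exp (1 - 2 * τ)))
noncomputable def Eb' (τ : ℝ) : ℝ≥0∞ := ENNReal.ofReal (Real.exp (3 - 2 * τ))

namespace Lam2X

theorem S2_mono {g g' : R3 → ℝ≥0∞} (h : ∀ a, g' a ≤ g a) (v : R3) : S2 g' v ≤ S2 g v :=
  lintegral_mono fun a => mul_le_mul' (h a) le_rfl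

theorem pow32 (a b : ℝ≥0∞) : (a + b) ^ (3 / 2 : ℝ) ≤ 2 * (a ^ (3 / 2 : ℝ) + b ^ (3 / 2 : ℝ)) := by
  refine (ENNReal.rpow_add_le_mul_rpow_add_rpow a b (by norm_num)).trans (mul_le_mul_left ?_ _)
  calc (2 : ℝ≥0∞) ^ (3 / 2 - 1 : ℝ) ≤ 2 ^ (1 : ℝ) := ENNReal.rpow_le_rpow_of_exponent_le (by norm_num) (by norm_num)
    _ = 2 := ENNReal.rpow_one _

theorem rpow_le_one_add (a : ℝ≥0∞) {p : ℝ} (h0 : 0 ≤ p) (h1 : p ≤ 1) : a ^ p ≤ 1 + a := by
  rcases le_total a 1 with h | h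
  · exact (ENNReal.rpow_le_one h h0).trans le_self_add
  · refine le_trans ?_ le_add_self
    conv_rhs => rw [← ENNReal.rpow_one a]
    exact ENNReal.rpow_le_rpow_of_exponent_le h h1

theorem poly : ∃ K : ℝ≥0, ∀ j : ℕ, j ≤ 5 → ∀ τ : ℝ, 0 ≤ τ → ew 1 τ * ENNReal.ofReal (1 + τ) ^ j ≤ K := by
  obtain ⟨K, -, hK⟩ := QQa.poly_exp one_pos 5
  refine ⟨K.toNNReal, fun j hj τ hτ => ?_⟩
  rw [ew, ← ENNReal.ofReal_pow (by linarith), ← ENNReal.ofReal_mul (Real.exp_pos _).le, mul_comm]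
  refine ENNReal.ofReal_le_ofReal (le_trans ?_ (hK τ hτ))
  exact mul_le_mul_of_nonneg_right (pow_le_pow_right₀ (by linarith) hj) (Real.exp_pos _).le

theorem ew_le_one {τ : ℝ} (hτ : 0 ≤ τ) : ew 1 τ ≤ 1 := by
  rw [ew, ← ENNReal.ofReal_one]
  exact ENNReal.ofReal_le_ofReal (Real.exp_le_one_iff.2 (by linarith))

theorem Eb'_le {τ : ℝ} (hτ : 0 ≤ τ) : Eb' τ ≤ 21 * ew 1 τ := by
  rw [Eb', ew, ← ENNReal.ofReal_ofNat 21, ← ENNReal.ofReal_mul (by norm_num)]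
  refine ENNReal.ofReal_le_ofReal ?_
  have h1 : Real.exp 3 ≤ 21 := by
    have a1 : Real.exp 3 = Real.exp 1 ^ 3 := by rw [← Real.exp_nat_mul]; norm_num
    rw [a1]
    exact (pow_le_pow_left₀ (Real.exp_pos _).le Real.exp_one_lt_d9.le 3).trans (by norm_num)
  calc Real.exp (3 - 2 * τ) ≤ Real.exp (3 + -(1 * τ)) := Real.exp_le_exp.2 (by linarith)
    _ = Real.exp 3 * Real.exp (-(1 * τ)) := Real.exp_add _ _
    _ ≤ _ := mul_le_mul_of_nonneg_right h1 (Real.exp_pos _).le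

theorem Eb_le {τ : ℝ} (hτ : 0 ≤ τ) : Eb τ ≤ 21 * ew 1 τ :=
  le_trans (ENNReal.ofReal_le_ofReal ((min_le_right _ _).trans (Real.exp_le_exp.2 (by linarith)))) (Eb'_le hτ)

theorem Eb_mul (a b : ℝ) : Eb a * Eb b ≤ Eb' (a + b) := by
  refine (mul_le_mul' (ENNReal.ofReal_le_ofReal (min_le_right _ _))
    (ENNReal.ofReal_le_ofReal (min_le_right _ _))).trans ?_
  rw [← ENNReal.ofReal_mul (Real.exp_pos _).le, ← Real.exp_add]
  exact ENNReal.ofReal_le_ofReal (Real.exp_le_exp.2 (by linarith))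

theorem holder {f : ℝ → ℝ≥0∞} (hf : Measurable f) (a b : ℝ) :
    (∫⁻ s in Ioo a b, f s) ^ (3 / 2 : ℝ) ≤
      (1 + ENNReal.ofReal (b - a)) * ∫⁻ s in Ioo a b, f s ^ (3 / 2 : ℝ) := by
  have h1 := ENNReal.lintegral_mul_le_Lp_mul_Lq (volume.restrict (Ioo a b)) (p := 3) (q := 3 / 2)
    (by rw [Real.holderConjugate_iff]; norm_num) (f := fun _ => 1) measurable_const.aemeasurable hf.aemeasurable
  simp only [Pi.mul_apply, one_mul, ENNReal.one_rpow, setLIntegral_const, Real.volume_Ioo] at h1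
  refine (ENNReal.rpow_le_rpow h1 (by norm_num)).trans ?_
  rw [ENNReal.mul_rpow_of_nonneg _ _ (by norm_num), ← ENNReal.rpow_mul, ← ENNReal.rpow_mul,
    show (1 / (3 / 2) * (3 / 2) : ℝ) = 1 by norm_num, ENNReal.rpow_one]
  exact mul_le_mul' (rpow_le_one_add _ (by norm_num) (by norm_num)) le_rfl

theorem meas_tr {g : R3 → R3 → ℝ≥0∞} (hg : Meas2 g) (t1 t : ℝ) (x : R3) :
    Measurable (Function.uncurry fun (q : ℝ × R3) (a : R3) => tr t1 g q.1 (x - (t - q.1) • q.2) a) := by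
  have : Measurable fun r : (ℝ × R3) × R3 => tr t1 g r.1.1 (x - (t - r.1.1) • r.1.2) r.2 :=
    (measD_tr t1 hg).comp (by fun_prop) (by fun_prop) (by fun_prop)
  exact this

end Lam2X
open Lam2X

theorem one_le_Lam2 (t1 : ℝ) (ρ : ℝ≥0∞) (g Λ1 : R3 → R3 → ℝ≥0∞) (t : ℝ) (x v : R3) :
    1 ≤ Lam2 t1 ρ g Λ1 t x v := by
  exact le_self_add
theorem LateIn.mono {C ρ : ℝ≥0∞} {t1 : ℝ} {g g' Λ1 : R3 → R3 → ℝ≥0∞} (h : LateIn C ρ t1 g Λ1)
    (hg : Meas2 g') (hle : ∀ x v, g' x v ≤ g x v) : LateIn C ρ t1 g' Λ1 := by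
  refine ⟨hg, h.meas_L, h.one_le, fun x v hv => h.supp x v fun h0 => hv (le_antisymm (h0 ▸ hle x v) zero_le),
    fun s hs y => le_trans (lintegral_mono fun a => hle _ _) (h.dens s hs y), fun s τ hs hτ x => ?_,
    fun s τ hs hτ x => ?_, h.tiltL⟩
  · exact (h.tilt2 s τ hs hτ x).mono
      (fun v => ENNReal.rpow_le_rpow (S2_mono (fun a => hle _ _) v) (by norm_num)) fun _ _ => le_rfl
  · exact (h.tilt3 s τ hs hτ x).mono (fun v => Qp_mono (fun a => hle _ _) (fun a => hle _ _) v) fun _ _ => le_rfl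
theorem Lam2_mono {t1 : ℝ} {ρ : ℝ≥0∞} {g g' Λ1 : R3 → R3 → ℝ≥0∞} (hle : ∀ x v, g' x v ≤ g x v) (t : ℝ)
    (x v : R3) : Lam2 t1 ρ g' Λ1 t x v ≤ Lam2 t1 ρ g Λ1 t x v := by
  exact add_le_add le_rfl (mul_le_mul' le_rfl (add_le_add le_rfl (mul_le_mul' le_rfl
    (lintegral_mono fun s => S2_mono (fun a => hle _ _) v))))
theorem Ds_mono {t1 : ℝ} {g g' : R3 → R3 → ℝ≥0∞} (hle : ∀ x v, g' x v ≤ g x v) (t : ℝ)
    (x v : R3) : Ds t1 g' t x v ≤ Ds t1 g t x v := by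
  exact lintegral_mono fun s => Qp_mono (fun a => hle _ _) (fun a => hle _ _) v
theorem Lam2X.pb1 (C : ℝ≥0) : ∃ C' : ℝ≥0, ∀ {ρ : ℝ≥0∞} {t1 : ℝ} {g Λ1 : R3 → R3 → ℝ≥0∞}, ρ ≠ 0 → ρ ≠ ⊤ →
    LateIn C ρ t1 g Λ1 → ∀ t, t1 ≤ t → ∀ x : R3,
    PB (fun v => Lam2 t1 ρ g Λ1 t x v ^ (3 / 2 : ℝ)) (fun _ => C') := by
  obtain ⟨K, hK⟩ := poly
  refine ⟨4 * 2 + 4 * C * K + 4 * C ^ (3 / 2 : ℝ) * K, fun {ρ t1 g Λ1} h0 h1 h t ht x => ?_⟩
  have hτ : 0 ≤ t - t1 := sub_nonneg.2 ht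
  have mS : Measurable fun q : ℝ × R3 => S2 (tr t1 g q.1 (x - (t - q.1) • q.2)) q.2 :=
    meas_S2 (meas_tr h.meas_g t1 t x) measurable_snd
  have mS' : Measurable (Function.uncurry fun (s : ℝ) (v : R3) =>
      S2 (tr t1 g s (x - (t - s) • v)) v ^ (3 / 2 : ℝ)) := mS.pow_const _
  have mL : Measurable fun v : R3 => Λ1 (x - (t - t1) • v) v ^ (3 / 2 : ℝ) :=
    (h.meas_L.comp (by fun_prop) measurable_id).pow_const _
  have p2 := PB_lintegral (volume.restrict (Ioo t1 t)) mS'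
    (φ := fun _ _ => (C * ENNReal.ofReal ((1 + (t - t1)) ^ 2) * ρ) ^ (3 / 2 : ℝ))
    ((ae_restrict_mem measurableSet_Ioo).mono fun s hs => by
      have := h.tilt2 s (t - s) hs.1.le (sub_nonneg.2 hs.2.le) x
      rwa [show 1 + (s - t1) + (t - s) = 1 + (t - t1) by ring] at this)
  have p3 := PB.add measurable_const (PB_const 2) (PB.add (mL.const_mul _)
    (PB.cmul mL (h.tiltL (t - t1) hτ x) (4 * ew 1 (t - t1)))
    (PB.cmul mS'.lintegral_prod_left p2 (4 * ew 1 (t - t1) * ρ⁻¹ ^ (3 / 2 : ℝ) * ENNReal.ofReal (1 + (t - t1)))))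
  refine p3.mono (fun v => ?_) fun _ _ => ?_
  · unfold Lam2
    refine (pow32 _ _).trans ?_
    rw [ENNReal.one_rpow, mul_add, mul_one, ENNReal.mul_rpow_of_nonneg _ _ (by norm_num)]
    refine add_le_add le_rfl ?_
    have a1 : ew 1 (t - t1) ^ (3 / 2 : ℝ) ≤ ew 1 (t - t1) := by
      conv_rhs => rw [← ENNReal.rpow_one (ew 1 (t - t1))]
      exact ENNReal.rpow_le_rpow_of_exponent_ge (ew_le_one hτ) (by norm_num)
    have a2 := holder (f := fun s => S2 (tr t1 g s (x - (t - s) • v)) v)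
      (by have := mS.comp (measurable_prodMk_right (y := v)); exact this) t1 t
    rw [← ENNReal.ofReal_one, ← ENNReal.ofReal_add zero_le_one hτ] at a2
    refine (mul_le_mul' le_rfl (mul_le_mul' a1 (pow32 _ _))).trans ?_
    rw [ENNReal.mul_rpow_of_nonneg _ _ (by norm_num)]
    refine (mul_le_mul' le_rfl (mul_le_mul' le_rfl (mul_le_mul' le_rfl (add_le_add le_rfl
      (mul_le_mul' le_rfl a2))))).trans (le_of_eq ?_)
    simp only [tr]
    ring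
  · push_cast
    rw [add_assoc]
    refine add_le_add le_rfl (add_le_add ?_ ?_)
    · rw [ENNReal.ofReal_pow (by linarith)]
      refine le_trans (le_of_eq (by ring)) (mul_le_mul' le_rfl (hK 2 (by norm_num) _ hτ))
    · rw [setLIntegral_const, Real.volume_Ioo, ENNReal.mul_rpow_of_nonneg _ _ (by norm_num),
        ENNReal.mul_rpow_of_nonneg _ _ (by norm_num), ENNReal.ofReal_pow (by linarith), ← ENNReal.rpow_natCast _ 2,
        ← ENNReal.rpow_mul, show ((2 : ℕ) * (3 / 2) : ℝ) = (3 : ℕ) by norm_num, ENNReal.rpow_natCast,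
        ENNReal.coe_rpow_of_nonneg _ (by norm_num)]
      have a1 : ρ⁻¹ ^ (3 / 2 : ℝ) * ρ ^ (3 / 2 : ℝ) = 1 := by
        rw [← ENNReal.mul_rpow_of_nonneg _ _ (by norm_num), ENNReal.inv_mul_cancel h0 h1, ENNReal.one_rpow]
      have a2 : ENNReal.ofReal (t - t1) ≤ ENNReal.ofReal (1 + (t - t1)) := ENNReal.ofReal_le_ofReal (by linarith)
      refine (mul_le_mul' le_rfl (mul_le_mul' le_rfl a2)).trans ?_
      refine le_trans (le_of_eq ?_) (mul_le_mul' le_rfl (hK 5 le_rfl _ hτ))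
      calc _ = 4 * (C : ℝ≥0∞) ^ (3 / 2 : ℝ) * (ew 1 (t - t1) * ENNReal.ofReal (1 + (t - t1)) ^ 5) *
          (ρ⁻¹ ^ (3 / 2 : ℝ) * ρ ^ (3 / 2 : ℝ)) := by ring
        _ = _ := by rw [a1, mul_one]

theorem Lam2X.pb2 (C : ℝ≥0) : ∃ C' : ℝ≥0, ∀ {ρ : ℝ≥0∞} {t1 : ℝ} {g Λ1 : R3 → R3 → ℝ≥0∞},
    LateIn C ρ t1 g Λ1 → ∀ t, t1 ≤ t → ∀ x : R3,
    PB (fun v => Eb' (t - t1) * Ds t1 g t x v) (fun y => C' * ρ ^ 2 * ew (1 / 2) y) := by
  obtain ⟨K, hK⟩ := poly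
  refine ⟨21 * (21 * C * K), fun {ρ t1 g Λ1} h t ht x => ?_⟩
  have hτ : 0 ≤ t - t1 := sub_nonneg.2 ht
  have mQ : Measurable (Function.uncurry fun (s : ℝ) (v : R3) =>
      Qp (tr t1 g s (x - (t - s) • v)) (tr t1 g s (x - (t - s) • v)) v) :=
    meas_Qp (meas_tr h.meas_g t1 t x) (meas_tr h.meas_g t1 t x) measurable_snd
  have p2 := PB_lintegral (volume.restrict (Ioo t1 t)) mQ
    (φ := fun _ _ => C * ENNReal.ofReal ((1 + (t - t1)) ^ 4) * ρ ^ 2)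
    ((ae_restrict_mem measurableSet_Ioo).mono fun s hs => by
      have := h.tilt3 s (t - s) hs.1.le (sub_nonneg.2 hs.2.le) x
      rwa [show 1 + (s - t1) + (t - s) = 1 + (t - t1) by ring] at this)
  have p3 := PB_supp (PB.cmul mQ.lintegral_prod_left p2 (Eb' (t - t1))) fun v hv => by
    by_contra hn
    refine hv ?_
    have : ∀ s, Qp (tr t1 g s (x - (t - s) • v)) (tr t1 g s (x - (t - s) • v)) v = 0 := fun s => by
      by_contra hq
      exact hn (Qp_supp (fun a ha => h.supp _ a ha) (fun a ha => h.supp _ a ha) hq)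
    simp [this]
  refine p3.mono (fun v => le_rfl) fun y _ => mul_le_mul' ?_ le_rfl
  push_cast
  rw [mul_assoc 21 _ (ρ ^ 2), setLIntegral_const, Real.volume_Ioo, ENNReal.ofReal_pow (by linarith)]
  have a2 : ENNReal.ofReal (t - t1) ≤ ENNReal.ofReal (1 + (t - t1)) := ENNReal.ofReal_le_ofReal (by linarith)
  refine mul_le_mul' le_rfl ((mul_le_mul' (Eb'_le hτ) (mul_le_mul' le_rfl a2)).trans ?_)
  exact le_trans (le_of_eq (by ring)) (mul_le_mul' (mul_le_mul' le_rfl (hK 5 le_rfl _ hτ)) le_rfl)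

theorem late_PB (C : ℝ≥0) : ∃ C' : ℝ≥0, 1 ≤ C' ∧ ∀ {ρ : ℝ≥0∞} {t1 : ℝ} {g Λ1 : R3 → R3 → ℝ≥0∞}, ρ ≠ 0 → ρ ≠ ⊤ →
    LateIn C ρ t1 g Λ1 → ∀ t, t1 ≤ t → ∀ x : R3,
    PB (fun v => Lam2 t1 ρ g Λ1 t x v ^ (3 / 2 : ℝ)) (fun _ => C') ∧
    PB (fun v => Eb' (t - t1) * Ds t1 g t x v) (fun y => C' * ρ ^ 2 * ew (1 / 2) y) ∧
    (∫⁻ a, Eb (t - t1) * tr t1 g t x a ≤ C' * ρ) ∧
    (∫⁻ v, Eb (t - t1) * (W (1 / 2) v * tr t1 Λ1 t x v) * pw 1 v ≤ C') := by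
  obtain ⟨K, hK⟩ := poly
  obtain ⟨C1, h1⟩ := Lam2X.pb1 C
  obtain ⟨C2, h2⟩ := Lam2X.pb2 C
  obtain ⟨C3, h3⟩ := PB_WLam
  obtain ⟨C4, h4⟩ := moment_of_PB (lam := 1 / 2) (by norm_num) 1
  refine ⟨1 + C1 + C2 + 21 * C * K + 21 * C4 * C3 * (1 + C) * K, ?_, fun {ρ t1 g Λ1} a0 a1 h t ht x => ⟨?_, ?_, ?_, ?_⟩⟩
  · simp only [add_assoc]
    exact le_self_add
  · refine (h1 a0 a1 h t ht x).mono (fun _ => le_rfl) fun _ _ => ENNReal.coe_le_coe.2 ?_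
    exact le_add_right (le_add_right (le_add_right le_add_self))
  · refine (h2 h t ht x).mono (fun _ => le_rfl) fun _ _ =>
      mul_le_mul' (mul_le_mul' (ENNReal.coe_le_coe.2 ?_) le_rfl) le_rfl
    exact le_add_right (le_add_right le_add_self)
  · have hτ : 0 ≤ t - t1 := sub_nonneg.2 ht
    rw [lintegral_const_mul' _ _ (show Eb (t - t1) ≠ ⊤ from ENNReal.ofReal_ne_top)]
    refine (mul_le_mul' (Eb_le hτ) (h.dens t ht x)).trans ?_
    rw [ENNReal.ofReal_pow (by linarith), ← mul_assoc]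
    refine mul_le_mul' (le_trans ?_ (ENNReal.coe_le_coe.2 (le_add_right le_add_self))) le_rfl
    push_cast
    exact le_trans (le_of_eq (by ring)) (mul_le_mul' le_rfl (hK 2 (by norm_num) _ hτ))
  · have hτ : 0 ≤ t - t1 := sub_nonneg.2 ht
    have mL : Measurable fun v : R3 => Λ1 (x - (t - t1) • v) v := h.meas_L.comp (by fun_prop) measurable_id
    have b1 := h4 ((measurable_W _).mul mL) (h3 mL (h.tiltL (t - t1) hτ x))
    simp only [mul_assoc (Eb (t - t1))]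
    rw [lintegral_const_mul' _ _ (show Eb (t - t1) ≠ ⊤ from ENNReal.ofReal_ne_top)]
    refine (mul_le_mul' (Eb_le hτ) b1).trans (le_trans ?_ (ENNReal.coe_le_coe.2 le_add_self))
    have b2 : (C * ENNReal.ofReal ((1 + (t - t1)) ^ 2)) ^ (2 / 3 : ℝ) ≤
        (1 + C) * ENNReal.ofReal (1 + (t - t1)) ^ 2 := by
      refine (rpow_le_one_add _ (by norm_num) (by norm_num)).trans ?_
      rw [add_mul, one_mul, ENNReal.ofReal_pow (by linarith)]
      refine add_le_add (one_le_pow₀ ?_) le_rfl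
      rw [← ENNReal.ofReal_one]
      exact ENNReal.ofReal_le_ofReal (by linarith)
    refine (mul_le_mul' le_rfl (mul_le_mul' le_rfl (mul_le_mul' le_rfl b2))).trans ?_
    push_cast
    exact le_trans (le_of_eq (by ring)) (mul_le_mul' le_rfl (hK 2 (by norm_num) _ hτ))
/-- the time integral of the cold source against the decay factors -/
theorem late_cold (C : ℝ≥0) : ∃ C' : ℝ≥0, ∀ {ρ : ℝ≥0∞} {t1 : ℝ} {g Λ1 : R3 → R3 → ℝ≥0∞}, ρ ≠ 0 → ρ ≠ ⊤ →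
    LateIn C ρ t1 g Λ1 → ∀ t, t1 ≤ t → ∀ x v : R3,
    ∫⁻ s in Ioo t1 t, Eb (t - s) * Eb (s - t1) *
      ((∫⁻ a, tr t1 g s (x - (t - s) • v) a) + S2 (tr t1 g s (x - (t - s) • v)) v) ≤
      C' * ρ * Lam2 t1 ρ g Λ1 t x v := by
  obtain ⟨K, hK⟩ := poly
  refine ⟨21 * C * K + 21, fun {ρ t1 g Λ1} a0 a1 h t ht x v => ?_⟩
  have hτ : 0 ≤ t - t1 := sub_nonneg.2 ht
  have a2 : ENNReal.ofReal (t - t1) ≤ ENNReal.ofReal (1 + (t - t1)) := ENNReal.ofReal_le_ofReal (by linarith)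
  calc _ ≤ ∫⁻ s in Ioo t1 t, 21 * ew 1 (t - t1) * (C * ENNReal.ofReal (1 + (t - t1)) ^ 2 * ρ +
        S2 (tr t1 g s (x - (t - s) • v)) v) := by
        refine setLIntegral_mono' measurableSet_Ioo fun s hs => mul_le_mul' ?_ (add_le_add ?_ le_rfl)
        · refine (Eb_mul _ _).trans ?_
          rw [sub_add_sub_cancel]
          exact Eb'_le hτ
        · refine (h.dens s hs.1.le _).trans (mul_le_mul' (mul_le_mul' le_rfl ?_) le_rfl)
          rw [← ENNReal.ofReal_pow (by linarith)]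
          exact ENNReal.ofReal_le_ofReal (pow_le_pow_left₀ (by linarith [hs.1]) (by linarith [hs.2]) 2)
    _ = 21 * ew 1 (t - t1) * (C * ENNReal.ofReal (1 + (t - t1)) ^ 2 * ρ * ENNReal.ofReal (t - t1)) +
        21 * ρ * (ew 1 (t - t1) * (ρ⁻¹ * ∫⁻ s in Ioo t1 t, S2 (tr t1 g s (x - (t - s) • v)) v)) := by
        rw [lintegral_const_mul' _ _ (show 21 * ew 1 (t - t1) ≠ ⊤ from
          ENNReal.mul_ne_top ENNReal.ofNat_ne_top ENNReal.ofReal_ne_top),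
          lintegral_add_left measurable_const, setLIntegral_const, Real.volume_Ioo, mul_add]
        congr 1
        calc _ = 21 * ew 1 (t - t1) * (∫⁻ s in Ioo t1 t, S2 (tr t1 g s (x - (t - s) • v)) v) * (ρ⁻¹ * ρ) := by
              rw [ENNReal.inv_mul_cancel a0 a1, mul_one]
          _ = _ := by ring
    _ ≤ 21 * C * K * ρ * Lam2 t1 ρ g Λ1 t x v + 21 * ρ * Lam2 t1 ρ g Λ1 t x v := by
        refine add_le_add (le_trans ?_ (le_mul_of_one_le_right' (one_le_Lam2 t1 ρ g Λ1 t x v)))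
          (mul_le_mul' le_rfl (le_trans (mul_le_mul' le_rfl le_add_self) le_add_self))
        refine (mul_le_mul' le_rfl (mul_le_mul' le_rfl a2)).trans ?_
        exact le_trans (le_of_eq (by ring)) (mul_le_mul' (mul_le_mul' le_rfl (hK 3 (by norm_num) _ hτ)) le_rfl)
    _ = _ := by
        push_cast
        ring

end Crest.Agent.R68
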