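import Crest.Agent.R68.DevMild
import Crest.Agent.R68.Lam2PB

/-! Pointwise bound of the source under the bootstrap assumption.  At a fixed `(s,y)` write `D ≤ g̃ + d̃ + h` with `g̃ = Eb g♯`, `d̃ = Eb' Ds`, `h = min D (K W Λ₂)` (so `h ≤ D`, `∫ h pw 1 ≤ dlt`; indeed `D ≤ g̃ + d̃ + K W Λ₂` implies `D ≤ g̃ + d̃ + min D (K W Λ₂)`).
`Sd (g̃ + (d̃ + h)) = Sd g̃ + Sd (d̃ + h) + 2 Qp g̃ (d̃+h)`; `Sd g̃ = M ν g̃ + 2 Qp M g̃ + Qp g̃ g̃`; `QG` (with `Qp_symm`) for all terms with one `g̃`; `M ν g̃ ≤ C W ∫ g̃`;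
`Sd (d̃+h) = Sd d̃ + Sd h + 2 Qp d̃ h`, terms with `d̃` by `Sd_PB`, `QQ_const` (`ρ ≤ 1`); `Sd h` by `Sd_PB` in general and by `Qsmall` and `nu_le_pw` when `dlt ≤ δ`. -/

set_option autoImplicit false

open MeasureTheory Set Filter Topology Crest.AnalysisR.VecCalc3 Crest.AnalysisR.PDE.Boltzmann
open scoped ENNReal NNReal

namespace Crest.Agent.R68

/-- bootstrap bound at the point `(s,y)` -/
def DevLe (t1 : ℝ) (ρ : ℝ≥0∞) (g Λ1 : R3 → R3 → ℝ≥0∞) (K : ℝ≥0∞) (F : Den) (s : ℝ) (y : R3) : Prop :=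
  ∀ v, Dv F s y v ≤ Eb (s - t1) * tr t1 g s y v + Eb' (s - t1) * Ds t1 g s y v +
    K * (W (1 / 2) v * Lam2 t1 ρ g Λ1 s y v)

namespace LateSrcX

theorem meas_MM : Measurable MM := by
  unfold MM maxwellian
  fun_prop

theorem meas_W (lam : ℝ) : Measurable (W lam) := by
  unfold W
  fun_prop

theorem le_pw2 (v : R3) : ENNReal.ofReal (1 + ‖v‖) ≤ pw 2 v :=
  ENNReal.ofReal_le_ofReal (by nlinarith [norm_nonneg v])

theorem one_le_pw (k : ℕ) (v : R3) : 1 ≤ pw k v := by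
  rw [pw, ← ENNReal.ofReal_one]
  exact ENNReal.ofReal_le_ofReal (one_le_pow₀ (by linarith [norm_nonneg v]))

theorem mom_supp {g : R3 → ℝ≥0∞} (hg : Measurable g) (hs : ∀ a, g a ≠ 0 → ‖a‖ ≤ 3) :
    ∫⁻ a, g a * pw 1 a ≤ 4 * ∫⁻ a, g a := by
  rw [← lintegral_const_mul _ hg]
  refine lintegral_mono fun a => ?_
  by_cases h : g a = 0
  · simp [h]
  · rw [mul_comm]
    refine mul_le_mul_left ?_ _
    rw [pw, show (4 : ℝ≥0∞) = ENNReal.ofReal 4 by simp]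
    exact ENNReal.ofReal_le_ofReal (by linarith [hs a h])

theorem S2_cmul {g : R3 → ℝ≥0∞} (hg : Measurable g) (c : ℝ≥0∞) (v : R3) :
    (∫⁻ a, c * g a) + S2 (fun a => c * g a) v = c * ((∫⁻ a, g a) + S2 g v) := by
  have : Measurable fun a => g a * invn (v - a) := by
    unfold invn
    fun_prop
  simp only [S2, mul_assoc]
  rw [lintegral_const_mul _ hg, lintegral_const_mul _ this, mul_add]

/-- all terms containing the cold part -/
theorem cold : ∃ C : ℝ≥0, ∀ {g h : R3 → ℝ≥0∞}, Measurable g → Measurable h → (∀ a, g a ≠ 0 → ‖a‖ ≤ 3) →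
    ∀ {A : ℝ≥0∞}, PB h (fun y => A * ew (1 / 2) y) → ∀ v,
    Sd g v + 2 * Qp g h v ≤ Qp g g v + C * (1 + A) * (W (1 / 2) v * ((∫⁻ a, g a) + S2 g v)) := by
  obtain ⟨CM, hM⟩ := PB_MM
  obtain ⟨Cp, hp⟩ := MM_pw
  obtain ⟨Cg, hg⟩ := QG (lam := 1 / 2) (by norm_num)
  refine ⟨28 * Cp + 2 * Cg * CM + 2 * Cg, fun {g h} mg mh hs A hA v => ?_⟩
  set X := (∫⁻ a, g a) + S2 g v with hX
  have h1 : MM v * nu g v ≤ 28 * Cp * (W (1 / 2) v * X) :=
    calc MM v * nu g v ≤ MM v * (7 * pw 2 v * (4 * X)) := by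
          refine mul_le_mul_right ((nu_le_pw g v).trans ?_) _
          gcongr
          · exact le_pw2 v
          · exact (mom_supp mg hs).trans (mul_le_mul_right le_self_add _)
      _ = 28 * (MM v * pw 2 v) * X := by ring
      _ ≤ 28 * (Cp * W (1 / 2) v) * X := by gcongr 28 * ?_ * X; exact hp v
      _ = _ := by ring
  have h2 := hg mg meas_MM hs (Slow_const _ (by norm_num) CM) hM v
  have h3 := hg mg mh hs (Slow_const _ (by norm_num) A) hA v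
  rw [Sd, Qp_symm meas_MM mg]
  calc _ ≤ 28 * Cp * (W (1 / 2) v * X) + 2 * (Cg * CM * W (1 / 2) v * X) + Qp g g v +
        2 * (Cg * A * W (1 / 2) v * X) := by gcongr
    _ = Qp g g v + ((28 * Cp + 2 * Cg * CM) * 1 + 2 * Cg * A) * (W (1 / 2) v * X) := by ring
    _ ≤ Qp g g v + ((28 * Cp + 2 * Cg * CM + 2 * Cg) * 1 + (28 * Cp + 2 * Cg * CM + 2 * Cg) * A) *
        (W (1 / 2) v * X) := by
          gcongr _ + (?_ * 1 + ?_ * A) * _
          · exact le_self_add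
          · exact le_add_self
    _ = _ := by push_cast; ring

/-- the source of a small deviation -/
theorem small (CΛ A K : ℝ≥0) (hK : 1 ≤ K) {ε : ℝ≥0} (hε : 0 < ε) : ∃ δ : ℝ≥0, 0 < δ ∧
    ∀ {h Λ : R3 → ℝ≥0∞}, Measurable h → Measurable Λ → PB (fun a => Λ a ^ (3 / 2 : ℝ)) (fun _ => CΛ) →
    (∀ a, h a ≤ K * (W (1 / 2) a * Λ a)) → PB h (fun y => A * ew (1 / 2) y) → ∫⁻ a, h a * pw 1 a ≤ δ →
    ∀ v, Sd h v ≤ ε * (ENNReal.ofReal (1 + ‖v‖) * W (1 / 2) v) := by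
  obtain ⟨CM, hM⟩ := PB_MM
  obtain ⟨Cp, hp⟩ := MM_pw
  obtain ⟨ε', hε', he⟩ : ∃ ε' : ℝ≥0, 0 < ε' ∧ ε' * (7 * Cp + 2 * (K * CM) + K * A) ≤ ε := by
    refine ⟨ε / (7 * Cp + 2 * (K * CM) + K * A + 1), by positivity, ?_⟩
    rw [div_mul_eq_mul_div, div_le_iff₀ (by positivity)]
    exact mul_le_mul_right le_self_add _
  obtain ⟨δ, hδ, hs⟩ := Qsmall hε' CΛ
  refine ⟨min δ ε', lt_min hδ hε', fun {h Λ} mh mΛ hΛ hle hA hd v => ?_⟩
  have hd1 : ∫⁻ a, h a ≤ δ * K :=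
    calc ∫⁻ a, h a ≤ ∫⁻ a, h a * pw 1 a := lintegral_mono fun a => le_mul_of_one_le_right' (one_le_pw 1 a)
      _ ≤ δ := hd.trans (ENNReal.coe_le_coe.2 (min_le_left _ _))
      _ ≤ δ * K := le_mul_of_one_le_right' (by exact_mod_cast hK)
  have h1 : MM v * nu h v ≤ ε' * (7 * Cp) * (ENNReal.ofReal (1 + ‖v‖) * W (1 / 2) v) :=
    calc MM v * nu h v ≤ MM v * pw 2 v * (7 * ENNReal.ofReal (1 + ‖v‖) * ε') := by
          gcongr
          · exact le_mul_of_one_le_right' (one_le_pw 2 v)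
          · exact (nu_le_pw h v).trans
              (mul_le_mul_right (hd.trans (ENNReal.coe_le_coe.2 (min_le_right _ _))) _)
      _ ≤ Cp * W (1 / 2) v * (7 * ENNReal.ofReal (1 + ‖v‖) * ε') := mul_le_mul_left (hp v) _
      _ = _ := by ring
  have h2 := hs mh meas_MM mΛ hΛ hle hd1 hM v
  have h3 := hs mh mh mΛ hΛ hle hd1 hA v
  rw [Sd, Qp_symm meas_MM mh]
  refine (add_le_add (add_le_add h1 (mul_le_mul_right h2 2)) h3).trans ?_
  calc _ = ((ε' * (7 * Cp + 2 * (K * CM) + K * A) : ℝ≥0) : ℝ≥0∞) * (ENNReal.ofReal (1 + ‖v‖) * W (1 / 2) v) := by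
        push_cast; ring
    _ ≤ _ := by gcongr

theorem le_split {D a b c : ℝ≥0∞} (h : D ≤ a + b + c) : D ≤ a + (b + min D c) := by
  rcases le_total D c with h' | h'
  · rw [min_eq_left h']
    exact le_add_self.trans le_add_self
  · rwa [min_eq_right h', ← add_assoc]

end LateSrcX

open LateSrcX

theorem late_src (C : ℝ≥0) : ∃ C' : ℝ≥0, ∀ (K ε : ℝ≥0), 1 ≤ K → 0 < ε → ∃ δ : ℝ≥0, 0 < δ ∧
    ∀ {ρ : ℝ≥0∞} {t1 : ℝ} {g Λ1 : R3 → R3 → ℝ≥0∞} {F : Den}, ρ ≠ 0 → ρ ≤ 1 → LateIn C ρ t1 g Λ1 → MeasD F →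
    ∀ s, t1 ≤ s → ∀ y, DevLe t1 ρ g Λ1 K F s y → ∀ v, ∃ Z : ℝ≥0∞,
      Sd (Dv F s y) v ≤ Eb (s - t1) ^ 2 * Qp (tr t1 g s y) (tr t1 g s y) v +
        C' * K * (W (1 / 2) v * (Eb (s - t1) * ((∫⁻ a, tr t1 g s y a) + S2 (tr t1 g s y) v))) +
        C' * K * ρ * W (1 / 2) v + Z ∧
      Z ≤ C' * K ^ 2 * W (1 / 2) v ∧
      (dlt (F s y) ≤ δ → Z ≤ ε * (ENNReal.ofReal (1 + ‖v‖) * W (1 / 2) v)) := by
  obtain ⟨C1, hC1, hL⟩ := late_PB C
  obtain ⟨Cw, hw⟩ := PB_WLam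
  obtain ⟨Cc, hc⟩ := cold
  obtain ⟨Cq, hq⟩ := QQ_const (lam := 1 / 2) (by norm_num)
  obtain ⟨Cs, hs⟩ := Sd_PB
  obtain ⟨A, hA⟩ : ∃ A : ℝ≥0, (A : ℝ≥0∞) = Cw * (C1 : ℝ≥0∞) ^ (2 / 3 : ℝ) :=
    ⟨Cw * C1 ^ (2 / 3 : ℝ), by rw [ENNReal.coe_mul, ENNReal.coe_rpow_of_nonneg _ (by norm_num)]⟩
  refine ⟨Cc * (1 + (C1 + A)) + (Cs * (C1 * (1 + C1)) + 2 * (Cq * (C1 * A))) + Cs * (A * (1 + A)),
    fun K ε hK hε => ?_⟩
  obtain ⟨δ, hδ, hsm⟩ := small C1 (K * A) K hK hε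
  refine ⟨δ, hδ, fun {ρ t1 g Λ1 F} h0 h1 hin hF s hts y hdev v => ?_⟩
  obtain ⟨p1, p2, -, -⟩ := hL h0 (ne_top_of_le_ne_top ENNReal.one_ne_top h1) hin s hts y
  have hK' : (1 : ℝ≥0∞) ≤ K := by exact_mod_cast hK
  have mg := (measD_tr t1 hin.meas_g).vel s y
  have mΛ := (measD_Lam2 t1 ρ hin.meas_g hin.meas_L).vel s y
  have md : Measurable fun a => Eb' (s - t1) * Ds t1 g s y a := ((measD_Ds t1 hin.meas_g).vel s y).const_mul _
  have mg' : Measurable fun a => Eb (s - t1) * tr t1 g s y a := mg.const_mul _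
  have mW : Measurable fun a => W (1 / 2) a * Lam2 t1 ρ g Λ1 s y a := (meas_W _).mul mΛ
  set h : R3 → ℝ≥0∞ := fun a => min (Dv F s y a) (K * (W (1 / 2) a * Lam2 t1 ρ g Λ1 s y a)) with hh
  have mh : Measurable h := ((measD_Dv hF).vel s y).min (mW.const_mul _)
  have ph : PB h (fun y => (K * A : ℝ≥0) * ew (1 / 2) y) :=
    ((hw mΛ p1).cmul mW K).mono (fun a => min_le_right _ _) fun y _ => by
      rw [ENNReal.coe_mul, hA, mul_assoc (K : ℝ≥0∞)]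
  have hρ : ρ ^ 2 ≤ ρ := by
    rw [sq]
    exact mul_le_of_le_one_right' h1
  have pd : PB (fun a => Eb' (s - t1) * Ds t1 g s y a) (fun y => C1 * ρ * ew (1 / 2) y) :=
    p2.mono (fun _ => le_rfl) fun y _ => by gcongr
  have pdh : PB (fun a => Eb' (s - t1) * Ds t1 g s y a + h a) (fun y => (C1 + A) * K * ew (1 / 2) y) :=
    (pd.add md ph).mono (fun _ => le_rfl) fun y _ => by
      rw [← add_mul, add_mul, add_mul, ← add_mul, ENNReal.coe_mul, mul_comm (K : ℝ≥0∞)]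
      gcongr
      exact h1.trans hK'
  refine ⟨Sd h v, ?_, ?_, fun hd => hsm mh mΛ p1 (fun a => min_le_right _ _) ph (le_trans ?_ hd) v⟩
  · have mdh : Measurable fun a => Eb' (s - t1) * Ds t1 g s y a + h a := md.add mh
    have e1 := hc mg' mdh (fun a ha => hin.supp _ _ (right_ne_zero_of_mul ha)) pdh v
    rw [Qp_cmul mg mg, S2_cmul mg, ← sq] at e1
    have e2 := hs md pd v
    have e3 := hq md mh pd ph v
    refine (Sd_mono (D' := fun a => Eb (s - t1) * tr t1 g s y a + (Eb' (s - t1) * Ds t1 g s y a + h a))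
      (fun a => le_split (hdev a)) v).trans ?_
    rw [Sd_add mg' mdh, Sd_add md mh]
    set X := W (1 / 2) v * (Eb (s - t1) * ((∫⁻ a, tr t1 g s y a) + S2 (tr t1 g s y) v))
    set Q := Eb (s - t1) ^ 2 * Qp (tr t1 g s y) (tr t1 g s y) v
    calc _ = (Sd (fun a => Eb (s - t1) * tr t1 g s y a) v + 2 * Qp (fun a => Eb (s - t1) * tr t1 g s y a)
            (fun a => Eb' (s - t1) * Ds t1 g s y a + h a) v) + (Sd (fun a => Eb' (s - t1) * Ds t1 g s y a) v +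
            2 * Qp (fun a => Eb' (s - t1) * Ds t1 g s y a) h v) + Sd h v := by ring
      _ ≤ (Q + Cc * (1 + (C1 + A) * K) * X) + (Cs * (C1 * ρ * (1 + C1 * ρ)) * W (1 / 2) v +
            2 * (Cq * (C1 * ρ * (K * A : ℝ≥0)) * W (1 / 2) v)) + Sd h v := by gcongr
      _ ≤ (Q + Cc * (K + (C1 + A) * K) * X) + (Cs * (C1 * ρ * (K + C1 * K)) * W (1 / 2) v +
            2 * (Cq * (C1 * ρ * (K * A : ℝ≥0)) * W (1 / 2) v)) + Sd h v := by
          gcongr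
          exact h1.trans hK'
      _ = Q + (Cc * (1 + (C1 + A)) : ℝ≥0) * K * X +
            (Cs * (C1 * (1 + C1)) + 2 * (Cq * (C1 * A)) : ℝ≥0) * K * ρ * W (1 / 2) v + Sd h v := by
          push_cast; ring
      _ ≤ _ := by
          gcongr _ + ((?_ : ℝ≥0) : ℝ≥0∞) * _ * _ + ((?_ : ℝ≥0) : ℝ≥0∞) * _ * _ * _ + _
          · exact le_self_add.trans le_self_add
          · exact le_add_self.trans le_self_add
  · calc Sd h v ≤ Cs * ((K * A : ℝ≥0) * (1 + (K * A : ℝ≥0))) * W (1 / 2) v := hs mh ph v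
      _ ≤ Cs * ((K * A : ℝ≥0) * (K + (K * A : ℝ≥0))) * W (1 / 2) v := by gcongr
      _ = (Cs * (A * (1 + A)) : ℝ≥0) * K ^ 2 * W (1 / 2) v := by push_cast; ring
      _ ≤ _ := by
          gcongr ((?_ : ℝ≥0) : ℝ≥0∞) * _ * _
          exact le_add_self
  · exact lintegral_mono fun a => mul_le_mul_left (min_le_left _ _) _

end Crest.Agent.R68
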