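import Crest.Agent.R68.LateSrc

/-! One step of the late bootstrap.  `t2 = √a ≤ 1/4`, `t1 ≤ t2`, `t - t0 ≤ 1/4`.  Apply `dev_mild`.  For `t1 ≤ s ≤ t0`, `Ex F s t ≤ Eb (t - s)` (`Ex_decay`, `Ex_le_one`; the exponent loses at most `2(t-t0) + 2(t2-t1) ≤ 1`), in particular for `s = t1`.
Initial term: `hI` gives `Dv F t1 ≤ g + β W Λ1 + hole + β pw 1 M`; `Eb τ ≤ e · e^{-τ}`.  Sources with `s ∈ (t0,t)`: `Sd_crude`.  Sources with `s ≤ t0`: `late_src`; `Eb(t-s) Eb(s-t1)² ≤ Eb'(t-t1)`; `late_cold`; `∫ Eb(t-s) ds ≤ 2`.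
(i) the `Z` term: on `(t1,t2)` it is `≤ √a C' K² W`; on `(t2,t0)` `dlt ≤ δ0`, `Z ≤ ε (1+‖v‖) W` and `∫ (1+‖v‖) exp(-2(1+‖v‖)(t0-s)) ds ≤ 1/2`.  Choose `K` (at least 8 times the constant of the initial term), `ε = 1`-ish small, `δ0 = min δ (1/7)`, then `β`.
(ii) integrate against `pw 1`; `late_PB`, `moment_of_PB`, `hole_small` (here `x - (t-t1) v - t1 v = x - t v`, `t ≥ √a`); for the `Z` term choose `ε' ≪ δ0`, `δ'` from `late_src`, and use `Z ≤ ε'(1+‖v‖)W + C'K² W 1[dlt(s, x-(t-s)v) > δ']`;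
the set `A_s = {y | dlt (F s y) > δ'}` is periodic with `|A_s ∩ cell| ≤ η/δ'` (Markov); `avg_small` for `t - s ≥ κ`, and `κ` small. -/

set_option autoImplicit false

open MeasureTheory Set Filter Topology Crest.AnalysisR.VecCalc3 Crest.AnalysisR.PDE.Boltzmann
open scoped ENNReal NNReal

namespace Crest.Agent.R68

theorem LateStep.int_exp {μ : ℝ} (hμ : 0 < μ) (a b : ℝ) :
    ∫⁻ s in Ioo a b, ENNReal.ofReal (μ * Real.exp (-(μ * (b - s)))) ≤ 1 := by
  have e : ∀ s, μ * Real.exp (-(μ * (b - s))) = (μ * Real.exp (-(μ * b))) * Real.exp (μ * s) := fun s => by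
    rw [mul_assoc, ← Real.exp_add]; congr 2; ring
  simp only [e]
  refine (lintegral_mono_set (Ioo_subset_Iio_self.trans Iio_subset_Iic_self)).trans ?_
  rw [← ofReal_integral_eq_lintegral_ofReal ((integrableOn_exp_mul_Iic hμ b).const_mul _)
    (Eventually.of_forall fun s => by positivity), integral_const_mul, integral_exp_mul_Iic hμ]
  refine ENNReal.ofReal_le_one.2 (le_of_eq ?_)
  rw [Real.exp_neg]
  field_simp

theorem LateStep.measurable_Eb : Measurable Eb := by unfold Eb; fun_prop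

theorem LateStep.Eb_le_one (τ : ℝ) : Eb τ ≤ 1 := ENNReal.ofReal_le_one.2 (min_le_left _ _)

theorem LateStep.Eb_le (τ : ℝ) : Eb τ ≤ ENNReal.ofReal (Real.exp (1 - 2 * τ)) :=
  ENNReal.ofReal_le_ofReal (min_le_right _ _)

theorem LateStep.int_Eb (a : ℝ) {b t : ℝ} (h : b ≤ t) : ∫⁻ s in Ioo a b, Eb (t - s) ≤ 2 := by
  calc ∫⁻ s in Ioo a b, Eb (t - s) ≤ ∫⁻ s in Ioo a t, 2 * ENNReal.ofReal (2 * Real.exp (-(2 * (t - s)))) := by
        refine (lintegral_mono_set (Ioo_subset_Ioo_right h)).trans (lintegral_mono fun s => ?_)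
        refine (LateStep.Eb_le _).trans ?_
        rw [← ENNReal.ofReal_ofNat 2, ← ENNReal.ofReal_mul (by norm_num)]
        refine ENNReal.ofReal_le_ofReal ?_
        rw [sub_eq_add_neg, Real.exp_add]
        have := Real.exp_one_lt_d9
        have := Real.exp_pos (-(2 * (t - s)))
        nlinarith
    _ ≤ 2 * 1 := by
        rw [lintegral_const_mul' _ _ (by norm_num)]
        exact mul_le_mul_right (LateStep.int_exp (by norm_num) a t) _
    _ = 2 := mul_one _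

theorem LateStep.Eb_Eb {t1 s t : ℝ} : Eb (t - s) * Eb (s - t1) ^ 2 ≤ Eb' (t - t1) := by
  calc Eb (t - s) * Eb (s - t1) ^ 2 = Eb (t - s) * Eb (s - t1) * Eb (s - t1) := by ring
    _ ≤ ENNReal.ofReal (Real.exp (1 - 2 * (t - s))) * ENNReal.ofReal (Real.exp (1 - 2 * (s - t1))) * 1 :=
        mul_le_mul' (mul_le_mul' (LateStep.Eb_le _) (LateStep.Eb_le _)) (LateStep.Eb_le_one _)
    _ ≤ _ := by
        rw [mul_one, ← ENNReal.ofReal_mul (Real.exp_pos _).le, ← Real.exp_add]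
        exact ENNReal.ofReal_le_ofReal (Real.exp_le_exp.2 (by linarith))

theorem LateStep.Eb_ew {τ : ℝ} (h : 0 ≤ τ) : Eb τ ≤ 3 * ew 1 τ := by
  refine (LateStep.Eb_le _).trans ?_
  unfold ew
  rw [← ENNReal.ofReal_ofNat 3, ← ENNReal.ofReal_mul (by norm_num)]
  refine ENNReal.ofReal_le_ofReal ?_
  calc Real.exp (1 - 2 * τ) ≤ Real.exp (1 + -(1 * τ)) := Real.exp_le_exp.2 (by linarith)
    _ = Real.exp 1 * Real.exp (-(1 * τ)) := Real.exp_add _ _
    _ ≤ _ := mul_le_mul_of_nonneg_right (by have := Real.exp_one_lt_d9; linarith) (Real.exp_pos _).le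

theorem LateStep.Ex_Eb {F : Den} (hF : MeasD F) {t2 t0 s t : ℝ} (h0 : t0 ≤ t) (h4 : t - t0 ≤ 1 / 4)
    (h2 : t2 ≤ 1 / 4) (hs : 0 ≤ s) (hd : ∀ σ ∈ Ico t2 t0, ∀ y, dlt (F σ y) ≤ 7⁻¹) (x v : R3) :
    Ex F s t x v ≤ Eb (t - s) := by
  unfold Eb
  rw [ENNReal.ofReal_min, ENNReal.ofReal_one]
  refine le_min (Ex_le_one _ _ _ _ _) ?_
  have h3 : max s t2 ≤ s + 1 / 4 := max_le (by linarith) (by linarith)
  rcases le_total 0 (t0 - max s t2) with h | h
  · refine (Ex_decay hF h0 hd x v).trans (ENNReal.ofReal_le_ofReal (Real.exp_le_exp.2 ?_))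
    nlinarith [norm_nonneg v]
  · exact (Ex_le_one _ _ _ _ _).trans (ENNReal.one_le_ofReal.2 (Real.one_le_exp (by linarith)))

theorem LateStep.MM_le (v : R3) : MM v ≤ W (1 / 2) v :=
  (MM_le_W v).trans (ENNReal.ofReal_le_ofReal (Real.exp_le_exp.2 (by nlinarith [norm_nonneg v])))

theorem LateStep.pw_le (v : R3) : pw 1 v ≤ pw 2 v :=
  ENNReal.ofReal_le_ofReal (by nlinarith [norm_nonneg v])

theorem LateStep.pw_mul (v : R3) : pw 1 v * pw 1 v = pw 2 v := by
  unfold pw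
  rw [← ENNReal.ofReal_mul (by positivity)]
  congr 1; ring

theorem LateStep.one_le_pw (k : ℕ) (v : R3) : 1 ≤ pw k v :=
  ENNReal.one_le_ofReal.2 (one_le_pow₀ (by linarith [norm_nonneg v]))

theorem LateStep.int_W : ∃ C : ℝ≥0, ∫⁻ v, W (1 / 2) v * pw 2 v ≤ C := by
  obtain ⟨C, hC⟩ := moment_of_PB (lam := 1 / 2) (by norm_num) 2
  refine ⟨C * (4 * Real.exp (1 / 2)).toNNReal, (hC (measurable_W _) (PB_W (by norm_num))).trans (le_of_eq ?_)⟩
  rfl

/-- the mild inequality with all sources estimated except the `Z` term -/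
theorem LateStep.master {F0 : R3 → R3 → ℝ≥0∞} {T : ℝ} {F : Den} {t1 t0 t : ℝ} {g : R3 → R3 → ℝ≥0∞}
    (h : Sol F0 T F) (hg : Meas2 g) (h0 : 0 ≤ t1) (h1 : t1 ≤ t0) (h2 : t0 ≤ t) (h3 : t ≤ T) (x v : R3)
    {c1 c2 c3 L : ℝ≥0∞} (Zb : ℝ → ℝ≥0∞)
    (hE : ∀ s, t1 ≤ s → Ex F s t x v ≤ Eb (t - s))
    (hcr : ∀ s ∈ Ioo t0 t, Sd (Dv F s (x - (t - s) • v)) v ≤ c3)
    (hcold : ∫⁻ s in Ioo t1 t, Eb (t - s) * Eb (s - t1) *
      ((∫⁻ a, tr t1 g s (x - (t - s) • v) a) + S2 (tr t1 g s (x - (t - s) • v)) v) ≤ L)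
    (hsrc : ∀ s ∈ Ioo t1 t0, ∃ Z, Sd (Dv F s (x - (t - s) • v)) v ≤
      Eb (s - t1) ^ 2 * Qp (tr t1 g s (x - (t - s) • v)) (tr t1 g s (x - (t - s) • v)) v +
        c1 * (Eb (s - t1) * ((∫⁻ a, tr t1 g s (x - (t - s) • v) a) + S2 (tr t1 g s (x - (t - s) • v)) v)) +
        c2 + Z ∧ Ex F s t x v * Z ≤ Zb s) :
    Dv F t x v ≤ Dv F t1 (x - (t - t1) • v) v * Eb (t - t1) + Eb' (t - t1) * Ds t1 g t x v + c1 * L + c2 * 2 +
      c3 * ENNReal.ofReal (t - t0) + ∫⁻ s in Ioo t1 t0, Zb s := by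
  have hm : Measurable (Function.uncurry fun (s : ℝ) (a : R3) => tr t1 g s (x - (t - s) • v) a) :=
    (measD_tr t1 hg).comp (t := fun z : ℝ × R3 => z.1) (x := fun z => x - (t - z.1) • v) (v := fun z => z.2)
      (by fun_prop) (by fun_prop) (by fun_prop)
  have hQ : Measurable fun s : ℝ => Qp (tr t1 g s (x - (t - s) • v)) (tr t1 g s (x - (t - s) • v)) v :=
    meas_Qp hm hm measurable_const
  have hE1 : Measurable fun s : ℝ => Eb (t - s) := LateStep.measurable_Eb.comp (by fun_prop)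
  have hE2 : Measurable fun s : ℝ => Eb (s - t1) := LateStep.measurable_Eb.comp (by fun_prop)
  have hB : Measurable fun s : ℝ => Eb (t - s) * Eb (s - t1) *
      ((∫⁻ a, tr t1 g s (x - (t - s) • v) a) + S2 (tr t1 g s (x - (t - s) • v)) v) :=
    (hE1.mul hE2).mul ((Measurable.lintegral_prod_right hm).add (meas_S2 hm measurable_const))
  refine (dev_mild h h0 (h1.trans h2) h3 x v).trans ?_
  rw [Basic2A.split _ h1 h2]
  have e1 : ∫⁻ s in Ioo t0 t, Ex F s t x v * Sd (Dv F s (x - (t - s) • v)) v ≤ c3 * ENNReal.ofReal (t - t0) := by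
    rw [← Real.volume_Ioo, ← setLIntegral_const]
    exact setLIntegral_mono' measurableSet_Ioo fun s hs =>
      (mul_le_of_le_one_left' (Ex_le_one _ _ _ _ _)).trans (hcr s hs)
  have e2 : ∫⁻ s in Ioo t1 t0, Ex F s t x v * Sd (Dv F s (x - (t - s) • v)) v ≤
      Eb' (t - t1) * Ds t1 g t x v + c1 * L + c2 * 2 + ∫⁻ s in Ioo t1 t0, Zb s := by
    calc _ ≤ ∫⁻ s in Ioo t1 t0,
          (Eb' (t - t1) * Qp (tr t1 g s (x - (t - s) • v)) (tr t1 g s (x - (t - s) • v)) v +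
          c1 * (Eb (t - s) * Eb (s - t1) *
            ((∫⁻ a, tr t1 g s (x - (t - s) • v) a) + S2 (tr t1 g s (x - (t - s) • v)) v)) +
          c2 * Eb (t - s) + Zb s) := by
          refine setLIntegral_mono' measurableSet_Ioo fun s hs => ?_
          obtain ⟨Z, hZ, hZ'⟩ := hsrc s hs
          refine (mul_le_mul_right hZ _).trans ?_
          rw [mul_add]
          refine add_le_add ((mul_le_mul_left (hE s hs.1.le) _).trans ?_) hZ'
          rw [mul_add, mul_add, ← mul_assoc, mul_comm _ c2, mul_left_comm _ c1, ← mul_assoc (Eb (t - s))]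
          exact add_le_add (add_le_add (mul_le_mul_left LateStep.Eb_Eb _) le_rfl) le_rfl
      _ ≤ _ := by
          rw [lintegral_add_left (((hQ.const_mul _).fun_add (hB.const_mul _)).fun_add (hE1.const_mul _)),
            lintegral_add_left ((hQ.const_mul _).fun_add (hB.const_mul _)), lintegral_add_left (hQ.const_mul _),
            lintegral_const_mul _ hQ, lintegral_const_mul _ hB, lintegral_const_mul _ hE1]
          refine add_le_add (add_le_add (add_le_add (mul_le_mul_right ?_ _) (mul_le_mul_right ?_ _))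
            (mul_le_mul_right (LateStep.int_Eb t1 h2) _)) le_rfl
          · exact lintegral_mono_set (Ioo_subset_Ioo_right h2)
          · exact (lintegral_mono_set (Ioo_subset_Ioo_right h2)).trans hcold
  calc _ ≤ Dv F t1 (x - (t - t1) • v) v * Eb (t - t1) +
        ((Eb' (t - t1) * Ds t1 g t x v + c1 * L + c2 * 2 + ∫⁻ s in Ioo t1 t0, Zb s) +
          c3 * ENNReal.ofReal (t - t0)) :=
        add_le_add (mul_le_mul_right (hE t1 le_rfl) _) (add_le_add e2 e1)
    _ = _ := by ring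

theorem late_step (C : ℝ≥0) : ∃ K δ0 β η : ℝ≥0, 1 ≤ K ∧ 0 < δ0 ∧ 0 < β ∧ (β : ℝ) ≤ 1 / 16 ∧ 0 < η ∧
    ∀ KF : ℝ≥0, ∃ CF : ℝ≥0,
    ∀ {F0 : R3 → R3 → ℝ≥0∞} {T : ℝ} {F : Den} {ρ : ℝ≥0∞} {t1 a R : ℝ} {g Λ1 : R3 → R3 → ℝ≥0∞},
    Mild F0 T F → Bd (1 / 2) KF T F → (∀ t ∈ Icc 0 T, ∀ v, IsPeriodic3 (fun x => F t x v)) →
    ρ ≠ 0 → ρ ≤ β → LateIn C ρ t1 g Λ1 → 0 < a → a ≤ β → 1 ≤ β * R → 0 ≤ t1 → t1 ≤ Real.sqrt a →
    (∀ x v, Dv F t1 x v ≤ g x v + β * (W (1 / 2) v * Λ1 x v) + hole a R (x - t1 • v) v + β * (MM v * pw 1 v)) →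
    (∀ t ∈ Icc t1 T, ∫⁻ x in cell, dlt (F t x) ≤ η) →
    ∀ t0 t, t1 ≤ t0 → t0 ≤ t → t ≤ T → t - t0 ≤ 1 / 4 →
    (∀ s ∈ Ico t1 t0, ∀ y, DevLe t1 ρ g Λ1 K F s y) → (∀ s ∈ Ico (Real.sqrt a) t0, ∀ y, dlt (F s y) ≤ δ0) →
    ∀ x, DevLe t1 ρ g Λ1 (K / 2 + CF * ENNReal.ofReal (t - t0)) F t x ∧
      (Real.sqrt a ≤ t → dlt (F t x) ≤ δ0 / 2 + CF * ENNReal.ofReal (t - t0)) := by
  classical
  obtain ⟨C1, hC1⟩ := late_src C
  obtain ⟨C2, hC2⟩ := late_cold C
  obtain ⟨C3, hC31, hC3⟩ := late_PB C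
  obtain ⟨C4, hC4⟩ := moment_of_PB (lam := 1 / 2) (by norm_num) 1
  obtain ⟨C5, hC5⟩ := PB_WLam
  obtain ⟨C6, hC6⟩ := MM_pw
  obtain ⟨C7, hC7⟩ := LateStep.int_W
  obtain ⟨K, hK⟩ : ∃ K : ℝ≥0, K = 2 * (C6 + 6) := ⟨_, rfl⟩
  have hK1 : 1 ≤ K := by
    rw [hK]
    calc (1 : ℝ≥0) ≤ 2 * (0 + 6) := by norm_num
      _ ≤ _ := by gcongr; exact zero_le
  obtain ⟨δ1, hδ1, h1⟩ := hC1 K 1 hK1 one_pos
  obtain ⟨δ0, hδ0, hδ01, hδ07⟩ : ∃ δ0 : ℝ≥0, 0 < δ0 ∧ δ0 ≤ δ1 ∧ δ0 ≤ 7⁻¹ :=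
    ⟨min δ1 7⁻¹, lt_min hδ1 (by norm_num), min_le_left _ _, min_le_right _ _⟩
  obtain ⟨B1, hB1⟩ : ∃ B1 : ℝ≥0, B1 = C1 * K * C2 + C1 * K * 2 + C1 * K ^ 2 := ⟨_, rfl⟩
  obtain ⟨B2, hB2⟩ : ∃ B2 : ℝ≥0, B2 = 4 * C3 + C3 + 1 + C6 * C7 + C4 * C3 + C1 * K * C2 * (C4 * (C5 * C3)) +
    C1 * K * 2 * C7 + (2 * C7 + C1 * K ^ 2 * (2 + C7)) := ⟨_, rfl⟩
  obtain ⟨e, he, he1, he2⟩ : ∃ e : ℝ≥0, 0 < e ∧ B1 * e ≤ 1 ∧ B2 * e ≤ δ0 / 2 := by
    refine ⟨min (1 / (B1 + 1)) (δ0 / 2 / (B2 + 1)), lt_min (by positivity) (by positivity), ?_, ?_⟩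
    · calc _ ≤ (B1 + 1) * (1 / (B1 + 1)) := mul_le_mul' le_self_add (min_le_left _ _)
        _ = 1 := by field_simp
    · calc _ ≤ (B2 + 1) * (δ0 / 2 / (B2 + 1)) := mul_le_mul' le_self_add (min_le_right _ _)
        _ = δ0 / 2 := by field_simp
  obtain ⟨βh, hβh, hh⟩ := hole_small he
  obtain ⟨δ2, hδ2, h2⟩ := hC1 K e hK1 he
  obtain ⟨η', hη', hav⟩ := avg_small he (κ := e) (by exact_mod_cast he)
  obtain ⟨b, hb, hbe, hb4, hbh⟩ : ∃ b : ℝ≥0, 0 < b ∧ b ≤ e ∧ (b : ℝ) ≤ 1 / 4 ∧ (b : ℝ) ≤ βh := by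
    refine ⟨min e (min (1 / 4) βh.toNNReal), lt_min he (lt_min (by norm_num) (Real.toNNReal_pos.2 hβh)),
      min_le_left _ _, ?_, ?_⟩
    · have : min e (min (1 / 4) βh.toNNReal) ≤ 1 / 4 := (min_le_right _ _).trans (min_le_left _ _)
      exact_mod_cast this
    · have : min e (min (1 / 4) βh.toNNReal) ≤ βh.toNNReal := (min_le_right _ _).trans (min_le_right _ _)
      exact (NNReal.coe_le_coe.2 this).trans (Real.coe_toNNReal _ hβh.le).le
  have hb0 : (0 : ℝ) < b := hb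
  have hbb : b ^ 2 ≤ b := by
    rw [← NNReal.coe_le_coe]; push_cast; nlinarith
  have hb1 : b ≤ 1 := by
    rw [← NNReal.coe_le_coe]; push_cast; linarith
  refine ⟨K, δ0, b ^ 2, η' * δ2, hK1, hδ0, by positivity, by push_cast; nlinarith, by positivity, fun KF => ?_⟩
  obtain ⟨CF0, hCF⟩ := Sd_crude KF
  refine ⟨CF0 * (1 + C7), ?_⟩
  intro F0 T F ρ t1 a R g Λ1 hM hBd hper hρ0 hρ hL ha0 ha hR ht10 ht1a hI hη t0 t h10 h0t htT ht4 hDev hdl x
  have hF := hM.1
  have hSol : Sol F0 T F := ⟨hM, KF, hBd⟩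
  have hβe : ((b ^ 2 : ℝ≥0) : ℝ≥0∞) ≤ e := ENNReal.coe_le_coe.2 (hbb.trans hbe)
  have hβ1 : ((b ^ 2 : ℝ≥0) : ℝ≥0∞) ≤ 1 := by exact_mod_cast hbb.trans hb1
  have hρe : ρ ≤ e := hρ.trans hβe
  have hρ1 : ρ ≤ 1 := hρ.trans hβ1
  have hρt : ρ ≠ ⊤ := ne_top_of_le_ne_top ENNReal.one_ne_top hρ1
  have h1t : t1 ≤ t := h10.trans h0t
  have hsa : Real.sqrt a ≤ b := Real.sqrt_le_iff.2 ⟨hb0.le, by exact_mod_cast ha⟩
  have hd7 : ∀ σ ∈ Ico (Real.sqrt a) t0, ∀ y, dlt (F σ y) ≤ 7⁻¹ := fun σ hσ y =>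
    (hdl σ hσ y).trans (by
      have := ENNReal.coe_le_coe.2 hδ07
      rwa [ENNReal.coe_inv (by norm_num), ENNReal.coe_ofNat] at this)
  have hE : ∀ v s, t1 ≤ s → Ex F s t x v ≤ Eb (t - s) := fun v s hs =>
    LateStep.Ex_Eb hF h0t ht4 (hsa.trans hb4) (ht10.trans hs) hd7 x v
  have hcr : ∀ v, ∀ s ∈ Ioo t0 t, Sd (Dv F s (x - (t - s) • v)) v ≤ CF0 * W (1 / 2) v := fun v s hs =>
    hCF (hF.vel s _) (hBd s ⟨by linarith [hs.1], by linarith [hs.2]⟩ _) v
  obtain ⟨hP1, hP2, hP3, hP4⟩ := hC3 hρ0 hρt hL t h1t x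
  -- the master inequality
  have master : ∀ v (Zb : ℝ → ℝ≥0∞), (∀ s ∈ Ioo t1 t0, ∃ Z, Sd (Dv F s (x - (t - s) • v)) v ≤
      Eb (s - t1) ^ 2 * Qp (tr t1 g s (x - (t - s) • v)) (tr t1 g s (x - (t - s) • v)) v +
        C1 * K * (W (1 / 2) v *
          (Eb (s - t1) * ((∫⁻ a, tr t1 g s (x - (t - s) • v) a) + S2 (tr t1 g s (x - (t - s) • v)) v))) +
        C1 * K * ρ * W (1 / 2) v + Z ∧ Ex F s t x v * Z ≤ Zb s) →
      Dv F t x v ≤ Eb (t - t1) * tr t1 g t x v +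
        (b ^ 2 : ℝ≥0) * (Eb (t - t1) * (W (1 / 2) v * tr t1 Λ1 t x v)) + hole a R (x - t • v) v +
        (b ^ 2 : ℝ≥0) * (MM v * pw 1 v) + Eb' (t - t1) * Ds t1 g t x v +
        C1 * K * C2 * e * (W (1 / 2) v * Lam2 t1 ρ g Λ1 t x v) + C1 * K * 2 * e * W (1 / 2) v +
        CF0 * ENNReal.ofReal (t - t0) * W (1 / 2) v + ∫⁻ s in Ioo t1 t0, Zb s := by
    intro v Zb hZ
    refine (LateStep.master hSol hL.meas_g ht10 h10 h0t htT x v (c1 := C1 * K * W (1 / 2) v)
      (c2 := C1 * K * ρ * W (1 / 2) v) Zb (hE v) (hcr v) (hC2 hρ0 hρt hL t h1t x v) fun s hs => ?_).trans ?_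
    · obtain ⟨Z, hZ1, hZ2⟩ := hZ s hs
      exact ⟨Z, by rwa [mul_assoc _ (W (1 / 2) v) (_ * _)], hZ2⟩
    · refine add_le_add (add_le_add (add_le_add (add_le_add (add_le_add ?_ le_rfl) ?_) ?_) (le_of_eq (by ring))) le_rfl
      · refine (mul_le_mul_left (hI _ v) _).trans ?_
        have e1 : x - (t - t1) • v - t1 • v = x - t • v := by rw [sub_sub, ← add_smul, sub_add_cancel]
        rw [e1, add_mul, add_mul, add_mul]
        refine add_le_add (add_le_add (add_le_add (le_of_eq (mul_comm _ _)) (le_of_eq ?_))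
          (mul_le_of_le_one_right' (LateStep.Eb_le_one _))) (mul_le_of_le_one_right' (LateStep.Eb_le_one _))
        unfold tr; ring
      · calc _ = C1 * K * C2 * ρ * (W (1 / 2) v * Lam2 t1 ρ g Λ1 t x v) := by ring
          _ ≤ _ := by gcongr
      · calc _ = C1 * K * 2 * ρ * W (1 / 2) v := by ring
          _ ≤ _ := by gcongr
  refine ⟨fun v => ?_, fun hat => ?_⟩
  · -- the pointwise bound
    have hWL : W (1 / 2) v ≤ W (1 / 2) v * Lam2 t1 ρ g Λ1 t x v := le_mul_of_one_le_right' (one_le_Lam2 _ _ _ _ _ _ _)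
    have hμ : 0 < 2 * (1 + ‖v‖) := by positivity
    refine (master v (fun s => W (1 / 2) v * ((Iio (Real.sqrt a)).indicator (fun _ => (C1 : ℝ≥0∞) * K ^ 2) s +
      ENNReal.ofReal (2 * (1 + ‖v‖) * Real.exp (-(2 * (1 + ‖v‖) * (t0 - s)))))) fun s hs => ?_).trans ?_
    · obtain ⟨Z, hZ1, hZ2, hZ3⟩ := h1 hρ0 hρ1 hL hF s hs.1.le _ (hDev s ⟨hs.1.le, hs.2⟩ (x - (t - s) • v)) v
      refine ⟨Z, hZ1, ?_⟩
      rcases lt_or_ge s (Real.sqrt a) with hsa' | hsa'
      · rw [indicator_of_mem (mem_Iio.2 hsa')]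
        calc _ ≤ 1 * (C1 * K ^ 2 * W (1 / 2) v) := mul_le_mul' (Ex_le_one _ _ _ _ _) hZ2
          _ = W (1 / 2) v * (C1 * K ^ 2) := by ring
          _ ≤ _ := mul_le_mul_right le_self_add _
      · have h3 := hZ3 ((hdl s ⟨hsa', hs.2⟩ _).trans (ENNReal.coe_le_coe.2 hδ01))
        have h4 := Ex_decay (s := s) hF h0t hd7 x v
        rw [max_eq_left hsa'] at h4
        calc _ ≤ _ := mul_le_mul' h4 h3
          _ = W (1 / 2) v * ENNReal.ofReal ((1 + ‖v‖) * Real.exp (-(2 * (1 + ‖v‖) * (t0 - s)))) := by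
            rw [ENNReal.ofReal_mul (by positivity)]; push_cast; ring
          _ ≤ _ := by
            refine mul_le_mul_right (le_trans (ENNReal.ofReal_le_ofReal ?_) le_add_self) _
            exact mul_le_mul_of_nonneg_right (by linarith [norm_nonneg v]) (Real.exp_pos _).le
    · have z1 : ∫⁻ s in Ioo t1 t0, W (1 / 2) v * ((Iio (Real.sqrt a)).indicator (fun _ => (C1 : ℝ≥0∞) * K ^ 2) s +
          ENNReal.ofReal (2 * (1 + ‖v‖) * Real.exp (-(2 * (1 + ‖v‖) * (t0 - s))))) ≤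
          W (1 / 2) v * (C1 * K ^ 2 * e + 1) := by
        rw [lintegral_const_mul' (W (1 / 2) v) _ ENNReal.ofReal_ne_top,
          lintegral_add_left (measurable_const.indicator measurableSet_Iio)]
        refine mul_le_mul_right (add_le_add ?_ (LateStep.int_exp hμ t1 t0)) _
        rw [lintegral_indicator measurableSet_Iio, setLIntegral_const, Measure.restrict_apply measurableSet_Iio]
        refine mul_le_mul_right ((measure_mono (t := Ioo 0 (Real.sqrt a))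
          fun s hs => ⟨ht10.trans_lt hs.2.1, hs.1⟩).trans ?_) _
        rw [Real.volume_Ioo, sub_zero, ← ENNReal.ofReal_coe_nnreal]
        exact ENNReal.ofReal_le_ofReal (hsa.trans (NNReal.coe_le_coe.2 hbe))
      have z2 : Eb (t - t1) * (W (1 / 2) v * tr t1 Λ1 t x v) ≤ 3 * (W (1 / 2) v * Lam2 t1 ρ g Λ1 t x v) := by
        calc _ ≤ 3 * ew 1 (t - t1) * (W (1 / 2) v * tr t1 Λ1 t x v) :=
              mul_le_mul_left (LateStep.Eb_ew (by linarith)) _
          _ = 3 * (W (1 / 2) v * (ew 1 (t - t1) * tr t1 Λ1 t x v)) := by ring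
          _ ≤ _ := mul_le_mul_right (mul_le_mul_right
              (le_trans (mul_le_mul_right le_self_add _) le_add_self) _) _
      have z3 : hole a R (x - t • v) v ≤ W (1 / 2) v := by
        unfold hole
        split_ifs
        · exact LateStep.MM_le v
        · exact zero_le
      have z4 : MM v * pw 1 v ≤ C6 * W (1 / 2) v := (mul_le_mul_right (LateStep.pw_le v) _).trans (hC6 v)
      have z5 : ((B1 * e : ℝ≥0) : ℝ≥0∞) ≤ 1 := by exact_mod_cast he1
      have z6 : (K : ℝ≥0∞) / 2 = C6 + 6 := by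
        rw [hK]; push_cast
        rw [mul_comm, mul_div_assoc, ENNReal.div_self (by norm_num) (by norm_num), mul_one]
      set WL := W (1 / 2) v * Lam2 t1 ρ g Λ1 t x v with hWLd
      calc _ ≤ Eb (t - t1) * tr t1 g t x v + 1 * (3 * WL) + WL + 1 * (C6 * WL) + Eb' (t - t1) * Ds t1 g t x v +
            C1 * K * C2 * e * WL + C1 * K * 2 * e * WL + CF0 * ENNReal.ofReal (t - t0) * WL +
            WL * (C1 * K ^ 2 * e + 1) := by
            refine add_le_add (add_le_add (add_le_add (add_le_add (add_le_add (add_le_add (add_le_add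
              (add_le_add le_rfl (mul_le_mul' hβ1 z2)) (z3.trans hWL))
              (mul_le_mul' hβ1 (z4.trans (mul_le_mul_right hWL _)))) le_rfl) le_rfl) (mul_le_mul_right hWL _))
              (mul_le_mul_right hWL _)) (z1.trans (mul_le_mul_left hWL _))
        _ = Eb (t - t1) * tr t1 g t x v + Eb' (t - t1) * Ds t1 g t x v +
            (C6 + 5 + ((B1 * e : ℝ≥0) : ℝ≥0∞) + CF0 * 1 * ENNReal.ofReal (t - t0)) * WL := by
            rw [hB1]; push_cast; ring
        _ ≤ _ := by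
            rw [z6, show (6 : ℝ≥0∞) = 5 + 1 by norm_num, ← add_assoc (C6 : ℝ≥0∞)]
            push_cast at z5 ⊢
            gcongr
            exact le_self_add
  · -- the local deviation
    let A : ℝ → Set R3 := fun s => {y | (δ2 : ℝ≥0∞) < dlt (F s y)}
    have hAm : MeasurableSet {q : ℝ × R3 | q.2 ∈ A q.1} := measurableSet_lt measurable_const (measurable_dlt hF)
    have hW := measurable_W (1 / 2)
    have hpw := measurable_pw
    let S : Set (R3 × ℝ) := {q | x - (t - q.2) • q.1 ∈ A q.2}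
    have hS : MeasurableSet S := hAm.preimage (f := fun q : R3 × ℝ => (q.2, x - (t - q.2) • q.1)) (by fun_prop)
    let Zb : R3 → ℝ → ℝ≥0∞ := fun v s => Eb (t - s) * (e * (pw 1 v * W (1 / 2) v) +
      C1 * K ^ 2 * S.indicator (fun q => W (1 / 2) q.1) (v, s))
    have hZm : Measurable (Function.uncurry Zb) :=
      (LateStep.measurable_Eb.comp (by fun_prop)).mul
        (((((hpw 1).comp measurable_fst).mul (hW.comp measurable_fst)).const_mul _).add
          (((hW.comp measurable_fst).indicator hS).const_mul _))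
    have hpt := fun v => master v (Zb v) fun s hs => by
      obtain ⟨Z, hZ1, hZ2, hZ3⟩ := h2 hρ0 hρ1 hL hF s hs.1.le _ (hDev s ⟨hs.1.le, hs.2⟩ (x - (t - s) • v)) v
      refine ⟨Z, hZ1, mul_le_mul' (hE v s hs.1.le) ?_⟩
      by_cases hv : (v, s) ∈ S
      · rw [indicator_of_mem hv]
        exact hZ2.trans le_add_self
      · refine (hZ3 (not_lt.1 hv)).trans (le_trans (le_of_eq ?_) le_self_add)
        simp [pw]
    have i7 : ∫⁻ v, W (1 / 2) v * pw 1 v ≤ C7 :=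
      (lintegral_mono fun v => mul_le_mul_right (LateStep.pw_le v) _).trans hC7
    have m1 : Measurable fun v => Eb (t - t1) * tr t1 g t x v := ((measD_tr t1 hL.meas_g).vel t x).const_mul _
    have m2 : Measurable fun v => Eb (t - t1) * (W (1 / 2) v * tr t1 Λ1 t x v) :=
      (hW.mul ((measD_tr t1 hL.meas_L).vel t x)).const_mul _
    have m3 : Measurable fun v => hole a R (x - t • v) v :=
      (meas2_hole a R).comp (x := fun v => x - t • v) (v := fun v => v) (by fun_prop) measurable_id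
    have m4 : Measurable fun v => MM v * pw 1 v := measurable_MM.fun_mul (hpw 1)
    have m5 : Measurable fun v => Eb' (t - t1) * Ds t1 g t x v := ((measD_Ds t1 hL.meas_g).vel t x).const_mul _
    have m6' : Measurable (Lam2 t1 ρ g Λ1 t x) := (measD_Lam2 t1 ρ hL.meas_g hL.meas_L).vel t x
    have m6 : Measurable fun v => W (1 / 2) v * Lam2 t1 ρ g Λ1 t x v := hW.mul m6'
    have i1 : ∫⁻ v, Eb (t - t1) * tr t1 g t x v * pw 1 v ≤ 4 * C3 * e := by
      calc _ ≤ ∫⁻ v, 4 * (Eb (t - t1) * tr t1 g t x v) := by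
            refine lintegral_mono fun v => ?_
            by_cases hv : tr t1 g t x v = 0
            · simp [hv]
            · rw [mul_comm]
              refine mul_le_mul_left ?_ _
              have := hL.supp _ _ hv
              rw [← ENNReal.ofReal_ofNat 4]
              exact ENNReal.ofReal_le_ofReal (by linarith)
        _ ≤ 4 * (C3 * e) := by
            rw [lintegral_const_mul _ m1]
            exact mul_le_mul_right (hP3.trans (mul_le_mul_right hρe _)) _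
        _ = _ := by ring
    have i2 : ∫⁻ v, (b ^ 2 : ℝ≥0) * (Eb (t - t1) * (W (1 / 2) v * tr t1 Λ1 t x v)) * pw 1 v ≤ C3 * e := by
      simp only [mul_assoc ((b ^ 2 : ℝ≥0) : ℝ≥0∞)]
      rw [lintegral_const_mul _ (m2.fun_mul (hpw 1)), mul_comm]
      exact mul_le_mul' hP4 hβe
    have i3 : ∫⁻ v, hole a R (x - t • v) v * pw 1 v ≤ 1 * e := by
      rw [one_mul]
      have hβh' : ((b ^ 2 : ℝ≥0) : ℝ) ≤ βh := (NNReal.coe_le_coe.2 hbb).trans hbh
      have hR0 : 0 ≤ R := by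
        by_contra hn
        have : ((b ^ 2 : ℝ≥0) : ℝ) * R ≤ 0 := mul_nonpos_of_nonneg_of_nonpos (NNReal.coe_nonneg _) (not_le.1 hn).le
        linarith
      exact hh a R t ha0 (ha.trans hβh') (hR.trans (mul_le_mul_of_nonneg_right hβh' hR0)) hat x
    have i4 : ∫⁻ v, (b ^ 2 : ℝ≥0) * (MM v * pw 1 v) * pw 1 v ≤ C6 * C7 * e := by
      simp only [mul_assoc ((b ^ 2 : ℝ≥0) : ℝ≥0∞)]
      rw [lintegral_const_mul _ (m4.fun_mul (hpw 1)), mul_comm]
      refine mul_le_mul' ?_ hβe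
      calc _ ≤ ∫⁻ v, C6 * (W (1 / 2) v * pw 2 v) := by
            refine lintegral_mono fun v => ?_
            rw [mul_assoc, LateStep.pw_mul]
            exact (hC6 v).trans (mul_le_mul_right (le_mul_of_one_le_right' (LateStep.one_le_pw 2 v)) _)
        _ ≤ _ := by
            rw [lintegral_const_mul _ (hW.fun_mul (hpw 2))]
            exact mul_le_mul_right hC7 _
    have i5 : ∫⁻ v, Eb' (t - t1) * Ds t1 g t x v * pw 1 v ≤ C4 * C3 * e := by
      refine (hC4 m5 hP2).trans ?_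
      rw [mul_assoc, sq]
      exact mul_le_mul_right (mul_le_mul_right ((mul_le_of_le_one_left' hρ1).trans hρe) _) _
    have i6 : ∫⁻ v, C1 * K * C2 * e * (W (1 / 2) v * Lam2 t1 ρ g Λ1 t x v) * pw 1 v ≤
        C1 * K * C2 * (C4 * (C5 * C3)) * e := by
      simp only [mul_assoc ((C1 : ℝ≥0∞) * K * C2 * e)]
      rw [lintegral_const_mul _ (m6.fun_mul (hpw 1)), mul_right_comm _ ((C4 : ℝ≥0∞) * _) (e : ℝ≥0∞)]
      refine mul_le_mul_right ((hC4 m6 (hC5 m6' hP1)).trans (mul_le_mul_right (mul_le_mul_right ?_ _) _)) _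
      calc (C3 : ℝ≥0∞) ^ (2 / 3 : ℝ) ≤ (C3 : ℝ≥0∞) ^ (1 : ℝ) :=
            ENNReal.rpow_le_rpow_of_exponent_le (by exact_mod_cast hC31) (by norm_num)
        _ = C3 := ENNReal.rpow_one _
    have i8 : ∀ c : ℝ≥0∞, ∫⁻ v, c * W (1 / 2) v * pw 1 v ≤ c * C7 := fun c => by
      simp only [mul_assoc c]
      rw [lintegral_const_mul _ (hW.fun_mul (hpw 1))]
      exact mul_le_mul_right i7 _
    have i9 : ∫⁻ v, (∫⁻ s in Ioo t1 t0, Zb v s) * pw 1 v ≤ (2 * C7 + C1 * K ^ 2 * (2 + C7)) * e := by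
      have hZm' : Measurable (Function.uncurry fun v s => Zb v s * pw 1 v) :=
        hZm.mul ((hpw 1).comp measurable_fst)
      have j1 : ∀ s ∈ Ioo t1 t0, ∫⁻ v, Zb v s * pw 1 v ≤ Eb (t - s) * (e * C7 + C1 * K ^ 2 * e) +
          (Ioi (t - e)).indicator (fun _ => (C1 : ℝ≥0∞) * K ^ 2 * C7) s := by
        intro s hs
        have hSs : MeasurableSet {v : R3 | x - (t - s) • v ∈ A s} := measurable_prodMk_right hS
        have j2 : ∫⁻ v, Zb v s * pw 1 v ≤ Eb (t - s) * (e * C7 + C1 * K ^ 2 *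
            ∫⁻ v in {v : R3 | x - (t - s) • v ∈ A s}, W (1 / 2) v * pw 2 v) := by
          calc _ ≤ ∫⁻ v, Eb (t - s) * (e * (W (1 / 2) v * pw 2 v) + C1 * K ^ 2 *
                {v : R3 | x - (t - s) • v ∈ A s}.indicator (fun v => W (1 / 2) v * pw 2 v) v) := by
                refine lintegral_mono fun v => ?_
                rw [mul_assoc, add_mul]
                refine mul_le_mul_right (add_le_add (le_of_eq ?_) ?_) _
                · rw [← LateStep.pw_mul]; ring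
                · rw [mul_assoc]
                  refine mul_le_mul_right ?_ _
                  by_cases hv : (v, s) ∈ S
                  · rw [indicator_of_mem hv, indicator_of_mem (show v ∈ {v : R3 | x - (t - s) • v ∈ A s} from hv)]
                    exact mul_le_mul_right (LateStep.pw_le v) _
                  · rw [indicator_of_notMem hv, zero_mul]; exact zero_le
            _ ≤ _ := by
                rw [lintegral_const_mul' (Eb (t - s)) _ ENNReal.ofReal_ne_top,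
                  lintegral_add_left ((hW.fun_mul (hpw 2)).const_mul _), lintegral_const_mul _ (hW.fun_mul (hpw 2)),
                  lintegral_const_mul _ ((hW.fun_mul (hpw 2)).indicator hSs), lintegral_indicator hSs]
                gcongr
        refine j2.trans ?_
        rcases le_or_gt (e : ℝ) (t - s) with hes | hes
        · refine le_trans ?_ le_self_add
          refine mul_le_mul_right (add_le_add le_rfl (mul_le_mul_right ?_ _)) _
          have hsT : s ∈ Icc 0 T := ⟨by linarith [hs.1], by linarith [hs.2]⟩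
          have hdm : Measurable fun y => dlt (F s y) := (measurable_dlt hF).comp measurable_prodMk_left
          refine hav (A := A s) (measurable_prodMk_left hAm) (fun y i => ?_) ?_ _ hes x
          · have : F s (y + EuclideanSpace.single i 1) = F s y := funext fun v => hper s hsT v y i
            simp only [A, mem_ofPred_eq, this]
          · have j3 := mul_meas_ge_le_lintegral (μ := volume.restrict cell) hdm δ2
            have j4 := j3.trans (hη s ⟨hs.1.le, hsT.2⟩)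
            rw [Measure.restrict_apply (measurableSet_le measurable_const hdm), ENNReal.coe_mul, mul_comm (η' : ℝ≥0∞),
              ENNReal.mul_le_mul_iff_right (by exact_mod_cast hδ2.ne') ENNReal.coe_ne_top] at j4
            refine le_trans (measure_mono (inter_subset_inter_left _ fun y hy => ?_)) j4
            exact le_of_lt (show (δ2 : ℝ≥0∞) < dlt (F s y) from hy)
        · rw [indicator_of_mem (mem_Ioi.2 (by linarith)), mul_add]
          refine add_le_add (mul_le_mul_right le_self_add _) ?_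
          exact (mul_le_of_le_one_left' (LateStep.Eb_le_one _)).trans
            (mul_le_mul_right ((setLIntegral_le_lintegral _ _).trans hC7) _)
      have hE1 : Measurable fun s : ℝ => Eb (t - s) := LateStep.measurable_Eb.comp (by fun_prop)
      calc _ = ∫⁻ v, ∫⁻ s in Ioo t1 t0, Zb v s * pw 1 v :=
            lintegral_congr fun v => (lintegral_mul_const' _ _ ENNReal.ofReal_ne_top).symm
        _ = ∫⁻ s in Ioo t1 t0, ∫⁻ v, Zb v s * pw 1 v := lintegral_lintegral_swap hZm'.aemeasurable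
        _ ≤ ∫⁻ s in Ioo t1 t0, (Eb (t - s) * (e * C7 + C1 * K ^ 2 * e) +
            (Ioi (t - e)).indicator (fun _ => (C1 : ℝ≥0∞) * K ^ 2 * C7) s) := setLIntegral_mono' measurableSet_Ioo j1
        _ ≤ 2 * (e * C7 + C1 * K ^ 2 * e) + C1 * K ^ 2 * C7 * e := by
            rw [lintegral_add_left (hE1.mul_const _), lintegral_mul_const _ hE1,
              lintegral_indicator measurableSet_Ioi, setLIntegral_const, Measure.restrict_apply measurableSet_Ioi]
            refine add_le_add (mul_le_mul_left (LateStep.int_Eb t1 h0t) _) (mul_le_mul_right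
              ((measure_mono (t := Ioo (t - e) t) fun s hs => ⟨hs.1, hs.2.2.trans_le h0t⟩).trans ?_) _)
            rw [Real.volume_Ioo, sub_sub_cancel, ENNReal.ofReal_coe_nnreal]
        _ = _ := by ring
    have z5 : ((B2 * e : ℝ≥0) : ℝ≥0∞) ≤ δ0 / 2 := by
      have := ENNReal.coe_le_coe.2 he2
      rwa [ENNReal.coe_div (by norm_num), ENNReal.coe_ofNat] at this
    have n1 := m1.fun_mul (hpw 1)
    have n2 := n1.fun_add ((m2.const_mul ((b ^ 2 : ℝ≥0) : ℝ≥0∞)).fun_mul (hpw 1))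
    have n3 := n2.fun_add (m3.fun_mul (hpw 1))
    have n4 := n3.fun_add ((m4.const_mul ((b ^ 2 : ℝ≥0) : ℝ≥0∞)).fun_mul (hpw 1))
    have n5 := n4.fun_add (m5.fun_mul (hpw 1))
    have n6 := n5.fun_add ((m6.const_mul ((C1 : ℝ≥0∞) * K * C2 * e)).fun_mul (hpw 1))
    have n7 := n6.fun_add ((hW.const_mul ((C1 : ℝ≥0∞) * K * 2 * e)).fun_mul (hpw 1))
    have n8 := n7.fun_add ((hW.const_mul ((CF0 : ℝ≥0∞) * ENNReal.ofReal (t - t0))).fun_mul (hpw 1))
    refine (lintegral_mono fun v => mul_le_mul_left (hpt v) (pw 1 v)).trans ?_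
    simp only [add_mul]
    rw [lintegral_add_left n8, lintegral_add_left n7, lintegral_add_left n6, lintegral_add_left n5,
      lintegral_add_left n4, lintegral_add_left n3, lintegral_add_left n2, lintegral_add_left n1]
    calc _ ≤ _ := add_le_add (add_le_add (add_le_add (add_le_add (add_le_add (add_le_add (add_le_add
            (add_le_add i1 i2) i3) i4) i5) i6) (i8 _)) (i8 _)) i9
      _ = ((B2 * e : ℝ≥0) : ℝ≥0∞) + CF0 * C7 * ENNReal.ofReal (t - t0) := by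
          rw [hB2]; push_cast; ring
      _ ≤ _ := by
          push_cast at z5 ⊢
          gcongr
          exact le_add_self

end Crest.Agent.R68
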