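import Crest.Agent.R68.Law

/-! Decomposition of the cold majorant into levels, and the convexity lemma for entropies.  `ent_sum`: with `α n = 2^{-n-1}`, `f = Σ α n (f n/α n)`; either use convexity of `z ↦ z log⁺ z`, or
argue directly: `f ≤ 2 Σ_{n ∈ J} f n` for `J = {n : f n ≥ α n f/2}`, and on `J` `log⁺ f ≤ log⁺ (f n) + (n+2) log 2` (that is why the constant is 2).  Mass of level `n`: the `gs` part is shear invariant (`lintegral_shear`,
`lintegral_cell_hat`: area `≤ 4 rr²`, density `cc/rr`, 8 beams); the `GC` part has density `≤ 6 cc √(ww n)/rr n ≤ 6 cc rr n`. -/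

set_option autoImplicit false

open MeasureTheory Set Filter Topology Crest.AnalysisR.VecCalc3 Crest.AnalysisR.PDE.Boltzmann
open scoped ENNReal NNReal

namespace Crest.Agent.R68

open Classical in
/-- level `n` part of `G P ⊤` -/
noncomputable def Gl (P : Par) (n : ℕ) : Den := fun t x v =>
  (∑' k : Bm, if k.1.1 = n then gk P k 0 (hat (x - t • v)) v else 0) +
    ∑' k : Bm, if k.1.1 = n ∧ InCore P k t (hat x) then Cke P k t (hat x) v else 0

namespace Lev

theorem tsum_lev (f : Bm → ℝ≥0∞) (p : Bm → Prop) [DecidablePred p] [∀ n, DecidablePred (fun k : Bm => k.1.1 = n ∧ p k)] :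
    ∑' n : ℕ, ∑' k : Bm, (if k.1.1 = n ∧ p k then f k else 0) = ∑' k : Bm, if p k then f k else 0 := by
  rw [ENNReal.tsum_comm]
  refine tsum_congr fun k => ?_
  rw [tsum_eq_single k.1.1 (fun n hn => if_neg fun h => hn h.1.symm)]
  simp

theorem tsum_le_level {f : Bm → ℝ≥0∞} {n : ℕ} {c : ℝ≥0∞} (h0 : ∀ k, k.1.1 ≠ n → f k = 0)
    (h : ∀ k, k.1.1 = n → f k ≤ c) : ∑' k, f k ≤ 8 * c := by
  rw [tsum_eq_sum (s := (({n} : Finset ℕ) ×ˢ (Finset.univ : Finset (Fin 2 × Bool))) ×ˢ (Finset.univ : Finset Bool))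
    (fun k hk => h0 k fun h' => hk (by
      simp only [Finset.mem_product, Finset.mem_singleton, Finset.mem_univ, and_true]; exact h'))]
  refine (Finset.sum_le_card_nsmul _ _ c fun k hk => h k (by
    simpa only [Finset.mem_product, Finset.mem_singleton, Finset.mem_univ, and_true] using hk)).trans ?_
  rw [Finset.card_product, Finset.card_product]
  simp

theorem cc_pos : 0 < cc := by unfold cc; norm_num

theorem ww_le_one {P : Par} (hP : P.Ok) (n : ℕ) : P.ww n ≤ 1 :=
  (ww_le hP n).trans (hP.w1.trans (by norm_num))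

theorem gk_le {P : Par} (hP : P.Ok) (k : Bm) (s : ℝ) (y v : R3) :
    gk P k s y v ≤ ENNReal.ofReal (cc / (P.rr k.1.1 * P.ww k.1.1 ^ 3)) := by
  unfold gk
  split_ifs
  · refine ENNReal.ofReal_le_ofReal ?_
    have := rr_pos hP k.1.1
    have := ww_pos hP k.1.1
    have := cc_pos
    gcongr
    linarith
  · exact zero_le

theorem Cke_le_Ck {P : Par} (k : Bm) (s : ℝ) (y v : R3) :
    Cke P k s y v ≤ ENNReal.ofReal (Real.sqrt (P.ww k.1.1)) * Ck P k s y v := by
  unfold Cke
  split_ifs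
  · exact le_rfl
  · exact zero_le

theorem Cke_le {P : Par} (hP : P.Ok) (k : Bm) {s : ℝ} (hs : s ≤ 1) (y v : R3) :
    Cke P k s y v ≤ ENNReal.ofReal (cc / (P.rr k.1.1 * P.ww k.1.1 ^ 3)) := by
  refine (Cke_le_Ck k s y v).trans ?_
  have h1 : ENNReal.ofReal (Real.sqrt (P.ww k.1.1)) ≤ 1 :=
    ENNReal.ofReal_le_one.2 (Real.sqrt_le_one.2 (ww_le_one hP _))
  refine (mul_le_of_le_one_left' h1).trans (ENNReal.ofReal_le_ofReal ?_)
  have := rr_pos hP k.1.1
  have := ww_pos hP k.1.1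
  have := cc_pos
  refine mul_le_of_le_one_right (by positivity) (Real.exp_le_one_iff.2 ?_)
  have h2 : 0 ≤ dS P k s y := Metric.infDist_nonneg
  have h3 : 0 ≤ (2 - s) * ‖v - U P k s y‖ ^ 2 / P.ww k.1.1 ^ 2 := by
    have : 0 ≤ 2 - s := by linarith
    positivity
  have h4 : 0 ≤ dS P k s y / (Real.sqrt (P.ww k.1.1) * Real.sqrt s) := by positivity
  linarith

theorem scale {P : Par} (hP : P.Ok) (n : ℕ) :
    cc / (P.rr n * P.ww n ^ 3) = cc / (P.rr 0 * P.ww 0 ^ 3) * (4 ^ 13) ^ n := by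
  have h1 := hP.r0
  have h2 := hP.w0
  have h3 : (0 : ℝ) < P.M := by exact_mod_cast hP.M1
  simp only [Par.ww, Par.per, Par.rr]
  rw [← pow_mul, mul_comm 13 n, pow_mul]
  field_simp
  ring

theorem gk_int {P : Par} (hP : P.Ok) (k : Bm) (y : R3) :
    ∫⁻ v, gk P k 0 y v ≤ {y : R3 | nrm y < P.rr k.1.1}.indicator
      (fun _ => ENNReal.ofReal (cc / P.rr k.1.1)) y := by
  have hX : P.X k.1.1 0 = P.rr k.1.1 := by simp [Par.X]
  by_cases h : nrm y < P.rr k.1.1
  · rw [indicator_of_mem (show y ∈ {y : R3 | nrm y < P.rr k.1.1} from h), ← hX]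
    exact gk_mass hP k le_rfl y
  · have : ∀ v, gk P k 0 y v = 0 := fun v => by
      by_contra hv
      have := (tile_nrm hP le_rfl (core_tile hP (gk_supp hP ⟨le_rfl, zero_le_one⟩ hv).2.2.2)).2
      rw [hX] at this
      exact h this
    simp [this]

theorem area (ρ : ℝ) (c : ℝ≥0∞) :
    ∫⁻ x in cell, {y : R3 | nrm y < ρ}.indicator (fun _ => c) (hat x) ≤ c * ENNReal.ofReal (2 * ρ) ^ 2 := by
  rw [lintegral_cell_hat (measurable_const.indicator (measurableSet_lt measurable_nrm measurable_const))]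
  refine (setLIntegral_le_lintegral _ _).trans ?_
  have : (fun y : ℝ × ℝ => {y : R3 | nrm y < ρ}.indicator (fun _ => c) (lift y)) =
      (Metric.ball (0 : ℝ × ℝ) ρ).indicator (fun _ => c) := by
    funext y
    simp only [indicator, mem_setOf_eq, nrm_lift, mem_ball_zero_iff]
  rw [this, lintegral_indicator_const measurableSet_ball]
  rw [show (0 : ℝ × ℝ) = (0, 0) from rfl, ← ball_prod_same, Measure.volume_eq_prod, Measure.prod_prod,
    Real.volume_ball, sq]

theorem lint_cell {f : R3 → R3 → ℝ≥0∞} (hf : Meas2 f) :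
    ∫⁻ q in cell ×ˢ (univ : Set R3), f q.1 q.2 = ∫⁻ x in cell, ∫⁻ v, f x v := by
  rw [Measure.volume_eq_prod, ← Measure.restrict_prod_eq_prod_univ, lintegral_prod _ hf.aemeasurable]

open Classical in
theorem meas_A (P : Par) (n : ℕ) : Meas2 (fun x v => ∑' k : Bm, if k.1.1 = n then gk P k 0 (hat x) v else 0) := by
  refine Measurable.tsum fun k => ?_
  by_cases h : k.1.1 = n
  · simp only [h, if_true]
    exact (measD_gk k).comp measurable_const (measurable_hat.comp measurable_fst) measurable_snd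
  · simp only [h, if_false]; exact measurable_const

open Classical in
theorem meas_B (P : Par) (n : ℕ) :
    MeasD (fun t x v => ∑' k : Bm, if k.1.1 = n ∧ InCore P k t (hat x) then Cke P k t (hat x) v else 0) := by
  refine Measurable.tsum fun k => ?_
  refine Measurable.ite ?_ ((measD_Cke k).comp measurable_fst (measurable_hat.comp measurable_snd.fst)
    measurable_snd.snd) measurable_const
  exact (MeasurableSet.const _).inter
    ((measurable_fst.prodMk (measurable_hat.comp measurable_snd.fst)) (measurableSet_core (P := P) k))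

open Classical in
theorem mass_A {P : Par} (hP : P.Ok) (n : ℕ) :
    ∫⁻ q in cell ×ˢ (univ : Set R3), (∑' k : Bm, if k.1.1 = n then gk P k 0 (hat q.1) q.2 else 0) ≤
      ENNReal.ofReal (32 * cc * P.rr n) := by
  have hr := rr_pos hP n
  have hc := cc_pos
  have hm : ∀ k : Bm, Meas2 (fun x v => if k.1.1 = n then gk P k 0 (hat x) v else 0) := fun k => by
    by_cases h : k.1.1 = n
    · simp only [h, if_true]
      exact (measD_gk k).comp measurable_const (measurable_hat.comp measurable_fst) measurable_snd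
    · simp only [h, if_false]; exact measurable_const
  rw [lintegral_tsum fun k => (hm k).aemeasurable]
  refine (tsum_le_level (n := n) (c := ENNReal.ofReal (cc / P.rr n) * ENNReal.ofReal (2 * P.rr n) ^ 2)
    (fun k hk => by simp [hk]) (fun k hk => ?_)).trans (le_of_eq ?_)
  · rw [lint_cell (hm k)]
    simp only [hk, if_true]
    refine le_trans (lintegral_mono fun x => ?_) (area _ _)
    rw [← hk]
    exact gk_int hP k _
  · rw [← ENNReal.ofReal_pow (by positivity), ← ENNReal.ofReal_mul (by positivity),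
      ← ENNReal.ofReal_ofNat 8, ← ENNReal.ofReal_mul (by positivity)]
    congr 1
    field_simp
    ring

open Classical in
theorem mass_B {P : Par} (hP : P.Ok) (n : ℕ) {t : ℝ} (ht : t ∈ Icc (0 : ℝ) 1) (x : R3) :
    ∫⁻ v, (∑' k : Bm, if k.1.1 = n ∧ InCore P k t (hat x) then Cke P k t (hat x) v else 0) ≤
      ENNReal.ofReal (48 * cc * P.rr n) := by
  have hr := rr_pos hP n
  have hc := cc_pos
  have hm : ∀ k : Bm, Measurable (fun v => if k.1.1 = n ∧ InCore P k t (hat x) then Cke P k t (hat x) v else 0) :=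
    fun k => by
      by_cases h : k.1.1 = n ∧ InCore P k t (hat x)
      · simp only [h, and_self, if_true]
        exact (measD_Cke k).vel _ _
      · simp only [h, if_false]; exact measurable_const
  rw [lintegral_tsum fun k => (hm k).aemeasurable]
  refine (tsum_le_level (n := n) (c := ENNReal.ofReal (P.rr n ^ 2) * ENNReal.ofReal (6 * cc / P.rr n))
    (fun k hk => by simp [hk]) (fun k hk => ?_)).trans (le_of_eq ?_)
  · calc _ ≤ ∫⁻ v, ENNReal.ofReal (Real.sqrt (P.ww k.1.1)) * Ck P k t (hat x) v := by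
          refine lintegral_mono fun v => ?_
          split_ifs
          · exact Cke_le_Ck _ _ _ _
          · exact zero_le
      _ ≤ _ := by
          rw [lintegral_const_mul _ ((measD_Ck k).vel _ _)]
          refine mul_le_mul' (ENNReal.ofReal_le_ofReal ?_) (hk ▸ Ck_mass hP k ht _)
          rw [sqrt_ww hP, hk]
          have h1 : Real.sqrt P.w ≤ 1 := Real.sqrt_le_one.2 (hP.w1.trans (by norm_num))
          have h2 := per_le hP n
          have h3 := per_pos hP n
          calc _ ≤ 1 * (P.rr n) ^ 2 := by gcongr; linarith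
            _ = _ := one_mul _
  · rw [← ENNReal.ofReal_mul (by positivity),
      ← ENNReal.ofReal_ofNat 8, ← ENNReal.ofReal_mul (by positivity)]
    congr 1
    field_simp
    ring

theorem core_of_gk {P : Par} (hP : P.Ok) {k : Bm} {t : ℝ} (ht : t ∈ Icc (0 : ℝ) 1) {x v : R3}
    (h : gk P k 0 (hat (x - t • v)) v ≠ 0) : InCore P k t (hat x) := by
  rw [← gk_transport k 0 t, zero_add] at h
  have hc := (gk_supp hP ht h).2.2.2
  have h1 := (tile_nrm hP ht.1 (core_tile hP hc)).2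
  have h2 := X_lt_half hP k.1.1 ht
  have h3 := Same.hat_ (y := hat (x - t • v) + t • v) (by linarith)
  have h4 : hat (hat (x - t • v) + t • v) = hat x := by
    have := hat_hat_sub (x - t • v) (-(t • v))
    simpa using this
  rw [h4] at h3
  exact (h3.core_iff k t).1 hc

theorem lp_top : lp ⊤ = 0 := by simp [lp]
theorem lp_ne_top (a : ℝ≥0∞) : lp a ≠ ⊤ := ENNReal.ofReal_ne_top
theorem lp_two : lp 2 ≤ 1 := by
  unfold lp
  refine ENNReal.ofReal_le_one.2 ?_
  have := Real.log_le_sub_one_of_pos (show (0 : ℝ) < 2 by norm_num)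
  simp only [ENNReal.toReal_ofNat]
  linarith

end Lev

theorem G_eq_tsum (P : Par) (t : ℝ) (x v : R3) : G P ⊤ t x v = ∑' n, Gl P n t x v := by
  classical
  simp only [G, gs, g0, GC, Gl, ENNReal.tsum_add, le_top, true_and, if_true]
  congr 1
  · have := Lev.tsum_lev (fun k => gk P k 0 (hat (x - t • v)) v) (fun _ => True)
    simpa using this.symm
  · convert (Lev.tsum_lev (fun k => Cke P k t (hat x) v) (fun k => InCore P k t (hat x))).symm
theorem measD_Gl (P : Par) (n : ℕ) : MeasD (Gl P n) := by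
  exact ((Lev.meas_A P n).comp (measurable_snd.fst.sub (measurable_fst.smul measurable_snd.snd))
    measurable_snd.snd).add (Lev.meas_B P n)
theorem Gl_hat (P : Par) (n : ℕ) (t : ℝ) (x : R3) : Gl P n t (hat x) = Gl P n t x := by
  funext v
  unfold Gl
  rw [hat_hat_sub, hat_hat]
theorem Gl_le_G (P : Par) (n : ℕ) (t : ℝ) (x v : R3) : Gl P n t x v ≤ G P ⊤ t x v := by
  rw [G_eq_tsum]
  exact ENNReal.le_tsum (f := fun n => Gl P n t x v) n
theorem Gl_sup {P : Par} (hP : P.Ok) : ∃ A : ℝ≥0, 1 ≤ A ∧ ∀ n, ∀ t ∈ Icc (0 : ℝ) 1, ∀ x v,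
    Gl P n t x v ≤ (A : ℝ≥0∞) ^ (n + 1) := by
  have hc := Lev.cc_pos
  have h1 := rr_pos hP 0
  have h2 := ww_pos hP 0
  set c0 : ℝ := cc / (P.rr 0 * P.ww 0 ^ 3) with hc0
  have hc0' : 0 ≤ c0 := by positivity
  set B : ℝ := (16 * c0 + 1) * 4 ^ 13 with hB
  have hB1 : 4 ^ 13 ≤ B := by rw [hB]; nlinarith
  have hB2 : 16 * c0 ≤ B := by rw [hB]; nlinarith
  refine ⟨B.toNNReal, ?_, fun n t ht x v => ?_⟩
  · rw [← NNReal.coe_le_coe, Real.coe_toNNReal _ (by linarith)]
    simp only [NNReal.coe_one]; linarith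
  · unfold Gl
    refine (add_le_add
      (Lev.tsum_le_level (n := n) (c := ENNReal.ofReal (cc / (P.rr n * P.ww n ^ 3)))
        (fun k hk => by simp [hk]) (fun k hk => ?_))
      (Lev.tsum_le_level (n := n) (c := ENNReal.ofReal (cc / (P.rr n * P.ww n ^ 3)))
        (fun k hk => by simp [hk]) (fun k hk => ?_))).trans ?_
    · rw [if_pos hk, ← hk]; exact Lev.gk_le hP k _ _ _
    · split_ifs
      · rw [← hk]; exact Lev.Cke_le hP k ht.2 _ _
      · exact zero_le
    · rw [Lev.scale hP n, ← hc0, ← add_mul, show (8 + 8 : ℝ≥0∞) = ENNReal.ofReal 16 by norm_num,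
        ← ENNReal.ofReal_mul (by norm_num)]
      change _ ≤ ENNReal.ofReal B ^ (n + 1)
      rw [← ENNReal.ofReal_pow (by linarith)]
      refine ENNReal.ofReal_le_ofReal ?_
      rw [pow_succ' B, ← mul_assoc]
      gcongr
theorem Gl_mass : ∃ C : ℝ≥0, ∀ {P : Par}, P.Ok → ∀ n, ∀ t ∈ Icc (0 : ℝ) 1,
    ∫⁻ q in cell ×ˢ (univ : Set R3), Gl P n t q.1 q.2 ≤ C * ENNReal.ofReal (P.rr n) := by
  refine ⟨(80 * cc).toNNReal, fun {P} hP n t ht => ?_⟩
  have hr := rr_pos hP n
  have hc := Lev.cc_pos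
  unfold Gl
  rw [lintegral_add_right _ ((Lev.meas_B P n).slice t)]
  have e1 := lintegral_shear (Lev.meas_A P n) (fun v => per_of_hat fun x => by simp only [hat_hat]) t
  rw [e1, Lev.lint_cell ((Lev.meas_B P n).slice t)]
  refine (add_le_add (Lev.mass_A hP n) (lintegral_mono fun x => Lev.mass_B hP n ht x)).trans ?_
  rw [setLIntegral_const, volume_cell, mul_one, ← ENNReal.ofReal_add (by positivity) (by positivity)]
  change _ ≤ ENNReal.ofReal (80 * cc) * _
  rw [← ENNReal.ofReal_mul (by positivity)]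
  exact ENNReal.ofReal_le_ofReal (le_of_eq (by ring))
/-- where level `n` is present the total density is at most `2 cc / X n t` -/
theorem Gl_dens {P : Par} (hP : P.Ok) {n : ℕ} {t : ℝ} (ht : t ∈ Icc (0 : ℝ) 1) {x v : R3}
    (h : Gl P n t x v ≠ 0) : ∫⁻ a, G P ⊤ t x a ≤ ENNReal.ofReal (2 * cc / P.X n t) := by
  have hk : ∃ k : Bm, k.1.1 = n ∧ InCore P k t (hat x) := by
    by_contra hne
    push Not at hne
    apply h
    unfold Gl
    rw [add_eq_zero, ENNReal.tsum_eq_zero, ENNReal.tsum_eq_zero]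
    refine ⟨fun k => ?_, fun k => if_neg fun h' => hne k h'.1 h'.2⟩
    split_ifs with h'
    · by_contra h''
      exact hne k h' (Lev.core_of_gk hP ht h'')
    · rfl
  obtain ⟨k, rfl, hk⟩ := hk
  have hc := Lev.cc_pos
  have hX := X_pos hP k.1.1 ht.1
  have hX' := X_lt_half hP k.1.1 ht
  unfold G
  rw [lintegral_add_left ((measD_gs ⊤).vel t x)]
  refine (add_le_add (gs_mass_tile hP ⊤ ht (core_tile hP hk)) (GC_mass hP ⊤ ht x)).trans ?_
  rw [← ENNReal.ofReal_add (by positivity) (by positivity)]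
  refine ENNReal.ofReal_le_ofReal ?_
  have h1 : Real.sqrt P.w ≤ 1 / 2 := by
    rw [Real.sqrt_le_iff]
    exact ⟨by norm_num, hP.w1.trans (by norm_num)⟩
  have h2 : 4 * cc ≤ cc / P.X k.1.1 t := by
    rw [le_div_iff₀ hX]; nlinarith
  have h3 : 2 * cc / P.X k.1.1 t = cc / P.X k.1.1 t + cc / P.X k.1.1 t := by ring
  rw [h3]
  nlinarith
theorem lp_mono {a b : ℝ≥0∞} (h : a ≤ b) (hb : b ≠ ⊤) : lp a ≤ lp b := by
  unfold lp
  rcases eq_or_lt_of_le (ENNReal.toReal_nonneg (a := a)) with h0 | h0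
  · rw [← h0]; simp
  · exact ENNReal.ofReal_le_ofReal (Real.log_le_log h0 (ENNReal.toReal_mono hb h))
theorem lp_mul (a b : ℝ≥0∞) : lp (a * b) ≤ lp a + lp b := by
  unfold lp
  rw [ENNReal.toReal_mul]
  by_cases ha : a.toReal = 0
  · simp [ha]
  by_cases hb : b.toReal = 0
  · simp [hb]
  rw [Real.log_mul ha hb]
  exact ENNReal.ofReal_add_le
theorem lp_pow (a : ℝ≥0∞) (n : ℕ) : lp (a ^ n) = n * lp a := by
  unfold lp
  rw [ENNReal.toReal_pow, Real.log_pow, ENNReal.ofReal_mul (Nat.cast_nonneg n), ENNReal.ofReal_natCast]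
theorem lp_le_sqrt (a : ℝ≥0∞) : lp a ≤ 2 * a ^ (1 / 2 : ℝ) := by
  rcases eq_or_ne a ⊤ with rfl | ha
  · rw [Lev.lp_top]; exact zero_le
  have h1 := Real.log_le_rpow_div (ENNReal.toReal_nonneg (a := a)) (show (0 : ℝ) < 1 / 2 by norm_num)
  unfold lp
  refine (ENNReal.ofReal_le_ofReal h1).trans (le_of_eq ?_)
  rw [div_eq_mul_inv, mul_comm, ENNReal.ofReal_mul (by norm_num),
    ← ENNReal.ofReal_rpow_of_nonneg ENNReal.toReal_nonneg (by norm_num), ENNReal.ofReal_toReal ha]
  norm_num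
theorem measurable_lp : Measurable lp := by
  exact (ENNReal.measurable_toReal.log).ennreal_ofReal
theorem ent_add (a b : ℝ≥0∞) : (a + b) * lp (a + b) ≤ 2 * (a * (1 + lp a) + b * (1 + lp b)) := by
  rcases eq_or_ne (a + b) ⊤ with h | h
  · rw [h, Lev.lp_top, mul_zero]; exact zero_le
  wlog hab : a ≤ b generalizing a b
  · rw [add_comm a b, add_comm (a * _)]
    exact this b a (by rwa [add_comm]) (not_le.1 hab).le
  have hb : b ≠ ⊤ := (ENNReal.add_ne_top.1 h).2
  have h1 : a + b ≤ 2 * b := by rw [two_mul]; gcongr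
  have h2 : lp (a + b) ≤ 1 + lp b :=
    (lp_mono h1 (ENNReal.mul_ne_top (by norm_num) hb)).trans
      ((lp_mul _ _).trans (add_le_add Lev.lp_two le_rfl))
  calc _ ≤ (2 * b) * (1 + lp b) := mul_le_mul' h1 h2
    _ = 2 * (b * (1 + lp b)) := mul_assoc _ _ _
    _ ≤ _ := by gcongr; exact le_add_self
theorem ent_sum (f : ℕ → ℝ≥0∞) :
    (∑' n, f n) * lp (∑' n, f n) ≤ 2 * ∑' n, f n * (lp (f n) + (n + 2)) := by
  set S := ∑' n, f n with hS
  rcases eq_or_ne S ⊤ with h | h
  · rw [h, Lev.lp_top, mul_zero]; exact zero_le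
  have hf : ∀ n, f n ≠ ⊤ := fun n => ne_top_of_le_ne_top h (ENNReal.le_tsum n)
  have key : ∀ n, f n * lp S ≤ f n * (lp (f n) + (n + 2)) + (2⁻¹ : ℝ≥0∞) ^ n * (2⁻¹ * (2⁻¹ * (S * lp S))) := by
    intro n
    by_cases hn : S ≤ 2 ^ (n + 2) * f n
    · refine le_add_right (mul_le_mul' le_rfl ?_)
      refine (lp_mono hn (ENNReal.mul_ne_top (ENNReal.pow_ne_top (by norm_num)) (hf n))).trans
        ((lp_mul _ _).trans ?_)
      rw [lp_pow, add_comm]
      gcongr
      calc _ ≤ ((n + 2 : ℕ) : ℝ≥0∞) * 1 := mul_le_mul' le_rfl Lev.lp_two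
        _ = _ := by push_cast; ring
    · refine le_add_left ?_
      have h1 : f n ≤ (2⁻¹ : ℝ≥0∞) ^ (n + 2) * S := by
        calc f n = (2⁻¹ : ℝ≥0∞) ^ (n + 2) * (2 ^ (n + 2) * f n) := by
              rw [← mul_assoc, ← mul_pow, ENNReal.inv_mul_cancel (by norm_num) (by norm_num), one_pow, one_mul]
          _ ≤ _ := mul_le_mul' le_rfl (not_le.1 hn).le
      calc _ ≤ (2⁻¹ : ℝ≥0∞) ^ (n + 2) * S * lp S := mul_le_mul' h1 le_rfl
        _ = _ := by ring
  have h1 : S * lp S ≤ ∑' n, f n * (lp (f n) + (n + 2)) + 2⁻¹ * (S * lp S) := by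
    calc S * lp S = ∑' n, f n * lp S := by rw [ENNReal.tsum_mul_right]
      _ ≤ _ := ENNReal.tsum_le_tsum key
      _ = _ := by
        rw [ENNReal.tsum_add, ENNReal.tsum_mul_right, ENNReal.tsum_geometric_two, ← mul_assoc 2,
          ENNReal.mul_inv_cancel (by norm_num) (by norm_num), one_mul]
  have h2 : S * lp S ≠ ⊤ := ENNReal.mul_ne_top h (Lev.lp_ne_top _)
  have h3 : S * lp S = 2⁻¹ * (S * lp S) + 2⁻¹ * (S * lp S) := by
    rw [← add_mul, ENNReal.inv_two_add_inv_two, one_mul]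
  have h4 : 2⁻¹ * (S * lp S) ≤ ∑' n, f n * (lp (f n) + (n + 2)) :=
    ENNReal.le_of_add_le_add_right (ENNReal.mul_ne_top (a := 2⁻¹) (by norm_num) h2) (h3.symm.le.trans h1)
  rw [h3, two_mul]
  exact add_le_add h4 h4
theorem ent_sum2 (f : ℕ → ℕ → ℝ≥0∞) :
    (∑' n, ∑' l, f n l) * lp (∑' n, ∑' l, f n l) ≤ 4 * ∑' n, ∑' l, f n l * (lp (f n l) + (n + l + 4)) := by
  refine (ent_sum fun n => ∑' l, f n l).trans ?_
  rw [show (4 : ℝ≥0∞) = 2 * 2 by norm_num, mul_assoc]
  refine mul_le_mul' le_rfl ?_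
  rw [← ENNReal.tsum_mul_left]
  refine ENNReal.tsum_le_tsum fun n => ?_
  rw [mul_add]
  refine (add_le_add (ent_sum (f n)) le_rfl).trans ?_
  rw [← ENNReal.tsum_mul_right, ← ENNReal.tsum_mul_left, ← ENNReal.tsum_mul_left, ← ENNReal.tsum_add]
  refine ENNReal.tsum_le_tsum fun l => ?_
  calc _ ≤ 2 * (f n l * (lp (f n l) + (l + 2))) + 2 * (f n l * (n + 2)) := by
        refine add_le_add le_rfl ?_
        rw [two_mul]; exact le_self_add
    _ = _ := by ring

end Crest.Agent.R68
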