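import Crest.Agent.R68.LimitB
import Crest.Agent.R68.Avg
import Crest.Agent.R68.Plain

/-! The limit of a sequence of solutions whose collision terms converge weakly. -/

set_option autoImplicit false

open MeasureTheory Set Filter Topology Crest.AnalysisR.VecCalc3 Crest.AnalysisR.PDE.Boltzmann
open scoped ENNReal NNReal

namespace Crest.Agent.R68.Lim

open Avg

noncomputable section

/-- dominating source -/
def dom (𝓜 : Den) (p : ℝ × R3 × R3) : ℝ := (gn 𝓜 p + ls 𝓜 p).toReal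

theorem meas_dom {𝓜 : Den} (h : MeasD 𝓜) : Measurable (dom 𝓜) := ((meas_gn h).add (meas_ls h)).ennreal_toReal

theorem dom_fin {𝓜 : Den} {T : ℝ} (h : Major 𝓜 T) : ∫⁻ p, gn 𝓜 p + ls 𝓜 p ∂μΩ T < ⊤ := by
  rw [lintegral_add_left (meas_gn h.meas)]
  exact ENNReal.add_lt_top.2 ⟨(gn_le_ls h.meas).trans_lt (maj_ls h), maj_ls h⟩

theorem int_dom {𝓜 : Den} {T : ℝ} (h : Major 𝓜 T) : Integrable (dom 𝓜) (μΩ T) :=
  integrable_toReal_of_lintegral_ne_top ((meas_gn h.meas).add (meas_ls h.meas)).aemeasurable (dom_fin h).ne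

theorem sr_le_dom {F 𝓜 : Den} {T : ℝ} (h : Major 𝓜 T) (hle : ∀ t x v, 0 ≤ t → F t x v ≤ 𝓜 t x v) :
    ∀ᵐ p ∂μΩ T, |sr F p| ≤ dom 𝓜 p := by
  filter_upwards [ae_lt_top ((meas_gn h.meas).add (meas_ls h.meas)) (dom_fin h).ne, ae_Ω T] with p h1 h2
  exact sr_le (fun a => hle _ _ _ h2.1.1.le) h1

theorem sr_congr {F G : Den} {t : ℝ} {x x' : R3} (h : F t x = G t x') (v : R3) : sr F (t, x, v) = sr G (t, x', v) := by
  simp only [sr, gn, ls, h]

/-- the setting -/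
structure St (F0n : ℕ → R3 → R3 → ℝ≥0∞) (Fn : ℕ → Den) (F0r : R3 → R3 → ℝ) (𝓜 : Den)
    (S : ℝ × R3 × R3 → ℝ) : Prop where
  hM : ∀ T, 0 ≤ T → Major 𝓜 T
  hsol : ∀ n T, 0 ≤ T → Sol (F0n n) T (Fn n)
  hper : ∀ n t v, 0 ≤ t → IsPeriodic3 (fun x => Fn n t x v)
  hle : ∀ n t x v, 0 ≤ t → Fn n t x v ≤ 𝓜 t x v
  h0m : Measurable (fun q : R3 × R3 => F0r q.1 q.2)
  h0n : ∀ x v, 0 ≤ F0r x v
  h0p : ∀ v, IsPeriodic3 (fun x => F0r x v)
  hconv : Tendsto (fun n => ∫⁻ q, ‖(F0n n q.1 q.2).toReal - F0r q.1 q.2‖ₑ ∂μC) atTop (𝓝 0)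
  hS : Measurable S
  Sle : ∀ T, 0 ≤ T → ∀ᵐ p ∂μΩ T, |S p| ≤ dom 𝓜 p
  Sw : ∀ T, 0 ≤ T → ∀ ψ : ℝ × R3 × R3 → ℝ, Measurable ψ → (∀ p, |ψ p| ≤ 1) →
    Tendsto (fun n => ∫ p, sr (Fn n) p * ψ p ∂μΩ T) atTop (𝓝 (∫ p, S p * ψ p ∂μΩ T))

/-- the limit before truncation -/
def GG (F0r : R3 → R3 → ℝ) (S : ℝ × R3 × R3 → ℝ) (t : ℝ) (q : R3 × R3) : ℝ :=
  F0r (sh t q).1 (sh t q).2 + duh S t q

/-- the limit -/
def Fr (F0r : R3 → R3 → ℝ) (S : ℝ × R3 × R3 → ℝ) (t : ℝ) (x v : R3) : ℝ := max 0 (GG F0r S t (x, v))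

variable {F0n : ℕ → R3 → R3 → ℝ≥0∞} {Fn : ℕ → Den} {F0r : R3 → R3 → ℝ} {𝓜 : Den} {S : ℝ × R3 × R3 → ℝ}

namespace St

variable (h : St F0n Fn F0r 𝓜 S)
include h

theorem mF (n : ℕ) : MeasD (Fn n) := (h.hsol n 0 le_rfl).mild.1
theorem mM : MeasD 𝓜 := (h.hM 0 le_rfl).meas

theorem fin (n : ℕ) {t : ℝ} (ht : 0 ≤ t) (x v : R3) : Fn n t x v ≠ ⊤ := by
  obtain ⟨K, hK⟩ := (h.hsol n t ht).bdd
  exact ((hK t ⟨ht, le_rfl⟩ x v).trans_lt (ENNReal.mul_lt_top ENNReal.coe_lt_top ENNReal.ofReal_lt_top)).ne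

theorem init (n : ℕ) (x v : R3) : F0n n x v = Fn n 0 x v := ((h.hsol n 0 le_rfl).mild.init le_rfl x v).symm

theorem plain (n : ℕ) {t : ℝ} (ht : 0 ≤ t) : ∀ᵐ q ∂μC,
    (Fn n t q.1 q.2).toReal = (Fn n 0 (sh t q).1 (sh t q).2).toReal + duh (sr (Fn n)) t q := by
  rw [← eC]
  refine ae_restrict_of_ae (((h.hsol n t ht).plain ht t ⟨ht, le_rfl⟩).mono fun q hq => hq.trans ?_)
  congr 1
  · simp only [toR2, sh, h.init]
    rw [per_fr (h.hper n 0 q.2 le_rfl)]
  · refine setIntegral_congr_fun measurableSet_Ioo fun s hs => ?_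
    rw [Src_eq (h.mF n).ennreal_toReal (fun u => ENNReal.toReal_nonneg)]
    refine sr_congr (funext fun u => ?_) _
    simp only [ofR, toR]
    rw [ENNReal.ofReal_toReal (h.fin n hs.1.le _ _), per_fr (h.hper n s u hs.1.le)]

theorem int_sr (n : ℕ) {T : ℝ} (hT : 0 ≤ T) : Integrable (sr (Fn n)) (μΩ T) :=
  (int_dom (h.hM T hT)).mono' (meas_sr (h.mF n)).aestronglyMeasurable (sr_le_dom (h.hM T hT) (h.hle n))

theorem int_S {T : ℝ} (hT : 0 ≤ T) : Integrable S (μΩ T) :=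
  (int_dom (h.hM T hT)).mono' h.hS.aestronglyMeasurable (h.Sle T hT)

theorem M_fin {t : ℝ} (ht : 0 ≤ t) : ∫⁻ q, 𝓜 t q.1 q.2 ∂μC < ⊤ := by
  obtain ⟨C, hC, h1⟩ := maj_t (h.hM t ht)
  exact (h1 t ⟨ht, le_rfl⟩).trans_lt hC

theorem mMt (t : ℝ) : Measurable fun q : R3 × R3 => 𝓜 t q.1 q.2 :=
  h.mM.comp measurable_const measurable_fst measurable_snd

theorem mFt (n : ℕ) (t : ℝ) : Measurable fun q : R3 × R3 => Fn n t q.1 q.2 :=
  (h.mF n).comp measurable_const measurable_fst measurable_snd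

theorem int_M {t : ℝ} (ht : 0 ≤ t) : Integrable (fun q : R3 × R3 => (𝓜 t q.1 q.2).toReal) μC :=
  integrable_toReal_of_lintegral_ne_top (h.mMt t).aemeasurable (h.M_fin ht).ne

theorem int_F (n : ℕ) {t : ℝ} (ht : 0 ≤ t) : Integrable (fun q : R3 × R3 => (Fn n t q.1 q.2).toReal) μC :=
  integrable_toReal_of_lintegral_ne_top (h.mFt n t).aemeasurable
    ((lintegral_mono fun _ => h.hle n t _ _ ht).trans_lt (h.M_fin ht)).ne

theorem int_F0 : Integrable (fun q : R3 × R3 => F0r q.1 q.2) μC := by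
  obtain ⟨n, hn⟩ := (h.hconv.eventually (gt_mem_nhds ENNReal.zero_lt_top)).exists
  simp only [h.init] at hn
  have h1 : Integrable (fun q : R3 × R3 => (Fn n 0 q.1 q.2).toReal - F0r q.1 q.2) μC :=
    ⟨((h.mFt n 0).ennreal_toReal.sub h.h0m).aestronglyMeasurable, hn⟩
  refine ((h.int_F n le_rfl).sub h1).congr (Eventually.of_forall fun q => ?_)
  simp

theorem init_conv : Tendsto (fun n => ∫ q, |(Fn n 0 q.1 q.2).toReal - F0r q.1 q.2| ∂μC) atTop (𝓝 0) := by
  have := (ENNReal.tendsto_toReal ENNReal.zero_ne_top).comp h.hconv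
  refine this.congr fun n => ?_
  simp only [Function.comp, h.init]
  exact (integral_norm_eq_lintegral_enorm ((h.mFt n 0).ennreal_toReal.sub h.h0m).aestronglyMeasurable).symm

theorem mGG : Measurable fun p : ℝ × R3 × R3 => GG F0r S p.1 p.2 :=
  (h.h0m.comp (meas_sh measurable_fst measurable_snd)).add (meas_duh h.hS)

theorem int_F0s (t : ℝ) : Integrable (fun q : R3 × R3 => F0r (sh t q).1 (sh t q).2) μC :=
  ((mp_sh t).integrable_comp h.h0m.aestronglyMeasurable).2 h.int_F0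

theorem int_GG {t : ℝ} (ht : 0 ≤ t) : Integrable (GG F0r S t) μC := (h.int_F0s t).add (int_duh h.hS (h.int_S ht))

theorem weak {t : ℝ} (ht : 0 ≤ t) {ψ : R3 × R3 → ℝ} (hψ : Measurable ψ) (hb : ∀ q, |ψ q| ≤ 1) :
    Tendsto (fun n => ∫ q, (Fn n t q.1 q.2).toReal * ψ q ∂μC) atTop (𝓝 (∫ q, GG F0r S t q * ψ q ∂μC)) := by
  have ib : ∀ {f : R3 × R3 → ℝ}, Integrable f μC → Integrable (fun q => f q * ψ q) μC := fun hf =>
    hf.mul_bdd (c := 1) hψ.aestronglyMeasurable (Eventually.of_forall hb)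
  have i0 : ∀ n, Integrable (fun q : R3 × R3 => (Fn n 0 (sh t q).1 (sh t q).2).toReal) μC := fun n =>
    ((mp_sh t).integrable_comp (h.mFt n 0).ennreal_toReal.aestronglyMeasurable).2 (h.int_F n le_rfl)
  have h1 : Tendsto (fun n => ∫ q, (Fn n 0 (sh t q).1 (sh t q).2).toReal * ψ q ∂μC) atTop
      (𝓝 (∫ q, F0r (sh t q).1 (sh t q).2 * ψ q ∂μC)) := by
    rw [← tendsto_sub_nhds_zero_iff]
    refine squeeze_zero_norm (fun n => ?_) h.init_conv
    rw [← integral_sub (ib (i0 n)) (ib (h.int_F0s t)),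
      ← mp_integral (mp_sh t) ((h.mFt n 0).ennreal_toReal.fun_sub h.h0m).abs]
    refine norm_integral_le_of_norm_le ((i0 n).sub (h.int_F0s t)).abs (Eventually.of_forall fun q => ?_)
    rw [← sub_mul, Real.norm_eq_abs, abs_mul]
    exact mul_le_of_le_one_right (abs_nonneg _) (hb q)
  have h2 := h.Sw t ht (fun p => ψ (sh (p.1 - t) p.2)) (hψ.comp (meas_sh (by fun_prop) (by fun_prop))) (fun _ => hb _)
  rw [← duh_dual h.hS (h.int_S ht) hψ hb] at h2
  have h3 := h1.add h2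
  rw [← integral_add (ib (h.int_F0s t)) (ib (int_duh h.hS (h.int_S ht)))] at h3
  simp only [← add_mul] at h3
  refine h3.congr fun n => ?_
  rw [← duh_dual (meas_sr (h.mF n)) (h.int_sr n ht) hψ hb,
    ← integral_add (ib (i0 n)) (ib (int_duh (meas_sr (h.mF n)) (h.int_sr n ht)))]
  refine integral_congr_ae ((h.plain n ht).mono fun q hq => ?_)
  simp only
  rw [hq, add_mul]

theorem weak_set {t : ℝ} (ht : 0 ≤ t) {A : Set (R3 × R3)} (hA : MeasurableSet A) :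
    Tendsto (fun n => ∫ q in A, (Fn n t q.1 q.2).toReal ∂μC) atTop (𝓝 (∫ q in A, GG F0r S t q ∂μC)) := by
  have := h.weak ht (ψ := A.indicator 1) (measurable_one.indicator hA)
    (fun q => by by_cases hq : q ∈ A <;> simp [hq])
  have e : ∀ f : R3 × R3 → ℝ, ∫ q, f q * A.indicator 1 q ∂μC = ∫ q in A, f q ∂μC := fun f => by
    rw [← integral_indicator hA]
    congr 1
    ext q
    by_cases hq : q ∈ A <;> simp [hq]
  simpa only [e] using this

theorem GG_nonneg {t : ℝ} (ht : 0 ≤ t) : ∀ᵐ q ∂μC, 0 ≤ GG F0r S t q :=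
  ae_nonneg_of_forall_setIntegral_nonneg (h.int_GG ht) fun _ hA _ =>
    ge_of_tendsto' (h.weak_set ht hA) fun _ => integral_nonneg fun _ => ENNReal.toReal_nonneg

theorem GG_le {t : ℝ} (ht : 0 ≤ t) : ∀ᵐ q ∂μC, GG F0r S t q ≤ (𝓜 t q.1 q.2).toReal :=
  ae_le_of_forall_setIntegral_le (h.int_GG ht) (h.int_M ht) fun _ hA _ =>
    le_of_tendsto' (h.weak_set ht hA) fun n => integral_mono_ae (h.int_F n ht).restrict (h.int_M ht).restrict
      (ae_restrict_of_ae ((ae_lt_top (h.mMt t) (h.M_fin ht).ne).mono fun _ hq =>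
        ENNReal.toReal_mono hq.ne (h.hle n t _ _ ht)))

theorem Fr_eq {t : ℝ} (ht : 0 ≤ t) : ∀ᵐ q ∂μC, Fr F0r S t q.1 q.2 = GG F0r S t q :=
  (h.GG_nonneg ht).mono fun _ hq => max_eq_right hq

theorem Fr_le {t : ℝ} (ht : 0 ≤ t) : ∀ᵐ q ∂μC, ofR (Fr F0r S) t q.1 q.2 ≤ 𝓜 t q.1 q.2 := by
  filter_upwards [h.Fr_eq ht, h.GG_le ht] with q h1 h2
  rw [ofR, h1]
  exact (ENNReal.ofReal_le_ofReal h2).trans ENNReal.ofReal_toReal_le

theorem mFr : Measurable fun p : ℝ × R3 × R3 => Fr F0r S p.1 p.2.1 p.2.2 := measurable_const.max h.mGG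

theorem mFr' : MeasD (ofR (Fr F0r S)) := h.mFr.ennreal_ofReal

theorem Fr_le' (T : ℝ) : ∀ᵐ p ∂μΩ T, ofR (Fr F0r S) p.1 p.2.1 p.2.2 ≤ 𝓜 p.1 p.2.1 p.2.2 :=
  (Measure.ae_prod_iff_ae_ae (measurableSet_le h.mFr' h.mM)).2
    ((ae_restrict_mem measurableSet_Ioo).mono fun _ ht => h.Fr_le ht.1.le)

theorem Fn_le' (n : ℕ) (T : ℝ) : ∀ᵐ p ∂μΩ T, Fn n p.1 p.2.1 p.2.2 ≤ 𝓜 p.1 p.2.1 p.2.2 :=
  (ae_Ω T).mono fun _ hp => h.hle n _ _ _ hp.1.1.le

theorem avg {T : ℝ} (hT : 0 ≤ T) {B : Set R3} (hB : MeasurableSet B) (hb : Bornology.IsBounded B) :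
    Tendsto (fun n => ∫ y, |∫ v in B, duh (fun p => sr (Fn n) p - S p) y.1 (y.2, v)| ∂μY T) atTop (𝓝 0) := by
  have m1 : Measurable fun p : ℝ × R3 × R3 => (p.1, fr p.2.1, p.2.2) :=
    measurable_fst.prodMk ((measurable_fr.comp measurable_snd.fst).prodMk measurable_snd.snd)
  have e1 : ∀ᵐ p ∂μΩ T, (p.1, fr p.2.1, p.2.2) = p := (ae_Ω T).mono fun p hp => by rw [fr_of_mem hp.2]
  have := averaging (T := T) (S := fun n t x v => sr (Fn n) (t, fr x, v) - S (t, fr x, v))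
    (𝓢 := fun t x v => 2 * dom 𝓜 (t, fr x, v)) (fun n => ((meas_sr (h.mF n)).sub h.hS).comp m1)
    (((meas_dom h.mM).const_mul 2).comp m1) (fun n t v x i => by simp only [fr_per x i])
    (fun t v x i => by simp only [fr_per x i])
    (by
      rw [IntegrableOn, eΩ]
      exact ((int_dom (h.hM T hT)).const_mul 2).congr (e1.mono fun p hp => by simp only [hp]))
    (fun n => by
      rw [eΩ]
      filter_upwards [e1, sr_le_dom (h.hM T hT) (h.hle n), h.Sle T hT] with p h1 h2 h3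
      rw [h1]
      linarith [abs_sub (sr (Fn n) p) (S p)])
    (fun ψ hψ hb => by
      rw [eΩ]
      refine (tendsto_sub_nhds_zero_iff.2 (h.Sw T hT ψ hψ hb)).congr fun n => ?_
      rw [← integral_sub ((h.int_sr n hT).mul_bdd (c := 1) hψ.aestronglyMeasurable (Eventually.of_forall hb))
        ((h.int_S hT).mul_bdd (c := 1) hψ.aestronglyMeasurable (Eventually.of_forall hb))]
      refine integral_congr_ae (e1.mono fun p hp => ?_)
      simp only [hp]
      ring) hB hb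
  rw [eY] at this
  exact this

theorem strong {T : ℝ} (hT : 0 ≤ T) (B : Set R3) (hB : MeasurableSet B) (hb : Bornology.IsBounded B) :
    Tendsto (fun n => ∫ y, |∫ v in B, ((Fn n y.1 y.2 v).toReal - (ofR (Fr F0r S) y.1 y.2 v).toReal)| ∂μY T)
      atTop (𝓝 0) := by
  have hlim := (h.init_conv.const_mul ((mI T).real univ)).add (h.avg hT hB hb)
  rw [mul_zero, add_zero] at hlim
  refine squeeze_zero (fun n => integral_nonneg fun _ => abs_nonneg _) (fun n => ?_) hlim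
  obtain ⟨D, hD⟩ : ∃ D : R3 × R3 → ℝ, D = fun q => (Fn n 0 q.1 q.2).toReal - F0r q.1 q.2 := ⟨_, rfl⟩
  obtain ⟨E, hE⟩ : ∃ E : ℝ × R3 × R3 → ℝ,
    E = fun p => (Fn n p.1 p.2.1 p.2.2).toReal - (ofR (Fr F0r S) p.1 p.2.1 p.2.2).toReal := ⟨_, rfl⟩
  obtain ⟨I, hI⟩ : ∃ I : ℝ × R3 × R3 → ℝ, I = fun p => duh (fun p => sr (Fn n) p - S p) p.1 p.2 := ⟨_, rfl⟩
  have mD : Measurable D := by rw [hD]; exact (h.mFt n 0).ennreal_toReal.sub h.h0m
  have mE : Measurable E := by rw [hE]; exact (h.mF n).ennreal_toReal.sub h.mFr'.ennreal_toReal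
  have mI' : Measurable I := by rw [hI]; exact meas_duh ((meas_sr (h.mF n)).sub h.hS)
  have mA : Measurable fun p : ℝ × R3 × R3 => D (sh p.1 p.2) := mD.comp (meas_sh measurable_fst measurable_snd)
  have iD : Integrable D μC := by rw [hD]; exact (h.int_F n le_rfl).sub h.int_F0
  have iD' : Integrable (fun p : ℝ × R3 × R3 => D p.2) (μΩ T) := iD.comp_snd _
  have iA : Integrable (fun p : ℝ × R3 × R3 => D (sh p.1 p.2)) (μΩ T) :=
    ((mp_sk (τ := id) measurable_id T).integrable_comp iD'.1).2 iD'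
  have iE : Integrable E (μΩ T) := by
    rw [hE]
    exact (integrable_toReal_of_lintegral_ne_top (Measurable.aemeasurable (h.mF n))
      ((lintegral_mono_ae (h.Fn_le' n T)).trans_lt (maj_Ω (h.hM T hT))).ne).sub
      (integrable_toReal_of_lintegral_ne_top (Measurable.aemeasurable h.mFr')
      ((lintegral_mono_ae (h.Fr_le' T)).trans_lt (maj_Ω (h.hM T hT))).ne)
  have eE : ∀ᵐ p ∂μΩ T, I p = E p - D (sh p.1 p.2) := by
    refine (Measure.ae_prod_iff_ae_ae (measurableSet_eq_fun mI' (mE.fun_sub mA))).2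
      ((ae_restrict_mem measurableSet_Ioo).mono fun t ht => ?_)
    filter_upwards [h.plain n ht.1.le, h.Fr_eq ht.1.le, h.GG_nonneg ht.1.le,
      duh_sub (meas_sr (h.mF n)) h.hS (h.int_sr n ht.1.le) (h.int_S ht.1.le)] with q h1 h2 h3 h4
    rw [hI, hE, hD]
    simp only [ofR]
    rw [h4, h1, h2, ENNReal.toReal_ofReal h3, GG]
    ring
  have iI : Integrable I (μΩ T) := (iE.sub iA).congr (eE.mono fun p hp => hp.symm)
  have tr : ∀ {f : ℝ × R3 × R3 → ℝ}, Integrable f (μΩ T) →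
      Integrable (fun z : (ℝ × R3) × R3 => f (z.1.1, z.1.2, z.2)) ((μY T).prod volume) := fun hf =>
    ((mp_assoc T).integrable_comp hf.1).2 hf
  have iav : Integrable (fun y : ℝ × R3 => |∫ v in B, I (y.1, y.2, v)|) (μY T) := by
    have : Integrable (fun z : (ℝ × R3) × R3 => I (z.1.1, z.1.2, z.2)) ((μY T).prod (volume.restrict B)) := by
      rw [← Measure.restrict_univ (μ := μY T), Measure.prod_restrict]
      exact (tr iI).restrict
    exact this.integral_prod_left.abs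
  have e2 : (mI T).real univ * ∫ q, |D q| ∂μC = ∫ y, ∫ v, |D (sh y.1 (y.2, v))| ∂volume ∂μY T := by
    have e3 := integral_prod _ (tr iA).abs
    have e4 := mp_integral (mp_assoc T) mA.abs
    have e5 := mp_integral (mp_sk (τ := id) measurable_id T) (mD.comp measurable_snd).abs
    have e6 := integral_fun_snd (μ := mI T) (ν := μC) (fun q => |D q|)
    exact ((e5.trans e6).symm.trans e4.symm).trans e3
  have e7 : ∫ y, |∫ v in B, E (y.1, y.2, v)| ∂μY T ≤
      (mI T).real univ * ∫ q, |D q| ∂μC + ∫ y, |∫ v in B, I (y.1, y.2, v)| ∂μY T := by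
    rw [e2, ← integral_add (tr iA).abs.integral_prod_left iav]
    refine integral_mono_of_nonneg (Eventually.of_forall fun _ => abs_nonneg _)
      ((tr iA).abs.integral_prod_left.add iav) ?_
    filter_upwards [Measure.ae_ae_of_ae_prod ((mp_assoc T).quasiMeasurePreserving.ae eE), (tr iA).prod_right_ae,
      (tr iI).prod_right_ae] with y h1 h2 h3
    have e8 : ∫ v in B, E (y.1, y.2, v) = (∫ v in B, D (sh y.1 (y.2, v))) + ∫ v in B, I (y.1, y.2, v) := by
      rw [← integral_add h2.restrict h3.restrict]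
      refine integral_congr_ae (ae_restrict_of_ae (h1.mono fun v hv => ?_))
      simp only at hv ⊢
      rw [hv]; ring
    rw [e8]
    refine (abs_add_le _ _).trans (add_le_add ?_ le_rfl)
    exact abs_integral_le_integral_abs.trans
      (setIntegral_le_integral h2.abs (Eventually.of_forall fun _ => abs_nonneg _))
  rw [hE, hD, hI] at e7
  exact e7

theorem S_eq {T : ℝ} (hT : 0 ≤ T) : S =ᵐ[μΩ T] sr (ofR (Fr F0r S)) := by
  refine Integrable.ae_eq_of_forall_setIntegral_eq _ _ (h.int_S hT)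
    (Lim.int_sr h.mFr' ((ls_mono h.mFr' h.mM (h.Fr_le' T)).trans_lt (maj_ls (h.hM T hT)))) fun A hA _ => ?_
  have h1 := sr_conv h.mF h.mFr' h.mM (fun n => h.Fn_le' n T) (h.Fr_le' T) (maj_Ω (h.hM T hT))
    (maj_ls (h.hM T hT)) (h.strong hT) hA
  have h2 := h.Sw T hT (A.indicator 1) (measurable_one.indicator hA)
    (fun q => by by_cases hq : q ∈ A <;> simp [hq])
  have e : ∀ f : ℝ × R3 × R3 → ℝ, ∫ q, f q * A.indicator 1 q ∂μΩ T = ∫ q in A, f q ∂μΩ T := fun f => by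
    rw [← integral_indicator hA]
    congr 1
    ext q
    by_cases hq : q ∈ A <;> simp [hq]
  simp only [e] at h2
  exact tendsto_nhds_unique h2 h1

omit h in
theorem Fr_per (t : ℝ) (v : R3) : IsPeriodic3 fun x => Fr F0r S t x v := fun x i => by
  have e : ∀ τ, sh τ (x + EuclideanSpace.single i 1, v) = sh τ (x, v) := fun τ => sh_per τ v x i
  simp only [Fr, GG, duh, e]

theorem good {T : ℝ} (hT : 0 ≤ T) : Good F0r T (Fr F0r S) 𝓜 where
  meas := h.mFr
  nonneg := fun _ _ _ _ => le_max_left _ _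
  per := fun t _ v => Fr_per t v
  init := fun x v => by
    simp only [Fr, GG, duh, sh, mI, Ioo_self, Measure.restrict_empty, integral_zero_measure, add_zero, zero_smul,
      sub_zero]
    rw [per_fr (h.h0p v), max_eq_right (h.h0n x v)]
  plain := fun t ht => by
    have key : ∀ q : R3 × R3, F0r (q.1 - t • q.2) q.2 + ∫ s in Ioo 0 t, Src (Fr F0r S) s (q.1 - (t - s) • q.2) q.2 =
        F0r (sh t q).1 (sh t q).2 + duh (sr (ofR (Fr F0r S))) t q := fun q => by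
      congr 1
      · exact (per_fr (h.h0p q.2) _).symm
      · refine setIntegral_congr_fun measurableSet_Ioo fun s _ => ?_
        rw [Src_eq h.mFr (fun u => le_max_left _ _)]
        refine sr_congr (funext fun u => ?_) _
        simp only [ofR]
        rw [per_fr (Fr_per s u)]
    simp only [key]
    refine ae_of_ae_cell (p := fun x v => Fr F0r S t x v =
      F0r (sh t (x, v)).1 (sh t (x, v)).2 + duh (sr (ofR (Fr F0r S))) t (x, v)) (fun v x i => ?_) ?_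
    · have e : ∀ τ, sh τ (x + EuclideanSpace.single i 1, v) = sh τ (x, v) := fun τ => sh_per τ v x i
      simp only [duh, e, Fr_per t v x i]
    · rw [eC]
      filter_upwards [h.Fr_eq ht.1, duh_congr (h.S_eq ht.1)] with q h1 h2
      rw [h1, GG, h2]
  major := h.hM T hT
  le := fun t ht => by
    refine ae_of_ae_cell (p := fun x v => ENNReal.ofReal (Fr F0r S t x v) ≤ 𝓜 t x v) (fun v x i => ?_) ?_
    · simp only [Fr_per t v x i, (h.hM T hT).per t v x i]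
    · rw [eC]
      exact h.Fr_le ht.1

theorem lweak {t : ℝ} (ht : 0 ≤ t) {φ : R3 × R3 → ℝ≥0∞} (hφ : Measurable φ) (h1 : ∀ q, φ q ≤ 1) :
    Tendsto (fun n => ∫⁻ q, Fn n t q.1 q.2 * φ q ∂μC) atTop
      (𝓝 (∫⁻ q, ENNReal.ofReal (Fr F0r S t q.1 q.2) * φ q ∂μC)) := by
  have hb : ∀ q, |(φ q).toReal| ≤ 1 := fun q => by
    rw [abs_of_nonneg ENNReal.toReal_nonneg]
    exact ENNReal.toReal_le_of_le_ofReal zero_le_one (by simpa using h1 q)
  have hf : ∀ q, φ q ≠ ⊤ := fun q => ((h1 q).trans_lt ENNReal.one_lt_top).ne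
  have ib : ∀ {f : R3 × R3 → ℝ}, Integrable f μC → (∀ᵐ q ∂μC, 0 ≤ f q) →
      ENNReal.ofReal (∫ q, f q * (φ q).toReal ∂μC) = ∫⁻ q, ENNReal.ofReal (f q) * φ q ∂μC := fun hi h0 => by
    rw [ofReal_integral_eq_lintegral_ofReal (hi.mul_bdd (c := 1) hφ.ennreal_toReal.aestronglyMeasurable
      (Eventually.of_forall hb)) (h0.mono fun q hq => mul_nonneg hq ENNReal.toReal_nonneg)]
    refine lintegral_congr_ae (h0.mono fun q hq => ?_)
    simp only
    rw [ENNReal.ofReal_mul hq, ENNReal.ofReal_toReal (hf q)]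
  have := ENNReal.tendsto_ofReal (h.weak ht hφ.ennreal_toReal hb)
  rw [ib (h.int_GG ht) (h.GG_nonneg ht)] at this
  rw [lintegral_congr_ae ((h.Fr_eq ht).mono fun q hq => congrArg (fun a => ENNReal.ofReal a * φ q) hq)]
  refine this.congr fun n => ?_
  rw [ib (h.int_F n ht) (Eventually.of_forall fun _ => ENNReal.toReal_nonneg)]
  exact lintegral_congr fun q => by rw [ENNReal.ofReal_toReal (h.fin n ht _ _)]

end St

end

end Crest.Agent.R68.Lim
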