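import Crest.Agent.R68.WeakLim
import Crest.Agent.R68.Avg
import Crest.Agent.R68.Bilin
import Crest.Agent.R68.GoodSol
import Crest.Agent.R68.Plain
import Crest.Agent.R68.LimitC

/-! Passage to the limit.  The sources are NOT dominated pointwise by `Qp 𝓜 𝓜` in a problematic way: `|Src F_n| ≤ 𝓢 := (Qp 𝓜 𝓜).toReal + (𝓜 nu 𝓜).toReal` a.e., and `𝓢` is integrable on
`(0,T) × cell × R3` for every `T` (`Major.m2`, `gain_moment`).  1. `weak_lim` on `region` for `S_n = Src (toR F_n)` gives a subsequence and a limit `S`; make it periodic (`S(t, fract x, v)`) and `0` for `t ≤ 0`.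
2. Define `Fr t x v = max 0 (F0r (x - t v) v + ∫_0^t S♯)` for `t ≥ 0` (and `F0r x v` for `t < 0`).  For every `t ≥ 0` and bounded measurable `ψ`, `∫ F_n(t) ψ → ∫ (F0r♯ + ∫ S♯) ψ` (plain mild form `Sol.plain`, shear, Fubini); hence
`0 ≤ F0r♯ + ∫S♯ ≤ 𝓜 t` a.e.  3. `averaging` (applied to `S_n - S`, dominated by `2𝓢`) and the `L¹` convergence of the data give strong convergence of velocity averages on `(0,T) × cell`.
4. `bilin` with `κ(y,a,b) = ∫ |⟪a-b,w⟫| (ψ(y, postVel a b w) - ψ(y,a)) dw` (`weak_gain` in real form) gives `∫ S_n ψ → ∫ Src Fr ψ`, so `S = Src Fr` a.e.; hence `PlainMild`.  5. `good_global`. -/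

set_option autoImplicit false

open MeasureTheory Set Filter Topology Crest.AnalysisR.VecCalc3 Crest.AnalysisR.PDE.Boltzmann
open scoped ENNReal NNReal

namespace Crest.Agent.R68

open Lim in
theorem limit_exists {F0n : ℕ → R3 → R3 → ℝ≥0∞} {Fn : ℕ → Den} {F0r : R3 → R3 → ℝ} {𝓜 : Den} {R : ℝ}
    (hM : ∀ T, 0 ≤ T → Major 𝓜 T) (hsol : ∀ n T, 0 ≤ T → Sol (F0n n) T (Fn n))
    (hper : ∀ n t v, 0 ≤ t → IsPeriodic3 (fun x => Fn n t x v))
    (hle : ∀ n t x v, 0 ≤ t → Fn n t x v ≤ 𝓜 t x v)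
    (h0m : Measurable (fun q : R3 × R3 => F0r q.1 q.2)) (h0n : ∀ x v, 0 ≤ F0r x v)
    (h0p : ∀ v, IsPeriodic3 (fun x => F0r x v)) (hR : ∀ x v, R ≤ ‖v‖ → F0r x v = 0)
    (hconv : Tendsto (fun n => ∫⁻ q in cell ×ˢ (univ : Set R3), ‖(F0n n q.1 q.2).toReal - F0r q.1 q.2‖ₑ)
      atTop (𝓝 0)) :
    ∃ Fr : ℝ → R3 → R3 → ℝ, IsGlobalSolution Fr F0r ∧ ∀ t, 0 ≤ t → ∀ φ : R3 × R3 → ℝ≥0∞, Measurable φ →
      (∀ q, φ q ≤ 1) → ∀ c : ℝ≥0∞,
      ((∀ n, c ≤ ∫⁻ q in cell ×ˢ (univ : Set R3), Fn n t q.1 q.2 * φ q) →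
        c ≤ ∫⁻ q in cell ×ˢ (univ : Set R3), ENNReal.ofReal (Fr t q.1 q.2) * φ q) ∧
      ((∀ n, ∫⁻ q in cell ×ˢ (univ : Set R3), Fn n t q.1 q.2 * φ q ≤ c) →
        ∫⁻ q in cell ×ˢ (univ : Set R3), ENNReal.ofReal (Fr t q.1 q.2) * φ q ≤ c) := by
  have hmono : ∀ T : ℝ, Ioo 0 T ×ˢ (cell ×ˢ (univ : Set R3)) ⊆ region := fun T =>
    prod_mono Ioo_subset_Ioi_self le_rfl
  have hΩ : ∀ T : ℝ, MeasurableSet (Ioo 0 T ×ˢ (cell ×ˢ (univ : Set R3))) := fun T =>
    measurableSet_Ioo.prod (measurableSet_cell.prod MeasurableSet.univ)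
  have hU : region = ⋃ k : ℕ, Ioo (0 : ℝ) k ×ˢ (cell ×ˢ (univ : Set R3)) := by
    refine Subset.antisymm (fun p hp => ?_) (iUnion_subset fun k => hmono k)
    obtain ⟨k, hk⟩ := exists_nat_gt p.1
    exact mem_iUnion.2 ⟨k, ⟨hp.1, hk⟩, hp.2⟩
  obtain ⟨φ, hφ, S, hS, Sle, Sw⟩ := weak_lim (volume.restrict region) (f := fun n => sr (Fn n)) (g := dom 𝓜)
    (fun n => meas_sr (hsol n 0 le_rfl).mild.1) (meas_dom (hM 0 le_rfl).meas) (fun n => by
      rw [hU, ae_restrict_iUnion_iff]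
      intro k
      rw [eΩ]
      exact sr_le_dom (hM k (Nat.cast_nonneg k)) (hle n))
  have h : St (fun n => F0n (φ n)) (fun n => Fn (φ n)) F0r 𝓜 S :=
    { hM := hM
      hsol := fun n => hsol (φ n)
      hper := fun n => hper (φ n)
      hle := fun n => hle (φ n)
      h0m := h0m
      h0n := h0n
      h0p := h0p
      hconv := by
        rw [eC] at hconv
        exact hconv.comp hφ.tendsto_atTop
      hS := hS
      Sle := fun T _ => by
        rw [← eΩ]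
        exact ae_restrict_of_ae_restrict_of_subset (hmono T) Sle
      Sw := fun T hT ψ hψ hb => by
        have e : ∀ f : ℝ × R3 × R3 → ℝ, (fun p => f p * (Ioo 0 T ×ˢ (cell ×ˢ (univ : Set R3))).indicator ψ p) =
            (Ioo 0 T ×ˢ (cell ×ˢ (univ : Set R3))).indicator fun p => f p * ψ p := fun f => by
          ext p
          by_cases hp : p ∈ Ioo 0 T ×ˢ (cell ×ˢ (univ : Set R3))
          · simp only [indicator_of_mem hp]
          · simp only [indicator_of_notMem hp, mul_zero]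
        have e2 : (volume.restrict region).restrict (Ioo 0 T ×ˢ (cell ×ˢ (univ : Set R3))) = μΩ T := by
          rw [Measure.restrict_restrict_of_subset (hmono T), eΩ]
        have := Sw _ (hψ.indicator (hΩ T)) (by
          rw [e, integrable_indicator_iff (hΩ T), IntegrableOn, e2]
          exact (int_dom (hM T hT)).mul_bdd (c := 1) hψ.aestronglyMeasurable (Eventually.of_forall hb))
        simpa only [e, integral_indicator (hΩ T), e2] using this }
  refine ⟨Fr F0r S, good_global (fun T hT => h.good hT) hR St.Fr_per, fun t ht ψ hψ h1 c => ?_⟩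
  rw [eC]
  exact ⟨fun hc => ge_of_tendsto' (h.lweak ht hψ h1) fun n => hc (φ n),
    fun hc => le_of_tendsto' (h.lweak ht hψ h1) fun n => hc (φ n)⟩

end Crest.Agent.R68
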