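import Crest.Agent.R68.AvgA

/-! Tools for the passage to the limit: product measures, shears on the torus, the Duhamel operator. -/

set_option autoImplicit false

open MeasureTheory Set Filter Topology Crest.AnalysisR.VecCalc3 Crest.AnalysisR.PDE.Boltzmann
open scoped ENNReal NNReal

namespace Crest.Agent.R68.Lim

open Avg

noncomputable section

abbrev mI (T : ℝ) : Measure ℝ := volume.restrict (Ioo 0 T)
abbrev mc : Measure R3 := volume.restrict cell
abbrev μC : Measure (R3 × R3) := mc.prod volume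
abbrev μΩ (T : ℝ) : Measure (ℝ × R3 × R3) := (mI T).prod μC
abbrev μY (T : ℝ) : Measure (ℝ × R3) := (mI T).prod mc

theorem eC : volume.restrict (cell ×ˢ (univ : Set R3)) = μC := by
  rw [μC, mc, ← Measure.restrict_univ (μ := (volume : Measure R3)), Measure.restrict_restrict measurableSet_cell,
    inter_univ, Measure.prod_restrict]
  rfl

theorem eΩ (T : ℝ) : volume.restrict (Ioo 0 T ×ˢ (cell ×ˢ (univ : Set R3))) = μΩ T := by
  rw [μΩ, ← eC, mI, Measure.prod_restrict]
  rfl

theorem eY (T : ℝ) : volume.restrict (Ioo 0 T ×ˢ cell) = μY T := by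
  rw [μY, mI, mc, Measure.prod_restrict]
  rfl

theorem per_fr {α : Type} {f : R3 → α} (hf : IsPeriodic3 f) (x : R3) : f (fr x) = f x := per_int hf x _

theorem fr_fr_sub (y z : R3) : fr (fr y - z) = fr (y - z) :=
  per_fr (f := fun y => fr (y - z)) (fun x i => by
    have := fr_per (x - z) i
    simp only
    rw [← this]
    congr 1
    abel) y

/-- shear on the torus -/
def sh (τ : ℝ) (q : R3 × R3) : R3 × R3 := (fr (q.1 - τ • q.2), q.2)

theorem meas_sh {α : Type} [MeasurableSpace α] {τ : α → ℝ} {q : α → R3 × R3} (hτ : Measurable τ)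
    (hq : Measurable q) : Measurable fun a => sh (τ a) (q a) :=
  (measurable_fr.comp (by fun_prop)).prodMk hq.snd

theorem sh_per (τ : ℝ) (v : R3) : IsPeriodic3 fun x => sh τ (x, v) := fun x i => by
  simp only [sh]
  rw [← fr_per (x - τ • v) i]
  congr 2
  abel

theorem sh_sh (τ : ℝ) {q : R3 × R3} (hq : q.1 ∈ cell) : sh (-τ) (sh τ q) = q := by
  simp only [sh, fr_fr_sub]
  rw [neg_smul, sub_neg_eq_add, sub_add_cancel, fr_of_mem hq]

theorem ae_cell : ∀ᵐ q ∂μC, q.1 ∈ cell :=
  Measure.quasiMeasurePreserving_fst.ae (ae_restrict_mem measurableSet_cell)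

theorem ae_Ω (T : ℝ) : ∀ᵐ p ∂μΩ T, p.1 ∈ Ioo 0 T ∧ p.2.1 ∈ cell :=
  (Measure.quasiMeasurePreserving_fst.ae (ae_restrict_mem measurableSet_Ioo)).and
    (Measure.quasiMeasurePreserving_snd.ae ae_cell)

theorem mp_sh (τ : ℝ) : MeasurePreserving (sh τ) μC μC := by
  have hm : Measurable (sh τ) := meas_sh measurable_const measurable_id
  refine ⟨hm, Measure.ext fun A hA => ?_⟩
  have h1 := lintegral_shear (f := fun x v => A.indicator 1 (fr x, v))
    ((measurable_one.indicator hA).comp ((measurable_fr.comp measurable_fst).prodMk measurable_snd))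
    (fun v x i => by simp only [fr_per x i]) τ
  rw [eC] at h1
  rw [Measure.map_apply hm hA, ← lintegral_indicator_one (hm hA), ← lintegral_indicator_one hA]
  refine (lintegral_congr fun q => ?_).trans (h1.trans (lintegral_congr_ae (ae_cell.mono fun q hq => ?_)))
  · rfl
  · simp only [fr_of_mem hq]

theorem mp_sk {τ : ℝ → ℝ} (hτ : Measurable τ) (T : ℝ) :
    MeasurePreserving (fun p : ℝ × R3 × R3 => (p.1, sh (τ p.1) p.2)) (μΩ T) (μΩ T) :=
  (MeasurePreserving.id (mI T)).skew_product (g := fun s q => sh (τ s) q)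
    (meas_sh (hτ.comp measurable_fst) measurable_snd) (Eventually.of_forall fun s => (mp_sh (τ s)).map_eq)

theorem mp_integral {α β : Type} [MeasurableSpace α] [MeasurableSpace β] {μ : Measure α} {ν : Measure β} {φ : α → β}
    (h : MeasurePreserving φ μ ν) {f : β → ℝ} (hf : Measurable f) : ∫ a, f (φ a) ∂μ = ∫ b, f b ∂ν := by
  rw [← h.map_eq, integral_map h.measurable.aemeasurable hf.aestronglyMeasurable]

/-- Duhamel integral -/
def duh (S : ℝ × R3 × R3 → ℝ) (t : ℝ) (q : R3 × R3) : ℝ := ∫ s, S (s, sh (t - s) q) ∂mI t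

variable {S : ℝ × R3 × R3 → ℝ}

theorem meas_duh (hS : Measurable S) : Measurable fun p : ℝ × R3 × R3 => duh S p.1 p.2 := by
  have h1 : Measurable fun z : (ℝ × R3 × R3) × ℝ =>
      {z : (ℝ × R3 × R3) × ℝ | 0 < z.2 ∧ z.2 < z.1.1}.indicator (fun z => S (z.2, sh (z.1.1 - z.2) z.1.2)) z :=
    (hS.comp (measurable_snd.prodMk (meas_sh (by fun_prop) (by fun_prop)))).indicator
      ((measurableSet_lt measurable_const measurable_snd).inter (measurableSet_lt measurable_snd (by fun_prop)))
  have h2 := (h1.stronglyMeasurable.integral_prod_right' (ν := volume)).measurable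
  convert h2 using 2 with p
  rw [duh, mI, ← integral_indicator measurableSet_Ioo]
  rfl

theorem int_sk (hS : Measurable S) {t : ℝ} (hi : Integrable S (μΩ t)) :
    Integrable (fun p : ℝ × R3 × R3 => S (p.1, sh (t - p.1) p.2)) (μΩ t) :=
  ((mp_sk (τ := fun s => t - s) (by fun_prop) t).integrable_comp hS.aestronglyMeasurable).2 hi

theorem int_duh (hS : Measurable S) {t : ℝ} (hi : Integrable S (μΩ t)) : Integrable (duh S t) μC :=
  (int_sk hS hi).integral_prod_right

theorem duh_dual (hS : Measurable S) {t : ℝ} (hi : Integrable S (μΩ t)) {ψ : R3 × R3 → ℝ} (hψ : Measurable ψ)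
    (hb : ∀ q, |ψ q| ≤ 1) : ∫ q, duh S t q * ψ q ∂μC = ∫ p, S p * ψ (sh (p.1 - t) p.2) ∂μΩ t := by
  have hm : Measurable fun p : ℝ × R3 × R3 => S p * ψ (sh (p.1 - t) p.2) :=
    hS.mul (hψ.comp (meas_sh (by fun_prop) (by fun_prop)))
  rw [← mp_integral (mp_sk (τ := fun s => t - s) (by fun_prop) t) hm]
  have h1 : Integrable (fun p : ℝ × R3 × R3 => S (p.1, sh (t - p.1) p.2) * ψ p.2) (μΩ t) :=
    (int_sk hS hi).mul_bdd (c := 1) (hψ.comp measurable_snd).aestronglyMeasurable (Eventually.of_forall fun p => hb _)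
  have h2 : ∫ p, S (p.1, sh (t - p.1) p.2) * ψ (sh (p.1 - t) (sh (t - p.1) p.2)) ∂μΩ t =
      ∫ p, S (p.1, sh (t - p.1) p.2) * ψ p.2 ∂μΩ t := by
    refine integral_congr_ae ((ae_Ω t).mono fun p hp => ?_)
    simp only
    rw [← neg_sub t p.1, sh_sh _ hp.2]
  rw [h2, integral_prod_symm _ h1]
  refine integral_congr_ae (Eventually.of_forall fun q => ?_)
  simp only [duh]
  rw [integral_mul_const]

theorem duh_congr {S S' : ℝ × R3 × R3 → ℝ} {t : ℝ} (h : S =ᵐ[μΩ t] S') : duh S t =ᵐ[μC] duh S' t := by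
  have h1 := (mp_sk (τ := fun s => t - s) (by fun_prop) t).quasiMeasurePreserving.ae h
  have h2 := Measure.ae_ae_of_ae_prod (Measure.measurePreserving_swap.quasiMeasurePreserving.ae h1)
  exact h2.mono fun q hq => integral_congr_ae hq

theorem duh_sub {S S' : ℝ × R3 × R3 → ℝ} (hS : Measurable S) (hS' : Measurable S') {t : ℝ}
    (hi : Integrable S (μΩ t)) (hi' : Integrable S' (μΩ t)) :
    ∀ᵐ q ∂μC, duh (fun p => S p - S' p) t q = duh S t q - duh S' t q := by
  filter_upwards [(int_sk hS hi).prod_left_ae, (int_sk hS' hi').prod_left_ae] with q h1 h2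
  exact integral_sub h1 h2

theorem mono_Ω {t T : ℝ} (h : t ≤ T) : μΩ t ≤ μΩ T := by
  rw [← eΩ, ← eΩ]
  exact Measure.restrict_mono (prod_mono (Ioo_subset_Ioo_right h) le_rfl) le_rfl

theorem mp_assoc (T : ℝ) : MeasurePreserving (fun z : (ℝ × R3) × R3 => (z.1.1, z.1.2, z.2))
    ((μY T).prod volume) (μΩ T) := measurePreserving_prodAssoc _ _ _

end

end Crest.Agent.R68.Lim
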