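import Crest.Agent.R68.LimitA
import Crest.Agent.R68.Bilin
import Crest.Agent.R68.PrePost

/-! Weak convergence of the collision terms when the velocity averages converge strongly. -/

set_option autoImplicit false

open MeasureTheory Set Filter Topology Crest.AnalysisR.VecCalc3 Crest.AnalysisR.PDE.Boltzmann
open scoped ENNReal NNReal

namespace Crest.Agent.R68.Lim

open Avg

noncomputable section

/-- gain -/
def gn (F : Den) (p : ℝ × R3 × R3) : ℝ≥0∞ := Qp (F p.1 p.2.1) (F p.1 p.2.1) p.2.2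
/-- loss -/
def ls (F : Den) (p : ℝ × R3 × R3) : ℝ≥0∞ := F p.1 p.2.1 p.2.2 * nu (F p.1 p.2.1) p.2.2
/-- collision term -/
def sr (F : Den) (p : ℝ × R3 × R3) : ℝ := (gn F p).toReal - (ls F p).toReal
/-- gain kernel -/
def Kg (φ : ℝ × R3 × R3 → ℝ≥0∞) (z : (ℝ × R3) × R3 × R3) : ℝ≥0∞ :=
  ∫⁻ w, ENNReal.ofReal |inner ℝ (z.2.1 - z.2.2) w| * φ (z.1.1, z.1.2, postVel z.2.1 z.2.2 w) ∂sphereMeasure
/-- loss kernel -/
def Kl (φ : ℝ × R3 × R3 → ℝ≥0∞) (z : (ℝ × R3) × R3 × R3) : ℝ≥0∞ :=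
  ENNReal.ofReal (2 * Real.pi * ‖z.2.1 - z.2.2‖) * φ (z.1.1, z.1.2, z.2.1)
/-- product density -/
def FF (F : Den) (z : (ℝ × R3) × R3 × R3) : ℝ≥0∞ := F z.1.1 z.1.2 z.2.1 * F z.1.1 z.1.2 z.2.2

abbrev μZ (T : ℝ) : Measure ((ℝ × R3) × R3 × R3) := (μY T).prod ((volume : Measure R3).prod volume)

variable {F 𝓜 : Den} {φ : ℝ × R3 × R3 → ℝ≥0∞} {T : ℝ}

theorem meas_gn (hF : MeasD F) : Measurable (gn F) :=
  meas_Qp (α := ℝ × R3 × R3) (f := fun p => F p.1 p.2.1) (h := fun p => F p.1 p.2.1)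
    (hF.comp (by fun_prop) (by fun_prop) measurable_snd) (hF.comp (by fun_prop) (by fun_prop) measurable_snd)
    (by fun_prop)

theorem meas_ls (hF : MeasD F) : Measurable (ls F) :=
  Measurable.mul hF (meas_nu (α := ℝ × R3 × R3) (f := fun p => F p.1 p.2.1)
    (hF.comp (by fun_prop) (by fun_prop) measurable_snd) (by fun_prop))

theorem meas_sr (hF : MeasD F) : Measurable (sr F) :=
  (meas_gn hF).ennreal_toReal.sub (meas_ls hF).ennreal_toReal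

theorem meas_FF (hF : MeasD F) : Measurable (FF F) :=
  (hF.comp (by fun_prop) (by fun_prop) (by fun_prop)).mul (hF.comp (by fun_prop) (by fun_prop) (by fun_prop))

theorem meas_Kg (hφ : Measurable φ) : Measurable (Kg φ) := by
  refine Measurable.lintegral_prod_right' (f := fun y : ((ℝ × R3) × R3 × R3) × R3 =>
    ENNReal.ofReal |inner ℝ (y.1.2.1 - y.1.2.2) y.2| * φ (y.1.1.1, y.1.1.2, postVel y.1.2.1 y.1.2.2 y.2)) ?_
  unfold postVel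
  exact (ENNReal.measurable_ofReal.comp (by fun_prop)).mul (hφ.comp (by fun_prop))

theorem meas_Kl (hφ : Measurable φ) : Measurable (Kl φ) :=
  (ENNReal.measurable_ofReal.comp (by fun_prop)).mul (hφ.comp (by fun_prop))

theorem Kg_le (h1 : ∀ p, φ p ≤ 1) (z : (ℝ × R3) × R3 × R3) : Kg φ z ≤ Kl 1 z := by
  rw [Kl, Pi.one_apply, mul_one, ← sphere_abs_inner]
  exact lintegral_mono fun w => mul_le_of_le_one_right' (h1 _)

theorem Kl_le (h1 : ∀ p, φ p ≤ 1) (z : (ℝ × R3) × R3 × R3) : Kl φ z ≤ Kl 1 z := mul_le_mul' le_rfl (h1 _)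

theorem lint_Ω {H : ℝ × R3 × R3 → ℝ≥0∞} (hH : Measurable H) :
    ∫⁻ p, H p ∂μΩ T = ∫⁻ y, ∫⁻ v, H (y.1, y.2, v) ∂volume ∂μY T := by
  rw [← (mp_assoc T).lintegral_comp hH]
  exact lintegral_prod _ (hH.comp (mp_assoc T).measurable).aemeasurable

theorem lint_Z {H : (ℝ × R3) × R3 × R3 → ℝ≥0∞} (hH : Measurable H) :
    ∫⁻ z, H z ∂μZ T = ∫⁻ y, ∫⁻ a, ∫⁻ b, H (y, a, b) ∂volume ∂volume ∂μY T := by
  rw [lintegral_prod _ hH.aemeasurable]
  exact lintegral_congr fun y => lintegral_prod _ (hH.comp measurable_prodMk_left).aemeasurable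

theorem gn_eq (hF : MeasD F) (hφ : Measurable φ) :
    ∫⁻ p, gn F p * φ p ∂μΩ T = ∫⁻ z, FF F z * Kg φ z ∂μZ T := by
  rw [lint_Ω ((meas_gn hF).fun_mul hφ), lint_Z ((meas_FF hF).fun_mul (meas_Kg hφ))]
  refine lintegral_congr fun y => ?_
  have h1 : Measurable (F y.1 y.2) := hF.comp measurable_const measurable_const measurable_id
  exact weak_gain (φ := fun v => φ (y.1, y.2, v)) h1 h1 (hφ.comp (by fun_prop))

theorem ls_eq (hF : MeasD F) (hφ : Measurable φ) :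
    ∫⁻ p, ls F p * φ p ∂μΩ T = ∫⁻ z, FF F z * Kl φ z ∂μZ T := by
  rw [lint_Ω ((meas_ls hF).fun_mul hφ), lint_Z ((meas_FF hF).fun_mul (meas_Kl hφ))]
  refine lintegral_congr fun y => lintegral_congr fun a => ?_
  have h1 : Measurable (F y.1 y.2) := hF.comp measurable_const measurable_const measurable_id
  have h2 : Measurable fun b => ENNReal.ofReal (2 * Real.pi * ‖a - b‖) * F y.1 y.2 b :=
    (ENNReal.measurable_ofReal.comp (by fun_prop)).mul h1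
  simp only [Pi.mul_apply, ls, nu, FF, Kl]
  rw [← lintegral_const_mul _ h2, ← lintegral_mul_const _ (h2.const_mul _)]
  exact lintegral_congr fun b => by ring

theorem gn_le_ls (hF : MeasD F) : ∫⁻ p, gn F p ∂μΩ T ≤ ∫⁻ p, ls F p ∂μΩ T := by
  have h1 := gn_eq (T := T) hF (φ := 1) measurable_one
  have h2 := ls_eq (T := T) hF (φ := 1) measurable_one
  simp only [Pi.one_apply, mul_one] at h1 h2
  rw [h1, h2]
  exact lintegral_mono fun z => mul_le_mul' le_rfl (Kg_le (fun _ => le_rfl) z)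

theorem FF_le (h : ∀ᵐ p ∂μΩ T, F p.1 p.2.1 p.2.2 ≤ 𝓜 p.1 p.2.1 p.2.2) : ∀ᵐ z ∂μZ T, FF F z ≤ FF 𝓜 z := by
  have h1 := (mp_assoc T).quasiMeasurePreserving.ae h
  filter_upwards [(BilinA.qmp1 (μY T)).ae h1, (BilinA.qmp2 (μY T)).ae h1] with z h2 h3
  exact mul_le_mul' h2 h3

theorem ls_mono (hF : MeasD F) (hM : MeasD 𝓜) (h : ∀ᵐ p ∂μΩ T, F p.1 p.2.1 p.2.2 ≤ 𝓜 p.1 p.2.1 p.2.2) :
    ∫⁻ p, ls F p ∂μΩ T ≤ ∫⁻ p, ls 𝓜 p ∂μΩ T := by
  have h1 := ls_eq (T := T) hF (φ := 1) measurable_one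
  have h2 := ls_eq (T := T) hM (φ := 1) measurable_one
  simp only [Pi.one_apply, mul_one] at h1 h2
  rw [h1, h2]
  exact lintegral_mono_ae ((FF_le h).mono fun z hz => mul_le_mul' hz le_rfl)

theorem int_sr (hF : MeasD F) (h : ∫⁻ p, ls F p ∂μΩ T < ⊤) : Integrable (sr F) (μΩ T) :=
  (integrable_toReal_of_lintegral_ne_top (meas_gn hF).aemeasurable ((gn_le_ls hF).trans_lt h).ne).sub
    (integrable_toReal_of_lintegral_ne_top (meas_ls hF).aemeasurable h.ne)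

theorem setInt_toReal {H : ℝ × R3 × R3 → ℝ≥0∞} (hH : Measurable H) (h : ∫⁻ p, H p ∂μΩ T < ⊤)
    {A : Set (ℝ × R3 × R3)} (hA : MeasurableSet A) :
    ∫ p in A, (H p).toReal ∂μΩ T = (∫⁻ p, H p * A.indicator 1 p ∂μΩ T).toReal := by
  rw [integral_toReal hH.aemeasurable (ae_restrict_of_ae (ae_lt_top hH h.ne)), ← lintegral_indicator hA]
  congr 1
  refine lintegral_congr fun p => ?_
  by_cases hp : p ∈ A <;> simp [hp]

theorem setInt_sr (hF : MeasD F) (h : ∫⁻ p, ls F p ∂μΩ T < ⊤) {A : Set (ℝ × R3 × R3)} (hA : MeasurableSet A) :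
    ∫ p in A, sr F p ∂μΩ T = (∫⁻ z, FF F z * Kg (A.indicator 1) z ∂μZ T).toReal -
      (∫⁻ z, FF F z * Kl (A.indicator 1) z ∂μZ T).toReal := by
  have hg := (gn_le_ls hF).trans_lt h
  rw [← gn_eq hF (measurable_one.indicator hA), ← ls_eq hF (measurable_one.indicator hA),
    ← setInt_toReal (meas_gn hF) hg hA, ← setInt_toReal (meas_ls hF) h hA]
  exact integral_sub (integrable_toReal_of_lintegral_ne_top (meas_gn hF).aemeasurable hg.ne).restrict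
    (integrable_toReal_of_lintegral_ne_top (meas_ls hF).aemeasurable h.ne).restrict

theorem bilin_l {Fn : ℕ → Den} (hFn : ∀ n, MeasD (Fn n)) (hF : MeasD F) (hM : MeasD 𝓜)
    (hn : ∀ n, ∀ᵐ p ∂μΩ T, Fn n p.1 p.2.1 p.2.2 ≤ 𝓜 p.1 p.2.1 p.2.2)
    (h0 : ∀ᵐ p ∂μΩ T, F p.1 p.2.1 p.2.2 ≤ 𝓜 p.1 p.2.1 p.2.2)
    (i1 : ∫⁻ p, 𝓜 p.1 p.2.1 p.2.2 ∂μΩ T < ⊤) (i2 : ∫⁻ p, ls 𝓜 p ∂μΩ T < ⊤)
    (hav : ∀ B : Set R3, MeasurableSet B → Bornology.IsBounded B → Tendsto (fun n =>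
      ∫ y, |∫ v in B, ((Fn n y.1 y.2 v).toReal - (F y.1 y.2 v).toReal)| ∂μY T) atTop (𝓝 0))
    {K : (ℝ × R3) × R3 × R3 → ℝ≥0∞} (hK : Measurable K) (hK1 : ∀ z, K z ≤ Kl 1 z) :
    Tendsto (fun n => (∫⁻ z, FF (Fn n) z * K z ∂μZ T).toReal) atTop (𝓝 (∫⁻ z, FF F z * K z ∂μZ T).toReal) := by
  have i3 : ∫⁻ z, FF 𝓜 z * K z ∂μZ T < ⊤ := by
    have h2 := ls_eq (T := T) hM (φ := 1) measurable_one
    simp only [Pi.one_apply, mul_one] at h2
    exact (lintegral_mono fun z => mul_le_mul' le_rfl (hK1 z)).trans_lt (h2 ▸ i2)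
  have mu : ∀ {G : Den}, MeasD G → Measurable (Function.uncurry fun (y : ℝ × R3) v => (G y.1 y.2 v).toReal) :=
    fun hG => (hG.comp (by fun_prop) (by fun_prop) measurable_snd).ennreal_toReal
  have fin := (mp_assoc T).quasiMeasurePreserving.ae (ae_lt_top hM i1.ne)
  have bd : ∀ {G : Den}, (∀ᵐ p ∂μΩ T, G p.1 p.2.1 p.2.2 ≤ 𝓜 p.1 p.2.1 p.2.2) →
      ∀ᵐ q ∂(μY T).prod (volume : Measure R3), |(G q.1.1 q.1.2 q.2).toReal| ≤ (𝓜 q.1.1 q.1.2 q.2).toReal := fun hG => by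
    filter_upwards [(mp_assoc T).quasiMeasurePreserving.ae hG, fin] with q h1 h2
    rw [abs_of_nonneg ENNReal.toReal_nonneg]
    exact ENNReal.toReal_mono h2.ne h1
  have ev : ∀ {G : Den}, MeasD G → (∀ᵐ p ∂μΩ T, G p.1 p.2.1 p.2.2 ≤ 𝓜 p.1 p.2.1 p.2.2) →
      ∫ z, (G z.1.1 z.1.2 z.2.1).toReal * (G z.1.1 z.1.2 z.2.2).toReal * (K z).toReal ∂μZ T =
        (∫⁻ z, FF G z * K z ∂μZ T).toReal := fun hG hl => by
    rw [← integral_toReal ((meas_FF hG).fun_mul hK).aemeasurable]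
    · simp only [FF, Pi.mul_apply, ENNReal.toReal_mul]
    · filter_upwards [FF_le hl, ae_lt_top ((meas_FF hM).mul hK) i3.ne] with z h1 h2
      exact (mul_le_mul' h1 le_rfl).trans_lt h2
  have := bilin (μY T) (f := fun n y v => (Fn n y.1 y.2 v).toReal) (f0 := fun y v => (F y.1 y.2 v).toReal)
    (g := fun y v => (𝓜 y.1 y.2 v).toReal) (fun n => mu (hFn n)) (mu hF) (mu hM)
    (((mp_assoc T).integrable_comp hM.ennreal_toReal.aestronglyMeasurable).2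
      (integrable_toReal_of_lintegral_ne_top hM.aemeasurable i1.ne))
    (fun n => bd (hn n)) (bd h0) hav hK.ennreal_toReal (by
      have := integrable_toReal_of_lintegral_ne_top ((meas_FF hM).mul hK).aemeasurable i3.ne
      simpa only [FF, Pi.mul_apply, ENNReal.toReal_mul] using this)
  rw [ev hF h0] at this
  exact this.congr fun n => ev (hFn n) (hn n)

theorem sr_conv {Fn : ℕ → Den} (hFn : ∀ n, MeasD (Fn n)) (hF : MeasD F) (hM : MeasD 𝓜)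
    (hn : ∀ n, ∀ᵐ p ∂μΩ T, Fn n p.1 p.2.1 p.2.2 ≤ 𝓜 p.1 p.2.1 p.2.2)
    (h0 : ∀ᵐ p ∂μΩ T, F p.1 p.2.1 p.2.2 ≤ 𝓜 p.1 p.2.1 p.2.2)
    (i1 : ∫⁻ p, 𝓜 p.1 p.2.1 p.2.2 ∂μΩ T < ⊤) (i2 : ∫⁻ p, ls 𝓜 p ∂μΩ T < ⊤)
    (hav : ∀ B : Set R3, MeasurableSet B → Bornology.IsBounded B → Tendsto (fun n =>
      ∫ y, |∫ v in B, ((Fn n y.1 y.2 v).toReal - (F y.1 y.2 v).toReal)| ∂μY T) atTop (𝓝 0))
    {A : Set (ℝ × R3 × R3)} (hA : MeasurableSet A) :
    Tendsto (fun n => ∫ p in A, sr (Fn n) p ∂μΩ T) atTop (𝓝 (∫ p in A, sr F p ∂μΩ T)) := by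
  have h1 : ∀ p, A.indicator (1 : ℝ × R3 × R3 → ℝ≥0∞) p ≤ 1 := fun p => by by_cases hp : p ∈ A <;> simp [hp]
  rw [setInt_sr hF ((ls_mono hF hM h0).trans_lt i2) hA]
  refine ((bilin_l hFn hF hM hn h0 i1 i2 hav (meas_Kg (measurable_one.indicator hA)) (Kg_le h1)).sub
    (bilin_l hFn hF hM hn h0 i1 i2 hav (meas_Kl (measurable_one.indicator hA)) (Kl_le h1))).congr fun n => ?_
  rw [setInt_sr (hFn n) ((ls_mono (hFn n) hM (hn n)).trans_lt i2) hA]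

theorem one_le_pw (k : ℕ) (v : R3) : 1 ≤ pw k v :=
  ENNReal.one_le_ofReal.2 (one_le_pow₀ (le_add_of_nonneg_right (norm_nonneg v)))

theorem maj_t (h : Major 𝓜 T) : ∃ C : ℝ≥0∞, C < ⊤ ∧ ∀ t ∈ Icc 0 T, ∫⁻ q, 𝓜 t q.1 q.2 ∂μC ≤ C := by
  obtain ⟨C, hC, h1⟩ := h.m1
  refine ⟨C, hC, fun t ht => le_trans ?_ (h1 t ht)⟩
  rw [eC]
  exact lintegral_mono fun q => le_mul_of_one_le_right' ((one_le_pw 2 _).trans le_self_add)

theorem maj_Ω (h : Major 𝓜 T) : ∫⁻ p, 𝓜 p.1 p.2.1 p.2.2 ∂μΩ T < ⊤ := by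
  obtain ⟨C, hC, h1⟩ := maj_t h
  rw [lintegral_prod _ (Measurable.aemeasurable h.meas)]
  refine (lintegral_mono_ae (g := fun _ => C) ((ae_restrict_mem measurableSet_Ioo).mono fun t ht =>
    h1 t (Ioo_subset_Icc_self ht))).trans_lt ?_
  rw [lintegral_const]
  exact ENNReal.mul_lt_top hC (measure_lt_top _ _)

theorem maj_ls (h : Major 𝓜 T) : ∫⁻ p, ls 𝓜 p ∂μΩ T < ⊤ := by
  have h1 := h.m2 0
  rw [eΩ] at h1
  refine (lintegral_mono fun p => ?_).trans_lt h1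
  exact mul_le_mul' (le_mul_of_one_le_right' (one_le_mul (one_le_pw 0 _) le_self_add))
    (nu_mono (fun a => le_mul_of_one_le_right' (one_le_pw 0 _)) _)

theorem sr_le {p : ℝ × R3 × R3} (h : ∀ a, F p.1 p.2.1 a ≤ 𝓜 p.1 p.2.1 a) (hf : gn 𝓜 p + ls 𝓜 p < ⊤) :
    |sr F p| ≤ (gn 𝓜 p + ls 𝓜 p).toReal := by
  obtain ⟨h1, h2⟩ := ENNReal.add_lt_top.1 hf
  have h3 : (gn F p).toReal ≤ (gn 𝓜 p).toReal := ENNReal.toReal_mono h1.ne (Qp_mono h h _)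
  have h4 : (ls F p).toReal ≤ (ls 𝓜 p).toReal := ENNReal.toReal_mono h2.ne (mul_le_mul' (h _) (nu_mono h _))
  rw [ENNReal.toReal_add h1.ne h2.ne, sr, abs_le]
  have h5 := ENNReal.toReal_nonneg (a := gn F p)
  have h6 := ENNReal.toReal_nonneg (a := ls F p)
  constructor <;> linarith

theorem Src_eq {G : ℝ → R3 → R3 → ℝ} (hG : Measurable fun p : ℝ × R3 × R3 => G p.1 p.2.1 p.2.2) {t : ℝ} {x : R3}
    (h : ∀ u, 0 ≤ G t x u) (v : R3) : Src G t x v = sr (ofR G) (t, x, v) := by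
  rw [Src, collGain_eq G t x v h, collLoss_eq G t x v h (hG.comp (f := fun u => (t, x, u)) (by fun_prop))]
  rfl

end

end Crest.Agent.R68.Lim
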