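import Crest.Agent.R68.Weak

/-! Local conservation laws and global momentum / energy.  The third moment of `F` in `(t,x,v)` is needed for the energy flux; it follows from the mild
form when `F0` has bounded velocity support (`F♯(t) ≤ F0 + ∫ gain♯`, `Good.coll_weight`).  Use `duality` with `φ = ψ(v) ϕ(t,x)` (its
`transportD` is `ψ · transportD ϕ`) and `coll_inv`.  Momentum and energy at a fixed time: integrate the mild form against `ψ(v)`
(`integral_shear`, Fubini, `coll_inv`). -/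

set_option autoImplicit false

open MeasureTheory Set Filter Topology Crest.AnalysisR.VecCalc3 Crest.AnalysisR.PDE.Boltzmann
open scoped ENNReal NNReal

namespace Crest.Agent.R68

variable {F0 : R3 → R3 → ℝ} {F : ℝ → R3 → R3 → ℝ} {𝓜 : Den}

namespace LocCons
open Sharp Weak

theorem tD_mul {ψ : R3 → ℝ} {ϕ : ℝ → R3 → ℝ} (hϕ : ContDiff ℝ 1 (fun p : ℝ × R3 => ϕ p.1 p.2))
    (t : ℝ) (x v : R3) :
    transportD (fun t x v => ψ v * ϕ t x) t x v = ψ v * transportD (fun t x _ => ϕ t x) t x v := by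
  have hd : DifferentiableAt ℝ (fun y => ϕ t y) x :=
    ((hϕ.differentiable one_ne_zero) (t, x)).comp x (f := fun y : R3 => (t, y)) (by fun_prop)
  simp only [transportD, Crest.AnalysisR.VecCalc3.pderiv, deriv_const_mul_field, fderiv_const_mul hd,
    ContinuousLinearMap.smul_apply, smul_eq_mul, Fin.sum_univ_three]
  ring

theorem tD_bd {ϕ : ℝ → R3 → ℝ} (hϕ : ContDiff ℝ 1 (fun p : ℝ × R3 => ϕ p.1 p.2))
    (hp : ∀ t, IsPeriodic3 (ϕ t)) (T : ℝ) :
    ∃ C : ℝ, 0 ≤ C ∧ ∀ t ∈ Icc 0 T, ∀ x v, |transportD (fun t x _ => ϕ t x) t x v| ≤ C * (1 + ‖v‖) := by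
  have h1 : ContDiff ℝ 1 (fun p : ℝ × R3 × R3 => ϕ p.1 p.2.1) :=
    hϕ.comp (f := fun p : ℝ × R3 × R3 => (p.1, p.2.1)) (by fun_prop)
  obtain ⟨C, hC, hb⟩ := bdd_per (G := transportD (fun t x _ => ϕ t x))
    (tD_cont (φ := fun t x _ => ϕ t x) h1) (tD_per (φ := fun t x _ => ϕ t x) (fun t _ => hp t)) T 1
  refine ⟨6 * C, by positivity, fun t ht x v => ?_⟩
  have a0 := hb t ht x 0 (by simp)
  have a1 := hb t ht x (EuclideanSpace.single 0 1) (by simp)
  have a2 := hb t ht x (EuclideanSpace.single 1 1) (by simp)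
  have a3 := hb t ht x (EuclideanSpace.single 2 1) (by simp)
  simp only [transportD, Fin.sum_univ_three] at a0 a1 a2 a3 ⊢
  simp at a0 a1 a2 a3
  set a := deriv (fun s => ϕ s x) t
  set b0 := Crest.AnalysisR.VecCalc3.pderiv (fun y => ϕ t y) 0 x
  set b1 := Crest.AnalysisR.VecCalc3.pderiv (fun y => ϕ t y) 1 x
  set b2 := Crest.AnalysisR.VecCalc3.pderiv (fun y => ϕ t y) 2 x
  have hv : ∀ i, |v i| ≤ ‖v‖ := fun i => by simpa using PiLp.norm_apply_le v i
  have hb' : ∀ b : ℝ, |a + b| ≤ C → ∀ i, |v i * b| ≤ ‖v‖ * (2 * C) := by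
    intro b h i
    rw [abs_mul]
    refine mul_le_mul (hv i) ?_ (abs_nonneg _) (norm_nonneg _)
    rw [abs_le] at h a0 ⊢
    constructor <;> linarith [h.1, h.2, a0.1, a0.2]
  have c0 := hb' b0 a1 0
  have c1 := hb' b1 a2 1
  have c2 := hb' b2 a3 2
  rw [abs_le] at c0 c1 c2 a0 ⊢
  constructor <;> nlinarith [c0.1, c0.2, c1.1, c1.2, c2.1, c2.2, a0.1, a0.2, norm_nonneg v]

theorem src_psi_zero {T : ℝ} (h : Good F0 T F 𝓜) {ψ : R3 → ℝ}
    (hψ : ψ = (fun _ => 1) ∨ (∃ i : Fin 3, ψ = fun v => v i) ∨ ψ = fun v => ‖v‖ ^ 2 / 2)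
    {ϕ : ℝ → R3 → ℝ}
    (hi : IntegrableOn (fun p : ℝ × R3 × R3 => Src F p.1 p.2.1 p.2.2 * (ψ p.2.2 * ϕ p.1 p.2.1))
      (Ioo 0 T ×ˢ (cell ×ˢ (univ : Set R3)))) :
    ∫ p in Ioo 0 T ×ˢ (cell ×ˢ (univ : Set R3)), Src F p.1 p.2.1 p.2.2 * (ψ p.2.2 * ϕ p.1 p.2.1) = 0 := by
  rw [(int_assoc hi).2]
  refine integral_eq_zero_of_ae ?_
  filter_upwards [coll_inv h hψ] with z hz
  simp only [← mul_assoc]
  rw [integral_mul_const, hz, zero_mul]; rfl

end LocCons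

theorem Good.moment {T R : ℝ} (h : Good F0 T F 𝓜) (hR : ∀ x v, R ≤ ‖v‖ → F0 x v = 0) (k : ℕ) :
    IntegrableOn (fun p : ℝ × R3 × R3 => (1 + ‖p.2.2‖) ^ k * F p.1 p.2.1 p.2.2)
      (Ioo 0 T ×ˢ (cell ×ˢ (univ : Set R3))) := by
  rcases le_or_gt T 0 with hT | hT
  · rw [Ioo_eq_empty (not_lt.2 hT), empty_prod]; exact integrableOn_empty
  have hm : Measurable (fun p : ℝ × R3 × R3 => (1 + ‖p.2.2‖) ^ k * F p.1 p.2.1 p.2.2) :=
    (by fun_prop : Measurable fun p : ℝ × R3 × R3 => (1 + ‖p.2.2‖) ^ k).mul h.meas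
  rw [IntegrableOn, Sharp.vol3, ← (Sharp.mp_Sh (Ioo 0 T)).integrable_comp hm.aestronglyMeasurable]
  refine Integrable.congr ?_ (Sharp.sharp_ae_eq (G := fun t x v => (1 + ‖v‖) ^ k * F t x v)
    measurableSet_Ioo (fun t ht v x i => by
      have := h.per t (Ioo_subset_Icc_self ht) v x i
      simp only at this ⊢
      rw [this]))
  have hm2 : Measurable (fun p : ℝ × R3 × R3 => (1 + ‖p.2.2‖) ^ k * F p.1 (p.2.1 + p.1 • p.2.2) p.2.2) :=
    hm.comp (f := fun p : ℝ × R3 × R3 => (p.1, p.2.1 + p.1 • p.2.2, p.2.2)) (by fun_prop)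
  refine ⟨hm2.aestronglyMeasurable, ?_⟩
  have hS := Sharp.shear3_integrable (G := fun t x v => (1 + ‖v‖) ^ k * Src F t x v) measurableSet_Ioo
    (fun t ht v x i => by
      have := h.per_src t (Ioo_subset_Icc_self ht) v x i
      simp only at this ⊢
      rw [this]) (h.src_integrable k)
  have hB2 := hS.integral_norm_prod_right
  have hB1 := (Weak.F0_int hT.le h).norm.const_mul ((1 + |R|) ^ k)
  have hB := hB1.add hB2
  rw [hasFiniteIntegral_iff_enorm, lintegral_prod_symm _ hm2.enorm.aemeasurable]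
  have hfin := hB.2
  rw [hasFiniteIntegral_iff_enorm] at hfin
  refine lt_of_le_of_lt (lintegral_mono_ae ?_)
    (lt_of_eq_of_lt (lintegral_mul_const' (volume (Ioo 0 T)) _ measure_Ioo_lt_top.ne)
      (ENNReal.mul_lt_top hfin measure_Ioo_lt_top))
  filter_upwards [Sharp.sharp_ae h] with q hq
  rw [← setLIntegral_const]
  refine lintegral_mono_ae ?_
  filter_upwards [hq.2, ae_restrict_mem measurableSet_Ioo] with t ht ht'
  simp only [Pi.add_apply]
  rw [ht, ← ofReal_norm_eq_enorm, ← ofReal_norm_eq_enorm]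
  refine ENNReal.ofReal_le_ofReal (le_trans ?_ (le_abs_self _))
  have hw : 0 ≤ (1 + ‖q.2‖) ^ k := by positivity
  rw [mul_add]
  refine (norm_add_le _ _).trans (add_le_add ?_ ?_)
  · by_cases hv : R ≤ ‖q.2‖
    · rw [hR _ _ hv]; simp
    · rw [norm_mul, norm_mul, Real.norm_of_nonneg hw, Real.norm_of_nonneg (by positivity : 0 ≤ (1 + ‖q.2‖) ^ 2)]
      have a3 : 1 ≤ (1 + ‖q.2‖) ^ 2 := one_le_pow₀ (by linarith [norm_nonneg q.2])
      have a4 : ‖q.2‖ ≤ |R| := (not_le.1 hv).le.trans (le_abs_self _)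
      calc _ = (1 + ‖q.2‖) ^ k * (1 * ‖F0 q.1 q.2‖) := by ring
        _ ≤ _ := by gcongr
  · rw [← integral_const_mul]
    refine (norm_integral_le_integral_norm _).trans ?_
    exact setIntegral_mono_set (hq.1.const_mul _).norm (ae_of_all _ fun _ => norm_nonneg _)
      (Ioo_subset_Ioo_right ht'.2.le).eventuallyLE
theorem loccons_of_good {R : ℝ} (h : ∀ T, 0 ≤ T → Good F0 T F 𝓜) (hR : ∀ x v, R ≤ ‖v‖ → F0 x v = 0) :
    HasLocalConservation F F0 := by
  intro ψ hψ ϕ hϕ hp ⟨T₁, h0⟩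
  have hϕ1 : ContDiff ℝ 1 (fun p : ℝ × R3 => ϕ p.1 p.2) := hϕ.of_le (by exact_mod_cast le_top)
  have hϕ2 : ContDiff ℝ 1 (fun p : ℝ × R3 × R3 => ϕ p.1 p.2.1) :=
    hϕ1.comp (f := fun p : ℝ × R3 × R3 => (p.1, p.2.1)) (by fun_prop)
  have hψ1 := Weak.psi_smooth hψ
  have hφ1 : ContDiff ℝ 1 (fun p : ℝ × R3 × R3 => ψ p.2.2 * ϕ p.1 p.2.1) :=
    (hψ1.comp (f := fun p : ℝ × R3 × R3 => p.2.2) (by fun_prop)).mul hϕ2
  set T := max T₁ 0 + 1 with hTdef
  have hT : 0 ≤ T := by have := le_max_right T₁ 0; linarith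
  have hT1 : T₁ < T := by have := le_max_left T₁ 0; linarith
  have hG := h T hT
  have hc := Weak.tD_cont (φ := fun t x _ => ϕ t x) hϕ2
  obtain ⟨C1, hC1, b1⟩ := Weak.bdd_per (G := fun t x _ => ϕ t x) hϕ2.continuous (fun t _ => hp t) T 0
  obtain ⟨C2, hC2, b2⟩ := LocCons.tD_bd hϕ1 hp T
  have hb0 : ∀ t ∈ Icc 0 T, ∀ x v, |ψ v * ϕ t x| ≤ C1 * (1 + ‖v‖) ^ 2 := by
    intro t ht x v
    rw [abs_mul, mul_comm]
    exact mul_le_mul (b1 t ht x 0 (by simp)) (Weak.psi_le hψ v) (abs_nonneg _) hC1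
  have hb : ∀ t ∈ Icc 0 T, ∀ x v, |ψ v * ϕ t x| ≤ (C1 + C2) * (1 + ‖v‖) ^ 3 ∧
      |transportD (fun t x v => ψ v * ϕ t x) t x v| ≤ (C1 + C2) * (1 + ‖v‖) ^ 3 := by
    intro t ht x v
    have a1 : 1 ≤ 1 + ‖v‖ := by linarith [norm_nonneg v]
    constructor
    · refine (hb0 t ht x v).trans ?_
      gcongr
      · linarith
      · norm_num
    · rw [LocCons.tD_mul hϕ1, abs_mul]
      calc _ ≤ (1 + ‖v‖) ^ 2 * (C2 * (1 + ‖v‖)) :=
            mul_le_mul (Weak.psi_le hψ v) (b2 t ht x v) (abs_nonneg _) (by positivity)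
        _ = C2 * (1 + ‖v‖) ^ 3 := by ring
        _ ≤ _ := by gcongr; linarith
  have z1 : ∀ p ∈ region \ (Ioo 0 T ×ˢ (cell ×ˢ (univ : Set R3))),
      transportD (fun t x _ => ϕ t x) p.1 p.2.1 p.2.2 = 0 :=
    fun p hp => Weak.tD_zero_time (fun s x v hs => h0 s x hs) (hT1.trans_le (Weak.region_diff hp)) _ _
  have i1 : IntegrableOn (fun p : ℝ × R3 × R3 => F p.1 p.2.1 p.2.2 *
      transportD (fun t x v => ψ v * ϕ t x) p.1 p.2.1 p.2.2)
      (Ioo 0 T ×ˢ (cell ×ˢ (univ : Set R3))) := by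
    refine ((hG.moment hR 3).norm.const_mul (C1 + C2)).mono'
      (hG.meas.mul (Weak.tD_cont (φ := fun t x v => ψ v * ϕ t x) hφ1).measurable).aestronglyMeasurable ?_
    filter_upwards [Weak.ae_fst_mem' measurableSet_Ioo] with p hp
    have := (hb p.1 (Ioo_subset_Icc_self hp) p.2.1 p.2.2).2
    rw [norm_mul, norm_mul, Real.norm_of_nonneg (by positivity : 0 ≤ (1 + ‖p.2.2‖) ^ 3)]
    calc _ ≤ ‖F p.1 p.2.1 p.2.2‖ * ((C1 + C2) * (1 + ‖p.2.2‖) ^ 3) := by gcongr; exact this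
      _ = _ := by ring
  have i2 := Weak.src_mul_int (φ := fun t x v => ψ v * ϕ t x) hG hφ1.continuous.measurable hb0
  have i3 : IntegrableOn (fun q : R3 × R3 => F0 q.1 q.2 * (ψ q.2 * ϕ 0 q.1)) (cell ×ˢ (univ : Set R3)) := by
    refine ((Weak.F0_int hT hG).norm.const_mul C1).mono'
      (hG.meas0.mul (hφ1.continuous.measurable.comp
        (f := fun q : R3 × R3 => ((0 : ℝ), q.1, q.2)) (by fun_prop))).aestronglyMeasurable
      (ae_of_all _ fun q => ?_)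
    have := hb0 0 ⟨le_rfl, hT⟩ q.1 q.2
    rw [norm_mul, norm_mul ((1 + ‖q.2‖) ^ 2), Real.norm_of_nonneg (by positivity : 0 ≤ (1 + ‖q.2‖) ^ 2)]
    calc _ ≤ ‖F0 q.1 q.2‖ * (C1 * (1 + ‖q.2‖) ^ 2) := by gcongr; exact this
      _ = _ := by ring
  have hd := duality (φ := fun t x v => ψ v * ϕ t x) hT hG hφ1
    (fun t v x i => by simp only [hp t x i]) (fun x v => by simp only [h0 T x hT1.le, mul_zero]) hb i1 i3
  rw [integral_add i1 i2, LocCons.src_psi_zero hG hψ i2, add_zero] at hd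
  simp only [LocCons.tD_mul hϕ1, ← mul_assoc] at hd i1 i3
  refine ⟨i1.of_forall_sdiff_eq_zero Weak.measurableSet_region fun p hp => by rw [z1 p hp, mul_zero],
    i3, ?_⟩
  rw [setIntegral_eq_of_subset_of_forall_sdiff_eq_zero Weak.measurableSet_region (Weak.sub_region T)
    fun p hp => by rw [z1 p hp, mul_zero]]
  exact hd
theorem Good.conserved {T : ℝ} (h : Good F0 T F 𝓜) {ψ : R3 → ℝ}
    (hψ : ψ = (fun _ => 1) ∨ (∃ i : Fin 3, ψ = fun v => v i) ∨ ψ = fun v => ‖v‖ ^ 2 / 2) :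
    ∀ t ∈ Icc 0 T, ∫ q in cell ×ˢ (univ : Set R3), ψ q.2 * F t q.1 q.2 =
      ∫ q in cell ×ˢ (univ : Set R3), ψ q.2 * F0 q.1 q.2 := by
  intro t ht
  have hG := Sharp.good_mono h ht.2
  have hψm := (Weak.psi_smooth hψ).continuous.measurable
  have hFm : Measurable (fun q : R3 × R3 => F t q.1 q.2) :=
    h.meas.comp (f := fun q : R3 × R3 => (t, q.1, q.2)) (by fun_prop)
  have e1 := Sharp.shear2_integral (f := fun x v => ψ v * F t x v) (fun v x i => by
    have := h.per t ht v x i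
    simp only at this ⊢
    rw [this]) t ((hψm.comp measurable_snd).mul hFm).aestronglyMeasurable
  have i2 := Weak.src_mul_int (φ := fun _ _ v => ψ v * 1) (C := 1) (k := 2) hG
    ((hψm.comp measurable_snd.snd).mul measurable_const)
    (fun _ _ _ v => by simpa using Weak.psi_le hψ v)
  have e2 := LocCons.src_psi_zero (ϕ := fun _ _ => 1) hG hψ i2
  have hp : ∀ s ∈ Ioo 0 t, ∀ v, IsPeriodic3 (fun x => Src F s x v * (ψ v * 1)) := fun s hs v x i => by
    have := hG.per_src s (Ioo_subset_Icc_self hs) v x i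
    simp only at this ⊢
    rw [this]
  rw [Sharp.shear3_integral (G := fun s x v => Src F s x v * (ψ v * 1)) measurableSet_Ioo hp i2] at e2
  have i4 := (Sharp.shear3_integrable (G := fun s x v => Src F s x v * (ψ v * 1)) measurableSet_Ioo
    hp i2).integral_prod_right
  have i3 : IntegrableOn (fun q : R3 × R3 => ψ q.2 * F0 q.1 q.2) (cell ×ˢ (univ : Set R3)) := by
    refine (Weak.F0_int ht.1 hG).norm.mono'
      ((hψm.comp measurable_snd).mul h.meas0).aestronglyMeasurable (ae_of_all _ fun q => ?_)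
    rw [norm_mul, norm_mul, Real.norm_of_nonneg (by positivity : 0 ≤ (1 + ‖q.2‖) ^ 2)]
    gcongr
    exact Weak.psi_le hψ q.2
  rw [e1, ← add_zero (∫ q in cell ×ˢ (univ : Set R3), ψ q.2 * F0 q.1 q.2), ← e2, ← integral_add i3 i4]
  refine integral_congr_ae ?_
  filter_upwards [Sharp.plain_sharp h ht] with q hq
  rw [hq, integral_mul_const]
  ring

end Crest.Agent.R68
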