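import Crest.Agent.R68.Carleman

/-! The gain term with a general (non-product) integrand: Carleman form and symmetry. -/

set_option autoImplicit false

open MeasureTheory Set Filter Topology Crest.AnalysisR.VecCalc3 Crest.AnalysisR.PDE.Boltzmann
open scoped ENNReal NNReal

namespace Crest.Agent.R68

/-- gain term of a function of both outgoing velocities -/
noncomputable def Qg (Φ : R3 → R3 → ℝ≥0∞) (v : R3) : ℝ≥0∞ :=
  ∫⁻ vs, ∫⁻ w, ENNReal.ofReal |inner ℝ (v - vs) w| * Φ (postVel v vs w) (postVelStar v vs w)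
    ∂sphereMeasure

theorem Qp_eq_Qg (f h : R3 → ℝ≥0∞) (v : R3) : Qp f h v = Qg (fun a b => f a * h b) v := by
  unfold Qp Qg
  simp only [mul_assoc]

theorem Qg_meas {Φ : R3 → R3 → ℝ≥0∞} (hΦ : Measurable (Function.uncurry Φ)) (v : R3) :
    Measurable fun q : R3 × R3 => ENNReal.ofReal |inner ℝ (v - q.1) q.2| *
      Φ (postVel v q.1 q.2) (postVelStar v q.1 q.2) := by
  unfold postVel postVelStar
  exact (ENNReal.measurable_ofReal.comp (by fun_prop)).mul
    (hΦ.comp (f := fun q : R3 × R3 => (v - inner ℝ (v - q.1) q.2 • q.2, q.1 + inner ℝ (v - q.1) q.2 • q.2))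
      (by fun_prop))

theorem Qg_mono {Φ Ψ : R3 → R3 → ℝ≥0∞} (h : ∀ a b, Φ a b ≤ Ψ a b) (v : R3) : Qg Φ v ≤ Qg Ψ v :=
  lintegral_mono fun _ => lintegral_mono fun _ => mul_le_mul_right (h _ _) _

theorem Qg_add {Φ Ψ : R3 → R3 → ℝ≥0∞} (hΦ : Measurable (Function.uncurry Φ)) (v : R3) :
    Qg (fun a b => Φ a b + Ψ a b) v = Qg Φ v + Qg Ψ v := by
  unfold Qg
  simp only [mul_add]
  rw [← lintegral_add_left ((Qg_meas hΦ v).lintegral_prod_right')]
  refine lintegral_congr fun vs => lintegral_add_left ?_ _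
  exact (Qg_meas hΦ v).of_uncurry_left (f := fun vs w : R3 => ENNReal.ofReal |inner ℝ (v - vs) w| *
      Φ (postVel v vs w) (postVelStar v vs w))

theorem carlemanG {Φ : R3 → R3 → ℝ≥0∞} (hΦ : Measurable (Function.uncurry Φ)) (v : R3) :
    Qg Φ v = 2 * ∫⁻ a, invn (v - a) * pint (v - a) v (Φ a) := by
  have hΦa : ∀ a, Measurable (Φ a) := fun a => hΦ.of_uncurry_left
  have hP : Measurable fun q : R3 × R3 => pint q.1 v (Φ q.2) :=
    meas_pint (f := fun q : R3 × R3 => Φ q.2)
      (hΦ.comp (f := fun p : (R3 × R3) × R3 => (p.1.2, p.2)) (by fun_prop)) measurable_fst measurable_const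
  let K : R3 → ℝ≥0∞ := fun w => ∫⁻ r in Ioi (0 : ℝ), ENNReal.ofReal r * pint w v (Φ (v - r • w))
  have hK : Measurable K := by
    refine Measurable.lintegral_prod_right'
      (f := fun q : R3 × ℝ => ENNReal.ofReal q.2 * pint q.1 v (Φ (v - q.2 • q.1))) ?_
    exact (ENNReal.measurable_ofReal.comp measurable_snd).mul
      (hP.comp (f := fun q : R3 × ℝ => (q.1, v - q.2 • q.1)) (by fun_prop))
  have hG := Qg_meas hΦ v
  have h1 : Qg Φ v = ∫⁻ w, (K (-w) + K w) ∂sphereMeasure := by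
    unfold Qg
    rw [lintegral_lintegral_swap hG.aemeasurable]
    refine lintegral_congr_ae (ae_sphere.mono fun w hw => ?_)
    have hw0 : w ≠ 0 := fun h0 => by simp [h0] at hw
    obtain ⟨ι, hι⟩ := exists_iso hw0
    have hGw : Measurable fun vs : R3 => ENNReal.ofReal |inner ℝ (v - vs) w| *
        Φ (postVel v vs w) (postVelStar v vs w) :=
      hG.of_uncurry_right (f := fun vs w : R3 => ENNReal.ofReal |inner ℝ (v - vs) w| *
          Φ (postVel v vs w) (postVelStar v vs w))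
    have hneg : ∀ a, pint (-w) v (Φ a) = pint w v (Φ a) := fun a => by
      rw [← pint_smul hw0 (c := -1) (by norm_num) v (hΦa a), neg_one_smul]
    dsimp only
    rw [lintegral_slices hw0 v hGw]
    have h2 : ∀ s : ℝ, pint w (v + s • (‖w‖⁻¹ • w)) (fun vs : R3 => ENNReal.ofReal |inner ℝ (v - vs) w| *
        Φ (postVel v vs w) (postVelStar v vs w)) = ENNReal.ofReal |s| * pint w v (Φ (v + s • w)) := by
      intro s
      rw [pint_param hw0 ι hι _ hGw, pint_param hw0 ι hι _ (hΦa _),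
        ← lintegral_const_mul _ (by exact (hΦa _).comp (measurable_const.add ι.continuous.measurable))]
      refine lintegral_congr fun p => ?_
      have h3 : inner ℝ (v - (v + s • (‖w‖⁻¹ • w) + ι p)) w = -s := by
        rw [add_assoc, sub_add_cancel_left, inner_neg_left, inner_add_left, hι, hw, inv_one, one_smul,
          real_inner_smul_left, real_inner_self_eq_norm_sq, hw]
        ring
      unfold postVel postVelStar
      rw [h3, abs_neg, hw, inv_one, one_smul, neg_smul, sub_neg_eq_add]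
      congr 2
      abel
    simp only [h2]
    rw [← lintegral_add_compl _ (measurableSet_Ioi (a := (0 : ℝ))), compl_Ioi, ← restrict_Iio_eq_restrict_Iic]
    congr 1
    · refine setLIntegral_congr_fun measurableSet_Ioi fun r hr => ?_
      have hr' : 0 < r := hr
      simp only [abs_of_pos hr', hneg, smul_neg, sub_neg_eq_add]
    · rw [← lintegral_indicator measurableSet_Iio, ← lintegral_neg_eq_self]
      change _ = ∫⁻ r in Ioi (0 : ℝ), _
      rw [← lintegral_indicator measurableSet_Ioi]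
      refine lintegral_congr fun r => ?_
      by_cases hr : 0 < r
      · rw [indicator_of_mem (show -r ∈ Iio (0 : ℝ) by simpa using hr), indicator_of_mem (show r ∈ Ioi (0 : ℝ) from hr),
          abs_neg, abs_of_pos hr, neg_smul, ← sub_eq_add_neg]
      · rw [indicator_of_notMem (show -r ∉ Iio (0 : ℝ) by simpa using hr),
          indicator_of_notMem (show r ∉ Ioi (0 : ℝ) from hr)]
  have h2 : ∫⁻ a, invn (v - a) * pint (v - a) v (Φ a) = ∫⁻ w, K w ∂sphereMeasure := by
    rw [← lintegral_sub_left_eq_self _ v]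
    simp only [sub_sub_cancel]
    rw [polar (f := fun z => invn z * pint z v (Φ (v - z)))
      (measurable_invn.mul (hP.comp (f := fun z : R3 => (z, v - z)) (by fun_prop)))]
    refine lintegral_congr_ae (ae_sphere.mono fun w hw => ?_)
    have hw0 : w ≠ 0 := fun h0 => by simp [h0] at hw
    refine setLIntegral_congr_fun measurableSet_Ioi fun r hr => ?_
    have hr' : 0 < r := hr
    have h3 : ENNReal.ofReal (r ^ 2) * invn (r • w) = ENNReal.ofReal r := by
      unfold invn
      rw [norm_smul, hw, mul_one, Real.norm_of_nonneg hr'.le, sq, ENNReal.ofReal_mul hr'.le, mul_assoc,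
        ENNReal.mul_inv_cancel (by simpa using hr') ENNReal.ofReal_ne_top, mul_one]
    rw [pint_smul hw0 hr'.ne' v (hΦa _), ← h3]
    ring
  rw [h1, h2, lintegral_add_right _ hK, sphere_neg hK, two_mul]

/-- unit vector of the plane with angle `φ` -/
noncomputable def SymmA.ang (φ : ℝ) : EuclideanSpace ℝ (Fin 2) :=
  Complex.orthonormalBasisOneI.repr (Complex.polarCoord.symm (1, φ))

theorem SymmA.norm_ang (φ : ℝ) : ‖SymmA.ang φ‖ = 1 := by
  unfold SymmA.ang
  rw [LinearIsometryEquiv.norm_map, Complex.norm_polarCoord_symm]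
  simp

theorem SymmA.cont_ang : Continuous SymmA.ang := by
  unfold SymmA.ang
  simp only [Complex.polarCoord_symm_apply]
  fun_prop

theorem SymmA.polar_ang (q : ℝ × ℝ) :
    Complex.orthonormalBasisOneI.repr (Complex.polarCoord.symm q) = q.1 • SymmA.ang q.2 := by
  unfold SymmA.ang
  rw [← LinearIsometryEquiv.map_smul]
  congr 1
  simp [Complex.polarCoord_symm_apply, mul_add]

/-- cylindrical coordinates for an even function -/
theorem SymmA.cyl {u : R3} (hu : ‖u‖ = 1) (ι : EuclideanSpace ℝ (Fin 2) →ₗᵢ[ℝ] R3)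
    (hι : ∀ p, inner ℝ (ι p) u = 0) {H : R3 → ℝ≥0∞} (hH : Measurable H) (he : ∀ z, H (-z) = H z) :
    ∫⁻ z, H z = 2 * ∫⁻ s in Ioi (0 : ℝ), ∫⁻ ρ in Ioi (0 : ℝ), ∫⁻ φ in Ioo (-Real.pi) Real.pi,
      ENNReal.ofReal ρ * H (s • u + ρ • ι (SymmA.ang φ)) := by
  rw [Plane.lint_iso hu ι hι hH]
  have h1 : ∀ s : ℝ, ∫⁻ p, H ((-s) • u + ι p) = ∫⁻ p, H (s • u + ι p) := fun s => by
    rw [← lintegral_neg_eq_self]
    refine lintegral_congr fun p => ?_
    rw [← he, map_neg, neg_smul, neg_add, neg_neg, neg_neg]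
  have h2 : ∫⁻ s in Iio (0 : ℝ), ∫⁻ p, H (s • u + ι p) = ∫⁻ s in Ioi (0 : ℝ), ∫⁻ p, H (s • u + ι p) := by
    rw [← lintegral_indicator measurableSet_Iio, ← lintegral_neg_eq_self, ← lintegral_indicator measurableSet_Ioi]
    refine lintegral_congr fun r => ?_
    by_cases hr : 0 < r
    · rw [indicator_of_mem (show -r ∈ Iio (0 : ℝ) by simpa using hr), indicator_of_mem (show r ∈ Ioi (0 : ℝ) from hr),
        h1]
    · rw [indicator_of_notMem (show -r ∉ Iio (0 : ℝ) by simpa using hr),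
        indicator_of_notMem (show r ∉ Ioi (0 : ℝ) from hr)]
  rw [← lintegral_add_compl _ (measurableSet_Ioi (a := (0 : ℝ))), compl_Ioi, ← restrict_Iio_eq_restrict_Iic, h2,
    ← two_mul]
  congr 1
  refine lintegral_congr fun s => ?_
  have hm : Measurable fun p : EuclideanSpace ℝ (Fin 2) => H (s • u + ι p) :=
    hH.comp (measurable_const.add ι.continuous.measurable)
  rw [← Complex.orthonormalBasisOneI.repr.measurePreserving.lintegral_comp hm,
    ← Complex.lintegral_comp_polarCoord_symm, polarCoord_target, Measure.volume_eq_prod, ← Measure.prod_restrict]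
  simp only [SymmA.polar_ang, smul_eq_mul, map_smul]
  refine lintegral_prod _ ?_
  have := SymmA.cont_ang
  exact ((ENNReal.measurable_ofReal.comp measurable_fst).mul (hH.comp (by fun_prop))).aemeasurable

/-- the volume integrand attached to a function on the sphere -/
noncomputable def SymmA.HH (g : R3) (Ψ : R3 → R3 → ℝ≥0∞) (z : R3) : ℝ≥0∞ :=
  (Iio (1 : ℝ)).indicator 1 ‖z‖ * ENNReal.ofReal (|inner ℝ g z| / ‖z‖ ^ 3) *
    Ψ ((inner ℝ g z / ‖z‖ ^ 2) • z) (g - (inner ℝ g z / ‖z‖ ^ 2) • z)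

theorem SymmA.meas_HH (g : R3) {Ψ : R3 → R3 → ℝ≥0∞} (hΨ : Measurable (Function.uncurry Ψ)) :
    Measurable (SymmA.HH g Ψ) := by
  unfold SymmA.HH
  refine (((measurable_one.indicator measurableSet_Iio).comp measurable_norm).mul
    (ENNReal.measurable_ofReal.comp (by fun_prop))).mul ?_
  exact hΨ.comp (f := fun z : R3 => ((inner ℝ g z / ‖z‖ ^ 2) • z, g - (inner ℝ g z / ‖z‖ ^ 2) • z))
    (by fun_prop)

theorem SymmA.even_HH (g : R3) (Ψ : R3 → R3 → ℝ≥0∞) (z : R3) : SymmA.HH g Ψ (-z) = SymmA.HH g Ψ z := by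
  unfold SymmA.HH
  simp only [norm_neg, inner_neg_right, abs_neg, neg_div, smul_neg, neg_smul, neg_neg]

theorem SymmA.int_HH (g : R3) {Ψ : R3 → R3 → ℝ≥0∞} (hΨ : Measurable (Function.uncurry Ψ)) :
    ∫⁻ z, SymmA.HH g Ψ z = ∫⁻ w, ENNReal.ofReal |inner ℝ g w| *
      Ψ (inner ℝ g w • w) (g - inner ℝ g w • w) ∂sphereMeasure := by
  rw [polar (SymmA.meas_HH g hΨ)]
  refine lintegral_congr_ae (ae_sphere.mono fun w hw => ?_)
  have h1 : ∀ r ∈ Ioi (0 : ℝ), ENNReal.ofReal (r ^ 2) * SymmA.HH g Ψ (r • w) =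
      (Iio (1 : ℝ)).indicator (fun _ => ENNReal.ofReal |inner ℝ g w| *
        Ψ (inner ℝ g w • w) (g - inner ℝ g w • w)) r := by
    intro r hr
    have hr' : 0 < r := hr
    unfold SymmA.HH
    rw [norm_smul, hw, mul_one, Real.norm_of_nonneg hr'.le, real_inner_smul_right, smul_smul,
      show r * inner ℝ g w / r ^ 2 * r = inner ℝ g w by field_simp]
    by_cases h : r ∈ Iio (1 : ℝ)
    · rw [indicator_of_mem h, indicator_of_mem h, Pi.one_apply, one_mul, ← mul_assoc,
        ← ENNReal.ofReal_mul (by positivity), abs_mul, abs_of_pos hr']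
      congr 2
      field_simp
    · simp [indicator_of_notMem h]
  dsimp only
  rw [setLIntegral_congr_fun measurableSet_Ioi h1, lintegral_indicator measurableSet_Iio,
    Measure.restrict_restrict measurableSet_Iio, setLIntegral_const, inter_comm, Ioi_inter_Iio]
  simp

theorem SymmA.swap_HH {u e : R3} (hu : ‖u‖ = 1) (he : ‖e‖ = 1) (hue : inner ℝ e u = 0) (c : ℝ)
    (Ψ : R3 → R3 → ℝ≥0∞) {s ρ : ℝ} (hs : 0 < s) (hρ : 0 < ρ) :
    ENNReal.ofReal ρ * SymmA.HH (c • u) Ψ (s • u + ρ • e) =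
      ENNReal.ofReal s * SymmA.HH (c • u) (fun a b => Ψ b a) (ρ • u + s • (-e)) := by
  have hue' : inner ℝ u e = 0 := by rw [real_inner_comm, hue]
  have huu : inner ℝ u u = 1 := by rw [real_inner_self_eq_norm_sq, hu]; norm_num
  have n1 : ‖s • u + ρ • e‖ ^ 2 = s ^ 2 + ρ ^ 2 := by
    rw [norm_add_sq_real, norm_smul, norm_smul, hu, he, real_inner_smul_left, real_inner_smul_right, hue']
    simp
  have n2 : ‖ρ • u + s • (-e)‖ ^ 2 = s ^ 2 + ρ ^ 2 := by
    rw [norm_add_sq_real, norm_smul, norm_smul, hu, norm_neg, he, real_inner_smul_left,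
      real_inner_smul_right, inner_neg_right, hue']
    simp [add_comm]
  have n3 : ‖ρ • u + s • (-e)‖ = ‖s • u + ρ • e‖ :=
    (sq_eq_sq₀ (norm_nonneg _) (norm_nonneg _)).1 (n2.trans n1.symm)
  have i1 : inner ℝ (c • u) (s • u + ρ • e) = c * s := by
    simp only [inner_add_right, real_inner_smul_left, real_inner_smul_right, huu, hue']; ring
  have i2 : inner ℝ (c • u) (ρ • u + s • (-e)) = c * ρ := by
    simp only [inner_add_right, real_inner_smul_left, real_inner_smul_right, inner_neg_right, huu, hue']; ring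
  have hpos : 0 < s ^ 2 + ρ ^ 2 := by positivity
  have e1 : c • u - (c * ρ / (s ^ 2 + ρ ^ 2)) • (ρ • u + s • (-e)) =
      (c * s / (s ^ 2 + ρ ^ 2)) • (s • u + ρ • e) := by
    have : c = (c * ρ / (s ^ 2 + ρ ^ 2)) * ρ + (c * s / (s ^ 2 + ρ ^ 2)) * s := by field_simp; ring
    have h2 : (c * ρ / (s ^ 2 + ρ ^ 2)) * s = (c * s / (s ^ 2 + ρ ^ 2)) * ρ := by ring
    rw [smul_add, smul_add, smul_smul, smul_smul, smul_smul, smul_smul, h2]
    nth_rewrite 1 [this]
    rw [add_smul, smul_neg]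
    abel
  have e2 : c • u - (c * s / (s ^ 2 + ρ ^ 2)) • (s • u + ρ • e) =
      (c * ρ / (s ^ 2 + ρ ^ 2)) • (ρ • u + s • (-e)) := by
    rw [← e1]; abel
  unfold SymmA.HH
  rw [i1, i2, n1, n2, n3, e1, e2]
  have e3 : ENNReal.ofReal ρ * ENNReal.ofReal (|c * s| / ‖s • u + ρ • e‖ ^ 3) =
      ENNReal.ofReal s * ENNReal.ofReal (|c * ρ| / ‖s • u + ρ • e‖ ^ 3) := by
    rw [← ENNReal.ofReal_mul hρ.le, ← ENNReal.ofReal_mul hs.le, abs_mul, abs_mul, abs_of_pos hs, abs_of_pos hρ]
    congr 1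
    ring
  have key : ∀ a a' I x x' P : ℝ≥0∞, a * x = a' * x' → a * (I * x * P) = a' * (I * x' * P) := by
    intro a a' I x x' P h
    calc _ = I * (a * x) * P := by ring
      _ = _ := by rw [h]; ring
  exact key _ _ _ _ _ _ e3

theorem SymmA.sph_swap (g : R3) {Ψ : R3 → R3 → ℝ≥0∞} (hΨ : Measurable (Function.uncurry Ψ)) :
    ∫⁻ w, ENNReal.ofReal |inner ℝ g w| * Ψ (inner ℝ g w • w) (g - inner ℝ g w • w) ∂sphereMeasure =
      ∫⁻ w, ENNReal.ofReal |inner ℝ g w| * Ψ (g - inner ℝ g w • w) (inner ℝ g w • w) ∂sphereMeasure := by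
  by_cases hg : g = 0
  · simp [hg]
  have hΨ' : Measurable (Function.uncurry fun a b => Ψ b a) := hΨ.comp measurable_swap
  rw [← SymmA.int_HH g hΨ, ← SymmA.int_HH g hΨ']
  obtain ⟨ι, hι⟩ := exists_iso hg
  have hu := Plane.norm_unit hg
  have hι' := Plane.inner_unit ι hι
  set u := ‖g‖⁻¹ • g with hudef
  have hgu : g = ‖g‖ • u := by
    rw [hudef, smul_smul, mul_inv_cancel₀ (norm_ne_zero_iff.2 hg), one_smul]
  let κ : EuclideanSpace ℝ (Fin 2) →ₗᵢ[ℝ] R3 := (LinearIsometryEquiv.neg ℝ).toLinearIsometry.comp ι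
  have hκ : ∀ p, κ p = -ι p := fun p => rfl
  rw [SymmA.cyl hu ι hι' (SymmA.meas_HH g hΨ) (SymmA.even_HH g Ψ),
    SymmA.cyl hu κ (fun p => by rw [hκ, inner_neg_left, hι', neg_zero]) (SymmA.meas_HH g hΨ')
      (SymmA.even_HH g _)]
  congr 1
  have hc := SymmA.cont_ang
  rw [lintegral_lintegral_swap]
  · refine setLIntegral_congr_fun measurableSet_Ioi fun ρ hρ => ?_
    refine setLIntegral_congr_fun measurableSet_Ioi fun s hs => ?_
    refine lintegral_congr fun φ => ?_
    rw [hκ, hgu]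
    exact SymmA.swap_HH hu (by rw [ι.norm_map, SymmA.norm_ang]) (hι' _) _ Ψ hs hρ
  · refine Measurable.aemeasurable ?_
    refine Measurable.lintegral_prod_right' (f := fun q : (ℝ × ℝ) × ℝ =>
      ENNReal.ofReal q.1.2 * SymmA.HH g Ψ (q.1.1 • u + q.1.2 • ι (SymmA.ang q.2))) ?_
    exact (ENNReal.measurable_ofReal.comp (by fun_prop)).mul ((SymmA.meas_HH g hΨ).comp (by fun_prop))

theorem Qg_symm {Φ : R3 → R3 → ℝ≥0∞} (hΦ : Measurable (Function.uncurry Φ)) (v : R3) :
    Qg Φ v = Qg (fun a b => Φ b a) v := by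
  unfold Qg
  refine lintegral_congr fun vs => ?_
  have := SymmA.sph_swap (v - vs) (Ψ := fun A B => Φ (v - A) (v - B))
    (hΦ.comp (f := fun q : R3 × R3 => (v - q.1, v - q.2)) (by fun_prop))
  have e : ∀ w : R3, v - (v - vs - inner ℝ (v - vs) w • w) = vs + inner ℝ (v - vs) w • w := fun w => by abel
  simp only [e] at this
  exact this

end Crest.Agent.R68
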