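import Crest.Agent.R68.Carleman
import Crest.Agent.R68.PBd
import Crest.Agent.R68.SymmA

/-! Symmetry of the gain term.  For `n ≠ 0`, `∫ h(b) dl ε ⟪n, v-b⟫ db = ‖n‖⁻¹ (2ε')⁻¹ ∫_{|s| ≤ ε'} pint n (v + s n̂) h ds`
with `ε' = ε/‖n‖` (`lintegral_slices`).  For lower semicontinuous `h`, Fatou gives `Qp_le_liminf`
(substitute `s = ε' u`, `u ∈ [-1,1]`).  For continuous compactly supported `f,h` dominated convergence
(bound `C ‖n‖⁻¹`) gives the limit, whose approximants are symmetric in `(f,h)`; hence the two locally finite measures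
`S ↦ ∫ invn(v-a) pint (v-a) v (1_S(a,·)) da` and its swap agree on products of continuous
compactly supported functions, so on open bounded rectangles (monotone limit), so everywhere (π-system).
`avg_plane`: apply the symmetry with `h = 1_{ball v 1}` (`pint_ball`, `polar`: `∫_{|z|<1} |z|⁻¹ = 2π`). -/

set_option autoImplicit false

open MeasureTheory Set Filter Topology Crest.AnalysisR.VecCalc3 Crest.AnalysisR.PDE.Boltzmann
open scoped ENNReal NNReal

namespace Crest.Agent.R68

theorem Symm.meas_dl (ε : ℝ) : Measurable (dl ε) :=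
  Measurable.ite (measurableSet_le (by fun_prop) measurable_const) measurable_const measurable_const

theorem Symm.slab {n : R3} (hn : n ≠ 0) (v : R3) {h : R3 → ℝ≥0∞} (hh : Measurable h) {ε : ℝ} (hε : 0 < ε) :
    ∫⁻ b, h b * dl ε (inner ℝ n (v - b)) =
      invn n * ∫⁻ u in Icc (-1 : ℝ) 1, 2⁻¹ * pint n (v + (ε / ‖n‖ * u) • (‖n‖⁻¹ • n)) h := by
  have hn' : 0 < ‖n‖ := norm_pos_iff.2 hn
  obtain ⟨ι, hι⟩ := exists_iso hn
  have hm : Measurable fun b : R3 => h b * dl ε (inner ℝ n (v - b)) :=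
    hh.mul ((Symm.meas_dl ε).comp (by fun_prop))
  have hP : Measurable fun s : ℝ => pint n (v + s • (‖n‖⁻¹ • n)) h :=
    meas_pint (f := fun _ => h) (hh.comp measurable_snd) measurable_const (by fun_prop)
  rw [lintegral_slices hn v hm]
  have h1 : ∀ s : ℝ, pint n (v + s • (‖n‖⁻¹ • n)) (fun b => h b * dl ε (inner ℝ n (v - b))) =
      dl ε (s * ‖n‖) * pint n (v + s • (‖n‖⁻¹ • n)) h := by
    intro s
    rw [pint_param hn ι hι _ hm, pint_param hn ι hι _ hh,
      ← lintegral_const_mul _ (by exact hh.comp (measurable_const.add ι.continuous.measurable))]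
    refine lintegral_congr fun p => ?_
    have h3 : inner ℝ n (v - (v + s • (‖n‖⁻¹ • n) + ι p)) = -(s * ‖n‖) := by
      rw [add_assoc, sub_add_cancel_left, inner_neg_right, inner_add_right, real_inner_comm (ι p), hι,
        real_inner_smul_right, real_inner_smul_right, real_inner_self_eq_norm_sq]
      field_simp
      ring
    rw [h3, mul_comm]
    unfold dl
    rw [abs_neg]
  simp only [h1]
  have hc : 0 < ε / ‖n‖ := by positivity
  have h2 : ∫⁻ u : ℝ, dl ε (ε / ‖n‖ * u * ‖n‖) * pint n (v + (ε / ‖n‖ * u) • (‖n‖⁻¹ • n)) h =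
      ENNReal.ofReal |(ε / ‖n‖)⁻¹| * ∫⁻ s : ℝ, dl ε (s * ‖n‖) * pint n (v + s • (‖n‖⁻¹ • n)) h := by
    have hm2 : Measurable fun s : ℝ => dl ε (s * ‖n‖) * pint n (v + s • (‖n‖⁻¹ • n)) h :=
      ((Symm.meas_dl ε).comp (by fun_prop)).mul hP
    rw [← smul_eq_mul, ← lintegral_smul_measure, ← Real.map_volume_mul_left hc.ne',
      lintegral_map hm2 (by fun_prop)]
  have h3 : ∫⁻ s : ℝ, dl ε (s * ‖n‖) * pint n (v + s • (‖n‖⁻¹ • n)) h =
      ENNReal.ofReal (ε / ‖n‖) * ∫⁻ u : ℝ, dl ε (ε / ‖n‖ * u * ‖n‖) *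
        pint n (v + (ε / ‖n‖ * u) • (‖n‖⁻¹ • n)) h := by
    rw [h2, ← mul_assoc, ← ENNReal.ofReal_mul hc.le, abs_of_pos (inv_pos.2 hc), mul_inv_cancel₀ hc.ne',
      ENNReal.ofReal_one, one_mul]
  rw [h3, ← lintegral_indicator measurableSet_Icc, ← lintegral_const_mul' _ _ ENNReal.ofReal_ne_top,
    ← lintegral_const_mul' _ _ (by unfold invn; simpa using hn)]
  refine lintegral_congr fun u => ?_
  have h4 : |ε / ‖n‖ * u * ‖n‖| = ε * |u| := by
    rw [show ε / ‖n‖ * u * ‖n‖ = ε * u by field_simp, abs_mul, abs_of_pos hε]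
  unfold dl
  rw [h4]
  by_cases hu : u ∈ Icc (-1 : ℝ) 1
  · rw [indicator_of_mem hu, if_pos (by have := abs_le.2 hu; nlinarith), ← mul_assoc, ← mul_assoc,
      ← ENNReal.ofReal_mul hc.le]
    congr 1
    unfold invn
    rw [← ENNReal.ofReal_inv_of_pos hn', show (2 : ℝ≥0∞)⁻¹ = ENNReal.ofReal 2⁻¹ by
      rw [ENNReal.ofReal_inv_of_pos (by norm_num)]; simp, ← ENNReal.ofReal_mul (by positivity)]
    congr 1
    field_simp
  · have : 1 < |u| := by
      by_contra hc
      exact hu (abs_le.1 (not_lt.1 hc))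
    rw [indicator_of_notMem hu, if_neg (by nlinarith)]
    simp

theorem Symm.plane_le {n : R3} (hn : n ≠ 0) (v : R3) {h : R3 → ℝ≥0∞} (hh : LowerSemicontinuous h) :
    invn n * pint n v h ≤
      liminf (fun k : ℕ => ∫⁻ b, h b * dl (1 / ((k : ℝ) + 1)) (inner ℝ n (v - b))) atTop := by
  have hm := hh.measurable
  have e : (fun k : ℕ => ∫⁻ b, h b * dl (1 / ((k : ℝ) + 1)) (inner ℝ n (v - b))) =
      (fun _ : ℕ => invn n) * fun k : ℕ => ∫⁻ u in Icc (-1 : ℝ) 1,
        2⁻¹ * pint n (v + (1 / ((k : ℝ) + 1) / ‖n‖ * u) • (‖n‖⁻¹ • n)) h :=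
    funext fun k => Symm.slab hn v hm (by positivity)
  rw [e]
  refine le_trans ?_ ENNReal.le_liminf_mul
  rw [liminf_const]
  refine mul_le_mul_right ?_ _
  obtain ⟨ι, hι⟩ := exists_iso hn
  have hP : Measurable fun s : ℝ => pint n (v + s • (‖n‖⁻¹ • n)) h :=
    meas_pint (f := fun _ => h) (hm.comp measurable_snd) measurable_const (by fun_prop)
  refine le_trans ?_ (lintegral_liminf_le (fun k => (hP.comp (by fun_prop)).const_mul _))
  have h1 : ∀ u : ℝ, 2⁻¹ * pint n v h ≤ liminf (fun k : ℕ =>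
      2⁻¹ * pint n (v + (1 / ((k : ℝ) + 1) / ‖n‖ * u) • (‖n‖⁻¹ • n)) h) atTop := by
    intro u
    refine le_trans ?_ (ENNReal.le_liminf_mul (u := fun _ : ℕ => 2⁻¹))
    rw [liminf_const]
    refine mul_le_mul_right ?_ _
    simp only [pint_param hn ι hι _ hm]
    refine le_trans (lintegral_mono fun p => ?_) (lintegral_liminf_le
      (fun k => hm.comp (measurable_const.add ι.continuous.measurable)))
    have t1 : Tendsto (fun k : ℕ => v + (1 / ((k : ℝ) + 1) / ‖n‖ * u) • (‖n‖⁻¹ • n) + ι p) atTop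
        (𝓝 (v + ((0 : ℝ) / ‖n‖ * u) • (‖n‖⁻¹ • n) + ι p)) :=
      ((((tendsto_one_div_add_atTop_nhds_zero_nat.div_const _).mul_const _).smul_const _).const_add _).add_const _
    simp only [zero_div, zero_mul, zero_smul, add_zero] at t1
    exact (hh.le_liminf _).trans (t1.liminf_le_liminf_comp)
  refine le_trans ?_ (lintegral_mono h1)
  rw [setLIntegral_const, Real.volume_Icc, mul_right_comm]
  norm_num
  rw [ENNReal.inv_mul_cancel (by norm_num) (by norm_num), one_mul]

theorem Qp_le_liminf {f h : R3 → ℝ≥0∞} (hf : Measurable f) (hh : LowerSemicontinuous h) (v : R3) :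
    Qp f h v ≤ liminf (fun k : ℕ => 2 * ∫⁻ a, ∫⁻ b,
      f a * h b * dl (1 / ((k : ℝ) + 1)) (inner ℝ (v - a) (v - b))) atTop := by
  have hm := hh.measurable
  rw [carleman hf hm]
  refine le_trans ?_ (ENNReal.le_liminf_mul (u := fun _ : ℕ => 2))
  rw [liminf_const]
  refine mul_le_mul_right ?_ _
  have hM : ∀ k : ℕ, Measurable fun q : R3 × R3 =>
      f q.1 * h q.2 * dl (1 / ((k : ℝ) + 1)) (inner ℝ (v - q.1) (v - q.2)) := fun k =>
    ((hf.comp measurable_fst).mul (hm.comp measurable_snd)).mul ((Symm.meas_dl _).comp (by fun_prop))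
  refine le_trans (lintegral_mono_ae ?_) (lintegral_liminf_le (fun k => (hM k).lintegral_prod_right'))
  filter_upwards [compl_mem_ae_iff.2 (measure_singleton v)] with a ha
  have hn : v - a ≠ 0 := sub_ne_zero.2 (Ne.symm ha)
  refine (mul_le_mul_right (Symm.plane_le hn v hh) _).trans ?_
  have e : (fun k : ℕ => ∫⁻ b, f a * h b * dl (1 / ((k : ℝ) + 1)) (inner ℝ (v - a) (v - b))) =
      (fun _ : ℕ => f a) * fun k : ℕ => ∫⁻ b, h b * dl (1 / ((k : ℝ) + 1)) (inner ℝ (v - a) (v - b)) := by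
    funext k
    simp only [Pi.mul_apply, mul_assoc]
    exact lintegral_const_mul _ (hm.mul ((Symm.meas_dl _).comp (by fun_prop)))
  rw [e]
  refine le_trans ?_ ENNReal.le_liminf_mul
  rw [liminf_const]

theorem Qp_symm {f h : R3 → ℝ≥0∞} (hf : Measurable f) (hh : Measurable h) (v : R3) :
    Qp f h v = Qp h f v := by
  rw [Qp_eq_Qg, Qp_eq_Qg, Qg_symm (Φ := fun a b => f a * h b)
    ((hf.comp measurable_fst).mul (hh.comp measurable_snd))]
  simp only [mul_comm]

theorem Symm.sphere_univ : sphereMeasure univ = ENNReal.ofReal (4 * Real.pi) := by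
  unfold sphereMeasure
  rw [Measure.map_apply measurable_subtype_coe MeasurableSet.univ, preimage_univ,
    Measure.toSphere_apply_univ, EuclideanSpace.volume_ball_fin_three]
  simp only [finrank_euclideanSpace, Fintype.card_fin, ENNReal.ofReal_one, one_pow, one_mul]
  rw [← ENNReal.ofReal_natCast, ← ENNReal.ofReal_mul (by norm_num)]
  congr 1
  push_cast
  ring

theorem Symm.int_ball (v : R3) :
    ∫⁻ a, (Metric.ball v 1).indicator 1 a * invn (v - a) = ENNReal.ofReal (2 * Real.pi) := by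
  rw [← lintegral_sub_left_eq_self _ v]
  simp only [sub_sub_cancel]
  rw [polar (f := fun z => (Metric.ball v 1).indicator 1 (v - z) * invn z)
    (((measurable_one.indicator measurableSet_ball).comp (by fun_prop)).mul measurable_invn)]
  have h1 : ∀ᵐ w ∂sphereMeasure, ∫⁻ r in Ioi (0 : ℝ), ENNReal.ofReal (r ^ 2) *
      ((Metric.ball v 1).indicator 1 (v - r • w) * invn (r • w)) = ENNReal.ofReal (1 / 2) := by
    refine ae_sphere.mono fun w hw => ?_
    have h2 : ∀ r ∈ Ioi (0 : ℝ), ENNReal.ofReal (r ^ 2) *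
        ((Metric.ball v 1).indicator 1 (v - r • w) * invn (r • w)) =
        (Iic (1 : ℝ) \ {1}).indicator (fun r => ENNReal.ofReal r) r := by
      intro r hr
      have hr' : 0 < r := hr
      have h3 : ENNReal.ofReal (r ^ 2) * invn (r • w) = ENNReal.ofReal r := by
        unfold invn
        rw [norm_smul, hw, mul_one, Real.norm_of_nonneg hr'.le, sq, ENNReal.ofReal_mul hr'.le, mul_assoc,
          ENNReal.mul_inv_cancel (by simpa using hr') ENNReal.ofReal_ne_top, mul_one]
      have h4 : v - r • w ∈ Metric.ball v 1 ↔ r < 1 := by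
        rw [mem_ball_iff_norm, sub_sub_cancel_left, norm_neg, norm_smul, hw, mul_one, Real.norm_of_nonneg hr'.le]
      rw [mul_left_comm, h3, Iic_sdiff_right]
      by_cases h : r < 1
      · rw [indicator_of_mem (h4.2 h), indicator_of_mem (show r ∈ Iio (1 : ℝ) from h), Pi.one_apply, one_mul]
      · rw [indicator_of_notMem (fun h' => h (h4.1 h')), indicator_of_notMem (show r ∉ Iio (1 : ℝ) from h),
          zero_mul]
    rw [setLIntegral_congr_fun measurableSet_Ioi h2, Iic_sdiff_right, lintegral_indicator measurableSet_Iio,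
      Measure.restrict_restrict measurableSet_Iio, inter_comm, Ioi_inter_Iio,
      ← ofReal_integral_eq_lintegral_ofReal, ← integral_Ioc_eq_integral_Ioo,
      ← intervalIntegral.integral_of_le zero_le_one, integral_id]
    · norm_num
    · exact (continuous_id.integrableOn_Icc (a := 0) (b := 1)).mono_set Ioo_subset_Icc_self
    · exact (ae_restrict_iff' measurableSet_Ioo).2 (Eventually.of_forall fun r hr => hr.1.le)
  rw [lintegral_congr_ae h1, lintegral_const, Symm.sphere_univ, ← ENNReal.ofReal_mul (by norm_num)]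
  congr 1
  ring

theorem avg_plane {φ : R3 → ℝ≥0∞} (hφ : Measurable φ) (v : R3) {c : ℝ≥0∞}
    (h : ∀ n : R3, n ≠ 0 → pint n v φ ≤ c) : ∫⁻ a, φ a * invn (v - a) ≤ 2 * c := by
  have hb : Measurable ((Metric.ball v 1).indicator (1 : R3 → ℝ≥0∞)) := measurable_one.indicator measurableSet_ball
  have hae : ∀ᵐ a : R3, v - a ≠ 0 := by
    filter_upwards [compl_mem_ae_iff.2 (measure_singleton v)] with a ha
    exact sub_ne_zero.2 (Ne.symm ha)
  have hi : Measurable fun a : R3 => invn (v - a) := measurable_invn.comp (by fun_prop)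
  have h1 := Qp_symm hφ hb v
  rw [carleman hφ hb, carleman hb hφ, ENNReal.mul_right_inj (by norm_num) (by norm_num)] at h1
  have h2 : ∫⁻ a, φ a * (invn (v - a) * pint (v - a) v ((Metric.ball v 1).indicator 1)) =
      ENNReal.ofReal Real.pi * ∫⁻ a, φ a * invn (v - a) := by
    rw [← lintegral_const_mul' _ _ ENNReal.ofReal_ne_top]
    refine lintegral_congr_ae (hae.mono fun a ha => ?_)
    dsimp only
    rw [pint_ball ha v zero_le_one, one_pow, mul_one]
    ring
  have h3 : ∫⁻ a, (Metric.ball v 1).indicator 1 a * (invn (v - a) * pint (v - a) v φ) ≤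
      ENNReal.ofReal Real.pi * (2 * c) := by
    calc _ ≤ ∫⁻ a, c * ((Metric.ball v 1).indicator 1 a * invn (v - a)) := by
          refine lintegral_mono_ae (hae.mono fun a ha => ?_)
          rw [← mul_assoc, mul_comm c]
          exact mul_le_mul_right (h _ ha) _
      _ = _ := by
          rw [lintegral_const_mul _ (by exact hb.mul hi), Symm.int_ball, ENNReal.ofReal_mul (by norm_num)]
          simp only [ENNReal.ofReal_ofNat]
          ring
  rw [← h1, h2] at h3
  exact (ENNReal.mul_le_mul_iff_right (by simpa using Real.pi_pos) ENNReal.ofReal_ne_top).1 h3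

end Crest.Agent.R68
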