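import Crest.Agent.R68.DefsD
import Crest.Agent.R68.Symm

/-! Lower Duhamel bound with one collision.  By `Mild.restart`, `F (s+σ) z ξ ≥ f̃ σ z ξ := f (z - σ ξ) ξ * Ex F s (s+σ) z ξ`; also `F (s+σ) ≥ g := 0.99 gs (s+σ)`, and the supports are disjoint (`gs_transport`), so `F (s+σ) ≥ g + f̃` and
`Qp F F ≥ Qp f̃ g + Qp g f̃`.  Restart from `s` to `s+h`, multiply by `φ`, integrate; `shear2` (all functions are `Same`-invariant in the position: `Inv.same`, `Inv.Ex`), `weak_gain` (and `post_swap` for the second product), `shear2` again. -/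

set_option autoImplicit false

open MeasureTheory Set Filter Topology Crest.AnalysisR.VecCalc3 Crest.AnalysisR.PDE.Boltzmann
open scoped ENNReal NNReal

namespace Crest.Agent.R68

theorem shear2 {Ψ : R3 → R3 → ℝ≥0∞} (hΨ : Meas2 Ψ) (hs : SameInv Ψ) (τ : ℝ) :
    ∫⁻ y : ℝ × ℝ, ∫⁻ v, Ψ (lift y + τ • v) v = ∫⁻ y : ℝ × ℝ, ∫⁻ v, Ψ (lift y) v := by
  have m1 : Measurable (Function.uncurry fun (y : ℝ × ℝ) (v : R3) => Ψ (lift y + τ • v) v) :=
    hΨ.comp ((measurable_lift.comp measurable_fst).add (measurable_snd.const_smul τ)) measurable_snd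
  have m2 : Measurable (Function.uncurry fun (y : ℝ × ℝ) (v : R3) => Ψ (lift y) v) :=
    hΨ.comp (measurable_lift.comp measurable_fst) measurable_snd
  rw [lintegral_lintegral_swap m1.aemeasurable, lintegral_lintegral_swap m2.aemeasurable]
  refine lintegral_congr fun v => ?_
  rw [← lintegral_add_right_eq_self (fun y : ℝ × ℝ => Ψ (lift y) v) (τ * v 0, τ * v 1)]
  refine lintegral_congr fun y => ?_
  rw [hs (lift y + τ • v) (lift (y + (τ * v 0, τ * v 1))) ⟨by simp [lift], by simp [lift]⟩]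
namespace LowS

theorem I_time {Ψ : Den} (hΨ : MeasD Ψ) (S : Set ℝ) :
    ∫⁻ y : ℝ × ℝ, ∫⁻ v, ∫⁻ σ in S, Ψ σ (lift y) v = ∫⁻ σ in S, ∫⁻ y : ℝ × ℝ, ∫⁻ v, Ψ σ (lift y) v := by
  have m0 : Measurable fun p : ((ℝ × ℝ) × ℝ) × R3 => Ψ p.1.2 (lift p.1.1) p.2 :=
    hΨ.comp measurable_fst.snd (measurable_lift.comp measurable_fst.fst) measurable_snd
  have m1 : Measurable (Function.uncurry fun (y : ℝ × ℝ) (σ : ℝ) => ∫⁻ v, Ψ σ (lift y) v) :=
    m0.lintegral_prod_right'
  rw [← lintegral_lintegral_swap m1.aemeasurable]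
  refine lintegral_congr fun y => ?_
  exact lintegral_lintegral_swap (f := fun (v : R3) (σ : ℝ) => Ψ σ (lift y) v)
    (hΨ.comp measurable_snd measurable_const measurable_fst).aemeasurable

theorem I_add {Ψ Ψ' : R3 → R3 → ℝ≥0∞} (hΨ : Meas2 Ψ) :
    ∫⁻ y : ℝ × ℝ, ∫⁻ v, (Ψ (lift y) v + Ψ' (lift y) v) =
      (∫⁻ y : ℝ × ℝ, ∫⁻ v, Ψ (lift y) v) + ∫⁻ y : ℝ × ℝ, ∫⁻ v, Ψ' (lift y) v := by
  have m2 : Measurable fun p : (ℝ × ℝ) × R3 => Ψ (lift p.1) p.2 :=
    hΨ.comp (measurable_lift.comp measurable_fst) measurable_snd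
  rw [← lintegral_add_left m2.lintegral_prod_right']
  exact lintegral_congr fun y => lintegral_add_left (hΨ.vel _) _

theorem shift (G : ℝ → ℝ≥0∞) (s h : ℝ) : ∫⁻ σ in Ioo 0 h, G (s + σ) = ∫⁻ u in Ioo s (s + h), G u := by
  rw [← lintegral_indicator measurableSet_Ioo, ← lintegral_indicator measurableSet_Ioo,
    ← lintegral_add_left_eq_self (fun u => (Ioo s (s + h)).indicator G u) s]
  refine lintegral_congr fun σ => ?_
  simp only [indicator, mem_Ioo, lt_add_iff_pos_right, add_lt_add_iff_left]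

theorem Ex_same {T : ℝ} {F : Den} (hI : Inv T F) {s t : ℝ} (hs : 0 ≤ s) (ht : t ≤ T) {y y' : R3}
    (h : Same y y') (v : R3) : Ex F s t y v = Ex F s t y' v := by
  rw [hI.Ex hs ht, h.hat_eq, ← hI.Ex hs ht]

noncomputable section

variable (P : Par) (N : ℕ) (F : Den) (s h : ℝ) (f φ : R3 → R3 → ℝ≥0∞)

def ft : Den := fun σ z ξ => f (z - σ • ξ) ξ * Ex F s (s + σ) z ξ
def gg : Den := fun σ z a => ENNReal.ofReal (99 / 100) * gs P N (s + σ) z a
def Ph : Den := fun σ z v => Ex F (s + σ) (s + h) (z + (h - σ) • v) v * φ (z + (h - σ) • v) v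
def QQ : Den := fun σ z v => Qp (ft F s f σ z) (gg P N s σ z) v + Qp (gg P N s σ z) (ft F s f σ z) v
def BB : Den := fun σ z ξ => ∫⁻ a, gg P N s σ z a * ∫⁻ w, ENNReal.ofReal |inner ℝ (ξ - a) w| *
  (Ph F s h φ σ z (postVel ξ a w) + Ph F s h φ σ z (postVelStar ξ a w)) ∂sphereMeasure

variable {P N F s h f φ}

theorem m_ft (hF : MeasD F) (hf : Meas2 f) : MeasD (ft F s f) :=
  (hf.comp (by fun_prop) measurable_snd.snd).mul
    (meas_Ex hF measurable_const (by fun_prop) (by fun_prop) (by fun_prop))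

theorem m_gg : MeasD (gg P N s) :=
  ((measD_gs N).comp (by fun_prop) measurable_snd.fst measurable_snd.snd).const_mul _

theorem m_Ph (hF : MeasD F) (hφ : Meas2 φ) : MeasD (Ph F s h φ) :=
  (meas_Ex hF (by fun_prop) measurable_const (by fun_prop) measurable_snd.snd).mul
    (hφ.comp (by fun_prop) measurable_snd.snd)

theorem m_QQ (hF : MeasD F) (hf : Meas2 f) : MeasD (QQ P N F s f) := by
  have h1 : Measurable (Function.uncurry fun p : ℝ × R3 × R3 => ft F s f p.1 p.2.1) :=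
    (m_ft hF hf).comp measurable_fst.fst measurable_fst.snd.fst measurable_snd
  have h2 : Measurable (Function.uncurry fun p : ℝ × R3 × R3 => gg P N s p.1 p.2.1) :=
    m_gg.comp measurable_fst.fst measurable_fst.snd.fst measurable_snd
  exact (meas_Qp h1 h2 measurable_snd.snd).add (meas_Qp h2 h1 measurable_snd.snd)

theorem m_pv : Measurable fun q : R3 × R3 × R3 => postVel q.1 q.2.1 q.2.2 :=
  (by unfold postVel; fun_prop : Continuous fun q : R3 × R3 × R3 => postVel q.1 q.2.1 q.2.2).measurable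
theorem m_pvs : Measurable fun q : R3 × R3 × R3 => postVelStar q.1 q.2.1 q.2.2 :=
  (by unfold postVelStar; fun_prop : Continuous fun q : R3 × R3 × R3 => postVelStar q.1 q.2.1 q.2.2).measurable

theorem m_BB (hF : MeasD F) (hφ : Meas2 φ) : MeasD (BB P N F s h φ) := by
  unfold MeasD BB
  refine Measurable.lintegral_prod_right' (f := fun p : (ℝ × R3 × R3) × R3 => gg P N s p.1.1 p.1.2.1 p.2 *
    ∫⁻ w, ENNReal.ofReal |inner ℝ (p.1.2.2 - p.2) w| * (Ph F s h φ p.1.1 p.1.2.1 (postVel p.1.2.2 p.2 w) +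
      Ph F s h φ p.1.1 p.1.2.1 (postVelStar p.1.2.2 p.2 w)) ∂sphereMeasure) ?_
  refine (m_gg.comp measurable_fst.fst measurable_fst.snd.fst measurable_snd).mul ?_
  refine Measurable.lintegral_prod_right' (f := fun p : ((ℝ × R3 × R3) × R3) × R3 =>
    ENNReal.ofReal |inner ℝ (p.1.1.2.2 - p.1.2) p.2| *
      (Ph F s h φ p.1.1.1 p.1.1.2.1 (postVel p.1.1.2.2 p.1.2 p.2) +
        Ph F s h φ p.1.1.1 p.1.1.2.1 (postVelStar p.1.1.2.2 p.1.2 p.2))) ?_
  have h3 : Measurable fun p : ((ℝ × R3 × R3) × R3) × R3 => (p.1.1.2.2, p.1.2, p.2) := by fun_prop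
  exact (by fun_prop : Measurable fun p : ((ℝ × R3 × R3) × R3) × R3 =>
      ENNReal.ofReal |inner ℝ (p.1.1.2.2 - p.1.2) p.2|).mul
    (((m_Ph hF hφ).comp (by fun_prop) (by fun_prop) (m_pv.comp h3)).add
      ((m_Ph hF hφ).comp (by fun_prop) (by fun_prop) (m_pvs.comp h3)))

theorem weak2 {a b ψ : R3 → ℝ≥0∞} (ha : Measurable a) (hb : Measurable b) (hψ : Measurable ψ) :
    ∫⁻ v, ψ v * (Qp a b v + Qp b a v) = ∫⁻ ξ, a ξ * ∫⁻ u, b u * ∫⁻ w, ENNReal.ofReal |inner ℝ (ξ - u) w| *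
      (ψ (postVel ξ u w) + ψ (postVelStar ξ u w)) ∂sphereMeasure := by
  have mi : Measurable fun q : (R3 × R3) × R3 => ENNReal.ofReal |inner ℝ (q.1.1 - q.1.2) q.2| := by fun_prop
  have h3 : Measurable fun q : (R3 × R3) × R3 => (q.1.1, q.1.2, q.2) := by fun_prop
  have m1 : Measurable fun q : (R3 × R3) × R3 => ENNReal.ofReal |inner ℝ (q.1.1 - q.1.2) q.2| *
      ψ (postVel q.1.1 q.1.2 q.2) := mi.mul (hψ.comp (m_pv.comp h3))
  have m2 : Measurable fun q : (R3 × R3) × R3 => ENNReal.ofReal |inner ℝ (q.1.1 - q.1.2) q.2| *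
      ψ (postVelStar q.1.1 q.1.2 q.2) := mi.mul (hψ.comp (m_pvs.comp h3))
  have n1 : Measurable fun q : R3 × R3 => a q.1 * b q.2 * ∫⁻ w, ENNReal.ofReal |inner ℝ (q.1 - q.2) w| *
      ψ (postVel q.1 q.2 w) ∂sphereMeasure :=
    ((ha.comp measurable_fst).mul (hb.comp measurable_snd)).mul m1.lintegral_prod_right'
  have n2 : Measurable fun q : R3 × R3 => a q.1 * b q.2 * ∫⁻ w, ENNReal.ofReal |inner ℝ (q.1 - q.2) w| *
      ψ (postVelStar q.1 q.2 w) ∂sphereMeasure :=
    ((ha.comp measurable_fst).mul (hb.comp measurable_snd)).mul m2.lintegral_prod_right'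
  have mQ : Measurable fun v => Qp a b v :=
    meas_Qp (f := fun _ : R3 => a) (h := fun _ : R3 => b) (ha.comp measurable_snd) (hb.comp measurable_snd)
      measurable_id
  have e2 : ∫⁻ v, Qp b a v * ψ v = ∫⁻ ξ, ∫⁻ u, a ξ * b u * ∫⁻ w, ENNReal.ofReal |inner ℝ (ξ - u) w| *
      ψ (postVelStar ξ u w) ∂sphereMeasure := by
    rw [weak_gain hb ha hψ, lintegral_lintegral_swap (f := fun ξ u => a ξ * b u *
      ∫⁻ w, ENNReal.ofReal |inner ℝ (ξ - u) w| * ψ (postVelStar ξ u w) ∂sphereMeasure) n2.aemeasurable]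
    refine lintegral_congr fun u => lintegral_congr fun ξ => ?_
    rw [mul_comm (b u)]
    congr 1
    refine lintegral_congr fun w => ?_
    rw [post_swap, ← neg_sub ξ u, inner_neg_left, abs_neg]
  simp only [mul_comm (ψ _), add_mul]
  have mQ' : Measurable fun v => Qp a b v * ψ v := mQ.mul hψ
  rw [lintegral_add_left mQ', weak_gain ha hb hψ, e2,
    ← lintegral_add_left n1.lintegral_prod_right']
  refine lintegral_congr fun ξ => ?_
  have k1 : ∀ u, Measurable fun w => ENNReal.ofReal |inner ℝ (ξ - u) w| * ψ (postVel ξ u w) := fun u =>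
    m1.comp (f := fun w : R3 => ((ξ, u), w)) measurable_prodMk_left
  have k2 : Measurable fun u => b u * ∫⁻ w, ENNReal.ofReal |inner ℝ (ξ - u) w| *
      (ψ (postVel ξ u w) + ψ (postVelStar ξ u w)) ∂sphereMeasure := by
    refine hb.mul (Measurable.lintegral_prod_right' (f := fun q : R3 × R3 =>
      ENNReal.ofReal |inner ℝ (ξ - q.1) q.2| * (ψ (postVel ξ q.1 q.2) + ψ (postVelStar ξ q.1 q.2))) ?_)
    have h4 : Measurable fun q : R3 × R3 => (ξ, q.1, q.2) := by fun_prop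
    exact (by fun_prop : Measurable fun q : R3 × R3 => ENNReal.ofReal |inner ℝ (ξ - q.1) q.2|).mul
      ((hψ.comp (m_pv.comp h4)).add (hψ.comp (m_pvs.comp h4)))
  have k3 : Measurable fun u => a ξ * b u * ∫⁻ w, ENNReal.ofReal |inner ℝ (ξ - u) w| *
      ψ (postVel ξ u w) ∂sphereMeasure := n1.comp (f := fun u : R3 => (ξ, u)) measurable_prodMk_left
  simp only []
  rw [← lintegral_add_left k3, ← lintegral_const_mul _ k2]
  refine lintegral_congr fun u => ?_
  simp only [mul_add, lintegral_add_left (k1 u), Function.comp]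
  ring

end

end LowS

theorem low_step {P : Par} {N : ℕ} {T : ℝ} {F : Den} (hR : Reg P N T F) {s h : ℝ} (hs : 0 ≤ s) (hh : 0 ≤ h)
    (hT : s + h ≤ T) {f φ : R3 → R3 → ℝ≥0∞} (hf : Meas2 f) (hfs : SameInv f) (hle : ∀ y ξ, f y ξ ≤ F s y ξ)
    (hd : ∀ y ξ, f y ξ ≠ 0 → gs P N s y ξ = 0) (hφ : Meas2 φ) (hφs : SameInv φ) :
    ∫⁻ y : ℝ × ℝ, ∫⁻ ξ, f (lift y) ξ * Aop P N F s h φ (lift y) ξ ≤
      ∫⁻ y : ℝ × ℝ, ∫⁻ v, F (s + h) (lift y) v * φ (lift y) v := by
  obtain ⟨F00, hM⟩ := hR.mild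
  have hF : MeasD F := hM.1
  have hI := hR.inv
  have l1 : ∀ σ, 0 ≤ σ → σ ≤ h → ∀ z ξ, LowS.ft F s f σ z ξ ≤ F (s + σ) z ξ := by
    intro σ h0 h1 z ξ
    rw [hM.restart hs (by linarith : s ≤ s + σ) (by linarith) z ξ, add_sub_cancel_left]
    exact le_add_right (mul_le_mul' (hle _ _) le_rfl)
  have l2 : ∀ σ, 0 ≤ σ → σ ≤ h → ∀ z ξ,
      LowS.ft F s f σ z ξ + LowS.gg P N s σ z ξ ≤ F (s + σ) z ξ := by
    intro σ h0 h1 z ξ
    by_cases hz : f (z - σ • ξ) ξ = 0
    · simp only [LowS.ft, hz, zero_mul, zero_add]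
      exact hR.dep _ ⟨by linarith, by linarith⟩ z ξ
    · have := gs_transport (P := P) N s σ (z - σ • ξ) ξ
      rw [hd _ _ hz, sub_add_cancel] at this
      simp only [LowS.gg, this, mul_zero, add_zero]
      exact l1 σ h0 h1 z ξ
  have l3 : ∀ σ, 0 ≤ σ → σ ≤ h → ∀ z v, LowS.QQ P N F s f σ z v ≤ Qp (F (s + σ) z) (F (s + σ) z) v := by
    intro σ h0 h1 z v
    have a1 := (LowS.m_ft (s := s) hF hf).vel σ z
    have a2 := (LowS.m_gg (P := P) (N := N) (s := s)).vel σ z
    refine le_trans ?_ (Qp_mono (l2 σ h0 h1 z) (l2 σ h0 h1 z) v)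
    have a3 : Measurable fun a => LowS.ft F s f σ z a + LowS.gg P N s σ z a := a1.add a2
    rw [Qp_add_left a1 a2 a3, Qp_add_right a1 a1 a2, Qp_add_right a2 a1 a2]
    exact add_le_add le_add_self le_self_add
  have mΨ : MeasD fun σ x v => Ex F (s + σ) (s + h) x v * φ x v * LowS.QQ P N F s f σ (x - (h - σ) • v) v :=
    ((meas_Ex hF (by fun_prop) measurable_const measurable_snd.fst measurable_snd.snd).mul
      (hφ.comp measurable_snd.fst measurable_snd.snd)).mul
      ((LowS.m_QQ hF hf).comp measurable_fst (by fun_prop) measurable_snd.snd)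
  have l4 : ∀ x v, LowS.ft F s f h x v * φ x v +
      ∫⁻ σ in Ioo 0 h, Ex F (s + σ) (s + h) x v * φ x v * LowS.QQ P N F s f σ (x - (h - σ) • v) v ≤
      F (s + h) x v * φ x v := by
    intro x v
    rw [hM.restart hs (by linarith : s ≤ s + h) hT x v, add_sub_cancel_left, add_mul]
    refine add_le_add (mul_le_mul' (mul_le_mul' (hle _ _) le_rfl) le_rfl) ?_
    rw [← LowS.shift]
    have mm : Measurable fun σ => Ex F (s + σ) (s + h) x v *
        Qp (F (s + σ) (x - (s + h - (s + σ)) • v)) (F (s + σ) (x - (s + h - (s + σ)) • v)) v := by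
      have m : Measurable (Function.uncurry fun σ : ℝ => F (s + σ) (x - (s + h - (s + σ)) • v)) :=
        hF.comp (by fun_prop) (by fun_prop) measurable_snd
      exact (meas_Ex hF (by fun_prop) measurable_const measurable_const measurable_const).mul
        (meas_Qp m m measurable_const)
    rw [← lintegral_mul_const _ mm]
    refine setLIntegral_mono' measurableSet_Ioo fun σ hσ => ?_
    rw [add_sub_add_left_eq_sub, mul_right_comm]
    exact mul_le_mul' (mul_le_mul' le_rfl (l3 σ hσ.1.le hσ.2.le _ _)) le_rfl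
  have sft : ∀ σ, σ ≤ h → SameInv (LowS.ft F s f σ) := fun σ h1 y y' hy => funext fun ξ => by
    simp only [LowS.ft]
    rw [hfs _ _ (hy.sub _), LowS.Ex_same hI hs (by linarith) hy]
  have sgg : ∀ σ, SameInv (LowS.gg P N s σ) := fun σ y y' hy => funext fun ξ => by
    simp only [LowS.gg]
    rw [sameInv_gs _ _ _ _ hy]
  have sPh : ∀ σ, 0 ≤ σ → SameInv (LowS.Ph F s h φ σ) := fun σ h0 y y' hy => funext fun ξ => by
    simp only [LowS.Ph]
    rw [hφs _ _ (hy.add _), LowS.Ex_same hI (by linarith) hT (hy.add _)]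
  have sQQ : ∀ σ, σ ≤ h → SameInv (LowS.QQ P N F s f σ) := fun σ h1 y y' hy => funext fun ξ => by
    simp only [LowS.QQ]
    rw [sft σ h1 _ _ hy, sgg σ _ _ hy]
  have sBB : ∀ σ, 0 ≤ σ → SameInv (LowS.BB P N F s h φ σ) := fun σ h0 y y' hy => funext fun ξ => by
    simp only [LowS.BB]
    rw [sPh σ h0 _ _ hy, sgg σ _ _ hy]
  have mA : Meas2 fun x v => LowS.ft F s f h x v * φ x v :=
    ((LowS.m_ft hF hf).comp measurable_const measurable_fst measurable_snd).mul hφ
  have mA' : Meas2 fun y ξ => f y ξ * (Ex F s (s + h) (y + h • ξ) ξ * φ (y + h • ξ) ξ) :=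
    Measurable.mul hf ((meas_Ex hF measurable_const measurable_const (by fun_prop) measurable_snd).mul
      (hφ.comp (by fun_prop) measurable_snd))
  have mC : MeasD fun σ y ξ => Ex F s (s + σ) (y + σ • ξ) ξ * LowS.BB P N F s h φ σ (y + σ • ξ) ξ :=
    (meas_Ex hF measurable_const (by fun_prop) (by fun_prop) measurable_snd.snd).mul
      ((LowS.m_BB hF hφ).comp measurable_fst (by fun_prop) measurable_snd.snd)
  have mC' : MeasD fun σ y ξ => f y ξ *
      (Ex F s (s + σ) (y + σ • ξ) ξ * LowS.BB P N F s h φ σ (y + σ • ξ) ξ) :=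
    (hf.comp measurable_snd.fst measurable_snd.snd).mul mC
  refine le_trans (le_of_eq ?_) (lintegral_mono fun y => lintegral_mono fun v => l4 (lift y) v)
  have e0 : ∀ y ξ, f y ξ * Aop P N F s h φ y ξ = f y ξ * (Ex F s (s + h) (y + h • ξ) ξ * φ (y + h • ξ) ξ) +
      ∫⁻ σ in Ioo 0 h, f y ξ * (Ex F s (s + σ) (y + σ • ξ) ξ * LowS.BB P N F s h φ σ (y + σ • ξ) ξ) := by
    intro y ξ
    have := mC.comp (t := fun σ : ℝ => σ) measurable_id (measurable_const (a := y)) (measurable_const (a := ξ))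
    rw [lintegral_const_mul _ this, ← mul_add]
    rfl
  simp only [e0]
  refine (LowS.I_add (Ψ' := fun y ξ => ∫⁻ σ in Ioo 0 h, f y ξ *
    (Ex F s (s + σ) (y + σ • ξ) ξ * LowS.BB P N F s h φ σ (y + σ • ξ) ξ)) mA').trans
    (Eq.trans ?_ (LowS.I_add (Ψ' := fun x v => ∫⁻ σ in Ioo 0 h, Ex F (s + σ) (s + h) x v * φ x v *
      LowS.QQ P N F s f σ (x - (h - σ) • v) v) mA).symm)
  rw [LowS.I_time mC', LowS.I_time mΨ]
  congr 1
  · rw [← shear2 mA (fun y y' hy => funext fun v => by beta_reduce; rw [sft h le_rfl _ _ hy, hφs _ _ hy]) h]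
    simp only [LowS.ft, add_sub_cancel_right, mul_assoc]
  · refine setLIntegral_congr_fun measurableSet_Ioo fun σ hσ => ?_
    have m1 : Meas2 fun x v => Ex F (s + σ) (s + h) x v * φ x v *
        LowS.QQ P N F s f σ (x - (h - σ) • v) v := mΨ.comp measurable_const measurable_fst measurable_snd
    have m2 : Meas2 fun x v => LowS.ft F s f σ x v * LowS.BB P N F s h φ σ x v :=
      ((LowS.m_ft hF hf).comp measurable_const measurable_fst measurable_snd).mul
        ((LowS.m_BB hF hφ).comp measurable_const measurable_fst measurable_snd)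
    have s1 := shear2 m1 (fun y y' hy => funext fun v => by
      beta_reduce
      rw [hφs _ _ hy, sQQ σ hσ.2.le _ _ (hy.sub _), LowS.Ex_same hI (by linarith [hσ.1]) hT hy]) (h - σ)
    have s2 := shear2 m2 (fun y y' hy => funext fun v => by
      beta_reduce
      rw [sft σ hσ.2.le _ _ hy, sBB σ hσ.1.le _ _ hy]) σ
    beta_reduce
    rw [← s1]
    simp only [LowS.ft, add_sub_cancel_right, mul_assoc] at s2
    rw [s2]
    refine lintegral_congr fun y => ?_
    simp only [add_sub_cancel_right]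
    have w := LowS.weak2 ((LowS.m_ft (s := s) hF hf).vel σ (lift y))
      ((LowS.m_gg (P := P) (N := N) (s := s)).vel σ (lift y)) ((LowS.m_Ph (s := s) (h := h) hF hφ).vel σ (lift y))
    refine Eq.trans ?_ w.symm
    refine lintegral_congr fun v => ?_
    simp only [LowS.ft, LowS.BB, mul_assoc]

end Crest.Agent.R68
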