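import Crest.Agent.R68.DefsD
import Crest.Agent.R68.Core1

/-! Two collisions regularise: fixed beam, fixed fluctuation, fixed earlier time `s'`.  `pint_graph` with `i = 2`: `invn (R s) ‖R s‖/|R s 2| = 1/|c 2| ≤ 2/δv`, parameter `u = (η 0, η 1)`.  Substitute `y' = x0 + (s-s')(v - u)` (transversal coordinates), `du = dy'/(s-s')² ≤ dy'/κ²`.
By `SameInv` the functions only see `lift y'`.  Tonelli puts the `s` integral inside; for fixed `y', a'`: `η_i(s) = v_i - (y'_i - x0_i)/(s-s')` (`i = 0,1`), `η_2(s) = v_2 + Σ_i c_i (y'_i - x0_i)/((1+b_i s)(s-s') c_2)`, rational with denominator `(s-s')(1+b_0 s)(1+b_1 s)`, and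
`η'(s) = evec/(s-s')` (direct computation, using the plane condition); since `s - s' ≤ t` the cut implies `δ/t ≤ |⟪η', 2η - a' - ξ⟫|`; `core1 3`. -/

set_option autoImplicit false

open MeasureTheory Set Filter Topology Crest.AnalysisR.VecCalc3 Crest.AnalysisR.PDE.Boltzmann
open scoped ENNReal NNReal

namespace Crest.Agent.R68

namespace MainFX

theorem sub2 (p : ℝ × ℝ) {c : ℝ} (hc : c ≠ 0) {F : ℝ × ℝ → ℝ≥0∞} (hF : Measurable F) :
    ∫⁻ u, F u = ENNReal.ofReal (c ^ 2) * ∫⁻ y, F (p + c • y) := by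
  have : (volume : Measure (ℝ × ℝ)).IsAddHaarMeasure := Measure.prod.instIsAddHaarMeasure _ _
  have h := lintegral_map (μ := (volume : Measure (ℝ × ℝ))) (g := fun y => c • y) (f := fun y => F (p + y))
    (hF.comp (by fun_prop)) (by fun_prop)
  rw [← h, Measure.map_addHaar_smul _ hc, lintegral_smul_measure, lintegral_add_left_eq_self, smul_eq_mul,
    ← mul_assoc, ← ENNReal.ofReal_mul (by positivity)]
  have h2 : Module.finrank ℝ (ℝ × ℝ) = 2 := by simp
  rw [h2, abs_of_pos (by positivity), mul_inv_cancel₀ (by positivity), ENNReal.ofReal_one, one_mul]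

/-- the point of the plane through `v` orthogonal to `n` that is sent to the transversal position `y` -/
noncomputable def eta (n v x0 : R3) (ς : ℝ) (y : ℝ × ℝ) : R3 :=
  WithLp.toLp 2 ![v 0 - (y.1 - x0 0) / ς, v 1 - (y.2 - x0 1) / ς,
    v 2 + (n 0 * (y.1 - x0 0) + n 1 * (y.2 - x0 1)) / (ς * n 2)]

theorem graph2 {n : R3} (hn : n 2 ≠ 0) (z : R3) {f : R3 → ℝ≥0∞} (hf : Measurable f) :
    invn n * pint n z f = ENNReal.ofReal (1 / |n 2|) * ∫⁻ u : ℝ × ℝ,
      f (ins 2 (z 2 - (n 0 * (u.1 - z 0) + n 1 * (u.2 - z 1)) / n 2) u) := by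
  have h0 : 0 < ‖n‖ := norm_pos_iff.2 fun h => hn (by simp [h])
  rw [pint_graph hn z hf, ← mul_assoc, invn, ← ENNReal.ofReal_inv_of_pos h0, ← ENNReal.ofReal_mul (by positivity)]
  congr 2
  field_simp

theorem graph_sub {n : R3} (hn : n 2 ≠ 0) (v x0 : R3) {ς : ℝ} (hς : ς ≠ 0) {f : R3 → ℝ≥0∞} (hf : Measurable f) :
    invn n * pint n v f = ENNReal.ofReal (1 / (|n 2| * ς ^ 2)) * ∫⁻ y, f (eta n v x0 ς y) := by
  have hm : Measurable fun u : ℝ × ℝ => f (ins 2 (v 2 - (n 0 * (u.1 - v 0) + n 1 * (u.2 - v 1)) / n 2) u) :=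
    hf.comp ((measurable_ins 2).comp (f := fun u : ℝ × ℝ =>
      (v 2 - (n 0 * (u.1 - v 0) + n 1 * (u.2 - v 1)) / n 2, u)) (by fun_prop))
  rw [graph2 hn v hf, sub2 (v 0 + x0 0 / ς, v 1 + x0 1 / ς) (c := -ς⁻¹) (by simpa using hς) hm, ← mul_assoc,
    ← ENNReal.ofReal_mul (by positivity)]
  congr 1
  · congr 1
    field_simp
  · refine lintegral_congr fun y => ?_
    congr 1
    ext i
    fin_cases i <;> simp [ins, eta] <;> field_simp <;> ring

theorem same_eta (n v x0 : R3) {ς : ℝ} (hς : ς ≠ 0) (y : ℝ × ℝ) : Same (x0 + ς • (v - eta n v x0 ς y)) (lift y) := by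
  constructor <;> simp [eta, lift] <;> field_simp <;> ring

theorem meas_eta {α : Type} [MeasurableSpace α] {n : α → R3} (hn : Measurable n) (v x0 : R3) {ς : α → ℝ}
    (hς : Measurable ς) {y : α → ℝ × ℝ} (hy : Measurable y) : Measurable fun a => eta (n a) v x0 (ς a) (y a) := by
  unfold eta
  refine (WithLp.measurable_toLp _ _).comp (measurable_pi_lambda _ fun i => ?_)
  fin_cases i
  · change Measurable fun a => v 0 - ((y a).1 - x0 0) / ς a
    fun_prop
  · change Measurable fun a => v 1 - ((y a).2 - x0 1) / ς a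
    fun_prop
  · change Measurable fun a => v 2 + (n a 0 * ((y a).1 - x0 0) + n a 1 * ((y a).2 - x0 1)) / (ς a * n a 2)
    fun_prop

open Classical in
theorem meas_ker {α : Type} [MeasurableSpace α] (δ : ℝ) {e η a : α → R3} (he : Measurable e) (hη : Measurable η)
    (ha : Measurable a) {f : α → R3 → ℝ≥0∞} (hf : Measurable (Function.uncurry f)) :
    Measurable fun p => invn (η p - a p) * pint (η p - a p) (η p) (fun ξ =>
      if δ ≤ |inner ℝ (e p) ((2 : ℝ) • η p - a p - ξ)| then f p ξ else 0) := by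
  refine (measurable_invn.comp (hη.sub ha)).mul (meas_pint ?_ (hη.sub ha) hη)
  have he' : Measurable fun q : α × R3 => e q.1 := he.comp measurable_fst
  exact Measurable.ite (measurableSet_le measurable_const (he'.inner (𝕜 := ℝ) (by fun_prop)).abs) hf measurable_const

open Classical Polynomial in
theorem line : ∃ C : ℝ≥0, ∀ (b : Fin 3 → ℝ) (c : R3), (∀ i, 0 ≤ b i) → b 2 = 0 → c 2 ≠ 0 →
    ∀ {δ κ t s' : ℝ}, 0 < δ → 0 < κ → 0 ≤ s' → 0 < t → ∀ (x0 v : R3) (R : ℝ → R3),
    (∀ s i, R s i = c i / (1 + b i * s)) → ∀ (y : ℝ × ℝ) (a : R3) {f : R3 → ℝ≥0∞}, Measurable f →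
    ∫⁻ s in Ioo (s' + κ) t, invn (eta (R s) v x0 (s - s') y - a) *
      pint (eta (R s) v x0 (s - s') y - a) (eta (R s) v x0 (s - s') y) (fun ξ =>
        if δ ≤ |inner ℝ (evec b s (s - s') v (R s) (eta (R s) v x0 (s - s') y))
          ((2 : ℝ) • eta (R s) v x0 (s - s') y - a - ξ)| then f ξ else 0) ≤
      C * ENNReal.ofReal (t / δ) * ∫⁻ ξ, f ξ := by
  obtain ⟨C, hC⟩ := core1 3
  refine ⟨C, fun b c hb hb2 hc δ κ t s' hδ hκ hs' ht x0 v R hR y a f hf => ?_⟩
  set Y0 := y.1 - x0 0 with hY0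
  set Y1 := y.2 - x0 1 with hY1
  let Q : ℝ[X] := (X - Polynomial.C s') * (1 + Polynomial.C (b 0) * X) * (1 + Polynomial.C (b 1) * X)
  let Pn : Fin 3 → ℝ[X] := ![
    (Polynomial.C (v 0) * (X - Polynomial.C s') - Polynomial.C Y0) * (1 + Polynomial.C (b 0) * X) *
      (1 + Polynomial.C (b 1) * X),
    (Polynomial.C (v 1) * (X - Polynomial.C s') - Polynomial.C Y1) * (1 + Polynomial.C (b 0) * X) *
      (1 + Polynomial.C (b 1) * X),
    Polynomial.C (v 2) * ((X - Polynomial.C s') * (1 + Polynomial.C (b 0) * X) * (1 + Polynomial.C (b 1) * X)) +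
      Polynomial.C (c 0 * Y0 / c 2) * (1 + Polynomial.C (b 1) * X) +
      Polynomial.C (c 1 * Y1 / c 2) * (1 + Polynomial.C (b 0) * X)]
  have hpos : ∀ s ∈ Ioo (s' + κ) t, 0 < s - s' ∧ 0 < 1 + b 0 * s ∧ 0 < 1 + b 1 * s := fun s hs => by
    have h0 : 0 < s := by linarith [hs.1]
    exact ⟨by linarith [hs.1], by nlinarith [hb 0], by nlinarith [hb 1]⟩
  have hQ : ∀ s ∈ Ioo (s' + κ) t, Q.eval s ≠ 0 := fun s hs => by
    obtain ⟨h1, h2, h3⟩ := hpos s hs
    simp only [Q, eval_mul, eval_add, eval_sub, eval_X, eval_C, eval_one]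
    positivity
  have hR2 : ∀ s, R s 2 = c 2 := fun s => by simp [hR, hb2]
  have key := hC Pn Q (fun i => by fin_cases i <;> simp only [Pn] <;> simp <;> compute_degree)
    (by simp only [Q]; compute_degree) a (div_pos hδ ht) measurableSet_Ioo hQ
    (fun s => WithLp.toLp 2 fun i => (Pn i).eval s / Q.eval s)
    (fun s => (s - s')⁻¹ • evec b s (s - s') v (R s) (eta (R s) v x0 (s - s') y)) (fun s i => rfl)
    (fun s hs i => ?_) hf
  · rw [one_div_div] at key
    refine le_trans (setLIntegral_mono' measurableSet_Ioo fun s hs => ?_) key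
    obtain ⟨h1, h2, h3⟩ := hpos s hs
    have e : (WithLp.toLp 2 fun i => (Pn i).eval s / Q.eval s : R3) = eta (R s) v x0 (s - s') y := by
      ext i
      have h2' : 1 + s * b 0 ≠ 0 := by linarith
      have h3' : 1 + s * b 1 ≠ 0 := by linarith
      fin_cases i <;> simp [Pn, Q, eta, hR2, hR, ← hY0, ← hY1] <;> field_simp <;> ring
    simp only [e]
    refine mul_le_mul_right (pint_mono _ _ fun ξ => ?_) _
    split_ifs with h4 h5
    · exact le_rfl
    · refine absurd ?_ h5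
      rw [real_inner_smul_left, abs_mul, abs_of_pos (inv_pos.2 h1), div_eq_inv_mul]
      exact mul_le_mul (inv_anti₀ h1 (by linarith [hs.2])) h4 hδ.le (by positivity)
    · exact zero_le
    · exact le_rfl
  · obtain ⟨h1, h2, h3⟩ := hpos s hs
    have h2' : 1 + s * b 0 ≠ 0 := by linarith
    have h3' : 1 + s * b 1 ≠ 0 := by linarith
    rw [(((Pn i).hasDerivAt s).fun_div (Q.hasDerivAt s) (hQ s hs)).deriv]
    fin_cases i <;> simp [Pn, Q, eta, evec, hR2, hR, hb2, ← hY0, ← hY1] <;> field_simp <;> ring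

end MainFX

open Classical in
theorem main_fixed : ∃ C : ℝ≥0, ∀ (b : Fin 3 → ℝ) (c : R3), (∀ i, 0 ≤ b i) → b 2 = 0 →
    ∀ {δv δ κ ρ0 t s' : ℝ}, 0 < δv → δv / 2 ≤ |c 2| → 0 < δ → 0 < κ → 0 ≤ s' → ∀ (x0 v : R3) (R : ℝ → R3),
    (∀ s i, R s i = c i / (1 + b i * s)) → ∀ {g φ : R3 → R3 → ℝ≥0∞} {ρ : ℝ≥0∞}, Meas2 g → Meas2 φ → SameInv g →
    SameInv φ → (∀ y, ∫⁻ a, g y a ≤ ρ) →
    ∫⁻ s in Ioo (s' + κ) t, invn (R s) * pint (R s) v (fun η =>
      if nrm (x0 + (s - s') • (v - η)) ≤ ρ0 then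
        ∫⁻ a', g (x0 + (s - s') • (v - η)) a' * (invn (η - a') * pint (η - a') η (fun ξ =>
          if δ ≤ |inner ℝ (evec b s (s - s') v (R s) η) ((2 : ℝ) • η - a' - ξ)|
          then φ (x0 + (s - s') • (v - η)) ξ else 0))
      else 0) ≤
    C * ENNReal.ofReal (t / (δ * δv * κ ^ 2)) * ρ *
      ∫⁻ y in Metric.closedBall (0 : ℝ × ℝ) ρ0, ∫⁻ ξ, φ (lift y) ξ := by
  obtain ⟨C, hC⟩ := MainFX.line
  refine ⟨2 * C, fun b c hb hb2 δv δ κ ρ0 t s' hδv hc hδ hκ hs' x0 v R hR g φ ρ hg hφ sg sφ hρ => ?_⟩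
  rcases le_or_gt t 0 with ht | ht
  · rw [Ioo_eq_empty (by linarith : ¬ s' + κ < t)]
    simp
  have hc0 : c 2 ≠ 0 := fun h => by
    rw [h, abs_zero] at hc
    linarith
  have hR2 : ∀ s, R s 2 = c 2 := fun s => by simp [hR, hb2]
  have hRm : Measurable R := by
    have : R = fun s => WithLp.toLp 2 fun i => c i / (1 + b i * s) := by
      funext s
      ext i
      exact hR s i
    rw [this]
    exact (WithLp.measurable_toLp _ _).comp (measurable_pi_lambda _ fun i => by fun_prop)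
  have hl := measurable_lift
  let J : ℝ → ℝ × ℝ → R3 → ℝ≥0∞ := fun s y a => invn (MainFX.eta (R s) v x0 (s - s') y - a) *
    pint (MainFX.eta (R s) v x0 (s - s') y - a) (MainFX.eta (R s) v x0 (s - s') y) (fun ξ =>
      if δ ≤ |inner ℝ (evec b s (s - s') v (R s) (MainFX.eta (R s) v x0 (s - s') y))
        ((2 : ℝ) • MainFX.eta (R s) v x0 (s - s') y - a - ξ)| then φ (lift y) ξ else 0)
  have hη : Measurable fun p : (ℝ × ℝ × ℝ) × R3 => MainFX.eta (R p.1.1) v x0 (p.1.1 - s') p.1.2 :=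
    MainFX.meas_eta (by fun_prop) v x0 (by fun_prop) (by fun_prop)
  have hJ : Measurable fun p : (ℝ × ℝ × ℝ) × R3 => J p.1.1 p.1.2 p.2 :=
    MainFX.meas_ker δ ((measurable_evec b).comp (f := fun p : (ℝ × ℝ × ℝ) × R3 =>
      (p.1.1, p.1.1 - s', v, R p.1.1, MainFX.eta (R p.1.1) v x0 (p.1.1 - s') p.1.2)) (by fun_prop)) hη measurable_snd
      (f := fun p ξ => φ (lift p.1.2) ξ) (hφ.comp (by fun_prop) measurable_snd)
  have hgJ : Measurable fun p : (ℝ × ℝ × ℝ) × R3 => g (lift p.1.2) p.2 * J p.1.1 p.1.2 p.2 :=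
    (hg.comp (by fun_prop) measurable_snd).mul hJ
  have hI : Measurable fun q : ℝ × ℝ × ℝ => ∫⁻ a, g (lift q.2) a * J q.1 q.2 a := hgJ.lintegral_prod_right'
  calc _ ≤ ∫⁻ s in Ioo (s' + κ) t, ENNReal.ofReal (2 / (δv * κ ^ 2)) *
        ∫⁻ y in Metric.closedBall (0 : ℝ × ℝ) ρ0, ∫⁻ a, g (lift y) a * J s y a := by
        refine setLIntegral_mono' measurableSet_Ioo fun s hs => ?_
        have h1 : κ < s - s' := by linarith [hs.1]
        have h2 : s - s' ≠ 0 := by linarith
        rw [MainFX.graph_sub (by rw [hR2]; exact hc0) v x0 h2, hR2]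
        · refine mul_le_mul' (ENNReal.ofReal_le_ofReal ?_) (le_of_eq ?_)
          · rw [div_le_div_iff₀ (by positivity) (by positivity)]
            have h3 : κ ^ 2 ≤ (s - s') ^ 2 := by gcongr
            nlinarith [mul_le_mul hc h3 (by positivity) (abs_nonneg _)]
          · rw [← lintegral_indicator Metric.isClosed_closedBall.measurableSet]
            refine lintegral_congr fun y => ?_
            have h3 := MainFX.same_eta (R s) v x0 h2 y
            simp only [indicator, h3.nrm_eq, sg _ _ h3, sφ _ _ h3, nrm_lift, mem_closedBall_zero_iff, J]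
        · refine Measurable.ite (measurableSet_le (measurable_nrm.comp (by fun_prop)) measurable_const) ?_
            measurable_const
          refine Measurable.lintegral_prod_right' (f := fun p : R3 × R3 => g (x0 + (s - s') • (v - p.1)) p.2 *
            (invn (p.1 - p.2) * pint (p.1 - p.2) p.1 (fun ξ =>
              if δ ≤ |inner ℝ (evec b s (s - s') v (R s) p.1) ((2 : ℝ) • p.1 - p.2 - ξ)|
              then φ (x0 + (s - s') • (v - p.1)) ξ else 0))) ((hg.comp (by fun_prop) measurable_snd).mul ?_)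
          exact MainFX.meas_ker δ ((measurable_evec b).comp (f := fun p : R3 × R3 => (s, s - s', v, R s, p.1))
            (by fun_prop)) measurable_fst measurable_snd (f := fun p ξ => φ (x0 + (s - s') • (v - p.1)) ξ)
            (hφ.comp (by fun_prop) measurable_snd)
    _ = ENNReal.ofReal (2 / (δv * κ ^ 2)) * ∫⁻ y in Metric.closedBall (0 : ℝ × ℝ) ρ0,
        ∫⁻ a, g (lift y) a * ∫⁻ s in Ioo (s' + κ) t, J s y a := by
        rw [lintegral_const_mul' _ _ ENNReal.ofReal_ne_top,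
          lintegral_lintegral_swap (f := fun s y => ∫⁻ a, g (lift y) a * J s y a) hI.aemeasurable]
        congr 1
        refine lintegral_congr fun y => ?_
        rw [lintegral_lintegral_swap (f := fun s a => g (lift y) a * J s y a)
          (hgJ.comp (f := fun p : ℝ × R3 => ((p.1, y), p.2)) (by fun_prop)).aemeasurable]
        exact lintegral_congr fun a => lintegral_const_mul _ (hJ.comp (f := fun s : ℝ => ((s, y), a)) (by fun_prop))
    _ ≤ ENNReal.ofReal (2 / (δv * κ ^ 2)) * ∫⁻ y in Metric.closedBall (0 : ℝ × ℝ) ρ0,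
        (C * ENNReal.ofReal (t / δ) * ρ) * ∫⁻ ξ, φ (lift y) ξ := by
        refine mul_le_mul_right (lintegral_mono fun y => ?_) _
        refine (lintegral_mono fun a => mul_le_mul_right
          (hC b c hb hb2 hc0 hδ hκ hs' ht x0 v R hR y a (hφ.vel (lift y))) _).trans ?_
        rw [lintegral_mul_const _ (hg.vel _)]
        exact (mul_le_mul_left (hρ _) _).trans_eq (by ring)
    _ = _ := by
        have hm : Measurable fun y : ℝ × ℝ => ∫⁻ ξ, φ (lift y) ξ :=
          Measurable.lintegral_prod_right' (f := fun p : (ℝ × ℝ) × R3 => φ (lift p.1) p.2)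
            (hφ.comp (by fun_prop) measurable_snd)
        have e : ENNReal.ofReal (2 / (δv * κ ^ 2)) * ENNReal.ofReal (t / δ) =
            2 * ENNReal.ofReal (t / (δ * δv * κ ^ 2)) := by
          rw [← ENNReal.ofReal_mul (by positivity), ← ENNReal.ofReal_ofNat, ← ENNReal.ofReal_mul (by positivity)]
          congr 1
          field_simp
        rw [lintegral_const_mul _ hm, ENNReal.coe_mul, ENNReal.coe_ofNat, mul_right_comm (2 : ℝ≥0∞), ← e]
        ring

end Crest.Agent.R68
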