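import Crest.Agent.R68.Lev
import Crest.Agent.R68.Tilt
import Crest.Agent.R68.Qsmall

/-! The early majorant `G P ⊤ t + K W Λ` on `[0,t1]`, `t1 ≤ 1`.  `ent_add`, `ent_sum` with `Gl_sup` give `𝓜 lp 𝓜 ≤ C (Σ (n+1) Gl n + W Λ^{3/2} + W Λ)`; `PB_Lam`, `PB_weight`, `moment_of_PB`; `Gl_mass`, `G_supp`.
For `m2`: `ν(𝓜 pw k)(v) ≤ C (1+‖v‖)(ρ_G(t,x) + 1)` with `ρ_G = ∫ G`; where `Gl n ≠ 0`, `ρ_G ≤ 2cc/X n t` (`Gl_dens`) and `∫_0^1 dt/X n t ≤ log(1 + kap/rr n)/kap ≤ C (n+1)` (or `≤ C/√(rr n)` times…: any summable bound against `rr n (n+1)` will do, e.g. `1/X ≤ 1/√(rr n · kap t)`);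
`∫_cell ρ_G ≤ Σ C rr n`. -/

set_option autoImplicit false

open MeasureTheory Set Filter Topology Crest.AnalysisR.VecCalc3 Crest.AnalysisR.PDE.Boltzmann
open scoped ENNReal NNReal

namespace Crest.Agent.R68

namespace MajE

noncomputable section

def E (P : Par) : Den := fun t x v => ∑' n : ℕ, ((n : ℝ≥0∞) + 1) * Gl P n t x v
def Z (P : Par) : Den := fun t x v => W (1 / 2) v * Lam P t x v ^ (3 / 2 : ℝ)
def rho (P : Par) (t : ℝ) (x : R3) : ℝ≥0∞ := ∫⁻ a, G P ⊤ t x a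

theorem measD_E (P : Par) : MeasD (E P) := Measurable.tsum fun n => (measD_Gl P n).const_mul _
theorem measD_Z (P : Par) : MeasD (Z P) :=
  ((measurable_W _).comp measurable_snd.snd).mul ((measD_Lam (P := P)).pow_const _)
theorem meas_rho (P : Par) : Measurable (fun z : ℝ × R3 => rho P z.1 z.2) :=
  Measurable.lintegral_prod_right' (f := fun z : (ℝ × R3) × R3 => G P ⊤ z.1.1 z.1.2 z.2)
    ((measD_G ⊤).comp measurable_fst.fst measurable_fst.snd measurable_snd)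

theorem G_le_E (P : Par) (t : ℝ) (x v : R3) : G P ⊤ t x v ≤ E P t x v := by
  rw [G_eq_tsum]
  exact ENNReal.tsum_le_tsum fun n => le_mul_of_one_le_left' le_add_self

theorem one_le_pw (k : ℕ) (v : R3) : 1 ≤ pw k v :=
  ENNReal.one_le_ofReal.2 (one_le_pow₀ (by linarith [norm_nonneg v]))

theorem pw_succ (k : ℕ) (v : R3) : pw k v * pw 1 v = pw (k + 1) v := by
  unfold pw
  rw [← ENNReal.ofReal_mul (by positivity), pow_one, pow_succ]

theorem W_le_one (v : R3) : W (1 / 2) v ≤ 1 :=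
  ENNReal.ofReal_le_one.2 (Real.exp_le_one_iff.2 (by have := norm_nonneg v; linarith))

theorem WL_le_Z (P : Par) (t : ℝ) (x v : R3) : W (1 / 2) v * Lam P t x v ≤ Z P t x v := by
  refine mul_le_mul' le_rfl ?_
  calc _ = Lam P t x v ^ (1 : ℝ) := (ENNReal.rpow_one _).symm
    _ ≤ _ := ENNReal.rpow_le_rpow_of_exponent_le (one_le_Lam t x v) (by norm_num)

theorem E_pw {P : Par} (hP : P.Ok) (k : ℕ) {t : ℝ} (ht : t ∈ Icc (0 : ℝ) 1) (x v : R3) :
    E P t x v * pw k v ≤ 3 ^ k * E P t x v := by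
  by_cases h : G P ⊤ t x v = 0
  · have : E P t x v = 0 := by
      refine ENNReal.tsum_eq_zero.2 fun n => ?_
      have h1 : Gl P n t x v = 0 := le_antisymm ((Gl_le_G P n t x v).trans h.le) zero_le
      rw [h1, mul_zero]
    simp [this]
  · rw [mul_comm]
    refine mul_le_mul' ?_ le_rfl
    have := (G_supp hP ht h).1
    unfold pw
    rw [← ENNReal.ofReal_ofNat 3, ← ENNReal.ofReal_pow (by norm_num)]
    exact ENNReal.ofReal_le_ofReal (by gcongr; linarith)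

theorem pt {P : Par} (hP : P.Ok) (K : ℝ≥0) : ∃ c : ℝ≥0∞, c < ⊤ ∧ ∀ t ∈ Icc (0 : ℝ) 1, ∀ x v,
    (G P ⊤ t x v + K * (W (1 / 2) v * Lam P t x v)) *
      (1 + lp (G P ⊤ t x v + K * (W (1 / 2) v * Lam P t x v))) ≤ c * (E P t x v + Z P t x v) := by
  obtain ⟨A, hA1, hA⟩ := Gl_sup hP
  refine ⟨3 + 4 * (lp A + 2) + K * (3 + 2 * (lp K + 2)), ?_, fun t ht x v => ?_⟩
  · have h1 := Lev.lp_ne_top A
    have h2 := Lev.lp_ne_top K
    finiteness
  set g := G P ⊤ t x v with hg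
  set H := K * (W (1 / 2) v * Lam P t x v) with hH
  have h1 : g * lp g ≤ 2 * ((lp A + 2) * E P t x v) := by
    rw [hg, G_eq_tsum]
    refine (ent_sum _).trans (mul_le_mul' le_rfl ?_)
    unfold E
    rw [← ENNReal.tsum_mul_left]
    refine ENNReal.tsum_le_tsum fun n => ?_
    have h2 : lp (Gl P n t x v) ≤ ((n : ℝ≥0∞) + 1) * lp A := by
      refine (lp_mono (hA n t ht x v) (ENNReal.pow_ne_top ENNReal.coe_ne_top)).trans ?_
      rw [lp_pow]; push_cast; exact le_rfl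
    calc _ ≤ Gl P n t x v * (((n : ℝ≥0∞) + 1) * lp A + ((n + 2) + n)) :=
          mul_le_mul' le_rfl (add_le_add h2 le_self_add)
      _ = _ := by ring
  have h2 : H * lp H ≤ K * (lp K + 2) * Z P t x v := by
    have h3 : lp H ≤ lp K + 2 * Lam P t x v ^ (1 / 2 : ℝ) := by
      refine (lp_mul _ _).trans (add_le_add le_rfl ((lp_mul _ _).trans ?_))
      have : lp (W (1 / 2) v) = 0 :=
        le_antisymm ((lp_mono (W_le_one v) ENNReal.one_ne_top).trans (by simp [lp])) zero_le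
      rw [this, zero_add]
      exact lp_le_sqrt _
    have h4 : Lam P t x v * Lam P t x v ^ (1 / 2 : ℝ) = Lam P t x v ^ (3 / 2 : ℝ) := by
      rw [show (3 / 2 : ℝ) = 1 + 1 / 2 by norm_num, ENNReal.rpow_add_of_nonneg _ _ (by norm_num) (by norm_num),
        ENNReal.rpow_one]
    calc _ ≤ H * (lp K + 2 * Lam P t x v ^ (1 / 2 : ℝ)) := mul_le_mul' le_rfl h3
      _ = K * lp K * (W (1 / 2) v * Lam P t x v) +
          K * 2 * (W (1 / 2) v * (Lam P t x v * Lam P t x v ^ (1 / 2 : ℝ))) := by rw [hH]; ring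
      _ ≤ K * lp K * Z P t x v + K * 2 * Z P t x v := by
          rw [h4]
          exact add_le_add (mul_le_mul' le_rfl (WL_le_Z P t x v)) le_rfl
      _ = _ := by ring
  have h3 : g ≤ E P t x v := G_le_E P t x v
  have h4 : H ≤ K * Z P t x v := mul_le_mul' le_rfl (WL_le_Z P t x v)
  calc _ = g + H + (g + H) * lp (g + H) := by ring
    _ ≤ g + H + 2 * (g * (1 + lp g) + H * (1 + lp H)) := add_le_add le_rfl (ent_add g H)
    _ = 3 * g + 2 * (g * lp g) + (3 * H + 2 * (H * lp H)) := by ring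
    _ ≤ 3 * E P t x v + 2 * (2 * ((lp A + 2) * E P t x v)) +
        (3 * (K * Z P t x v) + 2 * (K * (lp K + 2) * Z P t x v)) := by gcongr
    _ = (3 + 4 * (lp A + 2)) * E P t x v + K * (3 + 2 * (lp K + 2)) * Z P t x v := by ring
    _ ≤ _ := by
        rw [mul_add (_ + _ * _) (E P t x v)]
        exact add_le_add (mul_le_mul' le_self_add le_rfl) (mul_le_mul' le_add_self le_rfl)

theorem Z_mom {P : Par} (hP : P.Ok) (k : ℕ) : ∃ C : ℝ≥0∞, C < ⊤ ∧ ∀ t ∈ Icc (0 : ℝ) 1, ∀ x,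
    ∫⁻ v, Z P t x v * pw k v ≤ C := by
  obtain ⟨C1, h1⟩ := PB_Lam
  obtain ⟨C2, h2⟩ := moment_of_PB (lam := 1 / 2) (by norm_num) k
  refine ⟨C2 * (ENNReal.ofReal (Real.exp (2 * (1 / 2))) * C1), by finiteness, fun t ht x => ?_⟩
  refine h2 ((measD_Z P).vel t x) ?_
  have := PB_weight (lam := 1 / 2) (by norm_num) (((measD_Lam (P := P)).vel t x).pow_const _) (h1 hP ht x)
    (Slow_const (1 / 2) (by norm_num) 1)
  simp only [one_mul] at this
  exact this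

theorem sum_fin : ∑' n : ℕ, ((n : ℝ≥0∞) + 1) * ENNReal.ofReal ((1 / 2) ^ n) < ⊤ := by
  have h1 : Summable fun n : ℕ => (n : ℝ) ^ 1 * (1 / 2 : ℝ) ^ n + (1 / 2) ^ n :=
    (summable_pow_mul_geometric_of_norm_lt_one 1 (by norm_num)).add summable_geometric_two
  refine lt_of_eq_of_lt (tsum_congr fun n => ?_) h1.tsum_ofReal_lt_top
  rw [pow_one, ← add_one_mul, ENNReal.ofReal_mul (by positivity), ENNReal.ofReal_add (by positivity) (by norm_num)]
  simp

theorem sqrt_rr {P : Par} (hP : P.Ok) (n : ℕ) : Real.sqrt (P.rr n) ≤ (1 / 2) ^ n := by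
  rw [Real.sqrt_le_iff]
  refine ⟨by positivity, ?_⟩
  unfold Par.rr
  rw [← pow_mul, mul_comm, pow_mul, div_eq_mul_inv, ← inv_pow]
  have h1 : P.r ≤ 1 := hP.r1.trans (by norm_num)
  calc _ ≤ 1 * (4⁻¹ : ℝ) ^ n := by gcongr
    _ = _ := by norm_num

theorem rr_le_half {P : Par} (hP : P.Ok) (n : ℕ) : P.rr n ≤ (1 / 2) ^ n := by
  refine le_trans ?_ (sqrt_rr hP n)
  have h1 := rr_pos hP n
  have h2 : P.rr n ≤ 1 := (rr_le hP n).trans (hP.r1.trans (by norm_num))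
  rw [Real.le_sqrt h1.le h1.le]
  nlinarith

theorem E_int {P : Par} (t : ℝ) {Φ : R3 × R3 → ℝ≥0∞} {b : ℕ → ℝ≥0∞}
    (h : ∀ n q, Gl P n t q.1 q.2 ≠ 0 → Φ q ≤ b n) :
    ∫⁻ q in cell ×ˢ (univ : Set R3), E P t q.1 q.2 * Φ q ≤
      ∑' n : ℕ, ((n : ℝ≥0∞) + 1) * ((∫⁻ q in cell ×ˢ (univ : Set R3), Gl P n t q.1 q.2) * b n) := by
  have hm : ∀ n, Measurable fun q : R3 × R3 => Gl P n t q.1 q.2 := fun n => (measD_Gl P n).slice t
  calc _ ≤ ∫⁻ q in cell ×ˢ (univ : Set R3), ∑' n : ℕ, ((n : ℝ≥0∞) + 1) * (Gl P n t q.1 q.2 * b n) := by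
        refine lintegral_mono fun q => ?_
        unfold E
        rw [← ENNReal.tsum_mul_right]
        refine ENNReal.tsum_le_tsum fun n => ?_
        rw [mul_assoc]
        by_cases h0 : Gl P n t q.1 q.2 = 0
        · simp [h0]
        · exact mul_le_mul' le_rfl (mul_le_mul' le_rfl (h n q h0))
    _ = _ := by
        rw [lintegral_tsum fun n => (((hm n).mul_const _).const_mul _).aemeasurable]
        refine tsum_congr fun n => ?_
        rw [lintegral_const_mul _ ((hm n).mul_const _), lintegral_mul_const _ (hm n)]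

theorem E_mass {P : Par} (hP : P.Ok) : ∃ C : ℝ≥0∞, C < ⊤ ∧ ∀ t ∈ Icc (0 : ℝ) 1,
    ∫⁻ q in cell ×ˢ (univ : Set R3), E P t q.1 q.2 ≤ C := by
  obtain ⟨C, hC⟩ := Gl_mass
  refine ⟨C * ∑' n : ℕ, ((n : ℝ≥0∞) + 1) * ENNReal.ofReal ((1 / 2) ^ n),
    ENNReal.mul_lt_top ENNReal.coe_lt_top sum_fin, fun t ht => ?_⟩
  have := E_int (P := P) t (Φ := fun _ => 1) (b := fun _ => 1) (fun _ _ _ => le_rfl)
  simp only [mul_one] at this
  refine this.trans ?_
  rw [← ENNReal.tsum_mul_left]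
  refine ENNReal.tsum_le_tsum fun n => ?_
  calc _ ≤ ((n : ℝ≥0∞) + 1) * (C * ENNReal.ofReal ((1 / 2) ^ n)) :=
        mul_le_mul' le_rfl ((hC hP n t ht).trans
          (mul_le_mul' le_rfl (ENNReal.ofReal_le_ofReal (rr_le_half hP n))))
    _ = _ := by ring

theorem E_rho {P : Par} (hP : P.Ok) : ∃ C : ℝ≥0∞, C < ⊤ ∧ ∀ t ∈ Ioo (0 : ℝ) 1,
    ∫⁻ q in cell ×ˢ (univ : Set R3), E P t q.1 q.2 * rho P t q.1 ≤
      C * ENNReal.ofReal (t ^ (-(1 / 2) : ℝ)) := by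
  obtain ⟨C, hC⟩ := Gl_mass
  refine ⟨C * ENNReal.ofReal (cc / Real.sqrt kap) *
      ∑' n : ℕ, ((n : ℝ≥0∞) + 1) * ENNReal.ofReal ((1 / 2) ^ n),
    ENNReal.mul_lt_top (by finiteness) sum_fin, fun t ht => ?_⟩
  have ht' := Ioo_subset_Icc_self ht
  refine (E_int t (b := fun n => ENNReal.ofReal (2 * cc / P.X n t))
    (fun n q h => Gl_dens hP ht' h)).trans ?_
  rw [← ENNReal.tsum_mul_left, ← ENNReal.tsum_mul_right]
  refine ENNReal.tsum_le_tsum fun n => ?_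
  have hr := rr_pos hP n
  have hc := Lev.cc_pos
  have hk : 0 < kap := by unfold kap; norm_num
  have h1 : P.rr n * (2 * cc / P.X n t) ≤ (1 / 2) ^ n * (cc / Real.sqrt kap * t ^ (-(1 / 2) : ℝ)) := by
    rw [Real.rpow_neg ht.1.le, ← Real.sqrt_eq_rpow]
    set a := Real.sqrt (P.rr n) with ha
    set b := Real.sqrt kap with hb
    set c := Real.sqrt t with hc'
    have ha0 : 0 < a := Real.sqrt_pos.2 hr
    have hb0 : 0 < b := Real.sqrt_pos.2 hk
    have hc0 : 0 < c := Real.sqrt_pos.2 ht.1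
    have ha2 : P.rr n = a ^ 2 := (Real.sq_sqrt hr.le).symm
    have hb2 : kap = b ^ 2 := (Real.sq_sqrt hk.le).symm
    have hc2 : t = c ^ 2 := (Real.sq_sqrt ht.1.le).symm
    have h2 : 2 * (a * (b * c)) ≤ P.X n t := by
      unfold Par.X
      have h3 := mul_pos (et_pos hP n) ht.1
      have h4 : kap * t = (b * c) ^ 2 := by rw [mul_pow, ← hb2, ← hc2]
      nlinarith [sq_nonneg (a - b * c)]
    calc _ ≤ P.rr n * (2 * cc / (2 * (a * (b * c)))) := by gcongr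
      _ = a * (cc / b * c⁻¹) := by rw [ha2]; field_simp
      _ ≤ _ := by gcongr; exact sqrt_rr hP n
  calc _ ≤ ((n : ℝ≥0∞) + 1) * (C * ENNReal.ofReal (P.rr n) * ENNReal.ofReal (2 * cc / P.X n t)) :=
        mul_le_mul' le_rfl (mul_le_mul' (hC hP n t ht') le_rfl)
    _ ≤ ((n : ℝ≥0∞) + 1) * (C * (ENNReal.ofReal ((1 / 2) ^ n) *
        (ENNReal.ofReal (cc / Real.sqrt kap) * ENNReal.ofReal (t ^ (-(1 / 2) : ℝ))))) := by
        rw [mul_assoc (C : ℝ≥0∞), ← ENNReal.ofReal_mul hr.le, ← ENNReal.ofReal_mul (by positivity),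
          ← ENNReal.ofReal_mul (by positivity)]
        exact mul_le_mul' le_rfl (mul_le_mul' le_rfl (ENNReal.ofReal_le_ofReal h1))
    _ = _ := by ring

theorem time_fin : ∫⁻ t in Ioo (0 : ℝ) 1, ENNReal.ofReal (t ^ (-(1 / 2) : ℝ)) < ⊤ := by
  have := (intervalIntegrable_iff_integrableOn_Ioo_of_le zero_le_one).1
    (intervalIntegral.intervalIntegrable_rpow' (a := 0) (b := 1) (r := -(1 / 2)) (by norm_num))
  exact this.lintegral_lt_top

def Psi (P : Par) (k : ℕ) (p : ℝ × R3 × R3) : ℝ≥0∞ :=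
  3 ^ (k + 1) * (E P p.1 p.2.1 p.2.2 * rho P p.1 p.2.1) + 3 ^ (k + 1) * E P p.1 p.2.1 p.2.2 +
    Z P p.1 p.2.1 p.2.2 * pw (k + 1) p.2.2 * (rho P p.1 p.2.1 + 1)

theorem meas_Psi (P : Par) (k : ℕ) : Measurable (Psi P k) := by
  have mρ : Measurable fun p : ℝ × R3 × R3 => rho P p.1 p.2.1 :=
    (meas_rho P).comp (f := fun p : ℝ × R3 × R3 => (p.1, p.2.1)) (by fun_prop)
  have mE : Measurable fun p : ℝ × R3 × R3 => E P p.1 p.2.1 p.2.2 := measD_E P
  have mZ : Measurable fun p : ℝ × R3 × R3 => Z P p.1 p.2.1 p.2.2 * pw (k + 1) p.2.2 :=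
    (measD_Z P).mul ((measurable_pw _).comp measurable_snd.snd)
  exact (((mE.mul mρ).const_mul _).add (mE.const_mul _)).add (mZ.mul (mρ.add_const 1))

theorem nu_le {P : Par} (hP : P.Ok) (K : ℝ≥0) (k : ℕ) {C2 : ℝ≥0∞} {t : ℝ} (ht : t ∈ Icc (0 : ℝ) 1) (x v : R3)
    (h3 : ∫⁻ v, Z P t x v * pw (k + 1) v ≤ C2) :
    nu (fun vs => (G P ⊤ t x vs + K * (W (1 / 2) vs * Lam P t x vs)) * pw k vs) v ≤
      7 * pw 1 v * ((3 ^ (k + 1) + K * C2) * (rho P t x + 1)) := by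
  refine (nu_le_pw _ v).trans (mul_le_mul' (by rw [pw, pow_one]) ?_)
  calc _ ≤ ∫⁻ a, 3 ^ (k + 1) * G P ⊤ t x a + K * (Z P t x a * pw (k + 1) a) := by
        refine lintegral_mono fun a => ?_
        rw [mul_assoc, pw_succ, add_mul, mul_assoc (K : ℝ≥0∞)]
        refine add_le_add ?_ (mul_le_mul' le_rfl (mul_le_mul' (WL_le_Z P t x a) le_rfl))
        by_cases h0 : G P ⊤ t x a = 0
        · simp [h0]
        · rw [mul_comm]
          refine mul_le_mul' ?_ le_rfl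
          have := (G_supp hP ht h0).1
          unfold pw
          rw [← ENNReal.ofReal_ofNat 3, ← ENNReal.ofReal_pow (by norm_num)]
          exact ENNReal.ofReal_le_ofReal (by gcongr; linarith)
    _ ≤ 3 ^ (k + 1) * rho P t x + K * C2 * 1 := by
        rw [lintegral_add_left (((measD_G ⊤).vel t x).const_mul _),
          lintegral_const_mul' _ _ (by finiteness), lintegral_const_mul' _ _ ENNReal.coe_ne_top, mul_one]
        exact add_le_add le_rfl (mul_le_mul' le_rfl h3)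
    _ ≤ _ := by
        rw [mul_add]
        exact add_le_add (mul_le_mul' le_self_add le_rfl) (mul_le_mul' le_add_self le_rfl)

theorem Psi_slice {P : Par} (k : ℕ) {C1 C2 C3 : ℝ≥0∞} (hC2 : C2 < ⊤) {t : ℝ}
    (h2 : ∫⁻ q in cell ×ˢ (univ : Set R3), E P t q.1 q.2 ≤ C1)
    (h3 : ∀ x, ∫⁻ v, Z P t x v * pw (k + 1) v ≤ C2)
    (h4 : ∫⁻ q in cell ×ˢ (univ : Set R3), E P t q.1 q.2 * rho P t q.1 ≤ C3) :
    ∫⁻ q in cell ×ˢ (univ : Set R3), Psi P k (t, q) ≤
      3 ^ (k + 1) * C3 + (3 ^ (k + 1) * C1 + C2 * (C1 + 1)) := by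
  have m1 : Measurable fun q : R3 × R3 => 3 ^ (k + 1) * E P t q.1 q.2 :=
    ((measD_E P).slice t).const_mul _
  have mρ' : Measurable fun x => rho P t x :=
    (meas_rho P).comp (f := fun x : R3 => (t, x)) (by fun_prop)
  have m3 : ∀ x, Measurable fun v => Z P t x v * pw (k + 1) v := fun x =>
    ((measD_Z P).vel t x).mul (measurable_pw _)
  have m2 : Meas2 fun x v => Z P t x v * pw (k + 1) v * (rho P t x + 1) :=
    (((measD_Z P).slice t).mul ((measurable_pw _).comp measurable_snd)).mul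
      ((mρ'.comp measurable_fst).add_const 1)
  simp only [Psi]
  rw [lintegral_add_right _ m2, lintegral_add_right _ m1, lintegral_const_mul' _ _ (by finiteness),
    lintegral_const_mul' _ _ (by finiteness), Lev.lint_cell m2, add_assoc]
  refine add_le_add (mul_le_mul' le_rfl h4) (add_le_add (mul_le_mul' le_rfl h2) ?_)
  calc _ ≤ ∫⁻ x in cell, C2 * (rho P t x + 1) := by
        refine lintegral_mono fun x => ?_
        rw [lintegral_mul_const _ (m3 x)]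
        exact mul_le_mul' (h3 x) le_rfl
    _ ≤ _ := by
        rw [lintegral_const_mul' _ _ hC2.ne, lintegral_add_right _ measurable_const, setLIntegral_const,
          volume_cell, mul_one]
        refine mul_le_mul' le_rfl (add_le_add (le_trans ?_ h2) le_rfl)
        rw [Lev.lint_cell ((measD_E P).slice t)]
        exact lintegral_mono fun x => lintegral_mono fun v => G_le_E P t x v

theorem Psi_fin {P : Par} (hP : P.Ok) (k : ℕ) :
    ∫⁻ p in Ioo (0 : ℝ) 1 ×ˢ (cell ×ˢ (univ : Set R3)), Psi P k p < ⊤ := by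
  obtain ⟨C1, hC1, h2⟩ := E_mass hP
  obtain ⟨C2, hC2, h3⟩ := Z_mom hP (k + 1)
  obtain ⟨C3, hC3, h4⟩ := E_rho hP
  rw [Measure.volume_eq_prod, ← Measure.prod_restrict, lintegral_prod _ (meas_Psi P k).aemeasurable]
  refine lt_of_le_of_lt (setLIntegral_mono'
    (g := fun t => 3 ^ (k + 1) * (C3 * ENNReal.ofReal (t ^ (-(1 / 2) : ℝ))) +
    (3 ^ (k + 1) * C1 + C2 * (C1 + 1))) measurableSet_Ioo fun t ht =>
      Psi_slice k hC2 (h2 t (Ioo_subset_Icc_self ht)) (h3 t (Ioo_subset_Icc_self ht)) (h4 t ht)) ?_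
  rw [lintegral_add_right _ measurable_const, lintegral_const_mul' _ _ (by finiteness),
    lintegral_const_mul' _ _ hC3.ne, setLIntegral_const]
  exact ENNReal.add_lt_top.2 ⟨ENNReal.mul_lt_top (by finiteness) (ENNReal.mul_lt_top hC3 time_fin),
    ENNReal.mul_lt_top (by finiteness) measure_Ioo_lt_top⟩

theorem alg {m l p q n c e z b r t : ℝ≥0∞} (h1 : m * l ≤ c * (e + z)) (h2 : n ≤ 7 * q * (b * (r + 1)))
    (h3 : e * (p * q) ≤ t * e) : m * (p * l) * n ≤ c * 7 * b * (t * (e * r) + t * e + z * (p * q) * (r + 1)) := by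
  calc _ = m * l * p * n := by ring
    _ ≤ c * (e + z) * p * (7 * q * (b * (r + 1))) := mul_le_mul' (mul_le_mul' h1 le_rfl) h2
    _ = c * 7 * b * ((e * (p * q) + z * (p * q)) * (r + 1)) := by ring
    _ ≤ c * 7 * b * ((t * e + z * (p * q)) * (r + 1)) := by gcongr
    _ = _ := by ring

end

end MajE

theorem majorE1 {P : Par} (hP : P.Ok) (K : ℝ≥0) : ∃ C : ℝ≥0∞, C < ⊤ ∧ ∀ t ∈ Icc (0 : ℝ) 1,
    ∫⁻ q in cell ×ˢ (univ : Set R3), (G P ⊤ t q.1 q.2 + K * (W (1 / 2) q.2 * Lam P t q.1 q.2)) *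
      (pw 2 q.2 + lp (G P ⊤ t q.1 q.2 + K * (W (1 / 2) q.2 * Lam P t q.1 q.2))) ≤ C := by
  obtain ⟨c, hc, h1⟩ := MajE.pt hP K
  obtain ⟨C1, hC1, h2⟩ := MajE.E_mass hP
  obtain ⟨C2, hC2, h3⟩ := MajE.Z_mom hP 2
  refine ⟨c * (3 ^ 2 * C1 + C2), by finiteness, fun t ht => ?_⟩
  have mZ : Meas2 fun x v => MajE.Z P t x v * pw 2 v :=
    ((MajE.measD_Z P).slice t).mul ((measurable_pw 2).comp measurable_snd)
  calc _ ≤ ∫⁻ q in cell ×ˢ (univ : Set R3), c * (3 ^ 2 * MajE.E P t q.1 q.2 + MajE.Z P t q.1 q.2 * pw 2 q.2) := by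
        refine lintegral_mono fun q => ?_
        calc _ ≤ (G P ⊤ t q.1 q.2 + K * (W (1 / 2) q.2 * Lam P t q.1 q.2)) *
              (1 * pw 2 q.2 + lp (G P ⊤ t q.1 q.2 + K * (W (1 / 2) q.2 * Lam P t q.1 q.2)) * pw 2 q.2) := by
              rw [one_mul]
              exact mul_le_mul' le_rfl (add_le_add le_rfl (le_mul_of_one_le_right' (MajE.one_le_pw 2 _)))
          _ ≤ c * (MajE.E P t q.1 q.2 + MajE.Z P t q.1 q.2) * pw 2 q.2 := by
              rw [← add_mul, ← mul_assoc]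
              exact mul_le_mul' (h1 t ht _ _) le_rfl
          _ ≤ _ := by
              rw [mul_assoc, add_mul]
              exact mul_le_mul' le_rfl (add_le_add (MajE.E_pw hP 2 ht _ _) le_rfl)
    _ ≤ _ := by
        rw [lintegral_const_mul' _ _ hc.ne, lintegral_add_right _ mZ, lintegral_const_mul' _ _ (by norm_num),
          Lev.lint_cell mZ]
        refine mul_le_mul' le_rfl (add_le_add (mul_le_mul' le_rfl (h2 t ht)) ?_)
        refine (lintegral_mono fun x => h3 t ht x).trans ?_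
        rw [setLIntegral_const, volume_cell, mul_one]
theorem majorE2 {P : Par} (hP : P.Ok) (K : ℝ≥0) (k : ℕ) :
    ∫⁻ p in Ioo (0 : ℝ) 1 ×ˢ (cell ×ˢ (univ : Set R3)),
      (G P ⊤ p.1 p.2.1 p.2.2 + K * (W (1 / 2) p.2.2 * Lam P p.1 p.2.1 p.2.2)) *
      (pw k p.2.2 * (1 + lp (G P ⊤ p.1 p.2.1 p.2.2 + K * (W (1 / 2) p.2.2 * Lam P p.1 p.2.1 p.2.2)))) *
      nu (fun vs => (G P ⊤ p.1 p.2.1 vs + K * (W (1 / 2) vs * Lam P p.1 p.2.1 vs)) * pw k vs) p.2.2 < ⊤ := by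
  obtain ⟨c, hc, h1⟩ := MajE.pt hP K
  obtain ⟨C2, hC2, h3⟩ := MajE.Z_mom hP (k + 1)
  have hS : MeasurableSet (Ioo (0 : ℝ) 1 ×ˢ (cell ×ˢ (univ : Set R3))) :=
    measurableSet_Ioo.prod (measurableSet_cell.prod MeasurableSet.univ)
  refine lt_of_le_of_lt (setLIntegral_mono'
    (g := fun p => c * 7 * (3 ^ (k + 1) + K * C2) * MajE.Psi P k p) hS fun p hp => ?_) ?_
  · have ht := Ioo_subset_Icc_self hp.1
    have := MajE.alg (p := pw k p.2.2) (h1 _ ht p.2.1 p.2.2) (MajE.nu_le hP K k ht p.2.1 p.2.2 (h3 _ ht _))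
      (by rw [MajE.pw_succ]; exact MajE.E_pw hP _ ht _ _)
    rw [MajE.pw_succ] at this
    exact this
  rw [lintegral_const_mul' _ _ (by finiteness)]
  exact ENNReal.mul_lt_top (by finiteness) (MajE.Psi_fin hP k)

end Crest.Agent.R68
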