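import Crest.Agent.R68.Lev
import Crest.Agent.R68.LateBeam
import Crest.Agent.R68.Lam2PB
import Crest.Agent.R68.MajorE

/-! The late majorant on `[t1,T]`.  Moments: `∫ 𝓜 pw k dv ≤ C(T,k)` uniformly in `(t,x)` (`LateIn.dens`, `supp`, `late_PB`, `moment_of_PB`; `Eb, Eb'` are bounded below on `[t1,T]`).  Entropy: `ent_add` twice;
for `g♯` use `lintegral_shear` and `majorE1`; for `Ds = Σ_{n,l} f n l`, `f n l = ∫ Qp g_n♯ g_l♯` (`Qp_tsum`) use `ent_sum2` (and `lp_mul` for the factor `K`),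
`f n l ≤ T C A^{n+l+2}`, and `Σ (n+l+2) f n l = 2 ∫ Qp E♯ g♯` whose mass is at most `C T ρ̄ mass(E)`.  For `W Λ₂`: `lp_le_sqrt`. -/

set_option autoImplicit false

open MeasureTheory Set Filter Topology Crest.AnalysisR.VecCalc3 Crest.AnalysisR.PDE.Boltzmann
open scoped ENNReal NNReal

namespace Crest.Agent.R68

namespace MajL

noncomputable section

/-- bilinear version of `Ds` -/
def DD2 (t1 : ℝ) (u w : R3 → R3 → ℝ≥0∞) : Den := fun t x v =>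
  ∫⁻ s in Ioo t1 t, Qp (tr t1 u s (x - (t - s) • v)) (tr t1 w s (x - (t - s) • v)) v

theorem pw_le {k : ℕ} {v : R3} (h : ‖v‖ ≤ 5) : pw k v ≤ 6 ^ k := by
  unfold pw
  rw [← ENNReal.ofReal_ofNat 6, ← ENNReal.ofReal_pow (by norm_num)]
  exact ENNReal.ofReal_le_ofReal (by have := norm_nonneg v; gcongr; linarith)

theorem mul_pw_le {k : ℕ} {v : R3} {a : ℝ≥0∞} (h : a ≠ 0 → ‖v‖ ≤ 5) (b : ℝ≥0∞) :
    a * (pw k v * b) ≤ 6 ^ k * (a * b) := by
  by_cases ha : a = 0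
  · simp [ha]
  · calc a * (pw k v * b) ≤ a * (6 ^ k * b) := by gcongr; exact pw_le (h ha)
      _ = _ := by ring

theorem DD2_supp {t1 : ℝ} {u w : R3 → R3 → ℝ≥0∞} (hu : ∀ x v, u x v ≠ 0 → ‖v‖ ≤ 3)
    (hw : ∀ x v, w x v ≠ 0 → ‖v‖ ≤ 3) {t : ℝ} {x v : R3} (h : DD2 t1 u w t x v ≠ 0) : ‖v‖ ≤ 5 := by
  by_contra h5
  apply h
  unfold DD2
  have : ∀ s, Qp (tr t1 u s (x - (t - s) • v)) (tr t1 w s (x - (t - s) • v)) v = 0 := fun s => by
    by_contra h0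
    exact h5 (Qp_supp (fun a ha => hu _ a ha) (fun a ha => hw _ a ha) h0)
  simp [this]

theorem meas_in {t1 : ℝ} {u w : R3 → R3 → ℝ≥0∞} (hu : Meas2 u) (hw : Meas2 w) (t : ℝ) (x v : R3) :
    Measurable fun s => Qp (tr t1 u s (x - (t - s) • v)) (tr t1 w s (x - (t - s) • v)) v :=
  meas_Qp (t2_unc (measD_tr t1 hu) measurable_id (by fun_prop))
    (t2_unc (measD_tr t1 hw) measurable_id (by fun_prop)) measurable_const

theorem DD2_tsum {t1 : ℝ} {u : ℕ → R3 → R3 → ℝ≥0∞} (hu : ∀ n, Meas2 (u n)) (c e : ℕ → ℝ≥0∞)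
    (t : ℝ) (x v : R3) :
    DD2 t1 (fun x v => ∑' n, c n * u n x v) (fun x v => ∑' n, e n * u n x v) t x v =
      ∑' n, ∑' l, c n * e l * DD2 t1 (u n) (u l) t x v := by
  unfold DD2
  have hm := fun n l => meas_in (t1 := t1) (hu n) (hu l) t x v
  have e1 : ∀ s, Qp (tr t1 (fun x v => ∑' n, c n * u n x v) s (x - (t - s) • v))
      (tr t1 (fun x v => ∑' n, e n * u n x v) s (x - (t - s) • v)) v =
      ∑' n, ∑' l, c n * e l * Qp (tr t1 (u n) s (x - (t - s) • v)) (tr t1 (u l) s (x - (t - s) • v)) v := by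
    intro s
    have hv : ∀ n, Measurable (tr t1 (u n) s (x - (t - s) • v)) := fun n => (measD_tr t1 (hu n)).vel _ _
    have := Qp_tsum (f := fun n a => c n * tr t1 (u n) s (x - (t - s) • v) a)
      (h := fun l a => e l * tr t1 (u l) s (x - (t - s) • v) a)
      (fun n => (hv n).const_mul _) (fun n => (hv n).const_mul _) v
    refine this.trans (tsum_congr fun n => tsum_congr fun l => ?_)
    exact Qp_cmul (hv n) (hv l) _ _ v
  simp only [e1]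
  rw [lintegral_tsum fun n => (Measurable.tsum fun l => (hm n l).const_mul _).aemeasurable]
  refine tsum_congr fun n => ?_
  rw [lintegral_tsum fun l => ((hm n l).const_mul _).aemeasurable]
  exact tsum_congr fun l => lintegral_const_mul _ (hm n l)

theorem DD2_symm {t1 : ℝ} {u w : R3 → R3 → ℝ≥0∞} (hu : Meas2 u) (hw : Meas2 w) (t : ℝ) (x v : R3) :
    DD2 t1 u w t x v = DD2 t1 w u t x v :=
  lintegral_congr fun _ => Qp_symm ((measD_tr t1 hu).vel _ _) ((measD_tr t1 hw).vel _ _) v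

theorem gain_mass {f h : R3 → ℝ≥0∞} (hf : Measurable f) (hh : Measurable h)
    (sf : ∀ a, f a ≠ 0 → ‖a‖ ≤ 3) (sh : ∀ a, h a ≠ 0 → ‖a‖ ≤ 3) :
    ∫⁻ v, Qp f h v ≤ 48 * ((∫⁻ a, f a) * ∫⁻ b, h b) := by
  have h1 := weak_gain hf hh (φ := fun _ => 1) measurable_const
  simp only [mul_one] at h1
  rw [h1, ← lintegral_mul_const _ hf, ← lintegral_const_mul' _ _ (by norm_num)]
  refine lintegral_mono fun a => ?_
  rw [← lintegral_const_mul _ hh, ← lintegral_const_mul' _ _ (by norm_num)]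
  refine lintegral_mono fun b => ?_
  by_cases ha : f a = 0
  · simp [ha]
  by_cases hb : h b = 0
  · simp [hb]
  rw [sphere_abs_inner, mul_comm]
  refine mul_le_mul' ?_ le_rfl
  rw [← ENNReal.ofReal_ofNat 48]
  refine ENNReal.ofReal_le_ofReal ?_
  have h2 : ‖a - b‖ ≤ 6 := (norm_sub_le _ _).trans (by linarith [sf a ha, sh b hb])
  have := Real.pi_lt_four
  have := Real.pi_pos
  have := norm_nonneg (a - b)
  nlinarith

theorem tr_per {t1 : ℝ} {u : R3 → R3 → ℝ≥0∞} (pu : ∀ v, IsPeriodic3 (fun x => u x v)) (s : ℝ) :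
    IsPeriodic3 (tr t1 u s) := by
  intro x i
  funext a
  have := pu a (x - (s - t1) • a) i
  simp only at this
  unfold tr
  rw [add_sub_right_comm, this]

theorem DD2_mass {t1 : ℝ} {u w : R3 → R3 → ℝ≥0∞} (hu : Meas2 u) (hw : Meas2 w)
    (su : ∀ x v, u x v ≠ 0 → ‖v‖ ≤ 3) (sw : ∀ x v, w x v ≠ 0 → ‖v‖ ≤ 3)
    (pu : ∀ v, IsPeriodic3 (fun x => u x v)) (pw' : ∀ v, IsPeriodic3 (fun x => w x v))
    {t : ℝ} {ρ : ℝ≥0∞} (hρ : ∀ s ∈ Ioo t1 t, ∀ y, ∫⁻ a, tr t1 w s y a ≤ ρ) :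
    ∫⁻ q in cell ×ˢ (univ : Set R3), DD2 t1 u w t q.1 q.2 ≤
      48 * ρ * (∫⁻ q in cell ×ˢ (univ : Set R3), u q.1 q.2) * ENNReal.ofReal (t - t1) := by
  have hΦ : MeasD (fun s y v => Qp (tr t1 u s y) (tr t1 w s y) v) :=
    meas_Qp (t2_unc (measD_tr t1 hu) measurable_fst measurable_snd.fst)
      (t2_unc (measD_tr t1 hw) measurable_fst measurable_snd.fst) measurable_snd.snd
  unfold DD2
  rw [lintegral_lintegral_swap (f := fun (q : R3 × R3) (s : ℝ) =>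
    Qp (tr t1 u s (q.1 - (t - s) • q.2)) (tr t1 w s (q.1 - (t - s) • q.2)) q.2)
    (hΦ.comp measurable_snd (by fun_prop) measurable_fst.snd).aemeasurable]
  calc _ ≤ ∫⁻ _ in Ioo t1 t, 48 * ρ * (∫⁻ q in cell ×ˢ (univ : Set R3), u q.1 q.2) := by
        refine setLIntegral_mono' measurableSet_Ioo fun s hs => ?_
        rw [lintegral_shear (f := fun y v => Qp (tr t1 u s y) (tr t1 w s y) v) (hΦ.slice s)
          (fun v x i => by simp only [tr_per pu s x i, tr_per pw' s x i]) (t - s),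
          Lev.lint_cell (hΦ.slice s), ← lintegral_shear hu pu (s - t1)]
        have e := Lev.lint_cell ((measD_tr t1 hu).slice s)
        have hm : Measurable fun y => ∫⁻ a, tr t1 u s y a :=
          Measurable.lintegral_prod_right' ((measD_tr t1 hu).slice s)
        calc _ ≤ ∫⁻ y in cell, 48 * ρ * ∫⁻ a, tr t1 u s y a := by
              refine lintegral_mono fun y => ?_
              refine (gain_mass ((measD_tr t1 hu).vel s y) ((measD_tr t1 hw).vel s y)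
                (fun a ha => su _ a ha) (fun a ha => sw _ a ha)).trans ?_
              calc _ ≤ 48 * ((∫⁻ a, tr t1 u s y a) * ρ) := by gcongr; exact hρ s hs y
                _ = _ := by ring
          _ = 48 * ρ * ∫⁻ y in cell, ∫⁻ a, tr t1 u s y a := lintegral_const_mul _ hm
          _ = _ := by rw [← e]; rfl
    _ = _ := by rw [setLIntegral_const, Real.volume_Ioo]

theorem DD2_sup : ∃ C : ℝ≥0, ∀ {t1 : ℝ} {u w : R3 → R3 → ℝ≥0∞}, Meas2 u → Meas2 w →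
    (∀ x v, u x v ≠ 0 → ‖v‖ ≤ 3) → (∀ x v, w x v ≠ 0 → ‖v‖ ≤ 3) → ∀ {A B : ℝ≥0∞},
    (∀ x v, u x v ≤ A) → (∀ x v, w x v ≤ B) → ∀ t x v,
    DD2 t1 u w t x v ≤ C * ENNReal.ofReal (t - t1) * (A * B) := by
  obtain ⟨C, hC⟩ := QQ_const (lam := 1 / 2) (by norm_num)
  refine ⟨C * 84 ^ 2, fun {t1 u w} hu hw su sw {A B} hA hB t x v => ?_⟩
  have hPB : ∀ {f : R3 → ℝ≥0∞} {A : ℝ≥0∞}, (∀ a, f a ≠ 0 → ‖a‖ ≤ 3) → (∀ a, f a ≤ A) →
      PB f (fun y => 21 * (4 * A) * ew (1 / 2) y) := fun {f A} sf hf =>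
    PB_supp ((PB_const A).mono hf fun _ _ => le_rfl) fun a ha => (sf a ha).trans (by norm_num)
  unfold DD2
  calc _ ≤ ∫⁻ _ in Ioo t1 t, C * 84 ^ 2 * (A * B) := by
        refine lintegral_mono fun s => ?_
        refine (hC ((measD_tr t1 hu).vel _ _) ((measD_tr t1 hw).vel _ _)
          (hPB (fun a ha => su _ a ha) fun a => hA _ a) (hPB (fun a ha => sw _ a ha) fun a => hB _ a)
          v).trans ?_
        calc _ ≤ C * (21 * (4 * A) * (21 * (4 * B))) * 1 := by gcongr; exact MajE.W_le_one v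
          _ = _ := by ring
    _ = _ := by
        rw [setLIntegral_const, Real.volume_Ioo]
        push_cast
        ring

theorem ent3 (a b c : ℝ≥0∞) : (a + b + c) * lp (a + b + c) ≤
    6 * (a + b + c) + 4 * (a * lp a + b * lp b + c * lp c) := by
  calc _ ≤ 2 * ((a + b) * (1 + lp (a + b)) + c * (1 + lp c)) := ent_add _ _
    _ = 2 * (a + b) + 2 * ((a + b) * lp (a + b)) + 2 * (c * (1 + lp c)) := by ring
    _ ≤ 2 * (a + b) + 2 * (2 * (a * (1 + lp a) + b * (1 + lp b))) + 2 * (c * (1 + lp c)) := by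
        exact add_le_add (add_le_add le_rfl (mul_le_mul' le_rfl (ent_add _ _))) le_rfl
    _ ≤ 2 * (a + b) + 2 * (2 * (a * (1 + lp a) + b * (1 + lp b))) + 2 * (c * (1 + lp c)) +
        (4 * c + 2 * (c * lp c)) := le_self_add
    _ = _ := by ring

variable {P : Par} {t1 : ℝ}

theorem rho_ne (hP : P.Ok) (h0 : 0 < t1) : rhoL P t1 ≠ 0 := by
  have := hP.r0
  have := hP.eta0
  exact (ENNReal.ofReal_pos.2 (by positivity)).ne'

theorem dens_bd (hP : P.Ok) (h0 : 0 < t1) (h1 : t1 ≤ 1) (T : ℝ) : ∃ ρ : ℝ≥0∞, ρ < ⊤ ∧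
    ∀ s ∈ Icc t1 T, ∀ y, ∫⁻ a, tr t1 (G P ⊤ t1) s y a ≤ ρ := by
  obtain ⟨C, hC⟩ := lateIn_G
  refine ⟨C * ENNReal.ofReal ((1 + (T - t1)) ^ 2) * rhoL P t1, by unfold rhoL; finiteness,
    fun s hs y => ((hC hP h0 h1).dens s hs.1 y).trans ?_⟩
  have := hs.1
  have := hs.2
  gcongr

theorem G_supp3 (hP : P.Ok) (h0 : 0 < t1) (h1 : t1 ≤ 1) (x v : R3) (h : G P ⊤ t1 x v ≠ 0) : ‖v‖ ≤ 3 :=
  (G_supp hP ⟨h0.le, h1⟩ h).1.trans (by norm_num)

theorem Ds_mom (hP : P.Ok) (h0 : 0 < t1) (h1 : t1 ≤ 1) (T : ℝ) (k : ℕ) : ∃ C : ℝ≥0∞, C < ⊤ ∧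
    ∀ t ∈ Icc t1 T, ∀ x, ∫⁻ v, Ds t1 (G P ⊤ t1) t x v * pw k v ≤ C := by
  obtain ⟨C, hC⟩ := lateIn_G
  obtain ⟨C', -, hC'⟩ := late_PB C
  obtain ⟨C2, h2⟩ := moment_of_PB (lam := 1 / 2) (by norm_num) k
  have he : Eb' (T - t1) ≠ 0 := (ENNReal.ofReal_pos.2 (Real.exp_pos _)).ne'
  have he' : Eb' (T - t1) ≠ ⊤ := ENNReal.ofReal_ne_top
  refine ⟨(Eb' (T - t1))⁻¹ * (C2 * (C' * rhoL P t1 ^ 2)), ?_, fun t ht x => ?_⟩
  · have := ENNReal.inv_ne_top.2 he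
    unfold rhoL
    finiteness
  have hm : Measurable (Ds t1 (G P ⊤ t1) t x) := (measD_Ds t1 ((measD_G ⊤).slice t1)).vel t x
  have h3 := h2 (hm.const_mul _)
    (hC' (rho_ne hP h0) ENNReal.ofReal_ne_top (hC hP h0 h1) t ht.1 x).2.1
  calc _ = (Eb' (T - t1))⁻¹ * ∫⁻ v, Eb' (T - t1) * Ds t1 (G P ⊤ t1) t x v * pw k v := by
        simp only [mul_assoc]
        rw [lintegral_const_mul' _ _ he', ← mul_assoc,
          ENNReal.inv_mul_cancel he he', one_mul]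
    _ ≤ _ := by
        refine mul_le_mul' le_rfl (le_trans (lintegral_mono fun v => ?_) h3)
        refine mul_le_mul' (mul_le_mul' ?_ le_rfl) le_rfl
        exact ENNReal.ofReal_le_ofReal (Real.exp_le_exp.2 (by linarith [ht.2]))

theorem meas_L2 (P : Par) (t1 : ℝ) : MeasD (Lam2 t1 (rhoL P t1) (G P ⊤ t1) (Lam P t1)) :=
  measD_Lam2 t1 _ ((measD_G ⊤).slice t1) (measD_Lam.slice t1)

theorem Z_mom (hP : P.Ok) (h0 : 0 < t1) (h1 : t1 ≤ 1) (k : ℕ) : ∃ C : ℝ≥0∞, C < ⊤ ∧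
    ∀ t, t1 ≤ t → ∀ x, ∫⁻ v, W (1 / 2) v *
      Lam2 t1 (rhoL P t1) (G P ⊤ t1) (Lam P t1) t x v ^ (3 / 2 : ℝ) * pw k v ≤ C := by
  obtain ⟨C, hC⟩ := lateIn_G
  obtain ⟨C', -, hC'⟩ := late_PB C
  obtain ⟨C2, h2⟩ := moment_of_PB (lam := 1 / 2) (by norm_num) k
  refine ⟨C2 * (ENNReal.ofReal (Real.exp (2 * (1 / 2))) * C'), by finiteness, fun t ht x => ?_⟩
  have hm := ((meas_L2 P t1).vel t x).pow_const (3 / 2 : ℝ)
  refine h2 ((measurable_W _).mul hm) ?_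
  have := PB_weight (lam := 1 / 2) (by norm_num) hm
    (hC' (rho_ne hP h0) ENNReal.ofReal_ne_top (hC hP h0 h1) t ht x).1
    (Slow_const (1 / 2) (by norm_num) 1)
  simp only [one_mul] at this
  exact this

theorem le_pow32 {L : ℝ≥0∞} (h : 1 ≤ L) : L ≤ L ^ (3 / 2 : ℝ) := by
  calc _ = L ^ (1 : ℝ) := (ENNReal.rpow_one _).symm
    _ ≤ _ := ENNReal.rpow_le_rpow_of_exponent_le h (by norm_num)

theorem Z_ent (K : ℝ≥0∞) {L : ℝ≥0∞} (h : 1 ≤ L) (v : R3) :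
    K * (W (1 / 2) v * L) * lp (K * (W (1 / 2) v * L)) ≤
      K * (lp K + 2) * (W (1 / 2) v * L ^ (3 / 2 : ℝ)) := by
  have h3 : lp (K * (W (1 / 2) v * L)) ≤ lp K + 2 * L ^ (1 / 2 : ℝ) := by
    refine (lp_mul _ _).trans (add_le_add le_rfl ((lp_mul _ _).trans ?_))
    have : lp (W (1 / 2) v) = 0 :=
      le_antisymm ((lp_mono (MajE.W_le_one v) ENNReal.one_ne_top).trans (by simp [lp])) zero_le
    rw [this, zero_add]
    exact lp_le_sqrt _
  have h4 : L * L ^ (1 / 2 : ℝ) = L ^ (3 / 2 : ℝ) := by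
    rw [show (3 / 2 : ℝ) = 1 + 1 / 2 by norm_num,
      ENNReal.rpow_add_of_nonneg _ _ (by norm_num) (by norm_num), ENNReal.rpow_one]
  calc _ ≤ K * (W (1 / 2) v * L) * (lp K + 2 * L ^ (1 / 2 : ℝ)) := mul_le_mul' le_rfl h3
    _ = K * lp K * (W (1 / 2) v * L) + K * 2 * (W (1 / 2) v * (L * L ^ (1 / 2 : ℝ))) := by ring
    _ ≤ K * lp K * (W (1 / 2) v * L ^ (3 / 2 : ℝ)) + K * 2 * (W (1 / 2) v * L ^ (3 / 2 : ℝ)) := by
        rw [h4]
        exact add_le_add (mul_le_mul' le_rfl (mul_le_mul' le_rfl (le_pow32 h))) le_rfl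
    _ = _ := by ring

theorem tr_ent (hP : P.Ok) (h0 : 0 < t1) (h1 : t1 ≤ 1) : ∃ C : ℝ≥0∞, C < ⊤ ∧ ∀ t,
    ∫⁻ q in cell ×ˢ (univ : Set R3), tr t1 (G P ⊤ t1) t q.1 q.2 * lp (tr t1 (G P ⊤ t1) t q.1 q.2) ≤ C := by
  obtain ⟨C, hC, h⟩ := majorE1 hP 0
  refine ⟨C, hC, fun t => ?_⟩
  have hm : Meas2 (G P ⊤ t1) := (measD_G ⊤).slice t1
  have := lintegral_shear (f := fun x v => G P ⊤ t1 x v * lp (G P ⊤ t1 x v))
    (Measurable.mul hm (measurable_lp.comp hm))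
    (fun v => per_of_hat fun x => by simp only [G_hat]) (t - t1)
  refine (le_of_eq this).trans (le_trans (lintegral_mono fun q => ?_) (h t1 ⟨h0.le, h1⟩))
  simp only [ENNReal.coe_zero, zero_mul, add_zero]
  exact mul_le_mul' le_rfl le_add_self

theorem Ds_ent (hP : P.Ok) (h0 : 0 < t1) (h1 : t1 ≤ 1) (T : ℝ) : ∃ C : ℝ≥0∞, C < ⊤ ∧
    ∀ t ∈ Icc t1 T, ∫⁻ q in cell ×ˢ (univ : Set R3),
      Ds t1 (G P ⊤ t1) t q.1 q.2 * lp (Ds t1 (G P ⊤ t1) t q.1 q.2) ≤ C := by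
  obtain ⟨A, -, hA⟩ := Gl_sup hP
  obtain ⟨Cs, hCs⟩ := DD2_sup
  obtain ⟨ρ, hρ, hd⟩ := dens_bd hP h0 h1 T
  obtain ⟨CE, hCE, hE⟩ := MajE.E_mass hP
  have ht1 : t1 ∈ Icc (0 : ℝ) 1 := ⟨h0.le, h1⟩
  set B : ℝ≥0∞ := Cs * ENNReal.ofReal (T - t1) with hB
  set c : ℝ≥0∞ := 8 * (lp B + lp A + 2) with hc
  have hcf : c ≠ ⊤ := by
    have := Lev.lp_ne_top B
    have := Lev.lp_ne_top A
    rw [hc]
    finiteness
  refine ⟨c * (48 * ρ * CE * ENNReal.ofReal (T - t1)), by finiteness, fun t ht => ?_⟩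
  have hG : Meas2 (G P ⊤ t1) := (measD_G ⊤).slice t1
  have hEm : Meas2 (MajE.E P t1) := (MajE.measD_E P).slice t1
  have hg : ∀ n, Meas2 (Gl P n t1) := fun n => (measD_Gl P n).slice t1
  have sg : ∀ n x v, Gl P n t1 x v ≠ 0 → ‖v‖ ≤ 3 := fun n x v h =>
    G_supp3 hP h0 h1 x v fun h' => h (le_antisymm ((Gl_le_G P n t1 x v).trans h'.le) zero_le)
  have sE : ∀ x v, MajE.E P t1 x v ≠ 0 → ‖v‖ ≤ 3 := fun x v h => by
    by_contra h3
    refine h (ENNReal.tsum_eq_zero.2 fun n => ?_)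
    have : Gl P n t1 x v = 0 := by
      by_contra h4
      exact h3 (sg n x v h4)
    rw [this, mul_zero]
  have eG : G P ⊤ t1 = fun x v => ∑' n, 1 * Gl P n t1 x v := by
    funext x v
    simp only [one_mul]
    exact G_eq_tsum P t1 x v
  have hpt : ∀ x v, Ds t1 (G P ⊤ t1) t x v * lp (Ds t1 (G P ⊤ t1) t x v) ≤
      c * DD2 t1 (MajE.E P t1) (G P ⊤ t1) t x v := by
    intro x v
    set f : ℕ → ℕ → ℝ≥0∞ := fun n l => DD2 t1 (Gl P n t1) (Gl P l t1) t x v with hf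
    have e0 : Ds t1 (G P ⊤ t1) t x v = ∑' n, ∑' l, f n l := by
      have := DD2_tsum (t1 := t1) hg (fun _ => 1) (fun _ => 1) t x v
      rw [← eG] at this
      simp only [one_mul] at this
      exact this
    have e1 : DD2 t1 (MajE.E P t1) (G P ⊤ t1) t x v = ∑' n : ℕ, ∑' l : ℕ, ((n : ℝ≥0∞) + 1) * f n l := by
      have := DD2_tsum (t1 := t1) hg (fun n => (n : ℝ≥0∞) + 1) (fun _ => 1) t x v
      rw [← eG] at this
      simp only [mul_one] at this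
      exact this
    have e2 : DD2 t1 (MajE.E P t1) (G P ⊤ t1) t x v = ∑' n : ℕ, ∑' l : ℕ, ((l : ℝ≥0∞) + 1) * f n l := by
      have := DD2_tsum (t1 := t1) hg (fun _ => 1) (fun n => (n : ℝ≥0∞) + 1) t x v
      rw [← eG] at this
      simp only [one_mul] at this
      rw [DD2_symm hEm hG]
      exact this
    have hb : ∀ n l, lp (f n l) ≤ lp B + ((n : ℝ≥0∞) + l + 2) * lp A := fun n l => by
      have h2 := hCs (t1 := t1) (hg n) (hg l) (sg n) (sg l) (hA n t1 ht1) (hA l t1 ht1) t x v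
      have h3 : f n l ≤ B * (A : ℝ≥0∞) ^ (n + l + 2) := by
        refine h2.trans ?_
        rw [← pow_add, show n + 1 + (l + 1) = n + l + 2 by ring, hB]
        have := ht.2
        gcongr
      refine (lp_mono h3 (by rw [hB]; finiteness)).trans ((lp_mul _ _).trans ?_)
      rw [lp_pow]
      push_cast
      exact le_rfl
    rw [e0]
    refine (ent_sum2 f).trans ?_
    calc 4 * ∑' n, ∑' l, f n l * (lp (f n l) + (n + l + 4))
        ≤ 4 * ∑' n : ℕ, ∑' l : ℕ, (lp B + lp A + 2) *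
            (((n : ℝ≥0∞) + 1) * f n l + ((l : ℝ≥0∞) + 1) * f n l) := by
          refine mul_le_mul' le_rfl (ENNReal.tsum_le_tsum fun n => ENNReal.tsum_le_tsum fun l => ?_)
          calc _ ≤ f n l * (lp B + ((n : ℝ≥0∞) + l + 2) * lp A + (n + l + 4)) := by gcongr; exact hb n l
            _ ≤ f n l * (lp B + ((n : ℝ≥0∞) + l + 2) * lp A + (n + l + 4) +
                  (((n : ℝ≥0∞) + l + 1) * lp B + (n + l))) := mul_le_mul' le_rfl le_self_add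
            _ = _ := by ring
      _ = 4 * ((lp B + lp A + 2) * (DD2 t1 (MajE.E P t1) (G P ⊤ t1) t x v +
            DD2 t1 (MajE.E P t1) (G P ⊤ t1) t x v)) := by
          congr 1
          conv_rhs => rw [e1]
          conv_rhs => enter [2, 2]; rw [← e1, e2]
          simp only [ENNReal.tsum_mul_left, ENNReal.tsum_add]
      _ = _ := by rw [hc]; ring
  calc _ ≤ ∫⁻ q in cell ×ˢ (univ : Set R3), c * DD2 t1 (MajE.E P t1) (G P ⊤ t1) t q.1 q.2 :=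
        lintegral_mono fun q => hpt q.1 q.2
    _ = c * ∫⁻ q in cell ×ˢ (univ : Set R3), DD2 t1 (MajE.E P t1) (G P ⊤ t1) t q.1 q.2 :=
        lintegral_const_mul' _ _ hcf
    _ ≤ _ := by
        refine mul_le_mul' le_rfl ((DD2_mass hEm hG sE (G_supp3 hP h0 h1)
          (fun v => per_of_hat fun x => by simp only [MajE.E, Gl_hat])
          (fun v => per_of_hat fun x => by simp only [G_hat])
          (fun s hs y => hd s ⟨hs.1.le, hs.2.le.trans ht.2⟩ y)).trans ?_)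
        have := ht.2
        gcongr
        exact hE t1 ht1

theorem Maj_late (K : ℝ≥0∞) {t : ℝ} (ht : t1 < t) (x v : R3) :
    Maj P t1 K t x v = tr t1 (G P ⊤ t1) t x v + K * Ds t1 (G P ⊤ t1) t x v +
      K * (W (1 / 2) v * Lam2 t1 (rhoL P t1) (G P ⊤ t1) (Lam P t1) t x v) := by
  simp only [Maj, if_neg (not_le.2 ht)]

theorem cell_le {f : R3 → R3 → ℝ≥0∞} (hf : Meas2 f) {C : ℝ≥0∞} (h : ∀ x, ∫⁻ v, f x v ≤ C) :
    ∫⁻ q in cell ×ˢ (univ : Set R3), f q.1 q.2 ≤ C := by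
  rw [Lev.lint_cell hf]
  calc _ ≤ ∫⁻ _ in cell, C := lintegral_mono h
    _ = C := by rw [setLIntegral_const, volume_cell, mul_one]

end

end MajL

theorem majorL_mom {P : Par} (hP : P.Ok) {t1 : ℝ} (h0 : 0 < t1) (h1 : t1 ≤ 1) (K : ℝ≥0) (T : ℝ) (k : ℕ) :
    ∃ C : ℝ≥0, ∀ t ∈ Ioc t1 T, ∀ x, ∫⁻ v, Maj P t1 K t x v * pw k v ≤ C := by
  obtain ⟨ρ, hρ, hd⟩ := MajL.dens_bd hP h0 h1 T
  obtain ⟨C2, hC2, h2⟩ := MajL.Ds_mom hP h0 h1 T k
  obtain ⟨C3, hC3, h3⟩ := MajL.Z_mom hP h0 h1 k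
  have hf : 6 ^ k * ρ + K * C2 + K * C3 ≠ ⊤ := by finiteness
  refine ⟨(6 ^ k * ρ + K * C2 + K * C3).toNNReal, fun t ht x => ?_⟩
  rw [ENNReal.coe_toNNReal hf]
  have ht' : t ∈ Icc t1 T := Ioc_subset_Icc_self ht
  have hG : Meas2 (G P ⊤ t1) := (measD_G ⊤).slice t1
  have m1 : Measurable (tr t1 (G P ⊤ t1) t x) := (measD_tr t1 hG).vel t x
  have m2 : Measurable fun v => Ds t1 (G P ⊤ t1) t x v * pw k v :=
    ((measD_Ds t1 hG).vel t x).mul (measurable_pw k)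
  have m3 : Measurable fun v => W (1 / 2) v *
      Lam2 t1 (rhoL P t1) (G P ⊤ t1) (Lam P t1) t x v ^ (3 / 2 : ℝ) * pw k v :=
    Measurable.mul (Measurable.mul (measurable_W _)
      (Measurable.pow_const ((MajL.meas_L2 P t1).vel t x) _)) (measurable_pw k)
  calc _ ≤ ∫⁻ v, (6 ^ k * tr t1 (G P ⊤ t1) t x v + K * (Ds t1 (G P ⊤ t1) t x v * pw k v) +
        K * (W (1 / 2) v * Lam2 t1 (rhoL P t1) (G P ⊤ t1) (Lam P t1) t x v ^ (3 / 2 : ℝ) * pw k v)) := by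
        refine lintegral_mono fun v => ?_
        rw [MajL.Maj_late _ ht.1, add_mul, add_mul]
        refine add_le_add (add_le_add ?_ (le_of_eq (mul_assoc _ _ _))) ?_
        · have := MajL.mul_pw_le (k := k) (v := v) (a := tr t1 (G P ⊤ t1) t x v)
            (fun h => (MajL.G_supp3 hP h0 h1 _ v h).trans (by norm_num)) 1
          simpa using this
        · rw [mul_assoc]
          gcongr
          exact MajL.le_pow32 (one_le_Lam2 _ _ _ _ _ _ _)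
    _ = 6 ^ k * (∫⁻ v, tr t1 (G P ⊤ t1) t x v) + K * (∫⁻ v, Ds t1 (G P ⊤ t1) t x v * pw k v) +
        K * ∫⁻ v, W (1 / 2) v * Lam2 t1 (rhoL P t1) (G P ⊤ t1) (Lam P t1) t x v ^ (3 / 2 : ℝ) * pw k v := by
        rw [lintegral_add_right _ (m3.const_mul _),
          lintegral_add_left (m1.const_mul _), lintegral_const_mul _ m1, lintegral_const_mul _ m2,
          lintegral_const_mul _ m3]
    _ ≤ _ := by
        gcongr
        · exact hd t ht' x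
        · exact h2 t ht' x
        · exact h3 t ht'.1 x

theorem majorL_ent {P : Par} (hP : P.Ok) {t1 : ℝ} (h0 : 0 < t1) (h1 : t1 ≤ 1) (K : ℝ≥0) (T : ℝ) (k : ℕ) :
    ∃ C : ℝ≥0, ∀ t ∈ Ioc t1 T, ∫⁻ q in cell ×ˢ (univ : Set R3),
      Maj P t1 K t q.1 q.2 * (pw k q.2 * lp (Maj P t1 K t q.1 q.2)) ≤ C := by
  obtain ⟨C0, h0'⟩ := majorL_mom hP h0 h1 K T k
  obtain ⟨C1, hC1, h1'⟩ := MajL.tr_ent hP h0 h1
  obtain ⟨C2, hC2, h2⟩ := MajL.Ds_mom hP h0 h1 T 0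
  obtain ⟨C2', hC2', h2'⟩ := MajL.Ds_ent hP h0 h1 T
  obtain ⟨C3, hC3, h3⟩ := MajL.Z_mom hP h0 h1 k
  have hK := Lev.lp_ne_top K
  have hf : 6 * (C0 : ℝ≥0∞) + 4 * 6 ^ k * C1 + 4 * 6 ^ k * K * lp K * C2 + 4 * 6 ^ k * K * C2' +
      4 * K * (lp K + 2) * C3 ≠ ⊤ := by finiteness
  refine ⟨(6 * (C0 : ℝ≥0∞) + 4 * 6 ^ k * C1 + 4 * 6 ^ k * K * lp K * C2 + 4 * 6 ^ k * K * C2' +
      4 * K * (lp K + 2) * C3).toNNReal, fun t ht => ?_⟩
  rw [ENNReal.coe_toNNReal hf]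
  have ht' : t ∈ Icc t1 T := Ioc_subset_Icc_self ht
  have hG : Meas2 (G P ⊤ t1) := (measD_G ⊤).slice t1
  have m0 : Meas2 fun x v => Maj P t1 K t x v * pw k v :=
    Measurable.mul ((measD_Maj t1 K).slice t) ((measurable_pw k).comp measurable_snd)
  have m1 : Meas2 (tr t1 (G P ⊤ t1) t) := (measD_tr t1 hG).slice t
  have m1' : Measurable fun q : R3 × R3 =>
      tr t1 (G P ⊤ t1) t q.1 q.2 * lp (tr t1 (G P ⊤ t1) t q.1 q.2) :=
    Measurable.mul m1 (measurable_lp.comp m1)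
  have m2 : Meas2 (Ds t1 (G P ⊤ t1) t) := (measD_Ds t1 hG).slice t
  have m2' : Measurable fun q : R3 × R3 =>
      Ds t1 (G P ⊤ t1) t q.1 q.2 * lp (Ds t1 (G P ⊤ t1) t q.1 q.2) :=
    Measurable.mul m2 (measurable_lp.comp m2)
  have m3 : Meas2 fun x v => W (1 / 2) v *
      Lam2 t1 (rhoL P t1) (G P ⊤ t1) (Lam P t1) t x v ^ (3 / 2 : ℝ) * pw k v :=
    Measurable.mul (Measurable.mul ((measurable_W _).comp measurable_snd)
      (Measurable.pow_const ((MajL.meas_L2 P t1).slice t) _)) ((measurable_pw k).comp measurable_snd)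
  have m0' : Measurable fun q : R3 × R3 => Maj P t1 K t q.1 q.2 * pw k q.2 := m0
  have m2'' : Measurable fun q : R3 × R3 => Ds t1 (G P ⊤ t1) t q.1 q.2 := m2
  have m3' : Measurable fun q : R3 × R3 => W (1 / 2) q.2 *
      Lam2 t1 (rhoL P t1) (G P ⊤ t1) (Lam P t1) t q.1 q.2 ^ (3 / 2 : ℝ) * pw k q.2 := m3
  calc _ ≤ ∫⁻ q in cell ×ˢ (univ : Set R3), (6 * (Maj P t1 K t q.1 q.2 * pw k q.2) +
        4 * 6 ^ k * (tr t1 (G P ⊤ t1) t q.1 q.2 * lp (tr t1 (G P ⊤ t1) t q.1 q.2)) +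
        4 * 6 ^ k * K * lp K * Ds t1 (G P ⊤ t1) t q.1 q.2 +
        4 * 6 ^ k * K * (Ds t1 (G P ⊤ t1) t q.1 q.2 * lp (Ds t1 (G P ⊤ t1) t q.1 q.2)) +
        4 * K * (lp K + 2) * (W (1 / 2) q.2 *
          Lam2 t1 (rhoL P t1) (G P ⊤ t1) (Lam P t1) t q.1 q.2 ^ (3 / 2 : ℝ) * pw k q.2)) := by
        refine lintegral_mono fun q => ?_
        rw [MajL.Maj_late _ ht.1]
        set a := tr t1 (G P ⊤ t1) t q.1 q.2 with ha
        set d := Ds t1 (G P ⊤ t1) t q.1 q.2 with hd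
        set L := Lam2 t1 (rhoL P t1) (G P ⊤ t1) (Lam P t1) t q.1 q.2 with hL
        have b1 : a * (pw k q.2 * lp a) ≤ 6 ^ k * (a * lp a) :=
          MajL.mul_pw_le (fun h => (MajL.G_supp3 hP h0 h1 _ _ h).trans (by norm_num)) _
        have b2 : d * (pw k q.2 * lp (K * d)) ≤ 6 ^ k * (d * (lp K + lp d)) :=
          (MajL.mul_pw_le (fun h => MajL.DD2_supp (MajL.G_supp3 hP h0 h1) (MajL.G_supp3 hP h0 h1) h)
            _).trans (mul_le_mul' le_rfl (mul_le_mul' le_rfl (lp_mul _ _)))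
        have b3 := MajL.Z_ent K (L := L) (one_le_Lam2 _ _ _ _ _ _ _) q.2
        have b0 := MajL.ent3 a (K * d) (K * (W (1 / 2) q.2 * L))
        calc _ = pw k q.2 * ((a + K * d + K * (W (1 / 2) q.2 * L)) *
              lp (a + K * d + K * (W (1 / 2) q.2 * L))) := by ring
          _ ≤ pw k q.2 * (6 * (a + K * d + K * (W (1 / 2) q.2 * L)) + 4 * (a * lp a +
              K * d * lp (K * d) + K * (W (1 / 2) q.2 * L) * lp (K * (W (1 / 2) q.2 * L)))) :=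
              mul_le_mul' le_rfl b0
          _ = 6 * ((a + K * d + K * (W (1 / 2) q.2 * L)) * pw k q.2) + 4 * (a * (pw k q.2 * lp a)) +
              4 * K * (d * (pw k q.2 * lp (K * d))) +
              4 * pw k q.2 * (K * (W (1 / 2) q.2 * L) * lp (K * (W (1 / 2) q.2 * L))) := by ring
          _ ≤ 6 * ((a + K * d + K * (W (1 / 2) q.2 * L)) * pw k q.2) + 4 * (6 ^ k * (a * lp a)) +
              4 * K * (6 ^ k * (d * (lp K + lp d))) +
              4 * pw k q.2 * (K * (lp K + 2) * (W (1 / 2) q.2 * L ^ (3 / 2 : ℝ))) := by gcongr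
          _ = _ := by ring
    _ = 6 * (∫⁻ q in cell ×ˢ (univ : Set R3), Maj P t1 K t q.1 q.2 * pw k q.2) +
        4 * 6 ^ k * (∫⁻ q in cell ×ˢ (univ : Set R3),
          tr t1 (G P ⊤ t1) t q.1 q.2 * lp (tr t1 (G P ⊤ t1) t q.1 q.2)) +
        4 * 6 ^ k * K * lp K * (∫⁻ q in cell ×ˢ (univ : Set R3), Ds t1 (G P ⊤ t1) t q.1 q.2) +
        4 * 6 ^ k * K * (∫⁻ q in cell ×ˢ (univ : Set R3),
          Ds t1 (G P ⊤ t1) t q.1 q.2 * lp (Ds t1 (G P ⊤ t1) t q.1 q.2)) +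
        4 * K * (lp K + 2) * ∫⁻ q in cell ×ˢ (univ : Set R3), W (1 / 2) q.2 *
          Lam2 t1 (rhoL P t1) (G P ⊤ t1) (Lam P t1) t q.1 q.2 ^ (3 / 2 : ℝ) * pw k q.2 := by
        rw [lintegral_add_right _ (m3'.const_mul _), lintegral_add_right _ (m2'.const_mul _),
          lintegral_add_right _ (m2''.const_mul _), lintegral_add_right _ (m1'.const_mul _),
          lintegral_const_mul _ m0', lintegral_const_mul _ m1', lintegral_const_mul _ m2'',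
          lintegral_const_mul _ m2', lintegral_const_mul _ m3']
    _ ≤ _ := by
        gcongr
        · exact MajL.cell_le m0 (h0' t ht)
        · exact h1' t
        · refine MajL.cell_le m2 fun x => le_trans (le_of_eq ?_) (h2 t ht' x)
          simp [pw]
        · exact h2' t ht'
        · exact MajL.cell_le m3 (h3 t ht'.1)

end Crest.Agent.R68
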