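import Crest.Agent.R68.MajorE
import Crest.Agent.R68.MajorL

/-! `Maj` is an admissible majorant: split the time interval at `t1` (`majorE1/2` for `t ≤ t1 ≤ 1`, `majorL_mom/ent` and `nu_le_pw`, `pw k * pw 1 = pw (k+1)` afterwards). -/

set_option autoImplicit false

open MeasureTheory Set Filter Topology Crest.AnalysisR.VecCalc3 Crest.AnalysisR.PDE.Boltzmann
open scoped ENNReal NNReal

namespace Crest.Agent.R68

theorem Major.pw_mul (k : ℕ) (v : R3) : pw k v * pw 1 v = pw (k + 1) v := by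
  unfold pw
  rw [← ENNReal.ofReal_mul (by positivity), pow_one, pow_succ]

theorem Major.pw_one (v : R3) : ENNReal.ofReal (1 + ‖v‖) = pw 1 v := by
  unfold pw; rw [pow_one]

theorem Major.pw_zero (v : R3) : pw 0 v = 1 := by simp [pw]

theorem Major.meas_lp : Measurable lp :=
  ENNReal.measurable_ofReal.comp (Real.measurable_log.comp ENNReal.measurable_toReal)

theorem Major.cell_mom {f : R3 → R3 → ℝ≥0∞} (hf : Meas2 f) {C : ℝ≥0∞} (h : ∀ x, ∫⁻ v, f x v ≤ C) :
    ∫⁻ q in cell ×ˢ (univ : Set R3), f q.1 q.2 ≤ C := by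
  rw [Measure.volume_eq_prod, setLIntegral_prod _ hf.aemeasurable]
  calc _ ≤ ∫⁻ _ in cell, C := lintegral_mono fun x => by simpa using h x
    _ = C := by rw [setLIntegral_const, volume_cell, mul_one]

theorem Major.Maj_early (P : Par) {t1 t : ℝ} (K : ℝ≥0∞) (h : t ≤ t1) (x : R3) :
    Maj P t1 K t x = fun v => G P ⊤ t x v + K * (W (1 / 2) v * Lam P t x v) := by
  funext v
  simp only [Maj, if_pos h]

theorem major_Maj {P : Par} (hP : P.Ok) {t1 : ℝ} (h0 : 0 < t1) (h1 : t1 ≤ 1) (K : ℝ≥0) (T : ℝ) :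
    Major (Maj P t1 K) T := by
  have hM : MeasD (Maj P t1 K) := measD_Maj t1 K
  have hms : ∀ (k : ℕ) (t : ℝ), Measurable fun q : R3 × R3 => Maj P t1 K t q.1 q.2 * pw k q.2 :=
    fun k t => (hM.comp measurable_const measurable_fst measurable_snd).mul
        ((measurable_pw k).comp measurable_snd)
  have hmom : ∀ k : ℕ, ∃ C : ℝ≥0, ∀ t ∈ Ioc t1 T,
      ∫⁻ q in cell ×ˢ (univ : Set R3), Maj P t1 K t q.1 q.2 * pw k q.2 ≤ C := by
    intro k
    obtain ⟨C, hC⟩ := majorL_mom hP h0 h1 K T k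
    exact ⟨C, fun t ht => Major.cell_mom (f := fun x v => Maj P t1 K t x v * pw k v)
      (hms k t) (hC t ht)⟩
  refine ⟨hM, fun t v => per_of_hat fun x => by rw [Maj_hat], ?_, fun k => ?_⟩
  · obtain ⟨C1, hC1, hE⟩ := majorE1 hP K
    obtain ⟨C2, h2⟩ := hmom 2
    obtain ⟨C3, h3⟩ := majorL_ent hP h0 h1 K T 0
    refine ⟨C1 + (C2 + C3), by
      exact ENNReal.add_lt_top.2 ⟨hC1, ENNReal.add_lt_top.2 ⟨ENNReal.coe_lt_top, ENNReal.coe_lt_top⟩⟩,
      fun t ht => ?_⟩
    by_cases htt : t ≤ t1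
    · simp only [Major.Maj_early P _ htt]
      exact (hE t ⟨ht.1, htt.trans h1⟩).trans le_self_add
    · have ht' : t ∈ Ioc t1 T := ⟨not_le.1 htt, ht.2⟩
      refine le_trans ?_ le_add_self
      simp only [mul_add]
      rw [lintegral_add_left (hms 2 t)]
      refine add_le_add (h2 t ht') ?_
      simpa [Major.pw_zero] using h3 t ht'
  · obtain ⟨C1, hC1⟩ := majorL_mom hP h0 h1 K T (k + 1)
    obtain ⟨C2, h2⟩ := hmom (k + 1)
    obtain ⟨C3, h3⟩ := majorL_ent hP h0 h1 K T (k + 1)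
    set S : Set (R3 × R3) := cell ×ˢ (univ : Set R3) with hS
    have hSm : MeasurableSet S := measurableSet_cell.prod MeasurableSet.univ
    have hsub : Ioo 0 T ×ˢ S ⊆ (Ioo 0 t1 ×ˢ S ∪ {t1} ×ˢ S) ∪ Ioc t1 T ×ˢ S := by
      rintro ⟨t, q⟩ ⟨ht, hq⟩
      rcases lt_trichotomy t t1 with h | h | h
      · exact Or.inl (Or.inl ⟨⟨ht.1, h⟩, hq⟩)
      · exact Or.inl (Or.inr ⟨h, hq⟩)
      · exact Or.inr ⟨⟨h, ht.2.le⟩, hq⟩
    refine lt_of_le_of_lt (lintegral_mono_set hsub) ?_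
    refine lt_of_le_of_lt (lintegral_union_le _ _ _) (ENNReal.add_lt_top.2 ⟨?_, ?_⟩)
    · refine lt_of_le_of_lt (lintegral_union_le _ _ _) (ENNReal.add_lt_top.2 ⟨?_, ?_⟩)
      · refine lt_of_le_of_lt ?_ (majorE2 hP K k)
        refine le_trans (le_of_eq ?_) (lintegral_mono_set (prod_mono (Ioo_subset_Ioo_right h1) le_rfl))
        refine setLIntegral_congr_fun (measurableSet_Ioo.prod hSm) fun p hp => ?_
        simp only [Major.Maj_early P _ hp.1.2.le]
      · rw [setLIntegral_measure_zero]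
        · exact ENNReal.zero_lt_top
        · rw [Measure.volume_eq_prod, Measure.prod_prod]; simp
    · have m1 : Measurable fun p : ℝ × R3 × R3 => Maj P t1 K p.1 p.2.1 p.2.2 * pw (k + 1) p.2.2 :=
        Measurable.mul hM ((measurable_pw _).comp measurable_snd.snd)
      have m2 : Measurable fun p : ℝ × R3 × R3 => Maj P t1 K p.1 p.2.1 p.2.2 *
          (pw (k + 1) p.2.2 * lp (Maj P t1 K p.1 p.2.1 p.2.2)) :=
        Measurable.mul hM (((measurable_pw _).comp measurable_snd.snd).mul (Major.meas_lp.comp hM))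
      have m3 : Measurable fun p : ℝ × R3 × R3 => Maj P t1 K p.1 p.2.1 p.2.2 * pw (k + 1) p.2.2 +
          Maj P t1 K p.1 p.2.1 p.2.2 * (pw (k + 1) p.2.2 * lp (Maj P t1 K p.1 p.2.1 p.2.2)) :=
        m1.add m2
      calc _ ≤ ∫⁻ p in Ioc t1 T ×ˢ S, (7 * C1 : ℝ≥0∞) * (Maj P t1 K p.1 p.2.1 p.2.2 * pw (k + 1) p.2.2 +
              Maj P t1 K p.1 p.2.1 p.2.2 * (pw (k + 1) p.2.2 * lp (Maj P t1 K p.1 p.2.1 p.2.2))) := by
            refine setLIntegral_mono' (measurableSet_Ioc.prod hSm) fun p hp => ?_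
            have hn := nu_le_pw (fun vs => Maj P t1 K p.1 p.2.1 vs * pw k vs) p.2.2
            simp only [mul_assoc, Major.pw_mul, Major.pw_one] at hn
            refine (mul_le_mul_right (hn.trans (mul_le_mul_right (mul_le_mul_right
              (hC1 p.1 hp.1 p.2.1) _) _)) _).trans (le_of_eq ?_)
            rw [← Major.pw_mul k]
            ring
        _ = (7 * C1 : ℝ≥0∞) * ∫⁻ t in Ioc t1 T, ∫⁻ q in S, (Maj P t1 K t q.1 q.2 * pw (k + 1) q.2 +
              Maj P t1 K t q.1 q.2 * (pw (k + 1) q.2 * lp (Maj P t1 K t q.1 q.2))) := by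
            rw [lintegral_const_mul _ m3, Measure.volume_eq_prod,
              setLIntegral_prod _ m3.aemeasurable]
        _ ≤ (7 * C1 : ℝ≥0∞) * ∫⁻ _ in Ioc t1 T, (C2 + C3 : ℝ≥0∞) := by
            refine mul_le_mul_right (setLIntegral_mono' measurableSet_Ioc fun t ht => ?_) _
            rw [lintegral_add_left (hms (k + 1) t)]
            exact add_le_add (h2 t ht) (h3 t ht)
        _ < ⊤ := by
            rw [setLIntegral_const, Real.volume_Ioc]
            finiteness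

end Crest.Agent.R68
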