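import Crest.Agent.R68.Surv

/-! Pointwise inequalities for the monotone weight; `ℓ = s + nrm y + ρ`.  `vth_le`: with `V = nrm ξ = |ξ i| ≥ DD`, `c = s + ρ`, the times in vacuum satisfy `|y i + σ ξ i| ≤ 2 kap (c + σ)` (`X_le`, `rr (N+1) = kap fl`); for two such times `σ1 ≤ σ2`, `(c+σ2)(V - 2kap) ≤ (c+σ1)(V + 2kap)`; so
`∫ 1/(c+σ) ≤ (σ2-σ1)/(c+σ1) ≤ 5 kap/V` with `σ1` the infimum, and `vth ≤ 40 kap (1 + 1/DD)`.
Survivor: `ℓ' ≤ ℓ + h (1 + nrm ξ)`, `ℓ'^{-4} ≥ ℓ^{-4} exp(-4h(1+nrm ξ)/ℓ) ≥ ℓ^{-4}(1 - 4h(1+‖ξ‖)/ℓ)`, `vth` decreases along the ray (`vth_step`), `Ex_lower`.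
`crude`: `∫ν ≤ 21 (1+‖ξ‖) ∫ rb` and `s + nrm y + fl ≤ (1+‖ξ‖)(s + σ + nrm (y+σξ) + fl)`.  `good`: every product has weight `≥ 0.97 ℓ^{-4} chi` (0.99 from `dep` is in `Aop`; `Ex_ge` twice with `ε = 0.001`, `ℓ''^{-4} ≥ 0.999 ℓ^{-4}`, `exp(-vth) ≥ 0.99`), so with `ν̄ = ∫ν`, `m̄ = ∫ mass`:
products `+ 32 DD m̄ ℓ^{-4} ≥ 1.94 ν̄ ℓ^{-4}`, and `0.94 ν̄ ≥ 32 DD m̄ + 4h(1+‖ξ‖)/ℓ` by `nu_low` (`0.94·2π/64 ≥ 0.092`, `cc = 10⁴`, `nrm y ≤ ℓ`; `ν̄` is finite).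
Vacuum: the ray stays in the vacuum (`G_vac`), `ν = 0`, and `vth s = vth (s+h) + ∫_0^h 8(1+nrm ξ)/(s+σ+ρ) ≥ vth (s+h) + 4h(1+nrm ξ)/ℓ`. -/

set_option autoImplicit false

open MeasureTheory Set Filter Topology Crest.AnalysisR.VecCalc3 Crest.AnalysisR.PDE.Boltzmann
open scoped ENNReal NNReal

namespace Crest.Agent.R68

namespace MonPtX

theorem nrm_nonneg (y : R3) : 0 ≤ nrm y := (abs_nonneg _).trans (le_max_left _ _)

theorem nrm_move (y u : R3) {τ : ℝ} (hτ : 0 ≤ τ) : nrm (y + τ • u) ≤ nrm y + τ * nrm u := by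
  have := nrm_add_le y (τ • u)
  rwa [nrm_smul, abs_of_nonneg hτ] at this

theorem nrm_move' (y u : R3) {τ : ℝ} (hτ : 0 ≤ τ) : nrm (y + τ • u) ≤ nrm y + τ * ‖u‖ :=
  (nrm_move y u hτ).trans (add_le_add le_rfl (mul_le_mul_of_nonneg_left (nrm_le_norm u) hτ))

theorem nrm_back (y u : R3) {τ : ℝ} (hτ : 0 ≤ τ) : nrm (y - τ • u) ≤ nrm y + τ * ‖u‖ := by
  have := nrm_move' y (-u) hτ
  rwa [smul_neg, ← sub_eq_add_neg, norm_neg] at this

theorem shift (g : ℝ → ℝ≥0∞) (s h : ℝ) : ∫⁻ σ in Ioo s (s + h), g σ = ∫⁻ σ in Ioo 0 h, g (s + σ) := by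
  rw [(measurePreserving_add_left volume s).setLIntegral_comp_emb (measurableEmbedding_addLeft s) g (Ioo 0 h),
    image_const_add_Ioo, add_zero]

theorem ell {l l' d : ℝ} (hl : 0 < l) (hl' : 0 < l') (hd : 0 ≤ d) (h : l' ≤ l + d) :
    ENNReal.ofReal (l⁻¹ ^ 4) * expNeg (ENNReal.ofReal (4 * d / l)) ≤ ENNReal.ofReal (l'⁻¹ ^ 4) := by
  rw [expNeg_ofReal (by positivity), ← ENNReal.ofReal_mul (by positivity),
    show -(4 * d / l) = (4 : ℕ) * -(d / l) by push_cast; ring, Real.exp_nat_mul, ← mul_pow]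
  refine ENNReal.ofReal_le_ofReal (pow_le_pow_left₀ (by positivity) ?_ 4)
  rw [Real.exp_neg, ← mul_inv]
  refine inv_anti₀ hl' (h.trans ?_)
  have h1 := mul_le_mul_of_nonneg_left (Real.add_one_le_exp (d / l)) hl.le
  rw [mul_add, mul_div_cancel₀ _ hl.ne'] at h1
  linarith

theorem expNeg_ge {a : ℝ≥0∞} {e : ℝ} (he : 0 ≤ e) (h : a ≤ ENNReal.ofReal e) :
    ENNReal.ofReal (1 - e) ≤ expNeg a := by
  refine le_trans ?_ (expNeg_anti h)
  rw [expNeg_ofReal he]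
  exact ENNReal.ofReal_le_ofReal (by linarith [Real.add_one_le_exp (-e)])

theorem chi_ge {ξ : R3} (h : chi ξ ≠ 0) : DD ≤ nrm ξ := by
  by_contra hn
  exact h (if_neg hn)

theorem X_mono {P : Par} (hP : P.Ok) (n : ℕ) (s : ℝ) {σ : ℝ} (hσ : 0 ≤ σ) : P.X n s ≤ P.X n (s + σ) := by
  have := mul_nonneg (add_pos kap_pos (et_pos hP n)).le hσ
  unfold Par.X
  linarith

theorem survB {P : Par} (hP : P.Ok) {N : ℕ} {T : ℝ} {F : Den} (hR : Reg P N T F) {ρ s h : ℝ} (hρ : 0 < ρ)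
    (hs : 0 ≤ s) (hh : 0 ≤ h) (hT : s + h ≤ T) (y ξ : R3) (hy : nrm y + h * ‖ξ‖ ≤ P.r / 2) :
    chi ξ * (ENNReal.ofReal ((s + nrm y + ρ)⁻¹ ^ 4) *
      expNeg (ENNReal.ofReal (4 * (h * (1 + nrm ξ)) / (s + nrm y + ρ)))) * expNeg (vth P N ρ (s + h) (y + h • ξ) ξ) ≤
    Ex F s (s + h) (y + h • ξ) ξ * Psi P N ρ (s + h) (y + h • ξ) ξ + ENNReal.ofReal ((s + nrm y + ρ)⁻¹ ^ 4) *
      ((∫⁻ σ in Ioo 0 h, nu (gs P N (s + σ) (y + σ • ξ)) ξ) + ENNReal.ofReal (h * (1 + ‖ξ‖))) := by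
  have hr := hP.r0
  have e : ∀ σ, y + h • ξ - (s + h - σ) • ξ = y + (σ - s) • ξ := fun σ => by
    rw [add_sub_assoc, ← sub_smul]
    congr 2
    ring
  have h1 := Ex_lower hR hs (le_add_of_nonneg_right hh) hT (y + h • ξ) ξ fun σ hσ => by
    rw [e]
    have a1 := nrm_move' y ξ (sub_nonneg.2 hσ.1.le)
    have a2 : (σ - s) * ‖ξ‖ ≤ h * ‖ξ‖ := mul_le_mul_of_nonneg_right (by linarith [hσ.2]) (norm_nonneg _)
    linarith [dd_le_nrm (y + (σ - s) • ξ)]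
  simp only [e] at h1
  rw [shift, add_sub_cancel_left] at h1
  simp only [add_sub_cancel_left] at h1
  have h0 := nrm_nonneg y
  have h0' := nrm_nonneg (y + h • ξ)
  have h0'' := nrm_nonneg ξ
  refine (le_mul_of_one_le_right' h1).trans ?_
  rw [add_assoc (Ex F _ _ _ _), mul_add, mul_comm _ (Ex F _ _ _ _)]
  refine add_le_add (mul_le_mul' le_rfl ?_) (mul_le_mul' ?_ le_rfl)
  · rw [Psi, if_pos ((nrm_move' y ξ hh).trans hy)]
    refine mul_le_mul' (mul_le_mul' le_rfl (ell (by positivity) (by positivity) (by positivity) ?_)) le_rfl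
    linarith [nrm_move y ξ hh]
  · exact (mul_le_of_le_one_right' (expNeg_le_one _)).trans ((mul_le_of_le_one_left' (chi_le_one _)).trans
      (mul_le_of_le_one_right' (expNeg_le_one _)))

end MonPtX
open MonPtX

theorem vth_le {P : Par} (hP : P.Ok) {N : ℕ} {ρ s : ℝ} (hρ : P.fl N ≤ ρ) (hs : 0 ≤ s) (y : R3) {ξ : R3}
    (hξ : chi ξ ≠ 0) : vth P N ρ s y ξ ≤ ENNReal.ofReal (1 / 100) := by
  classical
  have hV := chi_ge hξ
  have hV0 : 0 < nrm ξ := lt_of_lt_of_le (by norm_num [DD]) hV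
  have hρ0 := (fl_pos hP N).trans_le hρ
  have hk := kap_pos
  have hX : ∀ σ, 0 ≤ σ → P.X (N + 1) (s + σ) ≤ 2 * kap * (s + σ + ρ) := fun σ hσ => by
    have a1 := X_le hP (N + 1) (add_nonneg hs hσ)
    have a2 : P.rr (N + 1) = kap * P.fl N := by rw [Par.fl, mul_div_cancel₀ _ hk.ne']
    have a3 := mul_le_mul_of_nonneg_left hρ hk.le
    nlinarith
  have hkV : 10000 * kap ≤ nrm ξ := le_trans (by norm_num [kap, DD]) hV
  have key : ∀ σ1 σ2, 0 < σ1 → σ1 ≤ σ2 → nrm (y + σ1 • ξ) ≤ P.X (N + 1) (s + σ1) →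
      nrm (y + σ2 • ξ) ≤ P.X (N + 1) (s + σ2) → (σ2 - σ1) * nrm ξ ≤ 5 * kap * (s + σ1 + ρ) :=
    fun σ1 σ2 h1 h2 h3 h4 => by
      have a1 := nrm_add_le (y + σ2 • ξ) (-(y + σ1 • ξ))
      rw [nrm_neg, ← sub_eq_add_neg, add_sub_add_left_eq_sub, ← sub_smul, nrm_smul,
        abs_of_nonneg (sub_nonneg.2 h2)] at a1
      have a2 := hX σ1 h1.le
      have a3 := hX σ2 (h1.le.trans h2)
      have a4 := mul_le_mul_of_nonneg_left hkV (sub_nonneg.2 h2)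
      have a5 : 0 ≤ kap * (s + σ1 + ρ) := by positivity
      nlinarith
  by_cases hex : ∃ σ0, 0 < σ0 ∧ nrm (y + σ0 • ξ) ≤ P.X (N + 1) (s + σ0)
  swap
  · rw [vth, setLIntegral_congr_fun measurableSet_Ioi (g := fun _ => 0) fun σ hσ => if_neg fun h => hex ⟨σ, hσ, h⟩,
      lintegral_zero]
    exact zero_le
  obtain ⟨σ0, h0, h1⟩ := hex
  set d := 5 * kap * (s + σ0 + ρ) / nrm ξ with hd
  have hd0 : 0 ≤ d := by positivity
  have hd1 : d ≤ (s + σ0 + ρ) / 1000 := by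
    rw [hd, div_le_div_iff₀ hV0 (by norm_num)]
    have := mul_le_mul_of_nonneg_left hkV (show 0 ≤ s + σ0 + ρ by positivity)
    have a5 : 0 ≤ kap * (s + σ0 + ρ) := by positivity
    nlinarith
  calc vth P N ρ s y ξ ≤ ∫⁻ σ in Ioi (0 : ℝ), (Icc (σ0 - d) (σ0 + d)).indicator
        (fun _ => ENNReal.ofReal (9 * (1 + nrm ξ) / (s + σ0 + ρ))) σ := by
        refine setLIntegral_mono' measurableSet_Ioi fun σ hσ => ?_
        split_ifs with h
        swap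
        · exact zero_le
        have hσ0 : 0 < σ := hσ
        have hm : σ ∈ Icc (σ0 - d) (σ0 + d) := by
          rcases le_total σ0 σ with a | a
          · have := (le_div_iff₀ hV0).2 (key σ0 σ h0 a h1 h)
            exact ⟨by linarith, by linarith⟩
          · have a1 := key σ σ0 hσ0 a h h1
            have a2 : 5 * kap * (s + σ + ρ) ≤ 5 * kap * (s + σ0 + ρ) := by gcongr
            have := (le_div_iff₀ hV0).2 (a1.trans a2)
            exact ⟨by linarith, by linarith⟩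
        rw [indicator_of_mem hm]
        refine ENNReal.ofReal_le_ofReal ?_
        rw [div_le_div_iff₀ (by positivity) (by positivity)]
        have a1 : 8 * (s + σ0 + ρ) ≤ 9 * (s + σ + ρ) := by linarith [hm.1]
        nlinarith
    _ ≤ ∫⁻ σ, (Icc (σ0 - d) (σ0 + d)).indicator
        (fun _ => ENNReal.ofReal (9 * (1 + nrm ξ) / (s + σ0 + ρ))) σ := setLIntegral_le_lintegral _ _
    _ ≤ _ := by
        rw [lintegral_indicator_const measurableSet_Icc, Real.volume_Icc, ← ENNReal.ofReal_mul (by positivity)]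
        refine ENNReal.ofReal_le_ofReal ?_
        have e : 9 * (1 + nrm ξ) / (s + σ0 + ρ) * (σ0 + d - (σ0 - d)) = 90 * kap * (1 + nrm ξ) / nrm ξ := by
          rw [hd]
          field_simp
          ring
        rw [e, div_le_iff₀ hV0]
        unfold kap DD at *
        linarith
open Classical in
theorem vth_step (P : Par) (N : ℕ) (ρ s : ℝ) {h : ℝ} (hh : 0 ≤ h) (y ξ : R3) :
    vth P N ρ s y ξ = (∫⁻ σ in Ioo 0 h, if nrm (y + σ • ξ) ≤ P.X (N + 1) (s + σ) then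
      ENNReal.ofReal (8 * (1 + nrm ξ) / (s + σ + ρ)) else 0) + vth P N ρ (s + h) (y + h • ξ) ξ := by
  have e : ∀ f : ℝ → ℝ≥0∞, ∫⁻ σ in Ioi (0 : ℝ), f σ = (∫⁻ σ in Ioo 0 h, f σ) + ∫⁻ σ in Ioi (0 : ℝ), f (h + σ) :=
    fun f => by
      rw [(measurePreserving_add_left volume h).setLIntegral_comp_emb (measurableEmbedding_addLeft h) f (Ioi 0),
        image_const_add_Ioi, add_zero, setLIntegral_congr (Ioo_ae_eq_Ioc (a := 0) (b := h)),
        ← lintegral_union measurableSet_Ioi Ioc_disjoint_Ioi_same, Ioc_union_Ioi_eq_Ioi hh]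
  unfold vth
  rw [e]
  simp only [add_smul, add_assoc]
theorem MonPtX.surv {P : Par} (hP : P.Ok) {N : ℕ} {T : ℝ} {F : Den} (hR : Reg P N T F) {ρ s h : ℝ} (hρ : 0 < ρ)
    (hs : 0 ≤ s) (hh : 0 ≤ h) (hT : s + h ≤ T) (y ξ : R3) (hy : nrm y + h * ‖ξ‖ ≤ P.r / 2) :
    Psi P N ρ s y ξ ≤
    Ex F s (s + h) (y + h • ξ) ξ * Psi P N ρ (s + h) (y + h • ξ) ξ + ENNReal.ofReal ((s + nrm y + ρ)⁻¹ ^ 4) *
      ((∫⁻ σ in Ioo 0 h, nu (gs P N (s + σ) (y + σ • ξ)) ξ) + ENNReal.ofReal (h * (1 + ‖ξ‖)) +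
        ENNReal.ofReal (4 * (h * (1 + nrm ξ)) / (s + nrm y + ρ))) := by
  rw [mul_add, ← add_assoc]
  refine le_trans ?_ (add_le_add (survB hP hR hρ hs hh hT y ξ hy) le_rfl)
  have h1 : expNeg (vth P N ρ s y ξ) ≤ expNeg (vth P N ρ (s + h) (y + h • ξ) ξ) :=
    expNeg_anti (by rw [vth_step P N ρ s hh]; exact le_add_self)
  unfold Psi
  split_ifs
  swap
  · exact zero_le
  refine (mul_le_mul' (mul_le_mul' le_rfl (le_mul_of_one_le_right' (one_le_expNeg_add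
    (ENNReal.ofReal (4 * (h * (1 + nrm ξ)) / (s + nrm y + ρ)))))) h1).trans ?_
  rw [mul_add, mul_add, add_mul]
  exact add_le_add le_rfl ((mul_le_of_le_one_right' (expNeg_le_one _)).trans (mul_le_of_le_one_left' (chi_le_one _)))

theorem MonPtX.vac {P : Par} (hP : P.Ok) {N : ℕ} {T : ℝ} {F : Den} (hR : Reg P N T F) (hT1 : T ≤ 1) {ρ s h : ℝ}
    (hρ : 0 < ρ) (hs : 0 ≤ s) (hh : 0 ≤ h) (hhs : h ≤ s) (hT : s + h ≤ T) (y ξ : R3)
    (hy : nrm y + h * ‖ξ‖ ≤ P.r / 2) (hv : nrm y + h * ‖ξ‖ ≤ P.X (N + 1) s) :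
    Psi P N ρ s y ξ ≤ Ex F s (s + h) (y + h • ξ) ξ * Psi P N ρ (s + h) (y + h • ξ) ξ +
      ENNReal.ofReal ((s + nrm y + ρ)⁻¹ ^ 4) * ENNReal.ofReal (h * (1 + ‖ξ‖)) := by
  have h0 := nrm_nonneg y
  have h0'' := nrm_nonneg ξ
  have h1 : ∀ σ ∈ Ioo 0 h, nrm (y + σ • ξ) ≤ P.X (N + 1) (s + σ) := fun σ hσ => by
    have a1 := nrm_move' y ξ hσ.1.le
    have a2 : σ * ‖ξ‖ ≤ h * ‖ξ‖ := mul_le_mul_of_nonneg_right hσ.2.le (norm_nonneg _)
    linarith [X_mono hP (N + 1) s hσ.1.le]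
  have h2 : ∫⁻ σ in Ioo 0 h, nu (gs P N (s + σ) (y + σ • ξ)) ξ = 0 := by
    rw [setLIntegral_congr_fun measurableSet_Ioo (g := fun _ => 0) fun σ hσ => ?_, lintegral_zero]
    have a1 : ∀ a, gs P N (s + σ) (y + σ • ξ) a = 0 := fun a => le_antisymm ((gs_le_G _ _ _ _).trans
      (G_vac hP N ⟨by linarith [hσ.1], by linarith [hσ.2]⟩ ((dd_le_nrm _).trans (h1 σ hσ)) a).le) zero_le
    simp [nu, a1]
  have h3 := survB hP hR hρ hs hh hT y ξ hy
  rw [h2, zero_add] at h3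
  refine le_trans ?_ h3
  unfold Psi
  split_ifs
  swap
  · exact zero_le
  rw [vth_step P N ρ s hh, expNeg_add, ← mul_assoc, mul_assoc (chi ξ)]
  refine mul_le_mul' (mul_le_mul' le_rfl (mul_le_mul' le_rfl (expNeg_anti ?_))) le_rfl
  calc _ = ∫⁻ _ in Ioo 0 h, ENNReal.ofReal (4 * (1 + nrm ξ) / (s + nrm y + ρ)) := by
        rw [setLIntegral_const, Real.volume_Ioo, sub_zero, ← ENNReal.ofReal_mul (by positivity)]
        congr 1
        ring
    _ ≤ _ := by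
        refine setLIntegral_mono' measurableSet_Ioo fun σ hσ => ?_
        rw [if_pos (h1 σ hσ)]
        refine ENNReal.ofReal_le_ofReal ?_
        have := hσ.1
        rw [div_le_div_iff₀ (by positivity) (by positivity)]
        have a1 : s + σ + ρ ≤ 2 * (s + nrm y + ρ) := by linarith [hσ.2]
        nlinarith

/-- the weight of a product of a collision -/
theorem MonPtX.prodw {P : Par} (hP : P.Ok) {N : ℕ} {ρ s h L : ℝ} (hρ : P.fl N ≤ ρ) (hs : 0 < s) (hh : 0 ≤ h)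
    (hL : 0 ≤ L) (hhL : h * (1 + L) ≤ s / 10000) {y z : R3} (hy : nrm y + s ≤ P.r / 2) (hz : nrm z ≤ nrm y + h * L)
    (u : R3) :
    ENNReal.ofReal (989 / 1000) * ENNReal.ofReal ((s + nrm y + ρ)⁻¹ ^ 4) * chi u ≤ Psi P N ρ (s + h) z u := by
  by_cases hu : chi u = 0
  · rw [hu, mul_zero]
    exact zero_le
  have hρ0 := (fl_pos hP N).trans_le hρ
  have h0 := nrm_nonneg y
  have h0' := nrm_nonneg z
  have h1 : h * L ≤ s := by nlinarith
  rw [Psi, if_pos (by linarith), mul_comm, mul_assoc]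
  refine mul_le_mul' le_rfl ?_
  have a1 := ell (l := s + nrm y + ρ) (l' := s + h + nrm z + ρ) (d := h * (1 + L)) (by positivity) (by positivity)
    (by positivity) (by linarith)
  have a2 : ENNReal.ofReal (1 - 1 / 1000) ≤ expNeg (ENNReal.ofReal (4 * (h * (1 + L)) / (s + nrm y + ρ))) := by
    refine expNeg_ge (by norm_num) (ENNReal.ofReal_le_ofReal ?_)
    rw [div_le_iff₀ (by positivity)]
    linarith
  have a3 := expNeg_ge (by norm_num) (vth_le hP hρ (by linarith : 0 ≤ s + h) z hu)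
  refine le_trans ?_ (mul_le_mul' ((mul_le_mul' le_rfl a2).trans a1) a3)
  rw [mul_comm, mul_assoc, ← ENNReal.ofReal_mul (p := 1 - 1 / 1000) (by norm_num)]
  exact mul_le_mul' le_rfl (ENNReal.ofReal_le_ofReal (by norm_num))

theorem MonPtX.two_nu (P : Par) (N : ℕ) (s h : ℝ) (y ξ : R3) :
    2 * ∫⁻ σ in Ioo 0 h, nu (gs P N (s + σ) (y + σ • ξ)) ξ ≤
      (∫⁻ σ in Ioo 0 h, ∫⁻ a, gs P N (s + σ) (y + σ • ξ) a * ∫⁻ w, ENNReal.ofReal |inner ℝ (ξ - a) w| *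
        (chi (postVel ξ a w) + chi (postVelStar ξ a w)) ∂sphereMeasure) +
      ENNReal.ofReal (32 * DD) * ∫⁻ σ in Ioo 0 h, ∫⁻ a, gs P N (s + σ) (y + σ • ξ) a := by
  have m1 : Measurable fun q : ℝ × R3 => gs P N (s + q.1) (y + q.1 • ξ) q.2 :=
    (measD_gs N).comp (by fun_prop) (by fun_prop) (by fun_prop)
  have m2 : Measurable fun σ : ℝ => ENNReal.ofReal (32 * DD) * ∫⁻ a, gs P N (s + σ) (y + σ • ξ) a :=
    m1.lintegral_prod_right'.const_mul _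
  rw [← lintegral_const_mul' _ _ ENNReal.ofNat_ne_top, ← lintegral_const_mul' _ _ ENNReal.ofReal_ne_top,
    ← lintegral_add_right _ m2]
  refine lintegral_mono fun σ => ?_
  have m3 : Measurable fun a => ENNReal.ofReal (32 * DD) * gs P N (s + σ) (y + σ • ξ) a :=
    ((measD_gs N).vel _ _).const_mul _
  simp only [nu]
  rw [← lintegral_const_mul' _ _ ENNReal.ofNat_ne_top, ← lintegral_const_mul' _ _ ENNReal.ofReal_ne_top,
    ← lintegral_add_right _ m3]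
  refine lintegral_mono fun a => ?_
  simp only
  rw [mul_comm (ENNReal.ofReal (32 * DD)), ← mul_add, ← mul_assoc, mul_comm]
  refine mul_le_mul' le_rfl (le_trans (le_of_eq ?_) (prod_chi ξ a))
  rw [show 4 * Real.pi * ‖ξ - a‖ = 2 * (2 * Real.pi * ‖ξ - a‖) by ring, ENNReal.ofReal_mul zero_le_two,
    ENNReal.ofReal_ofNat]

open Classical in
theorem mon_pt_crude : ∃ C : ℝ≥0, ∀ {P : Par}, P.Ok → ∀ {N : ℕ} {T : ℝ} {F : Den}, Reg P N T F → T ≤ 1 →
    ∀ {ρ s h : ℝ}, P.fl N ≤ ρ → ρ ≤ P.r / 2 → 0 < s → 0 ≤ h → h ≤ s → s + h ≤ T → ∀ y ξ : R3, nrm y ≤ P.r / 2 →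
    Psi P N ρ s y ξ ≤ Aop P N F s h (Psi P N ρ (s + h)) y ξ + ENNReal.ofReal ((s + nrm y + ρ)⁻¹ ^ 4) *
      (C * ENNReal.ofReal (h * (1 + ‖ξ‖) ^ 2 / (s + nrm y + P.fl N)) +
        if P.r / 2 < nrm y + h * ‖ξ‖ then 1 else 0) := by
  refine ⟨Real.toNNReal (84 * cc / kap + 2 + 4), fun {P} hP {N T F} hR hT1 {ρ s h} hρ hρr hs hh hhs hT y ξ hy => ?_⟩
  have hfl := fl_pos hP N
  have hρ0 := hfl.trans_le hρ
  have h0 := nrm_nonneg y
  have h0' := nrm_nonneg ξ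
  have hk := kap_pos
  have hc := LawA.cc_pos
  have hr := hP.r1
  split_ifs with hfar
  · refine le_trans ?_ (le_add_self.trans' (mul_le_mul' le_rfl le_add_self))
    rw [mul_one, Psi, if_pos hy]
    exact (mul_le_of_le_one_right' (expNeg_le_one _)).trans (mul_le_of_le_one_left' (chi_le_one _))
  rw [not_lt] at hfar
  refine (MonPtX.surv hP hR hρ0 hs.le hh hT y ξ hfar).trans (add_le_add le_self_add (mul_le_mul' le_rfl ?_))
  set Q := h * (1 + ‖ξ‖) ^ 2 / (s + nrm y + P.fl N) with hQ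
  have hQ0 : 0 ≤ Q := by positivity
  have hn := norm_nonneg ξ
  rw [add_zero, show ((Real.toNNReal (84 * cc / kap + 2 + 4) : ℝ≥0) : ℝ≥0∞) = ENNReal.ofReal _ from rfl,
    ← ENNReal.ofReal_mul (by positivity), add_mul, add_mul,
    ENNReal.ofReal_add (by positivity) (by positivity), ENNReal.ofReal_add (by positivity) (by positivity)]
  refine add_le_add (add_le_add ?_ (ENNReal.ofReal_le_ofReal ?_)) (ENNReal.ofReal_le_ofReal ?_)
  · calc _ ≤ ∫⁻ _ in Ioo 0 h, ENNReal.ofReal (84 * cc / kap * ((1 + ‖ξ‖) ^ 2 / (s + nrm y + P.fl N))) := by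
          refine setLIntegral_mono' measurableSet_Ioo fun σ hσ => ?_
          have hσ0 := hσ.1
          have a0 : s + σ ∈ Icc (0 : ℝ) 1 := ⟨by linarith, by linarith [hσ.2]⟩
          refine (nu_gs hP N a0 _ _).trans ((mul_le_mul' le_rfl (rb_le hP N a0.1 _)).trans ?_)
          have a1 := nrm_move' y ξ hσ0.le
          have a2 : σ * ‖ξ‖ ≤ h * ‖ξ‖ := mul_le_mul_of_nonneg_right hσ.2.le hn
          have a3 := nrm_back (y + σ • ξ) ξ hσ0.le
          have a4 := nrm_nonneg (y + σ • ξ)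
          rw [add_sub_cancel_right] at a3
          rw [dd_eq_nrm (by linarith), ← ENNReal.ofReal_ofNat 21, ← ENNReal.ofReal_mul (by norm_num),
            ← ENNReal.ofReal_mul (by positivity)]
          refine ENNReal.ofReal_le_ofReal ?_
          have a5 : 1 / (s + σ + nrm (y + σ • ξ) + P.fl N) ≤ (1 + ‖ξ‖) / (s + nrm y + P.fl N) := by
            rw [div_le_div_iff₀ (by positivity) (by positivity)]
            nlinarith [mul_nonneg hn hs.le, mul_nonneg hn a4, mul_nonneg hn hfl.le]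
          calc _ = 84 * cc / kap * ((1 + ‖ξ‖) * (1 / (s + σ + nrm (y + σ • ξ) + P.fl N))) := by
                field_simp
                ring
            _ ≤ 84 * cc / kap * ((1 + ‖ξ‖) * ((1 + ‖ξ‖) / (s + nrm y + P.fl N))) := by gcongr
            _ = _ := by ring
      _ = _ := by
          rw [setLIntegral_const, Real.volume_Ioo, sub_zero, ← ENNReal.ofReal_mul (by positivity), hQ]
          congr 1
          ring
  · rw [hQ, ← mul_div_assoc, le_div_iff₀ (by positivity)]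
    have a1 : s + nrm y + P.fl N ≤ 2 := by linarith
    have a2 : 0 ≤ h * (1 + ‖ξ‖) := by positivity
    nlinarith [mul_le_mul_of_nonneg_left a1 a2, mul_nonneg a2 hn]
  · rw [hQ, ← mul_div_assoc]
    have a1 := nrm_le_norm ξ
    have a2 : 1 + nrm ξ ≤ (1 + ‖ξ‖) ^ 2 := by nlinarith
    gcongr
theorem mon_pt_good {δ Lv K : ℝ} (hδ : 0 < δ) (hδ1 : δ ≤ 1) (hLv : 1 ≤ Lv) (hK : 1 ≤ K) : ∃ h1 > 0, h1 ≤ 1 ∧
    ∀ h0, 0 < h0 → h0 ≤ h1 → ∃ M0 : ℕ, ∀ {P : Par}, P.Ok → M0 ≤ P.M → P.eta ≤ δ → ∀ {N : ℕ} {T : ℝ} {F : Den},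
    Reg P N T F → T ≤ 1 → ∀ {ρ s : ℝ}, P.fl N ≤ ρ → ρ ≤ P.r / 2 → 0 < s → s + h0 * s ≤ T → ∀ y ξ : R3,
    nrm y + s ≤ P.r / 2 → ‖ξ‖ ≤ Lv →
    ((GoodSt P N δ Lv s y ξ ∧ nrm y ≤ K * s) ∨ nrm y ≤ P.X (N + 1) s - δ ^ 2 * s) →
    Psi P N ρ s y ξ ≤ Aop P N F s (h0 * s) (Psi P N ρ (s + h0 * s)) y ξ +
      ENNReal.ofReal ((s + nrm y + ρ)⁻¹ ^ 4 * (h0 * s * (1 + ‖ξ‖))) := by
  obtain ⟨hE, hE0, hEx⟩ := Ex_ge (ε := 1 / 1000) (Lv := Lv + 2) (by norm_num) (by linarith)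
  refine ⟨min hE (min (1 / (10000 * (Lv + 3))) (δ ^ 2 / (2 * (Lv + 1)))), by positivity, ?_, fun h0 h0p h01 => ?_⟩
  · refine (min_le_right _ _).trans ((min_le_left _ _).trans ?_)
    rw [div_le_one (by positivity)]
    linarith
  have b1 : h0 ≤ hE := h01.trans (min_le_left _ _)
  have b2 : h0 * (10000 * (Lv + 3)) ≤ 1 :=
    (le_div_iff₀ (by positivity)).1 (h01.trans ((min_le_right _ _).trans (min_le_left _ _)))
  have b3 : h0 * (2 * (Lv + 1)) ≤ δ ^ 2 :=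
    (le_div_iff₀ (by positivity)).1 (h01.trans ((min_le_right _ _).trans (min_le_right _ _)))
  have b4 : 0 ≤ h0 * Lv := by positivity
  obtain ⟨M0, hM⟩ := nu_low hδ hδ1 hLv hK h0p (by linarith) (by linarith)
  refine ⟨M0, fun {P} hP hM0 hη {N T F} hR hT1 {ρ s} hρ hρr hs hT y ξ hy hξ hcase => ?_⟩
  have hρ0 := (fl_pos hP N).trans_le hρ
  have hn := nrm_nonneg y
  have hn' := nrm_nonneg ξ
  have hr := hP.r0
  set h := h0 * s with hh
  have hh0 : 0 < h := by positivity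
  have c1 : h * (1 + (Lv + 2)) ≤ s / 10000 := by
    have := mul_le_mul_of_nonneg_right b2 hs.le
    rw [hh]
    linarith
  have c0 : 0 ≤ h * Lv := by positivity
  have c2 : h * ‖ξ‖ ≤ h * Lv := mul_le_mul_of_nonneg_left hξ hh0.le
  have c3 : nrm y + h * ‖ξ‖ ≤ P.r / 2 := by linarith
  rw [ENNReal.ofReal_mul (by positivity)]
  rcases hcase with ⟨hG, hK'⟩ | hvac
  swap
  · refine (MonPtX.vac hP hR hT1 hρ0 hs.le hh0.le (by linarith) hT y ξ c3 ?_).trans (add_le_add le_self_add le_rfl)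
    have := mul_le_mul_of_nonneg_right b3 hs.le
    have : h * Lv ≤ δ ^ 2 * s := by rw [hh]; nlinarith
    linarith
  obtain ⟨hy0, hν, hm⟩ := hM hP hM0 hη hs (hT.trans hT1) hG hK'
  refine (MonPtX.surv hP hR hρ0 hs.le hh0.le hT y ξ c3).trans ?_
  rw [add_right_comm _ (ENNReal.ofReal (h * (1 + ‖ξ‖))), mul_add, ← add_assoc]
  refine add_le_add (add_le_add le_rfl ?_) le_rfl
  set L4 := ENNReal.ofReal ((s + nrm y + ρ)⁻¹ ^ 4) with hL4
  set ν := ∫⁻ σ in Ioo 0 h, nu (gs P N (s + σ) (y + σ • ξ)) ξ with hνd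
  set Z := ∫⁻ σ in Ioo 0 h, ∫⁻ a, gs P N (s + σ) (y + σ • ξ) a * ∫⁻ w, ENNReal.ofReal |inner ℝ (ξ - a) w| *
        (chi (postVel ξ a w) + chi (postVelStar ξ a w)) ∂sphereMeasure with hZ
  have d1 : ν + ENNReal.ofReal (4 * (h * (1 + nrm ξ)) / (s + nrm y + ρ)) ≤ ENNReal.ofReal (97 / 100) * Z := by
    have e1 := (MonPtX.two_nu P N s h y ξ).trans (add_le_add le_rfl (mul_le_mul' le_rfl hm))
    rw [← hνd, ← hZ, ← ENNReal.ofReal_mul (by norm_num [DD])] at e1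
    have hc := LawA.cc_pos
    refine (ENNReal.add_le_add_iff_right (ENNReal.ofReal_ne_top (r := 32 * DD * (h * cc / nrm y)))).1 ?_
    have e2 : ENNReal.ofReal (4 * (h * (1 + nrm ξ)) / (s + nrm y + ρ)) + ENNReal.ofReal (32 * DD * (h * cc / nrm y)) ≤
        ENNReal.ofReal (94 / 100) * ν := by
      refine le_trans ?_ (mul_le_mul' le_rfl hν)
      rw [← ENNReal.ofReal_add (by positivity) (by unfold DD; positivity), ← ENNReal.ofReal_mul (by norm_num)]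
      refine ENNReal.ofReal_le_ofReal ?_
      have f1 : 1 ≤ max 1 ‖ξ‖ := le_max_left _ _
      have f2 : nrm ξ ≤ max 1 ‖ξ‖ := (nrm_le_norm ξ).trans (le_max_right _ _)
      have f3 : 4 * (h * (1 + nrm ξ)) / (s + nrm y + ρ) ≤ h / nrm y * (8 * max 1 ‖ξ‖) := by
        rw [div_mul_eq_mul_div]
        exact div_le_div₀ (by positivity) (by nlinarith) hy0 (by linarith)
      have f4 : 6 * (max 1 ‖ξ‖ - 1 / 1000) ≤ 2 * Real.pi * (max 1 ‖ξ‖ - 1 / 1000) :=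
        mul_le_mul_of_nonneg_right (by linarith [Real.pi_gt_three]) (by linarith)
      have f5 : 0 < h / nrm y := by positivity
      calc _ ≤ h / nrm y * (8 * max 1 ‖ξ‖) + 32 * DD * (h * cc / nrm y) := add_le_add f3 le_rfl
        _ = h / nrm y * (8 * max 1 ‖ξ‖ + 320) := by unfold DD cc; ring
        _ ≤ h / nrm y * (94 / 100 * (10000 / 64) * (2 * Real.pi * (max 1 ‖ξ‖ - 1 / 1000))) :=
          mul_le_mul_of_nonneg_left (by linarith) f5.le
        _ = _ := by unfold cc; ring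
    calc _ ≤ ν + ENNReal.ofReal (94 / 100) * ν := by rw [add_assoc]; exact add_le_add le_rfl e2
      _ = ENNReal.ofReal (97 / 100) * (2 * ν) := by
        rw [← mul_assoc, ← ENNReal.ofReal_ofNat 2, ← ENNReal.ofReal_mul (by norm_num),
          show (97 / 100 * 2 : ℝ) = 1 + 94 / 100 by norm_num, ENNReal.ofReal_add zero_le_one (by norm_num),
          ENNReal.ofReal_one, add_mul, one_mul]
      _ ≤ _ := by
        refine (mul_le_mul' le_rfl e1).trans ?_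
        rw [mul_add]
        refine add_le_add le_rfl (mul_le_of_le_one_left' ?_)
        rw [← ENNReal.ofReal_one]
        exact ENNReal.ofReal_le_ofReal (by norm_num)
  refine (mul_le_mul' le_rfl d1).trans ?_
  have hLt : L4 ≠ ⊤ := ENNReal.ofReal_ne_top
  have hpath : ∀ (x u : R3) (s1 s2 : ℝ), nrm x ≤ P.r / 2 → ‖u‖ ≤ Lv + 2 → s2 - s1 ≤ h →
      ∀ σ ∈ Ioo s1 s2, dd (x - (s2 - σ) • u) ≤ 2 * P.r := fun x u s1 s2 hx hu h12 σ hσ => by
    have f1 := nrm_back x u (sub_nonneg.2 hσ.2.le)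
    have f2 : (s2 - σ) * ‖u‖ ≤ h * (Lv + 2) := mul_le_mul (by linarith [hσ.1]) hu (norm_nonneg _) hh0.le
    linarith [dd_le_nrm (x - (s2 - σ) • u)]
  have hhE : h ≤ hE * s := mul_le_mul_of_nonneg_right b1 hs.le
  rw [← mul_assoc, hZ, ← lintegral_const_mul' _ _ (ENNReal.mul_ne_top hLt ENNReal.ofReal_ne_top)]
  refine setLIntegral_mono' measurableSet_Ioo fun σ hσ => ?_
  have g1 := nrm_move' y ξ hσ.1.le
  have g2 : σ * ‖ξ‖ ≤ σ * (Lv + 2) := mul_le_mul_of_nonneg_left (by linarith) hσ.1.le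
  have g3 : σ * (Lv + 2) ≤ h * (Lv + 2) := mul_le_mul_of_nonneg_right hσ.2.le (by linarith)
  have E1 := hEx hP hR hT1 hs le_rfl (le_add_of_nonneg_right hσ.1.le) (by linarith [hσ.2]) (by linarith [hσ.2])
    (y + σ • ξ) ξ (by linarith) (hpath _ _ _ _ (by linarith) (by linarith) (by linarith [hσ.2]))
  refine le_trans ?_ (mul_le_mul' E1 le_rfl)
  rw [← lintegral_const_mul' _ _ (ENNReal.mul_ne_top hLt ENNReal.ofReal_ne_top),
    ← lintegral_const_mul' _ _ ENNReal.ofReal_ne_top]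
  refine lintegral_mono fun a => ?_
  by_cases ha : gs P N (s + σ) (y + σ • ξ) a = 0
  · simp [ha]
  have ha2 : ‖a‖ ≤ 2 := (G_supp hP ⟨by linarith [hσ.1], by linarith [hσ.2]⟩
    fun h' => ha (le_antisymm (h' ▸ gs_le_G _ _ _ _) zero_le)).1
  have E2 : ∀ u : R3, ‖u‖ ≤ Lv + 2 → ENNReal.ofReal (1 - 1 / 1000) * (ENNReal.ofReal (989 / 1000) * L4) * chi u ≤
      Ex F (s + σ) (s + h) (y + σ • ξ + (h - σ) • u) u * Psi P N ρ (s + h) (y + σ • ξ + (h - σ) • u) u :=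
    fun u hu => by
      have f1 := nrm_move' (y + σ • ξ) u (sub_nonneg.2 hσ.2.le)
      have f2 : (h - σ) * ‖u‖ ≤ (h - σ) * (Lv + 2) := mul_le_mul_of_nonneg_left hu (sub_nonneg.2 hσ.2.le)
      have f3 : nrm (y + σ • ξ + (h - σ) • u) ≤ nrm y + h * (Lv + 2) := by linarith
      rw [mul_assoc]
      exact mul_le_mul' (hEx hP hR hT1 hs (le_add_of_nonneg_right hσ.1.le) (by linarith [hσ.2]) hT
        (by linarith [hσ.1]) _ u hu (hpath _ _ _ _ (by linarith) hu (by linarith [hσ.1])))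
        (MonPtX.prodw hP hρ hs hh0.le (by linarith) c1 hy f3 u)
  have E3 : ENNReal.ofReal (1 - 1 / 1000) * (ENNReal.ofReal (989 / 1000) * L4) *
      ∫⁻ w, ENNReal.ofReal |inner ℝ (ξ - a) w| * (chi (postVel ξ a w) + chi (postVelStar ξ a w)) ∂sphereMeasure ≤
      ∫⁻ w, ENNReal.ofReal |inner ℝ (ξ - a) w| *
        (Ex F (s + σ) (s + h) (y + σ • ξ + (h - σ) • postVel ξ a w) (postVel ξ a w) *
            Psi P N ρ (s + h) (y + σ • ξ + (h - σ) • postVel ξ a w) (postVel ξ a w) +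
          Ex F (s + σ) (s + h) (y + σ • ξ + (h - σ) • postVelStar ξ a w) (postVelStar ξ a w) *
            Psi P N ρ (s + h) (y + σ • ξ + (h - σ) • postVelStar ξ a w) (postVelStar ξ a w)) ∂sphereMeasure := by
    rw [← lintegral_const_mul' _ _ (ENNReal.mul_ne_top ENNReal.ofReal_ne_top
      (ENNReal.mul_ne_top ENNReal.ofReal_ne_top hLt))]
    refine lintegral_mono_ae (ae_sphere.mono fun w hw => ?_)
    obtain ⟨f1, f2⟩ := post_norm ξ a hw
    rw [mul_left_comm, mul_add]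
    exact mul_le_mul' le_rfl (add_le_add (E2 _ (by linarith)) (E2 _ (by linarith)))
  refine le_trans ?_ (mul_le_mul' le_rfl (mul_le_mul' le_rfl E3))
  have f1 : ENNReal.ofReal (97 / 100) ≤ ENNReal.ofReal (1 - 1 / 1000) * ENNReal.ofReal (99 / 100) *
      ENNReal.ofReal (1 - 1 / 1000) * ENNReal.ofReal (989 / 1000) := by
    rw [← ENNReal.ofReal_mul (by norm_num), ← ENNReal.ofReal_mul (by norm_num), ← ENNReal.ofReal_mul (by norm_num)]
    exact ENNReal.ofReal_le_ofReal (by norm_num)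
  exact (mul_le_mul' (mul_le_mul' le_rfl f1) le_rfl).trans (le_of_eq (by ring))

end Crest.Agent.R68
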