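import Crest.Agent.R68.MonPt
import Crest.Agent.R68.LowStep
import Crest.Agent.R68.Tilt
import Crest.Agent.R68.Qsmall

/-! Planar integrals and velocity moments for `MonStep`. -/

set_option autoImplicit false

open MeasureTheory Set Filter Topology Crest.AnalysisR.VecCalc3 Crest.AnalysisR.PDE.Boltzmann
open scoped ENNReal NNReal

namespace Crest.Agent.R68.MonX

theorem radial {φ : ℝ → ℝ≥0∞} (hφ : Measurable φ) :
    ∫⁻ y : ℝ × ℝ, φ ‖y‖ = ∫⁻ t in Ioi (0 : ℝ), ENNReal.ofReal (8 * t) * φ t := by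
  have hdim : Module.finrank ℝ (ℝ × ℝ) = 2 := by simp
  have hb : (volume : Measure (ℝ × ℝ)) (Metric.ball 0 1) = 4 := by
    rw [show (0 : ℝ × ℝ) = (0, 0) from rfl, ← ball_prod_same, Measure.volume_eq_prod, Measure.prod_prod,
      Real.volume_ball]
    norm_num
  calc ∫⁻ y : ℝ × ℝ, φ ‖y‖
      = ∫⁻ x : ({(0)}ᶜ : Set (ℝ × ℝ)), φ ‖x.1‖ ∂((volume : Measure (ℝ × ℝ)).comap (↑)) := by
        rw [lintegral_subtype_comap (measurableSet_singleton _).compl fun x => φ ‖x‖,
          restrict_compl_singleton]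
    _ = ∫⁻ x, φ x.2 ∂(volume : Measure (ℝ × ℝ)).toSphere.prod
          (.volumeIoiPow (Module.finrank ℝ (ℝ × ℝ) - 1)) := by
        simpa using (volume : Measure (ℝ × ℝ)).measurePreserving_homeomorphUnitSphereProd.lintegral_comp_emb
          (Homeomorph.measurableEmbedding _) (φ ∘ Subtype.val ∘ Prod.snd)
    _ = 8 * ∫⁻ x : Ioi (0 : ℝ), φ x ∂.volumeIoiPow 1 := by
        rw [lintegral_prod _ (by exact (hφ.comp (measurable_subtype_coe.comp measurable_snd)).aemeasurable)]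
        simp only [lintegral_const, Measure.toSphere_apply_univ, hdim, hb]
        rw [mul_comm]
        norm_num
    _ = _ := by
        rw [Measure.volumeIoiPow, lintegral_withDensity_eq_lintegral_mul _ (by fun_prop)
          (by exact hφ.comp measurable_subtype_coe), ← lintegral_const_mul' _ _ (by norm_num),
          ← lintegral_subtype_comap measurableSet_Ioi]
        refine lintegral_congr fun x => ?_
        simp only [Pi.mul_apply, pow_one]
        rw [ENNReal.ofReal_mul (by norm_num), mul_assoc]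
        norm_num

theorem I1 (k : ℕ) {c a : ℝ} (h : 0 < c + a) :
    ∫⁻ t in Ici a, ENNReal.ofReal ((c + t)⁻¹ ^ (k + 2)) ≤ ENNReal.ofReal ((c + a)⁻¹ ^ (k + 1)) := by
  have hd : ∀ x ∈ Ici a, HasDerivAt (fun t : ℝ => -((c + t)⁻¹ ^ (k + 1) / (k + 1)))
      ((c + x)⁻¹ ^ (k + 2)) x := by
    intro x hx
    have hx' : c + x ≠ 0 := by have : a ≤ x := hx; linarith
    have h1 := (((((hasDerivAt_id x).const_add c).inv hx').pow (k + 1)).div_const ((k : ℝ) + 1)).neg
    refine HasDerivAt.congr_deriv (f := fun t : ℝ => -((c + t)⁻¹ ^ (k + 1) / (k + 1))) h1 ?_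
    simp only [Pi.inv_apply, id, Nat.add_sub_cancel]
    push_cast
    rw [show -1 / (c + x) ^ 2 = -(c + x)⁻¹ ^ 2 by rw [inv_pow, neg_div, one_div]]
    generalize (c + x)⁻¹ = u
    field_simp
    ring
  have hpos : ∀ x ∈ Ioi a, 0 ≤ (c + x)⁻¹ ^ (k + 2) := fun x hx => by
    have : a < x := hx
    have : 0 < c + x := by linarith
    positivity
  have ht : Tendsto (fun t : ℝ => -((c + t)⁻¹ ^ (k + 1) / (k + 1))) atTop (𝓝 (-(0 ^ (k + 1) / (k + 1)))) :=
    (((tendsto_inv_atTop_zero.comp (tendsto_atTop_add_const_left _ c tendsto_id)).pow _).div_const _).neg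
  rw [← setLIntegral_congr Ioi_ae_eq_Ici, ← ofReal_integral_eq_lintegral_ofReal
    (integrableOn_Ioi_deriv_of_nonneg' hd hpos ht)
    ((ae_restrict_iff' measurableSet_Ioi).2 (Eventually.of_forall hpos)),
    integral_Ioi_of_hasDerivAt_of_nonneg' hd hpos ht]
  refine ENNReal.ofReal_le_ofReal ?_
  have h1 : 0 ≤ (c + a)⁻¹ ^ (k + 1) := by positivity
  have h2 : (c + a)⁻¹ ^ (k + 1) / (k + 1) ≤ (c + a)⁻¹ ^ (k + 1) :=
    div_le_self h1 (by have : (0 : ℝ) ≤ k := Nat.cast_nonneg k; linarith)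
  simp only [ne_eq, Nat.add_eq_zero_iff, one_ne_zero, and_false, not_false_eq_true, zero_pow, zero_div, neg_zero]
  linarith

theorem I2 {h R : ℝ} (hh : 0 < h) :
    ∫⁻ t in Iic R, ENNReal.ofReal ((h + (R - t))⁻¹ ^ 2) ≤ ENNReal.ofReal h⁻¹ := by
  have h1 := I1 0 (c := h) (a := 0) (by linarith)
  rw [add_zero, zero_add, zero_add, pow_one, ← lintegral_indicator measurableSet_Ici,
    ← lintegral_sub_left_eq_self _ R] at h1
  rw [← lintegral_indicator measurableSet_Iic]
  refine le_trans (le_of_eq (lintegral_congr fun t => ?_)) h1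
  simp only [indicator, mem_Iic, mem_Ici, sub_nonneg]

theorem rad_pow (k : ℕ) {c R : ℝ} (hc : 0 < c) (hR : 0 ≤ R) :
    ∫⁻ y : ℝ × ℝ, (Ici R).indicator (fun t => ENNReal.ofReal ((c + t)⁻¹ ^ (k + 3))) ‖y‖ ≤
      ENNReal.ofReal (8 * (c + R)⁻¹ ^ (k + 1)) := by
  rw [radial (Measurable.indicator (by fun_prop) measurableSet_Ici)]
  calc _ ≤ ∫⁻ t in Ioi (0 : ℝ), (Ici R).indicator
        (fun t => ENNReal.ofReal 8 * ENNReal.ofReal ((c + t)⁻¹ ^ (k + 2))) t := by
        refine setLIntegral_mono' measurableSet_Ioi fun t ht => ?_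
        have ht' : 0 < t := ht
        by_cases h : t ∈ Ici R
        · rw [indicator_of_mem h, indicator_of_mem h, ← ENNReal.ofReal_mul (by positivity),
            ← ENNReal.ofReal_mul (by positivity)]
          refine ENNReal.ofReal_le_ofReal ?_
          have h1 : t * (c + t)⁻¹ ≤ 1 := by
            rw [← div_eq_mul_inv, div_le_one (by positivity)]; linarith
          have h2 : 0 ≤ (c + t)⁻¹ ^ (k + 2) := by positivity
          calc 8 * t * (c + t)⁻¹ ^ (k + 3) = 8 * (c + t)⁻¹ ^ (k + 2) * (t * (c + t)⁻¹) := by ring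
            _ ≤ _ := mul_le_of_le_one_right (by positivity) h1
        · simp [indicator_of_notMem h]
    _ ≤ ∫⁻ t, (Ici R).indicator
        (fun t => ENNReal.ofReal 8 * ENNReal.ofReal ((c + t)⁻¹ ^ (k + 2))) t := setLIntegral_le_lintegral _ _
    _ ≤ _ := by
        rw [lintegral_indicator measurableSet_Ici, lintegral_const_mul' _ _ ENNReal.ofReal_ne_top,
          ENNReal.ofReal_mul (by norm_num)]
        exact mul_le_mul_right (I1 k (by linarith)) _

theorem rad_pow0 (k : ℕ) {c : ℝ} (hc : 0 < c) :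
    ∫⁻ y : ℝ × ℝ, ENNReal.ofReal ((c + ‖y‖)⁻¹ ^ (k + 3)) ≤ ENNReal.ofReal (8 * c⁻¹ ^ (k + 1)) := by
  have h := rad_pow k hc le_rfl
  rw [add_zero] at h
  refine le_trans (le_of_eq (lintegral_congr fun y => ?_)) h
  rw [indicator_of_mem (show ‖y‖ ∈ Ici (0 : ℝ) from norm_nonneg y)]

theorem rad_exit {c r ρ h : ℝ} (hρ : 0 < ρ) (hc : ρ ≤ c) (hr : ρ ≤ r / 2) (hh : 0 < h) :
    ∫⁻ y : ℝ × ℝ, (Iic (r / 2)).indicator
      (fun t => ENNReal.ofReal ((c + t)⁻¹ ^ 3 * (h ^ 2 * (h + (r / 2 - t))⁻¹ ^ 2))) ‖y‖ ≤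
      ENNReal.ofReal (96 * (h * (r * ρ)⁻¹)) := by
  have hr0 : 0 < r := by linarith
  have hc0 : 0 < c := by linarith
  rw [radial (Measurable.indicator (by fun_prop) measurableSet_Iic)]
  calc _ ≤ ∫⁻ t in Ioi (0 : ℝ), ((Iic (r / 2)).indicator (fun t =>
          ENNReal.ofReal (128 * h ^ 2 / r ^ 2) * ENNReal.ofReal ((h + (r / 2 - t))⁻¹ ^ 2)) t +
        ENNReal.ofReal (32 * h / r) * ENNReal.ofReal ((c + t)⁻¹ ^ 2)) := by
        refine setLIntegral_mono' measurableSet_Ioi fun t ht => ?_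
        have ht' : 0 < t := ht
        by_cases h1 : t ∈ Iic (r / 2)
        · have h1' : 0 ≤ r / 2 - t := sub_nonneg.2 h1
          rw [indicator_of_mem h1, indicator_of_mem h1, ← ENNReal.ofReal_mul (by positivity),
            ← ENNReal.ofReal_mul (by positivity), ← ENNReal.ofReal_mul (by positivity),
            ← ENNReal.ofReal_add (by positivity) (by positivity)]
          refine ENNReal.ofReal_le_ofReal ?_
          have h2 : t * (c + t)⁻¹ ≤ 1 := by
            rw [← div_eq_mul_inv, div_le_one (by positivity)]; linarith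
          have h3 : 8 * t * ((c + t)⁻¹ ^ 3 * (h ^ 2 * (h + (r / 2 - t))⁻¹ ^ 2)) ≤
              8 * (c + t)⁻¹ ^ 2 * (h ^ 2 * (h + (r / 2 - t))⁻¹ ^ 2) := by
            calc _ = 8 * (c + t)⁻¹ ^ 2 * (h ^ 2 * (h + (r / 2 - t))⁻¹ ^ 2) * (t * (c + t)⁻¹) := by ring
              _ ≤ _ := mul_le_of_le_one_right (by positivity) h2
          refine h3.trans ?_
          rcases le_total (r / 4) t with h4 | h4
          · refine le_add_of_le_of_nonneg ?_ (by positivity)
            have h5 : (c + t)⁻¹ ≤ 4 / r := by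
              rw [inv_le_comm₀ (by positivity) (by positivity), inv_div]; linarith
            have h6 : (c + t)⁻¹ ^ 2 ≤ (4 / r) ^ 2 := pow_le_pow_left₀ (by positivity) h5 2
            calc _ ≤ 8 * (4 / r) ^ 2 * (h ^ 2 * (h + (r / 2 - t))⁻¹ ^ 2) := by gcongr
              _ = _ := by field_simp; ring
          · refine le_add_of_nonneg_of_le (by positivity) ?_
            have h5 : (h + (r / 2 - t))⁻¹ ≤ 4 / r := by
              rw [inv_le_comm₀ (by positivity) (by positivity), inv_div]; linarith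
            have h6 : h * (h + (r / 2 - t))⁻¹ ≤ 1 := by
              rw [← div_eq_mul_inv, div_le_one (by positivity)]; linarith
            have h7 : h ^ 2 * (h + (r / 2 - t))⁻¹ ^ 2 ≤ h * (4 / r) := by
              calc _ = h * (h + (r / 2 - t))⁻¹ * (h * (h + (r / 2 - t))⁻¹) := by ring
                _ ≤ h * (h + (r / 2 - t))⁻¹ := mul_le_of_le_one_right (by positivity) h6
                _ ≤ _ := by gcongr
            calc _ ≤ 8 * (c + t)⁻¹ ^ 2 * (h * (4 / r)) := by gcongr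
              _ = _ := by field_simp; ring
        · simp [indicator_of_notMem h1]
    _ ≤ ENNReal.ofReal (128 * h ^ 2 / r ^ 2) * ENNReal.ofReal h⁻¹ +
        ENNReal.ofReal (32 * h / r) * ENNReal.ofReal c⁻¹ := by
        rw [lintegral_add_left (Measurable.indicator (by fun_prop) measurableSet_Iic)]
        refine add_le_add ((setLIntegral_le_lintegral _ _).trans ?_) ?_
        · rw [lintegral_indicator measurableSet_Iic, lintegral_const_mul' _ _ ENNReal.ofReal_ne_top]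
          exact mul_le_mul_right (I2 hh) _
        · rw [lintegral_const_mul' _ _ ENNReal.ofReal_ne_top, setLIntegral_congr Ioi_ae_eq_Ici]
          refine mul_le_mul_right ?_ _
          simpa using I1 0 (c := c) (a := 0) (by linarith)
    _ ≤ _ := by
        rw [← ENNReal.ofReal_mul (by positivity), ← ENNReal.ofReal_mul (by positivity),
          ← ENNReal.ofReal_add (by positivity) (by positivity)]
        refine ENNReal.ofReal_le_ofReal ?_
        have h1 : 128 * h ^ 2 / r ^ 2 * h⁻¹ ≤ 64 * (h * (r * ρ)⁻¹) := by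
          have : r⁻¹ ≤ (2 * ρ)⁻¹ := inv_anti₀ (by positivity) (by linarith)
          calc _ = 128 * h * r⁻¹ * r⁻¹ := by field_simp
            _ ≤ 128 * h * r⁻¹ * (2 * ρ)⁻¹ := by gcongr
            _ = _ := by field_simp; ring
        have h2 : 32 * h / r * c⁻¹ ≤ 32 * (h * (r * ρ)⁻¹) := by
          have : c⁻¹ ≤ ρ⁻¹ := inv_anti₀ hρ hc
          calc _ ≤ 32 * h / r * ρ⁻¹ := by gcongr
            _ = _ := by field_simp
        linarith

theorem mom (k : ℕ) : ∃ M : ℝ≥0, ∀ {P : Par}, P.Ok → ∀ {t : ℝ}, t ∈ Icc (0 : ℝ) 1 → ∀ x : R3,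
    ∫⁻ ξ, W (1 / 2) ξ * Lam P t x ξ * pw k ξ ≤ M := by
  obtain ⟨C0, h0⟩ := PB_Lam
  obtain ⟨C1, h1⟩ := PB_WLam
  obtain ⟨C2, h2⟩ := moment_of_PB (lam := 1 / 2) (by norm_num) k
  have hfin : (C2 : ℝ≥0∞) * (C1 * (C0 : ℝ≥0∞) ^ (2 / 3 : ℝ)) ≠ ⊤ :=
    ENNReal.mul_ne_top ENNReal.coe_ne_top (ENNReal.mul_ne_top ENNReal.coe_ne_top
      (ENNReal.rpow_ne_top_of_nonneg (by norm_num) ENNReal.coe_ne_top))
  refine ⟨ENNReal.toNNReal (C2 * (C1 * (C0 : ℝ≥0∞) ^ (2 / 3 : ℝ))), fun {P} hP t ht x => ?_⟩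
  rw [ENNReal.coe_toNNReal hfin]
  have hL := (measD_Lam (P := P)).vel t x
  exact h2 (Measurable.mul (by unfold W; fun_prop) hL) (h1 hL (h0 hP ht x))

theorem vol_slab {L δ : ℝ} (hL : 0 ≤ L) (hδ : 0 ≤ δ) (i : Fin 3) (c : ℝ) :
    volume {ξ : R3 | ‖ξ‖ ≤ L ∧ |ξ i - c| < δ} ≤ ENNReal.ofReal (8 * δ * L ^ 2) := by
  set a : Fin 3 → ℝ := fun j => if j = i then c - δ else -L
  set b : Fin 3 → ℝ := fun j => if j = i then c + δ else L
  have h1 : {ξ : R3 | ‖ξ‖ ≤ L ∧ |ξ i - c| < δ} ⊆ WithLp.ofLp ⁻¹' Icc a b := by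
    intro ξ hξ
    have h2 : ∀ j, |ξ j| ≤ L := fun j => le_trans (by simpa using PiLp.norm_apply_le ξ j) hξ.1
    have h3 := abs_lt.1 hξ.2
    constructor
    · intro j
      simp only [a]
      split_ifs with hj
      · subst hj; linarith [h3.1]
      · exact (abs_le.1 (h2 j)).1
    · intro j
      simp only [b]
      split_ifs with hj
      · subst hj; linarith [h3.2]
      · exact (abs_le.1 (h2 j)).2
  refine (measure_mono h1).trans (le_of_eq ?_)
  rw [(PiLp.volume_preserving_ofLp (Fin 3)).measure_preimage measurableSet_Icc.nullMeasurableSet,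
    Real.volume_Icc_pi, ← ENNReal.ofReal_prod_of_nonneg (fun j _ => by
      simp only [a, b]; split_ifs <;> linarith), Fin.prod_univ_three]
  congr 1
  fin_cases i <;> simp [a, b] <;> ring

theorem slab {η : ℝ} (hη : 0 < η) : ∃ Lv : ℝ, 1 ≤ Lv ∧ ∃ δ1 > 0, ∀ δ, 0 < δ → δ ≤ δ1 → ∀ {P : Par}, P.Ok →
    ∀ {t : ℝ}, t ∈ Icc (0 : ℝ) 1 → ∀ (x : R3) (i : Fin 3) (c : ℝ),
    ∫⁻ ξ in {ξ : R3 | Lv < ‖ξ‖ ∨ |ξ i - c| < δ}, W (1 / 2) ξ * Lam P t x ξ * pw 2 ξ ≤ ENNReal.ofReal η := by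
  obtain ⟨M3, h3⟩ := mom 3
  obtain ⟨C0, h0⟩ := PB_Lam
  obtain ⟨C1, h1⟩ := vol_small (lam := 1 / 2) (by norm_num) 2
  have hfin : (C1 : ℝ≥0∞) * (C0 : ℝ≥0∞) ^ (2 / 3 : ℝ) ≠ ⊤ :=
    ENNReal.mul_ne_top ENNReal.coe_ne_top (ENNReal.rpow_ne_top_of_nonneg (by norm_num) ENNReal.coe_ne_top)
  set A : ℝ := ((C1 : ℝ≥0∞) * (C0 : ℝ≥0∞) ^ (2 / 3 : ℝ)).toReal with hA
  have hA0 : 0 ≤ A := ENNReal.toReal_nonneg
  set Lv : ℝ := 1 + 2 * M3 / η with hLv
  have hLv1 : 1 ≤ Lv := le_add_of_nonneg_right (by positivity)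
  refine ⟨Lv, hLv1, (η / (2 * (A + 1))) ^ 3 / (8 * Lv ^ 2), by positivity,
    fun δ hδ hδ1 P hP t ht x i c => ?_⟩
  have hsub : {ξ : R3 | Lv < ‖ξ‖ ∨ |ξ i - c| < δ} ⊆
      {ξ : R3 | Lv < ‖ξ‖} ∪ {ξ : R3 | ‖ξ‖ ≤ Lv ∧ |ξ i - c| < δ} := by
    intro ξ hξ
    by_cases h : Lv < ‖ξ‖
    · exact Or.inl h
    · exact Or.inr ⟨not_lt.1 h, hξ.resolve_left h⟩
  refine (lintegral_mono_set hsub).trans ((lintegral_union_le _ _ _).trans ?_)
  rw [show η = η / 2 + η / 2 by ring, ENNReal.ofReal_add (by positivity) (by positivity)]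
  refine add_le_add ?_ ?_
  · calc _ ≤ ∫⁻ ξ in {ξ : R3 | Lv < ‖ξ‖}, ENNReal.ofReal Lv⁻¹ * (W (1 / 2) ξ * Lam P t x ξ * pw 3 ξ) := by
          refine setLIntegral_mono' (measurableSet_lt measurable_const measurable_norm) fun ξ hξ => ?_
          have hξ' : Lv < ‖ξ‖ := hξ
          rw [mul_left_comm]
          refine mul_le_mul_right ?_ _
          unfold pw
          rw [← ENNReal.ofReal_mul (by positivity)]
          refine ENNReal.ofReal_le_ofReal ?_
          rw [le_inv_mul_iff₀ (by positivity), pow_succ' _ 2]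
          gcongr
          linarith
      _ ≤ ENNReal.ofReal Lv⁻¹ * M3 := by
          rw [lintegral_const_mul' _ _ ENNReal.ofReal_ne_top]
          exact mul_le_mul_right ((setLIntegral_le_lintegral _ _).trans (h3 hP ht x)) _
      _ ≤ _ := by
          rw [← ENNReal.ofReal_coe_nnreal, ← ENNReal.ofReal_mul (by positivity)]
          refine ENNReal.ofReal_le_ofReal ?_
          rw [inv_mul_le_iff₀ (by positivity), hLv]
          field_simp
          linarith
  · have hS : MeasurableSet {ξ : R3 | ‖ξ‖ ≤ Lv ∧ |ξ i - c| < δ} :=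
      (measurableSet_le measurable_norm measurable_const).inter
        (measurableSet_lt (f := fun ξ : R3 => |ξ i - c|) (by fun_prop) measurable_const)
    have h2 := h1 ((measD_Lam (P := P)).vel t x) (h0 hP ht x) hS
    simp only [mul_comm (W (1 / 2) _) (Lam P t x _)]
    refine h2.trans ?_
    have h4 : ∫⁻ a in {ξ : R3 | ‖ξ‖ ≤ Lv ∧ |ξ i - c| < δ}, W (1 / 2) a ≤
        ENNReal.ofReal ((η / (2 * (A + 1))) ^ 3) := by
      calc _ ≤ ∫⁻ _a in {ξ : R3 | ‖ξ‖ ≤ Lv ∧ |ξ i - c| < δ}, 1 := by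
            refine lintegral_mono fun a => ?_
            unfold W
            rw [← ENNReal.ofReal_one]
            exact ENNReal.ofReal_le_ofReal (Real.exp_le_one_iff.2 (neg_nonpos.2 (by positivity)))
        _ ≤ ENNReal.ofReal (8 * δ * Lv ^ 2) := by
            rw [setLIntegral_one]; exact vol_slab (by linarith) hδ.le i c
        _ ≤ _ := by
            refine ENNReal.ofReal_le_ofReal ?_
            rw [le_div_iff₀ (by positivity)] at hδ1
            linarith
    calc _ ≤ ENNReal.ofReal A * ENNReal.ofReal ((η / (2 * (A + 1))) ^ 3) ^ (1 / 3 : ℝ) := by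
          rw [hA, ENNReal.ofReal_toReal hfin]
          exact mul_le_mul_right (ENNReal.rpow_le_rpow h4 (by norm_num)) _
      _ ≤ _ := by
          rw [ENNReal.ofReal_rpow_of_nonneg (by positivity) (by norm_num), ← ENNReal.ofReal_mul hA0]
          refine ENNReal.ofReal_le_ofReal ?_
          rw [show (1 / 3 : ℝ) = ((3 : ℕ) : ℝ)⁻¹ by norm_num, Real.pow_rpow_inv_natCast (by positivity) (by norm_num)]
          rw [mul_div_assoc', div_le_div_iff₀ (by positivity) (by positivity)]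
          nlinarith

end Crest.Agent.R68.MonX
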