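import Crest.Agent.R68.MonPt
import Crest.Agent.R68.LowStep
import Crest.Agent.R68.Tilt
import Crest.Agent.R68.Qsmall
import Crest.Agent.R68.MonStepA

/-! One step of the monotonicity.  `low_step` with `f = F s · chi · 1[nrm ≤ r/2]` (`G_chi`), `φ = Psi (s+h)`; note `F s · Psi s = f · Psi s`.  Errors are integrated with `ProdLe`; velocity integrals of `W Λ` by `PB_Lam`, `PB_WLam`, `moment_of_PB`, `tail_of_PB`, `vol_small`;
`∫ (c + ‖y‖)^{-4} dy ≤ C c^{-2}`, `∫ (c+‖y‖)^{-3} dy ≤ C/c`, `∫_{‖y‖ > R} (c+‖y‖)^{-4} ≤ C (c+R)^{-2}` on `ℝ × ℝ` (sup norm; e.g. `(c+‖y‖)^{-2} ≤ (c+|y₁|)^{-1}(c+|y₂|)^{-1}` and powers).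
Exit term: for fixed `y`, `d = r/2 - ‖y‖`, the velocities with `‖ξ‖ > d/h` carry `≤ C e^{-d/(4h)}`; for `‖y‖ ≥ r/4` use `ℓ ≥ r/4` and `∫ e^{-d/(4h)} dy ≤ C r h` (or `e^{-z} ≤ (1+z)^{-2}` and slices), for `‖y‖ < r/4` use `e^{-r/(16h)} ≤ 16 h/r`.
In `mon_step` a state is good (`mon_pt_good`) unless `‖ξ‖ > Lv`, or `‖y‖ > K s`, or `‖y‖ > r/2 - s`, or `BadP` with `‖y‖ ≤ K s` (`badPos_area`; `nrm y ≤ r/2 < X 0 s`), or `y` is deep in a (unique) tile and `ξ` lies in the slab `|ξ_R - U_R| < δ` (`vol_small`); there use `mon_pt_crude`. -/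

set_option autoImplicit false

open MeasureTheory Set Filter Topology Crest.AnalysisR.VecCalc3 Crest.AnalysisR.PDE.Boltzmann
open scoped ENNReal NNReal

namespace Crest.Agent.R68

namespace MonX

open Classical in
theorem reduce {P : Par} (hP : P.Ok) {N : ℕ} {T : ℝ} {F : Den} (hR : Reg P N T F) (hT : T ≤ 1)
    {ρ s h : ℝ} (hs : 0 < s) (hh : 0 ≤ h) (hsT : s + h ≤ T) {E : ℝ × ℝ → R3 → ℝ≥0∞} {e : ℝ × ℝ → ℝ≥0∞}
    (hE : ∀ y ξ, ‖y‖ ≤ P.r / 2 → Psi P N ρ s (lift y) ξ ≤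
      Aop P N F s h (Psi P N ρ (s + h)) (lift y) ξ + E y ξ)
    (he : ∀ y, ‖y‖ ≤ P.r / 2 → ∫⁻ ξ, F s (lift y) ξ * chi ξ * E y ξ ≤ e y) :
    II P N ρ F s ≤ II P N ρ F (s + h) + ∫⁻ y, (Iic (P.r / 2)).indicator (fun _ => e y) ‖y‖ := by
  obtain ⟨F00, hF⟩ := hR.mild
  have hFm := hF.1
  have hs1 : s ∈ Icc (0 : ℝ) 1 := ⟨hs.le, by linarith⟩
  have hsT' : s ∈ Icc (0 : ℝ) T := ⟨hs.le, by linarith⟩
  set f : R3 → R3 → ℝ≥0∞ := fun y ξ => if nrm y ≤ P.r / 2 then F s y ξ * chi ξ else 0 with hf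
  have hfm : Meas2 f :=
    Measurable.ite (measurableSet_le (measurable_nrm.comp measurable_fst) measurable_const)
      (Measurable.mul (hFm.slice s) (measurable_chi.comp measurable_snd)) measurable_const
  have hfs : SameInv f := fun y y' hy => by
    funext ξ
    simp only [hf, hy.nrm_eq, hR.inv.same hsT' hy]
  have hle : ∀ y ξ, f y ξ ≤ F s y ξ := fun y ξ => by
    simp only [hf]
    split_ifs
    · exact mul_le_of_le_one_right' (chi_le_one ξ)
    · exact zero_le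
  have hd : ∀ y ξ, f y ξ ≠ 0 → gs P N s y ξ = 0 := fun y ξ h0 => by
    have h1 : chi ξ ≠ 0 := by
      intro h2
      simp [hf, h2] at h0
    exact le_antisymm ((gs_le_G _ _ _ _).trans (G_chi hP N hs1 y h1).le) zero_le
  have hφ := (measD_Psi (P := P) N ρ).slice (s + h)
  have hlow := low_step hR hs.le hh hsT hfm hfs hle hd hφ (sameInv_Psi N ρ (s + h))
  have hA := meas2_Aop (P := P) N hFm s h hφ
  have hm : Measurable fun q : (ℝ × ℝ) × R3 => f (lift q.1) q.2 *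
      Aop P N F s h (Psi P N ρ (s + h)) (lift q.1) q.2 :=
    (hfm.comp (measurable_lift.comp measurable_fst) measurable_snd).mul
      (hA.comp (measurable_lift.comp measurable_fst) measurable_snd)
  refine le_trans ?_ (add_le_add hlow le_rfl)
  rw [← lintegral_add_left hm.lintegral_prod_right']
  refine lintegral_mono fun y => ?_
  by_cases hy : ‖y‖ ≤ P.r / 2
  · rw [indicator_of_mem (show ‖y‖ ∈ Iic (P.r / 2) from hy)]
    refine le_trans ?_ (add_le_add le_rfl (he y hy))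
    have hm' : Measurable fun ξ => f (lift y) ξ * Aop P N F s h (Psi P N ρ (s + h)) (lift y) ξ :=
      (hfm.vel _).mul (hA.vel _)
    dsimp only
    rw [← lintegral_add_left hm']
    refine lintegral_mono fun ξ => ?_
    simp only [hf, nrm_lift, hy, if_true]
    rw [← mul_add]
    by_cases hc : DD ≤ nrm ξ
    · simp only [chi, hc, if_true, mul_one]
      exact mul_le_mul_right (hE y ξ hy) _
    · simp [Psi, chi, hc]
  · simp [Psi, nrm_lift, hy]

theorem master : ∃ Cc K : ℝ≥0, ∀ {P : Par}, P.Ok → ∀ {N : ℕ} {T : ℝ} {F : Den} {B' : ℝ≥0∞}, B' ≠ ⊤ →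
    Reg P N T F → T ≤ 1 → ProdLe P N B' T F → ∀ {ρ s h : ℝ}, P.fl N ≤ ρ → ρ ≤ P.r / 2 → 0 < s → 0 < h →
    h ≤ s → s + h ≤ T → ∀ (Bad : ℝ × ℝ → Set R3) (β : ℝ × ℝ → ℝ≥0∞), (∀ y, MeasurableSet (Bad y)) →
    (∀ y ξ, ‖y‖ ≤ P.r / 2 → ξ ∉ Bad y → Psi P N ρ s (lift y) ξ ≤
      Aop P N F s h (Psi P N ρ (s + h)) (lift y) ξ +
        ENNReal.ofReal ((s + ‖y‖ + ρ)⁻¹ ^ 4 * (h * (1 + ‖ξ‖)))) →
    (∀ y, ‖y‖ ≤ P.r / 2 → ∫⁻ ξ in Bad y, W (1 / 2) ξ * Lam P s (lift y) ξ * pw 2 ξ ≤ β y) →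
    II P N ρ F s ≤ II P N ρ F (s + h) + B' * (K * ENNReal.ofReal (h * (P.r * ρ)⁻¹) +
      Cc * ENNReal.ofReal h * ∫⁻ y : ℝ × ℝ, ENNReal.ofReal ((s + ρ + ‖y‖)⁻¹ ^ 4) * β y) := by
  obtain ⟨Cc, hC⟩ := mon_pt_crude
  obtain ⟨M, hM⟩ := mom 2
  refine ⟨Cc, 104 * M, fun {P} hP N T F B' hB hR hT hprod ρ s h hρ hρ' hs hh hhs hsT Bad β hBad hgood hβ => ?_⟩
  have hfl := fl_pos hP N
  have hρ0 : 0 < ρ := lt_of_lt_of_le hfl hρ
  have hs1 : s ∈ Icc (0 : ℝ) 1 := ⟨hs.le, by linarith⟩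
  have hsT' : s ∈ Icc (0 : ℝ) T := ⟨hs.le, by linarith⟩
  set a1 : ℝ → ℝ := fun t => (s + ρ + t)⁻¹ ^ 4 * h with ha1
  set a2 : ℝ → ℝ := fun t => (s + ρ + t)⁻¹ ^ 4 * (h ^ 2 * (h + (P.r / 2 - t))⁻¹ ^ 2) with ha2
  set a3 : ℝ → ℝ := fun t => (s + ρ + t)⁻¹ ^ 4 * h / (s + t + P.fl N) with ha3
  refine (reduce hP hR hT hs hh.le hsT
    (E := fun y ξ => ENNReal.ofReal (a1 ‖y‖ + a2 ‖y‖) * pw 2 ξ +
      (Bad y).indicator (fun ξ => Cc * ENNReal.ofReal (a3 ‖y‖) * pw 2 ξ) ξ)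
    (e := fun y => B' * (M * ENNReal.ofReal ((s + ρ + ‖y‖)⁻¹ ^ 3 * h) +
      M * ENNReal.ofReal ((s + ρ + ‖y‖)⁻¹ ^ 3 * (h ^ 2 * (h + (P.r / 2 - ‖y‖))⁻¹ ^ 2)) +
      Cc * ENNReal.ofReal h * (ENNReal.ofReal ((s + ρ + ‖y‖)⁻¹ ^ 4) * β y))) ?_ ?_).trans ?_
  · intro y ξ hy
    have hy0 := norm_nonneg y
    have hd : 0 ≤ P.r / 2 - ‖y‖ := sub_nonneg.2 hy
    have hξ0 := norm_nonneg ξ
    have e0 : s + ‖y‖ + ρ = s + ρ + ‖y‖ := by ring
    by_cases hb : ξ ∈ Bad y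
    · have h1 := hC hP hR hT hρ hρ' hs hh.le hhs hsT (lift y) ξ (by rwa [nrm_lift])
      refine h1.trans (add_le_add le_rfl ?_)
      rw [nrm_lift, indicator_of_mem hb, mul_add, add_comm, e0]
      refine add_le_add ?_ (le_of_eq ?_)
      · split_ifs with hx
        · unfold pw
          rw [mul_one, ← ENNReal.ofReal_mul (by positivity)]
          refine ENNReal.ofReal_le_ofReal ?_
          have h2 : 1 ≤ h * (h + (P.r / 2 - ‖y‖))⁻¹ * (1 + ‖ξ‖) := by
            rw [mul_right_comm, ← div_eq_mul_inv, le_div_iff₀ (by positivity)]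
            linarith
          have h3 : 1 ≤ (h * (h + (P.r / 2 - ‖y‖))⁻¹ * (1 + ‖ξ‖)) ^ 2 := one_le_pow₀ h2
          calc _ ≤ (s + ρ + ‖y‖)⁻¹ ^ 4 * (h * (h + (P.r / 2 - ‖y‖))⁻¹ * (1 + ‖ξ‖)) ^ 2 :=
                le_mul_of_one_le_right (by positivity) h3
            _ = a2 ‖y‖ * (1 + ‖ξ‖) ^ 2 := by simp only [ha2]; ring
            _ ≤ _ := by
                refine mul_le_mul_of_nonneg_right (le_add_of_nonneg_left ?_) (by positivity)
                simp only [ha1]; positivity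
        · simp
      · unfold pw
        rw [mul_left_comm, mul_assoc, ← ENNReal.ofReal_mul (by positivity),
          ← ENNReal.ofReal_mul (by simp only [ha3]; positivity)]
        congr 2
        simp only [ha3]; ring
    · refine (hgood y ξ hy hb).trans (add_le_add le_rfl (le_add_right ?_))
      unfold pw
      rw [← ENNReal.ofReal_mul (by simp only [ha1, ha2]; positivity), e0]
      refine ENNReal.ofReal_le_ofReal ?_
      calc _ = a1 ‖y‖ * (1 + ‖ξ‖) := by simp only [ha1]; ring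
        _ ≤ (a1 ‖y‖ + a2 ‖y‖) * (1 + ‖ξ‖) ^ 2 := by
          refine mul_le_mul (le_add_of_nonneg_right (by simp only [ha2]; positivity)) (by nlinarith)
            (by positivity) (by simp only [ha1, ha2]; positivity)
  · intro y hy
    have hy0 := norm_nonneg y
    have hd : 0 ≤ P.r / 2 - ‖y‖ := sub_nonneg.2 hy
    set m : ℝ := s + ‖y‖ + P.fl N with hm
    have hm0 : 0 < m := by positivity
    set g : R3 → ℝ≥0∞ := fun ξ => W (1 / 2) ξ * Lam P s (lift y) ξ * pw 2 ξ with hg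
    have hgm : Measurable g :=
      (Measurable.mul (by unfold W; fun_prop) ((measD_Lam (P := P)).vel _ _)).mul (by unfold pw; fun_prop)
    have hml : m * (s + ρ + ‖y‖)⁻¹ ≤ 1 := by
      rw [← div_eq_mul_inv, div_le_one (by positivity)]; linarith
    calc _ ≤ ∫⁻ ξ, B' * (ENNReal.ofReal (m * (a1 ‖y‖ + a2 ‖y‖)) * g ξ +
          (Bad y).indicator (fun ξ => Cc * ENNReal.ofReal (m * a3 ‖y‖) * g ξ) ξ) := by
          refine lintegral_mono fun ξ => ?_
          have h1 := hprod s hsT' (lift y) ξ (by rwa [nrm_lift])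
          rw [nrm_lift] at h1
          refine (mul_le_mul_left h1 _).trans (le_of_eq ?_)
          rw [ENNReal.ofReal_mul hm0.le, ENNReal.ofReal_mul hm0.le]
          by_cases hb : ξ ∈ Bad y
          · simp only [indicator_of_mem hb, hg]; ring
          · simp only [indicator_of_notMem hb, hg]; ring
      _ ≤ _ := by
          rw [lintegral_const_mul' _ _ hB, lintegral_add_left (hgm.const_mul _),
            lintegral_const_mul' _ _ ENNReal.ofReal_ne_top, lintegral_indicator (hBad y),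
            lintegral_const_mul' _ _ (ENNReal.mul_ne_top ENNReal.coe_ne_top ENNReal.ofReal_ne_top)]
          refine mul_le_mul_right (add_le_add ?_ ?_) _
          · rw [← mul_add (M : ℝ≥0∞), ← ENNReal.ofReal_add (by positivity) (by positivity), mul_comm]
            refine mul_le_mul' (hM hP hs1 _) (ENNReal.ofReal_le_ofReal ?_)
            calc _ = ((s + ρ + ‖y‖)⁻¹ ^ 3 * h + (s + ρ + ‖y‖)⁻¹ ^ 3 *
                  (h ^ 2 * (h + (P.r / 2 - ‖y‖))⁻¹ ^ 2)) * (m * (s + ρ + ‖y‖)⁻¹) := by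
                  simp only [ha1, ha2]; ring
              _ ≤ _ := mul_le_of_le_one_right (by positivity) hml
          · rw [← mul_assoc, mul_assoc (Cc : ℝ≥0∞) (ENNReal.ofReal h), ← ENNReal.ofReal_mul hh.le]
            refine mul_le_mul' (le_of_eq ?_) (hβ y hy)
            congr 2
            simp only [ha3, ← hm]
            field_simp
  · refine add_le_add le_rfl ?_
    calc _ ≤ ∫⁻ y : ℝ × ℝ, B' * (M * ENNReal.ofReal h * ENNReal.ofReal ((s + ρ + ‖y‖)⁻¹ ^ 3) +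
          M * (Iic (P.r / 2)).indicator (fun t =>
            ENNReal.ofReal ((s + ρ + t)⁻¹ ^ 3 * (h ^ 2 * (h + (P.r / 2 - t))⁻¹ ^ 2))) ‖y‖ +
          Cc * ENNReal.ofReal h * (ENNReal.ofReal ((s + ρ + ‖y‖)⁻¹ ^ 4) * β y)) := by
          refine lintegral_mono fun y => ?_
          by_cases hy : ‖y‖ ∈ Iic (P.r / 2)
          · rw [indicator_of_mem hy, indicator_of_mem hy, mul_comm _ h, ENNReal.ofReal_mul hh.le,
              ← mul_assoc (M : ℝ≥0∞)]
          · simp [indicator_of_notMem hy]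
      _ ≤ _ := by
          have m1 : Measurable fun y : ℝ × ℝ =>
              M * ENNReal.ofReal h * ENNReal.ofReal ((s + ρ + ‖y‖)⁻¹ ^ 3) := by fun_prop
          have m2 : Measurable fun y : ℝ × ℝ => (M : ℝ≥0∞) * (Iic (P.r / 2)).indicator (fun t =>
              ENNReal.ofReal ((s + ρ + t)⁻¹ ^ 3 * (h ^ 2 * (h + (P.r / 2 - t))⁻¹ ^ 2))) ‖y‖ :=
            ((Measurable.indicator (by fun_prop) measurableSet_Iic).comp measurable_norm).const_mul _
          rw [lintegral_const_mul' _ _ hB, lintegral_add_left (m1.fun_add m2), lintegral_add_left m1,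
            lintegral_const_mul' _ _ (ENNReal.mul_ne_top ENNReal.coe_ne_top ENNReal.ofReal_ne_top),
            lintegral_const_mul' _ _ ENNReal.coe_ne_top,
            lintegral_const_mul' _ _ (ENNReal.mul_ne_top ENNReal.coe_ne_top ENNReal.ofReal_ne_top)]
          refine mul_le_mul_right (add_le_add ?_ le_rfl) _
          have h1 := rad_pow0 0 (c := s + ρ) (by positivity)
          have h2 := rad_exit (c := s + ρ) hρ0 (by linarith) hρ' hh
          refine (add_le_add (mul_le_mul_right h1 _) (mul_le_mul_right h2 _)).trans ?_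
          rw [mul_assoc, ← mul_add, ← ENNReal.ofReal_mul hh.le,
            ← ENNReal.ofReal_add (by positivity) (by have := hP.r0; positivity)]
          push_cast
          rw [mul_comm 104, mul_assoc, ← ENNReal.ofReal_ofNat 104, ← ENNReal.ofReal_mul (by norm_num)]
          refine mul_le_mul_right (ENNReal.ofReal_le_ofReal ?_) _
          have h3 : (s + ρ)⁻¹ ≤ (P.r * ρ)⁻¹ := by
            refine inv_anti₀ (mul_pos hP.r0 hρ0) ?_
            nlinarith [hP.r1]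
          rw [pow_one]
          change _ ≤ (104 : ℝ) * _
          nlinarith

end MonX

open MonX in
theorem mon_step_crude : ∃ C : ℝ≥0, ∀ {P : Par}, P.Ok → ∀ {N : ℕ} {T : ℝ} {F : Den} {B' : ℝ≥0∞}, Reg P N T F → T ≤ 1 →
    ProdLe P N B' T F → ∀ {ρ s h : ℝ}, P.fl N ≤ ρ → ρ ≤ P.r / 2 → 0 < s → 0 ≤ h → h ≤ s → s + h ≤ T →
    II P N ρ F s ≤ II P N ρ F (s + h) +
      C * B' * ENNReal.ofReal (h * ((s + ρ)⁻¹ ^ 2 + (P.r * ρ)⁻¹)) := by
  obtain ⟨Cc, K, hK⟩ := master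
  obtain ⟨M, hM⟩ := mom 2
  refine ⟨K + 8 * Cc * M + 1, fun {P} hP N T F B' hR hT hprod ρ s h hρ hρ' hs hh hhs hsT => ?_⟩
  have hρ0 : 0 < ρ := lt_of_lt_of_le (fl_pos hP N) hρ
  have hr0 := hP.r0
  rcases eq_or_lt_of_le hh with rfl | hh0
  · simp
  by_cases hB : B' = ⊤
  · have h1 : ENNReal.ofReal (h * ((s + ρ)⁻¹ ^ 2 + (P.r * ρ)⁻¹)) ≠ 0 :=
      (ENNReal.ofReal_pos.2 (by positivity)).ne'
    rw [hB, ENNReal.mul_top (by simp), ENNReal.top_mul h1]
    simp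
  have hs1 : s ∈ Icc (0 : ℝ) 1 := ⟨hs.le, by linarith⟩
  refine (hK hP hB hR hT hprod hρ hρ' hs hh0 hhs hsT (fun _ => univ) (fun _ => M)
    (fun _ => MeasurableSet.univ) (fun y ξ _ h => absurd (mem_univ ξ) h)
    (fun y _ => by rw [Measure.restrict_univ]; exact hM hP hs1 _)).trans (add_le_add le_rfl ?_)
  rw [mul_comm _ B', mul_assoc B', lintegral_mul_const' _ _ ENNReal.coe_ne_top]
  refine mul_le_mul_right ?_ _
  have h1 := rad_pow0 1 (c := s + ρ) (by positivity)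
  refine (add_le_add le_rfl (mul_le_mul_right (mul_le_mul_left h1 _) _)).trans ?_
  simp only [← ENNReal.ofReal_coe_nnreal]
  rw [← ENNReal.ofReal_mul (by positivity), ← ENNReal.ofReal_mul (by positivity),
    ← ENNReal.ofReal_mul (by positivity), ← ENNReal.ofReal_mul (by positivity),
    ← ENNReal.ofReal_mul (by positivity), ← ENNReal.ofReal_add (by positivity) (by positivity)]
  refine ENNReal.ofReal_le_ofReal ?_
  push_cast
  have h2 : 0 ≤ h * (s + ρ)⁻¹ ^ 2 := by positivity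
  have h3 : 0 ≤ h * (P.r * ρ)⁻¹ := by positivity
  have h4 : 0 ≤ (Cc : ℝ) * M := by positivity
  nlinarith [mul_nonneg h4 h3, mul_nonneg K.2 h2]
open MonX in
theorem mon_step : ∃ C : ℝ≥0, ∀ {ε K : ℝ}, 0 < ε → 1 ≤ K → ∃ h1 > 0, h1 ≤ 1 ∧ ∃ η0 > 0, ∀ h0, 0 < h0 → h0 ≤ h1 →
    ∃ M0 : ℕ, ∀ {P : Par}, P.Ok → M0 ≤ P.M → P.eta ≤ η0 → ∀ {N : ℕ} {T : ℝ} {F : Den} {B' : ℝ≥0∞},
    Reg P N T F → T ≤ P.r / 4 → ProdLe P N B' T F → ∀ {ρ s : ℝ}, P.fl N ≤ ρ → ρ ≤ P.r / 2 → 0 < s →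
    s + h0 * s ≤ T →
    II P N ρ F s ≤ II P N ρ F (s + h0 * s) + B' * ENNReal.ofReal (h0 * s *
      (ε * (s + ρ)⁻¹ ^ 2 + C * (K * s + ρ)⁻¹ ^ 2 + C * (P.r * ρ)⁻¹)) := by
  classical
  obtain ⟨Cc, K0, hK⟩ := master
  obtain ⟨M, hM⟩ := mom 2
  refine ⟨K0 + 64 * Cc * M, fun {ε K} hε hK1 => ?_⟩
  obtain ⟨Lv, hLv, δ1, hδ1, hslab⟩ := MonX.slab (η := ε / (16 * (Cc + 1))) (by positivity)
  obtain ⟨δ0, hδ0, hδ01, harea⟩ := badPos_area (ε := ε / (2 * (Cc * M + 1))) (by positivity) hK1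
  set δ := min δ0 δ1 with hδ
  have hδp : 0 < δ := lt_min hδ0 hδ1
  obtain ⟨h1, hh1, hh11, hgood⟩ := mon_pt_good hδp ((min_le_left _ _).trans hδ01) hLv hK1
  refine ⟨h1, hh1, hh11, δ, hδp, fun h0 hh0 hh01 => ?_⟩
  obtain ⟨M0, hM0⟩ := hgood h0 hh0 hh01
  refine ⟨M0, fun {P} hP hPM hη N T F B' hR hT hprod ρ s hρ hρ' hs hsT => ?_⟩
  have hρ0 : 0 < ρ := lt_of_lt_of_le (fl_pos hP N) hρ
  have hr0 := hP.r0
  have hr1 := hP.r1
  have hT1 : T ≤ 1 := by linarith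
  have hh : 0 < h0 * s := mul_pos hh0 hs
  have hKs : 0 < K * s := mul_pos (by linarith) hs
  by_cases hB : B' = ⊤
  · have h2 : ENNReal.ofReal (h0 * s * (ε * (s + ρ)⁻¹ ^ 2 + ((K0 + 64 * Cc * M : ℝ≥0) : ℝ) * (K * s + ρ)⁻¹ ^ 2 +
        ((K0 + 64 * Cc * M : ℝ≥0) : ℝ) * (P.r * ρ)⁻¹)) ≠ 0 :=
      (ENNReal.ofReal_pos.2 (by positivity)).ne'
    rw [hB, ENNReal.top_mul h2]
    simp
  have hs1 : s ∈ Icc (0 : ℝ) 1 := ⟨hs.le, by linarith⟩
  set YB : Set (ℝ × ℝ) := {y | ‖y‖ ≤ K * s ∧ BadP P N δ s (lift y)} with hYB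
  have hYBm : MeasurableSet YB :=
    (measurableSet_le measurable_norm measurable_const).inter
      ((measurableSet_BadP P N δ).preimage (f := fun y : ℝ × ℝ => (s, lift y))
        (measurable_const.prodMk measurable_lift))
  set bad : ℝ × ℝ → Prop := fun y => K * s ≤ ‖y‖ ∨ P.r / 4 ≤ ‖y‖ ∨ y ∈ YB with hbad
  have hch : ∀ y : ℝ × ℝ, ∃ (i : Fin 3) (c : ℝ), ¬ bad y → ∀ ξ : R3, ¬ (Lv < ‖ξ‖ ∨ |ξ i - c| < δ) →
      (GoodSt P N δ Lv s (lift y) ξ ∧ nrm (lift y) ≤ K * s) ∨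
        nrm (lift y) ≤ P.X (N + 1) s - δ ^ 2 * s := by
    intro y
    by_cases hd : ∃ τ, Deep P N δ τ s (lift y)
    · obtain ⟨τ, hτ⟩ := hd
      refine ⟨iR τ, U P (τ, true) s (lift y) (iR τ), fun hb ξ hξ => Or.inl ⟨⟨τ, hτ, ?_, ?_⟩, ?_⟩⟩
      · exact not_lt.1 fun h => hξ (Or.inl h)
      · exact not_lt.1 fun h => hξ (Or.inr h)
      · rw [nrm_lift]; exact (not_le.1 fun h => hb (Or.inl h)).le
    · refine ⟨0, 0, fun hb ξ _ => Or.inr (not_lt.1 fun h => hb (Or.inr (Or.inr ⟨?_, hd, h, ?_⟩)))⟩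
      · exact (not_le.1 fun h => hb (Or.inl h)).le
      · have h2 : ‖y‖ < P.r / 4 := not_le.1 fun h => hb (Or.inr (Or.inl h))
        have h3 : 0 ≤ (kap + P.et 0) * s := mul_nonneg (add_pos kap_pos (et_pos hP 0)).le hs.le
        rw [nrm_lift]
        unfold Par.X Par.rr
        simp only [pow_zero, div_one]
        linarith
  choose ii cc' hch using hch
  have hmain := hK hP hB hR hT1 hprod hρ hρ' hs hh (mul_le_of_le_one_left hs.le (hh01.trans hh11)) hsT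
    (fun y => if bad y then univ else {ξ : R3 | Lv < ‖ξ‖ ∨ |ξ (ii y) - cc' y| < δ})
    (fun y => ENNReal.ofReal (ε / (16 * (Cc + 1))) + if bad y then (M : ℝ≥0∞) else 0)
    (fun y => by
      split_ifs
      · exact MeasurableSet.univ
      · exact (measurableSet_lt measurable_const measurable_norm).union
          (measurableSet_lt (f := fun ξ : R3 => |ξ (ii y) - cc' y|) (by fun_prop) measurable_const))
    (fun y ξ hy hξ => by
      by_cases hb : bad y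
      · exact absurd (by simp [hb]) hξ
      · rw [if_neg hb] at hξ
        have h2 : ‖y‖ < P.r / 4 := not_le.1 fun h => hb (Or.inr (Or.inl h))
        have h3 := hM0 hP hPM hη hR hT1 hρ hρ' hs hsT (lift y) ξ (by rw [nrm_lift]; linarith)
          (not_lt.1 fun h => hξ (Or.inl h)) (hch y hb ξ hξ)
        rwa [nrm_lift] at h3)
    (fun y _ => by
      by_cases hb : bad y
      · simp only [if_pos hb, Measure.restrict_univ]
        exact le_add_left (hM hP hs1 _)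
      · simp only [if_neg hb, add_zero]
        exact hslab δ hδp (min_le_right _ _) hP hs1 _ _ _)
  refine hmain.trans (add_le_add le_rfl (mul_le_mul_right ?_ _))
  have hI : ∫⁻ y : ℝ × ℝ, ENNReal.ofReal ((s + ρ + ‖y‖)⁻¹ ^ 4) *
      (ENNReal.ofReal (ε / (16 * (Cc + 1))) + if bad y then (M : ℝ≥0∞) else 0) ≤
      ENNReal.ofReal (ε / (16 * (Cc + 1))) * ENNReal.ofReal (8 * (s + ρ)⁻¹ ^ 2) +
        M * (ENNReal.ofReal (8 * (s + ρ + K * s)⁻¹ ^ 2) + ENNReal.ofReal (8 * (s + ρ + P.r / 4)⁻¹ ^ 2) +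
          ENNReal.ofReal ((s + ρ)⁻¹ ^ 4) * ENNReal.ofReal (ε / (2 * (Cc * M + 1)) * s ^ 2)) := by
    have m1 : ∀ R : ℝ, Measurable fun y : ℝ × ℝ =>
        (Ici R).indicator (fun t => ENNReal.ofReal ((s + ρ + t)⁻¹ ^ (1 + 3))) ‖y‖ := fun R =>
      (Measurable.indicator (by fun_prop) measurableSet_Ici).comp measurable_norm
    calc _ ≤ ∫⁻ y : ℝ × ℝ, (ENNReal.ofReal (ε / (16 * (Cc + 1))) * ENNReal.ofReal ((s + ρ + ‖y‖)⁻¹ ^ (1 + 3)) +
          M * ((Ici (K * s)).indicator (fun t => ENNReal.ofReal ((s + ρ + t)⁻¹ ^ (1 + 3))) ‖y‖ +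
            (Ici (P.r / 4)).indicator (fun t => ENNReal.ofReal ((s + ρ + t)⁻¹ ^ (1 + 3))) ‖y‖ +
            YB.indicator (fun _ => ENNReal.ofReal ((s + ρ)⁻¹ ^ 4)) y)) := by
          refine lintegral_mono fun y => ?_
          rw [mul_add, mul_comm]
          refine add_le_add le_rfl ?_
          split_ifs with hb
          · rw [mul_comm]
            refine mul_le_mul_right ?_ _
            rcases hb with hb | hb | hb
            · rw [indicator_of_mem (show ‖y‖ ∈ Ici (K * s) from hb)]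
              exact le_add_right (le_add_right le_rfl)
            · rw [indicator_of_mem (show ‖y‖ ∈ Ici (P.r / 4) from hb)]
              exact le_add_right (le_add_left le_rfl)
            · rw [indicator_of_mem hb]
              refine le_add_left (ENNReal.ofReal_le_ofReal ?_)
              have := norm_nonneg y
              exact pow_le_pow_left₀ (by positivity) (inv_anti₀ (by positivity) (by linarith)) 4
          · simp
      _ ≤ _ := by
          rw [lintegral_add_left (by fun_prop), lintegral_const_mul' _ _ ENNReal.ofReal_ne_top,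
            lintegral_const_mul' _ _ ENNReal.coe_ne_top, lintegral_add_left ((m1 _).fun_add (m1 _)),
            lintegral_add_left (m1 _), lintegral_indicator_const hYBm]
          exact add_le_add (mul_le_mul_right (rad_pow0 1 (by positivity)) _) (mul_le_mul_right
            (add_le_add (add_le_add (rad_pow 1 (by positivity) hKs.le)
              (rad_pow 1 (by positivity) (by positivity)))
              (mul_le_mul_right (harea δ hδp (min_le_left _ _) hP hη N hs) _)) _)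
  refine (add_le_add le_rfl (mul_le_mul_right hI _)).trans ?_
  simp only [← ENNReal.ofReal_coe_nnreal]
  rw [← ENNReal.ofReal_mul (by positivity), ← ENNReal.ofReal_mul (by positivity),
    ← ENNReal.ofReal_mul (by positivity), ← ENNReal.ofReal_mul (by positivity),
    ← ENNReal.ofReal_add (by positivity) (by positivity),
    ← ENNReal.ofReal_add (by positivity) (by positivity), ← ENNReal.ofReal_mul (by positivity),
    ← ENNReal.ofReal_add (by positivity) (by positivity), ← ENNReal.ofReal_mul (by positivity),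
    ← ENNReal.ofReal_add (by positivity) (by positivity)]
  refine ENNReal.ofReal_le_ofReal ?_
  push_cast
  have hC0 : (0 : ℝ) ≤ Cc := Cc.2
  have hM0' : (0 : ℝ) ≤ M := M.2
  have hK0 : (0 : ℝ) ≤ K0 := K0.2
  have e1 : (Cc : ℝ) * (ε / (16 * (Cc + 1)) * (8 * (s + ρ)⁻¹ ^ 2)) ≤ ε / 2 * (s + ρ)⁻¹ ^ 2 := by
    have : (Cc : ℝ) / (Cc + 1) ≤ 1 := div_le_one_of_le₀ (by linarith) (by positivity)
    calc _ = ε / 2 * (s + ρ)⁻¹ ^ 2 * ((Cc : ℝ) / (Cc + 1)) := by field_simp; ring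
      _ ≤ _ := mul_le_of_le_one_right (by positivity) this
  have e2 : (Cc : ℝ) * M * ((s + ρ)⁻¹ ^ 4 * (ε / (2 * (Cc * M + 1)) * s ^ 2)) ≤ ε / 2 * (s + ρ)⁻¹ ^ 2 := by
    have k1 : (Cc : ℝ) * M / (Cc * M + 1) ≤ 1 := div_le_one_of_le₀ (by linarith) (by positivity)
    have k2 : (s / (s + ρ)) ^ 2 ≤ 1 :=
      pow_le_one₀ (by positivity) (div_le_one_of_le₀ (by linarith) (by positivity))
    calc _ = ε / 2 * (s + ρ)⁻¹ ^ 2 * ((Cc : ℝ) * M / (Cc * M + 1) * (s / (s + ρ)) ^ 2) := by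
          field_simp
      _ ≤ _ := mul_le_of_le_one_right (by positivity) (mul_le_one₀ k1 (by positivity) k2)
  have e3 : (s + ρ + K * s)⁻¹ ^ 2 ≤ (K * s + ρ)⁻¹ ^ 2 :=
    pow_le_pow_left₀ (by positivity) (inv_anti₀ (by positivity) (by linarith)) 2
  have e4 : (s + ρ + P.r / 4)⁻¹ ^ 2 ≤ 8 * (P.r * ρ)⁻¹ := by
    rw [inv_pow, ← div_eq_mul_inv, inv_eq_one_div, div_le_div_iff₀ (by positivity) (by positivity)]
    nlinarith
  have hCM : (0 : ℝ) ≤ Cc * M := by positivity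
  have e5 := mul_le_mul_of_nonneg_left e3 hCM
  have e6 := mul_le_mul_of_nonneg_left e4 hCM
  have e7 : 0 ≤ (K * s + ρ)⁻¹ ^ 2 := by positivity
  have e8 := mul_nonneg hCM e7
  have e9 := mul_nonneg hK0 e7
  have key : (K0 : ℝ) * (P.r * ρ)⁻¹ + Cc * (ε / (16 * (Cc + 1)) * (8 * (s + ρ)⁻¹ ^ 2) +
      M * (8 * (s + ρ + K * s)⁻¹ ^ 2 + 8 * (s + ρ + P.r / 4)⁻¹ ^ 2 +
        (s + ρ)⁻¹ ^ 4 * (ε / (2 * (Cc * M + 1)) * s ^ 2))) ≤
      ε * (s + ρ)⁻¹ ^ 2 + (K0 + 64 * Cc * M) * (K * s + ρ)⁻¹ ^ 2 + (K0 + 64 * Cc * M) * (P.r * ρ)⁻¹ := by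
    nlinarith
  have := mul_le_mul_of_nonneg_left key hh.le
  linarith

end Crest.Agent.R68
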