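import Crest.Agent.R68.One

/-! Quadratic term and collision frequency of the hot part.  `om ≤ (L + 2‖η‖) ℓ`, `ℓ = s + dd y + fl`, so `Θ_j ≤ C_m ℓ^j W(1/2)`; `ℓ ≤ 5/2`.  `Q_hot`: `QQ` with `λ = 1`, `Φ = C (B Φ_1 + B'' Φ_m)` (sums and multiples of `Slow` functions are `Slow`), `A = C (B + B'')`. -/

set_option autoImplicit false

open MeasureTheory Set Filter Topology Crest.AnalysisR.VecCalc3 Crest.AnalysisR.PDE.Boltzmann
open scoped ENNReal NNReal

namespace Crest.Agent.R68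

theorem NLb.key (m : ℕ) : ∃ C : ℝ≥0, ∀ {P : Par}, P.Ok → P.m = m → ∀ (N : ℕ) {j : ℕ}, j ≤ m → ∀ {s : ℝ}, 0 ≤ s →
    ∀ (y : R3) {u : ℝ}, 0 ≤ u → ENNReal.ofReal ((al P N s y + 2 * s * max u 0) ^ j) * ew 1 u ≤
      C * ENNReal.ofReal ((s + dd y + P.fl N) ^ j) * ew (1 / 2) u := by
  obtain ⟨C0, hC0, h0⟩ := QQa.poly_exp (c := 1 / 2) (by norm_num) m
  refine ⟨((4 * m) ^ m * C0 : ℝ).toNNReal, fun {P} hP hm N j hj s hs y u hu => ?_⟩
  have hL := L_ge hP
  have hLm : P.L = 4 * m := by rw [Par.L, hm]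
  have hd := dd_nonneg y
  have hf := (fl_pos hP N).le
  have hal := (al_pos hP N hs y).le
  have h1 : al P N s y + 2 * s * max u 0 ≤ (P.L * (1 + u)) * (s + dd y + P.fl N) := by
    rw [max_eq_left hu]
    unfold al
    have h2 := mul_nonneg hu hs
    have h3 := mul_nonneg (sub_nonneg.2 hL) h2
    have h4 := mul_nonneg (sub_nonneg.2 hL) (add_nonneg hd hf)
    have h5 := mul_nonneg (mul_nonneg (show 0 ≤ P.L by linarith) hu) (add_nonneg hd hf)
    nlinarith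
  have h2 : (P.L * (1 + u)) ^ j ≤ (P.L * (1 + u)) ^ m :=
    pow_le_pow_right₀ (one_le_mul_of_one_le_of_one_le (by linarith) (by linarith)) hj
  have h3 : (al P N s y + 2 * s * max u 0) ^ j ≤ (P.L * (1 + u)) ^ m * (s + dd y + P.fl N) ^ j := by
    refine (pow_le_pow_left₀ (by positivity) h1 j).trans ?_
    rw [mul_pow]
    exact mul_le_mul_of_nonneg_right h2 (by positivity)
  unfold ew
  change _ ≤ ENNReal.ofReal ((4 * m) ^ m * C0) * _ * _
  rw [← ENNReal.ofReal_mul (by positivity), ← ENNReal.ofReal_mul (by positivity),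
    ← ENNReal.ofReal_mul (by positivity)]
  refine ENNReal.ofReal_le_ofReal ?_
  have h4 : Real.exp (-(1 * u)) = Real.exp (-(1 / 2 * u)) * Real.exp (-(1 / 2 * u)) := by
    rw [← Real.exp_add]
    congr 1
    ring
  calc _ ≤ (P.L * (1 + u)) ^ m * (s + dd y + P.fl N) ^ j * Real.exp (-(1 * u)) :=
        mul_le_mul_of_nonneg_right h3 (Real.exp_pos _).le
    _ = (4 * m) ^ m * ((1 + u) ^ m * Real.exp (-(1 / 2 * u))) * (s + dd y + P.fl N) ^ j *
          Real.exp (-(1 / 2 * u)) := by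
        rw [h4, mul_pow, hLm]
        ring
    _ ≤ (4 * m) ^ m * C0 * (s + dd y + P.fl N) ^ j * Real.exp (-(1 / 2 * u)) := by
        gcongr
        exact h0 u hu

theorem Th_le_W (m : ℕ) : ∃ C : ℝ≥0, ∀ {P : Par}, P.Ok → P.m = m → ∀ (N : ℕ) {j : ℕ}, j ≤ m → ∀ {s : ℝ}, 0 ≤ s →
    ∀ y η : R3, Th P (P.fl N) j s y η ≤ C * ENNReal.ofReal ((s + dd y + P.fl N) ^ j) * W (1 / 2) η := by
  obtain ⟨C, h⟩ := NLb.key m
  refine ⟨C, fun {P} hP hm N j hj s hs y η => ?_⟩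
  rw [Th_eq hP (fl_pos hP N).le j hs]
  exact h hP hm N hj hs y (norm_nonneg η)

theorem NLb.Slow_comb {lam : ℝ} {Φ Ψ : ℝ → ℝ≥0∞} (h : Slow lam Φ) (h' : Slow lam Ψ) (a b c : ℝ≥0∞) :
    Slow lam (fun u => c * (a * Φ u + b * Ψ u)) := by
  refine ⟨fun x y hxy => ?_, fun x y hx hxy => ?_⟩
  · have h1 := h.1 hxy
    have h2 := h'.1 hxy
    simp only
    gcongr
  · calc c * (a * Φ y + b * Ψ y) ≤ c * (a * (Φ x * ENNReal.ofReal (Real.exp (lam * (y - x) / 2))) +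
          b * (Ψ x * ENNReal.ofReal (Real.exp (lam * (y - x) / 2)))) := by
          gcongr
          exacts [h.2 x y hx hxy, h'.2 x y hx hxy]
      _ = _ := by ring

theorem hot_bounds (m : ℕ) : ∃ C : ℝ≥0, ∀ {P : Par}, P.Ok → P.m = m → ∀ (N : ℕ), P.fl N ≤ 1 → ∀ {s : ℝ},
    s ∈ Icc (0 : ℝ) 1 → ∀ (y : R3) {f : R3 → ℝ≥0∞} {B B'' : ℝ≥0∞}, Measurable f →
    (∀ η, f η ≤ (B * Th P (P.fl N) 1 s y η + B'' * Th P (P.fl N) P.m s y η) * Lam P s y η) →
    (∀ v, Qp f f v ≤ C * (B + B'') * (B * Th P (P.fl N) 1 s y v + B'' * Th P (P.fl N) P.m s y v)) ∧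
    (∀ v, Qp f f v ≤ C * (B + B'') ^ 2 * W (1 / 2) v) ∧
    (∀ v, nu f v ≤ C * (B + B'') * ENNReal.ofReal (1 + ‖v‖)) ∧
    (∀ v, nu f v ≤ C * (B * ENNReal.ofReal (s + dd y + P.fl N) +
      B'' * ENNReal.ofReal ((s + dd y + P.fl N) ^ m)) * ENNReal.ofReal (1 + ‖v‖)) ∧
    PB f (fun u => C * (B + B'') * ew (1 / 2) u) := by
  obtain ⟨D, hD⟩ := NLb.key m
  obtain ⟨C1, hC1⟩ := PB_TL
  obtain ⟨C2, hC2⟩ := QQ (lam := 1) one_pos
  obtain ⟨C3, hC3⟩ := QQ_const (lam := 1 / 2) (by norm_num)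
  obtain ⟨C4, hC4⟩ := nu_of_PB (lam := 1 / 2) (by norm_num)
  set A : ℝ≥0 := C1 * D * 3 ^ m with hA
  refine ⟨C2 * 2 * A * C1 + C3 * A ^ 2 + C4 * A + C4 * (C1 * D) + A,
    fun {P} hP hm N hfl s hs y f B B'' hf hle => ?_⟩
  have hm1 : 1 ≤ P.m := hP.m1
  have hd := dd_nonneg y
  have hd' := dd_le_half y
  have hf0 := (fl_pos hP N).le
  have hl0 : 0 ≤ s + dd y + P.fl N := add_nonneg (add_nonneg hs.1 hd) hf0
  have hl3 : s + dd y + P.fl N ≤ 3 := by linarith [hs.2]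
  have hE : ∀ j ≤ m, ENNReal.ofReal ((s + dd y + P.fl N) ^ j) ≤ 3 ^ m := fun j hj => by
    rw [← ENNReal.ofReal_ofNat 3, ← ENNReal.ofReal_pow (by norm_num)]
    exact ENNReal.ofReal_le_ofReal ((pow_le_pow_left₀ hl0 hl3 j).trans (pow_le_pow_right₀ (by norm_num) hj))
  set Φ : ℕ → ℝ → ℝ≥0∞ := fun j u => ENNReal.ofReal ((al P N s y + 2 * s * max u 0) ^ j) with hΦ
  have hT : ∀ j v, Th P (P.fl N) j s y v = Φ j ‖v‖ * W 1 v := fun j v => Th_eq hP hf0 j hs.1 y v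
  have p1 : PB f (fun u => (C1 * (B * Φ 1 u + B'' * Φ P.m u)) * ew 1 u) := by
    have m1 := (measD_TL (P := P) N 1).vel s y
    have m2 := (measD_TL (P := P) N P.m).vel s y
    refine (((hC1 hP N hm1 hs y).cmul m1 B).add (m1.const_mul B) ((hC1 hP N le_rfl hs y).cmul m2 B'')).mono
      (fun a => (hle a).trans_eq ?_) (fun u _ => le_of_eq ?_)
    · unfold TL
      ring
    · simp only [hΦ]
      ring
  have p2 : PB f (fun u => (C1 * D * (B * ENNReal.ofReal (s + dd y + P.fl N) +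
      B'' * ENNReal.ofReal ((s + dd y + P.fl N) ^ m))) * ew (1 / 2) u) := by
    refine p1.mono (fun _ => le_rfl) (fun u hu => ?_)
    have h1 := hD hP hm N (hm ▸ hm1) hs.1 y hu
    have h2 := hD hP hm N le_rfl hs.1 y hu
    rw [pow_one (s + dd y + P.fl N)] at h1
    calc _ = C1 * (B * (Φ 1 u * ew 1 u) + B'' * (Φ m u * ew 1 u)) := by
          rw [hm]
          ring
      _ ≤ C1 * (B * (D * ENNReal.ofReal (s + dd y + P.fl N) * ew (1 / 2) u) +
          B'' * (D * ENNReal.ofReal ((s + dd y + P.fl N) ^ m) * ew (1 / 2) u)) := by gcongr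
      _ = _ := by ring
  have p3 : PB f (fun u => (A * (B + B'')) * ew (1 / 2) u) := by
    refine p2.mono (fun _ => le_rfl) (fun u _ => ?_)
    have h1 := hE 1 (hm ▸ hm1)
    rw [pow_one (s + dd y + P.fl N)] at h1
    calc _ ≤ (C1 * D * (B * 3 ^ m + B'' * 3 ^ m)) * ew (1 / 2) u := by
          gcongr
          exact hE m le_rfl
      _ = _ := by
          rw [hA]
          push_cast
          ring
  have sl : Slow 1 (fun u => C1 * (B * Φ 1 u + B'' * Φ P.m u)) :=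
    NLb.Slow_comb (Slow_al hP N hm1 hs.1 y) (Slow_al hP N le_rfl hs.1 y) _ _ _
  refine ⟨fun v => ?_, fun v => ?_, fun v => ?_, fun v => ?_, ?_⟩
  · refine (hC2 hf hf sl sl p3 p1 p3 p1 v).trans ?_
    calc _ = ((C2 * 2 * A * C1 : ℝ≥0) : ℝ≥0∞) * (B + B'') *
          (B * Th P (P.fl N) 1 s y v + B'' * Th P (P.fl N) P.m s y v) := by
          rw [hT, hT]
          push_cast
          ring
      _ ≤ _ := by
          gcongr
          exact le_add_right (le_add_right (le_add_right le_self_add))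
  · refine (hC3 hf hf p3 p3 v).trans ?_
    calc _ = ((C3 * A ^ 2 : ℝ≥0) : ℝ≥0∞) * (B + B'') ^ 2 * W (1 / 2) v := by
          push_cast
          ring
      _ ≤ _ := by
          gcongr
          exact le_add_right (le_add_right (le_add_right le_add_self))
  · refine (hC4 hf p3 v).trans ?_
    calc _ = ((C4 * A : ℝ≥0) : ℝ≥0∞) * (B + B'') * ENNReal.ofReal (1 + ‖v‖) := by
          push_cast
          ring
      _ ≤ _ := by
          gcongr
          exact le_add_right (le_add_right le_add_self)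
  · refine (hC4 hf p2 v).trans ?_
    calc _ = ((C4 * (C1 * D) : ℝ≥0) : ℝ≥0∞) * (B * ENNReal.ofReal (s + dd y + P.fl N) +
          B'' * ENNReal.ofReal ((s + dd y + P.fl N) ^ m)) * ENNReal.ofReal (1 + ‖v‖) := by
          push_cast
          ring
      _ ≤ _ := by
          gcongr
          exact le_add_right le_add_self
  · refine p3.mono (fun _ => le_rfl) (fun u _ => ?_)
    gcongr
    exact le_add_self

end Crest.Agent.R68
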