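import Crest.Agent.R68.Law
import Crest.Agent.R68.PL

/-! The singular integral of the cold majorant.  On the core `k` put `U = U k s (hat x)`, `w = ww n`.  If `‖v-U‖ ≥ 4w` then `S2 gk ≤ 2 mass/‖v-U‖`; otherwise
`gk ≤ cc/(rr (2w)³) 1_{ball U 2w}` gives `S2 gk ≤ C cc/(rr w) ≤ C cc P.w^{1/4} ‖v-U‖^{-5/4}` because `w^{1/4} = P.w^{1/4} per/16 ≤ P.w^{1/4} rr` (and `cc ≤ rb`).
For the Gaussian `S2 Ck ≤ C (cc/rr)/‖v-U‖` (split `‖v-a‖ ≥ ‖v-U‖/2`; on the rest the Gaussian is `≤ w^{-3} exp(-‖v-U‖²/(4w²))` and `∫_{‖z‖<ρ} ‖z‖⁻¹ = 2πρ²`).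
`ctr P τ 0 ε = U P (τ,ε)`, so `1 + ‖v-U‖^{-5/4} ≤ sig`.  `near_ctr`: with `d = ‖v - ctr‖ ≤ θ`: `1 ≤ θ^{5/4} d^{-5/4}`; `‖v-U‖⁻¹ ≤ θ^{-1/2} ≤ θ^{3/4} d^{-5/4}` if `‖v-U‖ ≥ √θ`, and `≤ θ^{1/8} ‖v-U‖^{-5/4}` otherwise. -/

set_option autoImplicit false

open MeasureTheory Set Filter Topology Crest.AnalysisR.VecCalc3 Crest.AnalysisR.PDE.Boltzmann
open scoped ENNReal NNReal

namespace Crest.Agent.R68

namespace SingX

theorem invn_le {z : R3} {ρ : ℝ} (hρ : 0 < ρ) (h : ρ ≤ ‖z‖) : invn z ≤ ENNReal.ofReal ρ⁻¹ := by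
  rw [ENNReal.ofReal_inv_of_pos hρ]
  exact ENNReal.inv_le_inv.2 (ENNReal.ofReal_le_ofReal h)

theorem invn_ge {z : R3} {ρ : ℝ} (hρ : 0 < ρ) (h : ‖z‖ ≤ ρ) {p : ℝ} (hp : 0 ≤ p) :
    ENNReal.ofReal (ρ⁻¹ ^ p) ≤ invn z ^ p := by
  rw [← ENNReal.ofReal_rpow_of_nonneg (inv_pos.2 hρ).le hp, ENNReal.ofReal_inv_of_pos hρ]
  exact ENNReal.rpow_le_rpow (ENNReal.inv_le_inv.2 (ENNReal.ofReal_le_ofReal h)) hp

theorem invn_eq {z : R3} (h : 0 < ‖z‖) : invn z = ENNReal.ofReal ‖z‖⁻¹ := by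
  rw [ENNReal.ofReal_inv_of_pos h, invn]

theorem le_one_add (I : ℝ≥0∞) : I ≤ 1 + I ^ (5 / 4 : ℝ) := by
  rcases le_total I 1 with h | h
  · exact h.trans le_self_add
  · refine le_trans ?_ le_add_self
    conv_lhs => rw [← ENNReal.rpow_one I]
    exact ENNReal.rpow_le_rpow_of_exponent_le h (by norm_num)

theorem ball_inv : ∃ C : ℝ≥0, ∀ (v : R3) (ρ : ℝ), 0 < ρ →
    ∫⁻ a, (Metric.ball v ρ).indicator (fun a => invn (v - a)) a ≤ C * ENNReal.ofReal (ρ ^ 2) := by
  refine ⟨(sphereMeasure univ).toNNReal, fun v ρ hρ => ?_⟩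
  have hm : Measurable ((Metric.ball (0 : R3) ρ).indicator invn) :=
    measurable_invn.indicator Metric.isOpen_ball.measurableSet
  have h1 : ∀ a, (Metric.ball v ρ).indicator (fun a => invn (v - a)) a =
      (Metric.ball (0 : R3) ρ).indicator invn (v - a) := fun a => by
    simp only [indicator, Metric.mem_ball, sub_zero, dist_eq_norm, norm_sub_rev a v]
  simp only [h1]
  rw [lintegral_sub_left_eq_self, polar hm, ENNReal.coe_toNNReal (measure_ne_top _ _), mul_comm,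
    ← lintegral_const]
  refine lintegral_mono_ae (ae_sphere.mono fun w hw => ?_)
  calc ∫⁻ r in Ioi (0 : ℝ), ENNReal.ofReal (r ^ 2) * (Metric.ball (0 : R3) ρ).indicator invn (r • w)
      ≤ ∫⁻ r in Ioi (0 : ℝ), (Ioo 0 ρ).indicator (fun _ => ENNReal.ofReal ρ) r := by
        refine setLIntegral_mono' measurableSet_Ioi fun r hr => ?_
        have hr' : 0 < r := hr
        have hn : ‖r • w‖ = r := by rw [norm_smul, hw, mul_one, Real.norm_of_nonneg hr'.le]
        by_cases h : r < ρ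
        · rw [indicator_of_mem (by simpa [hn] using h), indicator_of_mem (show r ∈ Ioo 0 ρ from ⟨hr', h⟩),
            invn_eq (by rwa [hn]), hn, ← ENNReal.ofReal_mul (by positivity)]
          refine ENNReal.ofReal_le_ofReal ?_
          rw [sq, mul_inv_cancel_right₀ hr'.ne']
          exact h.le
        · rw [indicator_of_notMem (by simpa [hn] using h), mul_zero]
          exact zero_le
    _ ≤ ∫⁻ r, (Ioo 0 ρ).indicator (fun _ => ENNReal.ofReal ρ) r := setLIntegral_le_lintegral _ _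
    _ = ENNReal.ofReal (ρ ^ 2) := by
        rw [lintegral_indicator_const measurableSet_Ioo, Real.volume_Ioo, sub_zero,
          ← ENNReal.ofReal_mul hρ.le, sq]

theorem split : ∃ C : ℝ≥0, ∀ (g : R3 → ℝ≥0∞) (v : R3) (ρ : ℝ) (M : ℝ), 0 < ρ →
    (∀ a ∈ Metric.ball v ρ, g a ≤ ENNReal.ofReal M) →
    S2 g v ≤ C * (ENNReal.ofReal M * ENNReal.ofReal (ρ ^ 2)) + (∫⁻ a, g a) * ENNReal.ofReal ρ⁻¹ := by
  obtain ⟨C, hC⟩ := ball_inv
  refine ⟨C, fun g v ρ M hρ hg => ?_⟩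
  have hm : Measurable fun a => ENNReal.ofReal M * (Metric.ball v ρ).indicator (fun a => invn (v - a)) a :=
    ((measurable_invn.comp (measurable_const.sub measurable_id)).indicator
      Metric.isOpen_ball.measurableSet).const_mul _
  calc S2 g v ≤ ∫⁻ a, (ENNReal.ofReal M * (Metric.ball v ρ).indicator (fun a => invn (v - a)) a +
        g a * ENNReal.ofReal ρ⁻¹) := by
        refine lintegral_mono fun a => ?_
        by_cases ha : a ∈ Metric.ball v ρ
        · rw [indicator_of_mem ha]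
          exact (mul_le_mul' (hg a ha) le_rfl).trans le_self_add
        · refine le_trans (mul_le_mul' le_rfl (invn_le hρ ?_)) le_add_self
          rwa [Metric.mem_ball', dist_eq_norm, not_lt] at ha
    _ = ENNReal.ofReal M * (∫⁻ a, (Metric.ball v ρ).indicator (fun a => invn (v - a)) a) +
        (∫⁻ a, g a) * ENNReal.ofReal ρ⁻¹ := by
        rw [lintegral_add_left hm, lintegral_const_mul' _ _ ENNReal.ofReal_ne_top,
          lintegral_mul_const' _ _ ENNReal.ofReal_ne_top]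
    _ ≤ _ := by
        refine add_le_add ?_ le_rfl
        rw [mul_left_comm]
        exact mul_le_mul' le_rfl (hC v ρ hρ)

theorem far_le {v a U : R3} (ha : a ∈ Metric.ball v (‖v - U‖ / 2)) : ‖v - U‖ / 2 < ‖a - U‖ := by
  rw [Metric.mem_ball', dist_eq_norm] at ha
  have := norm_add_le (v - a) (a - U)
  rw [sub_add_sub_cancel] at this
  linarith

theorem cc_pos : 0 < cc := by norm_num [cc]

theorem rr_le_X {P : Par} (hP : P.Ok) (n : ℕ) {s : ℝ} (hs : 0 ≤ s) : P.rr n ≤ P.X n s := by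
  have h1 : 0 < kap := by norm_num [kap]
  have h2 := et_pos hP n
  exact le_add_of_nonneg_right (by positivity)

theorem w_le_one {P : Par} (hP : P.Ok) : P.w ≤ 1 := hP.w1.trans (by norm_num)

theorem X_rb {P : Par} (hP : P.Ok) {N : ℕ} {k : Bm} (hk : (k.1.1 : ℕ∞) ≤ N) {s : ℝ} (hs : 0 ≤ s) {x : R3}
    (hc : InCore P k s (hat x)) : ENNReal.ofReal (cc / P.X k.1.1 s) ≤ rb P N s x := by
  have h1 := (tile_nrm hP hs (core_tile hP hc)).2
  have h2 : P.X (N + 1) s ≤ P.X k.1.1 s := X_anti hP (Nat.le_succ_of_le (by exact_mod_cast hk)) hs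
  have h3 : kap * s + P.rr (N + 1) ≤ P.X (N + 1) s := by
    have := mul_nonneg (et_pos hP (N + 1)).le hs
    unfold Par.X
    nlinarith
  have h4 : 0 < kap := by norm_num [kap]
  have h5 := rr_pos hP (N + 1)
  have h6 := dd_nonneg x
  have h7 := X_pos hP k.1.1 hs
  have h8 := cc_pos
  refine ENNReal.ofReal_le_ofReal ?_
  rw [div_le_div_iff₀ h7 (by positivity)]
  have h9 : kap * s + dd x + P.rr (N + 1) ≤ 4 * P.X k.1.1 s := by
    unfold dd
    linarith
  nlinarith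

end SingX
open SingX

theorem ctr_zero (P : Par) (τ : Tile) (ε : Bool) (s : ℝ) (y : R3) : ctr P τ 0 ε s y = U P (τ, ε) s y := by
  ext j
  fin_cases j
  · simp [ctr]
  · simp [ctr]
  · have := U_two (P := P) (τ, ε) s y
    simpa [ctr] using this.symm
theorem sig_ge {P : Par} {τ : Tile} {s : ℝ} {x : R3} (h : lab P τ s (hat x) ∈ tileL P τ)
    (χ : Fin 2 → Fin 3) (ε : Bool) (v : R3) :
    1 + invn (v - ctr P τ χ ε s (hat x)) ^ (5 / 4 : ℝ) ≤ sig P s x v := by
  unfold sig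
  refine add_le_add le_rfl (le_trans ?_ (ENNReal.le_tsum τ))
  rw [if_pos h]
  refine le_trans ?_ (Finset.single_le_sum (f := fun χ : Fin 2 → Fin 3 =>
    ∑ ε : Bool, invn (v - ctr P τ χ ε s (hat x)) ^ (5 / 4 : ℝ)) (fun _ _ => zero_le) (Finset.mem_univ χ))
  exact Finset.single_le_sum (f := fun ε : Bool => invn (v - ctr P τ χ ε s (hat x)) ^ (5 / 4 : ℝ))
    (fun _ _ => zero_le) (Finset.mem_univ ε)
theorem S2_gk : ∃ C : ℝ≥0, ∀ {P : Par}, P.Ok → ∀ (k : Bm) {s : ℝ}, s ∈ Icc (0 : ℝ) 1 → ∀ y v : R3,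
    S2 (gk P k s y) v ≤ C * (ENNReal.ofReal (cc / P.X k.1.1 s) * invn (v - U P k s y) +
      ENNReal.ofReal (cc * P.w ^ (1 / 4 : ℝ)) * invn (v - U P k s y) ^ (5 / 4 : ℝ)) := by
  obtain ⟨C, hC⟩ := split
  refine ⟨C + 2, fun {P} hP k s hs y v => ?_⟩
  have hw := ww_pos hP k.1.1
  have hr := rr_pos hP k.1.1
  have hc := cc_pos
  have hmass := gk_mass hP k hs.1 y
  rcases le_or_gt (4 * P.ww k.1.1) ‖v - U P k s y‖ with hd | hd
  · have hd0 : 0 < ‖v - U P k s y‖ := by linarith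
    refine (hC _ v (‖v - U P k s y‖ / 2) 0 (by positivity) fun a ha => ?_).trans ?_
    · have h0 : gk P k s y a = 0 := by
        by_contra hne
        have := (gk_supp hP hs hne).2.2.1
        have := far_le ha
        linarith
      rw [h0]
      exact zero_le
    · rw [ENNReal.ofReal_zero, zero_mul, mul_zero, zero_add, invn_eq hd0,
        show (‖v - U P k s y‖ / 2)⁻¹ = 2 * ‖v - U P k s y‖⁻¹ by field_simp, ENNReal.ofReal_mul zero_le_two,
        ENNReal.ofReal_ofNat, mul_left_comm]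
      refine mul_le_mul' ?_ ((mul_le_mul' hmass le_rfl).trans le_self_add)
      push_cast
      exact le_add_self
  · refine (hC _ v (P.ww k.1.1) (cc / (P.rr k.1.1 * (2 * P.ww k.1.1) ^ 3)) hw fun a _ => ?_).trans ?_
    · unfold gk
      split_ifs
      · exact le_rfl
      · exact zero_le
    have h1 : ENNReal.ofReal (cc / (P.rr k.1.1 * P.ww k.1.1)) ≤
        ENNReal.ofReal (cc * P.w ^ (1 / 4 : ℝ)) * invn (v - U P k s y) ^ (5 / 4 : ℝ) := by
      have hq : 0 < P.w ^ (1 / 4 : ℝ) := Real.rpow_pos_of_pos hP.w0 _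
      have hq4 : (P.w ^ (1 / 4 : ℝ)) ^ 4 = P.w := by
        rw [← Real.rpow_natCast, ← Real.rpow_mul hP.w0.le]
        norm_num
      refine le_trans ?_ (mul_le_mul' le_rfl (invn_ge (by positivity) hd.le (by norm_num)))
      rw [← ENNReal.ofReal_mul (by positivity), Real.inv_rpow (by positivity)]
      refine ENNReal.ofReal_le_ofReal ?_
      have h2 : (4 * P.ww k.1.1) ^ (1 / 4 : ℝ) ≤ P.w ^ (1 / 4 : ℝ) * P.rr k.1.1 / 4 := by
        refine le_of_pow_le_pow_left₀ (n := 4) (by norm_num) (by positivity) ?_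
        rw [← Real.rpow_natCast, ← Real.rpow_mul (by positivity), div_pow, mul_pow, hq4]
        norm_num
        have h3 : P.per k.1.1 ^ 4 ≤ P.rr k.1.1 ^ 4 := pow_le_pow_left₀ (per_pos hP _).le (per_le hP _) 4
        have h4 := mul_le_mul_of_nonneg_left h3 hP.w0.le
        have h5 : 0 ≤ P.w * P.rr k.1.1 ^ 4 := mul_nonneg hP.w0.le (by positivity)
        unfold Par.ww
        nlinarith
      have h3 : (4 * P.ww k.1.1) ^ (5 / 4 : ℝ) ≤ P.w ^ (1 / 4 : ℝ) * (P.rr k.1.1 * P.ww k.1.1) := by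
        rw [show (5 / 4 : ℝ) = 1 + 1 / 4 by norm_num, Real.rpow_add (by positivity), Real.rpow_one]
        calc _ ≤ 4 * P.ww k.1.1 * (P.w ^ (1 / 4 : ℝ) * P.rr k.1.1 / 4) := by gcongr
          _ = _ := by ring
      rw [← div_eq_mul_inv, div_le_div_iff₀ (by positivity) (by positivity), mul_assoc]
      gcongr
    refine le_trans ?_ (mul_le_mul' le_rfl (h1.trans le_add_self))
    rw [ENNReal.coe_add, add_mul, ← ENNReal.ofReal_mul (by positivity)]
    refine add_le_add (mul_le_mul' le_rfl (ENNReal.ofReal_le_ofReal ?_)) ?_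
    · rw [div_mul_eq_mul_div, div_le_div_iff₀ (by positivity) (by positivity)]
      have : 0 < cc * P.rr k.1.1 * P.ww k.1.1 ^ 3 := by positivity
      nlinarith
    · refine le_trans ?_ (le_mul_of_one_le_left' (by norm_num))
      refine (mul_le_mul' hmass le_rfl).trans ?_
      have hX := X_pos hP k.1.1 hs.1
      rw [← ENNReal.ofReal_mul (by positivity), ← div_eq_mul_inv, div_div]
      refine ENNReal.ofReal_le_ofReal ?_
      have := rr_le_X hP k.1.1 hs.1
      gcongr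
theorem S2_Cke : ∃ C : ℝ≥0, ∀ {P : Par}, P.Ok → ∀ (k : Bm) {s : ℝ}, s ∈ Icc (0 : ℝ) 1 → ∀ y v : R3,
    S2 (Cke P k s y) v ≤ C * ENNReal.ofReal (Real.sqrt P.w) * invn (v - U P k s y) := by
  obtain ⟨C, hC⟩ := split
  refine ⟨(2 * C + 12) * 10000, fun {P} hP k s hs y v => ?_⟩
  have hw := ww_pos hP k.1.1
  have hr := rr_pos hP k.1.1
  have hc := cc_pos
  have hw0 := hP.w0
  rcases (norm_nonneg (v - U P k s y)).eq_or_lt with hd | hd
  · have h1 : invn (v - U P k s y) = ⊤ := by simp [invn, ← hd]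
    rw [h1, ENNReal.mul_top]
    · exact le_top
    · refine mul_ne_zero (ENNReal.coe_ne_zero.2 (by positivity)) ?_
      simpa using hw0
  set d := ‖v - U P k s y‖ with hdd
  have h1 : S2 (Ck P k s y) v ≤ (2 * C + 12) * ENNReal.ofReal (cc / P.rr k.1.1 * d⁻¹) := by
    refine (hC _ v (d / 2) (cc / (P.rr k.1.1 * P.ww k.1.1 ^ 3) * Real.exp (-(d / (2 * P.ww k.1.1)) ^ 2))
      (by positivity) fun a ha => ?_).trans ?_
    · refine ENNReal.ofReal_le_ofReal (mul_le_mul_of_nonneg_left (Real.exp_le_exp.2 ?_) (by positivity))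
      have a1 := (far_le ha).le
      have a2 : 0 ≤ dS P k s y / (Real.sqrt (P.ww k.1.1) * Real.sqrt s) :=
        div_nonneg Metric.infDist_nonneg (by positivity)
      have a3 : (d / (2 * P.ww k.1.1)) ^ 2 ≤ (2 - s) * ‖a - U P k s y‖ ^ 2 / P.ww k.1.1 ^ 2 := by
        rw [show (d / (2 * P.ww k.1.1)) ^ 2 = 1 * (d / 2) ^ 2 / P.ww k.1.1 ^ 2 by field_simp]
        have : 1 ≤ 2 - s := by linarith [hs.2]
        gcongr
      linarith
    · have e2 : ∀ z : ℝ, 2 * ENNReal.ofReal z = ENNReal.ofReal (2 * z) := fun z => by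
        rw [ENNReal.ofReal_mul zero_le_two, ENNReal.ofReal_ofNat]
      rw [add_mul, mul_comm 2 (C : ℝ≥0∞), mul_assoc, ← ENNReal.ofReal_mul (by positivity), e2,
        ← ENNReal.ofReal_ofNat 12, ← ENNReal.ofReal_mul (by positivity)]
      refine add_le_add (mul_le_mul' le_rfl (ENNReal.ofReal_le_ofReal ?_))
        ((mul_le_mul' (Ck_mass hP k hs y) le_rfl).trans ?_)
      · set u := d / (2 * P.ww k.1.1) with hu
        have hu0 : 0 < u := by positivity
        have a1 : u ^ 3 * Real.exp (-u ^ 2) ≤ 1 := by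
          rw [Real.exp_neg, ← div_eq_mul_inv, div_le_one (Real.exp_pos _)]
          have := Real.quadratic_le_exp_of_nonneg (sq_nonneg u)
          nlinarith [sq_nonneg (u - u ^ 2 / 2), sq_nonneg (u ^ 2)]
        have a2 : cc / (P.rr k.1.1 * P.ww k.1.1 ^ 3) * Real.exp (-u ^ 2) * (d / 2) ^ 2 =
            2 * (cc / P.rr k.1.1 * d⁻¹) * (u ^ 3 * Real.exp (-u ^ 2)) := by
          generalize Real.exp (-u ^ 2) = E
          rw [hu]
          field_simp
        rw [a2]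
        exact mul_le_of_le_one_right (by positivity) a1
      · rw [← ENNReal.ofReal_mul (by positivity)]
        refine le_of_eq (congrArg _ ?_)
        field_simp
        ring
  have h2 : S2 (Cke P k s y) v ≤ ENNReal.ofReal (Real.sqrt (P.ww k.1.1)) * S2 (Ck P k s y) v := by
    unfold S2
    rw [← lintegral_const_mul' _ _ ENNReal.ofReal_ne_top]
    refine lintegral_mono fun a => ?_
    rw [← mul_assoc]
    refine mul_le_mul' ?_ le_rfl
    unfold Cke
    split_ifs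
    · exact le_rfl
    · exact zero_le
  refine h2.trans ((mul_le_mul' le_rfl h1).trans ?_)
  rw [invn_eq hd, ← hdd, mul_left_comm, ← ENNReal.ofReal_mul (by positivity)]
  push_cast
  rw [mul_assoc, mul_assoc, ← ENNReal.ofReal_ofNat 10000, ← ENNReal.ofReal_mul (by positivity),
    ← ENNReal.ofReal_mul (by positivity)]
  refine mul_le_mul' le_rfl (ENNReal.ofReal_le_ofReal ?_)
  have a1 : Real.sqrt (P.ww k.1.1) ≤ Real.sqrt P.w * P.rr k.1.1 := by
    rw [sqrt_ww hP]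
    refine mul_le_mul_of_nonneg_left ?_ (Real.sqrt_nonneg _)
    have b1 := per_le hP k.1.1
    have b2 := per_pos hP k.1.1
    have b3 := (rr_le hP k.1.1).trans hP.r1
    nlinarith
  calc _ ≤ Real.sqrt P.w * P.rr k.1.1 * (cc / P.rr k.1.1 * d⁻¹) := by gcongr
    _ = _ := by
      unfold cc
      field_simp
theorem SingX.S2_G : ∃ C : ℝ≥0, ∀ {P : Par}, P.Ok → ∀ (N : ℕ) {s : ℝ}, s ∈ Icc (0 : ℝ) 1 → ∀ x v : R3,
    S2 (G P N s x) v = 0 ∨ ∃ u : R3, 1 + invn u ^ (5 / 4 : ℝ) ≤ sig P s x v ∧ S2 (G P N s x) v ≤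
      C * (rb P N s x * (invn u + ENNReal.ofReal (P.w ^ (1 / 4 : ℝ)) * invn u ^ (5 / 4 : ℝ))) := by
  obtain ⟨C1, h1⟩ := S2_gk
  obtain ⟨C2, h2⟩ := S2_Cke
  refine ⟨C1 + C2, fun {P} hP N s hs x v => ?_⟩
  rcases G_core hP N hs x with ⟨a1, a2⟩ | ⟨k, hk, hc, a1, a2⟩
  · exact Or.inl (by simp [S2, G, a1, a2])
  refine Or.inr ⟨v - U P k s (hat x), ?_, ?_⟩
  · have := sig_ge (core_tile hP hc) 0 k.2 v
    rwa [ctr_zero] at this
  have e : S2 (G P N s x) v = S2 (gk P k s (hat x)) v + S2 (Cke P k s (hat x)) v := by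
    unfold S2
    have hm : Measurable fun a => gk P k s (hat x) a * invn (v - a) :=
      ((measD_gk k).vel s (hat x)).mul (measurable_invn.comp (measurable_const.sub measurable_id))
    rw [← lintegral_add_left hm]
    refine lintegral_congr fun a => ?_
    simp only [G, a1, a2, add_mul]
  rw [e, ENNReal.coe_add, add_mul]
  refine add_le_add ((h1 hP k hs _ _).trans (mul_le_mul' le_rfl ?_)) ((h2 hP k hs _ _).trans ?_)
  · rw [mul_add, ENNReal.ofReal_mul cc_pos.le, mul_assoc]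
    exact add_le_add (mul_le_mul' (X_rb hP hk hs.1 hc) le_rfl) (mul_le_mul' (rb_ge hP N hs x) le_rfl)
  · rw [mul_assoc]
    refine mul_le_mul' le_rfl (mul_le_mul' (le_trans (ENNReal.ofReal_le_ofReal ?_) (rb_ge hP N hs x)) le_self_add)
    exact (Real.sqrt_le_one.2 (w_le_one hP)).trans (by norm_num [cc])

theorem sing_G : ∃ C : ℝ≥0, ∀ {P : Par}, P.Ok → ∀ (N : ℕ) {s : ℝ}, s ∈ Icc (0 : ℝ) 1 → ∀ x v : R3,
    (∫⁻ a, G P N s x a) + S2 (G P N s x) v ≤ C * (rb P N s x * sig P s x v) := by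
  obtain ⟨C, hC⟩ := SingX.S2_G
  refine ⟨1 + C * 2, fun {P} hP N s hs x v => ?_⟩
  push_cast
  rw [add_mul, one_mul]
  refine add_le_add ((G_mass hP N hs x).trans (le_mul_of_one_le_right' (one_le_sig s x v))) ?_
  rcases hC hP N hs x v with h | ⟨u, h1, h2⟩
  · rw [h]
    exact zero_le
  refine h2.trans ?_
  rw [mul_assoc, mul_left_comm 2, two_mul]
  refine mul_le_mul' le_rfl (mul_le_mul' le_rfl (add_le_add ((le_one_add _).trans h1) ?_))
  refine (mul_le_of_le_one_left' ?_).trans (le_add_self.trans h1)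
  rw [← ENNReal.ofReal_one]
  exact ENNReal.ofReal_le_ofReal (Real.rpow_le_one hP.w0.le (w_le_one hP) (by norm_num))
theorem sing_GC : ∃ C : ℝ≥0, ∀ {P : Par}, P.Ok → ∀ (N : ℕ∞) {s : ℝ}, s ∈ Icc (0 : ℝ) 1 → ∀ x v : R3,
    (∫⁻ a, GC P N s x a) + S2 (GC P N s x) v ≤ C * ENNReal.ofReal (Real.sqrt P.w) * sig P s x v := by
  obtain ⟨C, hC⟩ := S2_Cke
  refine ⟨60000 + C, fun {P} hP N s hs x v => ?_⟩
  push_cast
  rw [add_mul, add_mul]
  refine add_le_add ((GC_mass hP N hs x).trans (le_trans (le_of_eq ?_)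
    (le_mul_of_one_le_right' (one_le_sig s x v)))) ?_
  · rw [ENNReal.ofReal_mul (by norm_num [cc]), ← ENNReal.ofReal_ofNat 60000]
    norm_num [cc]
  rcases G_core hP N hs x with ⟨-, a2⟩ | ⟨k, -, hc, -, a2⟩
  · simp [S2, a2]
  · rw [show GC P N s x = Cke P k s (hat x) from funext a2]
    refine (hC hP k hs _ _).trans (mul_le_mul' le_rfl ((le_one_add _).trans ?_))
    have := sig_ge (core_tile hP hc) 0 k.2 v
    rwa [ctr_zero] at this
theorem near_ctr {ε : ℝ≥0} (hε : 0 < ε) : ∃ θ > 0, ∀ {P : Par}, P.Ok → P.w ≤ θ → ∀ (N : ℕ) {s : ℝ},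
    s ∈ Icc (0 : ℝ) 1 → ∀ (x v : R3) (τ : Tile) (χ : Fin 2 → Fin 3) (e : Bool),
    lab P τ s (hat x) ∈ tileL P τ → ‖v - ctr P τ χ e s (hat x)‖ ≤ θ →
    (∫⁻ a, G P N s x a) + S2 (G P N s x) v ≤ ε * (rb P N s x * sig P s x v) := by
  obtain ⟨C, hC⟩ := SingX.S2_G
  obtain ⟨η, hη0, hη1, hη⟩ : ∃ η : ℝ, 0 < η ∧ η ≤ 1 ∧ (1 + C * 2) * η ≤ ε := by
    have hε' : (0 : ℝ) < ε := hε
    refine ⟨min 1 (ε / (1 + C * 2)), by positivity, min_le_left _ _, ?_⟩
    rw [← le_div_iff₀' (by positivity)]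
    exact min_le_right _ _
  refine ⟨η ^ 8, by positivity, fun {P} hP hw N s hs x v τ χ e ht hd => ?_⟩
  have h0 : ENNReal.ofReal (η⁻¹ ^ 10) ≤ sig P s x v := by
    refine le_trans (le_of_eq (congrArg _ ?_)) ((invn_ge (by positivity) hd (p := 5 / 4) (by norm_num)).trans
      (le_add_self.trans (sig_ge ht χ e v)))
    rw [← inv_pow, ← Real.rpow_natCast _ 8, ← Real.rpow_mul (by positivity), ← Real.rpow_natCast]
    norm_num
  have h1 : ∀ j : ℕ, j ≤ 9 → ENNReal.ofReal (η⁻¹ ^ j) ≤ ENNReal.ofReal η * sig P s x v := fun j hj => by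
    refine le_trans ?_ (mul_le_mul' le_rfl h0)
    rw [← ENNReal.ofReal_mul hη0.le, show η * η⁻¹ ^ 10 = η⁻¹ ^ 9 by field_simp]
    exact ENNReal.ofReal_le_ofReal (pow_le_pow_right₀ ((one_le_inv₀ hη0).2 hη1) hj)
  have hε' : (1 + C * 2 : ℝ≥0∞) * ENNReal.ofReal η ≤ ε := by
    have := ENNReal.ofReal_le_ofReal hη
    rwa [ENNReal.ofReal_mul (by positivity), ENNReal.ofReal_coe_nnreal, ENNReal.ofReal_add zero_le_one (by positivity),
      ENNReal.ofReal_mul (by positivity), ENNReal.ofReal_coe_nnreal, ENNReal.ofReal_one, ENNReal.ofReal_ofNat] at this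
  refine le_trans ?_ (mul_le_mul' hε' le_rfl)
  rw [mul_assoc, mul_left_comm (ENNReal.ofReal η), add_mul, one_mul]
  refine add_le_add ((G_mass hP N hs x).trans (le_mul_of_one_le_right' ?_)) ?_
  · simpa using h1 0 (by norm_num)
  rcases hC hP N hs x v with h | ⟨u, a1, a2⟩
  · rw [h]
    exact zero_le
  refine a2.trans ?_
  rw [mul_assoc, mul_left_comm 2, two_mul]
  refine mul_le_mul' le_rfl (mul_le_mul' le_rfl (add_le_add ?_ (mul_le_mul' (ENNReal.ofReal_le_ofReal ?_)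
    (le_add_self.trans a1))))
  · rcases le_total (η ^ 4) ‖u‖ with hu | hu
    · refine (invn_le (by positivity) hu).trans ?_
      rw [← inv_pow]
      exact h1 4 (by norm_num)
    · refine le_trans ?_ (mul_le_mul' le_rfl (le_add_self.trans a1))
      have b1 := invn_ge (by positivity) hu (p := 1 / 4) (by norm_num)
      have b2 : (η ^ 4)⁻¹ ^ (1 / 4 : ℝ) = η⁻¹ := by
        rw [← inv_pow, ← Real.rpow_natCast _ 4, ← Real.rpow_mul (by positivity)]
        norm_num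
      rw [b2] at b1
      rw [show (5 / 4 : ℝ) = 1 / 4 + 1 by norm_num, ENNReal.rpow_add_of_nonneg _ _ (by norm_num) zero_le_one,
        ENNReal.rpow_one, ← mul_assoc]
      refine le_mul_of_one_le_left' (le_trans (le_of_eq ?_) (mul_le_mul' le_rfl b1))
      rw [← ENNReal.ofReal_mul hη0.le, mul_inv_cancel₀ hη0.ne', ENNReal.ofReal_one]
  · refine (Real.rpow_le_rpow hP.w0.le hw (by norm_num)).trans ?_
    rw [← Real.rpow_natCast _ 8, ← Real.rpow_mul hη0.le]
    conv_rhs => rw [← Real.rpow_one η]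
    exact Real.rpow_le_rpow_of_exponent_ge hη0 hη1 (by norm_num)

end Crest.Agent.R68
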