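import Crest.Agent.R68.DefsD
import Crest.Agent.R68.Sing
import Crest.Agent.R68.Tilt
import Crest.Agent.R68.QQ

/-! Upper bounds for the linear operator.  `Φ(u) = (al + 2 s u)^j` is `Slow 1` (`Slow_pow`, `L = 4m`), `Th j s y η = Φ ‖η‖ W 1 η` (`Th_eq`); `PB_weight`, `PB_of_pow`, `PB_Lam`; `QG`, `sing_G`.
With `ω_s = om s (x-(t-s)v) v ≤ ω - (L+‖v‖)(t-s)` (`om_mono`) and `rb ≤ C (L+2‖v‖)/ω_s` (`rb_le`, `om_le`) the integrand of `KK (TL j)` is at most `C (L+2‖v‖) ω_s^{j-1} e^{-‖v‖} sig`; `holder_time` and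
`∫ ω_s^{3(j-1)} ds ≤ ω^{3j-2}/((3j-2)(L+‖v‖))`, `(L+‖v‖) t ≤ ω` give `KK_Th`.  `KK_far`: `j = 1` and `sig_time`.
`KK_fast`: for `‖v‖ ≥ 4`, `S2 G ≤ ∫ G`; `ν_F ≥ 0.99·2π(‖v‖-3) ∫ gs`, `lintegral_mul_expNeg_le`; `GC_mass`.  `KK_late`: the sources have `dd < X 0 s ≤ r + 2 kap s` (`G_supp`), so `ω_s ≤ C t1 (1+‖v‖)`. -/

set_option autoImplicit false

open MeasureTheory Set Filter Topology Crest.AnalysisR.VecCalc3 Crest.AnalysisR.PDE.Boltzmann
open scoped ENNReal NNReal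

namespace Crest.Agent.R68

theorem OneX.slow_cmul {lam : ℝ} {Φ : ℝ → ℝ≥0∞} (h : Slow lam Φ) (c : ℝ≥0∞) : Slow lam (fun u => c * Φ u) :=
  ⟨fun _ _ hab => mul_le_mul_right (h.1 hab) c, fun x y hx hxy => by
    rw [mul_assoc]
    exact mul_le_mul_right (h.2 x y hx hxy) c⟩
theorem OneX.Th_al {P : Par} (hP : P.Ok) (N j : ℕ) {s : ℝ} (hs : 0 ≤ s) (y v : R3) :
    Th P (P.fl N) j s y v = ENNReal.ofReal ((al P N s y + 2 * s * max ‖v‖ 0) ^ j) * W 1 v :=
  Th_eq hP (fl_pos hP N).le j hs y v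
theorem OneX.coe_pow (C : ℝ≥0) {p : ℝ} (hp : 0 ≤ p) : ((C ^ p : ℝ≥0) : ℝ≥0∞) = (C : ℝ≥0∞) ^ p :=
  ENNReal.coe_rpow_of_nonneg _ hp

theorem Slow_al {P : Par} (hP : P.Ok) (N : ℕ) {j : ℕ} (hj : j ≤ P.m) {s : ℝ} (hs : 0 ≤ s) (y : R3) :
    Slow 1 (fun u => ENNReal.ofReal ((al P N s y + 2 * s * max u 0) ^ j)) := by
  refine Slow_pow (al_pos hP N hs y).le (by positivity) zero_le_one ?_
  have h1 : (j : ℝ) ≤ P.m := by exact_mod_cast hj
  have h2 := dd_nonneg y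
  have h3 := fl_pos hP N
  unfold al Par.L
  nlinarith [mul_le_mul_of_nonneg_right h1 hs]
theorem PB_TL : ∃ C : ℝ≥0, ∀ {P : Par}, P.Ok → ∀ (N : ℕ) {j : ℕ}, j ≤ P.m → ∀ {s : ℝ}, s ∈ Icc (0 : ℝ) 1 → ∀ y : R3,
    PB (TL P N j s y) (fun u => C * ENNReal.ofReal ((al P N s y + 2 * s * max u 0) ^ j) * ew 1 u) := by
  obtain ⟨C, hC⟩ := PB_Lam
  refine ⟨(Real.exp (2 * 1)).toNNReal * (2 * C ^ (2 / 3 : ℝ)), fun {P} hP N j hj s hs y => ?_⟩
  have hm := (measD_Lam (P := P)).vel s y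
  refine (PB_weight one_pos hm (PB_of_pow hm (hC hP hs y)) (Slow_al hP N hj hs.1 y)).mono (fun a => le_of_eq ?_)
    fun u _ => le_of_eq ?_
  · rw [TL, OneX.Th_al hP N j hs.1]
  · rw [ENNReal.coe_mul, ENNReal.coe_mul, OneX.coe_pow _ (by norm_num), mul_assoc _ _ (ew 1 u)]
    rfl
theorem pint_TL : ∃ C : ℝ≥0, ∀ {P : Par}, P.Ok → ∀ (N : ℕ) {s : ℝ}, s ∈ Icc (0 : ℝ) 1 → ∀ (y n z : R3) (L : ℝ), n ≠ 0 →
    pint n z (TL P N 1 s y) ≤ C * ENNReal.ofReal (al P N s y) ∧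
    pint n z ({η : R3 | L ≤ ‖η‖}.indicator (TL P N 1 s y)) ≤ C * ENNReal.ofReal (al P N s y) * ew (1 / 4) L := by
  obtain ⟨C, hC⟩ := PB_TL
  obtain ⟨C', hC'⟩ := PL_tail one_pos
  refine ⟨C' * C, fun {P} hP N s hs y n z L hn => ?_⟩
  have key : ∀ L : ℝ, pint n z ({η : R3 | L ≤ ‖η‖}.indicator (TL P N 1 s y)) ≤
      (C' * C : ℝ≥0) * ENNReal.ofReal (al P N s y) * ew (1 / 4) L := fun L => by
    refine (hC' ((measD_TL N 1).vel s y) (OneX.slow_cmul (Slow_al hP N hP.m1 hs.1 y) C) (hC hP N hP.m1 hs y)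
      n z L hn).trans_eq ?_
    simp [mul_assoc]
  refine ⟨?_, key L⟩
  simpa [ew] using key 0
theorem pint_TL_small (L : ℝ) : ∃ C : ℝ≥0, ∀ {P : Par}, P.Ok → ∀ (N : ℕ) {s : ℝ}, s ∈ Icc (0 : ℝ) 1 →
    ∀ (y n z : R3), n ≠ 0 → ∀ {S : Set R3}, MeasurableSet S → S ⊆ Metric.closedBall z L →
    pint n z (S.indicator (TL P N 1 s y)) ≤
      C * ENNReal.ofReal (al P N s y) * pint n z (S.indicator 1) ^ (1 / 3 : ℝ) ∧
    pint n z (S.indicator (Lam P s y)) ≤ C := by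
  obtain ⟨C, hC⟩ := PB_Lam
  obtain ⟨C', hC'⟩ := pint_small L
  refine ⟨C' * C ^ (2 / 3 : ℝ) * (1 + (Real.pi * (|L| + 1) ^ 2).toNNReal ^ (1 / 3 : ℝ)),
    fun {P} hP N s hs y n z hn S hS hsub => ?_⟩
  have hm := (measD_Lam (P := P)).vel s y
  have h1 := hC' hm (hC hP hs y) hS hn z hsub
  rw [ENNReal.coe_mul, ENNReal.coe_mul, ENNReal.coe_add, OneX.coe_pow _ (by norm_num), OneX.coe_pow _ (by norm_num)]
  constructor
  · calc _ ≤ pint n z (fun η => ENNReal.ofReal (al P N s y) * S.indicator (Lam P s y) η) := by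
          refine pint_mono _ _ fun η => ?_
          rw [← indicator_const_mul]
          exact indicator_le_indicator (mul_le_mul_left (Th_one_le_al hP N hs.1 y η) _)
      _ ≤ ENNReal.ofReal (al P N s y) * (C' * (C : ℝ≥0∞) ^ (2 / 3 : ℝ) * pint n z (S.indicator 1) ^ (1 / 3 : ℝ)) := by
          rw [pint_cmul _ _ _ (hm.indicator hS)]
          exact mul_le_mul_right h1 _
      _ = C' * (C : ℝ≥0∞) ^ (2 / 3 : ℝ) * 1 * ENNReal.ofReal (al P N s y) * pint n z (S.indicator 1) ^ (1 / 3 : ℝ) := by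
          ring
      _ ≤ _ := by
          gcongr
          exact le_self_add
  · refine h1.trans (mul_le_mul_right (le_add_left (ENNReal.rpow_le_rpow ?_ (by norm_num))) _)
    refine le_trans (pint_mono _ _ fun η => ?_) (pint_ball hn z (ρ := |L| + 1) (by positivity)).le
    exact indicator_le_indicator_of_subset (hsub.trans (Metric.closedBall_subset_ball
      (by linarith [le_abs_self L]))) (fun _ => zero_le) η
theorem src_bound : ∃ C : ℝ≥0, ∀ {P : Par}, P.Ok → ∀ (N : ℕ) {j : ℕ}, j ≤ P.m → ∀ {s : ℝ}, s ∈ Icc (0 : ℝ) 1 →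
    ∀ (y v : R3) {g : R3 → ℝ≥0∞}, Measurable g → (∀ a, g a ≠ 0 → ‖a‖ ≤ 3) →
    Qp g (TL P N j s y) v ≤ C * Th P (P.fl N) j s y v * ((∫⁻ a, g a) + S2 g v) := by
  obtain ⟨C, hC⟩ := PB_TL
  obtain ⟨C', hC'⟩ := QG one_pos
  refine ⟨C' * C, fun {P} hP N j hj s hs y v g hg hsupp => ?_⟩
  refine (hC' hg ((measD_TL N j).vel s y) hsupp (OneX.slow_cmul (Slow_al hP N hj hs.1 y) C)
    (hC hP N hj hs y) v).trans_eq ?_
  rw [OneX.Th_al hP N j hs.1, ENNReal.coe_mul]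
  ring
theorem KK_mono {P : Par} {N : ℕ} {F f f' : Den} {t : ℝ} (h : ∀ s ∈ Ioo 0 t, ∀ y η, f s y η ≤ f' s y η)
    (x v : R3) : KK P N F f t x v ≤ KK P N F f' t x v := by
  exact setLIntegral_mono' measurableSet_Ioo fun s hs =>
    mul_le_mul_right (mul_le_mul_right (Qp_mono (fun _ => le_rfl) (h s hs _) v) _) _
theorem OneX.meas_int {P : Par} {N : ℕ} {F f : Den} (hF : MeasD F) (hf : MeasD f) (t : ℝ) (x v : R3) :
    Measurable fun s => Ex F s t x v * (2 * Qp (G P N s (x - (t - s) • v)) (f s (x - (t - s) • v)) v) := by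
  have h : ∀ {f : Den}, MeasD f → Measurable (Function.uncurry fun s : ℝ => f s (x - (t - s) • v)) := fun hf =>
    hf.comp (t := fun q : ℝ × R3 => q.1) (x := fun q => x - (t - q.1) • v) (by fun_prop) (by fun_prop) measurable_snd
  exact (meas_Ex hF measurable_id measurable_const measurable_const measurable_const).mul
    ((meas_Qp (h (measD_G N)) (h hf) measurable_const).const_mul _)

theorem KK_add {P : Par} {N : ℕ} {F f f' : Den} (hF : MeasD F) (hf : MeasD f) (hf' : MeasD f') (t : ℝ) (x v : R3) :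
    KK P N F (fun s y η => f s y η + f' s y η) t x v = KK P N F f t x v + KK P N F f' t x v := by
  unfold KK
  rw [← lintegral_add_left (OneX.meas_int hF hf t x v)]
  refine lintegral_congr fun s => ?_
  rw [Qp_add_right ((measD_G N).vel _ _) (hf.vel _ _) (hf'.vel _ _), mul_add, mul_add]
theorem KK_cmul {P : Par} {N : ℕ} {F f : Den} (hF : MeasD F) (hf : MeasD f) (c : ℝ≥0∞) (t : ℝ) (x v : R3) :
    KK P N F (fun s y η => c * f s y η) t x v = c * KK P N F f t x v := by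
  unfold KK
  rw [← lintegral_const_mul _ (OneX.meas_int hF hf t x v)]
  refine lintegral_congr fun s => ?_
  have := Qp_cmul ((measD_G (P := P) N).vel s (x - (t - s) • v)) (hf.vel s (x - (t - s) • v)) 1 c v
  simp only [one_mul] at this
  rw [this]
  ring
/-- the integrand of `KK` -/
theorem OneX.pt : ∃ C : ℝ≥0, ∀ {P : Par}, P.Ok → ∀ (N : ℕ) (F : Den) {i : ℕ}, i + 1 ≤ P.m → ∀ {t : ℝ},
    t ∈ Icc (0 : ℝ) 1 → ∀ (x v : R3) {g : ℝ → ℝ}, Measurable g →
    (∀ s ∈ Ioo 0 t, om P (P.fl N) s (x - (t - s) • v) v ≤ g s) →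
    KK P N F (TL P N (i + 1)) t x v ≤ C * (ENNReal.ofReal (P.L + 2 * ‖v‖) * W 1 v) *
      ∫⁻ s in Ioo 0 t, ENNReal.ofReal (g s ^ i) * sig P s (x - (t - s) • v) v := by
  obtain ⟨C, hC⟩ := src_bound
  obtain ⟨C', hC'⟩ := sing_G
  refine ⟨2 * C * C' * (4 * cc / kap).toNNReal, fun {P} hP N F i hi t ht x v g hg hle => ?_⟩
  have hm : Measurable fun s => ENNReal.ofReal (g s ^ i) * sig P s (x - (t - s) • v) v :=
    (hg.pow_const i).ennreal_ofReal.mul (measD_sig.comp measurable_id (by fun_prop) measurable_const)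
  rw [← lintegral_const_mul _ hm]
  refine setLIntegral_mono' measurableSet_Ioo fun s hs => ?_
  have hs' : s ∈ Icc (0 : ℝ) 1 := ⟨hs.1.le, hs.2.le.trans ht.2⟩
  set y := x - (t - s) • v
  have h1 := hC hP N hi hs' y v ((measD_G N).vel s y) fun a ha => (G_supp hP hs' ha).1.trans (by norm_num)
  have h2 : Th P (P.fl N) (i + 1) s y v * rb P N s y ≤ ENNReal.ofReal (4 * cc / kap) *
      (ENNReal.ofReal (P.L + 2 * ‖v‖) * W 1 v) * ENNReal.ofReal (g s ^ i) := by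
    have a1 := L_ge hP
    have a2 := dd_nonneg y
    have a3 := fl_pos hP N
    have a4 := kap_pos
    have a5 := LawA.cc_pos
    have a6 := hs.1
    have a7 := om_nonneg hP a3.le a6.le y v
    refine (mul_le_mul_right (rb_le hP N a6.le y) _).trans ?_
    rw [Th, W, ← ENNReal.ofReal_mul (by positivity), ← ENNReal.ofReal_mul (by positivity),
      ← ENNReal.ofReal_mul (by positivity), ← ENNReal.ofReal_mul (by positivity), one_mul, pow_succ]
    refine ENNReal.ofReal_le_ofReal ?_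
    calc _ ≤ g s ^ i * ((P.L + 2 * ‖v‖) * (s + dd y + P.fl N)) * Real.exp (-‖v‖) *
          (4 * cc / (kap * (s + dd y + P.fl N))) := by
          gcongr
          · exact pow_nonneg (a7.trans (hle s hs)) i
          · exact hle s hs
          · exact om_le hP a3.le a6.le y v
      _ = _ := by field_simp
  calc _ ≤ 1 * (2 * (C * Th P (P.fl N) (i + 1) s y v * (C' * (rb P N s y * sig P s y v)))) :=
        mul_le_mul' (Ex_le_one _ _ _ _ _) (mul_le_mul_right (h1.trans (mul_le_mul_right (hC' hP N hs' y v) _)) _)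
    _ = 2 * C * C' * (Th P (P.fl N) (i + 1) s y v * rb P N s y) * sig P s y v := by ring
    _ ≤ 2 * C * C' * (ENNReal.ofReal (4 * cc / kap) * (ENNReal.ofReal (P.L + 2 * ‖v‖) * W 1 v) *
          ENNReal.ofReal (g s ^ i)) * sig P s y v := by gcongr
    _ = _ := by
        simp only [ENNReal.ofReal, ENNReal.coe_mul, ENNReal.coe_ofNat]
        ring
theorem OneX.time_int {A ω t : ℝ} (hA : 0 < A) (ht : 0 ≤ t) (h : A * t ≤ ω) (i : ℕ) :
    ∫⁻ s in Ioo 0 t, ENNReal.ofReal ((ω - A * (t - s)) ^ i) ^ (3 : ℝ) ≤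
      ENNReal.ofReal (ω ^ (3 * i + 1) / ((3 * i + 1) * A)) := by
  have hd : ∀ s, HasDerivAt (fun s => (ω - A * (t - s)) ^ (3 * i + 1) / ((3 * i + 1) * A))
      ((ω - A * (t - s)) ^ (3 * i)) s := fun s => by
    have h1 : HasDerivAt (fun s => ω - A * (t - s)) A s := by
      simpa using (((hasDerivAt_id s).const_sub t).const_mul A).const_sub ω
    refine ((h1.pow (3 * i + 1)).div_const ((3 * i + 1) * A)).congr_deriv ?_
    simp only [Nat.add_sub_cancel]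
    push_cast
    field_simp
  have hc : Continuous fun s => (ω - A * (t - s)) ^ (3 * i) := by fun_prop
  have h0 : ∀ s ∈ Ioo 0 t, 0 ≤ ω - A * (t - s) := fun s hs => by nlinarith [mul_pos hA hs.1]
  have e := intervalIntegral.integral_eq_sub_of_hasDerivAt (fun s _ => hd s) (hc.intervalIntegrable 0 t)
  rw [intervalIntegral.integral_of_le ht, integral_Ioc_eq_integral_Ioo] at e
  calc _ = ∫⁻ s in Ioo 0 t, ENNReal.ofReal ((ω - A * (t - s)) ^ (3 * i)) := by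
        refine setLIntegral_congr_fun measurableSet_Ioo fun s hs => ?_
        rw [ENNReal.ofReal_rpow_of_nonneg (pow_nonneg (h0 s hs) i) (by norm_num), mul_comm 3 i, pow_mul]
        norm_cast
    _ = ENNReal.ofReal (∫ s in Ioo 0 t, (ω - A * (t - s)) ^ (3 * i)) :=
        (ofReal_integral_eq_lintegral_ofReal ((hc.integrableOn_Icc).mono_set Ioo_subset_Icc_self)
          ((ae_restrict_mem measurableSet_Ioo).mono fun s hs => pow_nonneg (h0 s hs) _)).symm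
    _ ≤ _ := by
        rw [e]
        refine ENNReal.ofReal_le_ofReal ?_
        have : 0 ≤ (ω - A * (t - 0)) ^ (3 * i + 1) / ((3 * i + 1) * A) :=
          div_nonneg (pow_nonneg (by linarith) _) (by positivity)
        simp only [sub_self, mul_zero, sub_zero] at this ⊢
        linarith
theorem OneX.cube {A ω t : ℝ} (hA : 0 < A) (ht : 0 ≤ t) (h : A * t ≤ ω) (i : ℕ) :
    A * ((ω ^ (3 * i + 1) / ((3 * i + 1) * A)) ^ (1 / 3 : ℝ) * t ^ (2 / 3 : ℝ)) ≤
      ((i + 1 : ℕ) : ℝ) ^ (-(1 / 3) : ℝ) * ω ^ (i + 1) := by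
  have hω : 0 ≤ ω := (mul_nonneg hA.le ht).trans h
  have e : ∀ {a : ℝ}, 0 ≤ a → ∀ p : ℝ, (a ^ p) ^ 3 = a ^ (p * 3) := fun ha p => by
    rw [Real.rpow_mul ha]
    norm_cast
  refine (pow_le_pow_iff_left₀ (by positivity) (by positivity) three_ne_zero).1 ?_
  rw [mul_pow, mul_pow, mul_pow, e (by positivity), e ht, e (by positivity)]
  norm_num only
  rw [Real.rpow_one, Real.rpow_two, Real.rpow_neg_one]
  calc A ^ 3 * (ω ^ (3 * i + 1) / ((3 * i + 1) * A) * t ^ 2) = ω ^ (3 * i + 1) * (A * t) ^ 2 / (3 * i + 1) := by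
        field_simp
    _ ≤ ω ^ (3 * i + 1) * ω ^ 2 / ((i + 1 : ℕ) : ℝ) := by
        gcongr
        push_cast
        linarith [(Nat.cast_nonneg i : (0 : ℝ) ≤ i)]
    _ = _ := by ring

theorem KK_Th : ∃ C : ℝ≥0, ∀ {P : Par}, P.Ok → ∀ (N : ℕ) (F : Den) {j : ℕ}, 1 ≤ j → j ≤ P.m → ∀ {t : ℝ},
    t ∈ Icc (0 : ℝ) 1 → ∀ x v : R3,
    KK P N F (TL P N j) t x v ≤ C * ENNReal.ofReal ((j : ℝ) ^ (-(1 / 3) : ℝ)) * TL P N j t x v := by
  obtain ⟨C, hC⟩ := OneX.pt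
  refine ⟨2 * C, fun {P} hP N F j hj1 hj t ht x v => ?_⟩
  obtain ⟨i, rfl⟩ : ∃ i, j = i + 1 := ⟨j - 1, by omega⟩
  have a1 := L_ge hP
  have hA : 0 < P.L + ‖v‖ := by positivity
  have hω : (P.L + ‖v‖) * t ≤ om P (P.fl N) t x v := by
    have := om_mono hP (P.fl N) ht.1 x v
    have := om_nonneg hP (fl_pos hP N).le le_rfl (x - (t - 0) • v) v
    linarith
  have h0 : 0 ≤ om P (P.fl N) t x v := (mul_nonneg hA.le ht.1).trans hω
  set ω := om P (P.fl N) t x v with hωd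
  have hg : Measurable fun s => ω - (P.L + ‖v‖) * (t - s) := by fun_prop
  refine (hC hP N F hj ht x v hg fun s hs => by linarith [om_mono hP (P.fl N) hs.2.le x v]).trans ?_
  refine (mul_le_mul_right ((holder_time P ht.1 x v (hg.pow_const i).ennreal_ofReal).trans (mul_le_mul_left
    (mul_le_mul_left (ENNReal.rpow_le_rpow (OneX.time_int hA ht.1 hω i) (by norm_num)) _) _)) _).trans ?_
  have ht0 := ht.1
  rw [ENNReal.ofReal_rpow_of_nonneg (by positivity) (by norm_num), ← ENNReal.ofReal_mul (by positivity)]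
  calc _ = C * (ENNReal.ofReal (P.L + 2 * ‖v‖) * ENNReal.ofReal ((ω ^ (3 * i + 1) / ((3 * i + 1) * (P.L + ‖v‖))) ^
          (1 / 3 : ℝ) * t ^ (2 / 3 : ℝ))) * (W 1 v * Lam P t x v) := by ring
    _ ≤ C * (ENNReal.ofReal 2 * (ENNReal.ofReal (((i + 1 : ℕ) : ℝ) ^ (-(1 / 3) : ℝ)) * ENNReal.ofReal (ω ^ (i + 1)))) *
          (W 1 v * Lam P t x v) := by
        gcongr _ * ?_ * _
        rw [← ENNReal.ofReal_mul (by positivity), ← ENNReal.ofReal_mul (by positivity),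
          ← ENNReal.ofReal_mul (by positivity)]
        refine ENNReal.ofReal_le_ofReal ((mul_le_mul_of_nonneg_right (show P.L + 2 * ‖v‖ ≤ 2 * (P.L + ‖v‖) by
          linarith) (by positivity)).trans ?_)
        rw [mul_assoc]
        exact mul_le_mul_of_nonneg_left (OneX.cube hA ht.1 hω i) zero_le_two
    _ = _ := by
        rw [TL, Th, ENNReal.ofReal_mul (pow_nonneg h0 _), W, one_mul, ENNReal.ofReal_ofNat]
        push_cast
        ring
theorem KK_one : ∃ C : ℝ≥0, 0 < C ∧ ∀ {P : Par}, P.Ok → ∀ (N : ℕ) (F : Den) {t : ℝ},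
    t ∈ Icc (0 : ℝ) 1 → ∀ x v : R3, KK P N F (TL P N 1) t x v ≤ C * TL P N 1 t x v := by
  obtain ⟨C, hC⟩ := KK_Th
  refine ⟨C + 1, by positivity, fun {P} hP N F t ht x v => (hC hP N F le_rfl hP.m1 ht x v).trans ?_⟩
  simp only [Nat.cast_one, Real.one_rpow, ENNReal.ofReal_one, mul_one]
  gcongr
  exact le_self_add
theorem KK_quarter : ∃ m0 : ℕ, ∀ {P : Par}, P.Ok → m0 ≤ P.m → ∀ (N : ℕ) (F : Den) {t : ℝ},
    t ∈ Icc (0 : ℝ) 1 → ∀ x v : R3, KK P N F (TL P N P.m) t x v ≤ 4⁻¹ * TL P N P.m t x v := by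
  obtain ⟨C, hC⟩ := KK_Th
  refine ⟨⌈(4 * C : ℝ) ^ 3⌉₊, fun {P} hP hm N F t ht x v => (hC hP N F hP.m1 le_rfl ht x v).trans ?_⟩
  refine mul_le_mul_left ?_ _
  have h1 : (4 * C : ℝ) ^ 3 ≤ P.m := Nat.ceil_le.1 hm
  have h2 : (0 : ℝ) < P.m := by exact_mod_cast hP.m1
  have h3 : (4 * C : ℝ) ≤ (P.m : ℝ) ^ (1 / 3 : ℝ) := by
    refine (pow_le_pow_iff_left₀ (by positivity) (by positivity) three_ne_zero).1 (h1.trans_eq ?_)
    rw [← Real.rpow_natCast, ← Real.rpow_mul h2.le]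
    norm_num
  rw [← ENNReal.ofReal_coe_nnreal, ← ENNReal.ofReal_mul C.coe_nonneg, show (4⁻¹ : ℝ≥0∞) = ENNReal.ofReal 4⁻¹ by
    rw [ENNReal.ofReal_inv_of_pos (by norm_num), ENNReal.ofReal_ofNat]]
  refine ENNReal.ofReal_le_ofReal ?_
  rw [Real.rpow_neg h2.le, ← div_eq_mul_inv, div_le_iff₀ (by positivity)]
  linarith
theorem KK_far : ∃ C : ℝ≥0, ∀ {P : Par}, P.Ok → ∀ (N : ℕ) (F : Den) {t : ℝ}, t ∈ Icc (0 : ℝ) 1 → ∀ x v : R3,
    KK P N F (TL P N 1) t x v ≤ C * ENNReal.ofReal (t * (P.L + 2 * ‖v‖)) * (W 1 v * Lam P t x v) := by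
  obtain ⟨C, hC⟩ := OneX.pt
  refine ⟨C, fun {P} hP N F t ht x v => ?_⟩
  refine (hC hP N F (i := 0) hP.m1 ht x v ((measurable_om _).comp
    (f := fun s : ℝ => (s, x - (t - s) • v, v)) (by fun_prop)) fun s _ => le_rfl).trans ?_
  simp only [pow_zero, ENNReal.ofReal_one, one_mul]
  refine (mul_le_mul_right (sig_time P ht.1 x v) _).trans_eq ?_
  rw [ENNReal.ofReal_mul ht.1]
  ring
theorem KK_fast : ∃ C : ℝ≥0, ∀ {P : Par}, P.Ok → ∀ (N : ℕ) {F : Den}, MeasD F → ∀ {t : ℝ}, t ∈ Icc (0 : ℝ) 1 →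
    (∀ s ∈ Icc 0 t, ∀ y a, ENNReal.ofReal (99 / 100) * gs P N s y a ≤ F s y a) → ∀ x v : R3, 4 ≤ ‖v‖ →
    KK P N F (TL P N 1) t x v ≤
      C * ENNReal.ofReal (1 / (‖v‖ - 3) + Real.sqrt P.w) * Th P (P.fl N) 1 t x v := by
  obtain ⟨C, hC⟩ := src_bound
  refine ⟨4 * C * (1 + (6 * cc).toNNReal), fun {P} hP N F hF t ht hdep x v hv => ?_⟩
  have hcc := LawA.cc_pos
  have hv3 : 0 < ‖v‖ - 3 := by linarith
  have hnu : Measurable fun σ => nu (F σ (x - (t - σ) • v)) v :=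
    meas_nu (hF.comp measurable_fst (by fun_prop) measurable_snd) measurable_const
  have hE : Measurable fun s => Ex F s t x v :=
    meas_Ex hF measurable_id measurable_const measurable_const measurable_const
  have key : ∀ s ∈ Ioo 0 t, Ex F s t x v * (2 * Qp (G P N s (x - (t - s) • v)) (TL P N 1 s (x - (t - s) • v)) v) ≤
      4 * C * Th P (P.fl N) 1 t x v * (ENNReal.ofReal (1 / (‖v‖ - 3)) * (nu (F s (x - (t - s) • v)) v * Ex F s t x v) +
        ENNReal.ofReal (6 * cc * Real.sqrt P.w)) := by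
    intro s hs
    have hs' : s ∈ Icc (0 : ℝ) 1 := ⟨hs.1.le, hs.2.le.trans ht.2⟩
    set y := x - (t - s) • v
    have far : ∀ a, G P N s y a ≠ 0 → ‖v‖ - 2 ≤ ‖v - a‖ := fun a ha => by
      linarith [norm_sub_norm_le v a, (G_supp hP hs' ha).1]
    have h1 := hC hP N hP.m1 hs' y v ((measD_G N).vel s y) fun a ha => (G_supp hP hs' ha).1.trans (by norm_num)
    have h2 : S2 (G P N s y) v ≤ ∫⁻ a, G P N s y a := by
      refine lintegral_mono fun a => ?_
      by_cases ha : G P N s y a = 0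
      · simp [ha]
      · exact mul_le_of_le_one_right' ((SingX.invn_le one_pos (by linarith [far a ha])).trans (by simp))
    have h3 : ∫⁻ a, gs P N s y a ≤ ENNReal.ofReal (1 / (‖v‖ - 3)) * nu (F s y) v := by
      rw [nu, ← lintegral_const_mul' _ _ ENNReal.ofReal_ne_top]
      refine lintegral_mono fun a => ?_
      by_cases ha : gs P N s y a = 0
      · simp [ha]
      · have h4 := far a fun h => ha (le_antisymm (h ▸ gs_le_G N s y a) zero_le)
        refine le_trans ?_ (mul_le_mul_right (mul_le_mul_right (hdep s ⟨hs.1.le, hs.2.le⟩ y a) _) _)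
        rw [← mul_assoc, ← mul_assoc, ← ENNReal.ofReal_mul (by positivity), ← ENNReal.ofReal_mul (by positivity)]
        refine le_mul_of_one_le_left' (ENNReal.one_le_ofReal.2 ?_)
        rw [mul_assoc, one_div_mul_eq_div, le_div_iff₀ hv3]
        nlinarith [Real.pi_gt_three, norm_nonneg (v - a)]
    have h4 : ∫⁻ a, G P N s y a ≤ ENNReal.ofReal (1 / (‖v‖ - 3)) * nu (F s y) v +
        ENNReal.ofReal (6 * cc * Real.sqrt P.w) := by
      refine le_trans (le_of_eq ?_) (add_le_add h3 (GC_mass hP N hs' y))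
      exact lintegral_add_left ((measD_gs N).vel s y) _
    calc _ ≤ Ex F s t x v * (2 * (C * Th P (P.fl N) 1 t x v * ((ENNReal.ofReal (1 / (‖v‖ - 3)) * nu (F s y) v +
          ENNReal.ofReal (6 * cc * Real.sqrt P.w)) + (ENNReal.ofReal (1 / (‖v‖ - 3)) * nu (F s y) v +
          ENNReal.ofReal (6 * cc * Real.sqrt P.w))))) :=
          mul_le_mul_right (mul_le_mul_right (h1.trans (mul_le_mul' (mul_le_mul_right
            (Th_mono hP (fl_pos hP N).le 1 hs.1.le hs.2.le x v) _) (add_le_add h4 (h2.trans h4)))) _) _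
      _ = 4 * C * Th P (P.fl N) 1 t x v * (ENNReal.ofReal (1 / (‖v‖ - 3)) * (nu (F s y) v * Ex F s t x v) +
          Ex F s t x v * ENNReal.ofReal (6 * cc * Real.sqrt P.w)) := by ring
      _ ≤ _ := by
          gcongr
          exact mul_le_of_le_one_left' (Ex_le_one _ _ _ _ _)
  refine (setLIntegral_mono' measurableSet_Ioo key).trans ?_
  have hm : Measurable fun s => ENNReal.ofReal (1 / (‖v‖ - 3)) * (nu (F s (x - (t - s) • v)) v * Ex F s t x v) :=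
    (hnu.mul hE).const_mul _
  rw [lintegral_const_mul _ (hm.add_const _), lintegral_add_left hm, lintegral_const_mul' _ _ ENNReal.ofReal_ne_top,
    setLIntegral_const, Real.volume_Ioo]
  have h5 : ENNReal.ofReal (t - 0) ≤ 1 := ENNReal.ofReal_le_one.2 (by linarith [ht.2])
  calc _ ≤ 4 * C * Th P (P.fl N) 1 t x v * (ENNReal.ofReal (1 / (‖v‖ - 3)) * 1 +
        ENNReal.ofReal (6 * cc * Real.sqrt P.w) * 1) := by
        gcongr
        exact lintegral_mul_expNeg_le hnu 0 t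
    _ ≤ 4 * C * Th P (P.fl N) 1 t x v * ((1 + ENNReal.ofReal (6 * cc)) * ENNReal.ofReal (1 / (‖v‖ - 3)) +
        (1 + ENNReal.ofReal (6 * cc)) * ENNReal.ofReal (Real.sqrt P.w)) := by
        rw [mul_one, mul_one, ENNReal.ofReal_mul (by positivity)]
        gcongr
        · exact le_mul_of_one_le_left' le_self_add
        · exact le_add_self
    _ = _ := by
        rw [ENNReal.ofReal_add (by positivity) (by positivity)]
        simp only [ENNReal.ofReal, ENNReal.coe_mul, ENNReal.coe_ofNat, ENNReal.coe_add, ENNReal.coe_one]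
        ring
theorem KK_late (m : ℕ) : ∃ C : ℝ≥0, ∀ {P : Par}, P.Ok → P.m = m → ∀ (N : ℕ) (F : Den) {j : ℕ}, 1 ≤ j → j ≤ m →
    ∀ {t t1 : ℝ}, 0 ≤ t → t ≤ t1 → t1 ≤ 1 → P.r ≤ t1 → P.fl N ≤ P.r → ∀ x v : R3,
    KK P N F (TL P N j) t x v ≤ C * ENNReal.ofReal t1 * (W (1 / 2) v * Lam P t x v) := by
  obtain ⟨C, hC⟩ := OneX.pt
  obtain ⟨C', h0, hC'⟩ := QQa.poly_exp (c := 1 / 2) (by norm_num) m
  refine ⟨C * ((8 * m + 4) ^ m * C').toNNReal, fun {P} hP hm N F j hj1 hj t t1 ht0 htt ht1 hr hfl x v => ?_⟩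
  obtain ⟨i, rfl⟩ : ∃ i, j = i + 1 := ⟨j - 1, by omega⟩
  have a1 := L_ge hP
  have a2 := norm_nonneg v
  have a3 : P.L = 4 * m := by rw [Par.L, hm]
  refine (hC hP N F (hm ▸ hj) ⟨ht0, htt.trans ht1⟩ x v (g := fun _ => 2 * (P.L + 2 * ‖v‖)) measurable_const
    fun s hs => (om_le hP (fl_pos hP N).le hs.1.le _ v).trans ?_).trans ?_
  · have := dd_le_half (x - (t - s) • v)
    have := hP.r1
    have : s + dd (x - (t - s) • v) + P.fl N ≤ 2 := by linarith [hs.2]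
    nlinarith
  rw [lintegral_const_mul' _ _ ENNReal.ofReal_ne_top]
  have h1 : ENNReal.ofReal (P.L + 2 * ‖v‖) * W 1 v * ENNReal.ofReal ((2 * (P.L + 2 * ‖v‖)) ^ i) ≤
      ENNReal.ofReal ((8 * m + 4) ^ m * C') * W (1 / 2) v := by
    rw [W, W, ← ENNReal.ofReal_mul (by positivity), ← ENNReal.ofReal_mul (by positivity),
      ← ENNReal.ofReal_mul (by positivity)]
    refine ENNReal.ofReal_le_ofReal ?_
    have e : Real.exp (-(1 * ‖v‖)) = Real.exp (-(1 / 2 * ‖v‖)) * Real.exp (-(1 / 2 * ‖v‖)) := by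
      rw [← Real.exp_add]
      ring_nf
    have b1 : (P.L + 2 * ‖v‖) * (2 * (P.L + 2 * ‖v‖)) ^ i ≤ (8 * m + 4) ^ m * (1 + ‖v‖) ^ m :=
      calc _ ≤ (2 * (P.L + 2 * ‖v‖)) ^ (i + 1) := by
            rw [pow_succ']
            gcongr
            linarith
        _ ≤ (2 * (P.L + 2 * ‖v‖)) ^ m := pow_le_pow_right₀ (by linarith) hj
        _ ≤ ((8 * m + 4) * (1 + ‖v‖)) ^ m := by
            gcongr ?_ ^ _
            nlinarith [mul_nonneg (Nat.cast_nonneg (α := ℝ) m) a2]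
        _ = _ := mul_pow _ _ _
    calc _ = (P.L + 2 * ‖v‖) * (2 * (P.L + 2 * ‖v‖)) ^ i * Real.exp (-(1 / 2 * ‖v‖)) * Real.exp (-(1 / 2 * ‖v‖)) := by
          rw [e]
          ring
      _ ≤ (8 * m + 4) ^ m * (1 + ‖v‖) ^ m * Real.exp (-(1 / 2 * ‖v‖)) * Real.exp (-(1 / 2 * ‖v‖)) := by gcongr
      _ ≤ _ := by
          rw [mul_assoc ((8 * m + 4 : ℝ) ^ m)]
          gcongr
          exact hC' _ a2
  calc _ ≤ C * (ENNReal.ofReal (P.L + 2 * ‖v‖) * W 1 v) * (ENNReal.ofReal ((2 * (P.L + 2 * ‖v‖)) ^ i) *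
        (ENNReal.ofReal t1 * Lam P t x v)) := by
        gcongr
        exact (sig_time P ht0 x v).trans (mul_le_mul_left (ENNReal.ofReal_le_ofReal htt) _)
    _ = C * (ENNReal.ofReal (P.L + 2 * ‖v‖) * W 1 v * ENNReal.ofReal ((2 * (P.L + 2 * ‖v‖)) ^ i)) *
        (ENNReal.ofReal t1 * Lam P t x v) := by ring
    _ ≤ C * (ENNReal.ofReal ((8 * m + 4) ^ m * C') * W (1 / 2) v) * (ENNReal.ofReal t1 * Lam P t x v) := by gcongr
    _ = _ := by
        rw [ENNReal.coe_mul]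
        simp only [ENNReal.ofReal]
        ring

end Crest.Agent.R68
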