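import Crest.Agent.R68.GoodB

/-! Toolkit for `Weak`, `LocCons`, `Ent1`, `Ent2`: characteristic coordinates. -/

set_option autoImplicit false

open MeasureTheory Set Filter Topology Crest.AnalysisR.VecCalc3 Crest.AnalysisR.PDE.Boltzmann
open scoped ENNReal NNReal

namespace Crest.Agent.R68

namespace Sharp

noncomputable section

/-- phase space measure on the cell -/
abbrev muC : Measure (R3 × R3) := volume.restrict (cell ×ˢ (univ : Set R3))

theorem vol3 (s : Set ℝ) :
    (volume : Measure (ℝ × R3 × R3)).restrict (s ×ˢ (cell ×ˢ (univ : Set R3))) =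
      (volume.restrict s).prod muC := by
  rw [Measure.prod_restrict]; rfl

theorem muC_eq : muC = (volume.restrict cell).prod (volume : Measure R3) := by
  conv_rhs => rw [← Measure.restrict_univ (μ := (volume : Measure R3))]
  rw [Measure.restrict_univ, Measure.restrict_prod_eq_prod_univ]; rfl

theorem vol2 (s : Set ℝ) :
    (volume : Measure (ℝ × R3)).restrict (s ×ˢ cell) = (volume.restrict s).prod (volume.restrict cell) := by
  rw [Measure.prod_restrict]; rfl

/-- associativity -/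
theorem mp_assoc (s : Set ℝ) :
    MeasurePreserving (fun z : (ℝ × R3) × R3 => (z.1.1, z.1.2, z.2))
      (((volume : Measure (ℝ × R3)).restrict (s ×ˢ cell)).prod (volume : Measure R3))
      ((volume : Measure (ℝ × R3 × R3)).restrict (s ×ˢ (cell ×ˢ (univ : Set R3)))) := by
  rw [vol3, muC_eq, vol2]
  exact measurePreserving_prodAssoc _ _ _

theorem lint_assoc {G : ℝ × R3 × R3 → ℝ≥0∞} (hG : Measurable G) (s : Set ℝ) :
    ∫⁻ p in s ×ˢ (cell ×ˢ (univ : Set R3)), G p = ∫⁻ z in s ×ˢ cell, ∫⁻ v, G (z.1, z.2, v) := by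
  rw [← (mp_assoc s).lintegral_comp hG]
  exact lintegral_prod _ (hG.comp (mp_assoc s).measurable).aemeasurable

theorem meas_assoc {G : ℝ × R3 × R3 → ℝ≥0∞} (hG : Measurable G) :
    Measurable (fun z : ℝ × R3 => ∫⁻ v, G (z.1, z.2, v)) :=
  (hG.comp (mp_assoc univ).measurable).lintegral_prod_right'

theorem int_assoc {G : ℝ × R3 × R3 → ℝ} {s : Set ℝ}
    (hG : IntegrableOn G (s ×ˢ (cell ×ˢ (univ : Set R3)))) :
    IntegrableOn (fun z : ℝ × R3 => ∫ v, G (z.1, z.2, v)) (s ×ˢ cell) ∧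
    ∫ p in s ×ˢ (cell ×ˢ (univ : Set R3)), G p = ∫ z in s ×ˢ cell, ∫ v, G (z.1, z.2, v) := by
  have hm := mp_assoc s
  have h1 := hm.integrable_comp_of_integrable hG
  refine ⟨h1.integral_prod_left, ?_⟩
  conv_lhs => rw [← hm.map_eq]
  rw [integral_map hm.measurable.aemeasurable (by rw [hm.map_eq]; exact hG.1)]
  exact integral_prod _ h1

theorem ae_assoc {P : ℝ × R3 × R3 → Prop} {s : Set ℝ}
    (h : ∀ᵐ p ∂(volume.restrict (s ×ˢ (cell ×ˢ (univ : Set R3)))), P p) :
    ∀ᵐ z : ℝ × R3 ∂(volume.restrict (s ×ˢ cell)), ∀ᵐ v, P (z.1, z.2, v) :=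
  Measure.ae_ae_of_ae_prod ((mp_assoc s).quasiMeasurePreserving.ae h)

/-- representative in the cell -/
def fr (x : R3) : R3 := WithLp.toLp 2 (fun i => Int.fract (x i))

theorem measurable_fr : Measurable fr := by
  unfold fr
  refine (WithLp.measurable_toLp 2 _).comp (measurable_pi_lambda _ fun i => ?_)
  exact measurable_fract.comp (by fun_prop)

theorem fr_per : IsPeriodic3 fr := by
  intro x i
  ext j
  simp only [fr, PiLp.add_apply, EuclideanSpace.single_apply]
  split_ifs
  · simp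
  · simp

theorem fr_mem (x : R3) : fr x ∈ cell := fun i => ⟨Int.fract_nonneg _, Int.fract_lt_one _⟩

theorem fr_eq {x : R3} (hx : x ∈ cell) : fr x = x := by
  ext j
  exact Int.fract_eq_self.2 (hx j)

theorem per_fr {α : Type} {f : R3 → α} (hf : IsPeriodic3 f) (x : R3) : f (fr x) = f x := by
  have := per_int hf (fr x) (fun i => ⌊x i⌋)
  rw [← this]
  congr 1
  ext j
  simp [fr]

theorem norm_le_of_cell {x : R3} (hx : x ∈ cell) : ‖x‖ ≤ 2 := by
  have h : ‖x‖ ^ 2 ≤ 2 ^ 2 := by
    rw [EuclideanSpace.norm_sq_eq, Fin.sum_univ_three]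
    have h0 := hx 0; have h1 := hx 1; have h2 := hx 2
    simp only [Real.norm_eq_abs, sq_abs]
    nlinarith [h0.1, h0.2, h1.1, h1.2, h2.1, h2.2]
  exact le_of_sq_le_sq (by simpa using h) (by norm_num) |> fun h => h

/-- the shear on the torus -/
def sh (τ : ℝ) (q : R3 × R3) : R3 × R3 := (fr (q.1 + τ • q.2), q.2)

theorem measurable_sh : Measurable (Function.uncurry sh) := by
  unfold sh
  exact (measurable_fr.comp (by fun_prop)).prodMk (by fun_prop)

theorem mp_sh (τ : ℝ) : MeasurePreserving (sh τ) muC muC := by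
  have hm : Measurable (sh τ) := measurable_sh.of_uncurry_left
  refine ⟨hm, ?_⟩
  ext A hA
  rw [Measure.map_apply hm hA, ← lintegral_indicator_one (hm hA), ← lintegral_indicator_one hA]
  have hf : Meas2 (fun x v => A.indicator (1 : R3 × R3 → ℝ≥0∞) (fr x, v)) :=
    (measurable_one.indicator hA).comp ((measurable_fr.comp measurable_fst).prodMk measurable_snd)
  have := lintegral_shear hf (fun v x i => by simp only [fr_per x i]) (-τ)
  calc _ = ∫⁻ q in cell ×ˢ (univ : Set R3), A.indicator (1 : R3 × R3 → ℝ≥0∞) (fr (q.1 - (-τ) • q.2), q.2) := by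
        refine lintegral_congr fun q => ?_
        simp only [neg_smul, sub_neg_eq_add]
        rfl
    _ = _ := this
    _ = _ := by
        refine setLIntegral_congr_fun (measurableSet_cell.prod MeasurableSet.univ) fun q hq => ?_
        simp only [fr_eq hq.1]

/-- the shear with time -/
def Sh (p : ℝ × R3 × R3) : ℝ × R3 × R3 := (p.1, sh p.1 p.2)

theorem mp_Sh (s : Set ℝ) :
    MeasurePreserving Sh ((volume.restrict s).prod muC) ((volume.restrict s).prod muC) :=
  (MeasurePreserving.id _).skew_product measurable_sh (ae_of_all _ fun t => (mp_sh t).map_eq)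

theorem ae_fst_mem {s : Set ℝ} (hs : MeasurableSet s) :
    ∀ᵐ p : ℝ × R3 × R3 ∂((volume.restrict s).prod muC), p.1 ∈ s :=
  (Measure.quasiMeasurePreserving_fst).ae (ae_restrict_mem hs)

section shear
variable {G : ℝ → R3 → R3 → ℝ} {s : Set ℝ}

theorem sharp_ae_eq (hs : MeasurableSet s) (hp : ∀ t ∈ s, ∀ v, IsPeriodic3 (fun x => G t x v)) :
    (fun p : ℝ × R3 × R3 => G p.1 (p.2.1 + p.1 • p.2.2) p.2.2) =ᵐ[(volume.restrict s).prod muC]
      (fun p : ℝ × R3 × R3 => G p.1 p.2.1 p.2.2) ∘ Sh := by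
  filter_upwards [ae_fst_mem hs] with p hp'
  simp only [Function.comp, Sh, sh]
  exact (per_fr (hp p.1 hp' p.2.2) _).symm

theorem shear3_integrable (hs : MeasurableSet s) (hp : ∀ t ∈ s, ∀ v, IsPeriodic3 (fun x => G t x v))
    (hi : IntegrableOn (fun p : ℝ × R3 × R3 => G p.1 p.2.1 p.2.2) (s ×ˢ (cell ×ˢ (univ : Set R3)))) :
    Integrable (fun p : ℝ × R3 × R3 => G p.1 (p.2.1 + p.1 • p.2.2) p.2.2)
      ((volume.restrict s).prod muC) := by
  rw [IntegrableOn, vol3] at hi
  exact ((mp_Sh s).integrable_comp_of_integrable hi).congr (sharp_ae_eq hs hp).symm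

theorem shear3_integral (hs : MeasurableSet s) (hp : ∀ t ∈ s, ∀ v, IsPeriodic3 (fun x => G t x v))
    (hi : IntegrableOn (fun p : ℝ × R3 × R3 => G p.1 p.2.1 p.2.2) (s ×ˢ (cell ×ˢ (univ : Set R3)))) :
    ∫ p in s ×ˢ (cell ×ˢ (univ : Set R3)), G p.1 p.2.1 p.2.2 =
      ∫ q, (∫ t in s, G t (q.1 + t • q.2) q.2) ∂muC := by
  have h1 := shear3_integrable hs hp hi
  rw [IntegrableOn, vol3] at hi
  rw [vol3, ← integral_prod_symm _ h1, integral_congr_ae (sharp_ae_eq hs hp)]
  have hm := mp_Sh s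
  conv_lhs => rw [← hm.map_eq]
  rw [integral_map hm.measurable.aemeasurable (by rw [hm.map_eq]; exact hi.1)]
  rfl

theorem shear2_integrable {f : R3 → R3 → ℝ} (hp : ∀ v, IsPeriodic3 (fun x => f x v)) (τ : ℝ)
    (hi : Integrable (fun q : R3 × R3 => f q.1 q.2) muC) :
    Integrable (fun q : R3 × R3 => f (q.1 + τ • q.2) q.2) muC := by
  refine ((mp_sh τ).integrable_comp_of_integrable hi).congr (ae_of_all _ fun q => ?_)
  simp only [Function.comp, sh]
  exact per_fr (hp q.2) _

theorem shear2_integral {f : R3 → R3 → ℝ} (hp : ∀ v, IsPeriodic3 (fun x => f x v)) (τ : ℝ)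
    (hi : AEStronglyMeasurable (fun q : R3 × R3 => f q.1 q.2) muC) :
    ∫ q, f q.1 q.2 ∂muC = ∫ q, f (q.1 + τ • q.2) q.2 ∂muC := by
  have hm := mp_sh τ
  conv_lhs => rw [← hm.map_eq]
  rw [integral_map hm.measurable.aemeasurable (by rw [hm.map_eq]; exact hi)]
  refine integral_congr_ae (ae_of_all _ fun q => ?_)
  simp only [sh]
  exact per_fr (hp q.2) _

end shear

variable {F0 : R3 → R3 → ℝ} {T : ℝ} {F : ℝ → R3 → R3 → ℝ} {𝓜 : Den}

theorem good_mono (h : Good F0 T F 𝓜) {t : ℝ} (ht : t ≤ T) : Good F0 t F 𝓜 where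
  meas := h.meas
  nonneg := h.nonneg
  per := fun s hs => h.per s ⟨hs.1, hs.2.trans ht⟩
  init := h.init
  plain := fun s hs => h.plain s ⟨hs.1, hs.2.trans ht⟩
  major :=
    { meas := h.major.meas
      per := h.major.per
      m1 := by
        obtain ⟨C, hC, h1⟩ := h.major.m1
        exact ⟨C, hC, fun s hs => h1 s ⟨hs.1, hs.2.trans ht⟩⟩
      m2 := fun k => lt_of_le_of_lt
        (lintegral_mono_set (prod_mono (Ioo_subset_Ioo_right ht) subset_rfl)) (h.major.m2 k) }
  le := fun s hs => h.le s ⟨hs.1, hs.2.trans ht⟩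

theorem meas_src (h : Good F0 T F 𝓜) :
    Measurable (fun p : ℝ × R3 × R3 => Src F p.1 p.2.1 p.2.2) :=
  h.meas_gain.ennreal_toReal.sub h.meas_loss.ennreal_toReal

theorem src_int (h : Good F0 T F 𝓜) :
    IntegrableOn (fun p : ℝ × R3 × R3 => Src F p.1 p.2.1 p.2.2)
      (Ioo 0 T ×ˢ (cell ×ˢ (univ : Set R3))) := by
  simpa using h.src_integrable 0

theorem plain_sharp (h : Good F0 T F 𝓜) {t : ℝ} (ht : t ∈ Icc 0 T) :
    ∀ᵐ q ∂muC, F t (q.1 + t • q.2) q.2 =
      F0 q.1 q.2 + ∫ s in Ioo 0 t, Src F s (q.1 + s • q.2) q.2 := by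
  refine ae_restrict_of_ae ?_
  have := (measurePreserving_shear (-t)).quasiMeasurePreserving.ae (h.plain t ht)
  filter_upwards [this] with q hq
  simp only [neg_smul, sub_neg_eq_add, add_sub_cancel_right] at hq
  rw [hq]
  congr 1
  refine integral_congr_ae (ae_of_all _ fun s => ?_)
  simp only
  congr 1
  rw [sub_smul]; abel

theorem meas_timeInt_real {α : Type} [MeasurableSpace α] {g : α → ℝ → ℝ}
    (hg : Measurable (Function.uncurry g)) {t : α → ℝ} (ht : Measurable t) :
    Measurable (fun a => ∫ σ in Ioo 0 (t a), g a σ) := by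
  have h1 : Measurable (fun z : α × ℝ => {z : α × ℝ | 0 < z.2 ∧ z.2 < t z.1}.indicator
      (Function.uncurry g) z) :=
    hg.indicator ((measurableSet_lt measurable_const measurable_snd).inter
      (measurableSet_lt measurable_snd (ht.comp measurable_fst)))
  have h2 := h1.stronglyMeasurable.integral_prod_right' (ν := (volume : Measure ℝ))
  have h3 : (fun a => ∫ σ in Ioo 0 (t a), g a σ) = fun a => ∫ σ, {z : α × ℝ | 0 < z.2 ∧ z.2 < t z.1}.indicator
      (Function.uncurry g) (a, σ) := by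
    funext a
    rw [← integral_indicator measurableSet_Ioo]
    rfl
  rw [h3]
  exact h2.measurable

/-- along almost every characteristic the mild identity holds for almost every time -/
theorem sharp_ae (h : Good F0 T F 𝓜) :
    ∀ᵐ q ∂muC, IntegrableOn (fun s => Src F s (q.1 + s • q.2) q.2) (Ioo 0 T) ∧
      ∀ᵐ t ∂(volume.restrict (Ioo 0 T)), F t (q.1 + t • q.2) q.2 =
        F0 q.1 q.2 + ∫ s in Ioo 0 t, Src F s (q.1 + s • q.2) q.2 := by
  have h1 := (shear3_integrable measurableSet_Ioo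
    (fun t ht => h.per_src t (Ioo_subset_Icc_self ht)) (src_int h)).prod_left_ae
  have h2 : ∀ᵐ t ∂(volume.restrict (Ioo 0 T)), ∀ᵐ q ∂muC, F t (q.1 + t • q.2) q.2 =
      F0 q.1 q.2 + ∫ s in Ioo 0 t, Src F s (q.1 + s • q.2) q.2 := by
    filter_upwards [ae_restrict_mem measurableSet_Ioo] with t ht
    exact plain_sharp h (Ioo_subset_Icc_self ht)
  rw [Measure.ae_ae_comm] at h2
  · filter_upwards [h1, h2] with q hq1 hq2
    exact ⟨hq1, hq2⟩
  · refine measurableSet_eq_fun ?_ ?_
    · exact h.meas.comp (f := fun z : ℝ × R3 × R3 => (z.1, z.2.1 + z.1 • z.2.2, z.2.2)) (by fun_prop)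
    · refine (h.meas0.comp measurable_snd).add ?_
      refine meas_timeInt_real (g := fun (z : ℝ × R3 × R3) s => Src F s (z.2.1 + s • z.2.2) z.2.2) ?_
        measurable_fst
      exact (meas_src h).comp
        (f := fun z : (ℝ × R3 × R3) × ℝ => (z.2, z.1.2.1 + z.2 • z.1.2.2, z.1.2.2)) (by fun_prop)

end

end Sharp

end Crest.Agent.R68
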