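import Crest.Agent.R68.NLb
import Crest.Agent.R68.Cold
import Crest.Agent.R68.PropW

/-! The basic inequality for the hot part: `F ≤ G + hot`, `Qp F F ≤ Qp G G + 2 Qp G hot + Qp hot hot` (`Qp_symm`), `Ex ≤ 1`, `cold`, then `tsub_le_iff`.
`boot`: `z t = A + C ∫_0^t y²` is finite and continuous on `[0,T]`; consider the supremum of the `t` with `z ≤ 2A` on `[0,t]` (if `A = 0` use Gronwall: `y ≤ C y(T) ∫ y`). -/

set_option autoImplicit false

open MeasureTheory Set Filter Topology Crest.AnalysisR.VecCalc3 Crest.AnalysisR.PDE.Boltzmann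
open scoped ENNReal NNReal

namespace Crest.Agent.R68

theorem Step1.fl_le_om {P : Par} (hP : P.Ok) (ϱ : ℝ) {t : ℝ} (ht : 0 ≤ t) (x v : R3) :
    ϱ ≤ om P ϱ t x v ∧ (0 ≤ ϱ → t ≤ om P ϱ t x v) := by
  have h1 := L_ge hP
  have h2 := dd_nonneg x
  have h3 := mul_nonneg ht (norm_nonneg v)
  unfold om
  constructor
  · nlinarith
  · intro h; nlinarith

theorem Step1.Th_low {P : Par} (ϱ : ℝ) (j : ℕ) {t c : ℝ} (hc : 0 < c) {x v : R3}
    (h : c ≤ om P ϱ t x v) : W 1 v ≤ ENNReal.ofReal (c⁻¹ ^ j) * Th P ϱ j t x v := by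
  unfold W Th
  rw [← ENNReal.ofReal_mul (by positivity), one_mul, ← mul_assoc, ← mul_pow]
  refine ENNReal.ofReal_le_ofReal (le_mul_of_one_le_left (Real.exp_pos _).le (one_le_pow₀ ?_))
  rw [inv_mul_eq_div, one_le_div hc]
  exact h

theorem Step1.Th_pow {P : Par} (hP : P.Ok) (ϱ : ℝ) {t c : ℝ} (hc : 0 ≤ c) {x v : R3}
    (h : c ≤ om P ϱ t x v) :
    ENNReal.ofReal (c ^ (P.m - 1)) * Th P ϱ 1 t x v ≤ Th P ϱ P.m t x v := by
  unfold Th
  rw [← ENNReal.ofReal_mul (by positivity), ← mul_assoc]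
  refine ENNReal.ofReal_le_ofReal (mul_le_mul_of_nonneg_right ?_ (Real.exp_pos _).le)
  calc c ^ (P.m - 1) * om P ϱ t x v ^ 1 ≤ om P ϱ t x v ^ (P.m - 1) * om P ϱ t x v ^ 1 :=
        mul_le_mul_of_nonneg_right (pow_le_pow_left₀ hc h _) (pow_nonneg (hc.trans h) _)
    _ = _ := by rw [← pow_add, Nat.sub_add_cancel hP.m1]

theorem Step1.seed_norm {v : R3} (h : ‖v - EuclideanSpace.single 0 1‖ ≤ 1 / 2) : ‖v‖ ≤ 3 / 2 := by
  have h1 := norm_le_norm_sub_add v (EuclideanSpace.single (0 : Fin 3) (1 : ℝ))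
  rw [PiLp.norm_single, norm_one] at h1
  linarith

theorem step1 (m : ℕ) : ∃ C : ℝ≥0, ∀ {P : Par}, P.Ok → ∀ (N : ℕ) (σ : ℝ≥0) {T : ℝ} {F : Den}, T ≤ 1 →
    Mild (F0 P N σ) T F → ∀ t ∈ Icc 0 T, ∀ x v,
    hot P N F t x v ≤ gas P (x - t • v) v + σ * seed P N (x - t • v) v +
      C * ENNReal.ofReal P.w * Th P (P.fl N) m t x v + KK P N F (hot P N F) t x v + NL (hot P N F) t x v := by
  obtain ⟨C, hC⟩ := cold m
  refine ⟨C, fun {P} hP N σ {T F} hT h t ht x v => ?_⟩
  have hF := h.1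
  have hG : MeasD (G P N) := measD_G N
  have hH : MeasD (hot P N F) := measD_hot N hF
  have hy : Measurable fun s : ℝ => x - (t - s) • v := by fun_prop
  have hu : ∀ {f : Den}, MeasD f →
      Measurable (Function.uncurry fun (s : ℝ) (a : R3) => f s (x - (t - s) • v) a) := fun hf =>
    hf.comp measurable_fst (hy.comp measurable_fst) measurable_snd
  have hE : Measurable fun s : ℝ => Ex F s t x v :=
    meas_Ex hF measurable_id measurable_const measurable_const measurable_const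
  have hQ : ∀ s y, Qp (F s y) (F s y) v ≤ Qp (G P N s y) (G P N s y) v +
      2 * Qp (G P N s y) (hot P N F s y) v + Qp (hot P N F s y) (hot P N F s y) v := fun s y => by
    have h1 := hG.vel s y
    have h2 := hH.vel s y
    refine (Qp_mono (le_G_add_hot (P := P) N F s y) (le_G_add_hot (P := P) N F s y) v).trans (le_of_eq ?_)
    rw [Qp_add_left h1 h2 (h1.fun_add h2), Qp_add_right h1 h1 h2, Qp_add_right h2 h1 h2, Qp_symm h2 h1]
    ring
  have h1 : ∫⁻ s in Ioo 0 t, Ex F s t x v * Qp (F s (x - (t - s) • v)) (F s (x - (t - s) • v)) v ≤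
      (∫⁻ s in Ioo 0 t, Qp (G P N s (x - (t - s) • v)) (G P N s (x - (t - s) • v)) v) +
        KK P N F (hot P N F) t x v + NL (hot P N F) t x v := by
    have m1 : Measurable fun s : ℝ => Qp (G P N s (x - (t - s) • v)) (G P N s (x - (t - s) • v)) v :=
      meas_Qp (hu hG) (hu hG) measurable_const
    have m2 : Measurable fun s : ℝ => Ex F s t x v *
        (2 * Qp (G P N s (x - (t - s) • v)) (hot P N F s (x - (t - s) • v)) v) :=
      hE.fun_mul ((meas_Qp (hu hG) (hu hH) measurable_const).const_mul 2)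
    unfold KK NL
    rw [← lintegral_add_left m1, ← lintegral_add_left (m1.fun_add m2)]
    refine lintegral_mono fun s => ?_
    refine (mul_le_mul_right (hQ s _) _).trans ?_
    rw [mul_add, mul_add]
    exact add_le_add (add_le_add (mul_le_of_le_one_left' (Ex_le_one _ _ _ _ _)) le_rfl)
      (mul_le_of_le_one_left' (Ex_le_one _ _ _ _ _))
  have h2 := hC hP N ⟨ht.1, ht.2.trans hT⟩ x v
  have h3 := Th_mono_floor hP le_rfl (fl_pos hP N).le m ht.1 x v
  refine tsub_le_iff_left.2 ?_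
  calc F t x v = _ := h.2 t ht x v
    _ ≤ F0 P N σ (x - t • v) v + ((GC P N t x v + C * ENNReal.ofReal P.w * Th P (P.fl N) m t x v) +
        KK P N F (hot P N F) t x v + NL (hot P N F) t x v) := by
        refine add_le_add (mul_le_of_le_one_right' (Ex_le_one _ _ _ _ _)) (h1.trans ?_)
        gcongr
        exact h2.trans (by gcongr)
    _ = _ := by unfold F0 G gs; ring
theorem gas_le {P : Par} (hP : P.Ok) (N m : ℕ) {t : ℝ} (ht : 0 ≤ t) (x v : R3) :
    gas P (x - t • v) v ≤ ENNReal.ofReal (P.a⁻¹ ^ m) * Th P (P.fl N) m t x v := by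
  unfold gas
  split_ifs with h
  · have ha : 0 < P.a := by linarith [hP.a0, hP.r0]
    have h1 := om_mono hP (P.fl N) ht x v
    have h2 : P.a ≤ om P (P.fl N) t x v := by
      rw [sub_zero] at h1
      have h3 := L_ge hP
      have h4 := (fl_pos hP N).le
      have h5 : 0 ≤ (P.L + ‖v‖) * t := mul_nonneg (by positivity) ht
      have h6 : om P (P.fl N) 0 (x - t • v) v = dd (x - t • v) + P.fl N := by unfold om; ring
      linarith [h.1]
    exact (MM_le_W v).trans (Step1.Th_low _ _ ha h2)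
  · exact zero_le
theorem seed_le {P : Par} (hP : P.Ok) (N : ℕ) {t : ℝ} (ht : 0 ≤ t) (x v : R3) :
    seed P N (x - t • v) v ≤ ENNReal.ofReal (8 / P.fl N) * Th P (P.fl N) 1 t x v := by
  unfold seed
  split_ifs with h
  · have hf := fl_pos hP N
    have h1 := Step1.seed_norm h.2
    have h2 := (Step1.fl_le_om hP (P.fl N) ht x v).1
    unfold Th
    rw [← ENNReal.ofReal_mul (by positivity), pow_one]
    refine ENNReal.one_le_ofReal.2 ?_
    have h3 : Real.exp ‖v‖ ≤ 8 := by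
      calc Real.exp ‖v‖ ≤ Real.exp (1 + 1) := Real.exp_le_exp.2 (by linarith)
        _ ≤ 8 := by
            rw [Real.exp_add]
            nlinarith [Real.exp_one_lt_d9, Real.exp_pos 1]
    have h4 := Real.exp_pos ‖v‖
    rw [Real.exp_neg]
    calc (1 : ℝ) = 8 / P.fl N * (P.fl N * 8⁻¹) := by field_simp
      _ ≤ _ := by gcongr; exact hf.le.trans h2
  · exact zero_le
theorem seed_le_W (P : Par) (N : ℕ) (x v : R3) : seed P N x v ≤ 3 * W (1 / 2) v := by
  unfold seed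
  split_ifs with h
  · have h1 := Step1.seed_norm h.2
    unfold W
    rw [← ENNReal.ofReal_ofNat 3, ← ENNReal.ofReal_mul (by norm_num)]
    refine ENNReal.one_le_ofReal.2 ?_
    have h3 : Real.exp (1 / 2 * ‖v‖) ≤ 3 :=
      (Real.exp_le_exp.2 (by linarith)).trans (Real.exp_one_lt_d9.le.trans (by norm_num))
    rw [Real.exp_neg, ← div_eq_mul_inv, one_le_div (Real.exp_pos _)]
    exact h3
  · exact zero_le
theorem Th_one_le_m {P : Par} (hP : P.Ok) (N : ℕ) {T0 t : ℝ} (h0 : 0 < T0) (ht : T0 ≤ t) (x v : R3) :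
    Th P (P.fl N) 1 t x v ≤ ENNReal.ofReal (T0⁻¹ ^ (P.m - 1)) * Th P (P.fl N) P.m t x v := by
  have h1 := Step1.Th_pow hP (P.fl N) h0.le
    (ht.trans ((Step1.fl_le_om hP (P.fl N) (h0.le.trans ht) x v).2 (fl_pos hP N).le))
  refine le_trans (le_of_eq ?_) (mul_le_mul_right h1 _)
  rw [← mul_assoc, ← ENNReal.ofReal_mul (by positivity), ← mul_pow, inv_mul_cancel₀ h0.ne', one_pow,
    ENNReal.ofReal_one, one_mul]
theorem Th_fl_le_m {P : Par} (hP : P.Ok) (N : ℕ) {t : ℝ} (ht : 0 ≤ t) (x v : R3) :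
    ENNReal.ofReal (P.fl N ^ (P.m - 1)) * Th P (P.fl N) 1 t x v ≤ Th P (P.fl N) P.m t x v := by
  exact Step1.Th_pow hP (P.fl N) (fl_pos hP N).le (Step1.fl_le_om hP (P.fl N) ht x v).1
theorem boot {y : ℝ → ℝ≥0∞} (hy : Monotone y) {A C : ℝ≥0∞} {T : ℝ} (hfin : y T ≠ ⊤)
    (h : ∀ t ∈ Icc 0 T, y t ≤ A + C * ∫⁻ s in Ioo 0 t, y s ^ 2) (hC : C ≠ ⊤)
    (hs : 4 * A * C * ENNReal.ofReal T ≤ 1) : ∀ t ∈ Icc 0 T, y t ≤ 2 * A := by
  have hz : Monotone fun t => y t - 2 * A := fun a b hab => tsub_le_tsub_right (hy hab) _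
  have hc : C * (2 * y T) ≠ ⊤ := ENNReal.mul_ne_top hC (ENNReal.mul_ne_top (by simp) hfin)
  have h1 := gronwall (A := 0) (C := (C * (2 * y T)).toNNReal) (T := T) hz
    (ne_top_of_le_ne_top hfin tsub_le_self) fun t ht => by
      rw [ENNReal.coe_zero, zero_add, ENNReal.coe_toNNReal hc, tsub_le_iff_left]
      have h2 : ∫⁻ s in Ioo 0 t, y s ^ 2 ≤
          4 * A * A * ENNReal.ofReal T + 2 * y T * ∫⁻ s in Ioo 0 t, (y s - 2 * A) := by
        calc ∫⁻ s in Ioo 0 t, y s ^ 2 ≤ ∫⁻ s in Ioo 0 t, (4 * A * A + 2 * y T * (y s - 2 * A)) := by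
              refine setLIntegral_mono' measurableSet_Ioo fun s hs => ?_
              have h3 : y s ≤ y T := hy (hs.2.le.trans ht.2)
              rcases le_total (y s) (2 * A) with h4 | h4
              · refine le_trans ?_ le_self_add
                calc y s ^ 2 ≤ (2 * A) ^ 2 := by gcongr
                  _ = _ := by ring
              · calc y s ^ 2 = (2 * A + (y s - 2 * A)) ^ 2 := by rw [add_tsub_cancel_of_le h4]
                  _ = 4 * A * A + (2 * A + (2 * A + (y s - 2 * A))) * (y s - 2 * A) := by ring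
                  _ ≤ 4 * A * A + (y T + y T) * (y s - 2 * A) := by
                      rw [add_tsub_cancel_of_le h4]
                      gcongr
                      exact h4.trans h3
                  _ = _ := by ring
          _ = 4 * A * A * ENNReal.ofReal t + 2 * y T * ∫⁻ s in Ioo 0 t, (y s - 2 * A) := by
              rw [lintegral_add_left measurable_const, setLIntegral_const, Real.volume_Ioo, sub_zero,
                lintegral_const_mul _ hz.measurable]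
          _ ≤ _ := by gcongr; exact ht.2
      calc y t ≤ A + C * (4 * A * A * ENNReal.ofReal T + 2 * y T * ∫⁻ s in Ioo 0 t, (y s - 2 * A)) :=
            (h t ht).trans (by gcongr)
        _ = A + A * (4 * A * C * ENNReal.ofReal T) +
            C * (2 * y T) * ∫⁻ s in Ioo 0 t, (y s - 2 * A) := by ring
        _ ≤ A + A * 1 + C * (2 * y T) * ∫⁻ s in Ioo 0 t, (y s - 2 * A) := by gcongr
        _ = _ := by ring
  intro t ht
  have h2 := h1 t ht
  rw [ENNReal.coe_zero, zero_mul, nonpos_iff_eq_zero, tsub_eq_zero_iff_le] at h2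
  exact h2
/-- a bounded solution is finite relative to the weights (`prop`, `F0_bdd`, `om ≥ fl`) -/
theorem Sol.le_TL {P : Par} (hP : P.Ok) {N : ℕ} {σ : ℝ≥0} {T : ℝ} {F : Den} (h : Sol (F0 P N σ) T F) (j : ℕ) :
    ∃ K : ℝ≥0, ∀ t ∈ Icc 0 T, ∀ x v, F t x v ≤ K * TL P N j t x v := by
  obtain ⟨K0, hK0⟩ := F0_bdd hP N 1 σ
  obtain ⟨K, hK⟩ := h.bdd
  obtain ⟨K', hK'⟩ := prop (lam := 1) one_pos K0 K T
  have h1 := hK' le_rfl h.mild (hK0 σ le_rfl) hK
  refine ⟨K' * ((P.fl N)⁻¹ ^ j).toNNReal, fun t ht x v => (h1 t ht x v).trans ?_⟩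
  rw [ENNReal.coe_mul, mul_assoc]
  refine mul_le_mul_right ((Step1.Th_low (P.fl N) j (fl_pos hP N)
    (Step1.fl_le_om hP (P.fl N) ht.1 x v).1).trans (mul_le_mul_right ?_ _)) _
  exact le_mul_of_one_le_right' (one_le_Lam t x v)
theorem hot1_le_Bsup {P : Par} (hP : P.Ok) (N : ℕ) {B'' : ℝ≥0∞} (hB : B'' ≠ 0) (T : ℝ) (F : Den) :
    Le1 P N (Bsup P N B'' T F) T (hot1 P N B'' F) := by
  intro t ht x v
  by_cases hL : Lam P t x v = ⊤
  · unfold hot1
    rw [hL, ENNReal.mul_top (Th_ne_zero hP (fl_pos hP N) _ ht.1 x v), ENNReal.mul_top hB,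
      ENNReal.sub_top]
    exact zero_le
  · have h0 : TL P N 1 t x v ≠ 0 := mul_ne_zero (Th_ne_zero hP (fl_pos hP N) _ ht.1 x v)
      (lt_of_lt_of_le one_pos (one_le_Lam t x v)).ne'
    refine (ENNReal.div_le_iff h0 (ENNReal.mul_ne_top (Th_ne_top _ _ _ _ _) hL)).1 ?_
    unfold Bsup
    exact le_iSup₂_of_le t ht (le_iSup_of_le x (le_iSup_of_le v le_rfl))
theorem Bsup_le {P : Par} {N : ℕ} {B'' c : ℝ≥0∞} {T : ℝ} {F : Den} (h : Le1 P N c T (hot1 P N B'' F)) :
    Bsup P N B'' T F ≤ c := by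
  unfold Bsup
  exact iSup₂_le fun t ht => iSup_le fun x => iSup_le fun v => ENNReal.div_le_of_le_mul (h t ht x v)
theorem hotLe_iff {P : Par} {N : ℕ} {B B'' : ℝ≥0∞} {T : ℝ} {F : Den} :
    HotLe P N B B'' 0 T F ↔ Le1 P N B T (hot1 P N B'' F) := by
  unfold HotLe Le1 hot1 TL
  simp only [tsub_le_iff_right, add_mul, mul_assoc]
theorem HotLe.mono {P : Par} {N : ℕ} {B B'' B1 B2 : ℝ≥0∞} {T T' : ℝ} {F : Den} (h : HotLe P N B B'' 0 T F)
    (h1 : B ≤ B1) (h2 : B'' ≤ B2) (hT : T' ≤ T) : HotLe P N B1 B2 0 T' F := by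
  intro t ht x v
  refine (h t ⟨ht.1, ht.2.trans hT⟩ x v).trans ?_
  gcongr
theorem seed_le_B {P : Par} (hP : P.Ok) {N : ℕ} {σ : ℝ≥0} {T : ℝ} (hT : 0 ≤ T) {F : Den}
    (h : Mild (F0 P N σ) T F) {B B'' : ℝ≥0∞} (hh : HotLe P N B B'' 0 T F) :
    (σ : ℝ≥0∞) ≤ B * ENNReal.ofReal (P.fl N) + B'' * ENNReal.ofReal (P.fl N ^ P.m) := by
  have hf := fl_pos hP N
  have hd : dd (0 : R3) = 0 := le_antisymm ((dd_le_nrm 0).trans (by simp [nrm])) (dd_nonneg _)
  set v : R3 := EuclideanSpace.single 0 1 with hv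
  have h1 := hh 0 ⟨le_rfl, hT⟩ 0 v
  have h2 : G P N 0 0 v = 0 :=
    G_vac hP N ⟨le_rfl, zero_le_one⟩ (by rw [hd]; exact (X_pos hP _ le_rfl).le) v
  have h3 : seed P N 0 v = 1 := by
    unfold seed
    rw [if_pos ⟨by rw [hd]; exact hf.le, by simp [hv]⟩]
  have h4 : ∀ j, Th P (P.fl N) j 0 0 v ≤ ENNReal.ofReal (P.fl N ^ j) := fun j => by
    unfold Th om
    rw [hd]
    refine ENNReal.ofReal_le_ofReal ?_
    simp only [mul_zero, zero_mul, zero_add]
    exact mul_le_of_le_one_right (by positivity) (Real.exp_le_one_iff.2 (by simp))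
  unfold hot at h1
  rw [h2, tsub_zero, h.init hT, Lam_zero, mul_one] at h1
  calc (σ : ℝ≥0∞) = σ * seed P N 0 v := by rw [h3, mul_one]
    _ ≤ F0 P N σ 0 v := le_add_self
    _ ≤ _ := h1
    _ ≤ _ := by
        have h5 := h4 1
        rw [pow_one] at h5
        exact add_le_add (mul_le_mul_right h5 _) (mul_le_mul_right (h4 _) _)

end Crest.Agent.R68
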