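import Crest.Agent.R68.Shear

/-! Elementary geometry of the tiles.  At time `s` the tile `τ = (n, side, o)` is the rectangle
`X (n+1) s < sg o * y iR < X n s`, `|y iT| < X (nT τ) s` (`tile_iff`); `rr n - rr (n+1) = M * per n`, so the labels of a layer lie in
`[rr (n+1) + per/8, rr n - per/8]`, and the layer is nonempty (needed for `Metric.infDist`).  Along a characteristic
`v j - U k s (x-(t-s)v) j = c j/(1 + b j s)` with `c j` independent of `s`, and the label moves by `c (t-s)/((1+bs)(1+bt))`. -/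

set_option autoImplicit false

open MeasureTheory Set Filter Topology Crest.AnalysisR.VecCalc3 Crest.AnalysisR.PDE.Boltzmann
open scoped ENNReal NNReal

namespace Crest.Agent.R68

variable {P : Par}

theorem rr_pos (hP : P.Ok) (n : ℕ) : 0 < P.rr n :=
  div_pos hP.r0 (by positivity)
theorem rr_succ (n : ℕ) : P.rr n = 4 * P.rr (n + 1) := by
  unfold Par.rr; rw [pow_succ]; field_simp
theorem rr_le (hP : P.Ok) (n : ℕ) : P.rr n ≤ P.r :=
  div_le_self hP.r0.le (one_le_pow₀ (by norm_num))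
theorem rr_anti (hP : P.Ok) {n n' : ℕ} (h : n ≤ n') : P.rr n' ≤ P.rr n :=
  div_le_div_of_nonneg_left hP.r0.le (by positivity) (pow_le_pow_right₀ (by norm_num) h)
theorem et_pos (hP : P.Ok) (n : ℕ) : 0 < P.et n :=
  div_pos hP.eta0 (by positivity)
theorem et_le (hP : P.Ok) (n : ℕ) : P.et n ≤ P.eta :=
  div_le_self hP.eta0.le (one_le_pow₀ (by norm_num))
theorem et_succ (n : ℕ) : P.et n = 2 * P.et (n + 1) := by
  unfold Par.et; rw [pow_succ]; field_simp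
theorem et_anti (hP : P.Ok) {n n' : ℕ} (h : n ≤ n') : P.et n' ≤ P.et n :=
  div_le_div_of_nonneg_left hP.eta0.le (by positivity) (pow_le_pow_right₀ (by norm_num) h)
theorem kap_pos : 0 < kap := by unfold kap; positivity
theorem et_le_kap (hP : P.Ok) (n : ℕ) : P.et n ≤ kap := (et_le hP n).trans hP.eta1
theorem M_ge (hP : P.Ok) : (1 : ℝ) ≤ P.M := by exact_mod_cast hP.M1
theorem M_mul_per (hP : P.Ok) (n : ℕ) : P.M * P.per n = 3 * P.rr (n + 1) := by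
  have := M_ge hP
  unfold Par.per; field_simp
theorem per_pos (hP : P.Ok) (n : ℕ) : 0 < P.per n :=
  div_pos (mul_pos (by norm_num) (rr_pos hP _)) (by linarith [M_ge hP])
theorem per_le_three (hP : P.Ok) (n : ℕ) : P.per n ≤ 3 * P.rr (n + 1) :=
  div_le_self (mul_pos (by norm_num) (rr_pos hP _)).le (M_ge hP)
theorem per_le (hP : P.Ok) (n : ℕ) : P.per n ≤ P.rr n := by
  linarith [per_le_three hP n, rr_succ (P := P) n, rr_pos hP (n + 1)]
theorem ww_pos (hP : P.Ok) (n : ℕ) : 0 < P.ww n :=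
  mul_pos hP.w0 (pow_pos (div_pos (per_pos hP n) (by norm_num)) _)
theorem ww_le (hP : P.Ok) (n : ℕ) : P.ww n ≤ P.w :=
  mul_le_of_le_one_right hP.w0.le (pow_le_one₀ (div_pos (per_pos hP n) (by norm_num)).le
    (by linarith [per_le hP n, rr_le hP n, hP.r1]))
theorem ww_lt_per (hP : P.Ok) (n : ℕ) : P.ww n < P.per n / 16 := by
  have h0 : 0 < P.per n / 16 := div_pos (per_pos hP n) (by norm_num)
  have h1 : (P.per n / 16) ^ 3 ≤ 1 := pow_le_one₀ h0.le (by linarith [per_le hP n, rr_le hP n, hP.r1])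
  have h2 : P.w * (P.per n / 16) ^ 3 < 1 :=
    (mul_le_of_le_one_right hP.w0.le h1).trans_lt (hP.w1.trans_lt (by norm_num))
  have h3 := mul_lt_mul_of_pos_right h2 h0
  unfold Par.ww
  rw [pow_succ, ← mul_assoc]
  linarith
theorem sqrt_ww (hP : P.Ok) (n : ℕ) : Real.sqrt (P.ww n) = Real.sqrt P.w * (P.per n / 16) ^ 2 := by
  unfold Par.ww
  rw [Real.sqrt_mul hP.w0.le, show (P.per n / 16) ^ 4 = ((P.per n / 16) ^ 2) ^ 2 by ring, Real.sqrt_sq (by positivity)]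
theorem fl_pos (hP : P.Ok) (N : ℕ) : 0 < P.fl N :=
  div_pos (rr_pos hP _) kap_pos
theorem fl_tendsto (hP : P.Ok) : Tendsto P.fl atTop (𝓝 0) := by
  have h1 : Tendsto (fun n : ℕ => P.r / 4 / kap * (1 / 4 : ℝ) ^ n) atTop (𝓝 (P.r / 4 / kap * 0)) :=
    (tendsto_pow_atTop_nhds_zero_of_lt_one (by norm_num) (by norm_num)).const_mul _
  rw [mul_zero] at h1
  refine h1.congr fun n => ?_
  unfold Par.fl Par.rr
  have := kap_pos
  rw [one_div, inv_pow, pow_succ]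
  field_simp
theorem L_ge (hP : P.Ok) : 4 ≤ P.L := by
  have : (1 : ℝ) ≤ P.m := by exact_mod_cast hP.m1
  unfold Par.L; linarith
theorem X_pos (hP : P.Ok) (n : ℕ) {s : ℝ} (hs : 0 ≤ s) : 0 < P.X n s :=
  add_pos_of_pos_of_nonneg (rr_pos hP n) (mul_nonneg (add_pos kap_pos (et_pos hP n)).le hs)
theorem X_succ_lt (hP : P.Ok) (n : ℕ) {s : ℝ} (hs : 0 ≤ s) : P.X (n + 1) s < P.X n s := by
  unfold Par.X
  have := mul_le_mul_of_nonneg_right (et_anti hP (Nat.le_succ n)) hs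
  linarith [rr_succ (P := P) n, rr_pos hP (n + 1)]
theorem X_anti (hP : P.Ok) {n n' : ℕ} (h : n ≤ n') {s : ℝ} (hs : 0 ≤ s) : P.X n' s ≤ P.X n s := by
  unfold Par.X
  have := mul_le_mul_of_nonneg_right (et_anti hP h) hs
  linarith [rr_anti hP h]
theorem X_le_four (hP : P.Ok) (n : ℕ) {s : ℝ} (hs : 0 ≤ s) : P.X n s ≤ 4 * P.X (n + 1) s := by
  unfold Par.X
  rw [rr_succ n, et_succ n]
  nlinarith [mul_nonneg kap_pos.le hs, mul_nonneg (et_pos hP (n + 1)).le hs]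
theorem X_le (hP : P.Ok) (n : ℕ) {s : ℝ} (hs : 0 ≤ s) : P.X n s ≤ P.rr n + 2 * kap * s := by
  unfold Par.X
  have := mul_le_mul_of_nonneg_right (et_le_kap hP n) hs
  linarith
theorem X_lt_half (hP : P.Ok) (n : ℕ) {s : ℝ} (hs : s ∈ Icc (0 : ℝ) 1) : P.X n s < 1 / 4 := by
  have h1 := X_le hP n hs.1
  have h2 : kap * s ≤ kap := mul_le_of_le_one_right kap_pos.le hs.2
  have h3 : kap = 1 / 10 ^ 7 := rfl
  linarith [rr_le hP n, hP.r1]
theorem iR_ne_iT (τ : Tile) : iR τ ≠ iT τ := by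
  obtain ⟨n, i, o⟩ := τ
  fin_cases i <;> simp [iR, iT]
theorem iR_ne_two (τ : Tile) : iR τ ≠ 2 := by
  obtain ⟨n, i, o⟩ := τ
  fin_cases i <;> simp [iR]
theorem iT_ne_two (τ : Tile) : iT τ ≠ 2 := by
  obtain ⟨n, i, o⟩ := τ
  fin_cases i <;> simp [iT]
theorem iRT_cases (τ : Tile) : (iR τ = 0 ∧ iT τ = 1 ∧ nT τ = τ.1 ∧ τ.2.1 = 0) ∨
    (iR τ = 1 ∧ iT τ = 0 ∧ nT τ = τ.1 + 1 ∧ τ.2.1 = 1) := by
  obtain ⟨n, i, o⟩ := τ
  fin_cases i <;> simp [iR, iT, nT]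
theorem bb_iR (τ : Tile) : bb P τ (iR τ) = 2 * P.et τ.1 / (3 * P.rr τ.1) := if_pos rfl
theorem bb_iT (τ : Tile) : bb P τ (iT τ) = (kap + P.et (nT τ)) / P.rr (nT τ) := by
  rw [bb, if_neg (iR_ne_iT τ).symm, if_pos rfl]
theorem pp_iR (k : Bm) : pp P k (iR k.1) = sg k.1.2.2 * (kap + P.et k.1.1 / 3) := if_pos rfl
theorem pp_iT (k : Bm) : pp P k (iT k.1) = 0 := by
  rw [pp, if_neg (iR_ne_iT _).symm, if_neg (iT_ne_two _)]
theorem sg_mul_self (o : Bool) : sg o * sg o = 1 := by cases o <;> simp [sg]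
theorem abs_sg (o : Bool) : |sg o| = 1 := by cases o <;> simp [sg]
theorem abs_sg_mul (o : Bool) (a : ℝ) : |sg o * a| = |a| := by rw [abs_mul, abs_sg, one_mul]
theorem nT_ge (τ : Tile) : τ.1 ≤ nT τ := Nat.le_add_right _ _
theorem nT_le (τ : Tile) : nT τ ≤ τ.1 + 1 := by
  rcases iRT_cases τ with h | h <;> omega
theorem U_apply (k : Bm) (s : ℝ) (y : R3) (j : Fin 3) :
    U P k s y j = (pp P k j + bb P k.1 j * y j) / (1 + bb P k.1 j * s) := rfl
theorem lo_mem (ε : Bool) : 1 / 8 ≤ lo ε ∧ lo ε ≤ 5 / 8 := by cases ε <;> norm_num [lo]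
theorem bb_nonneg (hP : P.Ok) (τ : Tile) (j : Fin 3) : 0 ≤ bb P τ j := by
  unfold bb
  have h1 := et_pos hP τ.1
  have h2 := rr_pos hP τ.1
  have h3 := et_pos hP (nT τ)
  have h4 := rr_pos hP (nT τ)
  have h5 := kap_pos
  split_ifs <;> positivity
theorem bb_two (τ : Tile) : bb P τ 2 = 0 := by
  rw [bb, if_neg (iR_ne_two τ).symm, if_neg (iT_ne_two τ).symm]
theorem U_two (k : Bm) (s : ℝ) (y : R3) : U P k s y 2 = sg k.2 := by
  rw [U_apply, bb_two, pp, if_neg (iR_ne_two _).symm, if_pos rfl]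
  simp
theorem U_sign (τ : Tile) (ε ε' : Bool) (s : ℝ) (y : R3) {j : Fin 3} (hj : j ≠ 2) :
    U P (τ, ε) s y j = U P (τ, ε') s y j := by
  simp only [U_apply, pp, if_neg hj]
theorem layer_nonempty (hP : P.Ok) (k : Bm) : (layer P k).Nonempty := by
  have h1 := per_pos hP k.1.1
  have h2 := per_le_three hP k.1.1
  have h3 := lo_mem k.2
  have h4 := rr_succ (P := P) k.1.1
  have h5 := rr_anti hP (nT_le k.1)
  refine ⟨(P.rr (k.1.1 + 1) + lo k.2 * P.per k.1.1, 0), ?_, ?_, ?_, ?_⟩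
  · nlinarith [h3.1]
  · nlinarith [h3.2]
  · simp only [add_sub_cancel_left, mul_div_cancel_right₀ _ h1.ne']
    rw [Int.fract_eq_self.2 ⟨by linarith [h3.1], by linarith [h3.2]⟩]
    exact ⟨le_rfl, by linarith⟩
  · simp only [abs_zero]
    linarith

theorem den_pos (hP : P.Ok) (τ : Tile) (j : Fin 3) {s : ℝ} (hs : 0 ≤ s) : 0 < 1 + bb P τ j * s :=
  add_pos_of_pos_of_nonneg one_pos (mul_nonneg (bb_nonneg hP τ j) hs)

theorem tile_iff (hP : P.Ok) (τ : Tile) {s : ℝ} (hs : 0 ≤ s) (y : R3) :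
    lab P τ s y ∈ tileL P τ ↔ P.X (τ.1 + 1) s < sg τ.2.2 * y (iR τ) ∧ sg τ.2.2 * y (iR τ) < P.X τ.1 s ∧
      |y (iT τ)| < P.X (nT τ) s := by
  have d1 := den_pos hP τ (iR τ) hs
  have d2 := den_pos hP τ (iT τ) hs
  have h1 := rr_pos hP τ.1
  have h2 := rr_pos hP (nT τ)
  have e1 : P.rr τ.1 * bb P τ (iR τ) = 2 * P.et τ.1 / 3 := by rw [bb_iR]; field_simp
  have e2 : P.rr (nT τ) * bb P τ (iT τ) = kap + P.et (nT τ) := by rw [bb_iT]; field_simp
  have e3 : sg τ.2.2 * (y (iR τ) - s * pp P (τ, true) (iR τ)) = sg τ.2.2 * y (iR τ) - s * (kap + P.et τ.1 / 3) := by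
    rw [pp_iR (P := P) (τ, true)]
    linear_combination (-s * (kap + P.et τ.1 / 3)) * sg_mul_self τ.2.2
  have e4 : P.rr (τ.1 + 1) * (1 + bb P τ (iR τ) * s) + s * (kap + P.et τ.1 / 3) = P.X (τ.1 + 1) s := by
    unfold Par.X
    have e5 := rr_succ (P := P) τ.1
    have e6 := et_succ (P := P) τ.1
    linear_combination (s / 4) * e1 - (bb P τ (iR τ) * s / 4) * e5 + (s / 2) * e6
  have e5 : P.rr τ.1 * (1 + bb P τ (iR τ) * s) + s * (kap + P.et τ.1 / 3) = P.X τ.1 s := by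
    unfold Par.X
    linear_combination s * e1
  have e6 : P.rr (nT τ) * (1 + bb P τ (iT τ) * s) = P.X (nT τ) s := by
    unfold Par.X
    linear_combination s * e2
  simp only [tileL, lab, mem_prod, mem_Ioo, lt_div_iff₀ d1, div_lt_iff₀ d1, lt_div_iff₀ d2, div_lt_iff₀ d2, e3,
    neg_mul, e6, abs_lt, ← e4, ← e5, lt_sub_iff_add_lt, sub_lt_iff_lt_add, and_assoc]
theorem tile_nrm (hP : P.Ok) {τ : Tile} {s : ℝ} (hs : 0 ≤ s) {y : R3} (h : lab P τ s y ∈ tileL P τ) :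
    P.X (τ.1 + 1) s < nrm y ∧ nrm y < P.X τ.1 s := by
  obtain ⟨h1, h2, h3⟩ := (tile_iff hP τ hs y).1 h
  have h4 := X_pos hP (τ.1 + 1) hs
  have h5 : |y (iR τ)| = sg τ.2.2 * y (iR τ) := by rw [← abs_sg_mul τ.2.2, abs_of_pos (h4.trans h1)]
  have h6 := X_anti hP (nT_ge τ) hs
  rw [← h5] at h1 h2
  unfold nrm
  rcases iRT_cases τ with ⟨e1, e2, -⟩ | ⟨e1, e2, -⟩ <;> rw [e1] at h1 h2 <;> rw [e2] at h3
  · exact ⟨lt_max_of_lt_left h1, max_lt h2 (h3.trans_le h6)⟩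
  · exact ⟨lt_max_of_lt_right h1, max_lt (h3.trans_le h6) h2⟩
theorem tile_unique (hP : P.Ok) {τ τ' : Tile} {s : ℝ} (hs : 0 ≤ s) {y : R3}
    (h : lab P τ s y ∈ tileL P τ) (h' : lab P τ' s y ∈ tileL P τ') : τ = τ' := by
  have n1 := tile_nrm hP hs h
  have n2 := tile_nrm hP hs h'
  have e1 : τ.1 = τ'.1 := by
    by_contra hne
    rcases lt_or_gt_of_ne hne with h1 | h1
    · linarith [X_anti hP (Nat.succ_le_of_lt h1) hs, n1.1, n2.2]
    · linarith [X_anti hP (Nat.succ_le_of_lt h1) hs, n2.1, n1.2]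
  obtain ⟨h1, -, h3⟩ := (tile_iff hP τ hs y).1 h
  obtain ⟨h1', -, h3'⟩ := (tile_iff hP τ' hs y).1 h'
  have h4 := X_pos hP (τ.1 + 1) hs
  have a1 := le_abs_self (sg τ.2.2 * y (iR τ))
  have a2 := le_abs_self (sg τ'.2.2 * y (iR τ'))
  rw [abs_sg_mul] at a1 a2
  rw [← e1] at h1'
  have e2 : τ.2.1 = τ'.2.1 := by
    rcases iRT_cases τ with ⟨b1, b2, b3, b4⟩ | ⟨b1, b2, b3, b4⟩ <;>
      rcases iRT_cases τ' with ⟨c1, c2, c3, c4⟩ | ⟨c1, c2, c3, c4⟩
    · rw [b4, c4]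
    · rw [c2, c3, ← e1] at h3'; rw [b1] at a1 h1; linarith
    · rw [b2, b3] at h3; rw [c1] at a2 h1'; linarith
    · rw [b4, c4]
  have e3 : τ.2.2 = τ'.2.2 := by
    have e4 : iR τ' = iR τ := by simp only [iR, e2]
    rw [e4] at h1'
    by_contra hne
    have : sg τ'.2.2 = -sg τ.2.2 := by
      revert hne
      cases τ.2.2 <;> cases τ'.2.2 <;> simp [sg]
    rw [this] at h1'
    linarith
  exact Prod.ext e1 (Prod.ext e2 e3)
theorem layer_bounds (hP : P.Ok) {k : Bm} {z : ℝ × ℝ} (hz : z ∈ layer P k) :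
    P.rr (k.1.1 + 1) + P.per k.1.1 / 8 ≤ z.1 ∧ z.1 ≤ P.rr k.1.1 - P.per k.1.1 / 8 := by
  obtain ⟨h1, h2, h3, -⟩ := hz
  have p0 := per_pos hP k.1.1
  have l0 := lo_mem k.2
  obtain ⟨u, hu⟩ : ∃ u, u = (z.1 - P.rr (k.1.1 + 1)) / P.per k.1.1 := ⟨_, rfl⟩
  rw [← hu] at h3
  have e1 : z.1 = P.rr (k.1.1 + 1) + u * P.per k.1.1 := by rw [hu]; field_simp; ring
  have e2 := M_mul_per hP k.1.1
  have e3 := rr_succ (P := P) k.1.1
  have u0 : 0 ≤ u := by rw [hu]; exact div_nonneg (by linarith) p0.le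
  have u1 : u ≤ P.M := by rw [hu, div_le_iff₀ p0]; linarith
  have f0 : (0 : ℝ) ≤ ⌊u⌋ := by exact_mod_cast Int.floor_nonneg.2 u0
  have e4 := Int.floor_add_fract u
  have f1 : (⌊u⌋ : ℝ) + 1 ≤ P.M := by
    have : (⌊u⌋ : ℝ) < (P.M : ℤ) := by push_cast; linarith [h3.1, l0.1]
    have := Int.add_one_le_iff.2 (Int.cast_lt.1 this)
    exact_mod_cast this
  have u2 : 1 / 8 ≤ u := by linarith [h3.1, l0.1]
  have u3 : u ≤ P.M - 1 / 8 := by linarith [h3.2, l0.2]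
  constructor <;> nlinarith
theorem core_exists (hP : P.Ok) {k : Bm} {s : ℝ} {y : R3} (h : InCore P k s y) :
    ∃ z ∈ layer P k, |(lab P k.1 s y).1 - z.1| < P.per k.1.1 / 16 ∧ |(lab P k.1 s y).2 - z.2| < P.per k.1.1 / 16 := by
  obtain ⟨z, hz, hd⟩ := (Metric.infDist_lt_iff (layer_nonempty hP k)).1 h
  rw [Prod.dist_eq, max_lt_iff, Real.dist_eq, Real.dist_eq] at hd
  exact ⟨z, hz, hd⟩
theorem core_tile (hP : P.Ok) {k : Bm} {s : ℝ} {y : R3} (h : InCore P k s y) :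
    lab P k.1 s y ∈ tileL P k.1 := by
  obtain ⟨z, hz, h1, h2⟩ := core_exists hP h
  have h3 := layer_bounds hP hz
  have h4 := abs_le.1 hz.2.2.2
  have p0 := per_pos hP k.1.1
  rw [abs_lt] at h1 h2
  exact ⟨⟨by linarith [h3.1, h1.1], by linarith [h3.2, h1.2]⟩, by linarith [h4.1, h2.1], by linarith [h4.2, h2.2]⟩
theorem core_unique (hP : P.Ok) {k k' : Bm} {s : ℝ} (hs : 0 ≤ s) {y : R3} (h : InCore P k s y)
    (h' : InCore P k' s y) : k = k' := by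
  have e1 := tile_unique hP hs (core_tile hP h) (core_tile hP h')
  obtain ⟨τ, ε⟩ := k
  obtain ⟨τ', ε'⟩ := k'
  simp only at e1
  subst e1
  have key : InCore P (τ, true) s y → InCore P (τ, false) s y → False := fun h h' => by
    obtain ⟨z, hz, h1, -⟩ := core_exists hP h
    obtain ⟨z', hz', h1', -⟩ := core_exists hP h'
    have p0 := per_pos hP τ.1
    have h2 := hz.2.2.1
    have h2' := hz'.2.2.1
    simp only [lo, if_true, Bool.false_eq_true, if_false] at h1 h1' h2 h2'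
    obtain ⟨u, hu⟩ : ∃ u, u = (z.1 - P.rr (τ.1 + 1)) / P.per τ.1 := ⟨_, rfl⟩
    obtain ⟨u', hu'⟩ : ∃ u, u = (z'.1 - P.rr (τ.1 + 1)) / P.per τ.1 := ⟨_, rfl⟩
    rw [← hu] at h2
    rw [← hu'] at h2'
    have e1 : (u - u') * P.per τ.1 = z.1 - z'.1 := by rw [hu, hu']; field_simp; ring
    rw [abs_lt] at h1 h1'
    have d1 : u - u' < 1 / 8 := by nlinarith [h1.1, h1'.2]
    have d2 : -(1 / 8) < u - u' := by nlinarith [h1.2, h1'.1]
    have e4 := Int.floor_add_fract u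
    have e4' := Int.floor_add_fract u'
    have f1 : (⌊u'⌋ : ℝ) < ⌊u⌋ := by linarith [h2.2, h2'.1]
    have f2 : (⌊u'⌋ : ℝ) + 1 ≤ ⌊u⌋ := by exact_mod_cast Int.add_one_le_iff.2 (Int.cast_lt.1 f1)
    linarith [h2.1, h2'.2]
  cases ε <;> cases ε'
  · rfl
  · exact (key h' h).elim
  · exact (key h h').elim
  · rfl
theorem deep_tile (hP : P.Ok) {N : ℕ} {δ : ℝ} (hδ : 0 < δ) {τ : Tile} {s : ℝ} (hs : 0 < s) {y : R3}
    (h : Deep P N δ τ s y) : lab P τ s y ∈ tileL P τ := by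
  obtain ⟨-, -, h1, h2, h3⟩ := h
  have : 0 < δ ^ 2 * s := by positivity
  exact (tile_iff hP τ hs.le y).2 ⟨by linarith, by linarith, by linarith⟩
/-- a ray that starts deep inside a tile stays in the tile for a while -/
theorem deep_stay (hP : P.Ok) {N : ℕ} {δ Lv : ℝ} (hδ : 0 < δ) {τ : Tile} {s σ : ℝ} (hs : 0 < s) {y ξ : R3}
    (h : Deep P N δ τ s y) (hξ : ‖ξ‖ ≤ Lv) (hσ : 0 ≤ σ) (hσ' : σ * (Lv + 1) ≤ δ ^ 2 * s / 2) :
    lab P τ (s + σ) (y + σ • ξ) ∈ tileL P τ := by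
  obtain ⟨-, -, h1, h2, h3⟩ := h
  have h0 : 0 < δ ^ 2 * s := by positivity
  have hk : kap = 1 / 10 ^ 7 := rfl
  have hx : ∀ n, P.X n s ≤ P.X n (s + σ) ∧ P.X n (s + σ) ≤ P.X n s + σ := fun n => by
    unfold Par.X
    have := mul_le_mul_of_nonneg_right (et_le_kap hP n) hσ
    have := mul_nonneg (et_pos hP n).le hσ
    constructor <;> nlinarith
  have hc : ∀ j, |σ * ξ j| ≤ σ * Lv := fun j => by
    rw [abs_mul, abs_of_nonneg hσ]
    exact mul_le_mul_of_nonneg_left ((PiLp.norm_apply_le ξ j).trans hξ) hσ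
  have hc' := hc (iR τ)
  rw [← abs_sg_mul τ.2.2, abs_le] at hc'
  refine (tile_iff hP τ (by linarith) _).2 ⟨?_, ?_, ?_⟩ <;>
    simp only [PiLp.add_apply, PiLp.smul_apply, smul_eq_mul, mul_add]
  · linarith [(hx (τ.1 + 1)).2, hc'.1]
  · linarith [(hx τ.1).1, hc'.2]
  · linarith [(hx (nT τ)).1, hc (iT τ), abs_add_le (y (iT τ)) (σ * ξ (iT τ))]
theorem U_tile (hP : P.Ok) {k : Bm} {s : ℝ} (hs : 0 ≤ s) {y : R3} (h : lab P k.1 s y ∈ tileL P k.1) :
    nrm (U P k s y) ≤ 2 * kap ∧ ‖U P k s y - EuclideanSpace.single 2 (sg k.2)‖ ≤ 4 * kap := by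
  have d1 := den_pos hP k.1 (iR k.1) hs
  have d2 := den_pos hP k.1 (iT k.1) hs
  have h1 := rr_pos hP k.1.1
  have h2 := rr_pos hP (nT k.1)
  have e1 : P.rr k.1.1 * bb P k.1 (iR k.1) = 2 * P.et k.1.1 / 3 := by rw [bb_iR]; field_simp
  have e2 : P.rr (nT k.1) * bb P k.1 (iT k.1) = kap + P.et (nT k.1) := by rw [bb_iT]; field_simp
  have u1 : U P k s y (iR k.1) = sg k.1.2.2 * (kap + P.et k.1.1 / 3 + bb P k.1 (iR k.1) * (lab P k.1 s y).1) := by
    simp only [U_apply, lab, pp_iR (P := P) (k.1, true), pp_iR]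
    field_simp
    linear_combination (-(bb P k.1 (iR k.1)) * (y (iR k.1) * 3 - s * sg k.1.2.2 * (kap * 3 + P.et k.1.1))) *
      sg_mul_self k.1.2.2
  have u2 : U P k s y (iT k.1) = bb P k.1 (iT k.1) * (lab P k.1 s y).2 := by
    simp only [U_apply, lab, pp_iT, zero_add, mul_div_assoc]
  have b1 := bb_nonneg hP k.1 (iR k.1)
  have b2 := bb_nonneg hP k.1 (iT k.1)
  have a1 : |U P k s y (iR k.1)| ≤ 2 * kap := by
    have l0 : 0 ≤ (lab P k.1 s y).1 := ((rr_pos hP _).trans h.1.1).le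
    have l1 := mul_le_mul_of_nonneg_left h.1.2.le b1
    have l2 := mul_nonneg b1 l0
    rw [u1, abs_sg_mul, abs_le]
    constructor <;> linarith [kap_pos, et_pos hP k.1.1, et_le_kap hP k.1.1]
  have a2 : |U P k s y (iT k.1)| ≤ 2 * kap := by
    have l1 := mul_le_mul_of_nonneg_left (abs_lt.2 h.2).le b2
    rw [u2, abs_mul, abs_of_nonneg b2]
    linarith [et_le_kap hP (nT k.1)]
  have a3 : |U P k s y 0| ≤ 2 * kap ∧ |U P k s y 1| ≤ 2 * kap := by
    rcases iRT_cases k.1 with ⟨e1, e2, -⟩ | ⟨e1, e2, -⟩ <;> rw [e1] at a1 <;> rw [e2] at a2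
    exacts [⟨a1, a2⟩, ⟨a2, a1⟩]
  refine ⟨max_le a3.1 a3.2, ?_⟩
  rw [EuclideanSpace.norm_eq]
  refine Real.sqrt_le_iff.2 ⟨by linarith [kap_pos], ?_⟩
  have s1 := pow_le_pow_left₀ (abs_nonneg _) a3.1 2
  have s2 := pow_le_pow_left₀ (abs_nonneg _) a3.2 2
  simp only [Fin.sum_univ_three, PiLp.sub_apply, U_two, Real.norm_eq_abs]
  simp
  rw [sq_abs] at s1 s2
  nlinarith [sq_nonneg kap]

theorem rel_eq (hP : P.Ok) (k : Bm) {s t : ℝ} (hs : 0 ≤ s) (x v : R3) (j : Fin 3) :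
    v j - U P k s (x - (t - s) • v) j =
      (v j * (1 + bb P k.1 j * t) - pp P k j - bb P k.1 j * x j) / (1 + bb P k.1 j * s) := by
  have d1 := den_pos hP k.1 j hs
  simp only [U_apply, PiLp.sub_apply, PiLp.smul_apply, smul_eq_mul]
  field_simp
  ring
theorem rel_mono (hP : P.Ok) (k : Bm) {s t : ℝ} (hs : 0 ≤ s) (hst : s ≤ t) (x v : R3) :
    ‖v - U P k t x‖ ≤ ‖v - U P k s (x - (t - s) • v)‖ := by
  rw [EuclideanSpace.norm_eq, EuclideanSpace.norm_eq]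
  refine Real.sqrt_le_sqrt (Finset.sum_le_sum fun j _ => pow_le_pow_left₀ (norm_nonneg _) ?_ 2)
  have h1 := rel_eq hP k (t := t) (hs.trans hst) x v j
  rw [sub_self, zero_smul, sub_zero] at h1
  have d1 := den_pos hP k.1 j hs
  have d2 := den_pos hP k.1 j (hs.trans hst)
  rw [PiLp.sub_apply, PiLp.sub_apply, h1, rel_eq hP k hs, Real.norm_eq_abs, Real.norm_eq_abs, abs_div, abs_div,
    abs_of_pos d1, abs_of_pos d2]
  exact div_le_div_of_nonneg_left (abs_nonneg _) d1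
    (by linarith [mul_le_mul_of_nonneg_left hst (bb_nonneg hP k.1 j)])
theorem lab_shift (hP : P.Ok) (k : Bm) {s t : ℝ} (hs : 0 ≤ s) (hst : s ≤ t) (x v : R3) :
    dist (lab P k.1 t x) (lab P k.1 s (x - (t - s) • v)) ≤
      ‖v - U P k s (x - (t - s) • v)‖ * (t - s) := by
  have key : ∀ j, |(x j - t * pp P k j) / (1 + bb P k.1 j * t) -
      ((x - (t - s) • v) j - s * pp P k j) / (1 + bb P k.1 j * s)| ≤ ‖v - U P k s (x - (t - s) • v)‖ * (t - s) := by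
    intro j
    have d1 := den_pos hP k.1 j hs
    have d2 := den_pos hP k.1 j (hs.trans hst)
    have d3 : 1 ≤ 1 + bb P k.1 j * t := le_add_of_nonneg_right (mul_nonneg (bb_nonneg hP k.1 j) (hs.trans hst))
    have e : (x j - t * pp P k j) / (1 + bb P k.1 j * t) -
        ((x - (t - s) • v) j - s * pp P k j) / (1 + bb P k.1 j * s) =
        (v - U P k s (x - (t - s) • v)) j * (t - s) / (1 + bb P k.1 j * t) := by
      rw [show (v - U P k s (x - (t - s) • v)) j = v j - U P k s (x - (t - s) • v) j from rfl, rel_eq hP k hs]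
      simp only [PiLp.sub_apply, PiLp.smul_apply, smul_eq_mul]
      rw [div_sub_div _ _ d2.ne' d1.ne', div_mul_eq_mul_div, div_div, mul_comm (1 + bb P k.1 j * s)]
      congr 1
      ring
    rw [e, abs_div, abs_of_pos d2, abs_mul, abs_of_nonneg (sub_nonneg.2 hst)]
    exact (div_le_self (mul_nonneg (abs_nonneg _) (sub_nonneg.2 hst)) d3).trans
      (mul_le_mul_of_nonneg_right (PiLp.norm_apply_le (v - U P k s (x - (t - s) • v)) j) (sub_nonneg.2 hst))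
  rw [Prod.dist_eq, max_le_iff, Real.dist_eq, Real.dist_eq]
  constructor
  · have := key (iR k.1)
    rw [← abs_sg_mul k.1.2.2, mul_sub, ← mul_div_assoc, ← mul_div_assoc, pp_iR,
      ← pp_iR (P := P) (k.1, true)] at this
    exact this
  · have := key (iT k.1)
    rw [pp_iT, mul_zero, mul_zero, sub_zero, sub_zero] at this
    exact this
theorem dS_shift (hP : P.Ok) (k : Bm) {s t : ℝ} (hs : 0 ≤ s) (hst : s ≤ t) (x v : R3) :
    dS P k t x ≤ dS P k s (x - (t - s) • v) + ‖v - U P k s (x - (t - s) • v)‖ * (t - s) :=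
  (Metric.infDist_le_infDist_add_dist).trans (add_le_add le_rfl (lab_shift hP k hs hst x v))

/-- two points with the same transversal coordinates -/
def Same (y y' : R3) : Prop := y 0 = y' 0 ∧ y 1 = y' 1
theorem Same.lift_ (y : R3) : Same y (lift (y 0, y 1)) :=
  ⟨by simp [lift], by simp [lift]⟩
theorem Same.hat_ {y : R3} (h : nrm y < 1 / 2) : Same y (hat y) := by
  have h0 := abs_lt.1 ((le_max_left _ _).trans_lt h)
  have h1 := abs_lt.1 ((le_max_right _ _).trans_lt h)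
  have e0 : round (y 0) = 0 := round_eq_zero_iff.2 ⟨h0.1.le, h0.2⟩
  have e1 : round (y 1) = 0 := round_eq_zero_iff.2 ⟨h1.1.le, h1.2⟩
  constructor <;> simp [hat, e0, e1]
theorem Same.sub {y y' : R3} (h : Same y y') (z : R3) : Same (y - z) (y' - z) :=
  ⟨by simp only [PiLp.sub_apply, h.1], by simp only [PiLp.sub_apply, h.2]⟩
theorem Same.add {y y' : R3} (h : Same y y') (z : R3) : Same (y + z) (y' + z) :=
  ⟨by simp only [PiLp.add_apply, h.1], by simp only [PiLp.add_apply, h.2]⟩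
theorem Same.hat_eq {y y' : R3} (h : Same y y') : hat y = hat y' := by
  simp only [hat, h.1, h.2]
theorem Same.nrm_eq {y y' : R3} (h : Same y y') : nrm y = nrm y' := by
  simp only [nrm, h.1, h.2]
theorem Same.iRT {y y' : R3} (h : Same y y') (τ : Tile) : y (iR τ) = y' (iR τ) ∧ y (iT τ) = y' (iT τ) := by
  rcases iRT_cases τ with ⟨e1, e2, -⟩ | ⟨e1, e2, -⟩ <;> rw [e1, e2]
  exacts [h, h.symm]
theorem Same.lab_eq {y y' : R3} (h : Same y y') (τ : Tile) (s : ℝ) : lab P τ s y = lab P τ s y' := by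
  simp only [lab, (h.iRT τ).1, (h.iRT τ).2]
theorem Same.U_eq {y y' : R3} (h : Same y y') (k : Bm) (s : ℝ) : U P k s y = U P k s y' := by
  ext j
  fin_cases j
  · simp only [U_apply, Fin.zero_eta, h.1]
  · simp only [U_apply, Fin.mk_one, h.2]
  · simp only [Fin.reduceFinMk, U_two]
theorem Same.gk_eq {y y' : R3} (h : Same y y') (k : Bm) (s : ℝ) : gk P k s y = gk P k s y' := by
  funext v
  unfold gk
  rw [(h.sub (s • v)).lab_eq, (h.sub (s • v)).U_eq]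
theorem Same.Ck_eq {y y' : R3} (h : Same y y') (k : Bm) (s : ℝ) : Ck P k s y = Ck P k s y' := by
  funext v
  simp only [Ck, dS, h.lab_eq, h.U_eq]
theorem Same.Cke_eq {y y' : R3} (h : Same y y') (k : Bm) (s : ℝ) : Cke P k s y = Cke P k s y' := by
  funext v
  simp only [Cke, h.Ck_eq, h.U_eq]
theorem Same.core_iff {y y' : R3} (h : Same y y') (k : Bm) (s : ℝ) : InCore P k s y ↔ InCore P k s y' := by
  simp only [InCore, dS, h.lab_eq]
theorem Same.deep_iff {y y' : R3} (h : Same y y') (N : ℕ) (δ : ℝ) (τ : Tile) (s : ℝ) :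
    Deep P N δ τ s y ↔ Deep P N δ τ s y' := by
  simp only [Deep, (h.iRT τ).1, (h.iRT τ).2]
theorem Same.good_iff {y y' : R3} (h : Same y y') (N : ℕ) (δ Lv s : ℝ) (ξ : R3) :
    GoodSt P N δ Lv s y ξ ↔ GoodSt P N δ Lv s y' ξ := by
  simp only [GoodSt, h.deep_iff, h.U_eq]
theorem dd_eq_nrm {y : R3} (h : nrm y < 1 / 2) : dd y = nrm y :=
  (Same.hat_ h).nrm_eq.symm
theorem nrm_add_le (y z : R3) : nrm (y + z) ≤ nrm y + nrm z :=
  max_le ((abs_add_le (y 0) (z 0)).trans (add_le_add (le_max_left _ _) (le_max_left _ _)))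
    ((abs_add_le (y 1) (z 1)).trans (add_le_add (le_max_right _ _) (le_max_right _ _)))
theorem nrm_smul (c : ℝ) (y : R3) : nrm (c • y) = |c| * nrm y := by
  simp only [nrm, PiLp.smul_apply, smul_eq_mul, abs_mul]
  exact (mul_max_of_nonneg _ _ (abs_nonneg c)).symm
theorem nrm_neg (y : R3) : nrm (-y) = nrm y := by
  simp only [nrm, PiLp.neg_apply, abs_neg]
theorem Inv.same {T : ℝ} {F : Den} (h : Inv T F) {t : ℝ} (ht : t ∈ Icc 0 T) {y y' : R3} (hy : Same y y') :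
    F t y = F t y' := by
  funext v
  rw [h t ht y v, h t ht y' v, hy.hat_eq]

theorem om_mono (hP : P.Ok) (ϱ : ℝ) {s t : ℝ} (hst : s ≤ t) (x v : R3) :
    om P ϱ s (x - (t - s) • v) v + (P.L + ‖v‖) * (t - s) ≤ om P ϱ t x v := by
  have h1 := dd_lip x (-((t - s) • v))
  rw [← sub_eq_add_neg, nrm_neg, nrm_smul, abs_of_nonneg (sub_nonneg.2 hst)] at h1
  have h2 := mul_le_mul_of_nonneg_left (nrm_le_norm v) (sub_nonneg.2 hst)
  unfold om
  linarith
theorem om_nonneg (hP : P.Ok) {ϱ t : ℝ} (hϱ : 0 ≤ ϱ) (ht : 0 ≤ t) (x v : R3) : 0 ≤ om P ϱ t x v := by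
  have := L_ge hP
  have := dd_nonneg x
  unfold om
  positivity
theorem om_le (hP : P.Ok) {ϱ t : ℝ} (hϱ : 0 ≤ ϱ) (ht : 0 ≤ t) (x v : R3) :
    om P ϱ t x v ≤ (P.L + 2 * ‖v‖) * (t + dd x + ϱ) := by
  have h1 := L_ge hP
  have h2 := dd_nonneg x
  have h3 := norm_nonneg v
  unfold om
  nlinarith [mul_nonneg h3 h2, mul_nonneg h3 hϱ]
theorem Th_mono (hP : P.Ok) {ϱ : ℝ} (hϱ : 0 ≤ ϱ) (j : ℕ) {s t : ℝ} (hs : 0 ≤ s) (hst : s ≤ t) (x v : R3) :
    Th P ϱ j s (x - (t - s) • v) v ≤ Th P ϱ j t x v := by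
  refine ENNReal.ofReal_le_ofReal (mul_le_mul_of_nonneg_right (pow_le_pow_left₀ (om_nonneg hP hϱ hs _ _) ?_ j)
    (Real.exp_pos _).le)
  have h1 := om_mono hP ϱ hst x v
  have h2 : 0 ≤ (P.L + ‖v‖) * (t - s) := mul_nonneg (by linarith [L_ge hP, norm_nonneg v]) (sub_nonneg.2 hst)
  linarith
theorem Th_mono_floor (hP : P.Ok) {ϱ ϱ' : ℝ} (hϱ : 0 ≤ ϱ) (h : ϱ ≤ ϱ') (j : ℕ) {t : ℝ} (ht : 0 ≤ t)
    (x v : R3) : Th P ϱ j t x v ≤ Th P ϱ' j t x v :=
  ENNReal.ofReal_le_ofReal (mul_le_mul_of_nonneg_right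
    (pow_le_pow_left₀ (om_nonneg hP hϱ ht _ _) (by unfold om; linarith) j) (Real.exp_pos _).le)
theorem Th_ne_top (ϱ : ℝ) (j : ℕ) (t : ℝ) (x v : R3) : Th P ϱ j t x v ≠ ⊤ :=
  ENNReal.ofReal_ne_top
theorem Th_ne_zero (hP : P.Ok) {ϱ : ℝ} (hϱ : 0 < ϱ) (j : ℕ) {t : ℝ} (ht : 0 ≤ t) (x v : R3) :
    Th P ϱ j t x v ≠ 0 := by
  have h1 : 0 < om P ϱ t x v := by
    have := om_nonneg hP le_rfl ht x v
    unfold om at this ⊢
    linarith
  exact (ENNReal.ofReal_pos.2 (mul_pos (pow_pos h1 j) (Real.exp_pos _))).ne'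
theorem Th_eq (hP : P.Ok) {ϱ : ℝ} (hϱ : 0 ≤ ϱ) (j : ℕ) {t : ℝ} (ht : 0 ≤ t) (x v : R3) :
    Th P ϱ j t x v = ENNReal.ofReal ((P.L * t + dd x + ϱ + 2 * t * max ‖v‖ 0) ^ j) * W 1 v := by
  have e : P.L * t + dd x + ϱ + 2 * t * max ‖v‖ 0 = om P ϱ t x v := by
    rw [max_eq_left (norm_nonneg v)]; unfold om; ring
  rw [e, W, one_mul, ← ENNReal.ofReal_mul (pow_nonneg (om_nonneg hP hϱ ht x v) j)]
  rfl
theorem rb_le (hP : P.Ok) (N : ℕ) {s : ℝ} (hs : 0 ≤ s) (x : R3) :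
    rb P N s x ≤ ENNReal.ofReal (4 * cc / (kap * (s + dd x + P.fl N))) := by
  have hk : kap = 1 / 10 ^ 7 := rfl
  have h0 := kap_pos
  have h1 := dd_nonneg x
  have h2 := fl_pos hP N
  have e : kap * P.fl N = P.rr (N + 1) := by unfold Par.fl; field_simp
  refine ENNReal.ofReal_le_ofReal (div_le_div_of_nonneg_left (by unfold cc; norm_num) (by positivity) ?_)
  nlinarith
theorem rb_ge (hP : P.Ok) (N : ℕ) {s : ℝ} (hs : s ∈ Icc (0 : ℝ) 1) (x : R3) :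
    ENNReal.ofReal cc ≤ rb P N s x := by
  have hk : kap = 1 / 10 ^ 7 := rfl
  have h0 := kap_pos
  have h1 := dd_nonneg x
  have h2 := rr_pos hP (N + 1)
  have h3 := hs.1
  have h4 : kap * s ≤ kap := mul_le_of_le_one_right h0.le hs.2
  refine ENNReal.ofReal_le_ofReal ((le_div_iff₀ (by positivity)).2 ?_)
  have h5 : kap * s + dd x + P.rr (N + 1) ≤ 4 := by linarith [dd_le_half x, rr_le hP (N + 1), hP.r1]
  unfold cc
  linarith

end Crest.Agent.R68
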