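import Crest.Agent.R68.Tile2

/-! Supports and pointwise bounds of the cold background for `0 ≤ s ≤ 1`.  If `gk k s y v ≠ 0` then with `y0 = y - s v` (use `rel_eq`, `lab_shift` with the pair of times `0, s`)
`v j - U k s y j = (v j - U k 0 y0 j)/(1 + b j s)` and the label moved by at most `s ww` in each coordinate.  `gs_eq`: both sides have at most one nonzero term;
a nonzero term lives at `nrm < 1/4` at time `0` and at time `s`, so `hat (x - s v)` and `hat x - s v` have the same transversal coordinates. -/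

set_option autoImplicit false

open MeasureTheory Set Filter Topology Crest.AnalysisR.VecCalc3 Crest.AnalysisR.PDE.Boltzmann
open scoped ENNReal NNReal

namespace Crest.Agent.R68

variable {P : Par}

namespace Tile3X

theorem iR_ne_two (τ : Tile) : iR τ ≠ 2 := by
  obtain ⟨n, i, o⟩ := τ
  fin_cases i <;> simp [iR]

theorem iT_ne_two (τ : Tile) : iT τ ≠ 2 := by
  obtain ⟨n, i, o⟩ := τ
  fin_cases i <;> simp [iT] <;> decide

theorem iT_ne_iR (τ : Tile) : iT τ ≠ iR τ := by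
  obtain ⟨n, i, o⟩ := τ
  fin_cases i <;> simp [iT, iR] <;> decide

theorem abs_sg (o : Bool) : |sg o| = 1 := by
  cases o <;> simp [sg]

theorem cond_of_ne {k : Bm} {s : ℝ} {y v : R3} (h : gk P k s y v ≠ 0) :
    lab P k.1 0 (y - s • v) ∈ layer P k ∧ ∀ j, |v j - U P k 0 (y - s • v) j| ≤ P.ww k.1.1 := by
  by_contra hc
  exact h (if_neg hc)

theorem gk_of_ne {k : Bm} {s : ℝ} {y v : R3} (h : gk P k s y v ≠ 0) :
    gk P k s y v = ENNReal.ofReal (cc / (P.rr k.1.1 * (2 * P.ww k.1.1) ^ 3)) := if_pos (cond_of_ne h)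

theorem normsq_le {u : R3} {w : ℝ} (h : ∀ j, |u j| ≤ w) : ‖u‖ ^ 2 ≤ 3 * w ^ 2 := by
  rw [EuclideanSpace.real_norm_sq_eq, Fin.sum_univ_three]
  have h0 := sq_le_sq' (abs_le.1 (h 0)).1 (abs_le.1 (h 0)).2
  have h1 := sq_le_sq' (abs_le.1 (h 1)).1 (abs_le.1 (h 1)).2
  have h2 := sq_le_sq' (abs_le.1 (h 2)).1 (abs_le.1 (h 2)).2
  linarith

theorem ww_le_one (hP : P.Ok) (n : ℕ) : P.ww n ≤ 1 :=
  (ww_le hP n).trans (hP.w1.trans (by norm_num))

theorem Ck_le (hP : P.Ok) (k : Bm) {s : ℝ} (hs : s ∈ Icc (0 : ℝ) 1) (y v : R3) :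
    Ck P k s y v ≤ ENNReal.ofReal (cc / (P.rr k.1.1 * P.ww k.1.1 ^ 3)) := by
  have hr := rr_pos hP k.1.1
  have hw := ww_pos hP k.1.1
  have hc : 0 < cc := by norm_num [cc]
  refine ENNReal.ofReal_le_ofReal (mul_le_of_le_one_right (by positivity) (Real.exp_le_one_iff.2 ?_))
  have h1 : 0 ≤ (2 - s) * ‖v - U P k s y‖ ^ 2 / P.ww k.1.1 ^ 2 := by
    have : 0 ≤ 2 - s := by linarith [hs.2]
    positivity
  have h2 : 0 ≤ dS P k s y / (Real.sqrt (P.ww k.1.1) * Real.sqrt s) :=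
    div_nonneg Metric.infDist_nonneg (by positivity)
  linarith

theorem Cke_le (hP : P.Ok) (k : Bm) (s : ℝ) (y v : R3) : Cke P k s y v ≤ Ck P k s y v := by
  unfold Cke
  split_ifs
  · refine mul_le_of_le_one_left' ?_
    rw [← ENNReal.ofReal_one]
    exact ENNReal.ofReal_le_ofReal (Real.sqrt_le_one.2 (ww_le_one hP _))
  · exact zero_le

theorem one_le_W {lam ρ : ℝ} {v : R3} (h : ‖v‖ ≤ ρ) :
    (1 : ℝ≥0∞) ≤ (Real.toNNReal (Real.exp (|lam| * ρ)) : ℝ≥0) * W lam v := by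
  change 1 ≤ ENNReal.ofReal _ * ENNReal.ofReal _
  rw [← ENNReal.ofReal_mul (Real.exp_pos _).le, ← Real.exp_add, ← ENNReal.ofReal_one]
  refine ENNReal.ofReal_le_ofReal (Real.one_le_exp ?_)
  have h1 : lam * ‖v‖ ≤ |lam| * ρ := mul_le_mul (le_abs_self _) h (norm_nonneg _) (abs_nonneg _)
  linarith

end Tile3X
open Tile3X

theorem gk_supp (hP : P.Ok) {k : Bm} {s : ℝ} (hs : s ∈ Icc (0 : ℝ) 1) {y v : R3} (h : gk P k s y v ≠ 0) :
    dS P k s y ≤ s * P.ww k.1.1 ∧ (∀ j, |v j - U P k s y j| ≤ P.ww k.1.1) ∧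
      ‖v - U P k s y‖ ≤ 2 * P.ww k.1.1 ∧ InCore P k s y := by
  obtain ⟨h1, h2⟩ := cond_of_ne h
  have hb : ∀ j, 1 ≤ 1 + bb P k.1 j * s := fun j => by
    have := mul_nonneg (bb_nonneg hP k.1 j) hs.1
    linarith
  have hw := ww_pos hP k.1.1
  have h3 : ∀ j, |v j - U P k s y j| ≤ P.ww k.1.1 := fun j => by
    have e : v j - U P k s y j = (v j - U P k 0 (y - s • v) j) / (1 + bb P k.1 j * s) := by
      have := (lt_of_lt_of_le one_pos (hb j)).ne'
      simp only [U, mul_zero, add_zero, div_one, PiLp.sub_apply, PiLp.smul_apply, smul_eq_mul]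
      field_simp
      ring
    rw [e, abs_div, abs_of_pos (lt_of_lt_of_le one_pos (hb j))]
    exact (div_le_self (abs_nonneg _) (hb j)).trans (h2 j)
  have h4 : dS P k s y ≤ s * P.ww k.1.1 := by
    refine (Metric.infDist_le_dist_of_mem h1).trans ?_
    rw [Prod.dist_eq, Real.dist_eq, Real.dist_eq]
    refine max_le ?_ ?_
    · have e : (lab P k.1 s y).1 - (lab P k.1 0 (y - s • v)).1 =
          sg k.1.2.2 * (s * (v (iR k.1) - U P k s y (iR k.1))) := by
        have := (lt_of_lt_of_le one_pos (hb (iR k.1))).ne'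
        have hp : pp P (k.1, true) (iR k.1) = pp P k (iR k.1) := by simp [pp]
        simp only [lab, U, hp, mul_zero, zero_mul, sub_zero, add_zero, div_one, PiLp.sub_apply, PiLp.smul_apply,
          smul_eq_mul]
        generalize bb P k.1 (iR k.1) = b at this ⊢
        have this' : 1 + s * b ≠ 0 := by rwa [mul_comm]
        field_simp
        ring
      rw [e, abs_mul, abs_sg, one_mul, abs_mul, abs_of_nonneg hs.1]
      exact mul_le_mul_of_nonneg_left (h3 _) hs.1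
    · have e : (lab P k.1 s y).2 - (lab P k.1 0 (y - s • v)).2 =
          s * (v (iT k.1) - U P k s y (iT k.1)) := by
        have := (lt_of_lt_of_le one_pos (hb (iT k.1))).ne'
        have hp : pp P k (iT k.1) = 0 := by simp [pp, iT_ne_iR, iT_ne_two]
        simp only [lab, U, hp, mul_zero, add_zero, zero_add, div_one, PiLp.sub_apply, PiLp.smul_apply,
          smul_eq_mul]
        field_simp
        ring
      rw [e, abs_mul, abs_of_nonneg hs.1]
      exact mul_le_mul_of_nonneg_left (h3 _) hs.1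
  refine ⟨h4, h3, ?_, ?_⟩
  · refine le_of_pow_le_pow_left₀ two_ne_zero (by positivity) ?_
    have := normsq_le (u := v - U P k s y) h3
    nlinarith
  · exact lt_of_le_of_lt (h4.trans (mul_le_of_le_one_left hw.le hs.2)) (ww_lt_per hP _)
theorem gk_transport (k : Bm) (s σ : ℝ) (y v : R3) : gk P k (s + σ) (y + σ • v) v = gk P k s y v := by
  have e : y + σ • v - (s + σ) • v = y - s • v := by
    rw [add_smul]
    abel
  unfold gk
  rw [e]
theorem gk_le_Ck (hP : P.Ok) (k : Bm) {s : ℝ} (hs : s ∈ Icc (0 : ℝ) 1) (y v : R3) :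
    gk P k s y v ≤ 200 * Ck P k s y v := by
  by_cases h : gk P k s y v = 0
  · rw [h]
    exact zero_le
  obtain ⟨h1, h2, -, -⟩ := gk_supp hP hs h
  have hr := rr_pos hP k.1.1
  have hw := ww_pos hP k.1.1
  have hc : 0 < cc := by norm_num [cc]
  rw [gk_of_ne h, Ck, ← ENNReal.ofReal_ofNat 200, ← ENNReal.ofReal_mul (by norm_num)]
  refine ENNReal.ofReal_le_ofReal ?_
  have h3 : (2 - s) * ‖v - U P k s y‖ ^ 2 / P.ww k.1.1 ^ 2 ≤ 6 := by
    rw [div_le_iff₀ (by positivity)]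
    have := normsq_le (u := v - U P k s y) h2
    have h4 : (2 - s) * ‖v - U P k s y‖ ^ 2 ≤ 2 * ‖v - U P k s y‖ ^ 2 :=
      mul_le_mul_of_nonneg_right (by linarith [hs.1]) (by positivity)
    linarith
  have h4 : dS P k s y / (Real.sqrt (P.ww k.1.1) * Real.sqrt s) ≤ 1 := by
    refine div_le_one_of_le₀ (h1.trans ?_) (by positivity)
    rw [mul_comm]
    have a1 : P.ww k.1.1 ≤ Real.sqrt (P.ww k.1.1) :=
      Real.le_sqrt_of_sq_le (by nlinarith [ww_le_one hP k.1.1])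
    have a2 : s ≤ Real.sqrt s := Real.le_sqrt_of_sq_le (by nlinarith [hs.1, hs.2])
    exact mul_le_mul a1 a2 hs.1 (Real.sqrt_nonneg _)
  have h5 : 1 / 1600 ≤ Real.exp (-((2 - s) * ‖v - U P k s y‖ ^ 2 / P.ww k.1.1 ^ 2) -
      dS P k s y / (Real.sqrt (P.ww k.1.1) * Real.sqrt s)) := by
    refine le_trans ?_ (Real.exp_le_exp.2 (show (-7 : ℝ) ≤ _ by linarith))
    rw [Real.exp_neg, one_div]
    refine inv_anti₀ (Real.exp_pos _) ?_
    have a1 : Real.exp 7 = Real.exp 1 ^ 7 := by rw [← Real.exp_nat_mul]; norm_num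
    rw [a1]
    refine (pow_le_pow_left₀ (Real.exp_pos _).le Real.exp_one_lt_d9.le 7).trans (by norm_num)
  have h6 : cc / (P.rr k.1.1 * (2 * P.ww k.1.1) ^ 3) = 200 * (cc / (P.rr k.1.1 * P.ww k.1.1 ^ 3) * (1 / 1600)) := by
    field_simp
    ring
  rw [h6]
  gcongr
open Classical in
theorem gs_eq (hP : P.Ok) (N : ℕ∞) {s : ℝ} (hs : s ∈ Icc (0 : ℝ) 1) (x v : R3) :
    gs P N s x v = ∑' k : Bm, if (k.1.1 : ℕ∞) ≤ N then gk P k s (hat x) v else 0 := by
  have hn : ∀ (k : Bm) {t : ℝ}, t ∈ Icc (0 : ℝ) 1 → ∀ y : R3, gk P k t y v ≠ 0 → gk P k t y = gk P k t (hat y) :=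
    fun k t ht y h => by
      have h1 := (tile_nrm hP ht.1 (core_tile hP (gk_supp hP ht h).2.2.2)).2
      exact (Same.hat_ (h1.trans ((X_lt_half hP _ ht).trans (by norm_num)))).gk_eq k t
  change ∑' k : Bm, _ = _
  refine tsum_congr fun k => ?_
  split_ifs
  swap
  · rfl
  by_cases h : gk P k 0 (hat (x - s • v)) v = 0
  · by_cases h' : gk P k s (hat x) v = 0
    · rw [h, h']
    · have e : gk P k s (hat x) v = gk P k 0 (hat x - s • v) v := by
        rw [← gk_transport k 0 s (hat x - s • v) v, zero_add, sub_add_cancel]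
      rw [e] at h' ⊢
      rw [hn k ⟨le_rfl, zero_le_one⟩ _ h', hat_hat_sub]
  · have e : gk P k 0 (hat (x - s • v)) v = gk P k s (hat (x - s • v) + s • v) v := by
      rw [← gk_transport k 0 s (hat (x - s • v)) v, zero_add]
    rw [e] at h ⊢
    rw [hn k hs _ h, ← sub_neg_eq_add, hat_hat_sub, sub_neg_eq_add, sub_add_cancel]
theorem G_core (hP : P.Ok) (N : ℕ∞) {s : ℝ} (hs : s ∈ Icc (0 : ℝ) 1) (x : R3) :
    ((∀ v, gs P N s x v = 0) ∧ ∀ v, GC P N s x v = 0) ∨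
    ∃ k : Bm, (k.1.1 : ℕ∞) ≤ N ∧ InCore P k s (hat x) ∧ (∀ v, gs P N s x v = gk P k s (hat x) v) ∧
      ∀ v, GC P N s x v = Cke P k s (hat x) v := by
  by_cases h : ∃ k : Bm, (k.1.1 : ℕ∞) ≤ N ∧ InCore P k s (hat x)
  · obtain ⟨k, hk, hc⟩ := h
    refine Or.inr ⟨k, hk, hc, fun v => ?_, fun v => ?_⟩
    · rw [gs_eq hP N hs, tsum_eq_single k, if_pos hk]
      intro k' hk'
      split_ifs
      · by_contra hne
        exact hk' (core_unique hP hs.1 (gk_supp hP hs hne).2.2.2 hc)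
      · rfl
    · unfold GC
      rw [tsum_eq_single k, if_pos ⟨hk, hc⟩]
      intro k' hk'
      exact if_neg fun h' => hk' (core_unique hP hs.1 h'.2 hc)
  · refine Or.inl ⟨fun v => ?_, fun v => ?_⟩
    · rw [gs_eq hP N hs, ENNReal.tsum_eq_zero]
      intro k
      split_ifs with hk
      · by_contra hne
        exact h ⟨k, hk, (gk_supp hP hs hne).2.2.2⟩
      · rfl
    · unfold GC
      rw [ENNReal.tsum_eq_zero]
      exact fun k => if_neg fun h' => h ⟨k, h'⟩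
theorem gk_le_gs (hP : P.Ok) {N : ℕ∞} {k : Bm} (hk : (k.1.1 : ℕ∞) ≤ N) {s : ℝ} (hs : s ∈ Icc (0 : ℝ) 1)
    (x v : R3) : gk P k s (hat x) v ≤ gs P N s x v := by
  rw [gs_eq hP N hs]
  exact le_trans (le_of_eq (if_pos hk).symm) (ENNReal.le_tsum k)
theorem G_supp (hP : P.Ok) {N : ℕ∞} {s : ℝ} (hs : s ∈ Icc (0 : ℝ) 1) {x v : R3} (h : G P N s x v ≠ 0) :
    ‖v‖ ≤ 2 ∧ nrm v < DD ∧ dd x < P.X 0 s := by
  rcases G_core hP N hs x with ⟨h1, h2⟩ | ⟨k, -, hc, h1, h2⟩
  · exact absurd (by simp [G, h1, h2]) h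
  have hk : (0 : ℝ) < kap := by norm_num [kap]
  have h3 : ‖v - U P k s (hat x)‖ ≤ kap := by
    by_contra hn
    refine h ?_
    have a1 : gk P k s (hat x) v = 0 := by
      by_contra hne
      refine hn ((gk_supp hP hs hne).2.2.1.trans ?_)
      have := (ww_le hP k.1.1).trans hP.w1
      have : (2 : ℝ) * (1 / 10 ^ 30) ≤ kap := by norm_num [kap]
      linarith
    have a2 : Cke P k s (hat x) v = 0 := if_neg hn
    simp [G, h1, h2, a1, a2]
  have ht := core_tile hP hc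
  obtain ⟨h4, h5⟩ := U_tile hP hs.1 ht
  refine ⟨?_, ?_, (tile_nrm hP hs.1 ht).2.trans_le (X_anti hP (Nat.zero_le _) hs.1)⟩
  · have a1 : ‖(EuclideanSpace.single 2 (sg k.2) : R3)‖ = 1 := by simp [abs_sg]
    have a2 : v = (v - U P k s (hat x)) + (U P k s (hat x) - EuclideanSpace.single 2 (sg k.2)) +
        EuclideanSpace.single 2 (sg k.2) := by abel
    have a3 : 5 * kap ≤ 1 := by norm_num [kap]
    calc ‖v‖ = ‖(v - U P k s (hat x)) + (U P k s (hat x) - EuclideanSpace.single 2 (sg k.2)) +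
        EuclideanSpace.single 2 (sg k.2)‖ := by rw [← a2]
      _ ≤ _ := norm_add₃_le
      _ ≤ 2 := by linarith
  · have a1 := nrm_add_le (v - U P k s (hat x)) (U P k s (hat x))
    rw [sub_add_cancel] at a1
    have a2 := nrm_le_norm (v - U P k s (hat x))
    have a3 : 3 * kap < DD := by norm_num [kap, DD]
    linarith
theorem G_chi (hP : P.Ok) (N : ℕ∞) {s : ℝ} (hs : s ∈ Icc (0 : ℝ) 1) (x : R3) {v : R3} (h : chi v ≠ 0) :
    G P N s x v = 0 := by
  by_contra hne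
  exact h (if_neg (not_le.2 (G_supp hP hs hne).2.1))
theorem G_vac (hP : P.Ok) (N : ℕ) {s : ℝ} (hs : s ∈ Icc (0 : ℝ) 1) {x : R3} (h : dd x ≤ P.X (N + 1) s)
    (v : R3) : G P N s x v = 0 := by
  rcases G_core hP N hs x with ⟨h1, h2⟩ | ⟨k, hk, hc, -, -⟩
  · simp [G, h1, h2]
  · have h1 := (tile_nrm hP hs.1 (core_tile hP hc)).1
    have h2 : P.X (N + 1) s ≤ P.X (k.1.1 + 1) s := X_anti hP (Nat.succ_le_succ (by exact_mod_cast hk)) hs.1
    exact absurd (h.trans h2) (not_le.2 h1)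
theorem g0_mono {N N' : ℕ∞} (h : N ≤ N') (x v : R3) : g0 P N x v ≤ g0 P N' x v := by
  refine ENNReal.tsum_le_tsum fun k => ?_
  split_ifs with h1 h2
  · exact le_rfl
  · exact absurd (h1.trans h) h2
  · exact zero_le
  · exact le_rfl
theorem G_mono {N N' : ℕ∞} (h : N ≤ N') (s : ℝ) (x v : R3) : G P N s x v ≤ G P N' s x v := by
  refine add_le_add (g0_mono h _ _) (ENNReal.tsum_le_tsum fun k => ?_)
  split_ifs with h1 h2
  · exact le_rfl
  · exact absurd ⟨h1.1.trans h, h1.2⟩ h2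
  · exact zero_le
  · exact le_rfl
theorem gs_le_G (N : ℕ∞) (s : ℝ) (x v : R3) : gs P N s x v ≤ G P N s x v := by
  exact le_self_add
theorem G_ne_top (hP : P.Ok) (N : ℕ∞) {s : ℝ} (hs : s ∈ Icc (0 : ℝ) 1) (x v : R3) : G P N s x v ≠ ⊤ := by
  rcases G_core hP N hs x with ⟨h1, h2⟩ | ⟨k, -, -, h1, h2⟩
  · simp [G, h1, h2]
  · unfold G
    rw [h1, h2]
    have h3 : Ck P k s (hat x) v ≠ ⊤ := ENNReal.ofReal_ne_top
    exact ENNReal.add_ne_top.2 ⟨ne_top_of_le_ne_top (ENNReal.mul_ne_top ENNReal.ofNat_ne_top h3)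
      (gk_le_Ck hP k hs _ _), ne_top_of_le_ne_top h3 (Cke_le hP k s _ _)⟩
theorem G_bdd (hP : P.Ok) (N : ℕ) (lam : ℝ) : ∃ K : ℝ≥0, ∀ s ∈ Icc (0 : ℝ) 1, ∀ x v,
    G P N s x v ≤ K * W lam v := by
  refine ⟨201 * (∑ n ∈ Finset.range (N + 1), Real.toNNReal (cc / (P.rr n * P.ww n ^ 3))) *
    Real.toNNReal (Real.exp (|lam| * 2)), fun s hs x v => ?_⟩
  by_cases h0 : G P N s x v = 0
  · rw [h0]
    exact zero_le
  have hv := (G_supp hP hs h0).1
  rcases G_core hP N hs x with ⟨h1, h2⟩ | ⟨k, hk, -, h1, h2⟩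
  · exact absurd (by simp [G, h1, h2]) h0
  have h3 : Ck P k s (hat x) v ≤
      ((∑ n ∈ Finset.range (N + 1), Real.toNNReal (cc / (P.rr n * P.ww n ^ 3)) : ℝ≥0) : ℝ≥0∞) := by
    refine (Ck_le hP k hs _ _).trans (ENNReal.coe_le_coe.2 ?_)
    exact Finset.single_le_sum (f := fun n => Real.toNNReal (cc / (P.rr n * P.ww n ^ 3))) (fun _ _ => zero_le)
      (Finset.mem_range.2 (Nat.lt_succ_of_le (by exact_mod_cast hk)))
  calc G P N s x v = gk P k s (hat x) v + Cke P k s (hat x) v := by unfold G; rw [h1, h2]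
    _ ≤ 200 * Ck P k s (hat x) v + Ck P k s (hat x) v := add_le_add (gk_le_Ck hP k hs _ _) (Cke_le hP k s _ _)
    _ = 201 * Ck P k s (hat x) v * 1 := by ring
    _ ≤ 201 * ((∑ n ∈ Finset.range (N + 1), Real.toNNReal (cc / (P.rr n * P.ww n ^ 3)) : ℝ≥0) : ℝ≥0∞) *
        ((Real.toNNReal (Real.exp (|lam| * 2)) : ℝ≥0) * W lam v) :=
      mul_le_mul' (mul_le_mul' le_rfl h3) (one_le_W hv)
    _ = _ := by
      rw [ENNReal.coe_mul, ENNReal.coe_mul, ← mul_assoc]
      rfl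
theorem F0_bdd (hP : P.Ok) (N : ℕ) (lam : ℝ) (σ0 : ℝ≥0) : ∃ K : ℝ≥0, ∀ σ ≤ σ0, ∀ x v,
    F0 P N σ x v ≤ K * W lam v := by
  obtain ⟨K, hK⟩ := G_bdd hP N lam
  refine ⟨K + Real.toNNReal (Real.exp (|lam| * P.R)) + σ0 * Real.toNNReal (Real.exp (|lam| * 2)),
    fun σ hσ x v => ?_⟩
  rw [ENNReal.coe_add, ENNReal.coe_add, ENNReal.coe_mul, add_mul, add_mul, mul_assoc]
  refine add_le_add (add_le_add ?_ ?_) (mul_le_mul' (ENNReal.coe_le_coe.2 hσ) ?_)
  · refine le_trans ?_ ((gs_le_G N 0 x v).trans (hK 0 ⟨le_rfl, zero_le_one⟩ x v))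
    simp [gs]
  · unfold gas
    split_ifs with h
    · refine ((MM_le_W v).trans ?_).trans (one_le_W h.2.le)
      rw [W, ← ENNReal.ofReal_one]
      exact ENNReal.ofReal_le_ofReal (Real.exp_le_one_iff.2 (by simp))
    · exact zero_le
  · unfold seed
    split_ifs with h
    · refine one_le_W ?_
      have a1 : ‖(EuclideanSpace.single 0 1 : R3)‖ = 1 := by simp
      have a2 := norm_add_le (v - EuclideanSpace.single 0 1) (EuclideanSpace.single 0 1)
      rw [sub_add_cancel] at a2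
      linarith [h.2]
    · exact zero_le
/-- a good state is not a cold particle -/
theorem good_gs (hP : P.Ok) {N : ℕ} {δ Lv s : ℝ} (hw : P.w < δ) (hs0 : 0 < s) (hs : s ≤ 1) {y ξ : R3}
    (hy : nrm y < 1 / 2) (h : GoodSt P N δ Lv s y ξ) : gs P N s y ξ = 0 := by
  obtain ⟨τ, hd, -, hδ⟩ := h
  have hs' : s ∈ Icc (0 : ℝ) 1 := ⟨hs0.le, hs⟩
  rcases G_core hP N hs' y with ⟨h1, -⟩ | ⟨k, -, hc, h1, -⟩
  · exact h1 ξ
  rw [h1]
  by_contra hne
  have hS := Same.hat_ hy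
  have h2 := deep_tile hP (hP.w0.trans hw) hs0 hd
  rw [hS.lab_eq] at h2
  obtain ⟨τ', ε⟩ := k
  obtain rfl : τ = τ' := tile_unique hP hs0.le h2 (core_tile hP hc)
  have h3 := (gk_supp hP hs' hne).2.1 (iR τ)
  rw [hS.U_eq, U_sign τ true ε s _ (iR_ne_two τ)] at hδ
  have h4 := ww_le hP τ.1
  linarith
/-- on the productive velocities the solution is hot -/
theorem mul_chi_le_hot (hP : P.Ok) (N : ℕ) (F : Den) {s : ℝ} (hs : s ∈ Icc (0 : ℝ) 1) (x v : R3) :
    F s x v * chi v ≤ hot P N F s x v := by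
  by_cases h : chi v = 0
  · simp [h]
  · unfold hot
    rw [G_chi hP N hs x h, tsub_zero]
    exact mul_le_of_le_one_right' (chi_le_one v)
theorem le_G_add_hot (N : ℕ) (F : Den) (s : ℝ) (x v : R3) : F s x v ≤ G P N s x v + hot P N F s x v := by
  exact le_add_tsub

end Crest.Agent.R68
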