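import Crest.Agent.R68.GoodB
import Crest.Agent.R68.CollSym

/-! The weak formulation.  `duality`: for `φ` of class `C¹`, periodic in `x`, `φ(T',·)=0` for `T' ≥ T₁`: in characteristic coordinates
`F♯(t) = F0 + ∫_0^t S♯`, `φ♯(t) = φ(t, x + t v, v)` has derivative `(transportD φ)♯`, and Fubini gives
`∫_0^{T} F♯ ∂_t φ♯ = -F0 φ(0) - ∫_0^T S♯ φ♯` (write `∫_s^T ∂_tφ♯ = -φ♯(s)`); go back and forth with `integral_shear`.
`coll_inv`: `∫ (Q⁺ - Q⁻) ψ dv = 0` for collision invariants, by `measurePreserving_prepost`/`swapPart`. -/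

set_option autoImplicit false

open MeasureTheory Set Filter Topology Crest.AnalysisR.VecCalc3 Crest.AnalysisR.PDE.Boltzmann
open scoped ENNReal NNReal

namespace Crest.Agent.R68

variable {F0 : R3 → R3 → ℝ} {F : ℝ → R3 → R3 → ℝ} {𝓜 : Den}

namespace Weak
open Sharp CollSym

theorem tD_eq {φ : ℝ → R3 → R3 → ℝ}
    (hφ : ContDiff ℝ 1 (fun p : ℝ × R3 × R3 => φ p.1 p.2.1 p.2.2)) (t : ℝ) (x v : R3) :
    transportD φ t x v =
      fderiv ℝ (fun p : ℝ × R3 × R3 => φ p.1 p.2.1 p.2.2) (t, x, v) (1, v, 0) := by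
  have hd := (hφ.differentiable one_ne_zero (t, x, v)).hasFDerivAt
  set L := fderiv ℝ (fun p : ℝ × R3 × R3 => φ p.1 p.2.1 p.2.2) (t, x, v) with hL
  have h1 : HasDerivAt (fun s : ℝ => φ s x v) (L (1, 0, 0)) t := by
    have hl : HasDerivAt (fun s : ℝ => ((s, x, v) : ℝ × R3 × R3)) (1, 0, 0) t :=
      (hasDerivAt_id t).prodMk ((hasDerivAt_const t x).prodMk (hasDerivAt_const t v))
    exact hd.comp_hasDerivAt t hl
  have h2 : HasFDerivAt (fun y : R3 => φ t y v)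
      (L.comp ((0 : R3 →L[ℝ] ℝ).prod ((ContinuousLinearMap.id ℝ R3).prod (0 : R3 →L[ℝ] R3)))) x := by
    have hl : HasFDerivAt (fun y : R3 => ((t, y, v) : ℝ × R3 × R3))
        ((0 : R3 →L[ℝ] ℝ).prod ((ContinuousLinearMap.id ℝ R3).prod (0 : R3 →L[ℝ] R3))) x :=
      (hasFDerivAt_const t x).prodMk ((hasFDerivAt_id x).prodMk (hasFDerivAt_const v x))
    exact hd.comp x hl
  unfold transportD Crest.AnalysisR.VecCalc3.pderiv
  rw [h1.deriv, h2.fderiv]
  have hv : ((1, v, 0) : ℝ × R3 × R3) = (1, 0, 0) + ∑ i : Fin 3, v i • ((0, EuclideanSpace.single i 1, 0) : ℝ × R3 × R3) := by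
    rw [Fin.sum_univ_three]
    refine Prod.ext (by simp) (Prod.ext ?_ (by simp))
    ext j
    fin_cases j <;> simp
  rw [hv, map_add, map_sum]
  simp only [map_smul, smul_eq_mul, ContinuousLinearMap.comp_apply, ContinuousLinearMap.prod_apply,
    ContinuousLinearMap.zero_apply, ContinuousLinearMap.id_apply]

theorem tD_cont {φ : ℝ → R3 → R3 → ℝ}
    (hφ : ContDiff ℝ 1 (fun p : ℝ × R3 × R3 => φ p.1 p.2.1 p.2.2)) :
    Continuous (fun p : ℝ × R3 × R3 => transportD φ p.1 p.2.1 p.2.2) := by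
  simp only [tD_eq hφ]
  have := hφ.continuous_fderiv one_ne_zero
  exact this.clm_apply (by fun_prop)

theorem tD_char {φ : ℝ → R3 → R3 → ℝ}
    (hφ : ContDiff ℝ 1 (fun p : ℝ × R3 × R3 => φ p.1 p.2.1 p.2.2)) (x v : R3) (t : ℝ) :
    HasDerivAt (fun s : ℝ => φ s (x + s • v) v) (transportD φ t (x + t • v) v) t := by
  rw [tD_eq hφ]
  have hd := (hφ.differentiable one_ne_zero (t, x + t • v, v)).hasFDerivAt
  have hl : HasDerivAt (fun s : ℝ => ((s, x + s • v, v) : ℝ × R3 × R3)) (1, v, 0) t := by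
    refine (hasDerivAt_id t).prodMk (HasDerivAt.prodMk ?_ (hasDerivAt_const t v))
    simpa using ((hasDerivAt_id t).smul_const v).const_add x
  exact hd.comp_hasDerivAt t hl

theorem tD_per {φ : ℝ → R3 → R3 → ℝ} (hp : ∀ t v, IsPeriodic3 (fun x => φ t x v)) (t : ℝ) (v : R3) :
    IsPeriodic3 (fun x => transportD φ t x v) := by
  intro x i
  have h1 : (fun s => φ s (x + EuclideanSpace.single i 1) v) = fun s => φ s x v :=
    funext fun s => hp s v x i
  have h2 : fderiv ℝ (fun y => φ t y v) (x + EuclideanSpace.single i 1) = fderiv ℝ (fun y => φ t y v) x := by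
    rw [← fderiv_comp_add_right]
    congr 1
    exact funext fun y => hp t v y i
  simp only [transportD, Crest.AnalysisR.VecCalc3.pderiv, h1, h2]

theorem tD_zero_time {φ : ℝ → R3 → R3 → ℝ} {T₁ t : ℝ} (h0 : ∀ s x v, T₁ ≤ s → φ s x v = 0)
    (ht : T₁ < t) (x v : R3) : transportD φ t x v = 0 := by
  have h1 : (fun s => φ s x v) =ᶠ[𝓝 t] fun _ => 0 := by
    filter_upwards [Ioi_mem_nhds ht] with s hs using h0 s x v (le_of_lt hs)
  have h2 : (fun y => φ t y v) = fun _ => 0 := funext fun y => h0 t y v ht.le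
  simp [transportD, Crest.AnalysisR.VecCalc3.pderiv, h1.deriv_eq, h2]

theorem tD_zero_vel {φ : ℝ → R3 → R3 → ℝ} {v : R3} (h0 : ∀ s x, φ s x v = 0) (t : ℝ) (x : R3) :
    transportD φ t x v = 0 := by
  simp [transportD, Crest.AnalysisR.VecCalc3.pderiv, h0]

theorem bdd_per {G : ℝ → R3 → R3 → ℝ} (hc : Continuous (fun p : ℝ × R3 × R3 => G p.1 p.2.1 p.2.2))
    (hp : ∀ t v, IsPeriodic3 (fun x => G t x v)) (T R : ℝ) :
    ∃ C : ℝ, 0 ≤ C ∧ ∀ t ∈ Icc 0 T, ∀ x v, ‖v‖ ≤ R → |G t x v| ≤ C := by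
  have hK : IsCompact (Icc 0 T ×ˢ (Metric.closedBall (0 : R3) 2 ×ˢ Metric.closedBall (0 : R3) R)) :=
    isCompact_Icc.prod ((isCompact_closedBall _ _).prod (isCompact_closedBall _ _))
  obtain ⟨C, hC⟩ := hK.exists_bound_of_continuousOn hc.continuousOn
  refine ⟨max C 0, le_max_right _ _, fun t ht x v hv => ?_⟩
  have := hC (t, fr x, v) ⟨ht, by simpa using norm_le_of_cell (fr_mem x), by simpa using hv⟩
  simp only [Real.norm_eq_abs] at this
  rw [show G t (fr x) v = G t x v from per_fr (hp t v) x] at this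
  exact this.trans (le_max_left _ _)

theorem oneD {S g g' : ℝ → ℝ} {T f0 : ℝ} (hT : 0 ≤ T) (hS : IntegrableOn S (Ioo 0 T))
    (hg : ∀ s, HasDerivAt g (g' s) s) (hc : Continuous g') (h0 : g T = 0) :
    ∫ t in Ioo 0 T, ((f0 + ∫ s in Ioo 0 t, S s) * g' t + S t * g t) = -(f0 * g 0) := by
  have hg'i : IntegrableOn g' (Ioo 0 T) := (hc.integrableOn_Icc).mono_set Ioo_subset_Icc_self
  have ftc : ∀ s ≤ T, ∫ t in Ioo s T, g' t = - g s := by
    intro s hs
    rw [← integral_Ioc_eq_integral_Ioo, ← intervalIntegral.integral_of_le hs,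
      intervalIntegral.integral_eq_sub_of_hasDerivAt (fun x _ => hg x) (hc.intervalIntegrable _ _),
      h0, zero_sub]
  set H : ℝ × ℝ → ℝ := {z : ℝ × ℝ | z.2 < z.1}.indicator (fun z => g' z.1 * S z.2) with hHdef
  have hH : Integrable H ((volume.restrict (Ioo 0 T)).prod (volume.restrict (Ioo 0 T))) :=
    (hg'i.mul_prod hS).indicator (measurableSet_lt measurable_snd measurable_fst)
  have e1 : (fun t => ∫ s in Ioo 0 T, H (t, s)) =ᵐ[volume.restrict (Ioo 0 T)]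
      fun t => (∫ s in Ioo 0 t, S s) * g' t := by
    filter_upwards [ae_restrict_mem measurableSet_Ioo] with t ht
    have : (fun s => H (t, s)) = (Iio t).indicator (fun s => g' t * S s) := by
      funext s; simp only [hHdef, indicator, mem_setOf_eq, mem_Iio]
    rw [this, integral_indicator measurableSet_Iio, Measure.restrict_restrict measurableSet_Iio,
      integral_const_mul, mul_comm]
    have : Iio t ∩ Ioo 0 T = Ioo 0 t := by
      ext s; simp only [mem_inter_iff, mem_Iio, mem_Ioo]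
      exact ⟨fun h => ⟨h.2.1, h.1⟩, fun h => ⟨h.2, h.1, h.2.trans ht.2⟩⟩
    rw [this]
  have e2 : (fun s => ∫ t in Ioo 0 T, H (t, s)) =ᵐ[volume.restrict (Ioo 0 T)]
      fun s => -(S s * g s) := by
    filter_upwards [ae_restrict_mem measurableSet_Ioo] with s hs
    have : (fun t => H (t, s)) = (Ioi s).indicator (fun t => g' t * S s) := by
      funext t; simp only [hHdef, indicator, mem_setOf_eq, mem_Ioi]
    rw [this, integral_indicator measurableSet_Ioi, Measure.restrict_restrict measurableSet_Ioi,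
      integral_mul_const]
    have : Ioi s ∩ Ioo 0 T = Ioo s T := by
      ext t; simp only [mem_inter_iff, mem_Ioi, mem_Ioo]
      exact ⟨fun h => ⟨h.1, h.2.2⟩, fun h => ⟨h.1, hs.1.trans h.1, h.2⟩⟩
    rw [this, ftc s hs.2.le]; ring
  have i1 : IntegrableOn (fun t => (∫ s in Ioo 0 t, S s) * g' t) (Ioo 0 T) :=
    hH.integral_prod_left.congr e1
  have i2 : IntegrableOn (fun s => -(S s * g s)) (Ioo 0 T) := hH.integral_prod_right.congr e2
  have i3 : IntegrableOn (fun s => S s * g s) (Ioo 0 T) := by simpa using i2.neg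
  have sw : ∫ t in Ioo 0 T, (∫ s in Ioo 0 t, S s) * g' t = ∫ s in Ioo 0 T, -(S s * g s) := by
    rw [← integral_congr_ae e1, ← integral_congr_ae e2]
    exact integral_integral_swap (f := fun t s => H (t, s)) hH
  have i4 : IntegrableOn (fun t => f0 * g' t) (Ioo 0 T) := hg'i.const_mul f0
  have i5 : IntegrableOn (fun t => f0 * g' t + (∫ s in Ioo 0 t, S s) * g' t) (Ioo 0 T) := i4.add i1
  simp only [add_mul]
  rw [integral_add i5 i3, integral_add i4 i1, sw, integral_neg, integral_const_mul, ftc 0 hT]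
  ring

theorem ae_fst_mem' {s : Set ℝ} (hs : MeasurableSet s) :
    ∀ᵐ p : ℝ × R3 × R3 ∂(volume.restrict (s ×ˢ (cell ×ˢ (univ : Set R3)))), p.1 ∈ s := by
  rw [vol3]; exact ae_fst_mem hs

theorem F_int {T : ℝ} (h : Good F0 T F 𝓜) :
    IntegrableOn (fun p : ℝ × R3 × R3 => F p.1 p.2.1 p.2.2)
      (Ioo 0 T ×ˢ (cell ×ˢ (univ : Set R3))) := by
  obtain ⟨C, hC, hb⟩ := h.mee
  refine ⟨h.meas.aestronglyMeasurable, ?_⟩
  rw [hasFiniteIntegral_iff_enorm, vol3, lintegral_prod _ h.meas.enorm.aemeasurable]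
  calc _ ≤ ∫⁻ _ in Ioo 0 T, C := by
        refine setLIntegral_mono' measurableSet_Ioo fun t ht => ?_
        refine le_trans (lintegral_mono fun q => ?_) (hb t (Ioo_subset_Icc_self ht))
        have h0 := h.nonneg t q.1 q.2 ht.1.le
        rw [Real.enorm_of_nonneg h0]
        refine ENNReal.ofReal_le_ofReal (le_mul_of_one_le_right h0 ?_)
        have := abs_nonneg (Real.log (F t q.1 q.2))
        nlinarith [sq_nonneg ‖q.2‖]
    _ < ⊤ := by
        rw [setLIntegral_const]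
        exact ENNReal.mul_lt_top hC measure_Ioo_lt_top

theorem F0_int {T : ℝ} (hT : 0 ≤ T) (h : Good F0 T F 𝓜) :
    IntegrableOn (fun q : R3 × R3 => (1 + ‖q.2‖) ^ 2 * F0 q.1 q.2) (cell ×ˢ (univ : Set R3)) := by
  simpa only [h.init] using h.integrable 0 ⟨le_rfl, hT⟩

theorem src_mul_int {T : ℝ} (h : Good F0 T F 𝓜) {φ : ℝ → R3 → R3 → ℝ}
    (hφ : Measurable (fun p : ℝ × R3 × R3 => φ p.1 p.2.1 p.2.2)) {C : ℝ} {k : ℕ}
    (hb : ∀ t ∈ Icc 0 T, ∀ x v, |φ t x v| ≤ C * (1 + ‖v‖) ^ k) :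
    IntegrableOn (fun p : ℝ × R3 × R3 => Src F p.1 p.2.1 p.2.2 * φ p.1 p.2.1 p.2.2)
      (Ioo 0 T ×ˢ (cell ×ˢ (univ : Set R3))) := by
  refine ((h.src_integrable k).norm.const_mul C).mono' ((meas_src h).mul hφ).aestronglyMeasurable ?_
  filter_upwards [ae_fst_mem' measurableSet_Ioo] with p hp
  have := hb p.1 (Ioo_subset_Icc_self hp) p.2.1 p.2.2
  rw [Real.norm_eq_abs, Real.norm_eq_abs, abs_mul, abs_mul, abs_of_nonneg (by positivity : 0 ≤ (1 + ‖p.2.2‖) ^ k)]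
  have h2 := abs_nonneg (Src F p.1 p.2.1 p.2.2)
  nlinarith [mul_le_mul_of_nonneg_left this h2]

theorem region_diff {T : ℝ} {p : ℝ × R3 × R3}
    (hp : p ∈ region \ (Ioo 0 T ×ˢ (cell ×ˢ (univ : Set R3)))) : T ≤ p.1 := by
  by_contra hlt
  exact hp.2 ⟨⟨hp.1.1, not_le.1 hlt⟩, hp.1.2⟩

theorem measurableSet_region : MeasurableSet region :=
  measurableSet_Ioi.prod (measurableSet_cell.prod MeasurableSet.univ)

theorem sub_region (T : ℝ) : Ioo 0 T ×ˢ (cell ×ˢ (univ : Set R3)) ⊆ region :=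
  prod_mono Ioo_subset_Ioi_self subset_rfl

theorem psi_le {ψ : R3 → ℝ}
    (hψ : ψ = (fun _ => 1) ∨ (∃ i : Fin 3, ψ = fun v => v i) ∨ ψ = fun v => ‖v‖ ^ 2 / 2) (v : R3) :
    |ψ v| ≤ (1 + ‖v‖) ^ 2 := by
  have h0 := norm_nonneg v
  rcases hψ with rfl | ⟨i, rfl⟩ | rfl
  · simp only [abs_one]; nlinarith
  · have : |v i| ≤ ‖v‖ := by simpa using PiLp.norm_apply_le v i
    simp only; nlinarith
  · simp only; rw [abs_of_nonneg (by positivity)]; nlinarith

theorem psi_smooth {ψ : R3 → ℝ}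
    (hψ : ψ = (fun _ => 1) ∨ (∃ i : Fin 3, ψ = fun v => v i) ∨ ψ = fun v => ‖v‖ ^ 2 / 2) :
    ContDiff ℝ 1 ψ := by
  rcases hψ with rfl | ⟨i, rfl⟩ | rfl
  · exact contDiff_const
  · exact (EuclideanSpace.proj i : R3 →L[ℝ] ℝ).contDiff
  · exact (contDiff_norm_sq ℝ).div_const 2

theorem psi_inv {ψ : R3 → ℝ}
    (hψ : ψ = (fun _ => 1) ∨ (∃ i : Fin 3, ψ = fun v => v i) ∨ ψ = fun v => ‖v‖ ^ 2 / 2)
    {p : PP} (hp : ‖p.2.2‖ = 1) : ψ (pr p).1 + ψ (pr p).2.1 - ψ p.1 - ψ p.2.1 = 0 := by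
  rcases hψ with rfl | ⟨i, rfl⟩ | rfl
  · simp
  · have := congrArg (fun z : R3 => z i) (post_sum p.1 p.2.1 p.2.2)
    simp only [PiLp.add_apply] at this
    simp only [pr]; linarith
  · have := post_energy p.1 p.2.1 p.2.2 hp
    simp only [pr]; linarith

theorem coll_ae {T : ℝ} (h : Good F0 T F 𝓜) (k : ℕ) :
    ∀ᵐ z : ℝ × R3 ∂(volume.restrict (Ioo 0 T ×ˢ cell)),
      ∫⁻ v, pw k v * (collGain F z.1 z.2 v + collLoss F z.1 z.2 v) < ⊤ := by
  have hm : Measurable (fun p : ℝ × R3 × R3 => pw k p.2.2 *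
      (collGain F p.1 p.2.1 p.2.2 + collLoss F p.1 p.2.1 p.2.2)) :=
    ((measurable_pw k).comp measurable_snd.snd).mul (h.meas_gain.add h.meas_loss)
  have h1 := h.coll_weight k
  rw [lint_assoc hm] at h1
  exact ae_lt_top (meas_assoc hm) h1.ne

end Weak

/-- general duality identity for test functions with polynomial growth in `v` -/
theorem duality {T : ℝ} (hT : 0 ≤ T) (h : Good F0 T F 𝓜) {φ : ℝ → R3 → R3 → ℝ}
    (hφ : ContDiff ℝ 1 (fun p : ℝ × R3 × R3 => φ p.1 p.2.1 p.2.2))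
    (hp : ∀ t v, IsPeriodic3 (fun x => φ t x v)) (h0 : ∀ x v, φ T x v = 0) {C : ℝ} {k : ℕ}
    (hb : ∀ t ∈ Icc 0 T, ∀ x v, |φ t x v| ≤ C * (1 + ‖v‖) ^ k ∧
      |transportD φ t x v| ≤ C * (1 + ‖v‖) ^ k) :
    IntegrableOn (fun p : ℝ × R3 × R3 => F p.1 p.2.1 p.2.2 * transportD φ p.1 p.2.1 p.2.2)
      (Ioo 0 T ×ˢ (cell ×ˢ (univ : Set R3))) →
    IntegrableOn (fun q : R3 × R3 => F0 q.1 q.2 * φ 0 q.1 q.2) (cell ×ˢ (univ : Set R3)) →
    (∫ p in Ioo 0 T ×ˢ (cell ×ˢ (univ : Set R3)), (F p.1 p.2.1 p.2.2 * transportD φ p.1 p.2.1 p.2.2 +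
        Src F p.1 p.2.1 p.2.2 * φ p.1 p.2.1 p.2.2)) +
      ∫ q in cell ×ˢ (univ : Set R3), F0 q.1 q.2 * φ 0 q.1 q.2 = 0 := by
  intro h1 _
  have hc := Weak.tD_cont hφ
  have h2 := Weak.src_mul_int h hφ.continuous.measurable (fun t ht x v => (hb t ht x v).1)
  have h3 := Sharp.shear3_integral
    (G := fun t x v => F t x v * transportD φ t x v + Src F t x v * φ t x v) measurableSet_Ioo
    (fun t ht v x i => by
      have a1 := h.per t (Ioo_subset_Icc_self ht) v x i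
      have a2 := h.per_src t (Ioo_subset_Icc_self ht) v x i
      have a3 := hp t v x i
      have a4 := Weak.tD_per hp t v x i
      simp only at a1 a2 a3 a4 ⊢
      rw [a1, a2, a3, a4]) (h1.add h2)
  rw [h3]
  have h4 : (fun q : R3 × R3 => ∫ t in Ioo 0 T, (F t (q.1 + t • q.2) q.2 * transportD φ t (q.1 + t • q.2) q.2 +
      Src F t (q.1 + t • q.2) q.2 * φ t (q.1 + t • q.2) q.2)) =ᵐ[Sharp.muC]
      fun q => -(F0 q.1 q.2 * φ 0 q.1 q.2) := by
    filter_upwards [Sharp.sharp_ae h] with q hq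
    have := Weak.oneD (f0 := F0 q.1 q.2) hT hq.1 (Weak.tD_char hφ q.1 q.2)
      (hc.comp (f := fun s : ℝ => (s, q.1 + s • q.2, q.2)) (by fun_prop)) (h0 _ _)
    simp only [zero_smul, add_zero] at this
    rw [← this]
    refine integral_congr_ae ?_
    filter_upwards [hq.2] with t ht
    rw [ht]
  rw [integral_congr_ae h4, integral_neg]
  ring
theorem weak_of_good (h : ∀ T, 0 ≤ T → Good F0 T F 𝓜) : IsWeakSolution F F0 := by
  intro φ ⟨hφ, hp, T₁, R, h0⟩
  have hφ1 : ContDiff ℝ 1 (fun p : ℝ × R3 × R3 => φ p.1 p.2.1 p.2.2) := hφ.of_le (by exact_mod_cast le_top)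
  set T := max T₁ 0 + 1 with hTdef
  have hT : 0 ≤ T := by have := le_max_right T₁ 0; linarith
  have hT1 : T₁ < T := by have := le_max_left T₁ 0; linarith
  have hG := h T hT
  have hc := Weak.tD_cont hφ1
  obtain ⟨C1, hC1, b1⟩ := Weak.bdd_per hφ1.continuous hp T R
  obtain ⟨C2, hC2, b2⟩ := Weak.bdd_per hc (Weak.tD_per hp) T R
  have hb : ∀ t ∈ Icc 0 T, ∀ x v, |φ t x v| ≤ (C1 + C2) * (1 + ‖v‖) ^ 0 ∧
      |transportD φ t x v| ≤ (C1 + C2) * (1 + ‖v‖) ^ 0 := by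
    intro t ht x v
    rw [pow_zero, mul_one]
    by_cases hv : ‖v‖ ≤ R
    · exact ⟨by linarith [b1 t ht x v hv], by linarith [b2 t ht x v hv]⟩
    · have hz : ∀ s y, φ s y v = 0 := fun s y => h0 s y v (Or.inr (not_le.1 hv).le)
      rw [hz, Weak.tD_zero_vel hz, abs_zero]
      exact ⟨by linarith, by linarith⟩
  have z1 : ∀ p ∈ region \ (Ioo 0 T ×ˢ (cell ×ˢ (univ : Set R3))), transportD φ p.1 p.2.1 p.2.2 = 0 :=
    fun p hp => Weak.tD_zero_time (fun s x v hs => h0 s x v (Or.inl hs))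
      (hT1.trans_le (Weak.region_diff hp)) _ _
  have z2 : ∀ p ∈ region \ (Ioo 0 T ×ˢ (cell ×ˢ (univ : Set R3))), φ p.1 p.2.1 p.2.2 = 0 :=
    fun p hp => h0 _ _ _ (Or.inl (hT1.le.trans (Weak.region_diff hp)))
  have i1 : IntegrableOn (fun p : ℝ × R3 × R3 => F p.1 p.2.1 p.2.2 * transportD φ p.1 p.2.1 p.2.2)
      (Ioo 0 T ×ˢ (cell ×ˢ (univ : Set R3))) := by
    refine (Weak.F_int hG).mul_bdd (c := C1 + C2) hc.aestronglyMeasurable ?_
    filter_upwards [Weak.ae_fst_mem' measurableSet_Ioo] with p hp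
    simpa using (hb p.1 (Ioo_subset_Icc_self hp) p.2.1 p.2.2).2
  have i2 := Weak.src_mul_int hG hφ1.continuous.measurable (fun t ht x v => (hb t ht x v).1)
  have i3 : IntegrableOn (fun q : R3 × R3 => F0 q.1 q.2 * φ 0 q.1 q.2) (cell ×ˢ (univ : Set R3)) := by
    refine ((Weak.F0_int hT hG).norm.const_mul (C1 + C2)).mono'
      (hG.meas0.mul (hφ1.continuous.measurable.comp
        (f := fun q : R3 × R3 => ((0 : ℝ), q.1, q.2)) (by fun_prop))).aestronglyMeasurable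
      (ae_of_all _ fun q => ?_)
    have a1 := (hb 0 ⟨le_rfl, hT⟩ q.1 q.2).1
    rw [pow_zero, mul_one] at a1
    rw [Real.norm_eq_abs, Real.norm_eq_abs, abs_mul, abs_mul,
      abs_of_nonneg (by positivity : 0 ≤ (1 + ‖q.2‖) ^ 2)]
    have a2 := abs_nonneg (F0 q.1 q.2)
    have a3 : 1 ≤ (1 + ‖q.2‖) ^ 2 := one_le_pow₀ (by linarith [norm_nonneg q.2])
    calc _ ≤ |F0 q.1 q.2| * (C1 + C2) := by gcongr
      _ = (C1 + C2) * (1 * |F0 q.1 q.2|) := by ring
      _ ≤ _ := by gcongr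
  refine ⟨i1.of_forall_sdiff_eq_zero Weak.measurableSet_region fun p hp => by rw [z1 p hp, mul_zero],
    i2.of_forall_sdiff_eq_zero Weak.measurableSet_region fun p hp => by rw [z2 p hp, mul_zero], i3, ?_⟩
  rw [setIntegral_eq_of_subset_of_forall_sdiff_eq_zero Weak.measurableSet_region (Weak.sub_region T)
    fun p hp => by rw [z1 p hp, z2 p hp, mul_zero, mul_zero, add_zero]]
  exact duality hT hG hφ1 hp (fun x v => h0 _ _ _ (Or.inl hT1.le)) hb i1 i3
theorem coll_inv {T : ℝ} (h : Good F0 T F 𝓜) {ψ : R3 → ℝ}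
    (hψ : ψ = (fun _ => 1) ∨ (∃ i : Fin 3, ψ = fun v => v i) ∨ ψ = fun v => ‖v‖ ^ 2 / 2) :
    ∀ᵐ p ∂(volume.restrict (Ioo 0 T ×ˢ cell)), ∫ v, Src F p.1 p.2 v * ψ v = 0 := by
  filter_upwards [Weak.coll_ae h 2, ae_restrict_mem (measurableSet_Ioo.prod measurableSet_cell)] with z hz hz'
  have hf : Measurable (F z.1 z.2) := h.meas.comp (f := fun v : R3 => (z.1, z.2, v)) (by fun_prop)
  have := (CollSym.coll_sym hf (fun v => h.nonneg _ _ v hz'.1.1.le)
    (Weak.psi_smooth hψ).continuous.measurable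
    (lt_of_le_of_lt (lintegral_mono fun v => ?_) hz)).2
  · refine this.trans ?_
    rw [integral_eq_zero_of_ae, mul_zero]
    filter_upwards [CollSym.ae_unit] with p hp
    rw [Weak.psi_inv hψ hp, mul_zero]; rfl
  · refine mul_le_mul' ?_ le_rfl
    rw [← ofReal_norm_eq_enorm]
    exact ENNReal.ofReal_le_ofReal (Weak.psi_le hψ v)

end Crest.Agent.R68
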