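import Crest.Agent.R68.Basic1

/-! Weak sequential compactness of dominated sequences.  Let `ν` be a finite measure equivalent to `μ` (`μ.toFinite`/`exists_isFiniteMeasure_absolutelyContinuous`, or
`withDensity` of a positive integrable function), `u n = f n / g ∈ [-1,1]`; `L²(ν)` is separable (`Lp.SecondCountableTopology`), closed balls of its dual are weak-*
sequentially compact (`WeakDual.isSeqCompact_closedBall`), and Riesz (`InnerProductSpace.toDual`) gives `u`; `|u| ≤ 1` a.e. by testing with indicators; density of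
`L²` in `L¹(ν)` (truncation) extends the convergence to all test functions with `g φ` integrable. -/

set_option autoImplicit false

open MeasureTheory Set Filter Topology Crest.AnalysisR.VecCalc3 Crest.AnalysisR.PDE.Boltzmann
open scoped ENNReal NNReal

namespace Crest.Agent.R68

theorem wl_hilbert {H : Type} [NormedAddCommGroup H] [InnerProductSpace ℝ H] [CompleteSpace H]
    [TopologicalSpace.SeparableSpace H] (U : ℕ → H) {R : ℝ} (hU : ∀ n, ‖U n‖ ≤ R) :
    ∃ φ : ℕ → ℕ, StrictMono φ ∧ ∃ U0 : H, ∀ Y : H,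
      Tendsto (fun n => inner ℝ (U (φ n)) Y) atTop (𝓝 (inner ℝ U0 Y)) := by
  have hc := WeakDual.isSeqCompact_closedBall ℝ H 0 R
  obtain ⟨T0, -, φ, hφ, hT⟩ := hc (x := fun n => StrongDual.toWeakDual (InnerProductSpace.toDual ℝ H (U n)))
    (fun n => by simpa using hU n)
  refine ⟨φ, hφ, (InnerProductSpace.toDual ℝ H).symm (WeakDual.toStrongDual T0), fun Y => ?_⟩
  have h1 := ((WeakDual.eval_continuous Y).tendsto T0).comp hT
  rw [InnerProductSpace.toDual_symm_apply]
  exact h1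

theorem wl_fin {X : Type} [MeasurableSpace X] [MeasurableSpace.CountablyGenerated X] (ν : Measure X)
    [IsFiniteMeasure ν] {u : ℕ → X → ℝ} (hu : ∀ n, Measurable (u n)) (hb : ∀ n x, |u n x| ≤ 1) :
    ∃ φ : ℕ → ℕ, StrictMono φ ∧ ∃ u0 : X → ℝ, Measurable u0 ∧ (∀ᵐ x ∂ν, |u0 x| ≤ 1) ∧
      ∀ ψ : X → ℝ, Integrable ψ ν →
        Tendsto (fun n => ∫ x, u (φ n) x * ψ x ∂ν) atTop (𝓝 (∫ x, u0 x * ψ x ∂ν)) := by
  have hm : ∀ n, MemLp (u n) 2 ν := fun n =>
    MemLp.of_bound (hu n).aestronglyMeasurable 1 (ae_of_all _ (hb n))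
  have : Fact ((2 : ℝ≥0∞) ≠ ∞) := ⟨ENNReal.ofNat_ne_top⟩
  obtain ⟨φ, hφ, U0, hU⟩ := wl_hilbert (H := Lp ℝ 2 ν) (fun n => (hm n).toLp (u n))
    (fun n => Lp.norm_le_of_ae_bound (C := 1) zero_le_one (by
      filter_upwards [(hm n).coeFn_toLp] with x hx
      rw [hx]
      exact hb n x))
  have hU0m : Measurable U0 := (Lp.stronglyMeasurable U0).measurable
  have h2 : ∀ ψ : X → ℝ, MemLp ψ 2 ν →
      Tendsto (fun n => ∫ x, u (φ n) x * ψ x ∂ν) atTop (𝓝 (∫ x, U0 x * ψ x ∂ν)) := fun ψ hψ => by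
    have h := hU (hψ.toLp ψ)
    simp only [L2.inner_def] at h
    convert h using 2
    · refine integral_congr_ae ?_
      filter_upwards [(hm (φ _)).coeFn_toLp, hψ.coeFn_toLp] with x hx hx'
      rw [hx, hx']
      simp [mul_comm]
    · refine integral_congr_ae ?_
      filter_upwards [hψ.coeFn_toLp] with x hx'
      rw [hx']
      simp [mul_comm]
  have hint : ∀ n, Integrable (u n) ν := fun n => (hm n).integrable one_le_two
  have hU0i : Integrable U0 ν := (Lp.memLp U0).integrable one_le_two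
  have hset : ∀ s, MeasurableSet s →
      Tendsto (fun n => ∫ x in s, u (φ n) x ∂ν) atTop (𝓝 (∫ x in s, U0 x ∂ν)) := fun s hs => by
    have h := h2 (s.indicator fun _ => 1) ((memLp_const 1).indicator hs)
    simp only [← indicator_mul_right, mul_one, integral_indicator hs] at h
    exact h
  have hup : ∀ᵐ x ∂ν, U0 x ≤ 1 :=
    ae_le_of_forall_setIntegral_le hU0i (integrable_const (1 : ℝ)) fun s hs _ =>
      le_of_tendsto' (hset s hs) fun n => integral_mono (hint _).integrableOn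
        (integrable_const _) fun x => (abs_le.1 (hb _ x)).2
  have hlo : ∀ᵐ x ∂ν, -1 ≤ U0 x :=
    ae_le_of_forall_setIntegral_le (integrable_const (-1 : ℝ)) hU0i fun s hs _ =>
      ge_of_tendsto' (hset s hs) fun n => integral_mono (integrable_const _) (hint _).integrableOn
        fun x => (abs_le.1 (hb _ x)).1
  have hU0b : ∀ᵐ x ∂ν, |U0 x| ≤ 1 := by
    filter_upwards [hup, hlo] with x h1 h2 using abs_le.2 ⟨h2, h1⟩
  refine ⟨φ, hφ, U0, hU0m, hU0b, fun ψ hψ => ?_⟩
  have hgen : ∀ {w : X → ℝ}, Measurable w → (∀ᵐ x ∂ν, |w x| ≤ 1) → ∀ {χ : X → ℝ}, Integrable χ ν →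
      |∫ x, w x * ψ x ∂ν - ∫ x, w x * χ x ∂ν| ≤ ∫ x, |ψ x - χ x| ∂ν := fun {w} hw hwb {χ} hχ => by
    rw [← integral_sub (hψ.bdd_mul hw.aestronglyMeasurable hwb) (hχ.bdd_mul hw.aestronglyMeasurable hwb)]
    rw [← Real.norm_eq_abs]
    refine norm_integral_le_of_norm_le (hψ.sub hχ).abs ?_
    filter_upwards [hwb] with x hx
    rw [← mul_sub, Real.norm_eq_abs, abs_mul]
    exact mul_le_of_le_one_left (abs_nonneg _) hx
  rw [Metric.tendsto_atTop]
  intro ε hε
  obtain ⟨χ, hχ, hχm⟩ := (memLp_one_iff_integrable.2 hψ).exists_simpleFunc_eLpNorm_sub_lt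
    ENNReal.one_ne_top (ε := ENNReal.ofReal (ε / 3)) (by simpa using hε)
  have hχi : Integrable χ ν := memLp_one_iff_integrable.1 hχm
  have hχε : ∫ x, |ψ x - χ x| ∂ν ≤ ε / 3 := by
    rw [eLpNorm_one_eq_lintegral_enorm, ← ofReal_integral_norm_eq_lintegral_enorm (hψ.sub hχi),
      ENNReal.ofReal_lt_ofReal_iff (by positivity)] at hχ
    exact hχ.le
  obtain ⟨N, hN⟩ := Metric.tendsto_atTop.1 (h2 χ (χ.memLp_of_isFiniteMeasure 2 ν)) (ε / 3)
    (by positivity)
  refine ⟨N, fun n hn => ?_⟩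
  have e1 := abs_le.1 ((hgen (hu (φ n)) (ae_of_all _ (hb (φ n))) hχi).trans hχε)
  have e2 := abs_le.1 ((hgen hU0m hU0b hχi).trans hχε)
  have e3 := hN n hn
  rw [Real.dist_eq, abs_lt] at e3 ⊢
  constructor <;> linarith [e1.1, e1.2, e2.1, e2.2, e3.1, e3.2]

theorem weak_lim {X : Type} [MeasurableSpace X] [MeasurableSpace.CountablyGenerated X] (μ : Measure X)
    [SigmaFinite μ] {f : ℕ → X → ℝ} {g : X → ℝ} (hf : ∀ n, Measurable (f n)) (hg : Measurable g)
    (hle : ∀ n, ∀ᵐ x ∂μ, |f n x| ≤ g x) :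
    ∃ φ : ℕ → ℕ, StrictMono φ ∧ ∃ f0 : X → ℝ, Measurable f0 ∧ (∀ᵐ x ∂μ, |f0 x| ≤ g x) ∧
      ∀ ψ : X → ℝ, Measurable ψ → Integrable (fun x => g x * ψ x) μ →
        Tendsto (fun n => ∫ x, f (φ n) x * ψ x ∂μ) atTop (𝓝 (∫ x, f0 x * ψ x ∂μ)) := by
  obtain ⟨h, hpos, hm, hfin⟩ := exists_pos_lintegral_lt_of_sigmaFinite μ one_ne_zero
  set ν : Measure X := μ.withDensity fun x => (h x : ℝ≥0∞) with hν
  have : IsFiniteMeasure ν := isFiniteMeasure_withDensity (hfin.trans ENNReal.one_lt_top).ne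
  have hac : μ ≪ ν := withDensity_absolutelyContinuous' hm.coe_nnreal_ennreal.aemeasurable
    (ae_of_all _ fun x => by simpa using (hpos x).ne')
  set u : ℕ → X → ℝ := fun n x => max (-1) (min 1 (f n x / g x)) with hu
  have hum : ∀ n, Measurable (u n) := fun n =>
    measurable_const.max (measurable_const.min ((hf n).div hg))
  have hub : ∀ n x, |u n x| ≤ 1 := fun n x =>
    abs_le.2 ⟨le_max_left _ _, max_le (by norm_num) (min_le_left _ _)⟩
  have hug : ∀ n, ∀ᵐ x ∂μ, u n x * g x = f n x := fun n => by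
    filter_upwards [hle n] with x hx
    rcases ((abs_nonneg _).trans hx).eq_or_lt with h0 | h0
    · rw [← h0] at hx ⊢
      rw [mul_zero, abs_nonpos_iff.1 hx]
    · have h1 : f n x / g x ≤ 1 := by rw [div_le_one h0]; exact (abs_le.1 hx).2
      have h2 : -1 ≤ f n x / g x := by rw [le_div_iff₀ h0]; linarith [(abs_le.1 hx).1]
      simp only [hu]
      rw [min_eq_right h1, max_eq_right h2, div_mul_cancel₀ _ h0.ne']
  obtain ⟨φ, hφ, u0, hu0, hu0b, hlim⟩ := wl_fin ν hum hub
  refine ⟨φ, hφ, fun x => u0 x * g x, hu0.mul hg, ?_, fun ψ hψ hi => ?_⟩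
  · filter_upwards [hac.ae_le hu0b, hle 0] with x hx hx0
    have h0 : 0 ≤ g x := (abs_nonneg _).trans hx0
    rw [abs_mul, abs_of_nonneg h0]
    exact mul_le_of_le_one_left h0 hx
  · have hh : ∀ x, (h x : ℝ) ≠ 0 := fun x => by exact_mod_cast (hpos x).ne'
    have hi' : Integrable (fun x => g x * ψ x / h x) ν := by
      rw [hν, integrable_withDensity_iff_integrable_smul hm]
      refine hi.congr (ae_of_all _ fun x => ?_)
      simp only [NNReal.smul_def, smul_eq_mul]
      field_simp [hh x]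
    have h1 := hlim _ hi'
    simp only [hν, integral_withDensity_eq_integral_smul hm] at h1
    convert h1 using 2
    · refine integral_congr_ae ?_
      filter_upwards [hug (φ _)] with x hx
      rw [← hx]
      simp only [NNReal.smul_def, smul_eq_mul]
      field_simp [hh x]
    · refine integral_congr_ae (ae_of_all _ fun x => ?_)
      simp only [NNReal.smul_def, smul_eq_mul]
      field_simp [hh x]

end Crest.Agent.R68
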